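import Vale.Agent.P202.HSMult

/-! Module F1: Cohen-Macaulay lemma, quasi-regularity, colon properties. -/

namespace Vale.Agent.P202

open IsLocalRing RingTheory.Sequence
open scoped Pointwise

universe u v

namespace CMAux

section Depth

variable {Λ : Type u} [CommRing Λ] [IsLocalRing Λ] [IsNoetherianRing Λ]

omit [IsLocalRing Λ] [IsNoetherianRing Λ] in
theorem mk_eq_zero {M : Type v} [AddCommGroup M] [Module Λ M] (a : Λ) (y : M) :
    (Submodule.Quotient.mk y : QuotSMulTop a M) = 0 ↔ ∃ u : M, a • u = y := by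
  rw [Submodule.Quotient.mk_eq_zero, Submodule.mem_smul_pointwise_iff_exists]
  simp

theorem exists_regular {M : Type v} [AddCommGroup M] [Module Λ M] [Module.Finite Λ M]
    (h : ∀ y : M, (∀ a ∈ maximalIdeal Λ, a • y = 0) → y = 0) :
    ∃ x ∈ maximalIdeal Λ, IsSMulRegular M x := by
  by_contra hcon
  push Not at hcon
  have h1 : (maximalIdeal Λ : Set Λ) ⊆ ⋃ P ∈ associatedPrimes Λ M, ((id P : Ideal Λ) : Set Λ) := by
    intro x hx
    simp only [id]
    rw [biUnion_associatedPrimes_eq_zero_divisors]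
    by_contra h2
    refine hcon x hx (isSMulRegular_iff_right_eq_zero_of_smul.2 fun y hy => ?_)
    by_contra h3
    exact h2 ⟨y, h3, hy⟩
  obtain ⟨P, hP, hle⟩ := ((maximalIdeal Λ).subset_union_prime_finite
    (associatedPrimes.finite Λ M) (f := id) 0 0 fun _ h _ _ => h.isPrime).1 h1
  obtain ⟨hprime, y, rfl⟩ := isAssociatedPrime_iff.1 hP
  have hy : y = 0 := h y fun a ha => by simpa using hle ha
  refine hprime.ne_top ?_
  rw [hy, eq_top_iff]
  intro a _
  simp

omit [IsNoetherianRing Λ] in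
theorem socle_swap {M : Type v} [AddCommGroup M] [Module Λ M] {z w : Λ} (hz : IsSMulRegular M z)
    (hw : IsSMulRegular M w) (hwm : w ∈ maximalIdeal Λ)
    (h : ∀ y : QuotSMulTop w M, (∀ a ∈ maximalIdeal Λ, a • y = 0) → y = 0) :
    ∀ y : QuotSMulTop z M, (∀ a ∈ maximalIdeal Λ, a • y = 0) → y = 0 := by
  intro y hy
  obtain ⟨y, rfl⟩ := Submodule.Quotient.mk_surjective _ y
  have h1 : ∀ a ∈ maximalIdeal Λ, ∃ u : M, z • u = a • y := fun a ha =>
    (mk_eq_zero z _).1 (by rw [Submodule.Quotient.mk_smul]; exact hy a ha)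
  obtain ⟨y', hy'⟩ := h1 w hwm
  have h2 := h (Submodule.Quotient.mk y') fun a ha => by
    obtain ⟨u, hu⟩ := h1 a ha
    rw [← Submodule.Quotient.mk_smul, mk_eq_zero]
    refine ⟨u, hz ?_⟩
    simp only
    rw [smul_comm z w u, hu, smul_comm z a y', hy', smul_comm]
  obtain ⟨t, ht⟩ := (mk_eq_zero w _).1 h2
  rw [mk_eq_zero]
  refine ⟨t, hw ?_⟩
  simp only
  rw [smul_comm, ht, hy']

theorem swap {M : Type v} [AddCommGroup M] [Module Λ M] [Module.Finite Λ M] {a b : Λ} {l : List Λ}
    (h : IsWeaklyRegular M (a :: b :: l)) (hm : ∀ r ∈ a :: b :: l, r ∈ maximalIdeal Λ) :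
    IsWeaklyRegular M (b :: a :: l) :=
  IsLocalRing.isWeaklyRegular_of_perm_of_subset_maximalIdeal h (List.Perm.swap b a l) hm

/-- the exchange lemma -/
theorem exchange (D : ℕ) : ∀ (M : Type v) [AddCommGroup M] [Module Λ M] [Module.Finite Λ M]
    (w : List Λ) (z : Λ), w.length = D + 1 → IsWeaklyRegular M w → (∀ a ∈ w, a ∈ maximalIdeal Λ) →
    IsSMulRegular M z → z ∈ maximalIdeal Λ →
    ∃ w' : List Λ, w'.length = D ∧ IsWeaklyRegular M (z :: w') ∧ ∀ a ∈ w', a ∈ maximalIdeal Λ := by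
  induction D with
  | zero =>
    intro M _ _ _ w z _ _ _ hz _
    exact ⟨[], rfl, (isWeaklyRegular_singleton_iff M z).2 hz, by simp⟩
  | succ D ih =>
    intro M _ _ _ w z hlen hw hwm hz hzm
    obtain ⟨w₁, w₂, wr, rfl⟩ : ∃ w₁ w₂ wr, w = w₁ :: w₂ :: wr := by
      rcases w with _ | ⟨w₁, _ | ⟨w₂, wr⟩⟩
      · simp at hlen
      · simp at hlen
      · exact ⟨w₁, w₂, wr, rfl⟩
    obtain ⟨h1, h2⟩ := (isWeaklyRegular_cons_iff M _ _).1 hw
    have h3 := ((isWeaklyRegular_cons_iff _ _ _).1 h2).1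
    have hw₁ : w₁ ∈ maximalIdeal Λ := hwm _ (by simp)
    have hs1 : ∀ y : QuotSMulTop w₁ M, (∀ a ∈ maximalIdeal Λ, a • y = 0) → y = 0 :=
      fun y hy => h3.right_eq_zero_of_smul (hy w₂ (hwm _ (by simp)))
    have hs2 := socle_swap hz h1 hw₁ hs1
    obtain ⟨x, hxm, hx⟩ := exists_regular (Λ := Λ) (M := QuotSMulTop w₁ M × QuotSMulTop z M)
      fun y hy => Prod.ext (hs1 _ fun a ha => congrArg Prod.fst (hy a ha))
        (hs2 _ fun a ha => congrArg Prod.snd (hy a ha))
    have hx1 : IsSMulRegular (QuotSMulTop w₁ M) x :=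
      isSMulRegular_iff_right_eq_zero_of_smul.2 fun y hy =>
        congrArg Prod.fst (hx.right_eq_zero_of_smul (x := (y, 0)) (by simp [hy]))
    have hx2 : IsSMulRegular (QuotSMulTop z M) x :=
      isSMulRegular_iff_right_eq_zero_of_smul.2 fun y hy =>
        congrArg Prod.snd (hx.right_eq_zero_of_smul (x := (0, y)) (by simp [hy]))
    obtain ⟨w'', hl'', hr'', hm''⟩ := ih (QuotSMulTop w₁ M) (w₂ :: wr) x (by simpa using hlen) h2
      (fun a ha => hwm a (List.mem_cons_of_mem _ ha)) hx1 hxm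
    have h4 : IsWeaklyRegular M (x :: w₁ :: w'') :=
      swap (IsWeaklyRegular.cons h1 hr'') (by
        intro r hr
        simp only [List.mem_cons] at hr
        rcases hr with rfl | rfl | hr
        exacts [hw₁, hxm, hm'' r hr])
    have h5 : IsWeaklyRegular M [x, z] :=
      swap (IsWeaklyRegular.cons hz ((isWeaklyRegular_singleton_iff _ x).2 hx2)) (by
        intro r hr
        simp only [List.mem_cons, List.not_mem_nil, or_false] at hr
        rcases hr with rfl | rfl
        exacts [hzm, hxm])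
    obtain ⟨h6, h7⟩ := (isWeaklyRegular_cons_iff M _ _).1 h4
    obtain ⟨w₃, hl₃, hr₃, hm₃⟩ := ih (QuotSMulTop x M) (w₁ :: w'') z (by simp [hl'']) h7
      (by
        intro r hr
        rcases List.mem_cons.1 hr with rfl | hr
        exacts [hw₁, hm'' r hr])
      ((isWeaklyRegular_singleton_iff _ z).1 ((isWeaklyRegular_cons_iff M _ _).1 h5).2) hzm
    refine ⟨x :: w₃, by simp [hl₃], swap (IsWeaklyRegular.cons h6 hr₃) ?_, ?_⟩
    · intro r hr
      simp only [List.mem_cons] at hr
      rcases hr with rfl | rfl | hr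
      exacts [hxm, hzm, hm₃ r hr]
    · intro r hr
      rcases List.mem_cons.1 hr with rfl | hr
      exacts [hxm, hm₃ r hr]

/-- the depth is at most the dimension of an associated prime -/
theorem length_le_dim (w : List Λ) : ∀ (M : Type v) [AddCommGroup M] [Module Λ M]
    [Module.Finite Λ M], IsWeaklyRegular M w → (∀ a ∈ w, a ∈ maximalIdeal Λ) →
    ∀ P : Ideal Λ, IsAssociatedPrime P M → (w.length : WithBot ℕ∞) ≤ ringKrullDim (Λ ⧸ P) := by
  induction w with
  | nil =>
    intro M _ _ _ _ _ P hP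
    have := hP.isPrime
    simpa using ringKrullDim_nonneg_of_nontrivial (R := Λ ⧸ P)
  | cons a w ih =>
    intro M _ _ _ hw hwm P hP
    obtain ⟨h1, h2⟩ := (isWeaklyRegular_cons_iff M _ _).1 hw
    obtain ⟨hprime, y₀, hy₀⟩ := isAssociatedPrime_iff.1 hP
    have hy₀ne : y₀ ≠ 0 := by
      rintro rfl
      refine hprime.ne_top ?_
      rw [hy₀, eq_top_iff]
      intro a _
      simp
    have hPy : ∀ r, r ∈ P ↔ r • y₀ = 0 := fun r => by simp [hy₀]
    let N : Submodule Λ M := Submodule.torsionBySet Λ M P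
    have hN : ∀ y, y ∈ N ↔ ∀ r ∈ P, r • y = 0 := fun y => by
      simp [N, Submodule.mem_torsionBySet_iff]
    obtain ⟨y, hyN, hy⟩ : ∃ y ∈ N, (Submodule.Quotient.mk y : QuotSMulTop a M) ≠ 0 := by
      by_contra hcon
      push Not at hcon
      have h3 : N = ⊥ := by
        refine Submodule.eq_bot_of_le_smul_of_le_jacobson_bot (maximalIdeal Λ) N
          (IsNoetherian.noetherian N) (fun y hy => ?_) (maximalIdeal_le_jacobson _)
        obtain ⟨t, rfl⟩ := (mk_eq_zero a y).1 (hcon y hy)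
        refine Submodule.smul_mem_smul (hwm a (by simp)) ((hN t).2 fun r hr => ?_)
        refine h1.right_eq_zero_of_smul ?_
        rw [smul_comm]
        exact (hN _).1 hy r hr
      have h4 : y₀ ∈ N := (hN _).2 fun r hr => (hPy r).1 hr
      rw [h3] at h4
      exact hy₀ne h4
    obtain ⟨Q, hQ, hle⟩ := exists_le_isAssociatedPrime_of_isNoetherianRing Λ _ hy
    have hPQ : P < Q := by
      refine lt_of_le_of_ne (fun r hr => hle ?_) fun h => ?_
      · rw [Submodule.mem_colon_singleton, ← Submodule.Quotient.mk_smul, (hN y).1 hyN r hr]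
        simp
      · have h5 : a ∈ Q := hle (by
          rw [Submodule.mem_colon_singleton, ← Submodule.Quotient.mk_smul, Submodule.mem_bot,
            mk_eq_zero]
          exact ⟨y, rfl⟩)
        rw [← h, hPy] at h5
        exact hy₀ne (h1.right_eq_zero_of_smul h5)
    have h6 := ih (QuotSMulTop a M) h2 (fun r hr => hwm r (List.mem_cons_of_mem _ hr)) Q hQ
    refine le_trans ?_ (afDim_succ_le hPQ)
    rw [List.length_cons, Nat.cast_succ]
    exact add_le_add_left h6 1

omit [IsNoetherianRing Λ] in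
theorem isSop_tail {M : Type v} [AddCommGroup M] [Module Λ M] {a : Λ} {l : List Λ}
    (h : IsSop M (a :: l)) {M' : Type*} [AddCommGroup M'] [Module Λ M'] (ha : ∀ y : M', a • y = 0)
    (hM : ∀ r : Λ, (∀ x : M, r • x = 0) → ∀ y : M', r • y = 0) : IsSop M' l := by
  obtain ⟨h1, N, hN⟩ := h
  refine ⟨fun r hr => h1 r (List.mem_cons_of_mem _ hr), N, fun r hr => ?_⟩
  obtain ⟨b, hb, hb'⟩ := hN r hr
  rw [Ideal.ofList_cons] at hb
  obtain ⟨c, hc, e, he, rfl⟩ := Submodule.mem_sup.1 hb
  obtain ⟨t, rfl⟩ := Ideal.mem_span_singleton'.1 hc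
  refine ⟨e, he, fun y _ => ?_⟩
  have h2 := hM _ (fun x => hb' x trivial) y
  rw [Submodule.mem_bot, show r - e = r - (t * a + e) + t * a by ring, add_smul, h2, mul_smul, ha,
    smul_zero, add_zero]

theorem cm (z : List Λ) : ∀ (M : Type v) [AddCommGroup M] [Module Λ M] [Module.Finite Λ M]
    (w : List Λ), IsWeaklyRegular M w → (∀ a ∈ w, a ∈ maximalIdeal Λ) → IsSop M z →
    z.length ≤ w.length → IsWeaklyRegular M z := by
  induction z with
  | nil => intro M _ _ _ _ _ _ _ _; exact IsWeaklyRegular.nil Λ M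
  | cons a l ih =>
    intro M _ _ _ w hw hwm hz hlen
    have ha : IsSMulRegular M a := by
      refine isSMulRegular_iff_right_eq_zero_of_smul.2 fun y hy => ?_
      by_contra hne
      obtain ⟨P, hP, hle⟩ := exists_le_isAssociatedPrime_of_isNoetherianRing Λ y hne
      have haP : a ∈ P := hle (by simpa using hy)
      have h1 := length_le_dim w M hw hwm P hP
      have h2 : IsSop (Λ ⧸ P) l := by
        refine isSop_tail hz (fun t => ?_) fun r hr t => ?_
        · obtain ⟨t, rfl⟩ := Ideal.Quotient.mk_surjective t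
          exact Ideal.Quotient.eq_zero_iff_mem.2 (P.mul_mem_right t haP)
        · obtain ⟨t, rfl⟩ := Ideal.Quotient.mk_surjective t
          exact Ideal.Quotient.eq_zero_iff_mem.2 (P.mul_mem_right t (hle (by simpa using hr y)))
      have h3 := h1.trans (dim_le_of_isSop h2)
      rw [List.length_cons] at hlen
      have h4 : w.length ≤ l.length := by exact_mod_cast h3
      omega
    obtain ⟨D, hD⟩ : ∃ D, w.length = D + 1 := ⟨w.length - 1, by simp at hlen; omega⟩
    obtain ⟨w', hl', hr', hm'⟩ := exchange D M w a hD hw hwm ha (hz.1 a (by simp))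
    refine IsWeaklyRegular.cons ha (ih (QuotSMulTop a M) w'
      ((isWeaklyRegular_cons_iff M _ _).1 hr').2 hm' ?_ (by simp at hlen; omega))
    refine isSop_tail hz (fun t => ?_) fun r hr t => ?_
    · obtain ⟨t, rfl⟩ := Submodule.Quotient.mk_surjective _ t
      rw [← Submodule.Quotient.mk_smul, mk_eq_zero]
      exact ⟨t, rfl⟩
    · obtain ⟨t, rfl⟩ := Submodule.Quotient.mk_surjective _ t
      rw [← Submodule.Quotient.mk_smul, hr t, Submodule.Quotient.mk_zero]

end Depth

/-- regular sequences of a ring, elementwise -/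
theorem weaklyRegular_iff {R : Type*} [CommRing R] (rs : List R) : IsWeaklyRegular R rs ↔
    ∀ (l₁ : List R) (a : R) (l₂ : List R), rs = l₁ ++ a :: l₂ →
      ∀ y, a * y ∈ Ideal.ofList l₁ → y ∈ Ideal.ofList l₁ := by
  have key : ∀ (l : List R) (a : R),
      IsSMulRegular (R ⧸ (Ideal.ofList l • ⊤ : Submodule R R)) a ↔
        ∀ y, a * y ∈ Ideal.ofList l → y ∈ Ideal.ofList l := by
    intro l a
    rw [isSMulRegular_quotient_iff_mem_of_smul_mem]
    simp
  constructor
  · rintro h l₁ a l₂ rfl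
    rw [isWeaklyRegular_append_iff, isWeaklyRegular_cons_iff] at h
    exact (key l₁ a).1 h.2.1
  · intro h
    refine ⟨fun i hi => (key _ _).2 (h _ _ (rs.drop (i + 1)) ?_)⟩
    rw [List.getElem_cons_drop, List.take_append_drop]

section Forms

open MvPolynomial

variable {T : Type*} [CommRing T] {d : ℕ}

/-- forms of degree `a` in the variables of `U` with coefficients in `J` -/
def HU (J : Ideal T) (U : Finset (Fin d)) (a : ℕ) : Submodule T (MvPolynomial (Fin d) T) where
  carrier := {f | ∀ m, f.coeff m ∈ J ∧ (f.coeff m ≠ 0 → m.degree = a ∧ ∀ i, m i ≠ 0 → i ∈ U)}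
  add_mem' := by
    intro f g hf hg m
    rw [coeff_add]
    refine ⟨J.add_mem (hf m).1 (hg m).1, fun h => ?_⟩
    by_cases h1 : f.coeff m = 0
    · exact (hg m).2 (by simpa [h1] using h)
    · exact (hf m).2 h1
  zero_mem' := fun m => by simp
  smul_mem' := by
    intro c f hf m
    rw [coeff_smul, smul_eq_mul]
    exact ⟨J.mul_mem_left c (hf m).1, fun h => (hf m).2 (right_ne_zero_of_mul h)⟩

theorem mem_HU {J : Ideal T} {U : Finset (Fin d)} {a : ℕ} {f : MvPolynomial (Fin d) T} :
    f ∈ HU J U a ↔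
      ∀ m, f.coeff m ∈ J ∧ (f.coeff m ≠ 0 → m.degree = a ∧ ∀ i, m i ≠ 0 → i ∈ U) := Iff.rfl

theorem HU_top {J : Ideal T} {U : Finset (Fin d)} {a : ℕ} {f : MvPolynomial (Fin d) T}
    (h : f ∈ HU J U a) : f ∈ HU ⊤ U a := fun m => ⟨trivial, (h m).2⟩

theorem eval_mem (ξ : Fin d → T) {J : Ideal T} {U : Finset (Fin d)} {a : ℕ}
    {f : MvPolynomial (Fin d) T} (h : f ∈ HU J U a) :
    eval ξ f ∈ J * Ideal.span (ξ '' (U : Set (Fin d))) ^ a := by
  rw [eval_eq]
  refine Ideal.sum_mem _ fun m hm => Ideal.mul_mem_mul (h m).1 ?_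
  obtain ⟨h1, h2⟩ := (h m).2 (mem_support_iff.1 hm)
  rw [← h1, Finsupp.degree_apply, ← Finset.prod_pow_eq_pow_sum]
  refine Ideal.prod_mem_prod fun i hi => Ideal.pow_mem_pow (Ideal.subset_span ?_) _
  exact ⟨i, h2 i (Finsupp.mem_support_iff.1 hi), rfl⟩

theorem X_mul_mem {J : Ideal T} {U : Finset (Fin d)} {a : ℕ} {f : MvPolynomial (Fin d) T}
    (h : f ∈ HU J U a) {i : Fin d} (hi : i ∈ U) : X i * f ∈ HU J U (a + 1) := by
  intro m
  rw [coeff_X_mul']
  split_ifs with hm
  · refine ⟨(h _).1, fun h1 => ?_⟩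
    obtain ⟨h2, h3⟩ := (h _).2 h1
    have h4 : m = (m - Finsupp.single i 1) + Finsupp.single i 1 := by
      rw [tsub_add_cancel_of_le]
      exact Finsupp.single_le_iff.2 (Nat.pos_of_ne_zero (Finsupp.mem_support_iff.1 hm))
    refine ⟨by rw [h4, map_add, h2, Finsupp.degree_single], fun k hk => ?_⟩
    by_cases hki : k = i
    · exact hki ▸ hi
    · exact h3 k (by simpa [Finsupp.single_apply, Ne.symm hki] using hk)
  · simp

theorem exists_eval (ξ : Fin d → T) (J : Ideal T) (U : Finset (Fin d)) (a : ℕ) {y : T}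
    (hy : y ∈ J * Ideal.span (ξ '' (U : Set (Fin d))) ^ a) : ∃ f ∈ HU J U a, eval ξ f = y := by
  have key : J * Ideal.span (ξ '' (U : Set (Fin d))) ^ a ≤
      (HU J U a).map (aeval ξ : MvPolynomial (Fin d) T →ₐ[T] T).toLinearMap := by
    clear hy
    induction a with
    | zero =>
      intro y hy
      rw [pow_zero, mul_one] at hy
      refine ⟨C y, fun m => ?_, by simp⟩
      rw [coeff_C]
      split_ifs with hm
      · subst hm
        simp [hy]
      · simp
    | succ a ih =>
      rw [pow_succ, ← mul_assoc, Ideal.mul_le]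
      intro r hr s hs
      obtain ⟨f, hf, rfl⟩ := ih hr
      induction hs using Submodule.span_induction with
      | mem x hx =>
        obtain ⟨i, hi, rfl⟩ := hx
        exact ⟨X i * f, X_mul_mem hf hi, by simp [mul_comm]⟩
      | zero => simp
      | add x y _ _ h1 h2 => rw [mul_add]; exact Submodule.add_mem _ h1 h2
      | smul c x _ h1 => rw [mul_smul_comm]; exact Submodule.smul_mem _ c h1
  obtain ⟨f, hf, rfl⟩ := key hy
  exact ⟨f, hf, by simp⟩

theorem colon_pow {ξ : Fin d → T} {U : Finset (Fin d)}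
    (hQ : ∀ a, ∀ f ∈ HU ⊤ U a, eval ξ f ∈ Ideal.span (ξ '' (U : Set (Fin d))) ^ (a + 1) →
      ∀ m, f.coeff m ∈ Ideal.span (ξ '' (U : Set (Fin d)))) {x : T}
    (hx : ∀ w, x * w ∈ Ideal.span (ξ '' (U : Set (Fin d))) →
      w ∈ Ideal.span (ξ '' (U : Set (Fin d)))) (a : ℕ) :
    ∀ y, x * y ∈ Ideal.span (ξ '' (U : Set (Fin d))) ^ a →
      y ∈ Ideal.span (ξ '' (U : Set (Fin d))) ^ a := by
  induction a with
  | zero => simp
  | succ a ih =>
    intro y hy
    obtain ⟨f, hf, rfl⟩ := exists_eval ξ ⊤ U a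
      (by rw [Ideal.top_mul]; exact ih y (Ideal.pow_le_pow_right (Nat.le_succ a) hy))
    have h1 := hQ a (x • f) (Submodule.smul_mem _ x hf) (by rwa [smul_eval])
    rw [pow_succ']
    exact eval_mem ξ fun m => ⟨hx _ (by simpa using h1 m), (hf m).2⟩

theorem quasi {ξ : Fin d → T} (h : ∀ (U : Finset (Fin d)) (j : Fin d), j ∉ U → ∀ w : T,
      ξ j * w ∈ Ideal.span (ξ '' (U : Set (Fin d))) → w ∈ Ideal.span (ξ '' (U : Set (Fin d))))
    (U : Finset (Fin d)) :
    ∀ a, ∀ f ∈ HU ⊤ U a, eval ξ f ∈ Ideal.span (ξ '' (U : Set (Fin d))) ^ (a + 1) →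
      ∀ m, f.coeff m ∈ Ideal.span (ξ '' (U : Set (Fin d))) := by
  have base : ∀ (U : Finset (Fin d)), ∀ f ∈ HU ⊤ U 0,
      eval ξ f ∈ Ideal.span (ξ '' (U : Set (Fin d))) ^ (0 + 1) →
      ∀ m, f.coeff m ∈ Ideal.span (ξ '' (U : Set (Fin d))) := by
    intro U f hf hev m
    have h1 : f = C (f.coeff 0) := by
      ext m'
      rw [coeff_C]
      split_ifs with hm
      · rw [hm]
      · by_contra h2
        exact hm ((Finsupp.degree_eq_zero_iff m').1 ((hf m').2 h2).1).symm
    rw [h1, eval_C, zero_add, pow_one] at hev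
    rw [h1, coeff_C]
    split_ifs
    · exact hev
    · exact Ideal.zero_mem _
  induction U using Finset.induction_on with
  | empty =>
    intro a f hf hev m
    rcases a with _ | a
    · exact base ∅ f hf hev m
    · by_contra h1
      have h2 : f.coeff m ≠ 0 := fun h3 => h1 (h3 ▸ Ideal.zero_mem _)
      obtain ⟨h3, h4⟩ := (hf m).2 h2
      have h5 : m = 0 := by
        ext i
        by_contra h6
        simpa using h4 i h6
      simp [h5] at h3
  | insert j U hj ihU =>
    have hcol := colon_pow ihU (h U j hj)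
    have hle : Ideal.span (ξ '' (U : Set (Fin d))) ≤
        Ideal.span (ξ '' ((insert j U : Finset (Fin d)) : Set (Fin d))) :=
      Ideal.span_mono (Set.image_mono (by simp))
    have hjm : ξ j ∈ Ideal.span (ξ '' ((insert j U : Finset (Fin d)) : Set (Fin d))) :=
      Ideal.subset_span ⟨j, by simp, rfl⟩
    intro a
    induction a with
    | zero => exact base _
    | succ a iha =>
      intro f hf hev
      obtain ⟨G, hG, hGe⟩ := exists_eval ξ _ (insert j U) (a + 1) (by rwa [← pow_succ'])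
      have hF : f - G ∈ HU ⊤ (insert j U) (a + 1) := Submodule.sub_mem _ hf (HU_top hG)
      have hF0 : eval ξ (f - G) = 0 := by rw [map_sub, hGe, sub_self]
      suffices hs : ∀ m, (f - G).coeff m ∈
          Ideal.span (ξ '' ((insert j U : Finset (Fin d)) : Set (Fin d))) by
        intro m
        have := Ideal.add_mem _ (hs m) (hG m).1
        rwa [coeff_sub, sub_add_cancel] at this
      generalize f - G = F at hF hF0
      have hdec := divMonomial_add_modMonomial_single F j
      have hH : F.divMonomial (Finsupp.single j 1) ∈ HU ⊤ (insert j U) a := by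
        intro m
        refine ⟨trivial, fun h1 => ?_⟩
        rw [coeff_divMonomial] at h1
        obtain ⟨h2, h3⟩ := (hF _).2 h1
        rw [map_add, Finsupp.degree_single] at h2
        refine ⟨by omega, fun i hi => h3 i ?_⟩
        rw [Finsupp.add_apply]
        omega
      have hG0 : F.modMonomial (Finsupp.single j 1) ∈ HU ⊤ U (a + 1) := by
        intro m
        refine ⟨trivial, fun h1 => ?_⟩
        by_cases hm : Finsupp.single j 1 ≤ m
        · exact absurd (coeff_modMonomial_of_le _ hm) h1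
        · rw [coeff_modMonomial_of_not_le _ hm] at h1
          obtain ⟨h2, h3⟩ := (hF _).2 h1
          refine ⟨h2, fun i hi => (Finset.mem_insert.1 (h3 i hi)).resolve_left ?_⟩
          rintro rfl
          exact hm (Finsupp.single_le_iff.2 (Nat.pos_of_ne_zero hi))
      have hev0 : ξ j * eval ξ (F.divMonomial (Finsupp.single j 1)) +
          eval ξ (F.modMonomial (Finsupp.single j 1)) = 0 := by
        rw [← hF0]
        conv_rhs => rw [← hdec]
        simp
      have h1 : eval ξ (F.divMonomial (Finsupp.single j 1)) ∈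
          Ideal.span (ξ '' (U : Set (Fin d))) ^ (a + 1) := by
        refine hcol _ _ ?_
        rw [eq_neg_of_add_eq_zero_left hev0]
        have := eval_mem ξ hG0
        rw [Ideal.top_mul] at this
        exact neg_mem this
      have h2 := iha _ hH (Ideal.pow_right_mono hle _ h1)
      obtain ⟨g, hg, hge⟩ := exists_eval ξ ⊤ U (a + 1) (by rwa [Ideal.top_mul])
      have h3 := ihU (a + 1) (ξ j • g + F.modMonomial (Finsupp.single j 1))
        (Submodule.add_mem _ (Submodule.smul_mem _ _ hg) hG0)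
        (by rw [map_add, smul_eval, hge, hev0]; exact Ideal.zero_mem _)
      intro m
      rw [← hdec, coeff_add, coeff_X_mul']
      refine Ideal.add_mem _ ?_ ?_
      · split_ifs
        · exact h2 _
        · exact Ideal.zero_mem _
      · have h4 := hle (h3 m)
        rw [coeff_add, coeff_smul, smul_eq_mul] at h4
        exact (Ideal.add_mem_iff_right _ (Ideal.mul_mem_right _ _ hjm)).1 h4

theorem homog_iff {a : ℕ} {f : MvPolynomial (Fin d) T} :
    f ∈ homog T d a ↔ f ∈ HU ⊤ Finset.univ a := by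
  simp [mem_homog, mem_HU]

theorem homogIn_iff {J : Ideal T} {a : ℕ} {f : MvPolynomial (Fin d) T} :
    f ∈ homogIn d J a ↔ f ∈ HU J Finset.univ a := by
  rw [mem_homogIn, homog_iff]
  exact ⟨fun h m => ⟨h.2 m, (h.1 m).2⟩, fun h => ⟨HU_top h, fun m => (h m).1⟩⟩

theorem mccoy {R : Type*} [CommRing R] (d : ℕ) : ∀ (F : MvPolynomial (Fin d) R) (m : Fin d →₀ ℕ),
    F.coeff m ∈ nonZeroDivisors R → F ∈ nonZeroDivisors (MvPolynomial (Fin d) R) := by
  induction d with
  | zero =>
    intro F m hm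
    rw [Subsingleton.elim m 0] at hm
    rw [mem_nonZeroDivisors_iff_right]
    intro G hG
    rw [eq_C_of_isEmpty F, eq_C_of_isEmpty G, ← C_mul, C_eq_zero] at hG
    rw [eq_C_of_isEmpty G, (mem_nonZeroDivisors_iff_right.1 hm) _ hG, C_0]
  | succ d ih =>
    intro F m hm
    have h1 : (finSuccEquiv R d F).coeff (m 0) ∈ nonZeroDivisors (MvPolynomial (Fin d) R) :=
      ih _ m.tail (by rwa [finSuccEquiv_coeff_coeff, Finsupp.cons_tail])
    have h2 := Polynomial.mem_nonzeroDivisors_of_coeff_mem _ h1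
    rw [mem_nonZeroDivisors_iff_right] at h2 ⊢
    intro G hG
    apply (finSuccEquiv R d).injective
    rw [map_zero]
    exact h2 _ (by rw [← map_mul, hG, map_zero])

end Forms

section PS

open MvPowerSeries

variable {V : Type u} [CommRing V] {σ : Type}

theorem mem_ofList_C (w : List V) (p : MvPowerSeries σ V)
    (h : ∀ m, coeff m p ∈ Ideal.ofList w) : p ∈ Ideal.ofList (w.map (C (σ := σ))) := by
  induction w generalizing p with
  | nil =>
    have : p = 0 := by
      ext m
      simpa using h m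
    simp [this]
  | cons a w ih =>
    have h1 : ∀ m, ∃ c : V, coeff m p - a * c ∈ Ideal.ofList w := by
      intro m
      have h2 := h m
      rw [Ideal.ofList_cons] at h2
      obtain ⟨c, hc, e, he, h3⟩ := Submodule.mem_sup.1 h2
      obtain ⟨t, rfl⟩ := Ideal.mem_span_singleton'.1 hc
      exact ⟨t, by rw [← h3]; simpa [mul_comm] using he⟩
    choose c hc using h1
    obtain ⟨c', hc'⟩ : ∃ c' : MvPowerSeries σ V, ∀ m, coeff m c' = c m := ⟨c, fun _ => rfl⟩
    have h2 := ih (p - C a * c') fun m => by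
      rw [map_sub, coeff_C_mul, hc']
      exact hc m
    rw [List.map_cons, Ideal.ofList_cons, ← add_sub_cancel (C a * c') p]
    exact Submodule.add_mem_sup (Ideal.mul_mem_right _ _ (Ideal.mem_span_singleton_self _)) h2

theorem mem_ofList_iff (l : List σ) (w : List V) (p : MvPowerSeries σ V) :
    p ∈ Ideal.ofList (l.map X ++ w.map (C (σ := σ))) ↔
      ∀ m : σ →₀ ℕ, (∀ i ∈ l, m i = 0) → coeff m p ∈ Ideal.ofList w := by
  classical
  constructor
  · intro hp
    induction hp using Submodule.span_induction with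
    | mem x hx =>
      intro m hm
      simp only [List.mem_append, List.mem_map, Set.mem_ofPred_eq] at hx
      rcases hx with ⟨i, hi, rfl⟩ | ⟨a, ha, rfl⟩
      · rw [coeff_X, if_neg]
        · exact Ideal.zero_mem _
        · rintro rfl
          simpa using hm i hi
      · rw [coeff_C]
        split_ifs
        · exact Ideal.subset_span ha
        · exact Ideal.zero_mem _
    | zero => simp
    | add x y _ _ h1 h2 =>
      intro m hm
      rw [map_add]
      exact Ideal.add_mem _ (h1 m hm) (h2 m hm)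
    | smul c x _ h1 =>
      intro m hm
      rw [smul_eq_mul, coeff_mul]
      refine Ideal.sum_mem _ fun e he => Ideal.mul_mem_left _ _ (h1 _ fun i hi => ?_)
      have h2 := hm i hi
      rw [← Finset.HasAntidiagonal.mem_antidiagonal.1 he, Finsupp.add_apply] at h2
      omega
  · intro h
    induction l generalizing p with
    | nil => simpa using mem_ofList_C w p fun m => h m (by simp)
    | cons i l ih =>
      let p₀ : MvPowerSeries σ V := fun m => if m i = 0 then coeff m p else 0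
      have hp₀ : ∀ m, coeff m p₀ = if m i = 0 then coeff m p else 0 := fun m => rfl
      have h1 := ih p₀ fun m hm => by
        rw [hp₀]
        split_ifs with h2
        · exact h m (by simpa [h2] using hm)
        · exact Ideal.zero_mem _
      have h2 : (X i : MvPowerSeries σ V) ∣ p - p₀ := X_dvd_iff.2 fun m hm => by
        rw [map_sub, hp₀, if_pos hm, sub_self]
      rw [List.map_cons, List.cons_append, Ideal.ofList_cons, ← sub_add_cancel p p₀]
      exact Submodule.add_mem_sup (Ideal.mem_span_singleton.2 h2) h1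

end PS

theorem growth (n : ℕ) (K : ℝ) : ∃ N : ℕ, K * ((N : ℝ) + 1) ^ n < ((N + n).choose (n + 1) : ℕ) := by
  obtain ⟨N, hN⟩ := exists_nat_gt (|K| * 2 ^ n * ((n + 1).factorial : ℝ) + 1)
  have hf : (0 : ℝ) < ((n + 1).factorial : ℝ) := by exact_mod_cast Nat.factorial_pos _
  have h0 : (1 : ℝ) ≤ N := by
    have : 0 ≤ |K| * 2 ^ n * ((n + 1).factorial : ℝ) := by positivity
    linarith
  have h1 := Nat.pow_le_choose (α := ℝ) (n + 1) (N + n)
  rw [show N + n + 1 - (n + 1) = N by omega] at h1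
  refine ⟨N, lt_of_lt_of_le ?_ h1⟩
  rw [lt_div_iff₀ hf, pow_succ]
  have h2 : ((N : ℝ) + 1) ^ n ≤ 2 ^ n * (N : ℝ) ^ n := by
    rw [← mul_pow]
    exact pow_le_pow_left₀ (by linarith) (by linarith) n
  have h3 : (0 : ℝ) < (N : ℝ) ^ n := by positivity
  calc K * ((N : ℝ) + 1) ^ n * ((n + 1).factorial : ℝ)
      ≤ |K| * (2 ^ n * (N : ℝ) ^ n) * ((n + 1).factorial : ℝ) := by
        refine mul_le_mul_of_nonneg_right ?_ hf.le
        exact mul_le_mul (le_abs_self K) h2 (by positivity) (abs_nonneg K)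
    _ = (N : ℝ) ^ n * (|K| * 2 ^ n * ((n + 1).factorial : ℝ)) := by ring
    _ < (N : ℝ) ^ n * N := mul_lt_mul_of_pos_left (by linarith) h3

end CMAux

open CMAux

/-- (CM) if a module has a regular sequence at least as long as a multiplicity system, the latter
is regular. -/
theorem isWeaklyRegular_of_isSop {Λ : Type u} [CommRing Λ] [IsLocalRing Λ] [IsNoetherianRing Λ]
    {M : Type v} [AddCommGroup M] [Module Λ M] [Module.Finite Λ M] {w z : List Λ}
    (hw : IsWeaklyRegular M w) (hwm : ∀ a ∈ w, a ∈ maximalIdeal Λ) (hz : IsSop M z)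
    (hlen : z.length ≤ w.length) : IsWeaklyRegular M z :=
  cm z M w hw hwm hz hlen

/-- The family `b` is a weakly regular sequence in every order. -/
def RegAny {T : Type*} [CommRing T] {J : Type*} (b : J → T) : Prop :=
  ∀ (U : Finset J) (j : J), j ∉ U → ∀ w : T,
    b j * w ∈ Ideal.span (b '' (U : Set J)) → w ∈ Ideal.span (b '' (U : Set J))

theorem regAny_of_isWeaklyRegular {Λ : Type u} [CommRing Λ] [IsLocalRing Λ] [IsNoetherianRing Λ]
    {d : ℕ} {z : Fin d → Λ} (h : IsWeaklyRegular Λ (List.ofFn z))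
    (hm : ∀ j, z j ∈ maximalIdeal Λ) : RegAny z := by
  classical
  intro U j hj w hw
  have hnd : (U.toList ++ j :: ((insert j U)ᶜ).toList).Nodup := by
    rw [List.nodup_append]
    refine ⟨U.nodup_toList, List.nodup_cons.2 ⟨by simp, Finset.nodup_toList _⟩, ?_⟩
    intro a ha b hb hab
    subst hab
    rw [Finset.mem_toList] at ha
    rcases List.mem_cons.1 hb with rfl | hb
    · exact hj ha
    · simp [ha] at hb
  have hperm : (List.finRange d).Perm (U.toList ++ j :: ((insert j U)ᶜ).toList) := by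
    rw [List.perm_ext_iff_of_nodup (List.nodup_finRange d) hnd]
    intro a
    by_cases h1 : a ∈ U <;> by_cases h2 : a = j <;> simp [h1, h2]
  rw [List.ofFn_eq_map] at h
  have h1 := IsLocalRing.isWeaklyRegular_of_perm_of_subset_maximalIdeal h (hperm.map z) (by
    intro r hr
    obtain ⟨i, -, rfl⟩ := List.mem_map.1 hr
    exact hm i)
  have h2 : Ideal.ofList (U.toList.map z) = Ideal.span (z '' (U : Set (Fin d))) := by
    unfold Ideal.ofList
    congr 1
    ext x
    simp
  rw [← h2] at hw ⊢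
  exact (weaklyRegular_iff _).1 h1 _ _ _ (by rw [List.map_append, List.map_cons]) w hw

/-- The associated graded ring of `(ξ)` is a polynomial ring. -/
def QuasiReg {T : Type*} [CommRing T] {d : ℕ} (ξ : Fin d → T) : Prop :=
  ∀ (a : ℕ), ∀ f ∈ homog T d a, MvPolynomial.eval ξ f ∈ Ideal.span (Set.range ξ) ^ (a + 1) →
    f ∈ homogIn d (Ideal.span (Set.range ξ)) a

theorem RegAny.quasiReg {T : Type*} [CommRing T] {d : ℕ} {ξ : Fin d → T} (h : RegAny ξ) :
    QuasiReg ξ := by
  intro a f hf hev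
  have h1 := quasi h Finset.univ a f (homog_iff.1 hf)
  rw [Finset.coe_univ, Set.image_univ] at h1
  exact mem_homogIn.2 ⟨hf, h1 hev⟩

theorem exists_homog_eval_eq {T : Type*} [CommRing T] {d : ℕ} (ξ : Fin d → T) (a : ℕ) {y : T}
    (hy : y ∈ Ideal.span (Set.range ξ) ^ a) :
    ∃ f ∈ homog T d a, MvPolynomial.eval ξ f = y := by
  obtain ⟨f, hf, h⟩ := exists_eval ξ ⊤ Finset.univ a
    (by rwa [Finset.coe_univ, Set.image_univ, Ideal.top_mul])
  exact ⟨f, homog_iff.2 hf, h⟩

theorem eval_mem_pow_of_homog {T : Type*} [CommRing T] {d : ℕ} (ξ : Fin d → T) {a : ℕ}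
    {f : MvPolynomial (Fin d) T} (hf : f ∈ homog T d a) :
    MvPolynomial.eval ξ f ∈ Ideal.span (Set.range ξ) ^ a := by
  have h := eval_mem ξ (homog_iff.1 hf)
  rwa [Finset.coe_univ, Set.image_univ, Ideal.top_mul] at h

/-- (McCoy) an element whose initial form has a unit coefficient. -/
theorem QuasiReg.colon {T : Type*} [CommRing T] {d : ℕ} {ξ : Fin d → T} (h : QuasiReg ξ) {ω : ℕ}
    {F : MvPolynomial (Fin d) T} (hF : F ∈ homog T d ω) (hu : ∃ m, IsUnit (F.coeff m)) {u : T}
    (huF : u - MvPolynomial.eval ξ F ∈ Ideal.span (Set.range ξ) ^ (ω + 1)) (a : ℕ) (y : T)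
    (hy : u * y ∈ Ideal.span (Set.range ξ) ^ (a + ω)) : y ∈ Ideal.span (Set.range ξ) ^ a := by
  induction a with
  | zero => simp
  | succ a ih =>
    obtain ⟨G, hG, rfl⟩ := exists_homog_eval_eq ξ a
      (ih (Ideal.pow_le_pow_right (by omega) hy))
    have h1 : MvPolynomial.eval ξ (F * G) ∈ Ideal.span (Set.range ξ) ^ (ω + a + 1) := by
      have h2 := Ideal.mul_mem_mul huF (eval_mem_pow_of_homog ξ hG)
      rw [← pow_add, show ω + 1 + a = ω + a + 1 by ring] at h2
      rw [show a + 1 + ω = ω + a + 1 by ring] at hy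
      have h3 := Ideal.sub_mem _ hy h2
      rwa [← sub_mul, sub_sub_cancel, ← map_mul] at h3
    have h2 := (mem_homogIn.1 (h (ω + a) (F * G) (by push_cast; exact mul_mem_homog hF hG) h1)).2
    obtain ⟨m, hm⟩ := hu
    have h3 := mccoy d (MvPolynomial.map (Ideal.Quotient.mk (Ideal.span (Set.range ξ))) F) m
      (by rw [MvPolynomial.coeff_map]; exact (hm.map _).mem_nonZeroDivisors)
    have h4 : MvPolynomial.map (Ideal.Quotient.mk (Ideal.span (Set.range ξ))) G = 0 := by
      refine (mem_nonZeroDivisors_iff_left.1 h3) _ ?_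
      rw [← map_mul]
      ext m'
      rw [MvPolynomial.coeff_map, MvPolynomial.coeff_zero, Ideal.Quotient.eq_zero_iff_mem]
      exact h2 m'
    have h5 := eval_mem ξ (J := Ideal.span (Set.range ξ)) (U := Finset.univ) (a := a) (f := G)
      fun m' => ⟨by
        rw [← Ideal.Quotient.eq_zero_iff_mem, ← MvPolynomial.coeff_map, h4,
          MvPolynomial.coeff_zero], ((homog_iff.1 hG) m').2⟩
    rwa [Finset.coe_univ, Set.image_univ, ← pow_succ'] at h5

/-- (HDEG) on a quotient of small dimension, `d` elements satisfy a relation with a unit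
coefficient in the associated graded ring of any primary ideal containing them. -/
theorem exists_form_mem {Λ : Type u} [CommRing Λ] [IsLocalRing Λ] [IsNoetherianRing Λ] {d : ℕ}
    (x : Fin d → Λ) (𝔞 I : Ideal Λ) (hx : ∀ j, x j ∈ 𝔞) {s : ℕ} (hs : maximalIdeal Λ ^ s ≤ 𝔞)
    (hI : ringKrullDim (Λ ⧸ I) < d) : ∃ (ω : ℕ) (F : MvPolynomial (Fin d) Λ),
      F ∈ homog Λ d ω ∧ (∃ m, IsUnit (F.coeff m)) ∧
        MvPolynomial.eval x F ∈ 𝔞 ^ (ω + 1) ⊔ I := by
  by_contra hcon
  push Not at hcon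
  have hone : (1 : MvPolynomial (Fin d) Λ) ∈ homog Λ d (0 : ℕ) :=
    mem_homog_of_isHomogeneous (MvPolynomial.isHomogeneous_one _ _)
  rcases d with _ | n
  · have h1 : Subsingleton (Λ ⧸ I) := by
      by_contra h2
      rw [not_subsingleton_iff_nontrivial] at h2
      exact absurd hI (not_lt.2 (by simpa using ringKrullDim_nonneg_of_nontrivial (R := Λ ⧸ I)))
    refine hcon 0 1 hone ⟨0, by simp⟩ (Ideal.mem_sup_right ?_)
    rw [← Ideal.Quotient.eq_zero_iff_mem]
    exact Subsingleton.elim _ _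
  have hdim : ringKrullDim (Λ ⧸ I) ≤ n := by
    rw [Nat.cast_succ] at hI
    exact ENat.WithBot.lt_add_one_iff.1 hI
  obtain ⟨y, hyl, hy⟩ := exists_isSop_quotient I hdim
  obtain ⟨K, hK0, hK⟩ := exists_length_idealPow_le' hy
  have hstep : ∀ ω : ℕ, (((ω + n).choose n : ℕ) : ℕ∞) ≤ rl (𝔞 ^ ω ⊔ I) (𝔞 ^ (ω + 1) ⊔ I) := by
    intro ω
    rw [← hilbB_natCast, ← rl_homog (T := Λ) n ω]
    refine rl_le_of_map_inj
      (MvPolynomial.aeval x : MvPolynomial (Fin (n + 1)) Λ →ₐ[Λ] Λ).toLinearMap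
      (fun f hf => Ideal.mem_sup_left ?_) fun f hf hf' => mem_homogIn.2 ⟨hf, fun m => ?_⟩
    · refine Ideal.pow_right_mono (Ideal.span_le.2 ?_) ω (eval_mem_pow_of_homog x hf)
      rintro _ ⟨j, rfl⟩
      exact hx j
    · by_contra h1
      exact hcon ω f hf ⟨m, notMem_maximalIdeal.1 h1⟩ hf'
  have hsum : ∀ N : ℕ, (((N + n).choose (n + 1) : ℕ) : ℕ∞) ≤ rl ⊤ (𝔞 ^ N ⊔ I) := by
    intro N
    induction N with
    | zero => simp
    | succ N ih =>
      rw [rl_add (sup_le_sup_right (Ideal.pow_le_pow_right (Nat.le_succ N)) I) le_top,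
        show N + 1 + n = (N + n) + 1 by ring, Nat.choose_succ_succ', Nat.cast_add, add_comm]
      exact add_le_add ih (hstep N)
  have hyl' : Ideal.ofList y ≤ maximalIdeal Λ := Ideal.span_le.2 fun a ha => hy.1 a ha
  have hup : ∀ N : ℕ, rl ⊤ (𝔞 ^ N ⊔ I) ≤ Module.length Λ
      ((Λ ⧸ I) ⧸ (Ideal.ofList y ^ (s * N + 1) • ⊤ : Submodule Λ (Λ ⧸ I))) := by
    intro N
    rw [← rl_top]
    refine rl_le_of_map_inj (Submodule.mkQ I) (fun _ _ => trivial) fun r _ hr => ?_
    rw [← Submodule.range_mkQ I, ← Submodule.map_top, ← Submodule.map_smul'', ← Submodule.mem_comap,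
      Submodule.comap_map_mkQ, smul_eq_mul, Ideal.mul_top, sup_comm] at hr
    refine sup_le_sup_right ?_ I hr
    calc Ideal.ofList y ^ (s * N + 1) ≤ Ideal.ofList y ^ (s * N) :=
          Ideal.pow_le_pow_right (Nat.le_succ _)
      _ ≤ maximalIdeal Λ ^ (s * N) := Ideal.pow_right_mono hyl' _
      _ ≤ 𝔞 ^ N := by rw [pow_mul]; exact Ideal.pow_right_mono hs _
  obtain ⟨N, hN⟩ := growth n ((|(mult (Λ ⧸ I) y : ℝ)| + K * n) * (s + 1) ^ n)
  have h1 := (hsum N).trans (hup N)
  have h2 := ENat.toNat_le_toNat h1 (hy.length_idealPow_ne_top _)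
  rw [ENat.toNat_natCast] at h2
  have h3 := hK (s * N + 1) (Nat.succ_pos _)
  rw [hyl] at h3
  have h4 : (((N + n).choose (n + 1) : ℕ) : ℝ) ≤ (n.factorial : ℝ) * (Module.length Λ
      ((Λ ⧸ I) ⧸ (Ideal.ofList y ^ (s * N + 1) • ⊤ : Submodule Λ (Λ ⧸ I)))).toNat := by
    have h5 : (1 : ℝ) ≤ n.factorial := by exact_mod_cast Nat.factorial_pos n
    refine le_trans (by exact_mod_cast h2) (le_mul_of_one_le_left (by positivity) h5)
  have h5 : (1 : ℝ) ≤ ((s * N + 1 : ℕ) : ℝ) := by exact_mod_cast Nat.succ_pos _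
  have h6 : ((s * N + 1 : ℕ) : ℝ) ^ (n - 1) ≤ ((s * N + 1 : ℕ) : ℝ) ^ n :=
    pow_le_pow_right₀ h5 (Nat.sub_le _ _)
  have h7 : ((s * N + 1 : ℕ) : ℝ) ^ n ≤ ((s : ℝ) + 1) ^ n * ((N : ℝ) + 1) ^ n := by
    rw [← mul_pow]
    refine pow_le_pow_left₀ (by positivity) ?_ n
    push_cast
    nlinarith [Nat.cast_nonneg (α := ℝ) s, Nat.cast_nonneg (α := ℝ) N]
  have h8 : ((s * N + 1 : ℕ) : ℝ) ^ n * (mult (Λ ⧸ I) y : ℝ) ≤
      ((s * N + 1 : ℕ) : ℝ) ^ n * |(mult (Λ ⧸ I) y : ℝ)| :=
    mul_le_mul_of_nonneg_left (le_abs_self _) (by positivity)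
  have h9 : K * (n * ((s * N + 1 : ℕ) : ℝ) ^ (n - 1)) ≤ K * (n * ((s * N + 1 : ℕ) : ℝ) ^ n) :=
    mul_le_mul_of_nonneg_left (mul_le_mul_of_nonneg_left h6 (Nat.cast_nonneg n)) hK0
  have h10 := mul_le_mul_of_nonneg_left h7
    (show 0 ≤ |(mult (Λ ⧸ I) y : ℝ)| + K * n by positivity)
  nlinarith

theorem mul_length_le_of_pow_dvd {T : Type*} [CommRing T] (J : Ideal T) {θ c : T} {E : ℕ}
    (hc : ∀ y, c * y ∈ J → y ∈ J) (h : θ ^ E ∣ c) :
    (E : ℕ∞) * Module.length T (T ⧸ (J ⊔ Ideal.span {θ})) ≤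
      Module.length T (T ⧸ (J ⊔ Ideal.span {c})) := by
  have hmono : ∀ A B : Ideal T, A ≤ B → Module.length T (T ⧸ B) ≤ Module.length T (T ⧸ A) :=
    fun A B hAB => by
      rw [← rl_top, ← rl_top]
      exact rl_mono le_rfl hAB
  have key : ∀ k : ℕ, k ≤ E → (k : ℕ∞) * Module.length T (T ⧸ (J ⊔ Ideal.span {θ})) ≤
      Module.length T (T ⧸ (J ⊔ Ideal.span {θ ^ k})) := by
    intro k hk
    induction k with
    | zero => simp
    | succ k ih =>
      rw [afLength_colon (J ⊔ Ideal.span {θ ^ (k + 1)}) (θ ^ k), Nat.cast_succ, add_mul, one_mul,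
        add_comm]
      refine add_le_add (hmono _ _ fun y hy => ?_) ((ih (by omega)).trans (hmono _ _ ?_))
      · rw [Submodule.mem_colon_singleton, smul_eq_mul] at hy
        obtain ⟨j, hj, e, he, h1⟩ := Submodule.mem_sup.1 hy
        obtain ⟨t, rfl⟩ := Ideal.mem_span_singleton'.1 he
        obtain ⟨c', rfl⟩ := (pow_dvd_pow θ (show k ≤ E by omega)).trans h
        have h2 := hc (y - t * θ) (by
          rw [show θ ^ k * c' * (y - t * θ) = c' * (y * θ ^ k - t * θ ^ (k + 1)) by ring, ← h1,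
            add_sub_cancel_right]
          exact J.mul_mem_left _ hj)
        rw [← sub_add_cancel y (t * θ)]
        exact Submodule.add_mem_sup h2 (Ideal.mul_mem_left _ _ (Ideal.mem_span_singleton_self _))
      · refine sup_le (sup_le le_sup_left (le_sup_of_le_right ?_)) le_sup_right
        exact Ideal.span_singleton_le_span_singleton.2 (pow_dvd_pow θ (Nat.le_succ k))
  exact (key E le_rfl).trans
    (hmono _ _ (sup_le_sup_left (Ideal.span_singleton_le_span_singleton.2 h) J))

/-- Variables followed by a regular sequence of the coefficient ring. -/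
theorem isWeaklyRegular_X_append {V : Type u} [CommRing V] {σ : Type} [Finite σ] (l : List σ)
    (hl : l.Nodup) {w : List V} (hw : IsWeaklyRegular V w) :
    IsWeaklyRegular (MvPowerSeries σ V)
      (l.map MvPowerSeries.X ++ w.map (MvPowerSeries.C (σ := σ))) := by
  classical
  rw [weaklyRegular_iff] at hw ⊢
  intro l₁ a l₂ hl' y hy
  rcases List.append_eq_append_iff.1 hl' with ⟨r, rfl, h2⟩ | ⟨r, h1, h2⟩
  · obtain ⟨w₁, w', rfl, rfl, h3⟩ := List.map_eq_append_iff.1 h2
    obtain ⟨b, w₂, rfl, rfl, rfl⟩ := List.map_eq_cons_iff.1 h3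
    rw [mem_ofList_iff] at hy ⊢
    intro m hm
    have h4 := hy m hm
    rw [MvPowerSeries.coeff_C_mul] at h4
    exact hw w₁ b w₂ rfl _ h4
  · rcases r with _ | ⟨r₀, r⟩
    · rw [List.nil_append] at h2
      obtain ⟨b, w₂, rfl, rfl, rfl⟩ := List.map_eq_cons_iff.1 h2.symm
      rw [List.append_nil] at h1
      subst h1
      have h3 := mem_ofList_iff (V := V) l []
      rw [List.map_nil, List.append_nil] at h3
      rw [h3] at hy ⊢
      intro m hm
      have h4 := hy m hm
      rw [MvPowerSeries.coeff_C_mul] at h4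
      exact hw [] b w₂ rfl _ h4
    · obtain ⟨rfl, -⟩ := List.cons.inj h2
      obtain ⟨k₁, k', rfl, rfl, h3⟩ := List.map_eq_append_iff.1 h1
      obtain ⟨i, k₂, rfl, rfl, rfl⟩ := List.map_eq_cons_iff.1 h3
      have hi : i ∉ k₁ := fun h => (List.nodup_append.1 hl).2.2 i h i (by simp) rfl
      have h3 := mem_ofList_iff (V := V) k₁ []
      rw [List.map_nil, List.append_nil] at h3
      rw [h3] at hy ⊢
      intro m hm
      have h4 := hy (Finsupp.single i 1 + m) fun k hk => by
        have : i ≠ k := fun h => hi (h ▸ hk)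
        simp [hm k hk, this]
      rwa [MvPowerSeries.X, MvPowerSeries.coeff_add_monomial_mul, one_mul] at h4

theorem ringKrullDim_mvPowerSeries_dvr (V : Type u) [CommRing V] [IsDomain V]
    [IsDiscreteValuationRing V] (σ : Type) [Fintype σ] :
    ringKrullDim (MvPowerSeries σ V) = (Fintype.card σ + 1 : ℕ) := by
  obtain ⟨ϖ, hϖ⟩ := IsDiscreteValuationRing.exists_irreducible V
  have h1 : IsWeaklyRegular V [ϖ] := (isWeaklyRegular_singleton_iff V ϖ).2
    (isSMulRegular_iff_right_eq_zero_of_smul.2 fun y hy =>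
      (mul_eq_zero.1 hy).resolve_left hϖ.ne_zero)
  have h2 := isWeaklyRegular_X_append (Finset.univ : Finset σ).toList (Finset.nodup_toList _) h1
  have h3 : Ideal.ofList ((Finset.univ : Finset σ).toList.map MvPowerSeries.X ++
      [ϖ].map (MvPowerSeries.C (σ := σ))) = maximalIdeal (MvPowerSeries σ V) := by
    rw [maximalIdeal_mvPowerSeries, hϖ.maximalIdeal_eq, Ideal.ofList_append, sup_comm,
      ← Ideal.map_ofList, Ideal.ofList_singleton]
    congr 1
    unfold Ideal.ofList
    congr 1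
    ext x
    simp
  have h4 := ringKrullDim_add_length_eq_ringKrullDim_of_isRegular _
    (IsRegular.of_isWeaklyRegular_of_mem_maximalIdeal (MvPowerSeries σ V)
      (fun r hr => h3 ▸ Ideal.subset_span hr) h2)
  rw [h3, ringKrullDim_eq_zero_of_isField
    ((Ideal.Quotient.maximal_ideal_iff_isField_quotient _).1 inferInstance)] at h4
  rw [← h4]
  simp

/-- A regular element of the maximal ideal (or a unit) lowers the dimension. -/
theorem dim_quot_lt_of_regular {Λ : Type u} [CommRing Λ] [IsLocalRing Λ] [IsNoetherianRing Λ]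
    {d : ℕ} (hd : ringKrullDim Λ ≤ d) {g : Λ} (hg : ∀ y, g * y = 0 → y = 0) :
    ringKrullDim (Λ ⧸ Ideal.span {g}) < d := by
  by_cases hu : g ∈ maximalIdeal Λ
  · have h1 := ringKrullDim_quotient_span_singleton_succ_eq_ringKrullDim
      (isSMulRegular_iff_right_eq_zero_of_smul.2 hg) hu
    exact ENat.WithBot.add_one_le_natCast_iff.1 (h1 ▸ hd)
  · have h1 : Subsingleton (Λ ⧸ Ideal.span {g}) := Ideal.Quotient.subsingleton_iff.2
      (Ideal.span_singleton_eq_top.2 (notMem_maximalIdeal.1 hu))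
    rw [ringKrullDim_eq_bot_of_subsingleton]
    exact WithBot.bot_lt_coe _

end Vale.Agent.P202
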