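import Vale.Agent.P202.GeoL1
import Vale.Agent.P202.CM

/-! Module C1: a filtration that is almost the adic filtration of a regular sequence satisfies the
axioms `LData`. -/

namespace Vale.Agent.P202

open Submodule
open scoped ENNReal NNReal

universe u

variable {T : Type u} [CommRing T] {H : Type u} [CommRing H] [Algebra T H] {n : ℕ}

variable (H) in
/-- The image in `H` of the powers of the ideal `(ξ)`. -/
noncomputable def cF {d : ℕ} (ξ : Fin d → T) (j : ℤ) : Submodule T H :=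
  Submodule.map (Algebra.linearMap T H) (Ideal.span (Set.range ξ) ^ j.toNat : Ideal T)

theorem mem_cF {d : ℕ} {ξ : Fin d → T} {j : ℤ} {x : H} :
    x ∈ cF H ξ j ↔ ∃ a ∈ Ideal.span (Set.range ξ) ^ j.toNat, algebraMap T H a = x := Iff.rfl

/-- `P` is `θ`-almost the `(ξ)`-adic filtration. -/
structure AData (ξ : Fin (n + 1) → T) (P : ℤ → Submodule T H) (N : ℕ) (θ ϖ : T) : Prop where
  inj : Function.Injective (algebraMap T H)
  qr : QuasiReg ξ
  reg : RegAny fun j => ξ j ^ N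
  pos : 0 < N
  mem : ϖ ∈ Ideal.span (Set.range fun j => ξ j ^ N)
  gr : IsGr (fun j => algebraMap T H (ξ j)) P
  anti : Antitone P
  le : ∀ j, cF H ξ j ≤ P j
  p1 : ∀ j, ∀ x ∈ P j, ∃ z ∈ P j, θ • x - ϖ • z ∈ cF H ξ j
  p2 : ∀ j, ∀ x ∈ P j, ϖ • x ∈ cF H ξ j → θ • x ∈ cF H ξ j
  p3 : ∀ j, ∀ x ∈ P j, x ∈ cF H ξ 0 → θ • x ∈ cF H ξ j

theorem Alm.smul_mem_cF {d : ℕ} {ξ : Fin d → T} {r : T} (hr : r ∈ Ideal.span (Set.range ξ))
    {a : ℤ} {x : H} (hx : x ∈ cF H ξ a) : r • x ∈ cF H ξ (a + 1) := by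
  obtain ⟨y, hy, rfl⟩ := mem_cF.1 hx
  refine mem_cF.2 ⟨r * y, Ideal.pow_le_pow_right (n := a.toNat + 1) (by omega) ?_, ?_⟩
  · rw [pow_succ']
    exact Ideal.mul_mem_mul hr hy
  · rw [map_mul, Algebra.smul_def]

theorem isGr_cF {d : ℕ} (ξ : Fin d → T) : IsGr (fun j => algebraMap T H (ξ j)) (cF H ξ) := by
  intro a j x hx
  rw [← Algebra.smul_def]
  exact Alm.smul_mem_cF (Ideal.subset_span ⟨j, rfl⟩) hx

theorem antitone_cF {d : ℕ} (ξ : Fin d → T) : Antitone (cF H ξ) :=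
  fun _ _ h => Submodule.map_mono (Ideal.pow_le_pow_right (Int.toNat_le_toNat h))

namespace Alm

theorem alg_mem_cF {d : ℕ} (ξ : Fin d → T) (a : T) : algebraMap T H a ∈ cF H ξ 0 :=
  mem_cF.2 ⟨a, by simp, rfl⟩

theorem cF_le_zero {d : ℕ} (ξ : Fin d → T) (j : ℤ) : cF H ξ j ≤ cF H ξ 0 := by
  intro x hx
  obtain ⟨y, -, rfl⟩ := mem_cF.1 hx
  exact alg_mem_cF ξ y

theorem evMul_one {d : ℕ} (ξ : Fin d → T) (f : MvPolynomial (Fin d) T) :
    evMul (fun j => algebraMap T H (ξ j)) 1 f = algebraMap T H (MvPolynomial.eval ξ f) := by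
  rw [evMul_apply, mul_one, ← MvPolynomial.aeval_eq_eval, ← MvPolynomial.aeval_algebraMap_apply]
  rfl

theorem map_homog {d : ℕ} (ξ : Fin d → T) (a : ℕ) :
    (homog T d a).map (evMul (fun j => algebraMap T H (ξ j)) 1) = cF H ξ a := by
  refine le_antisymm ?_ fun x hx => ?_
  · rintro _ ⟨f, hf, rfl⟩
    rw [evMul_one]
    exact mem_cF.2 ⟨_, eval_mem_pow_of_homog ξ hf, rfl⟩
  · obtain ⟨y, hy, rfl⟩ := mem_cF.1 hx
    obtain ⟨f, hf, rfl⟩ := exists_homog_eval_eq ξ a hy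
    exact ⟨f, hf, evMul_one ξ f⟩

theorem homog_neg {d : ℕ} {a : ℤ} (h : a < 0) : homog T d a = ⊥ := if_neg (not_le.2 h)

theorem cycExt_cF {d : ℕ} (ξ : Fin d → T) :
    CycExt (fun j => algebraMap T H (ξ j)) (fun a => cF H ξ (a + 1)) (cF H ξ) 1 0 := by
  intro b
  rw [sub_zero]
  rcases lt_or_ge b 0 with h | h
  · rw [homog_neg h, Submodule.map_bot, sup_bot_eq]
    unfold cF
    beta_reduce
    rw [show (b + 1).toNat = b.toNat by omega]
  · lift b to ℕ using h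
    rw [map_homog]
    exact (sup_eq_right.2 (antitone_cF ξ (by omega))).symm

theorem cycAnn_cF {d : ℕ} {ξ : Fin d → T} (hinj : Function.Injective (algebraMap T H))
    (hξ : QuasiReg ξ) : cycAnn (fun j => algebraMap T H (ξ j)) (fun a => cF H ξ (a + 1)) 1 0 =
      homogIn d (Ideal.span (Set.range ξ)) := by
  funext b
  refine le_antisymm (fun f hf => ?_)
    (homogIn_le_cycAnn (cycExt_cF ξ) (fun a r hr x hx => smul_mem_cF hr hx) b)
  obtain ⟨h1, h2⟩ := hf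
  rcases lt_or_ge b 0 with h | h
  · rw [homog_neg h] at h1
    rw [(Submodule.mem_bot T).1 h1]
    exact zero_mem _
  · lift b to ℕ using h
    refine hξ b f h1 ?_
    obtain ⟨y, hy, e⟩ := mem_cF.1 h2
    rw [evMul_one] at e
    rw [← hinj e]
    rwa [show ((b : ℤ) + 0 + 1).toNat = b + 1 by omega] at hy

theorem isGr_shift {d : ℕ} {ξ : Fin d → H} {P : ℤ → Submodule T H} (h : IsGr ξ P) (k : ℤ) :
    IsGr ξ fun a => P (a + k) := fun a j x hx => by
  have := h _ j x hx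
  rwa [add_right_comm] at this

theorem iso_layer {ξ : Fin (n + 1) → T} (hinj : Function.Injective (algebraMap T H))
    (hξ : QuasiReg ξ) (c : Fin n → ℤ) (E : Set (Γ n)) (m : ℤ) :
    ∃ φ : VM (MvPolynomial (Fin (n + 1)) T) n →ₗ[T] VM H n,
      PairIso (DM MvPolynomial.X) (famM c E (homog T (n + 1)) m)
        (famM c E (homogIn (n + 1) (Ideal.span (Set.range ξ))) m)
        (DM fun j => algebraMap T H (ξ j)) (famM c E (cF H ξ) m) (famM c E (cF H ξ) (m + 1))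
        φ 1 0 := by
  have h := pairIso_cyc (c := c) (E := E) (isGr_shift (isGr_cF ξ) 1) (cycExt_cF (H := H) ξ) m
  rwa [cycAnn_cF hinj hξ, famM_shift, sub_zero] at h

theorem pair_homog {c : Fin n → ℤ} {E : Set (Γ n)} (hE : IsH0 c E) (I : Ideal T) (m : ℤ) :
    IsPair (DM MvPolynomial.X) (famM c E (homog T (n + 1)) m)
      (famM c E (homogIn (n + 1) I) m) :=
  isPair_famM hE isGr_homog (isGr_homogIn I) fun _ => GFA.homogIn_le I _

theorem pair_level {ξ : Fin (n + 1) → H} {P : ℤ → Submodule T H} (hP : IsGr ξ P)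
    (ha : Antitone P) {c : Fin n → ℤ} {E : Set (Γ n)} (hE : IsH0 c E) (m : ℤ) :
    IsPair (DM ξ) (famM c E P m) (famM c E P (m + 1)) :=
  isPair_famM hE hP hP fun _ => ha (by omega)

section Choice
variable {c : Fin n → ℤ} {E₁ E₂ E₃ : Set (Γ n)} {P₁ P₂ P₃ : ℤ → Submodule T H} {m₁ m₂ m₃ : ℤ}

theorem lab_choice {ε : Finset (Fin n)} (θ ϖ : T)
    (h : ∀ (γ : Γ n) (x : H), (γ ∉ E₁ → x ∈ P₁ (m₁ - γ.2)) → ∃ z, (γ ∉ E₂ → z ∈ P₂ (m₂ - γ.2)) ∧
      (γ ∉ E₃ → θ • x - ϖ • z ∈ P₃ (m₃ - γ.2)))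
    {f : LR H n} (hf : f ∈ lab c ε E₁ P₁ m₁) :
    ∃ g ∈ lab c ε E₂ P₂ m₂, θ • f - ϖ • g ∈ lab c ε E₃ P₃ m₃ := by
  have key : ∀ γ : Γ n, ∃ z, (f.coeff γ = 0 → z = 0) ∧ (¬ IsDeadAt c ε γ →
      (γ ∉ E₂ → z ∈ P₂ (m₂ - γ.2)) ∧ (γ ∉ E₃ → θ • f.coeff γ - ϖ • z ∈ P₃ (m₃ - γ.2))) := by
    intro γ
    by_cases h0 : f.coeff γ = 0
    · exact ⟨0, fun _ => rfl, fun _ => ⟨fun _ => zero_mem _, fun _ => by simp [h0]⟩⟩
    by_cases h1 : IsDeadAt c ε γ
    · exact ⟨0, fun _ => rfl, fun h2 => absurd h1 h2⟩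
    · obtain ⟨z, hz⟩ := h γ _ ((hf γ).2 h1)
      exact ⟨z, fun h2 => absurd h2 h0, fun _ => hz⟩
  choose z hz hz' using key
  refine ⟨AddMonoidAlgebra.ofCoeff (Finsupp.onFinset f.coeff.support z fun γ hγ =>
    Finsupp.mem_support_iff.2 fun e => hγ (hz γ e)), fun γ => ⟨fun h1 => hz γ ((hf γ).1 h1),
      fun h1 h2 => (hz' γ h1).1 h2⟩, fun γ => ⟨fun h1 => ?_, fun h1 h2 => (hz' γ h1).2 h2⟩⟩
  change θ • f.coeff γ - ϖ • z γ = 0
  rw [hz γ ((hf γ).1 h1), (hf γ).1 h1, smul_zero, smul_zero, sub_zero]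

theorem famM_choice (θ ϖ : T)
    (h : ∀ ε (S : Finset (Fin (n + 1))) (γ : Γ n) (x : H),
      (γ ∉ extra E₁ ε S → x ∈ P₁ (m₁ - S.card - γ.2)) →
      ∃ z, (γ ∉ extra E₂ ε S → z ∈ P₂ (m₂ - S.card - γ.2)) ∧
        (γ ∉ extra E₃ ε S → θ • x - ϖ • z ∈ P₃ (m₃ - S.card - γ.2)))
    {i : ℤ} {v : VM H n} (hv : v ∈ famM c E₁ P₁ m₁ i) :
    ∃ w ∈ famM c E₂ P₂ m₂ i, θ • v - ϖ • w ∈ famM c E₃ P₃ m₃ i := by
  have key : ∀ ε (S : Finset (Fin (n + 1))), ∃ g : LR H n,
      (if i = ε.card + S.card then g ∈ lab c ε (extra E₂ ε S) P₂ (m₂ - S.card) else g = 0) ∧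
      (if i = ε.card + S.card then
        θ • v ε S - ϖ • g ∈ lab c ε (extra E₃ ε S) P₃ (m₃ - S.card)
      else θ • v ε S - ϖ • g = 0) := by
    intro ε S
    have h1 := mem_famM.1 hv ε S
    split_ifs at h1 ⊢
    · exact lab_choice θ ϖ (h ε S) h1
    · exact ⟨0, rfl, by rw [h1, smul_zero, smul_zero, sub_zero]⟩
  choose g hg hg' using key
  exact ⟨g, mem_famM.2 hg, mem_famM.2 hg'⟩

theorem famM_choice' (θ ϖ : T)
    (h : ∀ s, ∀ x ∈ P₁ (m₁ - s), ∃ z ∈ P₂ (m₂ - s), θ • x - ϖ • z ∈ P₃ (m₃ - s))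
    {i : ℤ} {v : VM H n} (hv : v ∈ famM c E₁ P₁ m₁ i) :
    ∃ w ∈ famM c E₁ P₂ m₂ i, θ • v - ϖ • w ∈ famM c E₁ P₃ m₃ i := by
  refine famM_choice θ ϖ (fun ε S γ x hx => ?_) hv
  by_cases h1 : γ ∈ extra E₁ ε S
  · exact ⟨0, fun h2 => absurd h1 h2, fun h2 => absurd h1 h2⟩
  · simp only [sub_sub] at hx ⊢
    obtain ⟨z, hz, hz'⟩ := h _ x (hx h1)
    exact ⟨z, fun _ => hz, fun _ => hz'⟩

theorem famM_imp (θ ϖ : T)
    (h : ∀ ε (S : Finset (Fin (n + 1))) (γ : Γ n) (x : H),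
      (γ ∉ extra E₁ ε S → x ∈ P₁ (m₁ - S.card - γ.2)) →
      (γ ∉ extra E₂ ε S → ϖ • x ∈ P₂ (m₂ - S.card - γ.2)) →
        γ ∉ extra E₃ ε S → θ • x ∈ P₃ (m₃ - S.card - γ.2))
    {i : ℤ} {v : VM H n} (hv : v ∈ famM c E₁ P₁ m₁ i) (hv' : ϖ • v ∈ famM c E₂ P₂ m₂ i) :
    θ • v ∈ famM c E₃ P₃ m₃ i := by
  refine mem_famM.2 fun ε S => ?_
  have h1 := mem_famM.1 hv ε S
  have h2 := mem_famM.1 hv' ε S
  split_ifs at h1 h2 ⊢
  · refine fun γ => ⟨fun h3 => ?_, fun h3 => h ε S γ _ ((h1 γ).2 h3) ((h2 γ).2 h3)⟩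
    change θ • (v ε S).coeff γ = 0
    rw [(h1 γ).1 h3, smul_zero]
  · change θ • v ε S = 0
    rw [h1, smul_zero]

theorem famM_imp' (θ ϖ : T)
    (h : ∀ s, ∀ x ∈ P₁ (m₁ - s), ϖ • x ∈ P₂ (m₂ - s) → θ • x ∈ P₃ (m₃ - s))
    {i : ℤ} {v : VM H n} (hv : v ∈ famM c E₁ P₁ m₁ i) (hv' : ϖ • v ∈ famM c E₁ P₂ m₂ i) :
    θ • v ∈ famM c E₁ P₃ m₃ i := by
  refine famM_imp θ ϖ (fun ε S γ x hx hx' h1 => ?_) hv hv'
  simp only [sub_sub] at hx hx' ⊢
  exact h _ x (hx h1) (hx' h1)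

theorem famM_empty_le {i : ℤ} : famM c ∅ P₁ m₁ i ≤ famM c E₁ P₁ m₁ i := by
  intro v hv
  refine mem_famM.2 fun ε S => ?_
  have h1 := mem_famM.1 hv ε S
  split_ifs at h1 ⊢
  · rw [Lb.extra_empty] at h1
    exact Lb.lab_mono' (Set.empty_subset _) (fun _ => le_rfl) h1
  · exact h1

theorem famM_congr {T' : Type u} [CommRing T'] [Algebra T' H] {P' : ℤ → Submodule T' H}
    (h : ∀ a x, x ∈ P₁ a ↔ x ∈ P' a) {i : ℤ} {v : VM H n} :
    v ∈ famM c E₁ P₁ m₁ i ↔ v ∈ famM c E₁ P' m₁ i := by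
  simp only [mem_famM, mem_lab, h]

end Choice

theorem hl_layer_h0 (I : Ideal T) (σ : Equiv.Perm (Fin n)) (s m : ℤ) (hm : 0 ≤ m + s) (i : ℤ) :
    hl (DM MvPolynomial.X)
      (famM (fun l => ((σ l : ℕ) : ℤ) + s) (h0Set (fun l => ((σ l : ℕ) : ℤ) + s) (-s))
        (homog T (n + 1)) m)
      (famM (fun l => ((σ l : ℕ) : ℤ) + s) (h0Set (fun l => ((σ l : ℕ) : ℤ) + s) (-s))
        (homogIn (n + 1) I) m) i = 0 := by
  have ev : ∀ f : MvPolynomial (Fin (n + 1)) T,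
      evMul (T := T) (MvPolynomial.X : Fin (n + 1) → MvPolynomial (Fin (n + 1)) (T ⧸ I)) 1 f =
        MvPolynomial.map (Ideal.Quotient.mk I) f := by
    intro f
    rw [evMul_apply, mul_one]
    induction f using MvPolynomial.induction_on with
    | C a => simp [MvPolynomial.algebraMap_apply]
    | add p q hp hq => simp only [map_add, hp, hq]
    | mul_X p j hp => simp only [map_mul, hp, MvPolynomial.map_X, MvPolynomial.aeval_X]
  have hc : CycExt (T := T) (MvPolynomial.X : Fin (n + 1) → MvPolynomial (Fin (n + 1)) (T ⧸ I))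
      (fun _ => ⊥) (fun a => (homog (T ⧸ I) (n + 1) a).restrictScalars T) 1 0 := by
    intro b
    rw [bot_sup_eq, sub_zero]
    refine le_antisymm (fun f hf => ?_) ?_
    · obtain ⟨g, rfl⟩ := MvPolynomial.map_surjective _ Ideal.Quotient.mk_surjective f
      have hg : ∀ μ, (grComp T (n + 1) b g).coeff μ ≠ 0 → (μ.degree : ℤ) = b := by
        intro μ hμ
        rw [coeff_grComp] at hμ
        by_contra h
        exact hμ (if_neg h)
      refine ⟨grComp T (n + 1) b g, mem_homog.2 hg, ?_⟩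
      rw [ev]
      ext μ
      rw [MvPolynomial.coeff_map, coeff_grComp]
      split_ifs with h
      · rw [MvPolynomial.coeff_map]
      · rw [map_zero]
        by_contra h'
        exact h (mem_homog.1 hf μ (Ne.symm h'))
    · rintro _ ⟨g, hg, rfl⟩
      rw [ev]
      refine mem_homog.2 fun μ hμ => mem_homog.1 hg μ fun h => hμ ?_
      rw [MvPolynomial.coeff_map, h, map_zero]
  have ha : cycAnn (T := T) (MvPolynomial.X : Fin (n + 1) → MvPolynomial (Fin (n + 1)) (T ⧸ I))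
      (fun _ => ⊥) 1 0 = homogIn (n + 1) I := by
    funext b
    ext f
    rw [mem_homogIn]
    refine and_congr_right fun _ => ?_
    rw [SetLike.mem_coe, Submodule.mem_comap, ev, Submodule.mem_bot, MvPolynomial.ext_iff]
    simp [MvPolynomial.coeff_map, Ideal.Quotient.eq_zero_iff_mem]
  have h1 := Dev.hl_cyc (isH0_h0Set (c := fun l => ((σ l : ℕ) : ℤ) + s) (-s)) (isGr_bot _) hc m i
  rw [ha, sub_zero] at h1
  rw [← h1, hl_eq_zero_iff]
  have h2 := hl_eq_zero_iff.1 (hl_famM_h0_free (T := T ⧸ I) σ s m hm i)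
  intro x hx hdx
  obtain ⟨y, hy, hy'⟩ := h2 x ((famM_congr fun _ _ => by simp).1 hx)
    ((famM_congr fun _ _ => by simp).1 hdx)
  exact ⟨y, (famM_congr fun _ _ => by simp).2 hy, (famM_congr fun _ _ => by simp).2 hy'⟩

variable (H) in
/-- The adic filtration truncated to nonnegative degrees. -/
noncomputable def cFp {d : ℕ} (ξ : Fin d → T) (j : ℤ) : Submodule T H :=
  if 0 ≤ j then cF H ξ j else ⊥

theorem cFp_le {d : ℕ} (ξ : Fin d → T) (j : ℤ) : cFp H ξ j ≤ cF H ξ j := by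
  unfold cFp
  split_ifs
  · exact le_rfl
  · exact bot_le

theorem cFp_of_nonneg {d : ℕ} (ξ : Fin d → T) {j : ℤ} (h : 0 ≤ j) : cFp H ξ j = cF H ξ j :=
  if_pos h

theorem isGr_cFp {d : ℕ} (ξ : Fin d → T) :
    IsGr (fun j => algebraMap T H (ξ j)) (cFp H ξ) := by
  intro a j x hx
  by_cases h : 0 ≤ a
  · rw [cFp_of_nonneg ξ h] at hx
    rw [cFp_of_nonneg ξ (by omega)]
    exact isGr_cF ξ a j x hx
  · rw [cFp, if_neg h] at hx
    rw [(Submodule.mem_bot T).1 hx, mul_zero]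
    exact zero_mem _

theorem isFG_cFp {d : ℕ} (ξ : Fin d → T) :
    IsFG (fun j => algebraMap T H (ξ j)) (cFp H ξ) (fun _ => ⊥) := by
  refine ⟨{(1, 0)}, fun b => ?_⟩
  simp only [bot_sup_eq, Finset.mem_singleton, iSup_iSup_eq_left, sub_zero]
  rcases lt_or_ge b 0 with h | h
  · rw [homog_neg h, Submodule.map_bot, cFp, if_neg (not_le.2 h)]
  · lift b to ℕ using h
    rw [map_homog, cFp_of_nonneg ξ (by omega)]

theorem hl_cF_cFp (ξ : Fin (n + 1) → T) (c : Fin n → ℤ) {s m : ℤ} (hm : 0 ≤ m + s) (i : ℤ) :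
    hl (DM fun j => algebraMap T H (ξ j)) (famM c (h0Set c (-s)) (cF H ξ) m)
      (famM c (h0Set c (-s)) (cFp H ξ) m) i = 0 := by
  have hex : ∀ ε (S : Finset (Fin (n + 1))) (γ : Γ n), γ ∈ extra (h0Set c (-s)) ε S →
      0 ≤ m - S.card - γ.2 := by
    intro ε S γ h
    unfold extra at h
    split_ifs at h with h1
    · have h2 : γ.2 = -s := h.1
      rw [h1.2, h2]
      simpa using hm
    · exact h.elim
  have iso : PairIso (DM fun j => algebraMap T H (ξ j)) (famM c ∅ (cF H ξ) m)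
      (famM c ∅ (cFp H ξ) m) (DM fun j => algebraMap T H (ξ j))
      (famM c (h0Set c (-s)) (cF H ξ) m) (famM c (h0Set c (-s)) (cFp H ξ) m)
      LinearMap.id 1 0 := by
    refine ⟨fun j x hx => ?_, fun j x hx => ?_, fun j y hy => ?_, fun j x hx hx' => ?_,
      fun j x _ => by simp⟩
    · rw [add_zero]
      exact famM_empty_le hx
    · rw [add_zero]
      exact famM_empty_le hx
    · rw [add_zero] at hy ⊢
      have := famM_choice (E₂ := ∅) (E₃ := h0Set c (-s)) (P₂ := cF H ξ) (P₃ := cFp H ξ)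
        (m₂ := m) (m₃ := m) 1 1 (fun ε S γ x hx => ?_) hy
      · simpa only [one_smul, LinearMap.id_apply] using this
      · by_cases h1 : γ ∈ extra (h0Set c (-s)) ε S
        · exact ⟨0, fun _ => zero_mem _, fun h2 => absurd h1 h2⟩
        · exact ⟨x, fun _ => hx h1, fun _ => by rw [sub_self]; exact zero_mem _⟩
    · rw [add_zero] at hx'
      have := famM_imp (E₂ := h0Set c (-s)) (E₃ := ∅) (P₂ := cFp H ξ) (P₃ := cFp H ξ)
        (m₂ := m) (m₃ := m) 1 1 (fun ε S γ x h1 h2 h3 => ?_) hx (by rwa [one_smul])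
      · rwa [one_smul] at this
      · by_cases h4 : γ ∈ extra (h0Set c (-s)) ε S
        · rw [cFp_of_nonneg ξ (hex ε S γ h4), one_smul]
          exact h1 h3
        · exact h2 h4
  have h1 := iso.hl_eq (Dev.pair isH0_empty (isGr_cF ξ) (isGr_cFp ξ) (cFp_le ξ) m)
    (Dev.pair (isH0_h0Set _) (isGr_cF ξ) (isGr_cFp ξ) (cFp_le ξ) m) i
  rw [add_zero] at h1
  rw [← h1]
  exact hl_famM_eq_zero_of_eventually_eq (isGr_cF ξ) (isGr_cFp ξ) (cFp_le ξ) 0
    (fun a ha => (cFp_of_nonneg ξ ha).ge) m i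

theorem hl_famW (L : LenFn T) (I : Ideal T) (c : Fin n → ℤ) (m i : ℤ) :
    L.hl (DW T n) (famW c ⊤ m) (famW c I m) i =
      L.len (T ⧸ I) * (boxAt (fun l => c l + m) i : ℝ≥0∞) := by
  classical
  rw [boxAt]
  split_ifs with hi
  · subst hi
    have e : L.rl (Submodule.pi Set.univ fun _ : boxSet (fun l => c l + m) => (⊤ : Submodule T T))
        (Submodule.pi Set.univ fun _ : boxSet (fun l => c l + m) => I) =
        L.len (T ⧸ I) * (box (fun l => c l + m) : ℝ≥0∞) := by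
      rw [L.rl_pi, L.rl_top, Finset.sum_const, Finset.card_univ, Fintype.card_coe, card_boxSet,
        nsmul_eq_mul, mul_comm]
    rw [← e, LenFn.hl]
    symm
    refine L.rl_eq_of_map (LinearMap.single T (fun _ => LR T n)
      (Finset.univ.filter fun l => 0 ≤ c l + m) ∘ₗ pbBox T (boxSet fun l => c l + m) m)
      (fun r _ => ?_) (fun r hr => les_bot_le_bdy (pb_mem_famW.2 fun ε => ?_)) (fun v hv => ?_)
      fun r _ hr a _ => ?_
    · rw [LinearMap.comp_apply, pb_box_eq]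
      exact pb_box_cyc _
    · have h1 := pb_mem_famW.1 (pb_box_cyc (c := c) (m := m) (I := ⊤)
        fun a => if h : a ∈ boxSet fun l => c l + m then r ⟨a, h⟩ else 0).1 ε
      rw [LinearMap.comp_apply, pb_box_eq, LinearMap.single_apply]
      split_ifs at h1 ⊢
      · refine fun γ => ⟨(h1 γ).1, fun _ _ => ?_⟩
        by_cases he : ε = Finset.univ.filter fun l => 0 ≤ c l + m
        · subst he
          rw [Pi.single_eq_same, pb_coeff_box]
          split_ifs with h h'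
          · rw [h.1, sub_self, deg0, if_pos rfl]; exact hr _ trivial
          · exact zero_mem _
          · exact zero_mem _
        · rw [Pi.single_eq_of_ne he]; exact zero_mem _
      · exact h1
    · obtain ⟨r, hr⟩ := cech_cycle c _ m _ v hv
      refine ⟨fun a => r a.1, fun _ _ => trivial, ?_⟩
      rw [if_pos rfl] at hr
      rwa [LinearMap.comp_apply, pb_box_eq, LinearMap.single_apply,
        Finset.sum_congr (g := fun a => r a • mon T a m) rfl fun a ha => by rw [dif_pos ha]]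
    · have := pb_detect hr a.2
      rwa [LinearMap.comp_apply, LinearMap.single_apply, Pi.single_eq_same, pb_coeff_pbBox] at this
  · rw [Nat.cast_zero, mul_zero]
    refine L.rl_of_le fun v hv => ?_
    obtain ⟨r, hr⟩ := cech_cycle c _ m _ v hv
    rwa [if_neg hi, sub_zero] at hr

theorem hl_famM_free (L : LenFn T) (I : Ideal T) (c : Fin n → ℤ) (m i : ℤ) :
    L.hl (DM MvPolynomial.X) (famM c ∅ (homog T (n + 1)) m) (famM c ∅ (homogIn (n + 1) I) m) i =
      L.len (T ⧸ I) * (boxAt (fun l => c l + m) i : ℝ≥0∞) := by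
  obtain ⟨p1, p2⟩ := isPair_famKer c I m
  have h0 := fun j => L.hl_eq_zero_of_hl (hl_famKer_eq_zero c I m j)
  have h6 := L.hl_eq_of_pairIso (pairIso_rhoM c I m) p1 (isPair_famW c le_top m) i
  rw [add_zero, hl_famW] at h6
  rw [← h6]
  refine le_antisymm ?_ ?_
  · have := L.hl_le_add p1 p2 i
    rwa [h0, add_zero] at this
  · have := L.hl_quot_le p1 p2 i
    rwa [h0, add_zero] at this

theorem rl_layer_le (L : LenFn T) (a : T) (k : ℕ) (Q : Ideal T) :
    L.rl (Q ⊔ Ideal.span {a ^ k}) (Q ⊔ Ideal.span {a ^ (k + 1)}) ≤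
      L.rl ⊤ (Q ⊔ Ideal.span {a}) := by
  refine L.rl_le_of_map_surj (LinearMap.lsmul T T (a ^ k)) (fun x hx => ?_) fun z hz => ?_
  · obtain ⟨q, hq, t, ht, rfl⟩ := Submodule.mem_sup.1 hx.2
    obtain ⟨s, rfl⟩ := Ideal.mem_span_singleton'.1 ht
    rw [LinearMap.lsmul_apply, smul_add]
    refine Submodule.add_mem_sup (Q.smul_mem _ hq) (Ideal.mem_span_singleton'.2 ⟨s, ?_⟩)
    rw [smul_eq_mul]
    ring
  · obtain ⟨q, hq, t, ht, rfl⟩ := Submodule.mem_sup.1 hz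
    obtain ⟨s, rfl⟩ := Ideal.mem_span_singleton'.1 ht
    refine ⟨s, trivial, ?_⟩
    rw [LinearMap.lsmul_apply, smul_eq_mul, mul_comm s, add_sub_cancel_right]
    exact Submodule.mem_sup_left hq

theorem rl_sup_pow_le (L : LenFn T) (a : T) (k : ℕ) (Q : Ideal T) :
    L.rl ⊤ (Q ⊔ Ideal.span {a ^ k}) ≤ (k : ℝ≥0∞) * L.rl ⊤ (Q ⊔ Ideal.span {a}) := by
  induction k with
  | zero =>
    rw [pow_zero, Ideal.span_singleton_one, sup_top_eq, L.rl_self]
    exact zero_le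
  | succ k ih =>
    refine (L.rl_le_add ⊤ (Q ⊔ Ideal.span {a ^ k}) _).trans ?_
    rw [Nat.cast_succ, add_mul, one_mul]
    exact add_le_add ih (rl_layer_le L a k Q)

theorem rl_sup_image_le (L : LenFn T) {d : ℕ} (ξ : Fin d → T) (N : ℕ) (U : Finset (Fin d)) :
    ∀ Q : Ideal T, L.rl ⊤ (Q ⊔ Ideal.span ((fun j => ξ j ^ N) '' (U : Set (Fin d)))) ≤
      (N : ℝ≥0∞) ^ U.card * L.rl ⊤ (Q ⊔ Ideal.span (ξ '' (U : Set (Fin d)))) := by
  induction U using Finset.induction_on with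
  | empty => intro Q; simp
  | insert j U hj ih =>
    intro Q
    rw [Finset.coe_insert, Set.image_insert_eq, Set.image_insert_eq, Ideal.span_insert,
      Ideal.span_insert, Finset.card_insert_of_notMem hj, pow_succ', mul_assoc, ← sup_assoc,
      ← sup_assoc, sup_right_comm]
    refine (rl_sup_pow_le L (ξ j) N _).trans (mul_le_mul_right ?_ _)
    rw [sup_right_comm]
    exact ih _

end Alm

/-- Serre vanishing with an explicit bound for a quasi-regular sequence. -/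
theorem hl_serre_level [IsNoetherianRing T] {ξ : Fin (n + 1) → T}
    (hinj : Function.Injective (algebraMap T H)) (hξ : QuasiReg ξ) (σ : Equiv.Perm (Fin n))
    (s i : ℤ) : hl (DM fun j => algebraMap T H (ξ j))
      (famM (fun l => ((σ l : ℕ) : ℤ) + s) (h0Set (fun l => ((σ l : ℕ) : ℤ) + s) (-s))
        (cF H ξ) (-s))
      (famM (fun l => ((σ l : ℕ) : ℤ) + s) (h0Set (fun l => ((σ l : ℕ) : ℤ) + s) (-s))
        (fun _ => (⊥ : Submodule T H)) 0) i = 0 := by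
  set c : Fin n → ℤ := fun l => ((σ l : ℕ) : ℤ) + s with hc
  have hE : IsH0 c (h0Set c (-s)) := isH0_h0Set _
  obtain ⟨m₀, hm₀⟩ := (Alm.isFG_cFp (H := H) ξ).serre' (isGr_bot _) σ s
  obtain ⟨N, hN⟩ : ∃ N : ℕ, m₀ ≤ -s + N := ⟨(m₀ + s).toNat, by omega⟩
  have hp : ∀ m, IsPair (DM fun j => algebraMap T H (ξ j)) (famM c (h0Set c (-s)) (cF H ξ) m)
      (famM c (h0Set c (-s)) (cF H ξ) (m + 1)) :=
    fun m => Alm.pair_level (isGr_cF ξ) (antitone_cF ξ) hE m
  have h1 := hl_chain_le (d := DM fun j => algebraMap T H (ξ j))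
    (fun k : ℕ => famM c (h0Set c (-s)) (cF H ξ) (-s + k)) N
    (fun k _ => by push_cast; rw [← add_assoc]; exact hp _) i
  rw [Finset.sum_eq_zero fun k _ => ?_] at h1
  · simp only [Nat.cast_zero, add_zero] at h1
    have h2 := Alm.hl_cF_cFp (H := H) ξ c (s := s) (m := -s + N) (by omega) i
    have h3 := hm₀ _ hN i
    have p1 : IsPair (DM fun j => algebraMap T H (ξ j)) (famM c (h0Set c (-s)) (cF H ξ) (-s))
        (famM c (h0Set c (-s)) (cF H ξ) (-s + N)) :=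
      isPair_famM hE (isGr_cF ξ) (isGr_cF ξ) fun _ => antitone_cF ξ (by omega)
    have p2 := Dev.pair hE (isGr_cF (H := H) ξ) (Alm.isGr_cFp ξ) (Alm.cFp_le ξ) (-s + N)
    have p3 := Dev.pair hE (Alm.isGr_cFp (H := H) ξ) (isGr_bot _) (fun _ => bot_le) (-s + N)
    have h4 := hl_le_add p2 p3 i
    rw [h2, h3, add_zero] at h4
    have h5 := (hl_le_add p1 (p2.trans p3) i).trans (add_le_add h1 h4)
    rw [add_zero, famM_bot _ 0] at h5
    exact nonpos_iff_eq_zero.1 h5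
  · obtain ⟨φ, hφ⟩ := Alm.iso_layer hinj hξ c (h0Set c (-s)) (-s + k)
    have h2 := hφ.hl_eq (Alm.pair_homog hE _ _) (hp _) i
    rw [add_zero, Alm.hl_layer_h0 _ σ s _ (by omega)] at h2
    push_cast
    rw [← add_assoc]
    exact h2.symm

/-- The layers of the adic filtration of a quasi-regular sequence. -/
theorem LenFn.hl_layer_cF (L : LenFn T) {ξ : Fin (n + 1) → T}
    (hinj : Function.Injective (algebraMap T H)) (hξ : QuasiReg ξ) (c : Fin n → ℤ) (m i : ℤ) :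
    L.hl (DM fun j => algebraMap T H (ξ j)) (famM c ∅ (cF H ξ) m) (famM c ∅ (cF H ξ) (m + 1)) i =
      L.len (T ⧸ Ideal.span (Set.range ξ)) * (boxAt (fun l => c l + m) i : ℝ≥0∞) := by
  obtain ⟨φ, hφ⟩ := Alm.iso_layer hinj hξ c ∅ m
  have h2 := L.hl_eq_of_pairIso hφ (Alm.pair_homog isH0_empty _ _)
    (Alm.pair_level (isGr_cF ξ) (antitone_cF ξ) isH0_empty m) i
  rw [add_zero, Alm.hl_famM_free] at h2
  exact h2.symm

theorem LenFn.len_quot_pow_le (L : LenFn T) {d : ℕ} (ξ : Fin d → T) (N : ℕ) :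
    L.len (T ⧸ Ideal.span (Set.range fun j => ξ j ^ N)) ≤
      (N : ℝ≥0∞) ^ d * L.len (T ⧸ Ideal.span (Set.range ξ)) := by
  have h := Alm.rl_sup_image_le L ξ N Finset.univ ⊥
  rwa [bot_sup_eq, bot_sup_eq, Finset.coe_univ, Set.image_univ, Set.image_univ, L.rl_top,
    L.rl_top, Finset.card_univ, Fintype.card_fin] at h

namespace Alm

theorem pow_mul_mem {ξ : Fin (n + 1) → H} {P : ℤ → Submodule T H} (hP : IsGr ξ P)
    (ha : Antitone P) (N : ℕ) (j : Fin (n + 1)) (a : ℤ) : ∀ x ∈ P a, ξ j ^ N * x ∈ P (a + 0) :=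
  fun _ hx => ha (by omega) (hP.pow_mul j N hx)

theorem totPair {ξ : Fin (n + 1) → H} {P Q : ℤ → Submodule T H} (hP : IsGr ξ P)
    (ha : Antitone P) (hQ : IsGr ξ Q) (ha' : Antitone Q) {c : Fin n → ℤ} {E : Set (Γ n)}
    (hE : IsH0 c E) {m m' : ℤ} (h : ∀ s, Q (m' - s) ≤ P (m - s)) (N : ℕ) :
    IsTotPair (kos fun j => algebraMap H (LR H n) (ξ j ^ N)) kdeg (DM ξ)
      (fun _ => famM c E P m) (fun _ => famM c E Q m') :=
  isTotPair_kos DM_sq (fun _ => isPair_famM hE hP hQ h)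
    (fun j _ i _ x hx => by
      simpa only [add_zero] using smul_mem_famM (pow_mul_mem hP ha N j) m i x hx)
    fun j _ i _ x hx => by
      simpa only [add_zero] using smul_mem_famM (pow_mul_mem hQ ha' N j) m' i x hx

/-- Koszul complexes of a pair which is divisible and torsion free up to `θ`. -/
theorem hl_kos_divisible {L : LenFn T} {θ ϖ : T} (hL : L.Kills θ) {B : Type u} [CommRing B]
    [Algebra T B] {M : Type u} [AddCommGroup M] [Module B M] [Module T M] [IsScalarTower T B M]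
    {J : Type} [Fintype J] [LinearOrder J] {b : J → B} {d : M →ₗ[B] M} {A A₀ : ℤ → Submodule T M}
    (h : IsTotPair (kos b) kdeg d (fun _ => A) (fun _ => A₀)) (g : J → T)
    (hg : ∑ j, algebraMap T B (g j) * b j = algebraMap T B ϖ)
    (h4 : ∀ i, ∀ x ∈ A i, ∃ z ∈ A i, θ • x - ϖ • z ∈ A₀ i)
    (h5 : ∀ i, ∀ x ∈ A i, ϖ • x ∈ A₀ i → θ • x ∈ A₀ i) (i : ℤ) :
    L.hl (tot (kos b) kdeg d) (totFam kdeg fun _ => A) (totFam kdeg fun _ => A₀) i = 0 := by
  refine hL.hl_eq_zero_of_divisible h.isPair ϖ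
    ((matAct (∑ j, creMat j (algebraMap T B (g j)))).restrictScalars T)
    (kb_mem fun j S i _ x hx => ?_) (kb_mem fun j S i _ x hx => ?_) (fun x => ?_)
    (fun i x hx => ?_) (fun i x hx hx' => ?_) i
  · rw [algebraMap_smul]
    exact Submodule.smul_mem _ _ hx
  · rw [algebraMap_smul]
    exact Submodule.smul_mem _ _ hx
  · rw [LinearMap.restrictScalars_apply, LinearMap.restrictScalars_apply, kb_homotopy, hg,
      algebraMap_smul]
  · choose z hz hz' using fun S => h4 _ _ (mem_totFam.1 hx S)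
    exact ⟨z, mem_totFam.2 hz, mem_totFam.2 hz'⟩
  · exact mem_totFam.2 fun S => h5 _ _ (mem_totFam.1 hx S) (mem_totFam.1 hx' S)

theorem totPair_conc {b : Fin (n + 1) → H} {P Q : Submodule T H} (h : Q ≤ P)
    (hP : ∀ j, ∀ x ∈ P, b j * x ∈ P) (hQ : ∀ j, ∀ x ∈ Q, b j * x ∈ Q) :
    IsTotPair (kos b) kdeg (0 : H →ₗ[H] H) (fun _ => conc P) (fun _ => conc Q) :=
  isTotPair_kos (fun _ => rfl)
    (fun _ => ⟨fun _ => rfl, isFam_conc _, isFam_conc _, GFA.conc_mono h⟩)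
    (fun j _ i _ => Lb.conc_map (φ := fun x => b j • x) (smul_zero _) (hP j) i)
    fun j _ i _ => Lb.conc_map (φ := fun x => b j • x) (smul_zero _) (hQ j) i

theorem kosBot_eq (ξ : Fin (n + 1) → T) (N : ℕ) (U S : Finset (Fin (n + 1))) :
    kosBot (fun j => algebraMap T H (ξ j) ^ N) (fun _ => conc (cF H ξ 0))
      (fun _ => conc (⊥ : Submodule T H)) U S 0 =
    Submodule.map (Algebra.linearMap T H)
      (Ideal.span ((fun j => ξ j ^ N) '' (U : Set (Fin (n + 1)))) : Ideal T) := by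
  refine le_antisymm (kosBot_le bot_le fun k hk y hy => ?_) ?_
  · obtain ⟨a, -, rfl⟩ := mem_cF.1 hy
    refine ⟨ξ k ^ N * a, Ideal.mul_mem_right _ _ (Ideal.subset_span ⟨k, hk, rfl⟩), ?_⟩
    rw [Algebra.linearMap_apply, map_mul, map_pow, smul_eq_mul]
  · rw [Submodule.map_le_iff_le_comap]
    refine Ideal.span_le.2 ?_
    rintro _ ⟨k, hk, rfl⟩
    have := smul_mem_kosBot (b := fun j => algebraMap T H (ξ j) ^ N)
      (L := fun _ => conc (cF H ξ 0)) (L' := fun _ => conc (⊥ : Submodule T H)) (U := U) (S := S)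
      (i := 0) hk (alg_mem_cF ξ 1)
    rw [map_one, smul_eq_mul, mul_one, ← map_pow] at this
    exact this

theorem hl_kos_cF (L : LenFn T) {ξ : Fin (n + 1) → T} {N : ℕ}
    (hinj : Function.Injective (algebraMap T H)) (hreg : RegAny fun j => ξ j ^ N) (i : ℤ) :
    L.hl (tot (kos fun j => algebraMap T H (ξ j) ^ N) kdeg (0 : H →ₗ[H] H))
      (totFam kdeg fun _ => conc (cF H ξ 0)) (totFam kdeg fun _ => conc (⊥ : Submodule T H)) i ≤
    if i = 0 then L.len (T ⧸ Ideal.span (Set.range fun j => ξ j ^ N)) else 0 := by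
  have tp : IsTotPair (kos fun j => algebraMap T H (ξ j) ^ N) kdeg (0 : H →ₗ[H] H)
      (fun _ => conc (cF H ξ 0)) (fun _ => conc (⊥ : Submodule T H)) :=
    totPair_conc bot_le (fun j x hx => by
      simpa only [add_zero] using pow_mul_mem (isGr_cF ξ) (antitone_cF ξ) N j 0 x hx)
      fun j x hx => by rw [(Submodule.mem_bot T).1 hx, mul_zero]; exact zero_mem _
  obtain ⟨t1, t2, t3⟩ := hl_kosKer_eq_zero tp fun U j S i hjU _ _ w hw h => by
    by_cases hi : i = 0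
    · subst hi
      rw [kosBot_eq] at h ⊢
      obtain ⟨a, -, rfl⟩ := mem_cF.1 hw
      obtain ⟨y, hy, e⟩ := h
      rw [Algebra.linearMap_apply, smul_eq_mul, ← map_pow, ← map_mul] at e
      rw [hinj e] at hy
      exact ⟨a, hreg U j hjU a hy, rfl⟩
    · rw [conc, if_neg hi] at hw
      rw [(Submodule.mem_bot T).1 hw]
      exact zero_mem _
  refine (L.hl_le_add t1.isPair t2.isPair i).trans ?_
  rw [L.hl_eq_zero_of_hl (t3 i), add_zero, L.hl_tot_single t1 ∅ fun S hS => (if_neg hS).symm]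
  refine (L.hl_le_rl _ _ _ _).trans ?_
  rw [show i - kdeg (∅ : Finset (Fin (n + 1))) = i by simp [kdeg]]
  split_ifs with hi
  · subst hi
    rw [kosKer, if_pos rfl, kosBot_eq, Finset.coe_univ, Set.image_univ, ← L.rl_top]
    refine L.rl_le_of_map_surj (Algebra.linearMap T H) (fun x hx => ⟨x, hx.2, rfl⟩) fun y hy => ?_
    obtain ⟨a, -, rfl⟩ := mem_cF.1 hy
    exact ⟨a, trivial, by rw [Algebra.linearMap_apply, sub_self]; exact zero_mem _⟩
  · rw [conc, if_neg hi]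
    exact (L.rl_of_le bot_le).le

end Alm

theorem AData.lData {L : LenFn T} {ξ : Fin (n + 1) → T} {P : ℤ → Submodule T H} {N : ℕ}
    {θ ϖ : T} (h : AData ξ P N θ ϖ) (hL : L.Kills θ) {Λ : ℝ≥0}
    (hΛ : L.len (T ⧸ Ideal.span (Set.range ξ)) = Λ)
    (hSV : ∀ (σ : Equiv.Perm (Fin n)) (s i : ℤ), L.hl (DM fun j => algebraMap T H (ξ j))
      (famM (fun l => ((σ l : ℕ) : ℤ) + s) (h0Set (fun l => ((σ l : ℕ) : ℤ) + s) (-s))
        (cF H ξ) (-s))
      (famM (fun l => ((σ l : ℕ) : ℤ) + s) (h0Set (fun l => ((σ l : ℕ) : ℤ) + s) (-s))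
        (fun _ => (⊥ : Submodule T H)) 0) i = 0) :
    LData L (fun j => algebraMap T H (ξ j)) P N Λ := by
  obtain ⟨g, hg⟩ := Ideal.mem_span_range_iff_exists_fun.1 h.mem
  have hϖ : ∀ j, ∀ z ∈ P j, ϖ • z ∈ P (j + 1) := by
    intro j z hz
    rw [← hg, Finset.sum_smul]
    refine Submodule.sum_mem _ fun k _ => ?_
    rw [mul_smul, Algebra.smul_def (ξ k ^ N), map_pow]
    exact Submodule.smul_mem _ _ (h.anti (by have := h.pos; omega) (h.gr.pow_mul k N hz))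
  have kos0 : ∀ i, L.hl (tot (kos fun j => algebraMap T H (ξ j) ^ N) kdeg (0 : H →ₗ[H] H))
      (totFam kdeg fun _ => conc (P 0)) (totFam kdeg fun _ => conc (⊥ : Submodule T H)) i ≤
      if i = 0 then L.len (T ⧸ Ideal.span (Set.range fun j => ξ j ^ N)) else 0 := by
    intro i
    have hc : ∀ j, ∀ x ∈ cF H ξ 0, algebraMap T H (ξ j) ^ N * x ∈ cF H ξ 0 := fun j x hx => by
      simpa only [add_zero] using Alm.pow_mul_mem (isGr_cF ξ) (antitone_cF ξ) N j 0 x hx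
    have t1 := Alm.totPair_conc (b := fun j => algebraMap T H (ξ j) ^ N) (h.le 0)
      (fun j x hx => by simpa only [add_zero] using Alm.pow_mul_mem h.gr h.anti N j 0 x hx) hc
    have t2 := Alm.totPair_conc (b := fun j => algebraMap T H (ξ j) ^ N)
      (bot_le : ⊥ ≤ cF H ξ 0) hc
      fun j x hx => by rw [(Submodule.mem_bot T).1 hx, mul_zero]; exact zero_mem _
    refine (L.hl_le_add t1.isPair t2.isPair i).trans ?_
    rw [Alm.hl_kos_divisible (ϖ := ϖ) hL t1 g (by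
      rw [← hg, map_sum]
      simp only [map_mul, map_pow]) (fun i x hx => ?_) (fun i x hx hx' => ?_), zero_add]
    · exact Alm.hl_kos_cF L h.inj h.reg i
    · unfold conc at hx ⊢
      split_ifs at hx ⊢
      · exact h.p1 0 x hx
      · exact ⟨0, zero_mem _, by rw [smul_zero, sub_zero]; exact Submodule.smul_mem _ _ hx⟩
    · unfold conc at hx hx' ⊢
      split_ifs at hx hx' ⊢
      · exact h.p2 0 x hx hx'
      · exact Submodule.smul_mem _ _ hx
  refine ⟨h.gr, h.anti, fun c m i => ?_, fun σ s i => ?_, fun i => ?_, fun i hi => ?_⟩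
  · rw [hL.hl_eq_of_almost (Alm.pair_level h.gr h.anti isH0_empty m)
      (Alm.pair_level (isGr_cF ξ) (antitone_cF ξ) isH0_empty m)
      (famM_mono fun _ => h.le _) (famM_mono fun _ => h.le _) (fun j x hx => ?_)
      (fun j x hx hx' => ?_) i, L.hl_layer_cF h.inj h.qr, hΛ]
    · obtain ⟨w, hw, hw'⟩ := Alm.famM_choice' (P₂ := P) (P₃ := cF H ξ) (m₂ := m + 1) (m₃ := m)
        θ 1 (fun s y hy => by
          obtain ⟨z, hz, hz'⟩ := h.p1 _ y hy
          exact ⟨ϖ • z, by rw [add_sub_right_comm]; exact hϖ _ z hz, by rwa [one_smul]⟩) hx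
      rw [one_smul] at hw'
      exact Submodule.mem_sup.2 ⟨_, hw', w, hw, sub_add_cancel _ _⟩
    · exact Alm.famM_imp' (P₂ := P) (m₂ := m + 1) θ 1 (fun s y hy hy' =>
        h.p3 _ y (by rwa [one_smul] at hy') (Alm.cF_le_zero ξ _ hy)) hx (by rwa [one_smul])
  · have hE := isH0_h0Set (c := fun l => ((σ l : ℕ) : ℤ) + s) (-s)
    have t1 := Alm.totPair h.gr h.anti (isGr_cF ξ) (antitone_cF ξ) hE
      (m := -s) (m' := -s) (fun _ => h.le _) N
    have t2 := Alm.totPair (isGr_cF (H := H) ξ) (antitone_cF ξ) (isGr_bot _) antitone_const hE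
      (m := -s) (m' := 0) (fun _ => bot_le) N
    refine nonpos_iff_eq_zero.1 ((L.hl_le_add t1.isPair t2.isPair i).trans ?_)
    rw [Alm.hl_kos_divisible (ϖ := ϖ) hL t1 g (by
      rw [← hg, map_sum]
      simp only [map_mul, map_pow, ← IsScalarTower.algebraMap_apply])
      (fun i x hx => Alm.famM_choice' θ ϖ (fun _ => h.p1 _) hx)
      (fun i x hx hx' => Alm.famM_imp' θ ϖ (fun _ => h.p2 _) hx hx'), zero_add]
    exact (L.hl_tot_le t2 i).trans (Finset.sum_eq_zero fun S _ => hSV σ s _).le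
  · refine ne_top_of_le_ne_top ?_ (kos0 i)
    split_ifs
    · refine ne_top_of_le_ne_top ?_ (L.len_quot_pow_le ξ N)
      rw [hΛ]
      exact ENNReal.mul_ne_top (ENNReal.pow_ne_top (ENNReal.natCast_ne_top N)) ENNReal.coe_ne_top
    · exact ENNReal.zero_ne_top
  · have := kos0 i
    rw [if_neg (by omega)] at this
    exact nonpos_iff_eq_zero.1 this

end Vale.Agent.P202
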