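import Vale.Agent.P202.ApproxGen

/-! Auxiliary lemmas for the approximation theorem. -/

namespace Vale.Agent.P202

open Polynomial

universe u v w

/-- Evaluation of a polynomial with coefficients in `ℤ[z]`. -/
noncomputable def apE {σ : Type} {D : Type v} [CommRing D] (z : σ → D) (T : D) :
    (MvPolynomial σ ℤ)[X] →+* D :=
  Polynomial.eval₂RingHom (MvPolynomial.eval₂Hom (Int.castRingHom D) z) T

theorem apE_apply {σ : Type} {D : Type v} [CommRing D] (z : σ → D) (T : D)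
    (Q : (MvPolynomial σ ℤ)[X]) :
    apE z T Q = Q.eval₂ (MvPolynomial.eval₂Hom (Int.castRingHom D) z) T := rfl

theorem apE_C {σ : Type} {D : Type v} [CommRing D] (z : σ → D) (T : D)
    (h : MvPolynomial σ ℤ) :
    apE z T (C h) = MvPolynomial.eval₂Hom (Int.castRingHom D) z h := by
  rw [apE_apply, eval₂_C]

theorem apE_map {σ : Type} {D : Type u} {D' : Type v} [CommRing D] [CommRing D'] (f : D →+* D')
    (z : σ → D) (T : D) (Q : (MvPolynomial σ ℤ)[X]) :
    f (apE z T Q) = apE (fun i => f (z i)) (f T) Q := by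
  rw [apE_apply, apE_apply, Polynomial.hom_eval₂, MvPolynomial.comp_eval₂Hom]
  congr 2
  exact RingHom.ext_int _ _

theorem apE_sub_dvd {σ : Type} {D : Type v} [CommRing D] (z z' : σ → D) (T T' m : D)
    (hz : ∀ i, m ∣ z i - z' i) (hT : m ∣ T - T') (Q : (MvPolynomial σ ℤ)[X]) :
    m ∣ apE z T Q - apE z' T' Q := by
  rw [← Ideal.mem_span_singleton, ← Ideal.Quotient.eq, apE_map, apE_map]
  have h1 : (fun i => Ideal.Quotient.mk (Ideal.span {m}) (z i)) =
      fun i => Ideal.Quotient.mk (Ideal.span {m}) (z' i) := by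
    funext i
    exact Ideal.Quotient.eq.2 (Ideal.mem_span_singleton.2 (hz i))
  have h2 : Ideal.Quotient.mk (Ideal.span {m}) T = Ideal.Quotient.mk (Ideal.span {m}) T' :=
    Ideal.Quotient.eq.2 (Ideal.mem_span_singleton.2 hT)
  rw [h1, h2]

theorem approx_surj {A : Type u} [CommRing A] {I : Ideal A} [IsAdicComplete I A] {g : A[X]}
    (H : g.IsDistinguishedAt I) (s : PowerSeries A) :
    ∃ q : A[X], (g : PowerSeries A) ∣ (q : PowerSeries A) - s := by
  obtain ⟨q, hq⟩ := H.algEquivQuotient.surjective (Ideal.Quotient.mk _ s)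
  obtain ⟨q, rfl⟩ := Ideal.Quotient.mk_surjective q
  refine ⟨q, ?_⟩
  rw [← Ideal.mem_span_singleton, ← Ideal.Quotient.eq, ← hq]
  simp

theorem approx_inj {A : Type u} [CommRing A] {I : Ideal A} [IsAdicComplete I A] {g : A[X]}
    (H : g.IsDistinguishedAt I) (q : A[X]) (h : (g : PowerSeries A) ∣ (q : PowerSeries A)) :
    g ∣ q := by
  rw [← Ideal.mem_span_singleton, ← Ideal.Quotient.eq_zero_iff_mem]
  apply H.algEquivQuotient.injective
  rw [map_zero]
  have : H.algEquivQuotient (Ideal.Quotient.mk _ q) = Ideal.Quotient.mk _ (q : PowerSeries A) := by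
    simp
  rw [this, Ideal.Quotient.eq_zero_iff_mem, Ideal.mem_span_singleton]
  exact h

theorem approx_X_distinguished {A : Type u} [CommRing A] [Nontrivial A] (I : Ideal A) :
    (X : A[X]).IsDistinguishedAt I := by
  refine ⟨⟨fun {n} hn => ?_⟩, monic_X⟩
  rw [natDegree_X] at hn
  have : n = 0 := by omega
  subst this
  simp

/-- The characteristic zero half of the induction step. -/
theorem approx_char0 {A : Type u} [CommRing A] [IsDomain A] [IsLocalRing A]
    [IsAdicComplete (IsLocalRing.maximalIdeal A) A] {σ : Type} {ι : Type v} (Ω : Set ι)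
    (z : σ → PowerSeries A) (T : PowerSeries A) (z₀ : σ → Option A[X])
    (hz₀ : ∀ i q, z₀ i = some q → z i = q) (P Q : (MvPolynomial σ ℤ)[X])
    (R : ι → (MvPolynomial σ ℤ)[X]) (hP : apE z T P = 0)
    (hQ : PowerSeries.map (IsLocalRing.residue A) (apE z T Q) ≠ 0)
    (hR : ∀ ω ∈ Ω, apE z T Q ∣ apE z T (R ω)) :
    ∃ (z₁ : σ → A[X]) (T₁ W υ β : A[X]) (η : ι → A[X]) (c : A),
      (∀ i q, z₀ i = some q → z₁ i = q) ∧ W.Monic ∧ υ.coeff 0 * c = 1 ∧
      apE z₁ T₁ Q = υ * W ∧ apE z₁ T₁ P = X * W * β ∧ ∀ ω ∈ Ω, apE z₁ T₁ (R ω) = W * η ω := by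
  classical
  obtain ⟨W, U, hW⟩ := PowerSeries.exists_isWeierstrassFactorization hQ
  have hXW : (X * W).IsDistinguishedAt (IsLocalRing.maximalIdeal A) :=
    (approx_X_distinguished _).mul hW.isDistinguishedAt
  have hz : ∀ i, ∃ q : A[X], ((X * W : A[X]) : PowerSeries A) ∣ (q : PowerSeries A) - z i ∧
      ∀ q', z₀ i = some q' → q = q' := by
    intro i
    rcases h : z₀ i with _ | q
    · obtain ⟨q, hq⟩ := approx_surj hXW (z i)
      exact ⟨q, hq, fun q' h' => by cases h'⟩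
    · refine ⟨q, by rw [hz₀ i q h]; simp, fun q' h' => by cases h'; rfl⟩
  choose z₁ hz₁ hz₁' using hz
  obtain ⟨T₁, hT₁⟩ := approx_surj hXW T
  have key : ∀ S : (MvPolynomial σ ℤ)[X], ((X * W : A[X]) : PowerSeries A) ∣
      ((apE z₁ T₁ S : A[X]) : PowerSeries A) - apE z T S := by
    intro S
    have := apE_map (Polynomial.coeToPowerSeries.ringHom (R := A)) z₁ T₁ S
    rw [Polynomial.coeToPowerSeries.ringHom_apply] at this
    rw [this]
    exact apE_sub_dvd _ _ _ _ _ hz₁ hT₁ S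
  have hWXW : (W : PowerSeries A) ∣ ((X * W : A[X]) : PowerSeries A) := by
    rw [Polynomial.coe_mul]; exact dvd_mul_left _ _
  have hWQ : (W : PowerSeries A) ∣ apE z T Q := by rw [hW.eq_mul]; exact dvd_mul_right _ _
  have hW0 : (W : PowerSeries A) ≠ 0 := by
    intro h
    exact hW.isDistinguishedAt.monic.ne_zero (Polynomial.coe_injective A (by rw [h]; simp))
  obtain ⟨υ, hυ⟩ : W ∣ apE z₁ T₁ Q := by
    apply approx_inj hW.isDistinguishedAt
    have := dvd_add (hWXW.trans (key Q)) hWQ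
    simpa using this
  obtain ⟨β, hβ⟩ : X * W ∣ apE z₁ T₁ P := by
    apply approx_inj hXW
    have := key P
    rwa [hP, sub_zero] at this
  have hη : ∀ ω, ∃ η : A[X], ω ∈ Ω → apE z₁ T₁ (R ω) = W * η := by
    intro ω
    by_cases hω : ω ∈ Ω
    · obtain ⟨η, hη⟩ : W ∣ apE z₁ T₁ (R ω) := by
        apply approx_inj hW.isDistinguishedAt
        have := dvd_add (hWXW.trans (key (R ω))) (hWQ.trans (hR ω hω))
        simpa using this
      exact ⟨η, fun _ => hη⟩
    · exact ⟨0, fun h => absurd h hω⟩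
  choose η hη using hη
  have hc : IsUnit (υ.coeff 0) := by
    obtain ⟨s, hs⟩ := key Q
    rw [hυ, hW.eq_mul, Polynomial.coe_mul, Polynomial.coe_mul, Polynomial.coe_X] at hs
    have h1 : (υ : PowerSeries A) = U + PowerSeries.X * s := by
      apply mul_left_cancel₀ hW0
      linear_combination hs
    have h2 := congrArg PowerSeries.constantCoeff h1
    rw [Polynomial.constantCoeff_coe, map_add, map_mul, PowerSeries.constantCoeff_X, zero_mul,
      add_zero] at h2
    rw [h2]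
    exact PowerSeries.isUnit_iff_constantCoeff.1 hW.isUnit
  obtain ⟨c, hc⟩ := hc.exists_right_inv
  exact ⟨z₁, T₁, W, υ, β, η, c, fun i q h => hz₁' i q h, hW.isDistinguishedAt.monic, hc,
    by rw [hυ, mul_comm], hβ, fun ω hω => hη ω hω⟩

/-- The characteristic `p` half of the induction step. -/
theorem approx_charp {B : Type u} [CommRing B] [IsDomain B] (t : B)
    [IsAdicComplete (Ideal.span {t}) B] {σ : Type} {ι : Type v} (Ω : Set ι)
    (z : σ → B) (T : B) (P G : (MvPolynomial σ ℤ)[X]) (h : MvPolynomial σ ℤ)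
    (H : ι → (MvPolynomial σ ℤ)[X]) (W υ β : B) (η : ι → B) (hW : W ≠ 0) (hυ : IsUnit υ)
    (hQ : apE z T (P.derivative ^ 2 * C h * G) = υ * W) (hP : apE z T P = t * W * β)
    (hR : ∀ ω ∈ Ω, apE z T (P.derivative ^ 2 * G * H ω) = W * η ω) :
    ∃ T' : B, apE z T' P = 0 ∧ apE z T' (C h) ≠ 0 ∧ apE z T' G ≠ 0 ∧
      ∀ ω ∈ Ω, apE z T' (C h) ∣ apE z T' (H ω) := by
  set φ := MvPolynomial.eval₂Hom (Int.castRingHom B) z with hφ
  have hE : ∀ (T' : B) (S : (MvPolynomial σ ℤ)[X]), apE z T' S = (S.map φ).eval T' := by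
    intro T' S
    rw [apE_apply, eval₂_eq_eval_map]
  obtain ⟨υ', hυ'⟩ := hυ.exists_right_inv
  simp only [map_mul, map_pow, apE_C] at hQ hR
  set Δ := apE z T P.derivative with hΔ
  set G₀ := apE z T G with hG₀
  have hne : Δ ^ 2 * φ h * G₀ ≠ 0 := by
    rw [hQ]; exact mul_ne_zero hυ.ne_zero hW
  have hΔ0 : Δ ≠ 0 := by intro h0; apply hne; rw [h0]; ring
  have hh0 : φ h ≠ 0 := by intro h0; apply hne; rw [h0]; ring
  have hG0 : G₀ ≠ 0 := by intro h0; apply hne; rw [h0]; ring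
  have hWeq : W = υ' * (Δ ^ 2 * φ h * G₀) := by
    rw [hQ]; linear_combination (-W) * hυ'
  have hder : (P.map φ).derivative.eval T = Δ := by
    rw [derivative_map, hΔ, hE]
  obtain ⟨ε, hε⟩ := exists_root_near (Ideal.span {t}) (P.map φ) T (t * (β * υ' * φ h * G₀))
    (Ideal.mem_span_singleton.2 (dvd_mul_right _ _)) (by
      rw [hder, ← hE, hP, hWeq]; ring)
  rw [hder] at hε
  set T' := T + Δ * (t * (β * υ' * φ h * G₀)) * ε with hT'
  have hsub : ∀ S : (MvPolynomial σ ℤ)[X], t * φ h * G₀ ∣ apE z T' S - apE z T S := by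
    intro S
    rw [hE, hE]
    refine Dvd.dvd.trans ?_ (Polynomial.sub_dvd_eval_sub T' T _)
    exact ⟨Δ * β * υ' * ε, by rw [hT']; ring⟩
  refine ⟨T', by rw [hE]; exact hε, by rw [apE_C]; exact hh0, ?_, ?_⟩
  · obtain ⟨s, hs⟩ := hsub G
    have h1 : apE z T' G = G₀ * (1 + t * (φ h * s)) := by linear_combination hs
    rw [h1]
    refine mul_ne_zero hG0 (IsUnit.ne_zero ?_)
    have hj : t * (φ h * s) ∈ (⊥ : Ideal B).jacobson :=
      IsAdicComplete.le_jacobson_bot (Ideal.span {t})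
        (Ideal.mem_span_singleton.2 (dvd_mul_right _ _))
    have := Ideal.mem_jacobson_bot.1 hj 1
    rwa [mul_one, add_comm] at this
  · intro ω hω
    rw [apE_C]
    obtain ⟨s, hs⟩ := hsub (H ω)
    have h1 : apE z T (H ω) = φ h * (υ' * η ω) := by
      apply mul_left_cancel₀ (mul_ne_zero (pow_ne_zero 2 hΔ0) hG0)
      rw [hR ω hω, hWeq]; ring
    exact ⟨υ' * η ω + t * G₀ * s, by linear_combination hs + h1⟩

theorem approx_coeffs {A : Type u} [CommRing A] (S : Set A[X]) (hS : S.Finite) :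
    ∃ Ω : Finset A, ∀ C' : Subring A, (Ω : Set A) ⊆ C' → ∀ q ∈ S, ∀ n, q.coeff n ∈ C' := by
  classical
  refine ⟨hS.toFinset.biUnion Polynomial.coeffs, fun C' hC q hq n => ?_⟩
  by_cases h : q.coeff n = 0
  · rw [h]; exact C'.zero_mem
  · apply hC
    rw [Finset.mem_coe, Finset.mem_biUnion]
    exact ⟨q, hS.mem_toFinset.2 hq, Polynomial.coeff_mem_coeffs h⟩

theorem approx_lift {A : Type u} [CommRing A] (C' : Subring A) (q : A[X])
    (hq : ∀ n, q.coeff n ∈ C') : ∃ q' : C'[X], q'.map C'.subtype = q := by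
  rw [← Polynomial.mem_lifts, Polynomial.lifts_iff_coeff_lifts]
  intro n
  exact ⟨⟨_, hq n⟩, rfl⟩

/-- Transport of the polynomial identities along a homomorphism defined on a subring. -/
theorem approx_transfer {A : Type u} {B : Type v} [CommRing A] [CommRing B] [Nontrivial B]
    (C' : Subring A) (f : C' →+* B) {σ : Type} {ι : Type w} (Ω : Set ι)
    (z₁ : σ → A[X]) (T₁ W υ β : A[X]) (η : ι → A[X]) (c : A)
    (P Q : (MvPolynomial σ ℤ)[X]) (R : ι → (MvPolynomial σ ℤ)[X])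
    (hz : ∀ i n, (z₁ i).coeff n ∈ C') (hT : ∀ n, T₁.coeff n ∈ C') (hW : ∀ n, W.coeff n ∈ C')
    (hυ : ∀ n, υ.coeff n ∈ C') (hβ : ∀ n, β.coeff n ∈ C')
    (hη : ∀ ω ∈ Ω, ∀ n, (η ω).coeff n ∈ C') (hc : c ∈ C')
    (hWm : W.Monic) (hυc : υ.coeff 0 * c = 1) (hQ : apE z₁ T₁ Q = υ * W)
    (hP : apE z₁ T₁ P = X * W * β) (hR : ∀ ω ∈ Ω, apE z₁ T₁ (R ω) = W * η ω) :
    ∃ (z' : σ → PowerSeries B) (T' W' υ' β' : PowerSeries B) (η' : ι → PowerSeries B),
      (∀ i (q : C'[X]), z₁ i = q.map C'.subtype → z' i = ((q.map f : B[X]) : PowerSeries B)) ∧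
      W' ≠ 0 ∧ IsUnit υ' ∧ apE z' T' Q = υ' * W' ∧ apE z' T' P = PowerSeries.X * W' * β' ∧
      ∀ ω ∈ Ω, apE z' T' (R ω) = W' * η' ω := by
  classical
  have hinj : Function.Injective (Polynomial.map C'.subtype) :=
    Polynomial.map_injective _ C'.subtype_injective
  choose z₂ hz₂ using fun i => approx_lift C' (z₁ i) (hz i)
  obtain ⟨T₂, hT₂⟩ := approx_lift C' T₁ hT
  obtain ⟨W₂, hW₂⟩ := approx_lift C' W hW
  obtain ⟨υ₂, hυ₂⟩ := approx_lift C' υ hυ
  obtain ⟨β₂, hβ₂⟩ := approx_lift C' β hβ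
  have hη' : ∀ ω, ∃ q : C'[X], ω ∈ Ω → q.map C'.subtype = η ω := by
    intro ω
    by_cases hω : ω ∈ Ω
    · obtain ⟨q, hq⟩ := approx_lift C' (η ω) (hη ω hω)
      exact ⟨q, fun _ => hq⟩
    · exact ⟨0, fun h => absurd h hω⟩
  choose η₂ hη₂ using hη'
  have key : ∀ S, (apE z₂ T₂ S).map C'.subtype = apE z₁ T₁ S := by
    intro S
    have := apE_map (Polynomial.mapRingHom C'.subtype) z₂ T₂ S
    simp only [Polynomial.coe_mapRingHom, hz₂, hT₂] at this
    exact this
  let F : C'[X] →+* PowerSeries B :=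
    (Polynomial.coeToPowerSeries.ringHom (R := B)).comp (Polynomial.mapRingHom f)
  have hF : ∀ q, F q = ((q.map f : B[X]) : PowerSeries B) := fun q => rfl
  refine ⟨fun i => F (z₂ i), F T₂, F W₂, F υ₂, F β₂, fun ω => F (η₂ ω), ?_, ?_, ?_, ?_, ?_, ?_⟩
  · intro i q hq
    have : z₂ i = q := hinj (by rw [hz₂, hq])
    simp only [this, hF]
  · have h1 : W₂.Monic := Polynomial.monic_of_injective C'.subtype_injective (hW₂ ▸ hWm)
    intro h0
    rw [hF] at h0
    exact (h1.map f).ne_zero (Polynomial.coe_injective B (by rw [h0]; simp))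
  · rw [PowerSeries.isUnit_iff_constantCoeff, hF, Polynomial.constantCoeff_coe, coeff_map]
    have h1 : υ₂.coeff 0 * ⟨c, hc⟩ = 1 := by
      apply C'.subtype_injective
      rw [map_mul, map_one, ← coeff_map, hυ₂]
      exact hυc
    exact (IsUnit.of_mul_eq_one _ h1).map f
  · rw [← apE_map, ← map_mul]
    congr 1
    apply hinj
    rw [key, hQ, Polynomial.map_mul, hυ₂, hW₂]
  · have hX : F X = PowerSeries.X := by rw [hF, map_X, Polynomial.coe_X]
    rw [← apE_map, ← hX, ← map_mul, ← map_mul]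
    congr 1
    apply hinj
    rw [key, hP, Polynomial.map_mul, Polynomial.map_mul, map_X, hβ₂, hW₂]
  · intro ω hω
    rw [← apE_map, ← map_mul]
    congr 1
    apply hinj
    rw [key, hR ω hω, Polynomial.map_mul, hη₂ ω hω, hW₂]

theorem approx_jacobson_int : IsJacobsonRing ℤ := by
  rw [isJacobsonRing_iff_prime_eq]
  intro P hP
  by_cases h : P = ⊥
  · subst h
    refine le_antisymm (fun x hx => ?_) Ideal.le_jacobson
    have h1 := Int.isUnit_iff.1 (Ideal.mem_jacobson_bot.1 hx x)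
    rw [Ideal.mem_bot]
    rcases h1 with h1 | h1 <;> nlinarith [mul_self_nonneg x]
  · have : P.IsMaximal := hP.isMaximal h
    exact Ideal.jacobson_eq_self_of_isMaximal

/-- A finitely generated subring of a nonzero ring maps to a field of prime characteristic. -/
theorem approx_field {A : Type u} [CommRing A] [Nontrivial A] (s : Set A) (hs : s.Finite) :
    ∃ (p : ℕ) (_ : Fact p.Prime) (l' : Type u) (_ : Field l') (_ : CharP l' p)
      (C' : Subring A) (_ : C' →+* l'), s ⊆ C' := by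
  let C₀ : Subalgebra ℤ A := Algebra.adjoin ℤ s
  have : Algebra.FiniteType ℤ C₀ := Algebra.FiniteType.adjoin_of_finite hs
  obtain ⟨m, hm⟩ := Ideal.exists_maximal C₀
  let : Field (C₀ ⧸ m) := Ideal.Quotient.field m
  have : Algebra.FiniteType ℤ (C₀ ⧸ m) :=
    Algebra.FiniteType.of_surjective (Ideal.Quotient.mkₐ ℤ m) (Ideal.Quotient.mkₐ_surjective ℤ m)
  have := approx_jacobson_int
  have : Module.Finite ℤ (C₀ ⧸ m) := finite_of_finite_type_of_isJacobsonRing ℤ (C₀ ⧸ m)
  obtain ⟨p, hp⟩ := CharP.exists (C₀ ⧸ m)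
  rcases CharP.char_is_prime_or_zero (C₀ ⧸ m) p with h | h
  · exact ⟨p, ⟨h⟩, C₀ ⧸ m, inferInstance, hp, C₀.toSubring, Ideal.Quotient.mk m,
      Algebra.subset_adjoin⟩
  · exfalso
    subst h
    have : CharZero (C₀ ⧸ m) := CharP.charP_to_charZero _
    exact Int.not_isField (isField_of_isIntegral_of_isField (R := ℤ) (S := C₀ ⧸ m)
      (RingHom.injective_int _) (Field.toIsField _))

end Vale.Agent.P202
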