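import Mathlib

/-! P202, module M4a, part 1: formal smoothness of fields and lifting of fields. -/

namespace Vale.Agent.P202

open IsLocalRing Polynomial

universe u v

theorem cohen_lift_charP (p : ℕ) [hp : Fact p.Prime] {K : Type u} [Field K] {B : Type v}
    [CommRing B] [CharP (K × B) p] [CharP K p] (I : Ideal B) (hI : I ^ 2 = ⊥)
    (g : K →+* B ⧸ I) : ∃ f : K →+* B, (Ideal.Quotient.mk I).comp f = g := by
  classical
  let Γ : Subring (K × B) :=
    RingHom.eqLocus (g.comp (RingHom.fst K B)) ((Ideal.Quotient.mk I).comp (RingHom.snd K B))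
  have hΓ : ∀ z : K × B, z ∈ Γ ↔ g z.1 = Ideal.Quotient.mk I z.2 := fun z => Iff.rfl
  have hlift : ∀ x : K, ∃ b, (x, b) ∈ Γ := fun x => by
    obtain ⟨b, hb⟩ := Ideal.Quotient.mk_surjective (g x)
    exact ⟨b, hb.symm⟩
  let s : Set (Subring (K × B)) := {S | S ≤ Γ ∧ ∀ z ∈ S, z.1 = 0 → z = 0}
  have h0 : Γ.map (frobenius (K × B) p) ∈ s := by
    constructor
    · rintro _ ⟨z, hz, rfl⟩
      exact Γ.pow_mem hz p
    · rintro _ ⟨z, hz, rfl⟩ h
      have h1 : z.1 = 0 := by
        rw [frobenius_def, Prod.pow_fst] at h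
        exact (pow_eq_zero_iff hp.out.ne_zero).mp h
      have h2 : z.2 ∈ I := by
        rw [← Ideal.Quotient.eq_zero_iff_mem, ← (hΓ z).mp hz, h1, map_zero]
      have h3 : z.2 ^ 2 = 0 := by
        rw [← Ideal.mem_bot, ← hI]
        exact Ideal.pow_mem_pow h2 2
      refine Prod.ext h ?_
      rw [frobenius_def, Prod.pow_snd]
      exact pow_eq_zero_of_le hp.out.two_le h3
  obtain ⟨S, hS0, hS⟩ := zorn_le_nonempty₀ s (fun c hc hch y hy => by
    refine ⟨sSup c, ⟨sSup_le fun T hT => (hc hT).1, fun z hz => ?_⟩, fun z hz => le_sSup hz⟩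
    obtain ⟨T, hT, hzT⟩ := (Subring.mem_sSup_of_directedOn ⟨y, hy⟩ hch.directedOn).mp hz
    exact (hc hT).2 z hzT) _ h0
  have hpow : ∀ z ∈ Γ, z ^ p ∈ S := fun z hz => hS0 ⟨z, hz, rfl⟩
  let ψ : S →+* K := (RingHom.fst K B).comp S.subtype
  have hψ : Function.Injective ψ := by
    rw [injective_iff_map_eq_zero]
    intro z hz
    exact Subtype.ext (hS.1.2 z.1 z.2 hz)
  have hF : IsField S := by
    refine ⟨⟨0, 1, fun h => ?_⟩, mul_comm, fun {a} ha => ?_⟩
    · have := congrArg ψ h
      simp at this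
    · have h1 : ψ a ≠ 0 := fun h => ha (hψ (h.trans (map_zero ψ).symm))
      obtain ⟨b, hb⟩ := hlift (ψ a)⁻¹
      refine ⟨a ^ (p - 1) * ⟨_, hpow _ hb⟩, hψ ?_⟩
      rw [← mul_assoc, ← pow_succ', Nat.sub_add_cancel hp.out.one_le, map_mul, map_pow, map_one]
      change ψ a ^ p * (ψ a)⁻¹ ^ p = 1
      rw [← mul_pow, mul_inv_cancel₀ h1, one_pow]
  have hsurj : Function.Surjective ψ := by
    intro x
    by_contra hx
    obtain ⟨b, hb⟩ := hlift x
    let _ : Field S := hF.toField
    let a : S := ⟨_, hpow _ hb⟩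
    have hirr : Irreducible (X ^ p - C a) := by
      refine X_pow_sub_C_irreducible_of_prime hp.out fun t ht => hx ⟨t, ?_⟩
      have h1 : ψ t ^ p = x ^ p := by
        rw [← map_pow, ht]
        rfl
      exact frobenius_inj K p h1
    have hQ : eval₂RingHom S.subtype (x, b) (X ^ p - C a) = 0 := by
      rw [map_sub, map_pow, coe_eval₂RingHom, eval₂_X, eval₂_C]
      exact sub_self _
    let E : S[X] →+* K := (RingHom.fst K B).comp (eval₂RingHom S.subtype (x, b))
    have h1 : (eval₂RingHom S.subtype (x, b)).range ∈ s := by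
      constructor
      · rintro _ ⟨P, rfl⟩
        induction P using Polynomial.induction_on' with
        | add P Q hP hQ =>
          rw [map_add]
          exact Γ.add_mem hP hQ
        | monomial n t =>
          rw [coe_eval₂RingHom, eval₂_monomial]
          exact Γ.mul_mem (hS.1.1 t.2) (Γ.pow_mem hb n)
      · rintro _ ⟨P, rfl⟩ hP
        rcases hirr.isCoprime_or_dvd P with h2 | ⟨Q, rfl⟩
        · obtain ⟨u, v, huv⟩ := h2
          have h3 := congrArg E huv
          have h4 : E (X ^ p - C a) = 0 := by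
            change (eval₂RingHom S.subtype (x, b) (X ^ p - C a)).1 = 0
            rw [hQ]
            rfl
          have h5 : E P = 0 := hP
          rw [map_add, map_mul, map_mul, h4, h5, map_one] at h3
          simp at h3
        · rw [map_mul, hQ, zero_mul]
    have h2 : S ≤ (eval₂RingHom S.subtype (x, b)).range := fun z hz =>
      ⟨C ⟨z, hz⟩, by rw [coe_eval₂RingHom, eval₂_C]; rfl⟩
    have h3 : (x, b) ∈ S := hS.2 h1 h2 ⟨X, by rw [coe_eval₂RingHom, eval₂_X]⟩
    exact hx ⟨⟨_, h3⟩, rfl⟩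
  let e : S ≃+* K := RingEquiv.ofBijective ψ ⟨hψ, hsurj⟩
  refine ⟨((RingHom.snd K B).comp S.subtype).comp e.symm.toRingHom, RingHom.ext fun x => ?_⟩
  obtain ⟨z, rfl⟩ := e.surjective x
  have h4 : e.symm.toRingHom (e z) = z := e.symm_apply_apply z
  rw [RingHom.comp_apply, RingHom.comp_apply, h4]
  exact ((hΓ z.1).mp (hS.1.1 z.2)).symm

theorem formallySmooth_zmod' (p : ℕ) [Fact p.Prime] (K : Type u) [Field K] [Algebra (ZMod p) K] :
    Algebra.FormallySmooth (ZMod p) K := by
  refine Algebra.FormallySmooth.of_comp_surjective fun B _ _ I hI g => ?_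
  have h1 : CharP K p := charP_of_injective_algebraMap (algebraMap (ZMod p) K).injective p
  have h2 : CharP (K × B) p :=
    charP_of_injective_algebraMap (algebraMap (ZMod p) (K × B)).injective p
  obtain ⟨f, hf⟩ := cohen_lift_charP p I hI g.toRingHom
  refine ⟨⟨f, fun r => ?_⟩, AlgHom.ext fun x => DFunLike.congr_fun hf x⟩
  exact DFunLike.congr_fun
    (Subsingleton.elim (f.comp (algebraMap (ZMod p) K)) (algebraMap (ZMod p) B)) r

theorem formallySmooth_of_charZero' (k : Type u) (K : Type v) [Field k] [CharZero k] [Field K]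
    [Algebra k K] : Algebra.FormallySmooth k K := by
  obtain ⟨s, hs⟩ := exists_isTranscendenceBasis k K
  have h1 := hs.isAlgebraic_field
  have h2 : CharZero (IntermediateField.adjoin k (Set.range ((↑) : s → K))) :=
    charZero_of_injective_algebraMap (algebraMap k _).injective
  exact .of_algebraicIndependent_of_isSeparable hs.1

theorem charP_or_rat' {A : Type u} [CommRing A] [Nontrivial A]
    (h : ∀ p : ℕ, p.Prime → (p : A) = 0 ∨ IsUnit (p : A)) :
    (∃ p : ℕ, p.Prime ∧ CharP A p) ∨ Nonempty (Algebra ℚ A) := by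
  by_cases h1 : ∃ p : ℕ, p.Prime ∧ (p : A) = 0
  · obtain ⟨p, hp, h2⟩ := h1
    exact Or.inl ⟨p, hp, (CharP.charP_iff_prime_eq_zero hp).mpr h2⟩
  · have h2 : ∀ n : ℕ, n ≠ 0 → IsUnit (n : A) := by
      intro n
      induction n using induction_on_primes with
      | zero => exact fun h => absurd rfl h
      | one => exact fun _ => by simp
      | prime_mul p a hp ih =>
        intro h3
        rw [Nat.cast_mul]
        exact ((h p hp).resolve_left fun h4 => h1 ⟨p, hp, h4⟩).mul (ih (right_ne_zero_of_mul h3))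
    have h3 : ∀ y : nonZeroDivisors ℤ, IsUnit (Int.castRingHom A y) := by
      rintro ⟨y, hy⟩
      have h4 := h2 y.natAbs (Int.natAbs_ne_zero.mpr (nonZeroDivisors.ne_zero hy))
      rcases Int.natAbs_eq y with h5 | h5
      · rw [eq_intCast]
        change IsUnit ((y : ℤ) : A)
        rw [h5, Int.cast_natCast]
        exact h4
      · rw [eq_intCast]
        change IsUnit ((y : ℤ) : A)
        rw [h5, Int.cast_neg, Int.cast_natCast]
        exact h4.neg
    exact Or.inr ⟨(IsLocalization.lift (S := ℚ) h3).toAlgebra⟩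

theorem exists_lift_field' (K : Type u) [Field K] {B : Type v} [CommRing B] [Nontrivial B]
    (hB : ∀ p : ℕ, p.Prime → (p : B) = 0 ∨ IsUnit (p : B)) (I : Ideal B) [IsAdicComplete I B]
    (g : K →+* B ⧸ I) : ∃ f : K →+* B, (Ideal.Quotient.mk I).comp f = g := by
  have hn : Nontrivial (B ⧸ I) := by
    refine Ideal.Quotient.nontrivial_iff.mpr fun h => ?_
    refine one_ne_zero (IsHausdorff.haus (I := I) (M := B) inferInstance 1 fun n => ?_)
    rw [h, Ideal.top_pow, Submodule.top_smul]
    exact SModEq.top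
  rcases charP_or_rat' hB with ⟨p, hp, hc⟩ | ⟨⟨hq⟩⟩
  · have : Fact p.Prime := ⟨hp⟩
    have hK : CharP K p := by
      refine (CharP.charP_iff_prime_eq_zero hp).mpr (g.injective ?_)
      rw [map_natCast, map_zero, ← map_natCast (Ideal.Quotient.mk I), CharP.cast_eq_zero, map_zero]
    let _ : Algebra (ZMod p) K := ZMod.algebra K p
    let _ : Algebra (ZMod p) B := ZMod.algebra B p
    have := formallySmooth_zmod' p K
    obtain ⟨f, hf⟩ := Algebra.FormallySmooth.exists_mkₐ_comp_eq_of_isAdicComplete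
      (R := ZMod p) (A := K) (I := I) ⟨g, fun r => DFunLike.congr_fun
        (Subsingleton.elim (g.comp (algebraMap (ZMod p) K)) (algebraMap (ZMod p) (B ⧸ I))) r⟩
    exact ⟨f.toRingHom, RingHom.ext fun x => DFunLike.congr_fun hf x⟩
  · have h1 : CharZero (B ⧸ I) := algebraRat.charZero _
    have h2 : CharZero K := g.charZero
    have := formallySmooth_of_charZero' ℚ K
    obtain ⟨f, hf⟩ := Algebra.FormallySmooth.exists_mkₐ_comp_eq_of_isAdicComplete
      (R := ℚ) (A := K) (I := I) g.toRatAlgHom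
    exact ⟨f.toRingHom, RingHom.ext fun x => DFunLike.congr_fun hf x⟩

end Vale.Agent.P202
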