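import Mathlib

/-! Module M4a, second half: adic completeness and power series evaluation. -/

namespace Vale.Agent.P202

open IsLocalRing

universe u v

namespace Co2

theorem smodeq_iff {A : Type*} [CommRing A] {I : Ideal A} {x y : A} :
    x ≡ y [SMOD (I • ⊤ : Submodule A A)] ↔ x - y ∈ I := by
  rw [SModEq.sub_mem, smul_eq_mul, Ideal.mul_top]

theorem haus_mono {A M : Type*} [CommRing A] [AddCommGroup M] [Module A M] {I J : Ideal A}
    (h : I ≤ J) [IsHausdorff J M] : IsHausdorff I M :=
  ⟨fun x hx => IsHausdorff.haus' (I := J) x fun n =>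
    (hx n).mono (Submodule.smul_mono_left (Ideal.pow_right_mono h n))⟩

theorem prec_of_surjective {A M N : Type*} [CommRing A] [AddCommGroup M] [Module A M]
    [AddCommGroup N] [Module A N] (I : Ideal A) [IsPrecomplete I M] (f : M →ₗ[A] N)
    (hf : Function.Surjective f) : IsPrecomplete I N := by
  rw [← AdicCompletion.of_surjective_iff]
  intro y
  obtain ⟨x', rfl⟩ := AdicCompletion.map_surjective I hf y
  obtain ⟨x, rfl⟩ := AdicCompletion.of_surjective I M x'
  exact ⟨f x, rfl⟩

theorem prec_pi {A : Type*} [CommRing A] (I : Ideal A) [IsPrecomplete I A] (r : ℕ) :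
    IsPrecomplete I (Fin r → A) := by
  have key : ∀ (J : Ideal A) (x : Fin r → A), x ∈ (J • ⊤ : Submodule A (Fin r → A)) ↔
      ∀ i, x i ∈ J := by
    intro J x
    constructor
    · intro hx
      refine Submodule.smul_induction_on hx (fun a ha y _ i => J.mul_mem_right _ ha)
        fun y z hy hz i => J.add_mem (hy i) (hz i)
    · intro hx
      rw [← Finset.univ_sum_single x]
      refine Submodule.sum_mem _ fun i _ => ?_
      rw [← mul_one (x i), ← smul_eq_mul, Pi.single_smul]
      exact Submodule.smul_mem_smul (hx i) Submodule.mem_top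
  refine ⟨fun f hf => ?_⟩
  choose L hL using fun i => IsPrecomplete.prec' (I := I) (fun n => f n i) fun h =>
    smodeq_iff.2 ((key _ _).1 (SModEq.sub_mem.1 (hf h)) i)
  exact ⟨L, fun n => SModEq.sub_mem.2 ((key _ _).2 fun i => smodeq_iff.1 (hL i n))⟩

section PS

open MvPowerSeries

variable {σ : Type} {V : Type u} [CommRing V]

theorem exists_decomp [Fintype σ] (p : MvPowerSeries σ V) : ∃ q : σ → MvPowerSeries σ V,
    p = C (coeff 0 p) + ∑ i, X i * q i ∧
      ∀ i y, coeff y (q i) = coeff (y + Finsupp.single i 1) p ∨ coeff y (q i) = 0 := by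
  classical
  have hc : ∀ x : σ →₀ ℕ, ∃ o : Option σ, x ≠ 0 → ∃ i, o = some i ∧ x i ≠ 0 := fun x => by
    by_cases hx : ∃ i, x i ≠ 0
    · obtain ⟨i, hi⟩ := hx
      exact ⟨some i, fun _ => ⟨i, rfl, hi⟩⟩
    · push Not at hx
      exact ⟨none, fun h => (h (Finsupp.ext hx)).elim⟩
  choose c hc using hc
  let q : σ → MvPowerSeries σ V := fun i y =>
    if c (y + Finsupp.single i 1) = some i then coeff (y + Finsupp.single i 1) p else 0
  have hq : ∀ i y, coeff y (q i) =
    if c (y + Finsupp.single i 1) = some i then coeff (y + Finsupp.single i 1) p else 0 :=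
    fun _ _ => rfl
  refine ⟨q, ?_, fun i y => ?_⟩
  · ext x
    rw [map_add, map_sum]
    by_cases hx : x = 0
    · subst hx
      simp [coeff_zero_X_mul]
    · obtain ⟨i, h1, h2⟩ := hc x hx
      have h3 : Finsupp.single i 1 ≤ x := by
        rw [Finsupp.single_le_iff]
        omega
      rw [coeff_C_of_ne_zero hx, zero_add, Finset.sum_eq_single i (fun j _ hj => ?_) (by simp),
        X_def, coeff_monomial_mul, if_pos h3, one_mul, hq, tsub_add_cancel_of_le h3, if_pos h1]
      rw [X_def, coeff_monomial_mul]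
      split_ifs with h4
      · rw [hq, tsub_add_cancel_of_le h4, if_neg (by rw [h1]; simpa using hj.symm), mul_zero]
      · rfl
  · rw [hq]
    split_ifs
    · exact Or.inl rfl
    · exact Or.inr rfl

theorem mem_pow_iff [Finite σ] (𝔞 : Ideal V) (n : ℕ) (p : MvPowerSeries σ V) :
    p ∈ (𝔞.map (C (σ := σ)) ⊔ Ideal.span (Set.range X)) ^ n ↔
      ∀ x, coeff x p ∈ 𝔞 ^ (n - Finsupp.degree x) := by
  classical
  cases nonempty_fintype σ
  have hmul : ∀ (a b : ℕ) (p q : MvPowerSeries σ V), (∀ x, coeff x p ∈ 𝔞 ^ (a - Finsupp.degree x)) →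
      (∀ x, coeff x q ∈ 𝔞 ^ (b - Finsupp.degree x)) →
      ∀ x, coeff x (p * q) ∈ 𝔞 ^ (a + b - Finsupp.degree x) := by
    intro a b p q hp hq x
    rw [coeff_mul]
    refine Ideal.sum_mem _ fun u hu => ?_
    have h1 := Ideal.mul_mem_mul (hp u.1) (hq u.2)
    rw [← pow_add] at h1
    have h2 : Finsupp.degree u.1 + Finsupp.degree u.2 = Finsupp.degree x := by
      rw [← map_add, Finset.HasAntidiagonal.mem_antidiagonal.1 hu]
    exact Ideal.pow_le_pow_right (by omega) h1
  have h1 : ∀ p ∈ 𝔞.map (C (σ := σ)) ⊔ Ideal.span (Set.range X),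
      ∀ x, coeff x p ∈ 𝔞 ^ (1 - Finsupp.degree x) := by
    intro p hp x
    by_cases hx : x = 0
    · subst hx
      have : 𝔞.map (C (σ := σ)) ⊔ Ideal.span (Set.range X) ≤ 𝔞.comap constantCoeff :=
        sup_le (Ideal.map_le_iff_le_comap.2 fun a ha => by simpa using ha)
          (Ideal.span_le.2 (by
            rintro _ ⟨i, rfl⟩
            simp))
      simpa using this hp
    · have : Finsupp.degree x ≠ 0 := by rwa [Ne, Finsupp.degree_eq_zero_iff]
      rw [show 1 - Finsupp.degree x = 0 by omega, pow_zero, Ideal.one_eq_top]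
      trivial
  induction n generalizing p with
  | zero => simp
  | succ n ih =>
    constructor
    · intro hp
      rw [pow_succ] at hp
      refine Submodule.mul_induction_on hp (fun a ha b hb => hmul _ _ _ _ ((ih a).1 ha) (h1 b hb))
        fun a b ha hb x => ?_
      rw [map_add]
      exact add_mem (ha x) (hb x)
    · intro hp
      obtain ⟨q, e, hq⟩ := exists_decomp p
      rw [e]
      refine add_mem ?_ (Ideal.sum_mem _ fun i _ => ?_)
      · refine Ideal.pow_right_mono le_sup_left _ ?_
        rw [← Ideal.map_pow]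
        exact Ideal.mem_map_of_mem _ (by simpa using hp 0)
      · rw [pow_succ']
        refine Ideal.mul_mem_mul (Ideal.mem_sup_right (Ideal.subset_span ⟨i, rfl⟩))
          ((ih _).2 fun y => ?_)
        rcases hq i y with h | h
        · rw [h]
          have := hp (y + Finsupp.single i 1)
          rwa [map_add, Finsupp.degree_single, Nat.add_sub_add_right] at this
        · rw [h]
          exact zero_mem _

end PS

end Co2

open Co2

theorem isAdicComplete_of_le_maximalIdeal' (A : Type u) [CommRing A] [IsLocalRing A]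
    [IsNoetherianRing A] [IsAdicComplete (maximalIdeal A) A] (I : Ideal A) (hI : I ≠ ⊤) :
    IsAdicComplete I A := by
  have hle := le_maximalIdeal hI
  have := IsHausdorff.of_isLocalRing I A hI
  have : IsPrecomplete I A := ⟨fun f hf => by
    obtain ⟨L, hL⟩ := IsPrecomplete.prec' (I := maximalIdeal A) f fun h =>
      (hf h).mono (Submodule.smul_mono_left (Ideal.pow_right_mono hle _))
    refine ⟨L, fun n => smodeq_iff.2 (Ideal.Quotient.eq_zero_iff_mem.1
      (IsHausdorff.haus' (I := maximalIdeal A) _ fun k => SModEq.zero.2 ?_))⟩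
    have h1 := smodeq_iff.1 (hf (le_max_left n k))
    have h2 := Ideal.pow_le_pow_right (le_max_right n k) (smodeq_iff.1 (hL (max n k)))
    rw [← sub_add_sub_cancel (f n) (f (max n k)) L, map_add, Ideal.Quotient.eq_zero_iff_mem.2 h1,
      zero_add, ← Ideal.Quotient.algebraMap_eq, Algebra.algebraMap_eq_smul_one]
    exact Submodule.smul_mem_smul h2 Submodule.mem_top⟩
  exact ⟨⟩

theorem isAdicComplete_of_surjective' {A : Type u} {B : Type v} [CommRing A] [IsLocalRing A]
    [IsNoetherianRing A] [IsAdicComplete (maximalIdeal A) A] [CommRing B] [IsLocalRing B]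
    (f : A →+* B) (hf : Function.Surjective f) : IsAdicComplete (maximalIdeal B) B := by
  let _ := f.toAlgebra
  have := isNoetherianRing_of_surjective A B f hf
  have : IsPrecomplete (maximalIdeal B) B := by
    rw [← map_maximalIdeal_of_surjective f hf]
    exact (IsPrecomplete.map_algebraMap_iff (R := A) (S := B)).2
      (prec_of_surjective _ (Algebra.linearMap A B) hf)
  exact ⟨⟩

section PowerSeries
variable {σ : Type} [Finite σ] {V : Type u} [CommRing V] {S : Type v} [CommRing S]

open MvPowerSeries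

theorem ker_constantCoeff' : RingHom.ker (constantCoeff (σ := σ) (R := V)) =
    Ideal.span (Set.range X) := by
  cases nonempty_fintype σ
  refine le_antisymm (fun p hp => ?_) (Ideal.span_le.2 (by
    rintro _ ⟨i, rfl⟩
    simp))
  obtain ⟨q, e, -⟩ := exists_decomp p
  rw [e, coeff_zero_eq_constantCoeff_apply, RingHom.mem_ker.1 hp, map_zero, zero_add]
  exact Ideal.sum_mem _ fun i _ => Ideal.mul_mem_right _ _ (Ideal.subset_span ⟨i, rfl⟩)

theorem maximalIdeal_mvPowerSeries' [IsLocalRing V] : maximalIdeal (MvPowerSeries σ V) =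
    (maximalIdeal V).map (C (σ := σ)) ⊔ Ideal.span (Set.range X) := by
  ext p
  rw [← pow_one (_ ⊔ _), mem_pow_iff, mem_maximalIdeal, mem_nonunits_iff, isUnit_iff_constantCoeff]
  constructor
  · intro h x
    by_cases hx : x = 0
    · subst hx
      simpa using h
    · have : Finsupp.degree x ≠ 0 := by rwa [Ne, Finsupp.degree_eq_zero_iff]
      rw [show 1 - Finsupp.degree x = 0 by omega, pow_zero, Ideal.one_eq_top]
      trivial
  · intro h
    simpa using h 0

theorem isAdicComplete_mvPowerSeries' [IsLocalRing V] [IsNoetherianRing V]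
    [IsAdicComplete (maximalIdeal V) V] :
    IsAdicComplete (maximalIdeal (MvPowerSeries σ V)) (MvPowerSeries σ V) := by
  have : IsPrecomplete (maximalIdeal (MvPowerSeries σ V)) (MvPowerSeries σ V) := ⟨fun f hf => by
    simp only [smodeq_iff, maximalIdeal_mvPowerSeries', mem_pow_iff, map_sub] at hf ⊢
    choose L hL using fun x : σ →₀ ℕ => IsPrecomplete.prec' (I := maximalIdeal V)
      (fun k => coeff x (f (k + Finsupp.degree x))) fun {m n} h => smodeq_iff.2 (by
        simpa using hf (Nat.add_le_add_right h (Finsupp.degree x)) x)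
    refine ⟨L, fun n x => ?_⟩
    rcases le_total n (Finsupp.degree x) with h | h
    · simp [Nat.sub_eq_zero_of_le h]
    · have := smodeq_iff.1 (hL x (n - Finsupp.degree x))
      rwa [Nat.sub_add_cancel h] at this⟩
  exact ⟨⟩

theorem maximalIdeal_field (K : Type u) [Field K] :
    maximalIdeal (MvPowerSeries σ K) = Ideal.span (Set.range X) := by
  rw [maximalIdeal_mvPowerSeries', IsLocalRing.maximalIdeal_eq_bot, Ideal.map_bot, bot_sup_eq]

theorem ringKrullDim_mvPowerSeries_field' (K : Type u) [Field K] (n : ℕ) :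
    ringKrullDim (MvPowerSeries (Fin n) K) = n := by
  refine le_antisymm ((ringKrullDim_le_spanFinrank_maximalIdeal _).trans ?_) ?_
  · rw [maximalIdeal_field]
    have := (Submodule.spanFinrank_span_le_ncard_of_finite (R := MvPowerSeries (Fin n) K)
      (Set.finite_range (X : Fin n → MvPowerSeries (Fin n) K))).trans
      (by
        rw [← Set.image_univ]
        exact (Set.ncard_image_le Set.finite_univ).trans_eq (by simp) : _ ≤ n)
    exact_mod_cast this
  · induction n with
    | zero => exact ringKrullDim_nonneg_of_nontrivial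
    | succ n ih =>
      rw [ringKrullDim_eq_of_ringEquiv (MvPowerSeries.finSuccEquiv K n).toRingEquiv]
      refine le_trans ?_ ringKrullDim_succ_le_ringKrullDim_powerseries
      push_cast
      gcongr

theorem length_mvPowerSeries_quot_pow' (K : Type u) [Field K] (n N : ℕ) :
    Module.length (MvPowerSeries (Fin n) K) (MvPowerSeries (Fin n) K ⧸
      maximalIdeal (MvPowerSeries (Fin n) K) ^ (N + 1)) = ((N + n).choose n : ℕ) := by
  classical
  have : IsLocalHom (algebraMap K (MvPowerSeries (Fin n) K)) :=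
    ⟨fun a ha => by simpa [← c_eq_algebraMap] using isUnit_iff_constantCoeff.1 ha⟩
  have hres : Module.length (ResidueField K) (ResidueField (MvPowerSeries (Fin n) K)) = 1 := by
    rw [Module.length_eq_of_surjective (R := ResidueField (MvPowerSeries (Fin n) K))]
    · exact Module.length_eq_one _ _
    · intro z
      obtain ⟨p, rfl⟩ := residue_surjective z
      refine ⟨residue K (constantCoeff p), ?_⟩
      rw [ResidueField.algebraMap_residue]
      refine (Ideal.Quotient.mk_eq_mk_iff_sub_mem _ _).2 ?_
      rw [maximalIdeal_field, ← ker_constantCoeff', RingHom.mem_ker]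
      simp [← c_eq_algebraMap]
  have h1 := IsLocalRing.length_restrictScalars K (MvPowerSeries (Fin n) K)
    (MvPowerSeries (Fin n) K ⧸ maximalIdeal (MvPowerSeries (Fin n) K) ^ (N + 1))
  rw [hres, mul_one] at h1
  let T := (Finset.univ : Finset (Fin (n + 1))).finsuppAntidiag N
  have hT : ∀ m : Fin (n + 1) →₀ ℕ, m ∈ T ↔ m 0 + m.tail.degree = N := fun m => by
    simp [T, Finset.mem_finsuppAntidiag, Finsupp.degree_eq_sum, Fin.sum_univ_succ,
      Finsupp.tail_apply]
  let φ : MvPowerSeries (Fin n) K →ₗ[K] (T → K) := LinearMap.pi fun m => coeff m.1.tail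
  have hs : Function.Surjective φ := fun g => by
    refine ⟨fun x => if h : Finsupp.cons (N - x.degree) x ∈ T then g ⟨_, h⟩ else 0, ?_⟩
    funext m
    have e : Finsupp.cons (N - m.1.tail.degree) m.1.tail = m.1 := by
      rw [← (hT _).1 m.2, Nat.add_sub_cancel, Finsupp.cons_tail]
    change (if h : _ then _ else _) = _
    rw [dif_pos (e ▸ m.2)]
    congr 1
    exact Subtype.ext e
  have hk : (maximalIdeal (MvPowerSeries (Fin n) K) ^ (N + 1)).restrictScalars K =
      LinearMap.ker φ := by
    ext p
    rw [Submodule.restrictScalars_mem, maximalIdeal_mvPowerSeries', mem_pow_iff,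
      IsLocalRing.maximalIdeal_eq_bot, LinearMap.mem_ker, funext_iff]
    constructor
    · intro h m
      have := h m.1.tail
      have e := (hT _).1 m.2
      rwa [← Ideal.zero_eq_bot, zero_pow (by omega), Ideal.zero_eq_bot, Ideal.mem_bot] at this
    · intro h x
      rcases le_or_gt x.degree N with hx | hx
      · have := h ⟨Finsupp.cons (N - x.degree) x, (hT _).2 (by simp [hx])⟩
        change coeff (Finsupp.tail (Finsupp.cons _ x)) p = 0 at this
        rw [Finsupp.tail_cons] at this
        rw [this]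
        exact zero_mem _
      · rw [Nat.sub_eq_zero_of_le hx, pow_zero, Ideal.one_eq_top]
        trivial
  rw [← h1, ((Submodule.Quotient.restrictScalarsEquiv K _).symm.trans
    ((Submodule.quotEquivOfEq _ _ hk).trans (φ.quotKerEquivOfSurjective hs))).length_eq,
    Module.length_eq_finrank, Module.finrank_fintype_fun_eq_card, Fintype.card_coe,
    Finset.card_finsuppAntidiag_nat_eq_choose, Finset.card_univ, Fintype.card_fin,
    show n + 1 + N - 1 = N + n by omega, Nat.choose_symm_add]

theorem exists_evalHom' (J : Ideal S) [IsAdicComplete J S] (f : V →+* S) (y : σ → S)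
    (hy : ∀ i, y i ∈ J) : ∃ Φ : MvPowerSeries σ V →+* S,
      Φ.comp C = f ∧ ∀ i, Φ (X i) = y i := by
  have hev : ∀ n, ∀ q ∈ MvPolynomial.idealOfVars σ V ^ n, MvPolynomial.eval₂Hom f y q ∈ J ^ n := by
    intro n q hq
    have h1 := Ideal.mem_map_of_mem (MvPolynomial.eval₂Hom f y) hq
    rw [Ideal.map_pow] at h1
    refine Ideal.pow_right_mono (Ideal.map_le_iff_le_comap.2 (Ideal.span_le.2 ?_)) n h1
    rintro _ ⟨i, rfl⟩
    simpa using hy i
  let g : ∀ n, MvPowerSeries σ V →+* S ⧸ J ^ n := fun n =>
    (Ideal.quotientMap (J ^ n) (MvPolynomial.eval₂Hom f y) (hev n)).comp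
      (truncTotalAlgHom σ V n).toRingHom
  have hg : ∀ n p, g n p = Ideal.Quotient.mk _ (MvPolynomial.eval₂Hom f y (truncTotal n p)) :=
    fun _ _ => rfl
  let Φ := IsAdicComplete.liftRingHom J g fun {m n} h => RingHom.ext fun p => by
    rw [RingHom.comp_apply, hg, hg, Ideal.Quotient.factor_mk, Ideal.Quotient.eq, ← map_sub]
    exact hev _ _ (truncTotal_sub_truncTotal_mem_pow_idealOfVars h le_rfl p)
  have hΦ : ∀ q : MvPolynomial σ V, Φ q = MvPolynomial.eval₂Hom f y q :=
    congrFun (IsHausdorff.funext' J fun n q => by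
      rw [IsAdicComplete.mk_liftRingHom]
      exact congrArg (Ideal.quotientMap (J ^ n) (MvPolynomial.eval₂Hom f y) (hev n))
        ((truncTotalAlgHom σ V n).commutes q))
  exact ⟨Φ, RingHom.ext fun v => by simpa using hΦ (MvPolynomial.C v),
    fun i => by simpa using hΦ (MvPolynomial.X i)⟩

theorem evalHom_ext' (J : Ideal S) [IsHausdorff J S] (Φ Ψ : MvPowerSeries σ V →+* S)
    (hC : Φ.comp C = Ψ.comp C) (hX : ∀ i, Φ (X i) = Ψ (X i)) (hy : ∀ i, Φ (X i) ∈ J) :
    Φ = Ψ := by
  cases nonempty_fintype σ
  have key : ∀ n p, Φ p - Ψ p ∈ J ^ n := by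
    intro n
    induction n with
    | zero => simp
    | succ n ih =>
      intro p
      obtain ⟨q, e, -⟩ := exists_decomp p
      rw [e, map_add, map_add, map_sum, map_sum, show Φ (C (coeff 0 p)) = Ψ (C (coeff 0 p)) from
        DFunLike.congr_fun hC _, add_sub_add_left_eq_sub, ← Finset.sum_sub_distrib, pow_succ']
      refine Ideal.sum_mem _ fun i _ => ?_
      rw [map_mul, map_mul, ← hX, ← mul_sub]
      exact Ideal.mul_mem_mul (hy i) (ih _)
  exact RingHom.ext fun p => (IsHausdorff.eq_iff_smodEq (I := J)).2 fun n =>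
    smodeq_iff.2 (key n p)

theorem evalHom_surjective' (J : Ideal S) [IsHausdorff J S] (Φ : MvPowerSeries σ V →+* S)
    (hy : ∀ i, Φ (X i) ∈ J)
    (h : ∀ s : S, ∃ v : V, s - Φ (C v) ∈ Ideal.span (Set.range fun i => Φ (X i))) :
    Function.Surjective Φ := by
  have e : (Ideal.span (Set.range X)).map Φ = Ideal.span (Set.range fun i => Φ (X i)) := by
    rw [Ideal.map_span, ← Set.range_comp]
    rfl
  have : IsHausdorff ((Ideal.span (Set.range X)).map Φ) S :=
    haus_mono (J := J) (e ▸ Ideal.span_le.2 (Set.range_subset_iff.2 hy))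
  refine surjective_of_mk_map_comp_surjective (I := Ideal.span (Set.range X)) Φ fun z => ?_
  obtain ⟨s, rfl⟩ := Ideal.Quotient.mk_surjective z
  obtain ⟨v, hv⟩ := h s
  exact ⟨C v, (Ideal.Quotient.eq.2 (e ▸ hv)).symm⟩

theorem evalHom_finite' [IsLocalRing S] [IsNoetherianRing S] {K : Type u} [Field K]
    (Φ : MvPowerSeries σ K →+* S) (hy : ∀ i, Φ (X i) ∈ maximalIdeal S)
    (hK : ∀ s : S, ∃ v : K, s - Φ (C v) ∈ maximalIdeal S) (N : ℕ)
    (hN : maximalIdeal S ^ N ≤ Ideal.span (Set.range fun i => Φ (X i))) : Φ.Finite := by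
  let _ := Φ.toAlgebra
  have e : (Ideal.span (Set.range X)).map (algebraMap (MvPowerSeries σ K) S) =
      Ideal.span (Set.range fun i => Φ (X i)) := by
    rw [Ideal.map_span, ← Set.range_comp]
    rfl
  have key : ∀ n, ∃ W : Submodule (MvPowerSeries σ K) S, W.FG ∧
      ∀ s, s ∈ W ⊔ (maximalIdeal S ^ n).restrictScalars _ := by
    intro n
    induction n with
    | zero => exact ⟨⊥, Submodule.fg_bot, fun s => Submodule.mem_sup_right (by simp)⟩
    | succ n ih =>
      obtain ⟨W, hW, h⟩ := ih
      obtain ⟨G, hG⟩ := (maximalIdeal S ^ n).fg_of_isNoetherianRing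
      refine ⟨W ⊔ Submodule.span _ (G : Set S), hW.sup (Submodule.fg_span G.finite_toSet),
        fun s => ?_⟩
      rw [sup_assoc]
      refine sup_le_sup_left (fun x hx => ?_) W (h s)
      rw [Submodule.restrictScalars_mem, ← hG] at hx
      induction hx using Submodule.span_induction with
      | mem x hx => exact Submodule.mem_sup_left (Submodule.subset_span hx)
      | zero => exact zero_mem _
      | add x y _ _ hx hy => exact add_mem hx hy
      | smul a x hx ih =>
        obtain ⟨v, hv⟩ := hK a
        have e1 : a • x = (C v : MvPowerSeries σ K) • x + (a - Φ (C v)) * x := by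
          rw [Algebra.smul_def (C v : MvPowerSeries σ K), smul_eq_mul, ← add_mul]
          exact congrArg (· * x) (add_sub_cancel _ _).symm
        rw [e1]
        refine add_mem (Submodule.smul_mem _ _ ih) (Submodule.mem_sup_right ?_)
        rw [Submodule.restrictScalars_mem, pow_succ']
        exact Ideal.mul_mem_mul hv (hG ▸ hx)
  obtain ⟨W, hW, h⟩ := key N
  obtain ⟨r, w, rfl⟩ := Submodule.fg_iff_exists_fin_generating_family.1 hW
  have : IsHausdorff (Ideal.span (Set.range (X : σ → MvPowerSeries σ K))) S :=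
    IsHausdorff.of_map (S := S) (J := maximalIdeal S)
      (e ▸ Ideal.span_le.2 (Set.range_subset_iff.2 hy))
  have := prec_pi (Ideal.span (Set.range (X : σ → MvPowerSeries σ K))) r
  refine Module.Finite.of_surjective (Fintype.linearCombination (MvPowerSeries σ K) w)
    (surjective_of_mkQ_comp_surjective (I := Ideal.span (Set.range X)) fun z => ?_)
  obtain ⟨s, rfl⟩ := Submodule.mkQ_surjective _ z
  obtain ⟨a, ha, b, hb, rfl⟩ := Submodule.mem_sup.1 (h s)
  rw [← Fintype.range_linearCombination] at ha
  obtain ⟨c, rfl⟩ := ha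
  refine ⟨c, ((Submodule.Quotient.eq _).2 ?_).symm⟩
  rw [add_sub_cancel_left, Ideal.smul_top_eq_map, Submodule.restrictScalars_mem, e]
  exact hN hb

end PowerSeries

theorem isNoetherianRing_adicCompletion' (A : Type u) [CommRing A] [IsLocalRing A]
    [IsNoetherianRing A] : IsNoetherianRing (AdicCompletion (maximalIdeal A) A) := by
  have hfg := (maximalIdeal A).fg_of_isNoetherianRing
  obtain ⟨r, a, ha⟩ := Submodule.fg_iff_exists_fin_generating_family.1 hfg
  have hm : ∀ i, algebraMap A (AdicCompletion (maximalIdeal A) A) (a i) ∈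
      (maximalIdeal A).map (algebraMap A (AdicCompletion (maximalIdeal A) A)) := fun i =>
    Ideal.mem_map_of_mem _ (ha.le (Submodule.subset_span ⟨i, rfl⟩))
  have := AdicCompletion.isAdicComplete_self _ hfg
  obtain ⟨Φ, h1, h2⟩ := exists_evalHom' _ (algebraMap A (AdicCompletion (maximalIdeal A) A)) _ hm
  refine isNoetherianRing_of_surjective _ _ Φ (evalHom_surjective' _ Φ (fun i => h2 i ▸ hm i)
    fun s => ?_)
  obtain ⟨v, hv⟩ := Ideal.Quotient.mk_surjective (AdicCompletion.evalOneₐ (maximalIdeal A) s)
  have e : Ideal.span (Set.range fun i => Φ (MvPowerSeries.X i)) =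
      (maximalIdeal A).map (algebraMap A (AdicCompletion (maximalIdeal A) A)) := by
    have ha' : Ideal.span (Set.range a) = maximalIdeal A := ha
    simp only [h2]
    rw [← congrArg (Ideal.map _) ha', Ideal.map_span, ← Set.range_comp]
    rfl
  refine ⟨v, ?_⟩
  rw [e, ← AdicCompletion.ker_evalOneₐ_eq_map _ hfg, RingHom.mem_ker, map_sub, sub_eq_zero,
    show Φ (MvPowerSeries.C v) = _ from DFunLike.congr_fun h1 v]
  exact hv.symm

end Vale.Agent.P202
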