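import Mathlib
import Vale.Agent.P202.CohenAux2
import Vale.Agent.P202.CohenAux1

/-! Module M4a: coefficient fields and power series presentations (Cohen structure theorem in
equal characteristic). -/

namespace Vale.Agent.P202

open IsLocalRing

universe u v

/-- Every field of characteristic `p` is formally smooth over `ZMod p`. -/
theorem formallySmooth_zmod (p : ℕ) [Fact p.Prime] (K : Type u) [Field K] [Algebra (ZMod p) K] :
    Algebra.FormallySmooth (ZMod p) K := formallySmooth_zmod' p K

/-- A field extension in characteristic zero is formally smooth. -/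
theorem formallySmooth_of_charZero (k : Type u) (K : Type v) [Field k] [CharZero k] [Field K]
    [Algebra k K] : Algebra.FormallySmooth k K := formallySmooth_of_charZero' k K

/-- The ring contains a field: the image of every prime number is zero or a unit. -/
def EqChar (A : Type u) [CommRing A] : Prop := ∀ p : ℕ, p.Prime → (p : A) = 0 ∨ IsUnit (p : A)

theorem eqChar_of_field (K : Type u) (A : Type v) [Field K] [CommRing A] (f : K →+* A) :
    EqChar A := by
  intro p _
  rw [← map_natCast f]
  rcases eq_or_ne (p : K) 0 with h | h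
  · exact Or.inl (by rw [h, map_zero])
  · exact Or.inr (h.isUnit.map f)
theorem EqChar.map {A : Type u} {B : Type v} [CommRing A] [CommRing B] (h : EqChar A)
    (f : A →+* B) : EqChar B := by
  intro p hp
  rw [← map_natCast f]
  rcases h p hp with h | h
  · exact Or.inl (by rw [h, map_zero])
  · exact Or.inr (h.map f)
/-- A nontrivial local ring containing a field has prime characteristic or contains `ℚ`. -/
theorem EqChar.charP_or_rat {A : Type u} [CommRing A] [IsLocalRing A] (h : EqChar A) :
    (∃ p : ℕ, p.Prime ∧ CharP A p) ∨ Nonempty (Algebra ℚ A) := charP_or_rat' h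

/-- Ring maps from a field lift along quotients of complete rings containing a field. -/
theorem exists_lift_field (K : Type u) [Field K] {B : Type v} [CommRing B] [IsLocalRing B]
    (hB : EqChar B) (I : Ideal B) [IsAdicComplete I B] (g : K →+* B ⧸ I) :
    ∃ f : K →+* B, (Ideal.Quotient.mk I).comp f = g := exists_lift_field' K hB I g

/-- Coefficient fields. -/
theorem exists_coeffField (A : Type u) [CommRing A] [IsLocalRing A] (hA : EqChar A)
    [IsAdicComplete (maximalIdeal A) A] :
    ∃ f : ResidueField A →+* A, (residue A).comp f = RingHom.id _ :=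
  exists_lift_field (ResidueField A) hA (maximalIdeal A) (RingHom.id _)

/-- A Noetherian complete local ring is complete for every proper ideal. -/
theorem isAdicComplete_of_le_maximalIdeal (A : Type u) [CommRing A] [IsLocalRing A]
    [IsNoetherianRing A] [IsAdicComplete (maximalIdeal A) A] (I : Ideal A) (hI : I ≠ ⊤) :
    IsAdicComplete I A :=
  isAdicComplete_of_le_maximalIdeal' A I hI

/-- Quotients of Noetherian complete local rings are complete. -/
theorem isAdicComplete_of_surjective {A : Type u} {B : Type v} [CommRing A] [IsLocalRing A]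
    [IsNoetherianRing A] [IsAdicComplete (maximalIdeal A) A] [CommRing B] [IsLocalRing B]
    (f : A →+* B) (hf : Function.Surjective f) : IsAdicComplete (maximalIdeal B) B :=
  isAdicComplete_of_surjective' f hf

section PowerSeries
variable {σ : Type} [Finite σ] {V : Type u} [CommRing V] {S : Type v} [CommRing S] [IsLocalRing S]
  [IsNoetherianRing S]

theorem maximalIdeal_mvPowerSeries [IsLocalRing V] : maximalIdeal (MvPowerSeries σ V) =
    (maximalIdeal V).map (MvPowerSeries.C (σ := σ)) ⊔ Ideal.span (Set.range MvPowerSeries.X) :=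
  maximalIdeal_mvPowerSeries'
theorem isAdicComplete_mvPowerSeries [IsLocalRing V] [IsNoetherianRing V]
    [IsAdicComplete (maximalIdeal V) V] :
    IsAdicComplete (maximalIdeal (MvPowerSeries σ V)) (MvPowerSeries σ V) :=
  isAdicComplete_mvPowerSeries'
theorem ker_constantCoeff : RingHom.ker (MvPowerSeries.constantCoeff (σ := σ) (R := V)) =
    Ideal.span (Set.range MvPowerSeries.X) :=
  ker_constantCoeff'
theorem ringKrullDim_mvPowerSeries_field (K : Type u) [Field K] (n : ℕ) :
    ringKrullDim (MvPowerSeries (Fin n) K) = n :=
  ringKrullDim_mvPowerSeries_field' K n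
theorem length_mvPowerSeries_quot_pow (K : Type u) [Field K] (n N : ℕ) :
    Module.length (MvPowerSeries (Fin n) K) (MvPowerSeries (Fin n) K ⧸
      maximalIdeal (MvPowerSeries (Fin n) K) ^ (N + 1)) = ((N + n).choose n : ℕ) :=
  length_mvPowerSeries_quot_pow' K n N

/-- Evaluation of power series in a complete local ring. -/
theorem exists_evalHom [IsAdicComplete (maximalIdeal S) S] (f : V →+* S) (y : σ → S)
    (hy : ∀ i, y i ∈ maximalIdeal S) : ∃ Φ : MvPowerSeries σ V →+* S,
      Φ.comp MvPowerSeries.C = f ∧ ∀ i, Φ (MvPowerSeries.X i) = y i :=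
  exists_evalHom' _ f y hy
theorem evalHom_ext (Φ Ψ : MvPowerSeries σ V →+* S)
    (hC : Φ.comp MvPowerSeries.C = Ψ.comp MvPowerSeries.C)
    (hX : ∀ i, Φ (MvPowerSeries.X i) = Ψ (MvPowerSeries.X i))
    (hy : ∀ i, Φ (MvPowerSeries.X i) ∈ maximalIdeal S) : Φ = Ψ :=
  evalHom_ext' (maximalIdeal S) Φ Ψ hC hX hy
theorem evalHom_surjective (Φ : MvPowerSeries σ V →+* S)
    (hy : ∀ i, Φ (MvPowerSeries.X i) ∈ maximalIdeal S)
    (h : ∀ s : S, ∃ v : V, s - Φ (MvPowerSeries.C v) ∈
      Ideal.span (Set.range fun i => Φ (MvPowerSeries.X i))) : Function.Surjective Φ :=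
  evalHom_surjective' (maximalIdeal S) Φ hy h
/-- Finiteness over a power series ring over a coefficient field. -/
theorem evalHom_finite {K : Type u} [Field K] (Φ : MvPowerSeries σ K →+* S)
    (hy : ∀ i, Φ (MvPowerSeries.X i) ∈ maximalIdeal S)
    (hK : ∀ s : S, ∃ v : K, s - Φ (MvPowerSeries.C v) ∈ maximalIdeal S) (N : ℕ)
    (hN : maximalIdeal S ^ N ≤ Ideal.span (Set.range fun i => Φ (MvPowerSeries.X i))) :
    Φ.Finite :=
  evalHom_finite' Φ hy hK N hN
end PowerSeries

/-- The completion of a Noetherian local ring containing a field is Noetherian. -/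
theorem isNoetherianRing_adicCompletion (A : Type u) [CommRing A] [IsLocalRing A]
    [IsNoetherianRing A] : IsNoetherianRing (AdicCompletion (maximalIdeal A) A) :=
  isNoetherianRing_adicCompletion' A

end Vale.Agent.P202
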