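import Vale.Agent.P202.HSMult

/-! Module F3: linear changes of variables, factoriality and regularity of power series rings. -/

namespace Vale.Agent.P202

open IsLocalRing MvPowerSeries

universe u

namespace PSer

section shear

variable {V : Type u} [CommRing V] {n : ℕ}

/-- The images of the variables under the shear. -/
noncomputable def sh (a : Fin n → V) : Fin (n + 1) → MvPowerSeries (Fin (n + 1)) V :=
  Fin.cons (X 0) fun j => X j.succ + C (a j) * X 0

theorem hasSubst_sh (a : Fin n → V) : HasSubst (sh a) :=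
  hasSubst_of_constantCoeff_zero fun s => by
    refine Fin.cases ?_ (fun j => ?_) s <;> simp [sh]

theorem subst_sh_sh {a b : Fin n → V} (h : a + b = 0) (f : MvPowerSeries (Fin (n + 1)) V) :
    subst (sh b) (subst (sh a) f) = f := by
  rw [subst_comp_subst_apply (hasSubst_sh a) (hasSubst_sh b)]
  have : (fun s => subst (sh b) (sh a s)) = X := by
    funext s
    refine Fin.cases ?_ (fun j => ?_) s
    · exact subst_X (hasSubst_sh b) 0
    · have h1 : (C (a j) : MvPowerSeries (Fin (n + 1)) V) + C (b j) = 0 := by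
        rw [← map_add, show a j + b j = 0 from congrFun h j, map_zero]
      rw [show sh a j.succ = X j.succ + C (a j) * X 0 from rfl, subst_add (hasSubst_sh b), subst_mul (hasSubst_sh b), subst_X (hasSubst_sh b),
        subst_X (hasSubst_sh b), subst_C]
      simp only [sh, Fin.cons_succ, Fin.cons_zero]
      linear_combination X 0 * h1
  rw [this, subst_self, id]

/-- The shear. -/
noncomputable def shear (a : Fin n → V) :
    MvPowerSeries (Fin (n + 1)) V ≃ₐ[V] MvPowerSeries (Fin (n + 1)) V :=
  AlgEquiv.ofAlgHom (substAlgHom (hasSubst_sh a)) (substAlgHom (hasSubst_sh (-a)))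
    (AlgHom.ext fun f => by simpa using subst_sh_sh (neg_add_cancel a) f)
    (AlgHom.ext fun f => by simpa using subst_sh_sh (add_neg_cancel a) f)

theorem shear_apply (a : Fin n → V) (f : MvPowerSeries (Fin (n + 1)) V) :
    shear a f = subst (sh a) f := substAlgHom_apply (hasSubst_sh a) f

theorem shear_X (a : Fin n → V) (s : Fin (n + 1)) : shear a (X s) = sh a s :=
  substAlgHom_X (hasSubst_sh a) s

theorem coeff_prod_sh (a : Fin n → V) (m : ℕ) (d : Fin (n + 1) →₀ ℕ) :
    coeff (Finsupp.cons m 0) (d.prod fun s e => sh a s ^ e) =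
      if ∑ s, d s = m then ∏ j, a j ^ d j.succ else 0 := by
  let π : MvPowerSeries (Fin (n + 1)) V →+* PowerSeries V :=
    (PowerSeries.map constantCoeff).comp (finSuccEquiv V n).toRingEquiv.toRingHom
  have h1 : ∀ g, coeff (Finsupp.cons m 0) g = PowerSeries.coeff m (π g) := fun g =>
    (coeff_coeff_finSuccEquiv g).symm
  have h2 : π (sh a 0) = PowerSeries.X := by simp [π, sh]
  have h3 : ∀ j, π (sh a j.succ) = PowerSeries.C (a j) * PowerSeries.X := fun j => by
    simp [π, sh]
  rw [h1, Finsupp.prod_fintype _ _ fun _ => pow_zero _, map_prod, Fin.prod_univ_succ,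
    Fin.sum_univ_succ]
  simp only [map_pow, h2, h3, mul_pow, Finset.prod_mul_distrib, Finset.prod_pow_eq_pow_sum]
  rw [mul_left_comm, ← pow_add]
  simp only [← map_pow, ← map_prod, PowerSeries.coeff_C_mul, PowerSeries.coeff_X_pow, mul_ite,
    mul_one, mul_zero, eq_comm]

theorem exists_coeff_ne [IsDomain V] (Z : Set V) (hZ : Z.Infinite)
    (f : MvPowerSeries (Fin (n + 1)) V) (hf : f ≠ 0) :
    ∃ (a : Fin n → V) (m : ℕ), (∀ j, a j ∈ Z) ∧ coeff (Finsupp.cons m 0) (subst (sh a) f) ≠ 0 := by
  classical
  obtain ⟨d0, hd0⟩ : ∃ d, coeff d f ≠ 0 := by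
    by_contra h
    push Not at h
    exact hf (MvPowerSeries.ext h)
  let T := (Finset.univ : Finset (Fin (n + 1))).finsuppAntidiag (∑ s, d0 s)
  have hT : ∀ d, d ∈ T ↔ ∑ s, d s = ∑ s, d0 s := fun d => by simp [T]
  let P : MvPolynomial (Fin n) V := ∑ d ∈ T, MvPolynomial.monomial d.tail (coeff d f)
  have hP : P ≠ 0 := fun h => hd0 (by
    have h1 := congrArg (MvPolynomial.coeff d0.tail) h
    rw [MvPolynomial.coeff_sum, Finset.sum_eq_single_of_mem d0 ((hT d0).2 rfl)] at h1
    · simpa using h1
    · intro d hd hne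
      rw [MvPolynomial.coeff_monomial, if_neg fun h2 => hne ?_]
      have h3 := (hT d).1 hd
      have h4 : ∀ j : Fin n, d j.succ = d0 j.succ := fun j => DFunLike.congr_fun h2 j
      simp only [Fin.sum_univ_succ, h4, add_left_inj] at h3
      exact Finsupp.ext fun s => Fin.cases h3 h4 s)
  by_contra h
  push Not at h
  refine hP (MvPolynomial.funext_set (fun _ => Z) (fun _ => hZ) fun a ha => ?_)
  rw [map_zero, ← h a (∑ s, d0 s) fun j => ha j trivial, coeff_subst (hasSubst_sh a),
    finsum_eq_sum_of_support_subset (s := T), map_sum]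
  · refine Finset.sum_congr rfl fun d hd => ?_
    rw [coeff_prod_sh, if_pos ((hT d).1 hd), MvPolynomial.eval_monomial,
      Finsupp.prod_fintype _ _ fun _ => pow_zero _]
    rfl
  · intro d hd
    by_contra h1
    exact hd (by simp only [coeff_prod_sh, if_neg fun h2 => h1 ((hT d).2 h2), smul_zero])

end shear

end PSer

open PSer

theorem exists_shear {V : Type u} [CommRing V] {n : ℕ} (a : Fin n → V) :
    ∃ e : MvPowerSeries (Fin (n + 1)) V ≃ₐ[V] MvPowerSeries (Fin (n + 1)) V,
      e (X 0) = X 0 ∧ ∀ j : Fin n, e (X j.succ) = X j.succ + C (a j) * X 0 :=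
  ⟨shear a, shear_X a 0, fun j => shear_X a j.succ⟩

/-- After a linear change of variables with coefficients in `Z` the series is regular in the
first variable. -/
theorem exists_shear_regular {V : Type u} [CommRing V] [IsLocalRing V] (Z : Set V)
    (hZ : (residue V '' Z).Infinite) {n : ℕ} (f : MvPowerSeries (Fin (n + 1)) V)
    (hf : MvPowerSeries.map (residue V) f ≠ 0) :
    ∃ (a : Fin n → V) (e : MvPowerSeries (Fin (n + 1)) V ≃ₐ[V] MvPowerSeries (Fin (n + 1)) V),
      (∀ j, a j ∈ Z) ∧ e (X 0) = X 0 ∧ (∀ j : Fin n, e (X j.succ) = X j.succ + C (a j) * X 0) ∧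
      PowerSeries.map (residue (MvPowerSeries (Fin n) V)) (finSuccEquiv V n (e f)) ≠ 0 := by
  obtain ⟨b, m, hb, h⟩ := exists_coeff_ne _ hZ _ hf
  choose a ha hab using hb
  refine ⟨a, shear a, ha, shear_X a 0, fun j => shear_X a j.succ, fun h0 => h ?_⟩
  have h1 := congrArg (PowerSeries.coeff m) h0
  rw [PowerSeries.coeff_map, map_zero, residue_eq_zero_iff, mem_maximalIdeal, mem_nonunits_iff,
    isUnit_iff_constantCoeff, ← mem_nonunits_iff, ← mem_maximalIdeal, ← residue_eq_zero_iff,
    ← coeff_zero_eq_constantCoeff_apply, coeff_coeff_finSuccEquiv, ← coeff_map, shear_apply,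
    map_subst (hasSubst_sh a)] at h1
  rw [← h1]
  congr 2
  funext s
  refine Fin.cases ?_ (fun j => ?_) s <;> simp [sh, hab]

namespace PSer

/-- A prime ideal containing a series that is regular after a shear contains a distinguished
polynomial. -/
theorem exists_distinguished {V : Type u} [CommRing V] [IsLocalRing V] [IsNoetherianRing V]
    [IsAdicComplete (maximalIdeal V) V] [Infinite (ResidueField V)] {n : ℕ}
    (q : Ideal (MvPowerSeries (Fin (n + 1)) V)) {f : MvPowerSeries (Fin (n + 1)) V} (hq : f ∈ q)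
    (hf : MvPowerSeries.map (residue V) f ≠ 0) :
    ∃ (e : MvPowerSeries (Fin (n + 1)) V ≃+* PowerSeries (MvPowerSeries (Fin n) V))
      (W : Polynomial (MvPowerSeries (Fin n) V)),
      W.IsDistinguishedAt (maximalIdeal _) ∧ (W : PowerSeries _) ∈ q.comap e.symm := by
  have := isAdicComplete_mvPowerSeries (σ := Fin n) (V := V)
  obtain ⟨-, e, -, -, -, h⟩ := exists_shear_regular Set.univ
    (by rw [Set.image_univ, residue_surjective.range_eq]; exact Set.infinite_univ) f hf
  obtain ⟨W, g, hW⟩ := PowerSeries.exists_isWeierstrassFactorization h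
  refine ⟨(e.trans (finSuccEquiv V n)).toRingEquiv, W, hW.isDistinguishedAt,
    (Ideal.mul_unit_mem_iff_mem _ hW.isUnit).1 ?_⟩
  rw [← hW.eq_mul, Ideal.mem_comap]
  exact ((e.trans (finSuccEquiv V n)).symm_apply_apply f).symm ▸ hq

theorem exists_prime_mem {A : Type u} [CommRing A] [IsDomain A] [IsLocalRing A]
    [IsAdicComplete (maximalIdeal A) A] [UniqueFactorizationMonoid A] (q : Ideal (PowerSeries A))
    [hq : q.IsPrime] {W : Polynomial A} (hW : W.IsDistinguishedAt (maximalIdeal A))
    (h : (W : PowerSeries A) ∈ q) : ∃ x ∈ q, Prime x := by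
  have key : ∀ W : Polynomial A, W ≠ 0 → (W : PowerSeries A) ∈ q →
      ∃ p : Polynomial A, Prime p ∧ p ∣ W ∧ (p : PowerSeries A) ∈ q := by
    intro W
    induction W using UniqueFactorizationMonoid.induction_on_prime with
    | h₁ => exact fun h => absurd rfl h
    | h₂ x hx => exact fun _ h => absurd (q.eq_top_of_isUnit_mem h
        (hx.map Polynomial.coeToPowerSeries.ringHom)) hq.ne_top
    | h₃ a p ha hp ih =>
      intro _ h
      rw [Polynomial.coe_mul] at h
      rcases hq.mem_or_mem h with h | h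
      · exact ⟨p, hp, dvd_mul_right _ _, h⟩
      · obtain ⟨r, h1, h2, h3⟩ := ih ha h
        exact ⟨r, h1, h2.mul_left _, h3⟩
  obtain ⟨p, h1, h2, h3⟩ := key W hW.monic.ne_zero h
  obtain ⟨v, hv⟩ := hW.monic.isUnit_leadingCoeff_of_dvd h2
  have hu : IsUnit (Polynomial.C (↑v⁻¹ : A)) := (v⁻¹).isUnit.map _
  have ha : Associated p (p * Polynomial.C (↑v⁻¹ : A)) := associated_mul_unit_right _ _ hu
  have hm : (p * Polynomial.C (↑v⁻¹ : A)).Monic :=
    Polynomial.monic_mul_C_of_leadingCoeff_mul_eq_one (by rw [← hv, Units.mul_inv])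
  have h4 : ((p * Polynomial.C (↑v⁻¹ : A) : Polynomial A) : PowerSeries A) ∈ q := by
    rw [Polynomial.coe_mul]
    exact q.mul_mem_right _ h3
  have h5 := ha.prime h1
  have h6 := ha.dvd_iff_dvd_left.1 h2
  generalize p * Polynomial.C (↑v⁻¹ : A) = r at hm h4 h5 h6
  have hr : r.IsDistinguishedAt (maximalIdeal A) := by
    refine ⟨⟨fun {k} hk => ?_⟩, hm⟩
    have h7 := Polynomial.map_dvd (residue A) h6
    have e : W.map (residue A) = Polynomial.X ^ W.natDegree := hW.map_eq_X_pow
    rw [e, dvd_prime_pow Polynomial.prime_X] at h7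
    obtain ⟨i, -, hi⟩ := h7
    have h8 := Polynomial.eq_of_monic_of_associated (hm.map _) (Polynomial.monic_X_pow i) hi
    have h9 := congrArg Polynomial.natDegree h8
    rw [hm.natDegree_map, Polynomial.natDegree_X_pow] at h9
    rw [← residue_eq_zero_iff, ← Polynomial.coeff_map, h8, Polynomial.coeff_X_pow, if_neg (by omega)]
  refine ⟨r, h4, (Ideal.span_singleton_prime (by simpa using hm.ne_zero)).1 ?_⟩
  have := (Ideal.span_singleton_prime hm.ne_zero).2 h5
  exact (Ideal.Quotient.isDomain_iff_prime _).1 hr.algEquivQuotient.symm.toMulEquiv.isDomain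

theorem height_succ_le {A : Type u} [CommRing A] [IsDomain A] {w : A} (hw : w ≠ 0)
    (P : Ideal A) [P.IsPrime] (h : w ∈ P) :
    (P.map (Ideal.Quotient.mk (Ideal.span {w}))).height + 1 ≤ P.height := by
  have hle : Ideal.span {w} ≤ P := (Ideal.span_singleton_le_iff_mem _).2 h
  have hp := Ideal.isPrime_map_quotientMk_of_isPrime hle
  let f := PrimeSpectrum.comap (Ideal.Quotient.mk (Ideal.span {w}))
  have hf : StrictMono f := RingHom.strictMono_comap_of_surjective Ideal.Quotient.mk_surjective
  have hb : ∀ x, ⊥ < f x := fun x => bot_lt_iff_ne_bot.2 fun h0 => hw (by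
    have h1 : w ∈ (f x).asIdeal := by simp [f]
    rwa [h0] at h1)
  have e : f ⟨_, hp⟩ = ⟨P, ‹_›⟩ := PrimeSpectrum.ext (Ideal.comap_map_mk hle)
  rw [show (P.map _).height = _ from PrimeSpectrum.height_eq_orderHeight ⟨_, hp⟩,
    show P.height = _ from PrimeSpectrum.height_eq_orderHeight ⟨P, ‹_›⟩, ← e]
  refine add_le_of_le_tsub_right_of_le
    (le_add_self.trans (Order.height_add_one_le (hb _))) (Order.height_le fun p hp => ?_)
  have := Order.length_le_height (p := (p.map f hf).cons ⊥ (hb _))
    ((RelSeries.last_cons (p.map f hf) ⊥ (hb _)).trans (congrArg f hp)).le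
  exact ENat.le_sub_of_add_le_right (by simp) (le_trans (le_of_eq (by
    change _ = ((0 + p.length + 1 : ℕ) : ℕ∞)
    simp)) this)

theorem regular_of_quotient {A B : Type u} [CommRing A] [IsDomain A] [IsNoetherianRing A]
    [CommRing B] [IsRegularRing B] (φ : B →+* A) {w : B} {w' : A} (hw' : φ w = w') (hw : w' ≠ 0)
    (e : (B ⧸ Ideal.span {w}) ≃+* A ⧸ Ideal.span {w'})
    (he : ∀ b, e (Ideal.Quotient.mk _ b) = Ideal.Quotient.mk _ (φ b)) (P : Ideal A) [P.IsPrime]
    (h : w' ∈ P) : IsRegularLocalRing (Localization.AtPrime P) := by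
  subst hw'
  have hle : Ideal.span {φ w} ≤ P := (Ideal.span_singleton_le_iff_mem _).2 h
  have hle' : Ideal.span {w} ≤ P.comap φ := (Ideal.span_singleton_le_iff_mem _).2 h
  have h1 : (P.comap φ).map φ = P := by
    refine le_antisymm Ideal.map_comap_le fun x hx => ?_
    obtain ⟨b, hb⟩ := e.surjective (Ideal.Quotient.mk _ x)
    obtain ⟨b, rfl⟩ := Ideal.Quotient.mk_surjective b
    rw [he, Ideal.Quotient.eq] at hb
    have h2 : φ b ∈ P := by simpa using P.add_mem (hle hb) hx
    have h3 : φ b - x ∈ (P.comap φ).map φ :=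
      (Ideal.span_singleton_le_iff_mem _).2 (Ideal.mem_map_of_mem φ h) hb
    simpa using Ideal.sub_mem _ (Ideal.mem_map_of_mem φ h2) h3
  have h2 : (P.comap φ).map (Ideal.Quotient.mk _) = (P.map (Ideal.Quotient.mk _)).comap e := by
    ext x
    obtain ⟨b, rfl⟩ := Ideal.Quotient.mk_surjective x
    rw [Ideal.mem_comap, he, Ideal.mem_quotient_iff_mem hle, Ideal.mem_quotient_iff_mem hle',
      Ideal.mem_comap]
  have h3 := Ideal.height_le_height_add_one_of_mem (p := P.comap φ) h
  rw [h2, RingEquiv.height_comap] at h3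
  have h4 : maximalIdeal (Localization.AtPrime P) =
      (maximalIdeal (Localization.AtPrime (P.comap φ))).map
        (Localization.localRingHom (P.comap φ) P φ rfl) := by
    rw [← Localization.AtPrime.map_eq_maximalIdeal, ← Localization.AtPrime.map_eq_maximalIdeal,
      Ideal.map_map, show (Localization.localRingHom (P.comap φ) P φ rfl).comp (algebraMap _ _) =
        (algebraMap A _).comp φ from RingHom.ext (Localization.localRingHom_to_map _ _ _ rfl),
      ← Ideal.map_map, h1]
  refine IsRegularLocalRing.of_spanFinrank_maximalIdeal_le _ ?_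
  rw [h4, IsLocalization.AtPrime.ringKrullDim_eq_height P]
  refine le_trans (Nat.cast_le.2 (Ideal.spanFinrank_map_le_of_fg _
    (Ideal.fg_of_isNoetherianRing _))) ?_
  rw [IsRegularLocalRing.spanFinrank_maximalIdeal,
    IsLocalization.AtPrime.ringKrullDim_eq_height (P.comap φ)]
  exact WithBot.coe_le_coe.2 (h3.trans (height_succ_le hw P h))

theorem regular_of_distinguished {A : Type u} [CommRing A] [IsDomain A] [IsLocalRing A]
    [IsAdicComplete (maximalIdeal A) A] [IsRegularRing A] {W : Polynomial A}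
    (hW : W.IsDistinguishedAt (maximalIdeal A)) (P : Ideal (PowerSeries A)) [P.IsPrime]
    (h : (W : PowerSeries A) ∈ P) : IsRegularLocalRing (Localization.AtPrime P) :=
  regular_of_quotient Polynomial.coeToPowerSeries.ringHom (w := W) (w' := (W : PowerSeries A)) rfl
    (by simpa using hW.monic.ne_zero) hW.algEquivQuotient.toRingEquiv
    (fun b => (hW.algEquivQuotient_apply (Ideal.Quotient.mk _ b)).trans (by simp)) P h

theorem isRegularRing_mvPowerSeries (K : Type u) [Field K] [Infinite K] (D : ℕ) :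
    IsRegularRing (MvPowerSeries (Fin D) K) := by
  have hinj : Function.Injective (residue K) := (residue K).injective
  have : Infinite (ResidueField K) := Infinite.of_injective _ hinj
  induction D with
  | zero => exact IsRegularRing.of_ringEquiv (isEmptyEquiv (Fin 0) K).toRingEquiv.symm
  | succ n ih =>
    refine isRegularRing_iff.2 fun P hP => ?_
    rcases eq_or_ne P ⊥ with h0 | h0
    · refine IsRegularLocalRing.of_spanFinrank_maximalIdeal_le _ ?_
      rw [← Localization.AtPrime.map_eq_maximalIdeal, (Ideal.map_eq_bot_iff_le_ker _).2 (h0.trans_le bot_le),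
        Submodule.spanFinrank_bot]
      exact ringKrullDim_nonneg_of_nontrivial
    obtain ⟨f, hf, hf0⟩ := (Submodule.ne_bot_iff P).1 h0
    obtain ⟨e, W, hW, h⟩ := exists_distinguished P hf fun h => hf0 (MvPowerSeries.ext fun d =>
      hinj (by simpa using congrArg (coeff d) h))
    have := isAdicComplete_mvPowerSeries (σ := Fin n) (V := K)
    have := NoZeroDivisors.to_isDomain (MvPowerSeries (Fin n) K)
    have := regular_of_distinguished hW (P.comap e.symm) h
    exact IsRegularLocalRing.of_ringEquiv <| IsLocalization.ringEquivOfRingEquiv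
      (Localization.AtPrime (P.comap e.symm)) (Localization.AtPrime P) e.symm
      (e.symm.map_primeCompl_comap_eq P)

end PSer

theorem ufd_mvPowerSeries (V : Type u) [CommRing V] [IsDomain V] [IsDiscreteValuationRing V]
    [IsAdicComplete (maximalIdeal V) V] [Infinite (ResidueField V)] (n : ℕ) :
    UniqueFactorizationMonoid (MvPowerSeries (Fin n) V) := by
  induction n with
  | zero => exact (isEmptyEquiv (Fin 0) V).symm.toMulEquiv.uniqueFactorizationMonoid inferInstance
  | succ n ih =>
    have := NoZeroDivisors.to_isDomain (MvPowerSeries (Fin n) V)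
    have := NoZeroDivisors.to_isDomain (MvPowerSeries (Fin (n + 1)) V)
    have := NoZeroDivisors.to_isDomain (MvPowerSeries (Fin (n + 1)) (ResidueField V))
    refine UniqueFactorizationMonoid.iff_exists_prime_mem_of_isPrime.2 fun q hq0 hq => ?_
    obtain ⟨ϖ, hϖ⟩ := IsDiscreteValuationRing.exists_irreducible V
    have hk : RingHom.ker (MvPowerSeries.map (σ := Fin (n + 1)) (residue V)) =
        Ideal.span {C ϖ} := by
      ext f
      rw [RingHom.mem_ker, Ideal.mem_span_singleton]
      refine ⟨fun h => ?_, ?_⟩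
      · have h1 : ∀ d, ϖ ∣ coeff d f := fun d => by
          rw [← Ideal.mem_span_singleton, ← hϖ.maximalIdeal_eq, ← residue_eq_zero_iff,
            ← coeff_map, h, map_zero]
        choose c hc using h1
        exact ⟨c, MvPowerSeries.ext fun d => (hc d).trans (coeff_C_mul d c ϖ).symm⟩
      · rintro ⟨c, rfl⟩
        rw [map_mul, map_C, (residue_eq_zero_iff _).2 hϖ.not_isUnit, map_zero, zero_mul]
    have hp : Prime (C ϖ : MvPowerSeries (Fin (n + 1)) V) :=
      (Ideal.span_singleton_prime fun h => hϖ.ne_zero (C_injective (h.trans (map_zero _).symm))).1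
        (hk ▸ RingHom.ker_isPrime _)
    by_cases h : C ϖ ∈ q
    · exact ⟨_, h, hp⟩
    obtain ⟨f, hf, hf0⟩ := (Submodule.ne_bot_iff q).1 hq0
    obtain ⟨k, g, hg, rfl⟩ := WfDvdMonoid.max_power_factor' hf0 hp.not_isUnit
    obtain ⟨e, W, hW, h1⟩ := exists_distinguished q
      ((hq.mem_or_mem hf).resolve_left fun h2 => h (hq.mem_of_pow_mem _ h2))
      fun h2 => hg (Ideal.mem_span_singleton.1 (hk ▸ h2))
    have := isAdicComplete_mvPowerSeries (σ := Fin n) (V := V)
    obtain ⟨x, hx, hx'⟩ := exists_prime_mem _ hW h1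
    exact ⟨e.symm x, hx, (MulEquiv.prime_iff e.symm).2 hx'⟩

theorem locGen_of_infinite (K : Type u) [Field K] [Infinite K] (D : ℕ) :
    LocGen (MvPowerSeries (Fin D) K) D := by
  intro P hP d hd
  have := isRegularRing_mvPowerSeries K D
  obtain ⟨w, hw, hdim⟩ : ∃ w : List (Localization.AtPrime P), Ideal.ofList w = maximalIdeal _ ∧
      ringKrullDim (Localization.AtPrime P) = w.length := by
    obtain ⟨s, h1, h2⟩ := Submodule.FG.exists_span_finset_card_eq_spanFinrank
      (Ideal.fg_of_isNoetherianRing (maximalIdeal (Localization.AtPrime P)))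
    refine ⟨s.toList, ?_, ?_⟩
    · rw [← h2, Ideal.ofList]
      exact congrArg _ (Set.ext fun x => Finset.mem_toList)
    · rw [Finset.length_toList, h1, IsRegularLocalRing.spanFinrank_maximalIdeal]
  rw [IsLocalization.AtPrime.ringKrullDim_eq_height P] at hdim
  have h1 := FrobFlat.height_add_le P
  rw [ringKrullDim_mvPowerSeries_field, hdim] at h1
  have h2 : ringKrullDim (MvPowerSeries (Fin D) K ⧸ P) ≤ D :=
    (ringKrullDim_quotient_le P).trans (ringKrullDim_mvPowerSeries_field K D).le
  have h3 : 0 ≤ ringKrullDim (MvPowerSeries (Fin D) K ⧸ P) := ringKrullDim_nonneg_of_nontrivial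
  have hlen : w.length ≤ d := by
    generalize ringKrullDim (MvPowerSeries (Fin D) K ⧸ P) = e at h1 h2 h3 hd
    induction e using WithBot.recBotCoe with
    | bot => simp at h3
    | coe e =>
      induction e using ENat.recTopCoe with
      | top => exact absurd h2 (not_le.mpr (WithBot.coe_lt_coe.mpr (ENat.natCast_lt_top D)))
      | coe e =>
        have h4 : w.length + e ≤ D := by exact_mod_cast h1
        have h5 : D ≤ d + e := by exact_mod_cast hd
        omega
  have hnum : ∀ x ∈ w, ∃ y ∈ P, x ∈ Ideal.span {algebraMap _ (Localization.AtPrime P) y} := by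
    intro x hx
    have hm : x ∈ maximalIdeal (Localization.AtPrime P) := hw ▸ Ideal.subset_span hx
    obtain ⟨⟨y, s⟩, rfl⟩ := IsLocalization.mk'_surjective P.primeCompl x
    refine ⟨y, (IsLocalization.AtPrime.mk'_mem_maximal_iff _ P y s).mp hm, ?_⟩
    simp only
    rw [IsLocalization.mk'_eq_mul_mk'_one]
    exact Ideal.mul_mem_right _ _ (Ideal.subset_span rfl)
  choose y hyP hy using hnum
  refine ⟨fun i => if h : i.val < w.length then y w[i.val] (List.getElem_mem h) else 0,
    fun i => ?_, ?_⟩
  · beta_reduce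
    split_ifs
    · exact hyP _ _
    · exact P.zero_mem
  · rw [Localization.AtPrime.map_eq_maximalIdeal, ← hw, Ideal.ofList, Ideal.span_le]
    intro x hx
    obtain ⟨i, hi, rfl⟩ := List.getElem_of_mem hx
    refine (Ideal.span_le.mpr ?_) (hy _ (List.getElem_mem hi))
    rintro _ rfl
    refine Ideal.mem_map_of_mem _ (Ideal.subset_span ⟨⟨i, by omega⟩, ?_⟩)
    simp only [dif_pos hi]

end Vale.Agent.P202
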