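import Vale.Agent.P202.ApproxGen
import Vale.Agent.P202.ApproxAux
import Vale.Agent.P202.Cohen
import Vale.Agent.P202.PSer

/-! Module I2: approximation of power series in characteristic zero by power series in
characteristic `p`. -/

namespace Vale.Agent.P202

open MvPowerSeries

universe u

theorem approx_algInd {A : Type u} [CommRing A] {σ : Type} (x : σ → A)
    (F : MvPolynomial σ ℤ →+* A) (hF : Function.Injective F)
    (hx : ∀ i, F (MvPolynomial.X i) = x i) : AlgebraicIndependent ℤ x := by
  have h : (MvPolynomial.aeval x : MvPolynomial σ ℤ →ₐ[ℤ] A).toRingHom = F := by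
    apply MvPolynomial.ringHom_ext
    · intro r; simp
    · intro i; simp [hx]
  rw [← h] at hF
  exact hF

theorem approx_inj_coe (l : Type u) [Field l] [CharZero l] (d : ℕ) :
    Function.Injective ((MvPolynomial.coeToMvPowerSeries.ringHom (σ := Fin d) (R := l)).comp
      (MvPolynomial.map (Int.castRingHom l))) :=
  (MvPolynomial.coe_injective _ _).comp
    (MvPolynomial.map_injective _ (RingHom.injective_int (Int.castRingHom l)))

theorem approx_base (l : Type u) [Field l]
    (Ω : Finset (MvPowerSeries (Fin 0) l)) (g : MvPowerSeries (Fin 0) l) (hg : g ≠ 0) :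
    ∃ (p : ℕ) (_ : Fact p.Prime) (l' : Type u) (_ : Field l') (_ : CharP l' p)
      (C : Subring (MvPowerSeries (Fin 0) l))
      (u : MvPowerSeries (Fin 0) l → MvPowerSeries (Fin 0) l'),
      HomOn C u ∧ (Ω : Set (MvPowerSeries (Fin 0) l)) ⊆ C ∧ g ∈ C ∧ u g ≠ 0 ∧
        ∀ j, X j ∈ C ∧ u (X j) = X j := by
  have hu : IsUnit g := by
    rw [isUnit_iff_constantCoeff, isUnit_iff_ne_zero]
    intro h0
    apply hg
    ext m
    rw [Subsingleton.elim m 0]
    simpa using h0
  obtain ⟨g', hg'⟩ := hu.exists_right_inv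
  obtain ⟨p, hp, l', hl', hc, C', f, hs⟩ := approx_field
    (insert g (insert g' (Ω : Set (MvPowerSeries (Fin 0) l)))) (by simp)
  obtain ⟨u, hu, hu'⟩ := exists_homOn ((MvPowerSeries.C (σ := Fin 0) (R := l')).comp f)
  have h1 : g ∈ C' := hs (by simp)
  have h2 : g' ∈ C' := hs (by simp)
  refine ⟨p, hp, l', hl', hc, C', u, hu, fun a ha => hs (by simp [ha]), h1, ?_, fun j => j.elim0⟩
  intro h0
  have h3 := hu.mul g h1 g' h2
  rw [hg', hu.one, h0, zero_mul] at h3
  exact one_ne_zero h3

theorem approx_shear_X {V : Type u} [CommRing V] {n : ℕ} (k : Fin n → ℤ)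
    (e : MvPowerSeries (Fin (n + 1)) V ≃ₐ[V] MvPowerSeries (Fin (n + 1)) V) (h0 : e (X 0) = X 0)
    (hs : ∀ j : Fin n, e (X j.succ) = X j.succ + C (k j : V) * X 0) {D : Type u} [CommRing D]
    (f : D →+* MvPowerSeries (Fin n) V) (y : Fin n → D) (hy : ∀ j, f (y j) = X j)
    (j : Fin (n + 1)) :
    finSuccEquiv V n (e (X j)) = ((Polynomial.map f (Fin.cases Polynomial.X
      (fun i => Polynomial.C (y i) + (k i : Polynomial D) * Polynomial.X) j) :
        Polynomial (MvPowerSeries (Fin n) V)) : PowerSeries (MvPowerSeries (Fin n) V)) := by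
  refine Fin.cases ?_ (fun i => ?_) j
  · simp [h0]
  · rw [hs, map_add, map_mul, finSuccEquiv_X_succ, finSuccEquiv_X_zero, finSuccEquiv_C]
    simp only [Fin.cases_succ, Polynomial.map_add, Polynomial.map_mul, Polynomial.map_C, hy,
      Polynomial.map_X, Polynomial.coe_add, Polynomial.coe_mul, Polynomial.coe_C,
      Polynomial.coe_X, Polynomial.map_intCast, map_intCast]
    congr 2
    exact (map_intCast (Polynomial.coeToPowerSeries.ringHom (R := MvPowerSeries (Fin n) V))
      (k i)).symm

/-- (AP) -/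
theorem exists_approx_hom (l : Type u) [Field l] [CharZero l] (d : ℕ)
    (Ω : Finset (MvPowerSeries (Fin d) l)) (g : MvPowerSeries (Fin d) l) (hg : g ≠ 0) :
    ∃ (p : ℕ) (_ : Fact p.Prime) (l' : Type u) (_ : Field l') (_ : CharP l' p)
      (C : Subring (MvPowerSeries (Fin d) l))
      (u : MvPowerSeries (Fin d) l → MvPowerSeries (Fin d) l'),
      HomOn C u ∧ (Ω : Set (MvPowerSeries (Fin d) l)) ⊆ C ∧ g ∈ C ∧ u g ≠ 0 ∧
        ∀ j, X j ∈ C ∧ u (X j) = X j := by
  induction d with
  | zero => exact approx_base l Ω g hg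
  | succ n ih =>
    classical
    have : IsDomain (MvPowerSeries (Fin (n + 1)) l) := NoZeroDivisors.to_isDomain _
    have : IsDomain (MvPowerSeries (Fin n) l) := NoZeroDivisors.to_isDomain _
    have : CharZero (MvPowerSeries (Fin (n + 1)) l) :=
      charZero_of_injective_ringHom (f := MvPowerSeries.C (σ := Fin (n + 1)) (R := l))
        MvPowerSeries.C_injective
    have := isAdicComplete_mvPowerSeries (σ := Fin n) (V := l)
    obtain ⟨r, w, T, P, h, H, hP, hP', hh, hH, huniv⟩ :=
      exists_generic_presentation.{u, u} (X : Fin (n + 1) → MvPowerSeries (Fin (n + 1)) l)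
        (approx_algInd _ _ (approx_inj_coe l (n + 1)) (fun i => by simp)) (insert g Ω)
    simp only [← apE_apply] at hP hP' hH huniv
    set z := Sum.elim (X : Fin (n + 1) → MvPowerSeries (Fin (n + 1)) l) w with hz
    have hΘ : apE z T (P.derivative ^ 2 * Polynomial.C h * H g) ≠ 0 := by
      rw [map_mul, map_mul, map_pow, apE_C, ← hH g (Finset.mem_insert_self _ _)]
      exact mul_ne_zero (mul_ne_zero (pow_ne_zero 2 hP') hh) (mul_ne_zero hh hg)
    have hres : Function.Injective (IsLocalRing.residue l) := RingHom.injective _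
    obtain ⟨a, e, ha, he0, hes, hreg⟩ := exists_shear_regular (Set.range (Int.cast : ℤ → l))
      ((Set.infinite_range_of_injective Int.cast_injective).image hres.injOn)
      (apE z T (P.derivative ^ 2 * Polynomial.C h * H g)) (by
        intro h0
        apply hΘ
        ext m
        apply hres
        have h1 := congrArg (coeff m) h0
        rw [coeff_map] at h1
        simpa using h1)
    choose k hk using ha
    have hes' : ∀ j : Fin n, e (X j.succ) = X j.succ + C (k j : l) * X 0 := fun j => by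
      rw [hes, hk]
    let ψ : MvPowerSeries (Fin (n + 1)) l →+* PowerSeries (MvPowerSeries (Fin n) l) :=
      (e.trans (finSuccEquiv l n)).toRingEquiv.toRingHom
    have hψ : ∀ s, ψ s = finSuccEquiv l n (e s) := fun s => rfl
    let x₀ : Fin (n + 1) → Polynomial (MvPowerSeries (Fin n) l) := fun j =>
      Fin.cases Polynomial.X (fun i => Polynomial.C (X i) +
        (k i : Polynomial (MvPowerSeries (Fin n) l)) * Polynomial.X) j
    obtain ⟨z₁, T₁, W, υ, β, η, c, hz₁, hWm, hυc, hQ₁, hP₁, hR₁⟩ :=
      approx_char0 ((insert g Ω : Finset _) : Set (MvPowerSeries (Fin (n + 1)) l))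
        (fun i => ψ (z i)) (ψ T) (Sum.elim (fun j => some (x₀ j)) (fun _ => none))
        (by
          rintro (j | j) q hq
          · have h1 := approx_shear_X k e he0 hes' (RingHom.id _) X (fun _ => rfl) j
            rw [Polynomial.map_id] at h1
            have h2 : x₀ j = q := by simpa using hq
            rw [← h2, hψ]
            exact h1
          · simp at hq)
        P (P.derivative ^ 2 * Polynomial.C h * H g) (fun ω => P.derivative ^ 2 * H g * H ω)
        (by rw [← apE_map, hP, map_zero]) (by rw [← apE_map]; exact hreg)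
        (by
          intro ω hω
          rw [← apE_map, ← apE_map]
          apply map_dvd
          refine ⟨ω, ?_⟩
          simp only [map_mul, apE_C]
          rw [← hH ω hω]
          ring)
    obtain ⟨Ω', hΩ'⟩ := approx_coeffs (Set.range z₁ ∪ {T₁, W, υ, β, Polynomial.C c} ∪
      η '' ((insert g Ω : Finset _) : Set (MvPowerSeries (Fin (n + 1)) l)))
      (((Set.finite_range _).union (Set.toFinite _)).union ((Finset.finite_toSet _).image _))
    obtain ⟨p, hp, l', hl', hc, C', u', hu', hΩC, -, -, hX'⟩ := ih Ω' 1 one_ne_zero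
    obtain ⟨f, hf⟩ := hu'.exists_ringHom
    have hco := hΩ' C' hΩC
    have : IsDomain (MvPowerSeries (Fin n) l') := NoZeroDivisors.to_isDomain _
    obtain ⟨z', T', W', υ', β', η', hz', hW', hυ', hQ', hP₂, hR'⟩ :=
      approx_transfer C' f ((insert g Ω : Finset _) : Set (MvPowerSeries (Fin (n + 1)) l))
        z₁ T₁ W υ β η c P (P.derivative ^ 2 * Polynomial.C h * H g)
        (fun ω => P.derivative ^ 2 * H g * H ω)
        (fun i => hco _ (Or.inl (Or.inl ⟨i, rfl⟩))) (hco _ (Or.inl (Or.inr (by simp))))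
        (hco _ (Or.inl (Or.inr (by simp)))) (hco _ (Or.inl (Or.inr (by simp))))
        (hco _ (Or.inl (Or.inr (by simp)))) (fun ω hω => hco _ (Or.inr ⟨ω, hω, rfl⟩))
        (by simpa using hco (Polynomial.C c) (Or.inl (Or.inr (by simp))) 0)
        hWm hυc hQ₁ hP₁ hR₁
    obtain ⟨T'', hP₃, hh₃, hG₃, hH₃⟩ := approx_charp PowerSeries.X
      ((insert g Ω : Finset _) : Set (MvPowerSeries (Fin (n + 1)) l)) z' T' P (H g) h H
      W' υ' β' η' hW' hυ' hQ' hP₂ hR'
    have hv : ∀ ω, ∃ v, ω ∈ insert g Ω → apE z' T'' (Polynomial.C h) * v = apE z' T'' (H ω) := by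
      intro ω
      by_cases hω : ω ∈ insert g Ω
      · obtain ⟨v, hv⟩ := hH₃ ω hω
        exact ⟨v, fun _ => hv.symm⟩
      · exact ⟨0, fun h => absurd h hω⟩
    choose v hv using hv
    have hzz : Sum.elim (fun j => z' (Sum.inl j)) (fun j => z' (Sum.inr j)) = z' := by
      funext i
      rcases i with i | i <;> rfl
    obtain ⟨C₁, u₁, hu₁, hΩ₁, hX₁, hv₁⟩ := huniv (PowerSeries (MvPowerSeries (Fin n) l'))
      (fun j => z' (Sum.inl j)) (fun j => z' (Sum.inr j)) T'' v (by rw [hzz]; exact hP₃)
      (by rw [hzz, ← apE_C z' T'']; exact hh₃)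
      (by intro ω hω; rw [hzz, ← apE_C z' T'']; exact hv ω hω)
    obtain ⟨e', he0', hes''⟩ := exists_shear (fun j => (k j : l'))
    let ψ' := e'.trans (finSuccEquiv l' n)
    have hgm : g ∈ insert g Ω := Finset.mem_insert_self _ _
    refine ⟨p, hp, l', hl', hc, C₁, fun s => ψ'.symm (u₁ s), ⟨?_, ?_, ?_⟩,
      fun s hs => hΩ₁ (Finset.mem_coe.2 (Finset.mem_insert_of_mem hs)),
      hΩ₁ (Finset.mem_coe.2 hgm), ?_, fun j => ⟨(hX₁ j).1, ?_⟩⟩
    · simp only [hu₁.one, map_one]
    · intro s hs t ht
      simp only [hu₁.add s hs t ht, map_add]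
    · intro s hs t ht
      simp only [hu₁.mul s hs t ht, map_mul]
    · intro h0
      apply hG₃
      have h1 : u₁ g = 0 := by simpa using h0
      rw [← hv g hgm, ← hv₁ g hgm, h1, mul_zero]
    · rw [AlgEquiv.symm_apply_eq, (hX₁ j).2]
      have h1 := approx_shear_X k e' he0' hes'' f (fun i => ⟨X i, (hX' i).1⟩)
        (fun i => by rw [hf]; exact (hX' i).2) j
      refine (hz' (Sum.inl j) _ ?_).trans h1.symm
      rw [hz₁ (Sum.inl j) (x₀ j) rfl]
      refine Fin.cases ?_ (fun i => ?_) j
      · simp [x₀]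
      · simp [x₀]

end Vale.Agent.P202
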