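import Vale.Agent.P202.HomOn

/-! Module I1: generic presentation of a finitely generated domain of characteristic zero, and a
one variable Hensel lemma. -/

namespace Vale.Agent.P202

open Polynomial

universe u v

namespace AG

theorem exists_fixed {B : Type u} [CommRing B] (I : Ideal B) [IsAdicComplete I B] (φ : B → B)
    (hφ : ∀ (n : ℕ) (x y : B), x - y ∈ I ^ n → φ x - φ y ∈ I ^ (n + 1)) : ∃ L, φ L = L := by
  have key : ∀ {n : ℕ} {x y : B}, x ≡ y [SMOD (I ^ n • ⊤ : Submodule B B)] ↔ x - y ∈ I ^ n := by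
    intro n x y
    rw [SModEq.sub_mem, smul_eq_mul, Ideal.mul_top]
  have h1 : ∀ n : ℕ, φ^[n] 0 - φ^[n + 1] 0 ∈ I ^ n := by
    intro n
    induction n with
    | zero => simp
    | succ n ih =>
      rw [Function.iterate_succ_apply' φ (n + 1), Function.iterate_succ_apply' φ n] at *
      exact hφ n _ _ ih
  obtain ⟨L, hL⟩ := IsPrecomplete.prec' (I := I) (fun n => φ^[n] 0) (by
    intro m n hmn
    rw [key]
    induction hmn with
    | refl => simp
    | @step k hk ih =>
      have := Ideal.add_mem _ ih (Ideal.pow_le_pow_right hk (h1 k))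
      rwa [sub_add_sub_cancel] at this)
  refine ⟨L, sub_eq_zero.1 (IsHausdorff.haus' (I := I) _ fun n => ?_)⟩
  rw [key, sub_zero]
  have h2 := hφ n _ _ (key.1 (hL n))
  have h3 := key.1 (hL (n + 1))
  rw [Function.iterate_succ_apply'] at h3
  have h4 := Ideal.sub_mem _ h3 h2
  rw [sub_sub_sub_cancel_left] at h4
  exact Ideal.pow_le_pow_right (Nat.le_succ n) h4

theorem exists_basis {A : Type u} [CommRing A] [IsDomain A] {d : ℕ}
    (x : Fin d → A) (hx : AlgebraicIndependent ℤ x) (Ω : Finset A) :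
    ∃ (r : ℕ) (w : Fin r → A), AlgebraicIndependent ℤ (Sum.elim x w) ∧
      ∀ ω ∈ Ω, IsAlgebraic (Algebra.adjoin ℤ (Set.range (Sum.elim x w))) ω := by
  classical
  induction Ω using Finset.induction_on with
  | empty =>
    refine ⟨0, Fin.elim0, ?_, by simp⟩
    have h := hx.comp (Sum.elim id Fin.elim0 : Fin d ⊕ Fin 0 → Fin d) (by
      rintro (a | a) (b | b) hab
      · exact congrArg Sum.inl hab
      · exact b.elim0
      · exact a.elim0
      · exact a.elim0)
    have h2 : x ∘ (Sum.elim id Fin.elim0 : Fin d ⊕ Fin 0 → Fin d) = Sum.elim x Fin.elim0 := by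
      funext a
      rcases a with a | a
      · rfl
      · exact a.elim0
    rwa [h2] at h
  | insert ω Ω _ ih =>
    obtain ⟨r, w, h1, h2⟩ := ih
    by_cases h3 : IsAlgebraic (Algebra.adjoin ℤ (Set.range (Sum.elim x w))) ω
    · exact ⟨r, w, h1, by
        intro a ha
        rcases Finset.mem_insert.1 ha with rfl | ha
        exacts [h3, h2 a ha]⟩
    have h4 := AlgebraicIndependent.option_iff.2 ⟨h1, h3⟩
    let e : Fin d ⊕ Fin (r + 1) → Option (Fin d ⊕ Fin r) :=
      Sum.elim (fun a => some (Sum.inl a)) (Fin.cases none fun a => some (Sum.inr a))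
    have he : Function.Injective e := by
      rintro (a | a) (b | b) hab
      · simpa [e] using hab
      · induction b using Fin.cases <;> simp [e] at hab
      · induction a using Fin.cases <;> simp [e] at hab
      · induction a using Fin.cases <;> induction b using Fin.cases <;> simp_all [e]
    have h5 : (fun o : Option (Fin d ⊕ Fin r) => o.elim ω (Sum.elim x w)) ∘ e =
        Sum.elim x (Fin.cons ω w : Fin (r + 1) → A) := by
      funext a
      rcases a with a | a
      · rfl
      · induction a using Fin.cases <;> rfl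
    refine ⟨r + 1, Fin.cons ω w, h5 ▸ h4.comp e he, fun a ha => ?_⟩
    rcases Finset.mem_insert.1 ha with rfl | ha
    · exact isAlgebraic_algebraMap
        (⟨a, Algebra.subset_adjoin ⟨Sum.inr 0, rfl⟩⟩ : Algebra.adjoin ℤ
          (Set.range (Sum.elim x (Fin.cons a w : Fin (r + 1) → A))))
    · refine IsAlgebraic.tower_top_of_subalgebra_le (Algebra.adjoin_mono ?_) (h2 a ha)
      rintro _ ⟨b | b, rfl⟩
      · exact ⟨Sum.inl b, rfl⟩
      · exact ⟨Sum.inr b.succ, rfl⟩

open IntermediateField in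
theorem gen_core {R : Type*} {A : Type*} [CommRing R] [IsDomain R] [CharZero R] [CommRing A]
    [IsDomain A] [Algebra R A] [FaithfulSMul R A] (Ω : Finset A)
    (halg : ∀ ω ∈ Ω, IsAlgebraic R ω) :
    ∃ (T : A) (P : R[X]) (h : R) (H : A → R[X]), aeval T P = 0 ∧ aeval T P.derivative ≠ 0 ∧
      h ≠ 0 ∧ (∀ ω ∈ Ω, algebraMap R A h * ω = aeval T (H ω)) ∧ P.leadingCoeff ∣ h ∧
      0 < P.natDegree ∧ ∀ G : R[X], G.natDegree < P.natDegree → aeval T G = 0 → G = 0 := by
  classical
  let K := FractionRing R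
  let F := FractionRing A
  let : Algebra K F := FractionRing.liftAlgebra R F
  have : IsScalarTower R K F := FractionRing.isScalarTower_liftAlgebra R F
  have : CharZero K := IsFractionRing.charZero R
  have hinjA : Function.Injective (algebraMap A F) := IsFractionRing.injective A F
  have hinjR : Function.Injective (algebraMap R K) := IsFractionRing.injective R K
  let S : Set F := algebraMap A F '' (Ω : Set A)
  have hS : ∀ y ∈ S, IsAlgebraic K y := by
    rintro _ ⟨ω, hω, rfl⟩
    exact (IsFractionRing.isAlgebraic_iff R K F).1 (halg ω hω).algebraMap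
  have : Finite S := (Ω.finite_toSet.image _).to_subtype
  have : FiniteDimensional K (adjoin K S) := finiteDimensional_adjoin fun y hy => (hS y hy).isIntegral
  obtain ⟨α, hα⟩ := Field.exists_primitive_element K (adjoin K S)
  have hα' : K⟮(α : F)⟯ = adjoin K S := by
    simpa only [lift_adjoin_simple, lift_top] using congrArg lift hα
  have hαalg : IsAlgebraic K (α : F) := (IsAlgebraic.of_finite K α).algebraMap
  have hclear : ∀ y ∈ Algebra.adjoin K S, ∃ c : R, c ≠ 0 ∧ ∃ a : A,
      algebraMap A F a = algebraMap R F c * y := by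
    intro y hy
    induction hy using Algebra.adjoin_induction with
    | mem y hy =>
      obtain ⟨a, -, rfl⟩ := hy
      exact ⟨1, one_ne_zero, a, by simp⟩
    | algebraMap k =>
      obtain ⟨⟨a, b⟩, hab⟩ := IsLocalization.surj (nonZeroDivisors R) k
      refine ⟨b, nonZeroDivisors.ne_zero b.2, algebraMap R A a, ?_⟩
      rw [← IsScalarTower.algebraMap_apply, IsScalarTower.algebraMap_apply R K F a, ← hab, map_mul,
        ← IsScalarTower.algebraMap_apply, mul_comm]
    | add y z _ _ h1 h2 =>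
      obtain ⟨c, hc, a, ha⟩ := h1
      obtain ⟨c', hc', a', ha'⟩ := h2
      refine ⟨c * c', mul_ne_zero hc hc', algebraMap R A c' * a + algebraMap R A c * a', ?_⟩
      simp only [map_add, map_mul, ha, ha', ← IsScalarTower.algebraMap_apply]
      ring
    | mul y z _ _ h1 h2 =>
      obtain ⟨c, hc, a, ha⟩ := h1
      obtain ⟨c', hc', a', ha'⟩ := h2
      refine ⟨c * c', mul_ne_zero hc hc', a * a', ?_⟩
      simp only [map_mul, ha, ha']
      ring
  obtain ⟨c, hc, T, hT⟩ := hclear α (by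
    rw [← adjoin_toSubalgebra_of_isAlgebraic hS]
    exact α.2)
  have hcK : algebraMap R K c ≠ 0 := fun h => hc (hinjR (by rw [h, map_zero]))
  have hev : ∀ G : R[X], algebraMap A F (aeval T G) =
      aeval (algebraMap A F T) (G.map (algebraMap R K)) := fun G => by
    rw [aeval_map_algebraMap, aeval_algebraMap_apply]
  have hτ : IsIntegral K (algebraMap A F T) := by
    rw [hT, IsScalarTower.algebraMap_apply R K F]
    exact isIntegral_algebraMap.mul hαalg.isIntegral
  have hω : ∀ ω : A, ∃ (b : R) (G : R[X]), b ≠ 0 ∧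
      (ω ∈ Ω → algebraMap R A b * ω = aeval T G) := by
    intro ω
    by_cases hω : ω ∈ Ω
    swap
    · exact ⟨1, 0, one_ne_zero, fun h => absurd h hω⟩
    have h1 : algebraMap A F ω ∈ Algebra.adjoin K {(α : F)} := by
      rw [← adjoin_simple_toSubalgebra_of_isAlgebraic hαalg, hα']
      exact subset_adjoin K S ⟨ω, hω, rfl⟩
    have h2 : Algebra.adjoin K {(α : F)} ≤ Algebra.adjoin K {algebraMap A F T} := by
      refine Algebra.adjoin_le (Set.singleton_subset_iff.2 ?_)
      have h3 : (α : F) = (algebraMap R K c)⁻¹ • algebraMap A F T := by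
        rw [hT, IsScalarTower.algebraMap_apply R K F, ← Algebra.smul_def, inv_smul_smul₀ hcK]
      rw [h3]
      exact Subalgebra.smul_mem _ (Algebra.self_mem_adjoin_singleton K _) _
    have h3 := h2 h1
    rw [Algebra.adjoin_singleton_eq_range_aeval] at h3
    obtain ⟨q, hq⟩ := h3
    obtain ⟨b, hb, hbq⟩ := IsLocalization.integerNormalization_spec (nonZeroDivisors R) q
    refine ⟨b, IsLocalization.integerNormalization (nonZeroDivisors R) q,
      nonZeroDivisors.ne_zero hb, fun _ => hinjA ?_⟩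
    rw [hev, hbq, ← algebraMap_smul K b q, map_smul, map_mul, ← IsScalarTower.algebraMap_apply,
      Algebra.smul_def, ← IsScalarTower.algebraMap_apply]
    exact congrArg _ hq.symm
  choose b G hb hG using hω
  obtain ⟨e, he, heP⟩ := IsLocalization.integerNormalization_spec (nonZeroDivisors R)
    (minpoly K (algebraMap A F T))
  generalize IsLocalization.integerNormalization (nonZeroDivisors R)
    (minpoly K (algebraMap A F T)) = P at heP
  have heK : algebraMap R K e ≠ 0 := fun h =>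
    nonZeroDivisors.ne_zero he (hinjR (by rw [h, map_zero]))
  rw [← algebraMap_smul K e] at heP
  have hdeg : P.natDegree = (minpoly K (algebraMap A F T)).natDegree := by
    rw [← natDegree_map_eq_of_injective hinjR, heP, natDegree_smul _ heK]
  have hpos : 0 < P.natDegree := hdeg ▸ minpoly.natDegree_pos hτ
  have hP0 : P ≠ 0 := by
    rintro rfl
    simp at hpos
  refine ⟨T, P, P.leadingCoeff * ∏ ω ∈ Ω, b ω,
    fun ω => C (P.leadingCoeff * ∏ ω' ∈ Ω.erase ω, b ω') * G ω, ?_, ?_, ?_, ?_, ?_, hpos, ?_⟩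
  · apply hinjA
    rw [hev, heP, map_smul, minpoly.aeval, smul_zero, map_zero]
  · intro h
    have h1 := congrArg (algebraMap A F) h
    rw [hev, ← derivative_map, heP, derivative_smul, map_smul, map_zero, Algebra.smul_def,
      mul_eq_zero] at h1
    exact (minpoly.irreducible hτ).separable.aeval_derivative_ne_zero (minpoly.aeval _ _)
      (h1.resolve_left ((map_ne_zero (algebraMap K F)).2 heK))
  · exact mul_ne_zero (leadingCoeff_ne_zero.2 hP0) (Finset.prod_ne_zero_iff.2 fun ω _ => hb ω)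
  · intro ω hω
    rw [map_mul (aeval T), aeval_C, ← hG ω hω, ← Finset.mul_prod_erase Ω b hω]
    simp only [map_mul]
    ring
  · exact dvd_mul_right _ _
  · intro Q hQ hQ0
    by_contra hne
    have h1 : Q.map (algebraMap R K) ≠ 0 := (Polynomial.map_ne_zero_iff hinjR).2 hne
    have h2 := natDegree_le_natDegree (minpoly.degree_le_of_ne_zero K (algebraMap A F T) h1
      (by rw [← hev, hQ0, map_zero]))
    rw [natDegree_map_eq_of_injective hinjR] at h2
    omega

theorem ker_le {R A B : Type*} [CommRing R] [CommRing A] [CommRing B] [IsDomain B]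
    (f : R[X] →+* A) (g : R[X] →+* B) {P : R[X]} (hf : f P = 0) (hg : g P = 0)
    (hl : g (C P.leadingCoeff) ≠ 0) (hpos : 0 < P.natDegree)
    (hmin : ∀ G : R[X], G.natDegree < P.natDegree → f G = 0 → G = 0) (G : R[X]) (hG : f G = 0) :
    g G = 0 := by
  induction hn : G.natDegree using Nat.strong_induction_on generalizing G with
  | _ n ih =>
    by_cases h : G.natDegree < P.natDegree
    · rw [hmin G h hG, map_zero]
    have h1 : P.natDegree ≤ G.natDegree := not_lt.1 h
    have h2 := ih _ (hn ▸ natDegree_cancelLeads_lt_of_natDegree_le_natDegree h1 (by omega))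
      (P.cancelLeads G) (by simp [cancelLeads, hf, hG]) rfl
    rw [cancelLeads, Nat.sub_eq_zero_of_le h1] at h2
    simpa [hg, hl] using h2

theorem exists_hom {R : Type*} {A : Type u} {B : Type v} [CommRing R] [CommRing A] [CommRing B]
    [IsDomain B] (f : R →+* A) (g : R →+* B) (hker : ∀ G, f G = 0 → g G = 0) {h : R}
    (hh : g h ≠ 0) : ∃ (C : Subring A) (u : A → B), HomOn C u ∧
      ∀ (a : A) (y : B) (N : ℕ) (G : R), f h ^ N * a = f G → g h ^ N * y = g G →
        a ∈ C ∧ u a = y := by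
  classical
  let Rel : A → B → Prop := fun a y => ∃ (N : ℕ) (G : R), f h ^ N * a = f G ∧ g h ^ N * y = g G
  have huniq : ∀ a y y', Rel a y → Rel a y' → y = y' := by
    rintro a y y' ⟨N, G, h1, h2⟩ ⟨N', G', h3, h4⟩
    have h5 := hker (h ^ N' * G - h ^ N * G') (by
      simp only [map_sub, map_mul, map_pow, ← h1, ← h3]
      ring)
    simp only [map_sub, map_mul, map_pow, ← h2, ← h4] at h5
    have h6 : g h ^ N * g h ^ N' * (y - y') = 0 := by rw [← h5]; ring
    exact sub_eq_zero.1 ((mul_eq_zero.1 h6).resolve_left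
      (mul_ne_zero (pow_ne_zero _ hh) (pow_ne_zero _ hh)))
  have hone : Rel 1 1 := ⟨0, 1, by simp, by simp⟩
  have hadd : ∀ a b y z, Rel a y → Rel b z → Rel (a + b) (y + z) := by
    rintro a b y z ⟨N, G, h1, h2⟩ ⟨N', G', h3, h4⟩
    refine ⟨N + N', h ^ N' * G + h ^ N * G', ?_, ?_⟩
    · simp only [map_add, map_mul, map_pow, ← h1, ← h3]
      ring
    · simp only [map_add, map_mul, map_pow, ← h2, ← h4]
      ring
  have hmul : ∀ a b y z, Rel a y → Rel b z → Rel (a * b) (y * z) := by
    rintro a b y z ⟨N, G, h1, h2⟩ ⟨N', G', h3, h4⟩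
    refine ⟨N + N', G * G', ?_, ?_⟩
    · simp only [map_mul, ← h1, ← h3]
      ring
    · simp only [map_mul, ← h2, ← h4]
      ring
  let C : Subring A :=
    { carrier := {a | ∃ y, Rel a y}
      mul_mem' := fun ⟨y, hy⟩ ⟨z, hz⟩ => ⟨_, hmul _ _ y z hy hz⟩
      one_mem' := ⟨1, hone⟩
      add_mem' := fun ⟨y, hy⟩ ⟨z, hz⟩ => ⟨_, hadd _ _ y z hy hz⟩
      zero_mem' := ⟨0, 0, 0, by simp, by simp⟩
      neg_mem' := fun ⟨y, N, G, h1, h2⟩ => ⟨-y, N, -G, by simp [← h1], by simp [← h2]⟩ }
  let u : A → B := fun a => if ha : ∃ y, Rel a y then ha.choose else 0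
  have hu : ∀ a y, Rel a y → u a = y := fun a y hy => by
    have ha : ∃ y, Rel a y := ⟨y, hy⟩
    simp only [u, dif_pos ha]
    exact huniq a _ _ ha.choose_spec hy
  refine ⟨C, u, ⟨hu _ _ hone, ?_, ?_⟩, fun a y N G h1 h2 =>
    ⟨⟨y, N, G, h1, h2⟩, hu _ _ ⟨N, G, h1, h2⟩⟩⟩
  · rintro a ⟨y, hy⟩ b ⟨z, hz⟩
    rw [hu _ _ hy, hu _ _ hz, hu _ _ (hadd _ _ _ _ hy hz)]
  · rintro a ⟨y, hy⟩ b ⟨z, hz⟩
    rw [hu _ _ hy, hu _ _ hz, hu _ _ (hmul _ _ _ _ hy hz)]

end AG

/-- Hensel's lemma in the form of Tougeron. -/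
theorem exists_root_near {B : Type u} [CommRing B] (I : Ideal B) [IsAdicComplete I B] (P : B[X])
    (t a : B) (ha : a ∈ I) (h : P.eval t = (P.derivative.eval t) ^ 2 * a) :
    ∃ ε : B, P.eval (t + P.derivative.eval t * a * ε) = 0 := by
  obtain ⟨Q, hQ⟩ : ∃ Q : B[X], ∀ z, P.eval (t + z) =
      P.eval t + P.derivative.eval t * z + z ^ 2 * Q.eval z := by
    refine ⟨(taylor t P).divX.divX, fun z => ?_⟩
    have h1 := congrArg (eval z) (divX_mul_X_add (taylor t P))
    have h2 := congrArg (eval z) (divX_mul_X_add (taylor t P).divX)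
    simp only [eval_add, eval_mul, eval_X, eval_C, coeff_divX, zero_add, taylor_coeff_zero,
      taylor_coeff_one, taylor_eval] at h1 h2
    rw [add_comm t z, ← h1, ← h2]
    ring
  obtain ⟨ε, hε⟩ := AG.exists_fixed I
    (fun z => -1 - a * (X ^ 2 * Q.comp (C (P.derivative.eval t * a) * X)).eval z) (by
      intro n x y hxy
      obtain ⟨c, hc⟩ := sub_dvd_eval_sub x y (X ^ 2 * Q.comp (C (P.derivative.eval t * a) * X))
      rw [sub_sub_sub_cancel_left, ← mul_sub, ← neg_sub, hc, pow_succ']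
      exact Ideal.mul_mem_mul ha (neg_mem (Ideal.mul_mem_right _ _ hxy)))
  refine ⟨ε, ?_⟩
  simp only [eval_mul, eval_pow, eval_X, eval_comp, eval_C] at hε
  rw [hQ, h]
  linear_combination (-(P.derivative.eval t) ^ 2 * a) * hε

/-- (GEN) the subring generated by algebraically independent elements `x` and a finite set `Ω` is
generically a separable hypersurface over `ℤ[x, w]`. -/
theorem exists_generic_presentation {A : Type u} [CommRing A] [IsDomain A] [CharZero A] {d : ℕ}
    (x : Fin d → A) (hx : AlgebraicIndependent ℤ x) (Ω : Finset A) :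
    ∃ (r : ℕ) (w : Fin r → A) (T : A) (P : (MvPolynomial (Fin d ⊕ Fin r) ℤ)[X])
      (h : MvPolynomial (Fin d ⊕ Fin r) ℤ) (H : A → (MvPolynomial (Fin d ⊕ Fin r) ℤ)[X]),
      P.eval₂ (MvPolynomial.eval₂Hom (Int.castRingHom A) (Sum.elim x w)) T = 0 ∧
      P.derivative.eval₂ (MvPolynomial.eval₂Hom (Int.castRingHom A) (Sum.elim x w)) T ≠ 0 ∧
      MvPolynomial.eval₂Hom (Int.castRingHom A) (Sum.elim x w) h ≠ 0 ∧
      (∀ ω ∈ Ω, MvPolynomial.eval₂Hom (Int.castRingHom A) (Sum.elim x w) h * ω =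
        (H ω).eval₂ (MvPolynomial.eval₂Hom (Int.castRingHom A) (Sum.elim x w)) T) ∧
      ∀ (B : Type v) [CommRing B] [IsDomain B] (x' : Fin d → B) (w' : Fin r → B) (T' : B)
        (v : A → B),
        P.eval₂ (MvPolynomial.eval₂Hom (Int.castRingHom B) (Sum.elim x' w')) T' = 0 →
        MvPolynomial.eval₂Hom (Int.castRingHom B) (Sum.elim x' w') h ≠ 0 →
        (∀ ω ∈ Ω, MvPolynomial.eval₂Hom (Int.castRingHom B) (Sum.elim x' w') h * v ω =
          (H ω).eval₂ (MvPolynomial.eval₂Hom (Int.castRingHom B) (Sum.elim x' w')) T') →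
        ∃ (C : Subring A) (u : A → B), HomOn C u ∧ (Ω : Set A) ⊆ C ∧
          (∀ j, x j ∈ C ∧ u (x j) = x' j) ∧ ∀ ω ∈ Ω, u ω = v ω := by
  obtain ⟨r, w, hind, halg⟩ := AG.exists_basis x hx Ω
  let φ : MvPolynomial (Fin d ⊕ Fin r) ℤ →+* A :=
    MvPolynomial.eval₂Hom (Int.castRingHom A) (Sum.elim x w)
  have hφ : ∀ p, φ p = MvPolynomial.aeval (Sum.elim x w) p := fun p => rfl
  have hinj : Function.Injective φ := hind
  let : Algebra (MvPolynomial (Fin d ⊕ Fin r) ℤ) A := φ.toAlgebra
  have : FaithfulSMul (MvPolynomial (Fin d ⊕ Fin r) ℤ) A :=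
    (faithfulSMul_iff_algebraMap_injective _ _).2 hinj
  obtain ⟨T, P, h, H, h1, h2, h3, h4, h5, h6, h7⟩ := AG.gen_core
    (R := MvPolynomial (Fin d ⊕ Fin r) ℤ) Ω fun ω hω =>
      (isAlgebraic_ringHom_iff_of_comp_eq hind.aevalEquiv (RingHom.id A) Function.injective_id
        (RingHom.ext fun p => hind.algebraMap_aevalEquiv p)).1 (halg ω hω)
  refine ⟨r, w, T, P, h, H, h1, h2, fun h8 => h3 (hinj (h8.trans (map_zero φ).symm)), h4, ?_⟩
  intro B _ _ x' w' T' v hP hh hv
  let φ' : MvPolynomial (Fin d ⊕ Fin r) ℤ →+* B :=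
    MvPolynomial.eval₂Hom (Int.castRingHom B) (Sum.elim x' w')
  have hl : eval₂RingHom φ' T' (C P.leadingCoeff) ≠ 0 := by
    obtain ⟨c, rfl⟩ := h5
    rw [coe_eval₂RingHom, eval₂_C]
    exact left_ne_zero_of_mul (by rwa [← map_mul])
  obtain ⟨C', u, hu, hC⟩ := AG.exists_hom (eval₂RingHom φ T) (eval₂RingHom φ' T')
    (AG.ker_le (eval₂RingHom φ T) (eval₂RingHom φ' T') h1 hP hl h6 h7) (h := C h)
    (by rwa [coe_eval₂RingHom, eval₂_C])
  have hω : ∀ ω ∈ Ω, ω ∈ C' ∧ u ω = v ω := fun ω hω => hC ω (v ω) 1 (H ω)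
    (by rw [pow_one, coe_eval₂RingHom, eval₂_C]; exact h4 ω hω)
    (by rw [pow_one, coe_eval₂RingHom, eval₂_C]; exact hv ω hω)
  exact ⟨C', u, hu, fun ω h => (hω ω h).1,
    fun j => hC (x j) (x' j) 0 (C (MvPolynomial.X (Sum.inl j))) (by simp [φ]) (by simp [φ']),
    fun ω h => (hω ω h).2⟩

end Vale.Agent.P202
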