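import Vale.Agent.P202.Char0A

/-! Module I4: Lech's conjecture for rings containing `ℚ`. -/

namespace Vale.Agent.P202

open IsLocalRing

universe u

namespace Ch0

open TensorProduct

theorem inj_of_tower {R T S : Type*} [CommRing R] [CommRing T] [CommRing S] [Algebra R T]
    [Algebra T S] [Algebra R S] [IsScalarTower R T S] [Module.Flat R S] (I : Ideal R) :
    Function.Injective ((I.map (algebraMap R T)).subtype.rTensor S) := by
  rw [← LinearMap.lTensor_inj_iff_rTensor_inj]
  let h : S ⊗[R] I →ₗ[R] S ⊗[T] (I.map (algebraMap R T)) :=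
    (mapOfCompatibleSMul T R R S (I.map (algebraMap R T))).comp
      ((Algebra.idealMap T I).lTensor S)
  have hh : ∀ (s : S) (a : I), h (s ⊗ₜ a) = s ⊗ₜ Algebra.idealMap T I a := fun s a => rfl
  have hsurj : Function.Surjective h := by
    rw [← LinearMap.range_eq_top, eq_top_iff]
    intro z _
    induction z using TensorProduct.induction_on with
    | zero => exact zero_mem _
    | add a b ha hb => exact add_mem (ha trivial) (hb trivial)
    | tmul s b =>
      obtain ⟨b, hb⟩ := b
      induction hb using Submodule.span_induction generalizing s with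
      | mem c hc =>
        obtain ⟨a, ha, rfl⟩ := hc
        exact ⟨s ⊗ₜ ⟨a, ha⟩, hh s ⟨a, ha⟩⟩
      | zero =>
        have : (s ⊗ₜ[T] (0 : I.map (algebraMap R T))) ∈ LinearMap.range h := by
          rw [tmul_zero]
          exact zero_mem _
        exact this
      | add a b ha hb iha ihb =>
        have : (s ⊗ₜ[T] ((⟨a, ha⟩ : I.map (algebraMap R T)) + ⟨b, hb⟩)) ∈ LinearMap.range h := by
          rw [tmul_add]
          exact add_mem (iha s trivial) (ihb s trivial)
        exact this
      | smul r a ha iha =>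
        have : (s ⊗ₜ[T] (r • (⟨a, ha⟩ : I.map (algebraMap R T)))) ∈ LinearMap.range h := by
          rw [← smul_tmul]
          exact iha _ trivial
        exact this
  have hc : ∀ z, TensorProduct.rid T S ((I.map (algebraMap R T)).subtype.lTensor S (h z)) =
      TensorProduct.rid R S (I.subtype.lTensor S z) := by
    intro z
    induction z using TensorProduct.induction_on with
    | zero => simp only [map_zero]
    | add a b ha hb => simp only [map_add, ha, hb]
    | tmul s a =>
      rw [hh]
      exact algebraMap_smul T (a : R) s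
  have hi : Function.Injective (I.subtype.lTensor S) :=
    Module.Flat.lTensor_preserves_injective_linearMap _ I.subtype_injective
  rw [injective_iff_map_eq_zero]
  intro z hz
  obtain ⟨z, rfl⟩ := hsurj z
  have h1 := hc z
  rw [hz, map_zero, eq_comm, LinearEquiv.map_eq_zero_iff] at h1
  rw [(injective_iff_map_eq_zero _).1 hi z h1, map_zero]

theorem unram_quot {A A' R : Type*} [CommRing A] [IsLocalRing A] [CommRing A'] [IsLocalRing A']
    [CommRing R] [IsLocalRing R] {j : A →+* A'} (hj : IsUnram j) (π : A →+* R)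
    (hπ : Function.Surjective π) :
    ∃ (_ : IsLocalRing (A' ⧸ (RingHom.ker π).map j)) (i : R →+* A' ⧸ (RingHom.ker π).map j),
      IsUnram i ∧ i.comp π = (Ideal.Quotient.mk _).comp j := by
  have hle : (RingHom.ker π).map j ≤ maximalIdeal _ :=
    (Ideal.map_mono (le_maximalIdeal (RingHom.ker_ne_top π))).trans hj.map_max.le
  have hnt : Nontrivial (A' ⧸ (RingHom.ker π).map j) :=
    Ideal.Quotient.nontrivial_iff.2 (ne_top_of_le_ne_top (maximalIdeal.isMaximal _).ne_top hle)
  have hl := IsLocalRing.of_surjective' (Ideal.Quotient.mk ((RingHom.ker π).map j))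
    Ideal.Quotient.mk_surjective
  have hc : ((Ideal.quotientMap _ j Ideal.le_comap_map).comp
      (RingHom.quotientKerEquivOfSurjective hπ).symm.toRingHom).comp π =
      (Ideal.Quotient.mk ((RingHom.ker π).map j)).comp j := by
    refine RingHom.ext fun x => ?_
    have h1 : (RingHom.quotientKerEquivOfSurjective hπ).symm (π x) = Ideal.Quotient.mk _ x := by
      rw [RingEquiv.symm_apply_eq, RingHom.quotientKerEquivOfSurjective_apply_mk]
    change Ideal.quotientMap _ j Ideal.le_comap_map
      ((RingHom.quotientKerEquivOfSurjective hπ).symm (π x)) = _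
    rw [h1]
    rfl
  refine ⟨hl, _, ⟨?_, ?_⟩, hc⟩
  · exact (RingHom.Flat.of_bijective (RingEquiv.bijective _)).comp
      (cA_flat_quotientMap j hj.flat _)
  · rw [← map_maximalIdeal_of_surjective π hπ, Ideal.map_map, hc, ← Ideal.map_map, hj.map_max,
      map_maximalIdeal_of_surjective _ Ideal.Quotient.mk_surjective]

theorem eqChar_of_rat (A : Type*) [CommRing A] [Algebra ℚ A] : EqChar A :=
  eqChar_of_field ℚ A (algebraMap ℚ A)

theorem charZero_of_hom {A B : Type*} [CommRing A] [Algebra ℚ A] [CommRing B] [Nontrivial B]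
    (f : A →+* B) : CharZero B := by
  let _ : Algebra ℚ B := (f.comp (algebraMap ℚ A)).toAlgebra
  exact algebraRat.charZero B

/-- The finite free case. -/
theorem mult_le (l : Type u) [Field l] [CharZero l] {T S : Type u} [CommRing T] [IsLocalRing T]
    [IsNoetherianRing T] [IsAdicComplete (maximalIdeal T) T] [CommRing S] [IsLocalRing S]
    [IsNoetherianRing S] [Algebra T S] [Module.Free T S] [Module.Finite T S] (c : l →+* T)
    (hT : ∀ t : T, ∃ a : l, t - c a ∈ maximalIdeal T)
    (hS : ∀ s : S, ∃ a : l, s - algebraMap T S (c a) ∈ maximalIdeal S) {n : ℕ}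
    {x : Fin (n + 1) → T} (hx : IsReduction x) {y : Fin (n + 1) → S}
    (hy : IsSop S (List.ofFn y)) : mult T (List.ofFn x) ≤ mult S (List.ofFn y) := by
  obtain ⟨α, hαC, hαX⟩ := exists_evalHom c x hx.1
  have hαC' : ∀ a, α (MvPowerSeries.C a) = c a := RingHom.congr_fun hαC
  obtain ⟨r, hr⟩ := hx.pow_le
  have _ : IsDomain (MvPowerSeries (Fin (n + 1)) l) := NoZeroDivisors.to_isDomain _
  have hfin : α.Finite := evalHom_finite α (fun i => hαX i ▸ hx.1 i)
    (fun s => by simpa only [hαC'] using hT s) (1 + r) (by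
      simpa only [hαX, pow_one] using hr 1)
  let _ := α.toAlgebra
  have _ : Module.Finite (MvPowerSeries (Fin (n + 1)) l) T := hfin
  have hαX' : (fun j => algebraMap (MvPowerSeries (Fin (n + 1)) l) T (MvPowerSeries.X j)) = x :=
    funext hαX
  have _ : IsLocalHom (algebraMap (MvPowerSeries (Fin (n + 1)) l) T) := by
    refine isLocalHom_of_map_le ?_
    rw [maximalIdeal_field, Ideal.map_span, Ideal.span_le]
    rintro _ ⟨_, ⟨j, rfl⟩, rfl⟩
    exact (hαX j).symm ▸ hx.1 j
  have h1 := mult_restrict_of_residue_surj (A := MvPowerSeries (Fin (n + 1)) l) (B := T)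
    (fun b => (hT b).imp' (fun a => MvPowerSeries.C a) fun a ha => (hαC' a).symm ▸ ha) T
    (List.ofFn MvPowerSeries.X)
  rw [List.map_ofFn, mult_eq_finrank (by rw [HS.ofList_ofFn, maximalIdeal_field])
    (by rw [ringKrullDim_mvPowerSeries_field, List.length_ofFn])] at h1
  have h2 : (algebraMap (MvPowerSeries (Fin (n + 1)) l) T) ∘ MvPowerSeries.X = x := hαX'
  rw [h2] at h1
  rw [← h1]
  obtain ⟨K, hK⟩ := exists_length_pow_le hy
  refine HS.int_le_of_growth (d := n + 1) (K := K) fun N hN => ?_
  have h3 := pow_mul_finrank_le l n T S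
    (fun s => (hS s).imp' (fun a => MvPowerSeries.C a) fun a ha => (hαC' a).symm ▸ ha)
    (hαX'.symm ▸ hx) hy hN
  have h4 := hK N hN
  rw [List.length_ofFn, List.map_ofFn, HS.ofList_ofFn, smul_eq_mul, Ideal.mul_top] at h4
  refine le_trans ?_ h4
  rw [pow_succ' _ (n + 1), mul_assoc]
  refine mul_le_mul_of_nonneg_left ?_ (Nat.cast_nonneg N)
  exact_mod_cast h3

theorem mult_le' (l : Type u) [Field l] [CharZero l] {R T S : Type u} [CommRing R] [IsLocalRing R]
    [IsNoetherianRing R] [CommRing T] [IsLocalRing T]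
    [IsNoetherianRing T] [IsAdicComplete (maximalIdeal T) T] [CommRing S] [IsLocalRing S]
    [IsNoetherianRing S] {i : R →+* T} (hi : IsUnram i) (ψ : T →+* S) (hφ : (ψ.comp i).Flat)
    (hm : (maximalIdeal R).map (ψ.comp i) ≤ maximalIdeal S) {N : ℕ}
    (hN : maximalIdeal S ^ N ≤ (maximalIdeal R).map (ψ.comp i)) (c : l →+* T)
    (hT : ∀ t : T, ∃ a : l, t - c a ∈ maximalIdeal T)
    (hS : ∀ s : S, ∃ a : l, s - ψ (c a) ∈ maximalIdeal S) {n : ℕ}
    {x : Fin (n + 1) → R} (hx : IsReduction x) {y : Fin (n + 1) → S}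
    (hy : IsSop S (List.ofFn y)) : mult R (List.ofFn x) ≤ mult S (List.ofFn y) := by
  rw [← Ideal.map_map, hi.map_max] at hm hN
  have hψl : IsLocalHom ψ := isLocalHom_of_map_le hm
  have hfin : ψ.Finite := finite_of_complete ψ (fun b => (hS b).imp' c fun a ha => ha) hN
  let _ := i.toAlgebra
  let _ := ψ.toAlgebra
  let _ := (ψ.comp i).toAlgebra
  have _ : IsScalarTower R T S := IsScalarTower.of_algebraMap_eq' rfl
  have _ : Module.Flat R S := hφ
  have _ : Module.Finite T S := hfin
  have _ := Module.finitePresentation_of_finite T S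
  have hinj := inj_of_tower (T := T) (S := S) (maximalIdeal R)
  rw [show (maximalIdeal R).map (algebraMap R T) = maximalIdeal T from hi.map_max] at hinj
  have _ := Module.free_of_maximalIdeal_rTensor_injective hinj
  have h1 := mult_le l c hT hS (hi.isReduction hx) hy
  have h2 := (hi.mult_eq hx.isSop).2
  rw [List.map_ofFn] at h2
  rw [← h2]
  exact h1

end Ch0

theorem finLech_of_rat (R : Type u) [CommRing R] [IsLocalRing R] [IsNoetherianRing R]
    [IsAdicComplete (maximalIdeal R) R] [Algebra ℚ R] : FinLech.{u, u} R := by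
  intro S _ _ _ _ φ _ hφ ⟨N, hN⟩ n x hx e he y hy
  have hk : CharZero (ResidueField R) := Ch0.charZero_of_hom (residue R)
  have hl : CharZero (ResidueField S) := Ch0.charZero_of_hom ((residue S).comp φ)
  obtain ⟨σ, hσ⟩ := exists_coeffField R (Ch0.eqChar_of_rat R)
  obtain ⟨ι, τ, hτ, hι⟩ : ∃ (ι : ResidueField R →+* ResidueField S) (τ : ResidueField S →+* S),
      (residue S).comp τ = RingHom.id _ ∧ τ.comp ι = φ.comp σ := by
    let _ : Algebra (ResidueField R) S := (φ.comp σ).toAlgebra
    have := formallySmooth_of_charZero (ResidueField R) (ResidueField S)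
    obtain ⟨τ, hτ⟩ := Algebra.FormallySmooth.exists_mkₐ_comp_eq_of_isAdicComplete
      (R := ResidueField R) (A := ResidueField S) (I := maximalIdeal S)
      ⟨RingHom.id (ResidueField S), fun _ => rfl⟩
    exact ⟨algebraMap _ _, τ.toRingHom, RingHom.ext fun z => DFunLike.congr_fun hτ z,
      RingHom.ext fun z => τ.commutes z⟩
  obtain ⟨r, π, hπ, hπC, hπX⟩ := exists_cohen_surjective σ (sub_coeff_mem hσ)
  have hj : IsUnram (MvPowerSeries.map (σ := Fin r) ι) := by
    refine ⟨flat_mvPowerSeries_map_of_field ι _, ?_⟩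
    rw [maximalIdeal_field, maximalIdeal_field, Ideal.map_span, ← Set.range_comp]
    refine congrArg (fun f => Ideal.span (Set.range f)) (funext fun i => ?_)
    exact MvPowerSeries.map_X _ _
  obtain ⟨hloc, i, hi, hic⟩ := Ch0.unram_quot hj π hπ
  have hXm : ∀ i, φ (π (MvPowerSeries.X i)) ∈ maximalIdeal S := fun i =>
    map_max_le φ (Ideal.mem_map_of_mem φ (hπX i))
  obtain ⟨Ψ, hΨC, hΨX⟩ := exists_evalHom τ (fun i => φ (π (MvPowerSeries.X i))) hXm
  have hΨC' : ∀ v, Ψ (MvPowerSeries.C v) = τ v := RingHom.congr_fun hΨC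
  have hc : Ψ.comp (MvPowerSeries.map (σ := Fin r) ι) = φ.comp π := by
    refine evalHom_ext _ _ (RingHom.ext fun c => ?_) (fun i => ?_) (fun i => ?_)
    · simp only [RingHom.comp_apply, MvPowerSeries.map_C, hΨC']
      rw [show π (MvPowerSeries.C c) = σ c from RingHom.congr_fun hπC c]
      exact RingHom.congr_fun hι c
    · simp only [RingHom.comp_apply, MvPowerSeries.map_X, hΨX]
    · simpa only [RingHom.comp_apply, MvPowerSeries.map_X, hΨX] using hXm i
  have hker : (RingHom.ker π).map (MvPowerSeries.map (σ := Fin r) ι) ≤ RingHom.ker Ψ := by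
    rw [Ideal.map_le_iff_le_comap, RingHom.comap_ker, hc, ← RingHom.comap_ker]
    exact Ideal.ker_le_comap _
  obtain ⟨ψ, hψ⟩ : ∃ ψ : MvPowerSeries (Fin r) (ResidueField S) ⧸
      (RingHom.ker π).map (MvPowerSeries.map (σ := Fin r) ι) →+* S,
      ψ.comp (Ideal.Quotient.mk _) = Ψ :=
    ⟨Ideal.Quotient.lift _ Ψ fun a ha => hker ha, rfl⟩
  have hψi : ψ.comp i = φ := by
    refine RingHom.ext fun z => ?_
    obtain ⟨z, rfl⟩ := hπ z
    have h1 : (ψ.comp i).comp π = φ.comp π := by
      rw [RingHom.comp_assoc, hic, ← RingHom.comp_assoc, hψ, hc]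
    exact RingHom.congr_fun h1 z
  have hA := isAdicComplete_mvPowerSeries (σ := Fin r) (V := ResidueField S)
  have hcomp := isAdicComplete_of_surjective (Ideal.Quotient.mk ((RingHom.ker π).map
    (MvPowerSeries.map (σ := Fin r) ι))) Ideal.Quotient.mk_surjective
  have hT : ∀ t : MvPowerSeries (Fin r) (ResidueField S) ⧸
      (RingHom.ker π).map (MvPowerSeries.map (σ := Fin r) ι), ∃ a : ResidueField S,
      t - ((Ideal.Quotient.mk _).comp MvPowerSeries.C) a ∈ maximalIdeal _ := by
    intro t
    obtain ⟨t, rfl⟩ := Ideal.Quotient.mk_surjective t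
    refine ⟨MvPowerSeries.constantCoeff t, ?_⟩
    rw [RingHom.comp_apply, ← map_sub,
      ← map_maximalIdeal_of_surjective _ Ideal.Quotient.mk_surjective]
    refine Ideal.mem_map_of_mem _ ?_
    rw [maximalIdeal_field, ← ker_constantCoeff, RingHom.mem_ker, map_sub,
      MvPowerSeries.constantCoeff_C, sub_self]
  have hS : ∀ s : S, ∃ a : ResidueField S,
      s - ψ (((Ideal.Quotient.mk _).comp MvPowerSeries.C) a) ∈ maximalIdeal S := by
    intro s
    obtain ⟨a, ha⟩ := sub_coeff_mem hτ s
    refine ⟨a, ?_⟩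
    rw [← hΨC', ← hψ] at ha
    exact ha
  refine (le_mult_of_tendsto hx he).trans ?_
  exact_mod_cast Ch0.mult_le' (ResidueField S) hi ψ (hψi ▸ hφ) (hψi ▸ map_max_le φ) (hψi ▸ hN) _
    hT hS hx hy

theorem lech_rat {R S : Type u} [CommRing R] [IsLocalRing R] [IsNoetherianRing R] [CommRing S]
    [IsLocalRing S] [IsNoetherianRing S] [Algebra ℚ R] (φ : R →+* S) [IsLocalHom φ]
    (hφ : φ.Flat) : ∃ eR eS : ℝ, IsMultiplicity R eR ∧ IsMultiplicity S eS ∧ eR ≤ eS := by
  obtain ⟨eR, hR⟩ := exists_isMultiplicity R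
  obtain ⟨eS, hS⟩ := exists_isMultiplicity S
  obtain ⟨R', _, _, _, S', _, _, _, i, j, φ', hi, hj, _, hφ', _, _, _, _⟩ :=
    exists_complete_infinite φ hφ
  let _ : Algebra ℚ R' := (i.comp (algebraMap ℚ R)).toAlgebra
  exact ⟨eR, eS, hR, hS, lech_of_finLech ((Ch0.eqChar_of_rat R').map φ') (locGen_of_infinite _)
    (finLech_of_rat R') φ' hφ' ((hi.isMultiplicity_iff eR).1 hR)
    ((hj.isMultiplicity_iff eS).1 hS)⟩

end Vale.Agent.P202
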