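import Vale.Agent.P202.Core0

/-! Module M9: assembly (reduction to a finite fibre; characteristic `p`). -/

namespace Vale.Agent.P202

open IsLocalRing Filter Topology

universe u v

/-- Lech's inequality for the flat local maps from `R` to complete rings with a finite fibre,
in terms of the multiplicity symbol of a system of parameters of the target. -/
def FinLech (R : Type u) [CommRing R] [IsLocalRing R] : Prop :=
  ∀ (S : Type v) [CommRing S] [IsLocalRing S] [IsNoetherianRing S]
    [IsAdicComplete (maximalIdeal S) S] (φ : R →+* S) [IsLocalHom φ], φ.Flat →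
    (∃ N : ℕ, maximalIdeal S ^ N ≤ (maximalIdeal R).map φ) →
    ∀ (n : ℕ) (x : Fin (n + 1) → R), IsReduction x → ∀ e : ℝ,
      Tendsto (hsSeq R (n + 1)) atTop (𝓝 e) → ∀ y : Fin (n + 1) → S, IsSop S (List.ofFn y) →
        e ≤ (mult S (List.ofFn y) : ℝ)

theorem isAdicComplete_completion (A : Type u) [CommRing A] [IsLocalRing A] [IsNoetherianRing A] :
    IsAdicComplete (maximalIdeal (AdicCompletion (maximalIdeal A) A))
      (AdicCompletion (maximalIdeal A) A) := inferInstance

theorem charP_of_hom (p : ℕ) [Fact p.Prime] {A : Type*} {B : Type*} [CommRing A] [CommRing B]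
    [Nontrivial B] [CharP A p] (f : A →+* B) : CharP B p :=
  (CharP.charP_iff_prime_eq_zero Fact.out).2 (by rw [← map_natCast f, CharP.cast_eq_zero, map_zero])

theorem eqChar_of_charP (p : ℕ) [Fact p.Prime] (A : Type*) [CommRing A] [CharP A p] : EqChar A :=
  eqChar_of_field (ZMod p) A (ZMod.castHom (dvd_refl p) A)

theorem sub_coeff_mem {A : Type*} [CommRing A] [IsLocalRing A] {σ : ResidueField A →+* A}
    (hσ : (residue A).comp σ = RingHom.id _) (a : A) : ∃ c, a - σ c ∈ maximalIdeal A :=
  ⟨residue A a, by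
    rw [← residue_eq_zero_iff, map_sub, sub_eq_zero]
    exact (RingHom.congr_fun hσ (residue A a)).symm⟩

/-- Cohen presentation of a complete local ring with a given coefficient field. -/
theorem exists_cohen_surjective {K : Type u} {A : Type v} [Field K] [CommRing A] [IsLocalRing A]
    [IsNoetherianRing A] [IsAdicComplete (maximalIdeal A) A] (σ : K →+* A)
    (hσ : ∀ a : A, ∃ c : K, a - σ c ∈ maximalIdeal A) :
    ∃ (r : ℕ) (π : MvPowerSeries (Fin r) K →+* A), Function.Surjective π ∧
      π.comp MvPowerSeries.C = σ ∧ ∀ i, π (MvPowerSeries.X i) ∈ maximalIdeal A := by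
  obtain ⟨r, y, hy⟩ := Submodule.fg_iff_exists_fin_generating_family.1
    (maximalIdeal A).fg_of_isNoetherianRing
  have hy' : Ideal.span (Set.range y) = maximalIdeal A := hy
  have hm : ∀ i, y i ∈ maximalIdeal A := fun i => hy' ▸ Ideal.subset_span ⟨i, rfl⟩
  obtain ⟨π, h1, h2⟩ := exists_evalHom σ y hm
  refine ⟨r, π, evalHom_surjective π (fun i => h2 i ▸ hm i) fun s => ?_, h1, fun i => h2 i ▸ hm i⟩
  obtain ⟨c, hc⟩ := hσ s
  refine ⟨c, ?_⟩
  simp only [h2, hy']
  rw [show π (MvPowerSeries.C c) = σ c from RingHom.congr_fun h1 c]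
  exact hc

/-- Characteristic `p`, finite fibre. -/
theorem finLech_of_charP (p : ℕ) [Fact p.Prime] (R : Type u) [CommRing R] [IsLocalRing R]
    [IsNoetherianRing R] [IsAdicComplete (maximalIdeal R) R] [CharP R p] : FinLech.{u, v} R := by
  intro S _ _ _ _ φ _ hφ ⟨N, hN⟩ n x hx e he y hy
  have : CharP S p := charP_of_hom p φ
  obtain ⟨σ, hσ⟩ := exists_coeffField R (eqChar_of_charP p R)
  obtain ⟨τ, hτ⟩ := exists_coeffField S (eqChar_of_charP p S)
  obtain ⟨r, π₀, h₀, h₀C, h₀X⟩ := exists_cohen_surjective σ (sub_coeff_mem hσ)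
  obtain ⟨s, πV, hV, -, -⟩ := exists_cohen_surjective τ (sub_coeff_mem hτ)
  have : CharP (ResidueField R) p := charP_of_hom p (residue R)
  have : CharP (ResidueField S) p := charP_of_hom p (residue S)
  have : CharP (MvPowerSeries (Fin r) (ResidueField R)) p := charP_of_hom p MvPowerSeries.C
  have : CharP (MvPowerSeries (Fin s) (ResidueField S)) p := charP_of_hom p MvPowerSeries.C
  have : CharP (MvPowerSeries (Fin r) (MvPowerSeries (Fin s) (ResidueField S))) p :=
    charP_of_hom p MvPowerSeries.C
  have := isAdicComplete_mvPowerSeries (σ := Fin s) (V := ResidueField S)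
  have := isAdicComplete_of_le_maximalIdeal _ (RingHom.ker πV) (RingHom.ker_ne_top πV)
  obtain ⟨u, hu⟩ := exists_lift_field (ResidueField R) (eqChar_of_charP p _) (RingHom.ker πV)
    ((RingHom.quotientKerEquivOfSurjective hV).symm.toRingHom.comp (φ.comp σ))
  have hu' : ∀ c, πV (u c) = φ (σ c) := fun c => by
    have h1 : Ideal.Quotient.mk (RingHom.ker πV) (u c) =
      (RingHom.quotientKerEquivOfSurjective hV).symm (φ (σ c)) := RingHom.congr_fun hu c
    rw [← RingHom.quotientKerEquivOfSurjective_apply_mk hV, h1, RingEquiv.apply_symm_apply]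
  have hXm : ∀ i, φ (π₀ (MvPowerSeries.X i)) ∈ maximalIdeal S := fun i =>
    map_max_le φ (Ideal.mem_map_of_mem φ (h₀X i))
  obtain ⟨π, hπC, hπX⟩ := exists_evalHom πV (fun i => φ (π₀ (MvPowerSeries.X i))) hXm
  have hπC' : ∀ v, π (MvPowerSeries.C v) = πV v := RingHom.congr_fun hπC
  have hπ : Function.Surjective π := fun z => by
    obtain ⟨v, hv⟩ := hV z
    exact ⟨MvPowerSeries.C v, (hπC' v).trans hv⟩
  have hc : π.comp (MvPowerSeries.map (σ := Fin r) u) = φ.comp π₀ := by
    refine evalHom_ext _ _ (RingHom.ext fun c => ?_) (fun i => ?_) (fun i => ?_)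
    · simp only [RingHom.comp_apply, MvPowerSeries.map_C, hπC', hu']
      rw [show π₀ (MvPowerSeries.C c) = σ c from RingHom.congr_fun h₀C c]
    · simp only [RingHom.comp_apply, MvPowerSeries.map_X, hπX]
    · simpa only [RingHom.comp_apply, MvPowerSeries.map_X, hπX] using hXm i
  obtain ⟨w, hw1, hw2, -⟩ := kunz p (flat_frobenius_mvPowerSeries p (ResidueField S) (Fin s))
  have hmap : (maximalIdeal (MvPowerSeries (Fin r) (ResidueField R))).map
      (MvPowerSeries.map (σ := Fin r) u) = Ideal.span (Set.range MvPowerSeries.X) := by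
    rw [maximalIdeal_mvPowerSeries, IsLocalRing.maximalIdeal_eq_bot, Ideal.map_bot, bot_sup_eq,
      Ideal.map_span, ← Set.range_comp]
    congr 2
    funext i
    exact MvPowerSeries.map_X _ _
  have hmax : maximalIdeal (MvPowerSeries (Fin r) (MvPowerSeries (Fin s) (ResidueField S))) =
      (maximalIdeal (MvPowerSeries (Fin r) (ResidueField R))).map
        (MvPowerSeries.map (σ := Fin r) u) ⊔ Ideal.ofList (w.map MvPowerSeries.C) := by
    rw [hmap, maximalIdeal_mvPowerSeries, ← Ideal.map_ofList, hw1, sup_comm]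
  have : IsLocalHom (MvPowerSeries.map (σ := Fin r) u) :=
    isLocalHom_of_map_le (by rw [hmax]; exact le_sup_left)
  refine core0 p (flat_frobenius_mvPowerSeries p _ _) (flat_frobenius_mvPowerSeries₂ p _ _ _)
    (MvPowerSeries.map (σ := Fin r) u) (flat_mvPowerSeries_map_of_field u _) π₀ h₀ π hπ φ hφ hc
    (w.map MvPowerSeries.C) ?_ hmax hN hx he hy
  rw [hmap, ← ker_constantCoeff]
  have hs : Function.Surjective (MvPowerSeries.constantCoeff (σ := Fin r)
      (R := MvPowerSeries (Fin s) (ResidueField S))) := fun v =>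
    ⟨MvPowerSeries.C v, MvPowerSeries.constantCoeff_C v⟩
  refine (AddEquiv.isWeaklyRegular_congr
    (e := (RingHom.quotientKerEquivOfSurjective hs).toAddEquiv) ?_).2 hw2.toIsWeaklyRegular
  rw [List.forall₂_map_left_iff, List.forall₂_same]
  intro a _ z
  obtain ⟨z, rfl⟩ := Ideal.Quotient.mk_surjective z
  change RingHom.quotientKerEquivOfSurjective hs (Ideal.Quotient.mk _ (MvPowerSeries.C a * z)) =
    a * RingHom.quotientKerEquivOfSurjective hs (Ideal.Quotient.mk _ z)
  rw [RingHom.quotientKerEquivOfSurjective_apply_mk, RingHom.quotientKerEquivOfSurjective_apply_mk,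
    map_mul, MvPowerSeries.constantCoeff_C]

/-- Reduction to a finite fibre, for complete rings with infinite residue fields. -/
theorem lech_of_finLech {R : Type u} {S : Type v} [CommRing R] [IsLocalRing R]
    [IsNoetherianRing R] [CommRing S] [IsLocalRing S] [IsNoetherianRing S]
    [IsAdicComplete (maximalIdeal S) S] [Infinite (ResidueField R)] [Infinite (ResidueField S)]
    (hS : EqChar S) (hgen : ∀ D : ℕ, LocGen (MvPowerSeries (Fin D) (ResidueField S)) D)
    (hfin : FinLech.{u, v} R) (φ : R →+* S) [IsLocalHom φ] (hφ : φ.Flat) {eR eS : ℝ}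
    (hR : IsMultiplicity R eR) (hS' : IsMultiplicity S eS) : eR ≤ eS := by
  obtain ⟨d, x, hd, hx⟩ := exists_isReduction (T := R)
  obtain ⟨D, y, hD, hy⟩ := exists_isReduction (T := S)
  obtain ⟨d', hd', hR⟩ := hR
  obtain ⟨D', hD', hS'⟩ := hS'
  obtain rfl : d = d' := by exact_mod_cast hd.symm.trans hd'
  obtain rfl : D = D' := by exact_mod_cast hD.symm.trans hD'
  obtain ⟨P, _, hP, hPd⟩ := exists_prime_fibre φ hd hD
  obtain ⟨y', hy1, hy2⟩ := exists_mult_localization_le hS hy (hgen D) P d hPd
  refine le_trans ?_ (le_trans (Int.cast_le.2 hy2) (mult_le_of_tendsto hS hy hS'))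
  let φP : R →+* Localization.AtPrime P := (algebraMap S (Localization.AtPrime P)).comp φ
  have hφP : φP.Flat := hφ.comp (RingHom.flat_algebraMap_iff.2 inferInstance)
  have hle : (maximalIdeal R).map φP ≤ maximalIdeal (Localization.AtPrime P) := by
    rw [← Ideal.map_map, ← Localization.AtPrime.map_eq_maximalIdeal]
    exact Ideal.map_mono hP.1.2
  have hloc : IsLocalHom φP := isLocalHom_of_map_le hle
  cases d with
  | zero =>
    have h1 := tendsto_nhds_unique hR (tendsto_hsSeq_zero hd).2
    rw [List.ofFn_zero] at hy1 ⊢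
    rw [mult_nil, h1]
    have h2 : Module.length (Localization.AtPrime P) (Localization.AtPrime P) ≠ ⊤ := by
      obtain ⟨-, N, hN⟩ := hy1
      refine length_ne_top_of_pow_smul (n := N) fun r hr z => ?_
      obtain ⟨a, ha, h⟩ := hN r hr
      rw [Ideal.ofList_nil, Ideal.mem_bot] at ha
      simpa [ha] using h z Submodule.mem_top
    let _ := φP.toAlgebra
    have _ : Module.Flat R (Localization.AtPrime P) := hφP
    have _ : IsLocalHom (algebraMap R (Localization.AtPrime P)) := hloc
    have h3 := IsLocalRing.length_baseChange R (Localization.AtPrime P) R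
    rw [(TensorProduct.AlgebraTensorModule.rid R (Localization.AtPrime P)
      (Localization.AtPrime P)).length_eq] at h3
    have : Nontrivial (Localization.AtPrime P ⧸
        (maximalIdeal R).map (algebraMap R (Localization.AtPrime P))) :=
      Ideal.Quotient.nontrivial_iff.2 (ne_top_of_le_ne_top (maximalIdeal.isMaximal _).ne_top hle)
    have h4 : Module.length R R ≤
        Module.length (Localization.AtPrime P) (Localization.AtPrime P) := by
      rw [h3]
      exact le_mul_of_one_le_right zero_le (Order.one_le_iff_pos.2 Module.length_pos)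
    exact_mod_cast ENat.toNat_le_toNat h4 h2
  | succ n =>
    have := isNoetherianRing_adicCompletion (Localization.AtPrime P)
    have hc := isUnram_completion (Localization.AtPrime P)
    obtain ⟨h1, h2⟩ := hc.mult_eq hy1
    rw [List.map_ofFn] at h1 h2
    rw [← h2]
    refine hfin _ ((algebraMap (Localization.AtPrime P) _).comp φP) (hφP.comp hc.flat) ?_ n x hx
      eR hR _ h1
    have h3 := IsLocalization.AtPrime.radical_map_of_mem_minimalPrimes (Localization.AtPrime P) P
      ((maximalIdeal R).map φ) hP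
    obtain ⟨N, hN⟩ := Ideal.exists_radical_pow_le_of_fg
      (((maximalIdeal R).map φ).map (algebraMap S (Localization.AtPrime P)))
      (Ideal.fg_of_isNoetherianRing _)
    rw [h3, Localization.AtPrime.map_eq_maximalIdeal, Ideal.map_map] at hN
    refine ⟨N, ?_⟩
    rw [← hc.map_max, ← Ideal.map_pow, ← Ideal.map_map]
    exact Ideal.map_mono hN

/-- Lech's conjecture in characteristic `p`. -/
theorem lech_charP (p : ℕ) [Fact p.Prime] {R : Type u} {S : Type v} [CommRing R] [IsLocalRing R]
    [IsNoetherianRing R] [CommRing S] [IsLocalRing S] [IsNoetherianRing S] [CharP R p]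
    (φ : R →+* S) [IsLocalHom φ] (hφ : φ.Flat) :
    ∃ eR eS : ℝ, IsMultiplicity R eR ∧ IsMultiplicity S eS ∧ eR ≤ eS := by
  obtain ⟨eR, hR⟩ := exists_isMultiplicity R
  obtain ⟨eS, hS⟩ := exists_isMultiplicity S
  obtain ⟨R', _, _, _, S', _, _, _, i, j, φ', hi, hj, _, hφ', _, _, _, _⟩ :=
    exists_complete_infinite φ hφ
  have : CharP R' p := charP_of_hom p i
  have : CharP S' p := charP_of_hom p φ'
  have : CharP (ResidueField S') p := charP_of_hom p (residue S')
  exact ⟨eR, eS, hR, hS, lech_of_finLech (eqChar_of_charP p S') (locGen_of_charP p _)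
    (finLech_of_charP p R') φ' hφ' ((hi.isMultiplicity_iff eR).1 hR)
    ((hj.isMultiplicity_iff eS).1 hS)⟩

end Vale.Agent.P202
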