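import Vale.Agent.P202.CM

/-! Module G1: isogenies, ranks and the uniform upper bound. -/

namespace Vale.Agent.P202

open IsLocalRing TensorProduct

universe u v w

/-- `M` and `M'` are isomorphic up to `g`. -/
def IsIsog {B : Type u} [CommRing B] (g : B) (M : Type v) (M' : Type w) [AddCommGroup M]
    [Module B M] [AddCommGroup M'] [Module B M'] : Prop :=
  ∃ (f : M →ₗ[B] M') (f' : M' →ₗ[B] M), (∀ x, f' (f x) = g • x) ∧ ∀ y, f (f' y) = g • y

section
variable {B : Type u} [CommRing B] {M : Type v} {M' : Type w} [AddCommGroup M] [Module B M]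
  [AddCommGroup M'] [Module B M']

theorem isIsog_of_ker_coker {g : B} (φ : M →ₗ[B] M') (h1 : ∀ x, φ x = 0 → g • x = 0)
    (h2 : ∀ y, g • y ∈ LinearMap.range φ) : IsIsog (g ^ 2) M M' := by
  choose z hz using h2
  have key : ∀ y x, φ x = g • y → g • z y = g • x := fun y x hx => by
    have h3 := h1 (z y - x) (by rw [map_sub, hz, hx, sub_self])
    rwa [smul_sub, sub_eq_zero] at h3
  refine ⟨φ, ⟨⟨fun y => g • z y, fun a b => ?_⟩, fun c a => ?_⟩, fun x => ?_, fun y => ?_⟩
  · rw [key (a + b) (z a + z b) (by rw [map_add, hz, hz, smul_add]), smul_add]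
  · change g • z (c • a) = c • g • z a
    rw [key (c • a) (c • z a) (by rw [map_smul, hz, smul_comm]), smul_comm]
  · change g • z (φ x) = _
    rw [key (φ x) (g • x) (map_smul _ _ _), smul_smul, pow_two]
  · change φ (g • z y) = _
    rw [map_smul, hz, smul_smul, pow_two]

theorem baseChange_comp_smul {g : B} (f : M →ₗ[B] M') (f' : M' →ₗ[B] M)
    (h : ∀ x, f' (f x) = g • x) (S : Type*) [CommRing S] [Algebra B S] (x : S ⊗[B] M) :
    f'.baseChange S (f.baseChange S x) = algebraMap B S g • x := by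
  rw [algebraMap_smul]
  induction x with
  | zero => simp
  | tmul s m => rw [LinearMap.baseChange_tmul, LinearMap.baseChange_tmul, h, tmul_smul]
  | add x y hx hy => rw [map_add, map_add, hx, hy, smul_add]

theorem IsIsog.baseChange {g : B} (h : IsIsog g M M') (S : Type*) [CommRing S] [Algebra B S] :
    IsIsog (algebraMap B S g) (S ⊗[B] M) (S ⊗[B] M') := by
  obtain ⟨f, f', h1, h2⟩ := h
  exact ⟨f.baseChange S, f'.baseChange S, baseChange_comp_smul f f' h1 S,
    baseChange_comp_smul f' f h2 S⟩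

theorem IsIsog.mult_eq [IsLocalRing B] [IsNoetherianRing B] [Module.Finite B M]
    [Module.Finite B M'] {g : B} (h : IsIsog g M M') {y : List B} (hy : IsSop M y)
    (hy' : IsSop M' y) (hg : ringKrullDim (B ⧸ Ideal.span {g}) < y.length) :
    mult M y = mult M' y := by
  obtain ⟨f, f', h1, h2⟩ := h
  have e1 := mult_add_of_exact hy (LinearMap.ker f).subtype f.rangeRestrict
    (Submodule.injective_subtype _) f.surjective_rangeRestrict
    (by rw [LinearMap.exact_iff, LinearMap.ker_rangeRestrict, Submodule.range_subtype])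
  have e2 := mult_add_of_exact hy' (LinearMap.range f).subtype (LinearMap.range f).mkQ
    (Submodule.injective_subtype _) (Submodule.mkQ_surjective _)
    (LinearMap.exact_subtype_mkQ _)
  have e3 : mult (LinearMap.ker f) y = 0 := by
    refine mult_eq_zero_of_dim_lt (hy.of_injective _ (Submodule.injective_subtype _))
      (Ideal.span {g}) (fun r hr x => ?_) hg
    obtain ⟨c, rfl⟩ := Ideal.mem_span_singleton'.1 hr
    apply Subtype.ext
    have h3 : f x = 0 := x.2
    rw [mul_smul, Submodule.coe_smul, Submodule.coe_smul, ← h1, h3, map_zero, smul_zero,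
      Submodule.coe_zero]
  have e4 : mult (M' ⧸ LinearMap.range f) y = 0 := by
    refine mult_eq_zero_of_dim_lt (hy'.of_surjective _ (Submodule.mkQ_surjective _))
      (Ideal.span {g}) (fun r hr x => ?_) hg
    obtain ⟨c, rfl⟩ := Ideal.mem_span_singleton'.1 hr
    obtain ⟨x, rfl⟩ := Submodule.Quotient.mk_surjective _ x
    rw [← Submodule.Quotient.mk_smul, Submodule.Quotient.mk_eq_zero, mul_smul, ← h2]
    exact Submodule.smul_mem _ _ ⟨_, rfl⟩
  omega

theorem IsSop.of_ring [IsLocalRing B] {y : List B} (hy : IsSop B y) : IsSop M y := by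
  obtain ⟨h1, N, hN⟩ := hy
  refine ⟨h1, N, fun r hr => ?_⟩
  obtain ⟨a, ha, hx⟩ := hN r hr
  refine ⟨a, ha, fun x _ => ?_⟩
  have h2 : r - a = 0 := by simpa using hx 1 Submodule.mem_top
  simp [h2]

theorem mult_prod [IsLocalRing B] [IsNoetherianRing B] [Module.Finite B M] [Module.Finite B M']
    {y : List B} (hy : IsSop (M × M') y) : mult (M × M') y = mult M y + mult M' y :=
  mult_add_of_exact hy (LinearMap.inl B M M') (LinearMap.snd B M M') LinearMap.inl_injective
    LinearMap.snd_surjective Function.Exact.inl_snd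

theorem IsSop.pi [IsLocalRing B] {y : List B} (hy : IsSop M y) (ι : Type*) :
    IsSop (ι → M) y := by
  obtain ⟨h1, N, hN⟩ := hy
  refine ⟨h1, N, fun r hr => ?_⟩
  obtain ⟨a, ha, hx⟩ := hN r hr
  refine ⟨a, ha, fun x _ => ?_⟩
  rw [Submodule.mem_bot]
  funext i
  exact (Submodule.mem_bot B).1 (hx (x i) Submodule.mem_top)

theorem mult_pi [IsLocalRing B] [IsNoetherianRing B] [Module.Finite B M] {y : List B}
    (hy : IsSop M y) (r : ℕ) : mult (Fin r → M) y = r * mult M y := by
  induction r with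
  | zero => rw [mult_of_subsingleton, Nat.cast_zero, zero_mul]
  | succ r ih =>
    let e := Fin.consLinearEquiv B (fun _ : Fin (r + 1) => M)
    rw [← mult_eq_of_equiv y e, mult_prod ((hy.pi _).of_injective e.toLinearMap e.injective), ih]
    push_cast
    ring

theorem dim_quot_pow_lt [IsNoetherianRing B] {g : B} {d : ℕ}
    (hg : ringKrullDim (B ⧸ Ideal.span {g}) < d) (k : ℕ) :
    ringKrullDim (B ⧸ Ideal.span {g ^ k}) < d := by
  refine lt_of_le_of_lt ?_ hg
  rw [ringKrullDim_quotient, ringKrullDim_quotient]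
  have h : PrimeSpectrum.zeroLocus (R := B) (Ideal.span {g ^ k}) ⊆
      PrimeSpectrum.zeroLocus (R := B) (Ideal.span {g}) := by
    intro p hp
    rw [PrimeSpectrum.zeroLocus_span, PrimeSpectrum.mem_zeroLocus, Set.singleton_subset_iff] at hp ⊢
    exact p.2.mem_of_pow_mem k hp
  exact Order.krullDim_le_of_strictMono (Set.inclusion h) fun _ _ h => h

/-- (MR) over a regular local ring the symbol of the regular parameters is the rank. -/
theorem mult_eq_finrank [IsLocalRing B] [IsNoetherianRing B] [IsDomain B] [Module.Finite B M]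
    {y : List B} (hy : Ideal.ofList y = maximalIdeal B) (hd : ringKrullDim B = y.length) :
    mult M y = Module.finrank B M := by
  have h1 : ∀ a ∈ y, a ∈ maximalIdeal B := fun a ha => hy ▸ Ideal.subset_span ha
  have sY : ∀ (N : Type v) [AddCommGroup N] [Module B N], IsSop N y := fun N _ _ =>
    HS.isSop_of_le (N := 1) h1 (by rw [pow_one, hy]) N
  have hB : mult B y = 1 := by
    have h2 := HS.mult_le_one_of_le h1 hy.ge
    have h3 : 0 < mult B y := mult_pos_of_supportDim
      (HS.isSop_of_le (N := 1) h1 (by rw [pow_one, hy]) B)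
      (by rw [Module.supportDim_self_eq_ringKrullDim, hd])
    omega
  rename_i hM
  induction hM using IsNoetherianRing.induction_on_isQuotientEquivQuotientPrime B with
  | subsingleton N => rw [mult_of_subsingleton, Module.finrank_zero_of_subsingleton, Nat.cast_zero]
  | quotient N p f =>
    by_cases hp : p.1 = ⊥
    · have e : N ≃ₗ[B] B := f.trans (Submodule.quotEquivOfEqBot _ hp)
      rw [mult_eq_of_equiv _ e, e.finrank_eq, hB, Module.finrank_self, Nat.cast_one]
    · have hk : ∀ r ∈ p.1, ∀ x : N, r • x = 0 := fun r hr x => by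
        apply f.injective
        obtain ⟨z, hz⟩ := Ideal.Quotient.mk_surjective (f x)
        rw [map_smul, map_zero, ← hz, Algebra.smul_def, Ideal.Quotient.algebraMap_eq,
          Ideal.Quotient.eq_zero_iff_mem.mpr hr, zero_mul]
      rw [mult_eq_zero_of_dim_lt (sY N) p.1 hk (HS.dim_quot_lt hd.le hp)]
      obtain ⟨r, hr, hr0⟩ := Submodule.exists_mem_ne_zero_of_ne_bot hp
      have h0 : Module.finrank B N = 0 :=
        Module.finrank_eq_zero_iff.2 fun x => ⟨r, hr0, hk r hr x⟩
      rw [h0, Nat.cast_zero]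
  | exact N₁ N₂ N₃ f g hf hg hfg h₁ h₃ =>
    rw [mult_add_of_exact (sY N₂) f g hf hg hfg, h₁, h₃,
      ← (LinearMap.ker g).finrank_quotient_add_finrank, (g.quotKerEquivOfSurjective hg).finrank_eq,
      LinearMap.exact_iff.1 hfg, ← (LinearEquiv.ofInjective f hf).finrank_eq]
    push_cast
    ring
end

/-- `ε` is a separability element of `B` over `A` up to `g`. -/
def IsSepElt (A : Type u) {B : Type v} [CommRing A] [CommRing B] [Algebra A B] (ε : B ⊗[A] B)
    (g : B) : Prop :=
  (∀ b : B, (b ⊗ₜ[A] (1 : B)) * ε = ((1 : B) ⊗ₜ[A] b) * ε) ∧ Algebra.TensorProduct.lmul' A ε = g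

theorem exists_smul_kaehler_eq_zero (A : Type u) (B : Type v) [CommRing A] [IsDomain A]
    [CharZero A] [CommRing B] [IsDomain B] [Algebra A B] [Module.Finite A B]
    (hinj : Function.Injective (algebraMap A B)) :
    ∃ g : B, g ≠ 0 ∧ ∀ ω : KaehlerDifferential A B, g • ω = 0 := by
  have : FaithfulSMul A B := (faithfulSMul_iff_algebraMap_injective A B).2 hinj
  let _ : Algebra (FractionRing A) (FractionRing B) := FractionRing.liftAlgebra A _
  have := FractionRing.isScalarTower_liftAlgebra A (FractionRing B)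
  have h1 : Algebra.FormallyUnramified A (FractionRing A) :=
    Algebra.FormallyUnramified.of_isLocalization (nonZeroDivisors A)
  have h2 : Algebra.IsAlgebraic (FractionRing A) (FractionRing B) := inferInstance
  have h3 : Algebra.FormallyUnramified (FractionRing A) (FractionRing B) :=
    Algebra.FormallyUnramified.of_isSeparable _ _
  have h4 : Algebra.FormallyUnramified A (FractionRing B) :=
    Algebra.FormallyUnramified.comp A (FractionRing A) (FractionRing B)
  have h5 : ∀ ω : KaehlerDifferential A B, ∃ s : nonZeroDivisors B, s • ω = 0 := fun ω =>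
    (IsLocalizedModule.eq_zero_iff (nonZeroDivisors B)
      (KaehlerDifferential.map A A B (FractionRing B))).1 (Subsingleton.elim _ _)
  have h6 : Module.IsTorsion B (KaehlerDifferential A B) := fun ω => h5 ω
  obtain ⟨g, hg, hg0⟩ := Submodule.annihilator_top_inter_nonZeroDivisors h6
  exact ⟨g, nonZeroDivisors.ne_zero hg0,
    fun ω => Submodule.mem_annihilator.1 hg ω Submodule.mem_top⟩

/-- (SEP) generic separability in characteristic zero. -/
theorem exists_isSepElt (A : Type u) (B : Type v) [CommRing A] [IsDomain A] [CharZero A]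
    [CommRing B] [IsDomain B] [Algebra A B] [Module.Finite A B]
    (hinj : Function.Injective (algebraMap A B)) :
    ∃ (ε : B ⊗[A] B) (g : B), g ≠ 0 ∧ IsSepElt A ε g := by
  obtain ⟨g, hg0, hg⟩ := exists_smul_kaehler_eq_zero A B hinj
  set I := KaehlerDifferential.ideal A B with hI
  have hfin : Module.Finite (B ⊗[A] B) I := Module.Finite.iff_fg.2 (KaehlerDifferential.ideal_fg A B)
  let γ : B ⊗[A] B := g ⊗ₜ[A] (1 : B)
  have hr : LinearMap.range (algebraMap (B ⊗[A] B) (Module.End (B ⊗[A] B) I) γ) ≤ I • ⊤ := by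
    rintro _ ⟨x, rfl⟩
    have h1 : I.toCotangent (γ • x) = 0 := by
      have h2 := hg (KaehlerDifferential.fromIdeal A B x)
      rw [← LinearMap.map_smul_of_tower] at h2
      refine Eq.trans (congrArg I.toCotangent (Subtype.ext ?_)) h2
      change γ * x.1 = g • x.1
      rw [Algebra.smul_def]
      rfl
    exact (Submodule.Quotient.mk_eq_zero _).1 h1
  obtain ⟨p, hp, -, hc, h0⟩ :=
    LinearMap.exists_monic_and_natDegree_eq_and_coeff_mem_pow_and_aeval_eq_zero _ _ I hr
  rw [Polynomial.aeval_algebraMap_apply] at h0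
  refine ⟨Polynomial.aeval γ p, g ^ p.natDegree, pow_ne_zero _ hg0, fun b => ?_, ?_⟩
  · have h1 := congrArg Subtype.val (LinearMap.congr_fun h0
      ⟨_, KaehlerDifferential.one_smul_sub_smul_one_mem_ideal A b⟩)
    have h2 : Polynomial.aeval γ p * ((1 : B) ⊗ₜ[A] b - b ⊗ₜ[A] (1 : B)) = 0 := h1
    rw [mul_sub, sub_eq_zero] at h2
    rw [mul_comm, ← h2, mul_comm]
  · rw [Polynomial.aeval_eq_sum_range, Finset.sum_range_succ, map_add, map_sum,
      Finset.sum_eq_zero, zero_add, hp.coeff_natDegree, one_smul, map_pow,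
      Algebra.TensorProduct.lmul'_apply_tmul, mul_one]
    intro k hk
    have h1 : p.coeff k ∈ I := Ideal.pow_le_self (by rw [Finset.mem_range] at hk; omega) (hc k)
    rw [smul_eq_mul, map_mul, (RingHom.mem_ker).1 h1, zero_mul]

/-- Separability elements pass to a base change. -/
theorem IsSepElt.map {A : Type u} {B : Type v} [CommRing A] [CommRing B] [Algebra A B]
    {ε : B ⊗[A] B} {g : B} (h : IsSepElt A ε g) {A' B' : Type*} [CommRing A'] [CommRing B']
    [Algebra A' B'] (i : A →+* A') (j : B →+* B')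
    (hc : j.comp (algebraMap A B) = (algebraMap A' B').comp i)
    (hspan : Submodule.span A' (Set.range j) = ⊤) : ∃ ε' : B' ⊗[A'] B', IsSepElt A' ε' (j g) := by
  let Φ := Algebra.TensorProduct.mapRingHom i j j hc hc
  refine ⟨Φ ε, fun b => ?_, ?_⟩
  · have hb : b ∈ Submodule.span A' (Set.range j) := hspan ▸ Submodule.mem_top
    induction hb using Submodule.span_induction with
    | mem x hx =>
      obtain ⟨b, rfl⟩ := hx
      have h1 := congrArg Φ (h.1 b)
      rwa [map_mul, map_mul, Algebra.TensorProduct.mapRingHom_tmul,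
        Algebra.TensorProduct.mapRingHom_tmul, map_one] at h1
    | zero => rw [zero_tmul, tmul_zero]
    | add x y _ _ hx hy => rw [add_tmul, tmul_add, add_mul, add_mul, hx, hy]
    | smul a x _ hx => rw [tmul_smul, ← smul_tmul', smul_mul_assoc, smul_mul_assoc, hx]
  · rw [← h.2]
    generalize ε = z
    induction z with
    | zero => simp
    | tmul a b =>
      rw [Algebra.TensorProduct.mapRingHom_tmul, Algebra.TensorProduct.lmul'_apply_tmul,
        Algebra.TensorProduct.lmul'_apply_tmul, map_mul]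
    | add x y hx hy => rw [map_add, map_add, map_add, map_add, hx, hy]

section Lengths
variable {S : Type u} [CommRing S] {X : Type v} {Y : Type w} [AddCommGroup X] [Module S X]
  [AddCommGroup Y] [Module S Y]

/-- A module with `card ι` generators killed by `I`. -/
theorem length_le_card_mul {ι : Type*} [Fintype ι] (v : ι → X)
    (hv : Submodule.span S (Set.range v) = ⊤) (I : Ideal S) (hI : ∀ r ∈ I, ∀ x : X, r • x = 0) :
    Module.length S X ≤ (Fintype.card ι : ℕ∞) * Module.length S (S ⧸ I) := by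
  classical
  let φ : ι → (S ⧸ I) →ₗ[S] X := fun i =>
    Submodule.liftQ I (LinearMap.toSpanSingleton S X (v i)) fun r hr => hI r hr (v i)
  let Φ : (ι → S ⧸ I) →ₗ[S] X := ∑ i, φ i ∘ₗ LinearMap.proj i
  have hΦ : Function.Surjective Φ := by
    rw [← LinearMap.range_eq_top, eq_top_iff, ← hv, Submodule.span_le]
    rintro _ ⟨i, rfl⟩
    refine ⟨Pi.single i (Submodule.Quotient.mk 1), ?_⟩
    simp only [Φ, LinearMap.coe_sum, Finset.sum_apply, LinearMap.comp_apply, LinearMap.proj_apply]
    rw [Finset.sum_eq_single i (fun j _ hj => by rw [Pi.single_eq_of_ne hj, map_zero])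
      (fun h => absurd (Finset.mem_univ i) h), Pi.single_eq_same]
    exact one_smul S (v i)
  refine (Module.length_le_of_surjective Φ hΦ).trans (le_of_eq ?_)
  rw [Module.length_pi_of_fintype, Finset.sum_const, Finset.card_univ, nsmul_eq_mul]

theorem span_comp_eq_top {ι : Type*} {v : ι → X} (hv : Submodule.span S (Set.range v) = ⊤)
    (φ : X →ₗ[S] Y) (hφ : Function.Surjective φ) : Submodule.span S (Set.range (φ ∘ v)) = ⊤ := by
  rw [Set.range_comp, ← Submodule.map_span, hv, Submodule.map_top, LinearMap.range_eq_top.2 hφ]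

theorem length_quot_le_card_mul {ι : Type*} [Fintype ι] (v : ι → X)
    (hv : Submodule.span S (Set.range v) = ⊤) (I J : Ideal S) (hI : ∀ r ∈ I, ∀ x : X, r • x = 0) :
    Module.length S (X ⧸ (J • ⊤ : Submodule S X)) ≤
      (Fintype.card ι : ℕ∞) * Module.length S ((S ⧸ I) ⧸ (J • ⊤ : Submodule S (S ⧸ I))) := by
  have e : (J • ⊤ : Submodule S (S ⧸ I)) = Submodule.map I.mkQ J := by
    conv_rhs => rw [← Ideal.mul_top J, ← smul_eq_mul, Submodule.map_smul'', Submodule.map_top,
      Submodule.range_mkQ]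
  rw [e, (Submodule.quotientQuotientEquivQuotientSup I J).length_eq]
  refine length_le_card_mul _ (span_comp_eq_top hv _ (Submodule.mkQ_surjective _)) (I ⊔ J)
    fun r hr x => ?_
  obtain ⟨a, ha, b, hb, rfl⟩ := Submodule.mem_sup.1 hr
  obtain ⟨x, rfl⟩ := Submodule.Quotient.mk_surjective _ x
  rw [← Submodule.Quotient.mk_smul, Submodule.Quotient.mk_eq_zero, add_smul, hI a ha, zero_add]
  exact Submodule.smul_mem_smul hb Submodule.mem_top

theorem length_quot_add_le_prod (J : Ideal S) :
    Module.length S (X ⧸ (J • ⊤ : Submodule S X)) + Module.length S (Y ⧸ (J • ⊤ : Submodule S Y)) ≤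
      Module.length S ((X × Y) ⧸ (J • ⊤ : Submodule S (X × Y))) := by
  rw [← Module.length_prod]
  let φ : (X × Y) →ₗ[S] (X ⧸ (J • ⊤ : Submodule S X)) × (Y ⧸ (J • ⊤ : Submodule S Y)) :=
    (Submodule.mkQ _).prodMap (Submodule.mkQ _)
  have h1 : (J • ⊤ : Submodule S (X × Y)) ≤ LinearMap.ker φ := by
    refine Submodule.smul_le.2 fun r hr x _ => ?_
    rw [LinearMap.mem_ker]
    exact Prod.ext
      ((Submodule.Quotient.mk_eq_zero _).2 (Submodule.smul_mem_smul hr Submodule.mem_top))
      ((Submodule.Quotient.mk_eq_zero _).2 (Submodule.smul_mem_smul hr Submodule.mem_top))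
  refine Module.length_le_of_surjective (Submodule.liftQ _ φ h1) ?_
  rintro ⟨a, b⟩
  obtain ⟨a, rfl⟩ := Submodule.Quotient.mk_surjective _ a
  obtain ⟨b, rfl⟩ := Submodule.Quotient.mk_surjective _ b
  exact ⟨Submodule.Quotient.mk (a, b), rfl⟩

theorem IsIsog.length_quot_le {g : S} (h : IsIsog g X Y) {ι : Type*} [Fintype ι] (v : ι → Y)
    (hv : Submodule.span S (Set.range v) = ⊤) (J : Ideal S) :
    Module.length S (Y ⧸ (J • ⊤ : Submodule S Y)) ≤
      Module.length S (X ⧸ (J • ⊤ : Submodule S X)) + (Fintype.card ι : ℕ∞) *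
        Module.length S ((S ⧸ Ideal.span {g}) ⧸ (J • ⊤ : Submodule S (S ⧸ Ideal.span {g}))) := by
  obtain ⟨f, f', -, h2⟩ := h
  refine (length_quot_smul_le_of_exact J f (LinearMap.range f).mkQ (Submodule.mkQ_surjective _)
    (by rw [LinearMap.exact_iff, Submodule.ker_mkQ])).trans (add_le_add_right ?_ _)
  refine length_quot_le_card_mul _ (span_comp_eq_top hv _ (Submodule.mkQ_surjective _)) _ J
    fun r hr x => ?_
  obtain ⟨c, rfl⟩ := Ideal.mem_span_singleton'.1 hr
  obtain ⟨x, rfl⟩ := Submodule.Quotient.mk_surjective _ x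
  rw [← Submodule.Quotient.mk_smul, Submodule.Quotient.mk_eq_zero, mul_smul, ← h2]
  exact Submodule.smul_mem _ _ ⟨_, rfl⟩

theorem IsIsog.of_equiv {g : S} (h : IsIsog g X Y) {X' Y' : Type*} [AddCommGroup X'] [Module S X']
    [AddCommGroup Y'] [Module S Y'] (e : X ≃ₗ[S] X') (e' : Y ≃ₗ[S] Y') : IsIsog g X' Y' := by
  obtain ⟨f, f', h1, h2⟩ := h
  exact ⟨e'.toLinearMap ∘ₗ f ∘ₗ e.symm.toLinearMap, e.toLinearMap ∘ₗ f' ∘ₗ e'.symm.toLinearMap,
    fun x => by simp [h1], fun x => by simp [h2]⟩

/-- A surjection split up to `g`. -/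
theorem isIsog_of_section {g : S} (m : X →ₗ[S] Y) (s : Y →ₗ[S] X) (h : ∀ n, m (s n) = g • n) :
    IsIsog g X (Y × LinearMap.ker m) := by
  refine ⟨m.prod (LinearMap.codRestrict _ (g • LinearMap.id - s ∘ₗ m) fun z => ?_),
    s.coprod (LinearMap.ker m).subtype, fun z => ?_, fun z => ?_⟩
  · simp [h]
  · simp
  · obtain ⟨n, n', hn⟩ := z
    have h1 : m n' = 0 := hn
    refine Prod.ext ?_ (Subtype.ext ?_)
    · simp [h, h1]
    · simp [h, h1]

theorem span_baseChange_eq_top {B : Type*} [CommRing B] [Algebra B S] {Z : Type*} [AddCommGroup Z]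
    [Module B Z] {ι : Type*} {v : ι → Z} (hv : Submodule.span B (Set.range v) = ⊤) :
    Submodule.span S (Set.range fun i => (1 : S) ⊗ₜ[B] v i) = ⊤ := by
  have h := Submodule.baseChange_span (A := S) (R := B) (Set.range v)
  rw [hv, Submodule.baseChange_top, ← Set.range_comp] at h
  exact h.symm

theorem length_tensor_eq {B : Type*} [CommRing B] [Algebra B S] (Z : Type*) [AddCommGroup Z]
    [Module B Z] (J : Ideal S) : Module.length S ((S ⧸ J) ⊗[B] Z) =
      Module.length S ((S ⊗[B] Z) ⧸ (J • ⊤ : Submodule S (S ⊗[B] Z))) :=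
  ((AlgebraTensorModule.cancelBaseChange B S S (S ⧸ J) Z).symm.trans
    (quotTensorEquivQuotSMul (S ⊗[B] Z) J)).length_eq
end Lengths

section Sep
variable {A : Type u} {B : Type v} [CommRing A] [CommRing B] [Algebra A B] {N : Type w}
  [AddCommGroup N] [Module A N] [Module B N] [IsScalarTower A B N]

/-- `b ⊗ b' ↦ b ⊗ b' n`. -/
noncomputable def sepAct (n : N) : B ⊗[A] B →ₗ[B] B ⊗[A] N :=
  ((LinearMap.toSpanSingleton B N n).restrictScalars A).baseChange B

theorem sepAct_tmul (n : N) (b b' : B) : sepAct n (b ⊗ₜ[A] b') = b ⊗ₜ[A] (b' • n) := rfl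

theorem sepAct_add (n n' : N) (z : B ⊗[A] B) : sepAct (n + n') z = sepAct n z + sepAct n' z := by
  induction z with
  | zero => simp
  | tmul a b => rw [sepAct_tmul, sepAct_tmul, sepAct_tmul, smul_add, tmul_add]
  | add x y hx hy =>
    rw [map_add, map_add, map_add, hx, hy]
    abel

theorem sepAct_smul (c : B) (n : N) (z : B ⊗[A] B) :
    sepAct (c • n) z = sepAct n (((1 : B) ⊗ₜ[A] c) * z) := by
  induction z with
  | zero => simp
  | tmul a b =>
    rw [Algebra.TensorProduct.tmul_mul_tmul, sepAct_tmul, sepAct_tmul, one_mul, smul_smul,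
      mul_comm]
  | add x y hx hy => rw [mul_add, map_add, map_add, hx, hy]

theorem lift_sepAct (n : N) (z : B ⊗[A] B) :
    LinearMap.liftBaseChange B (LinearMap.id : N →ₗ[A] N) (sepAct n z) =
      Algebra.TensorProduct.lmul' A z • n := by
  induction z with
  | zero => simp
  | tmul a b =>
    rw [sepAct_tmul, LinearMap.liftBaseChange_tmul, Algebra.TensorProduct.lmul'_apply_tmul,
      LinearMap.id_apply, mul_smul]
  | add x y hx hy => rw [map_add, map_add, map_add, hx, hy, add_smul]

theorem IsSepElt.exists_section {ε : B ⊗[A] B} {g : B} (h : IsSepElt A ε g) :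
    ∃ s : N →ₗ[B] B ⊗[A] N,
      ∀ n, LinearMap.liftBaseChange B (LinearMap.id : N →ₗ[A] N) (s n) = g • n := by
  refine ⟨⟨⟨fun n => sepAct n ε, fun a b => sepAct_add a b ε⟩, fun c n => ?_⟩, fun n => ?_⟩
  · change sepAct (c • n) ε = c • sepAct n ε
    rw [sepAct_smul, ← h.1, ← map_smul, Algebra.smul_def]
    rfl
  · change LinearMap.liftBaseChange B (LinearMap.id : N →ₗ[A] N) (sepAct n ε) = _
    rw [lift_sepAct, h.2]

theorem exists_span_prod_ker {β r : ℕ} (f : (Fin β → A) →ₗ[A] B) (hf : Function.Surjective f)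
    (b : Module.Basis (Fin r) A N) :
    ∃ v : Fin β × Fin r → N × LinearMap.ker (LinearMap.liftBaseChange B (LinearMap.id : N →ₗ[A] N)),
      Submodule.span B (Set.range v) = ⊤ := by
  set m := LinearMap.liftBaseChange B (LinearMap.id : N →ₗ[A] N) with hm
  have h1 : ∀ n : N, m ((1 : B) ⊗ₜ[A] n) = n := fun n => by simp [hm]
  let θ : B ⊗[A] N →ₗ[A] N × LinearMap.ker m :=
    { toFun := fun z => (m z, ⟨z - (1 : B) ⊗ₜ[A] m z, by rw [LinearMap.mem_ker, map_sub, h1, sub_self]⟩)
      map_add' := fun z z' => by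
        refine Prod.ext (map_add _ _ _) (Subtype.ext ?_)
        change z + z' - (1 : B) ⊗ₜ[A] m (z + z') =
          z - (1 : B) ⊗ₜ[A] m z + (z' - (1 : B) ⊗ₜ[A] m z')
        rw [map_add, tmul_add]
        abel
      map_smul' := fun a z => by
        refine Prod.ext (LinearMap.map_smul_of_tower _ _ _) (Subtype.ext ?_)
        change a • z - (1 : B) ⊗ₜ[A] m (a • z) = a • (z - (1 : B) ⊗ₜ[A] m z)
        rw [LinearMap.map_smul_of_tower, tmul_smul, smul_sub] }
  have hθ : Function.Surjective θ := by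
    rintro ⟨n, n', hn⟩
    have h2 : m n' = 0 := hn
    refine ⟨(1 : B) ⊗ₜ[A] n + n', Prod.ext ?_ (Subtype.ext ?_)⟩
    · change m ((1 : B) ⊗ₜ[A] n + n') = n
      rw [map_add, h1, h2, add_zero]
    · change (1 : B) ⊗ₜ[A] n + n' - (1 : B) ⊗ₜ[A] m ((1 : B) ⊗ₜ[A] n + n') = n'
      rw [map_add, h1, h2, add_zero, add_sub_cancel_left]
  have h3 := span_comp_eq_top (Y := N × LinearMap.ker m) (span_comp_eq_top
    ((Pi.basisFun A (Fin β)).tensorProduct b).span_eq (f.rTensor N)
    (LinearMap.rTensor_surjective N hf)) θ hθ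
  exact ⟨_, Submodule.span_eq_top_of_span_eq_top A B _ h3⟩

theorem finrank_le_of_isIsog [IsDomain A] [Module.Free A N] {β ρ : ℕ}
    (f : (Fin β → A) →ₗ[A] B) (hf : Function.Surjective f) {c : A} (hc : c ≠ 0)
    (h : IsIsog (algebraMap A B c) (Fin ρ → B) N) : Module.finrank A N ≤ ρ * β := by
  obtain ⟨φ, φ', -, h2⟩ := h
  have h1 : Function.Injective (φ'.restrictScalars A) := by
    rw [injective_iff_map_eq_zero]
    intro n hn
    have h3 : φ' n = 0 := hn
    have h4 := h2 n
    rw [h3, map_zero, algebraMap_smul] at h4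
    exact (smul_eq_zero.1 h4.symm).resolve_left hc
  have h5 : Function.Surjective (f.compLeft (Fin ρ)) := hf.comp_left
  have := Module.Finite.of_surjective _ h5
  refine (LinearMap.finrank_le_finrank_of_injective h1).trans
    ((LinearMap.finrank_le_finrank_of_surjective h5).trans (le_of_eq ?_))
  simp [Module.finrank_pi_fintype]
end Sep

theorem uniform_bound_aux {S : Type u} [CommRing S] [IsLocalRing S] [IsNoetherianRing S]
    {y : List S} (hy : IsSop S y) {g : S} (hg : ringKrullDim (S ⧸ Ideal.span {g}) < y.length) :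
    ∃ K : ℝ, 0 ≤ K ∧ ∀ (X Y : Type u) [AddCommGroup X] [Module S X] [Module.Finite S X]
      [AddCommGroup Y] [Module S Y] [Module.Finite S Y] (r c ρ : ℕ) (v : Fin c → X × Y),
      Submodule.span S (Set.range v) = ⊤ → IsIsog g (Fin r → S) (X × Y) →
      mult X y = ρ * mult S y → ∀ t : ℕ, 0 < t →
        (t : ℝ) * (Module.length S (X ⧸ (Ideal.ofList (y.map (· ^ t)) • ⊤ :
          Submodule S X))).toNat ≤
          ρ * ((t : ℝ) ^ (y.length + 1) * (mult S y : ℝ)) + (r + c) * K * (t : ℝ) ^ y.length := by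
  obtain ⟨K₁, hK₁⟩ := exists_length_pow_le hy
  have hy0 : IsSop (S ⧸ Ideal.span {g}) y := hy.of_ring
  obtain ⟨K₂, hK₂⟩ := exists_length_pow_le hy0
  have h0 : mult (S ⧸ Ideal.span {g}) y = 0 := by
    refine mult_eq_zero_of_dim_lt hy0 (Ideal.span {g}) (fun r hr x => ?_) hg
    rw [Algebra.smul_def, Ideal.Quotient.algebraMap_eq, Ideal.Quotient.eq_zero_iff_mem.mpr hr,
      zero_mul]
  refine ⟨|K₁| + |K₂|, by positivity, fun X Y _ _ _ _ _ _ r c ρ v hv hi hX t ht => ?_⟩
  have e1 := hi.mult_eq hy.of_ring hy.of_ring hg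
  rw [mult_pi hy, mult_prod hy.of_ring, hX] at e1
  have hyt := hy.pow ht
  set J := Ideal.ofList (y.map (· ^ t)) with hJ
  have l1 := (length_quot_add_le_prod (X := X) (Y := Y) J).trans (hi.length_quot_le v hv J)
  have l2 := length_quot_le_card_mul (X := Fin r → S) _ (Pi.basisFun S (Fin r)).span_eq ⊥ J
    (fun r hr x => by rw [(Submodule.mem_bot S).1 hr, zero_smul])
  rw [HS.length_quot_equiv (Submodule.quotEquivOfEqBot (⊥ : Ideal S) rfl)] at l2
  have l3 := l1.trans (add_le_add_left l2 _)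
  have l4 := mult_le_length (M := Y) hyt.of_ring
  rw [mult_pow hy.of_ring ht] at l4
  have k1 := hK₁ t ht
  have k2 := hK₂ t ht
  have fX := (hyt.of_ring (M := X)).length_ne_top
  have fY := (hyt.of_ring (M := Y)).length_ne_top
  have fS := hyt.length_ne_top
  have fG := (hyt.of_ring (M := S ⧸ Ideal.span {g})).length_ne_top
  rw [← hJ] at k1 k2 l4 fX fY fS fG
  rw [h0] at k2
  generalize Module.length S (X ⧸ (J • ⊤ : Submodule S X)) = a at *
  generalize Module.length S (Y ⧸ (J • ⊤ : Submodule S Y)) = a' at *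
  generalize Module.length S (S ⧸ (J • ⊤ : Submodule S S)) = s at *
  generalize Module.length S ((S ⧸ Ideal.span {g}) ⧸
    (J • ⊤ : Submodule S (S ⧸ Ideal.span {g}))) = s' at *
  lift a to ℕ using fX
  lift a' to ℕ using fY
  lift s to ℕ using fS
  lift s' to ℕ using fG
  simp only [ENat.toNat_natCast, Fintype.card_fin] at *
  have m1 : (a : ℝ) + a' ≤ r * s + c * s' := by exact_mod_cast l3
  have m2 : (t : ℝ) ^ y.length * (mult Y y : ℝ) ≤ a' := by exact_mod_cast l4
  have m3 : (r : ℝ) * (mult S y : ℝ) = ρ * (mult S y : ℝ) + (mult Y y : ℝ) := by exact_mod_cast e1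
  have ht0 : (0 : ℝ) ≤ t := Nat.cast_nonneg _
  have hT : (0 : ℝ) ≤ (t : ℝ) ^ y.length := by positivity
  have hr : (0 : ℝ) ≤ r := Nat.cast_nonneg _
  have hc : (0 : ℝ) ≤ c := Nat.cast_nonneg _
  rw [pow_succ] at k1 k2 ⊢
  set T := (t : ℝ) ^ y.length
  have n1 : (t : ℝ) * (a + a') ≤ t * (r * s + c * s') := mul_le_mul_of_nonneg_left m1 ht0
  have n2 : (t : ℝ) * (T * (mult Y y : ℝ)) ≤ t * a' := mul_le_mul_of_nonneg_left m2 ht0
  have n3 := mul_le_mul_of_nonneg_left k1 hr
  have n4 := mul_le_mul_of_nonneg_left k2 hc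
  have n5 : (r : ℝ) * (K₁ * T) ≤ r * (|K₁| * T) :=
    mul_le_mul_of_nonneg_left (mul_le_mul_of_nonneg_right (le_abs_self _) hT) hr
  have n6 : (c : ℝ) * (K₂ * T) ≤ c * (|K₂| * T) :=
    mul_le_mul_of_nonneg_left (mul_le_mul_of_nonneg_right (le_abs_self _) hT) hc
  have n7 : 0 ≤ (r : ℝ) * (|K₂| * T) := by positivity
  have n8 : 0 ≤ (c : ℝ) * (|K₁| * T) := by positivity
  have n9 : T * t * ((r : ℝ) * (mult S y : ℝ)) =
      T * t * (ρ * (mult S y : ℝ) + (mult Y y : ℝ)) := by rw [m3]
  push_cast at n4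
  nlinarith

/-- (UB) a bound for the colength of parameter powers which is uniform in the module `N`. -/
theorem exists_uniform_bound {A B S : Type u} [CommRing A] [IsDomain A] [CommRing B] [Algebra A B]
    [Module.Finite A B] [CommRing S] [IsLocalRing S] [IsNoetherianRing S] [Algebra B S]
    {ε : B ⊗[A] B} {g : B} (hε : IsSepElt A ε g) {π : A} (hπ : π ≠ 0) {d : ℕ} {y : Fin d → S}
    (hy : IsSop S (List.ofFn y)) (hg : ringKrullDim (S ⧸ Ideal.span {algebraMap B S g}) < d)
    (hπ' : ringKrullDim (S ⧸ Ideal.span {algebraMap B S (algebraMap A B π)}) < d) :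
    ∃ K : ℝ, ∀ (N : Type u) [AddCommGroup N] [Module A N] [Module B N] [IsScalarTower A B N]
      [Module.Finite A N] [Module.Free A N] (ρ b : ℕ),
      IsIsog (algebraMap A B π ^ b) (Fin ρ → B) N → ∀ t : ℕ, 0 < t →
        Module.length S ((S ⧸ Ideal.span (Set.range fun j => y j ^ t)) ⊗[B] N) ≠ ⊤ ∧
        (t : ℝ) * (Module.length S
            ((S ⧸ Ideal.span (Set.range fun j => y j ^ t)) ⊗[B] N)).toNat ≤
          ρ * ((t : ℝ) ^ (d + 1) * (mult S (List.ofFn y) : ℝ) + K * (t : ℝ) ^ d) := by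
  obtain ⟨β, f, hf⟩ := Module.Finite.exists_fin' A B
  obtain ⟨K, hK0, hK⟩ := uniform_bound_aux hy (g := algebraMap B S g) (by rwa [List.length_ofFn])
  refine ⟨β * (1 + β) * K, fun N _ _ _ _ _ _ ρ b hi t ht => ?_⟩
  have : Module.Finite B N := Module.Finite.of_restrictScalars_finite A B N
  have eJ : Ideal.span (Set.range fun j => y j ^ t) = Ideal.ofList ((List.ofFn y).map (· ^ t)) := by
    rw [List.map_ofFn, HS.ofList_ofFn]
    rfl
  rw [length_tensor_eq, eJ]
  refine ⟨((hy.pow ht).of_ring (M := S ⊗[B] N)).length_ne_top, ?_⟩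
  let bN := Module.finBasis A N
  have hr : Module.finrank A N ≤ ρ * β :=
    finrank_le_of_isIsog f hf (pow_ne_zero b hπ) (by rwa [map_pow])
  set r := Module.finrank A N
  let m := LinearMap.liftBaseChange B (LinearMap.id : N →ₗ[A] N)
  obtain ⟨s, hs⟩ : ∃ s : N →ₗ[B] B ⊗[A] N, ∀ n, m (s n) = g • n := hε.exists_section
  obtain ⟨v, hv⟩ : ∃ v : Fin β × Fin r → N × LinearMap.ker m,
    Submodule.span B (Set.range v) = ⊤ := exists_span_prod_ker f hf bN
  have hfin : Module.Finite B (N × LinearMap.ker m) :=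
    ⟨Submodule.fg_def.2 ⟨_, Set.finite_range v, hv⟩⟩
  have hfin' : Module.Finite B (LinearMap.ker m) :=
    Module.Finite.of_surjective (LinearMap.snd B N _) LinearMap.snd_surjective
  let e := TensorProduct.prodRight B S S N (LinearMap.ker m)
  let e' := ((bN.baseChange B).baseChange S).equivFun
  have hi1 : IsIsog (algebraMap B S g) (Fin r → S) (S ⊗[B] N × S ⊗[B] LinearMap.ker m) :=
    ((isIsog_of_section m s hs).baseChange S).of_equiv e' e
  have hX : mult (S ⊗[B] N) (List.ofFn y) = ρ * mult S (List.ofFn y) := by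
    have h1 := (hi.baseChange S).mult_eq hy.of_ring hy.of_ring
      (by rw [map_pow, List.length_ofFn]; exact dim_quot_pow_lt hπ' b)
    rw [← h1, mult_eq_of_equiv _ ((Pi.basisFun B (Fin ρ)).baseChange S).equivFun, mult_pi hy]
  have hv0 := span_baseChange_eq_top (S := S) (B := B) (Z := N × LinearMap.ker m) hv
  have hv' := span_comp_eq_top (X := S ⊗[B] (N × LinearMap.ker m))
    (Y := S ⊗[B] N × S ⊗[B] LinearMap.ker m) hv0 e.toLinearMap e.surjective
  rw [← finProdFinEquiv.symm.surjective.range_comp] at hv'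
  have h2 := hK _ _ r (β * r) ρ _ hv' hi1 hX t ht
  rw [List.length_ofFn] at h2
  refine h2.trans ?_
  have h3 : (r : ℝ) ≤ ρ * β := by exact_mod_cast hr
  have h4 : (r : ℝ) * ((1 + β) * K * (t : ℝ) ^ d) ≤ ρ * β * ((1 + β) * K * (t : ℝ) ^ d) :=
    mul_le_mul_of_nonneg_right h3 (by positivity)
  push_cast
  nlinarith

end Vale.Agent.P202
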