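import Vale.Agent.P202.HSMult
import Vale.Agent.P202.CohenAux2

/-! Module F2: local criterion of flatness, freeness, finiteness over complete rings. -/

namespace Vale.Agent.P202

open IsLocalRing RingTheory.Sequence TensorProduct

universe u v

namespace LocCritAux

theorem step {A : Type u} [CommRing A] {M : Type v} [AddCommGroup M] [Module A M] {J J' : Ideal A}
    {a : A} (hJ : J' = J ⊔ Ideal.span {a}) (h : Function.Injective (J.subtype.rTensor M))
    (ha : ∀ m : M, a • m ∈ (J • ⊤ : Submodule A M) → m ∈ (J • ⊤ : Submodule A M)) :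
    Function.Injective (J'.subtype.rTensor M) := by
  have h1 : J ≤ J' := hJ ▸ le_sup_left
  have h2 : a ∈ J' := hJ ▸ Ideal.mem_sup_right (Ideal.mem_span_singleton_self a)
  have key : ∀ z : J' ⊗[A] M, ∃ (y : J ⊗[A] M) (m : M),
      z = (Submodule.inclusion h1).rTensor M y + (⟨a, h2⟩ : J') ⊗ₜ m := by
    intro z
    induction z with
    | zero => exact ⟨0, 0, by simp⟩
    | tmul x m =>
      obtain ⟨j, hj, b, hb, e⟩ := Submodule.mem_sup.1 (hJ ▸ x.2 : x.1 ∈ J ⊔ Ideal.span {a})
      obtain ⟨c, rfl⟩ := Ideal.mem_span_singleton'.1 hb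
      refine ⟨⟨j, hj⟩ ⊗ₜ m, c • m, ?_⟩
      rw [LinearMap.rTensor_tmul, ← smul_tmul, ← add_tmul]
      exact congrArg (· ⊗ₜ m) (Subtype.ext e.symm)
    | add x y hx hy =>
      obtain ⟨x, m, rfl⟩ := hx
      obtain ⟨y, m', rfl⟩ := hy
      exact ⟨x + y, m + m', by rw [map_add, tmul_add, add_add_add_comm]⟩
  have e1 : ∀ y, J'.subtype.rTensor M ((Submodule.inclusion h1).rTensor M y) =
      J.subtype.rTensor M y := fun y => by
    rw [← LinearMap.comp_apply, ← LinearMap.rTensor_comp]; rfl
  have e2 : ∀ y, TensorProduct.lid A M (J.subtype.rTensor M y) ∈ (J • ⊤ : Submodule A M) := by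
    intro y
    induction y with
    | zero => simp
    | tmul x m => exact Submodule.smul_mem_smul x.2 Submodule.mem_top
    | add x y hx hy => rw [map_add, map_add]; exact add_mem hx hy
  have e3 : ∀ m ∈ (J • ⊤ : Submodule A M),
      (⟨a, h2⟩ : J') ⊗ₜ m ∈ LinearMap.range ((Submodule.inclusion h1).rTensor M) := by
    intro m hm
    refine Submodule.smul_induction_on hm (fun j hj m _ => ⟨⟨j * a, J.mul_mem_right a hj⟩ ⊗ₜ m, ?_⟩)
      fun x y hx hy => by rw [tmul_add]; exact add_mem hx hy
    rw [LinearMap.rTensor_tmul, ← smul_tmul]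
    rfl
  rw [injective_iff_map_eq_zero]
  intro z hz
  obtain ⟨y, m, rfl⟩ := key z
  have h3 := congrArg (TensorProduct.lid A M) hz
  rw [map_add, map_add, e1, map_zero] at h3
  obtain ⟨y', hy'⟩ := e3 m (ha m (by
    have := neg_mem (e2 y)
    rwa [neg_eq_of_add_eq_zero_right h3] at this))
  rw [← hy', ← map_add] at hz ⊢
  rw [e1] at hz
  rw [h (hz.trans (map_zero _).symm), map_zero]

theorem tor_finiteLength {A : Type u} [CommRing A] [IsLocalRing A] {K F : Type*} [AddCommGroup K]
    [Module A K] [AddCommGroup F] [Module A F] [Module.Flat A F] (i : K →ₗ[A] F)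
    (h : Function.Injective (i.rTensor (A ⧸ maximalIdeal A))) {N : Type u} [AddCommGroup N]
    [Module A N] (hN : IsFiniteLength A N) : Function.Injective (i.rTensor N) := by
  induction hN with
  | of_subsingleton => exact Function.injective_of_subsingleton _
  | @of_simple_quotient N _ _ N' hs _ ih =>
    obtain ⟨m, hm, ⟨e⟩⟩ := isSimpleModule_iff_quot_maximal.1 hs
    rw [eq_maximalIdeal hm] at e
    rw [injective_iff_map_eq_zero]
    intro z hz
    have h1 : (e.toLinearMap ∘ₗ N'.mkQ).lTensor K z = 0 := h (by
      rw [← LinearMap.comp_apply, LinearMap.rTensor_comp_lTensor,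
        ← LinearMap.lTensor_comp_rTensor, LinearMap.comp_apply, hz, map_zero, map_zero])
    obtain ⟨y, rfl⟩ := (lTensor_exact K (f := N'.subtype) (LinearMap.exact_iff.2 (by
      rw [LinearEquiv.ker_comp, Submodule.ker_mkQ, Submodule.range_subtype]))
      (e.surjective.comp N'.mkQ_surjective) z).1 h1
    rw [← LinearMap.comp_apply, LinearMap.rTensor_comp_lTensor,
      ← LinearMap.lTensor_comp_rTensor, LinearMap.comp_apply] at hz
    have h2 := Module.Flat.lTensor_preserves_injective_linearMap (M := F) N'.subtype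
      N'.subtype_injective (hz.trans (map_zero _).symm)
    rw [ih (h2.trans (map_zero _).symm), map_zero]

theorem lTensor_inj {A : Type u} [CommRing A] [IsLocalRing A] {M : Type v} [AddCommGroup M]
    [Module A M] (h : Function.Injective ((maximalIdeal A).subtype.rTensor M)) {N : Type u}
    [AddCommGroup N] [Module A N] (P : Submodule A N) (hP : IsFiniteLength A (N ⧸ P))
    {F : Type*} [AddCommGroup F] [Module A F] [Module.Flat A F] {p : F →ₗ[A] M}
    (hp : Function.Surjective p) : Function.Injective (P.subtype.lTensor M) := by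
  refine lTensor_injective_of_exact_of_exact_of_rTensor_injective (f₁ := (LinearMap.ker p).subtype)
    (LinearMap.exact_subtype_ker_map p) hp (LinearMap.exact_subtype_mkQ P) P.mkQ_surjective
    (tor_finiteLength _ ?_ hP)
    (Module.Flat.lTensor_preserves_injective_linearMap _ P.subtype_injective)
  rw [← LinearMap.lTensor_inj_iff_rTensor_inj]
  exact lTensor_injective_of_exact_of_exact_of_rTensor_injective (g₁ := (LinearMap.ker p).subtype)
    (LinearMap.exact_subtype_mkQ (maximalIdeal A)) (Submodule.mkQ_surjective _)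
    (LinearMap.exact_subtype_ker_map p) hp h
    (Module.Flat.lTensor_preserves_injective_linearMap _ (Submodule.subtype_injective _))

theorem map_le_of_isMaximal {A : Type u} {B : Type v} [CommRing A] [IsLocalRing A] [CommRing B]
    (f : A →+* B) (hf : f.Finite) (P : Ideal B) [P.IsMaximal] : (maximalIdeal A).map f ≤ P := by
  rw [Ideal.map_le_iff_le_comap,
    eq_maximalIdeal (Ideal.isMaximal_comap_of_isIntegral_of_isMaximal' f hf.to_isIntegral P)]

end LocCritAux
open LocCritAux

/-- Relations between the members of a weakly regular sequence are trivial. -/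
theorem rTensor_injective_of_isWeaklyRegular {A : Type u} [CommRing A] {M : Type v}
    [AddCommGroup M] [Module A M] {w : List A} (hw : IsWeaklyRegular M w) :
    Function.Injective ((Ideal.ofList w).subtype.rTensor M) := by
  induction w using List.reverseRecOn with
  | nil => rw [Ideal.ofList_nil]; exact Function.injective_of_subsingleton _
  | append_singleton w a ih =>
    rw [isWeaklyRegular_append_iff, isWeaklyRegular_singleton_iff] at hw
    refine step (by rw [Ideal.ofList_append, Ideal.ofList_singleton]) (ih hw.1) fun m hm => ?_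
    rw [← Submodule.Quotient.mk_eq_zero] at hm ⊢
    exact hw.2 (hm.trans (smul_zero a).symm)

/-- (LC) the local criterion of flatness. -/
theorem flat_of_maximalIdeal_rTensor_injective {A : Type u} {B : Type v} [CommRing A]
    [IsLocalRing A] [IsNoetherianRing A] [CommRing B] [IsLocalRing B] [IsNoetherianRing B]
    [Algebra A B] [IsLocalHom (algebraMap A B)]
    (h : Function.Injective ((maximalIdeal A).subtype.rTensor B)) : Module.Flat A B := by
  rw [Module.Flat.iff_lTensor_injective']
  intro I
  rw [injective_iff_map_eq_zero]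
  intro z hz
  have : IsHausdorff (maximalIdeal A) (B ⊗[A] I) :=
    IsHausdorff.of_map (S := B) (J := maximalIdeal B) (map_max_le _)
  obtain ⟨c, hc⟩ := (maximalIdeal A).exists_pow_inf_eq_pow_smul (M := A) I
  refine IsHausdorff.haus' (I := maximalIdeal A) z fun n => SModEq.zero.2 ?_
  let g : I →ₗ[A] A ⧸ maximalIdeal A ^ (n + c) := Submodule.mkQ _ ∘ₗ I.subtype
  have := isArtinianRing_quot_pow (Λ := A) (n + c)
  have : IsArtinian A (A ⧸ maximalIdeal A ^ (n + c)) :=
    isArtinian_of_surjective_algebraMap (R := A ⧸ maximalIdeal A ^ (n + c))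
      Ideal.Quotient.mk_surjective
  have h1 := lTensor_inj h (LinearMap.range g)
    (isFiniteLength_iff_isNoetherian_isArtinian.2 ⟨inferInstance, inferInstance⟩)
    (Finsupp.linearCombination_id_surjective A B)
  have h2 : g.rangeRestrict.lTensor B z = 0 := h1 (by
    rw [← LinearMap.comp_apply, ← LinearMap.lTensor_comp, LinearMap.subtype_comp_codRestrict,
      LinearMap.lTensor_comp, LinearMap.comp_apply, hz, map_zero, map_zero])
  obtain ⟨y, rfl⟩ := (lTensor_exact B (LinearMap.exact_subtype_ker_map g.rangeRestrict)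
    g.surjective_rangeRestrict z).1 h2
  clear h2 hz
  induction y with
  | zero => simp
  | add x y hx hy => rw [map_add]; exact add_mem hx hy
  | tmul b x =>
    have h3 : x.1.1 ∈ maximalIdeal A ^ (n + c) :=
      (Submodule.Quotient.mk_eq_zero _).1 (congrArg Subtype.val (LinearMap.mem_ker.1 x.2))
    have h4 : x.1.1 ∈ maximalIdeal A ^ n • I := by
      have := hc (n + c) le_add_self
      rw [Nat.add_sub_cancel, smul_eq_mul, Ideal.mul_top] at this
      exact Submodule.smul_mono le_rfl inf_le_right (this.le ⟨h3, x.1.2⟩)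
    have h5 := Submodule.mem_map_of_mem (f := TensorProduct.mk A B I b)
      ((Submodule.mem_smul_top_iff _ _ _).2 h4)
    rw [Submodule.map_smul''] at h5
    exact Submodule.smul_mono le_rfl le_top h5

/-- (LC4) -/
theorem flat_of_isWeaklyRegular {A : Type u} {B : Type v} [CommRing A] [IsLocalRing A]
    [IsNoetherianRing A] [CommRing B] [IsLocalRing B] [IsNoetherianRing B] (f : A →+* B)
    [IsLocalHom f] (w : List A) (hw : Ideal.ofList w = maximalIdeal A)
    (hB : IsWeaklyRegular B (w.map f)) : f.Flat := by
  let _ := f.toAlgebra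
  have _ : IsLocalHom (algebraMap A B) := ‹IsLocalHom f›
  exact flat_of_maximalIdeal_rTensor_injective (hw ▸ rTensor_injective_of_isWeaklyRegular
    ((isWeaklyRegular_map_algebraMap_iff B B w).1 hB))

/-- (FREE) -/
theorem free_of_isWeaklyRegular {A : Type u} [CommRing A] [IsLocalRing A] [IsNoetherianRing A]
    {M : Type v} [AddCommGroup M] [Module A M] [Module.Finite A M] (w : List A)
    (hw : Ideal.ofList w = maximalIdeal A) (hM : IsWeaklyRegular M w) : Module.Free A M := by
  have := Module.finitePresentation_of_finite A M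
  exact Module.free_of_maximalIdeal_rTensor_injective
    (hw ▸ rTensor_injective_of_isWeaklyRegular hM)

/-- Complete Nakayama lemma. -/
theorem span_eq_top_of_complete {A : Type u} [CommRing A] (I : Ideal A) [IsPrecomplete I A]
    {M : Type v} [AddCommGroup M] [Module A M] [IsHausdorff I M] (s : Finset M)
    (h : Submodule.span A (s : Set M) ⊔ I • ⊤ = ⊤) : Submodule.span A (s : Set M) = ⊤ := by
  obtain ⟨r, w, hw⟩ := Submodule.fg_iff_exists_fin_generating_family.1
    (Submodule.fg_span (R := A) s.finite_toSet)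
  have := Co2.prec_pi I r
  rw [← hw, ← Fintype.range_linearCombination] at h ⊢
  refine LinearMap.range_eq_top.2 (surjective_of_mkQ_comp_surjective (I := I) ?_)
  rw [← LinearMap.range_eq_top, LinearMap.range_comp, Submodule.map_mkQ_eq_top, sup_comm, h]

/-- (FIN) -/
theorem finite_of_complete {A : Type u} {B : Type v} [CommRing A] [IsLocalRing A]
    [IsAdicComplete (maximalIdeal A) A] [CommRing B] [IsLocalRing B] [IsNoetherianRing B]
    (f : A →+* B) [IsLocalHom f] (hres : ∀ b : B, ∃ a : A, b - f a ∈ maximalIdeal B) {N : ℕ}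
    (hN : maximalIdeal B ^ N ≤ (maximalIdeal A).map f) : f.Finite := by
  let _ := f.toAlgebra
  have key : ∀ n, ∃ W : Submodule A B, W.FG ∧
      ∀ s, s ∈ W ⊔ (maximalIdeal B ^ n).restrictScalars _ := by
    intro n
    induction n with
    | zero => exact ⟨⊥, Submodule.fg_bot, fun s => Submodule.mem_sup_right (by simp)⟩
    | succ n ih =>
      obtain ⟨W, hW, h⟩ := ih
      obtain ⟨G, hG⟩ := (maximalIdeal B ^ n).fg_of_isNoetherianRing
      refine ⟨W ⊔ Submodule.span _ (G : Set B), hW.sup (Submodule.fg_span G.finite_toSet),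
        fun s => ?_⟩
      rw [sup_assoc]
      refine sup_le_sup_left (fun x hx => ?_) W (h s)
      rw [Submodule.restrictScalars_mem, ← hG] at hx
      induction hx using Submodule.span_induction with
      | mem x hx => exact Submodule.mem_sup_left (Submodule.subset_span hx)
      | zero => exact zero_mem _
      | add x y _ _ hx hy => exact add_mem hx hy
      | smul a x hx ih =>
        obtain ⟨v, hv⟩ := hres a
        have e1 : a • x = v • x + (a - f v) * x := by
          rw [Algebra.smul_def v, smul_eq_mul, ← add_mul]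
          exact congrArg (· * x) (add_sub_cancel _ _).symm
        rw [e1]
        refine add_mem (Submodule.smul_mem _ _ ih) (Submodule.mem_sup_right ?_)
        rw [Submodule.restrictScalars_mem, pow_succ']
        exact Ideal.mul_mem_mul hv (hG ▸ hx)
  obtain ⟨W, ⟨s, rfl⟩, h⟩ := key N
  have : IsHausdorff (maximalIdeal A) B :=
    IsHausdorff.of_map (S := B) (J := maximalIdeal B) (map_max_le f)
  refine ⟨s, span_eq_top_of_complete (maximalIdeal A) s (eq_top_iff.2 fun b _ => ?_)⟩
  rw [Ideal.smul_top_eq_map]
  obtain ⟨x, hx, y, hy, rfl⟩ := Submodule.mem_sup.1 (h b)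
  exact Submodule.add_mem_sup hx (hN hy)

theorem surjective_of_complete {A : Type u} {B : Type v} [CommRing A] [IsLocalRing A]
    [IsAdicComplete (maximalIdeal A) A] [CommRing B] [IsLocalRing B] [IsNoetherianRing B]
    (f : A →+* B) [IsLocalHom f] (hres : ∀ b : B, ∃ a : A, b - f a ∈ maximalIdeal B)
    (hN : maximalIdeal B ≤ (maximalIdeal A).map f) : Function.Surjective f := by
  have : IsHausdorff ((maximalIdeal A).map f) B := Co2.haus_mono (map_max_le f)
  refine surjective_of_mk_map_comp_surjective (I := maximalIdeal A) f fun z => ?_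
  obtain ⟨s, rfl⟩ := Ideal.Quotient.mk_surjective z
  obtain ⟨v, hv⟩ := hres s
  exact ⟨v, (Ideal.Quotient.eq.2 (hN hv)).symm⟩

theorem isLocalHom_of_finite {A : Type u} {B : Type v} [CommRing A] [IsLocalRing A] [CommRing B]
    [IsLocalRing B] (f : A →+* B) (hf : f.Finite) : IsLocalHom f :=
  isLocalHom_of_map_le (map_le_of_isMaximal f hf _)

/-- A finite algebra over a local ring is local if it has an ideal that is nilpotent modulo the
maximal ideal and modulo which the structure map is onto. -/
theorem exists_isLocalRing_of_finite {A : Type u} {B : Type v} [CommRing A] [IsLocalRing A]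
    [CommRing B] [Nontrivial B] (f : A →+* B) (hf : f.Finite) (𝔫 : Ideal B) {N : ℕ}
    (hN : 𝔫 ^ N ≤ (maximalIdeal A).map f) (hres : ∀ b : B, ∃ a : A, b - f a ∈ 𝔫) :
    ∃ _ : IsLocalRing B, maximalIdeal B = 𝔫 ⊔ (maximalIdeal A).map f := by
  have key : ∀ P : Ideal B, P.IsMaximal → P = 𝔫 ⊔ (maximalIdeal A).map f := by
    intro P hP
    have h1 := map_le_of_isMaximal f hf P
    have h2 : 𝔫 ≤ P := Ideal.IsPrime.le_of_pow_le (hN.trans h1)
    refine le_antisymm (fun b hb => ?_) (sup_le h2 h1)
    obtain ⟨a, ha⟩ := hres b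
    have h3 : a ∈ maximalIdeal A := fun h => hP.ne_top (Ideal.eq_top_of_isUnit_mem _
      (by simpa using sub_mem hb (h2 ha)) (h.map f))
    rw [← sub_add_cancel b (f a)]
    exact Submodule.add_mem_sup ha (Ideal.mem_map_of_mem f h3)
  obtain ⟨P, hP⟩ := Ideal.exists_maximal B
  have := IsLocalRing.of_unique_max_ideal ⟨P, hP, fun Q hQ => (key Q hQ).trans (key P hP).symm⟩
  exact ⟨this, key _ inferInstance⟩

theorem exists_pow_le_map_of_finite {A : Type u} {B : Type v} [CommRing A] [IsLocalRing A]
    [CommRing B] [IsLocalRing B] [IsNoetherianRing B] (f : A →+* B) (hf : f.Finite) :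
    ∃ N : ℕ, maximalIdeal B ^ N ≤ (maximalIdeal A).map f := by
  refine Ideal.exists_pow_le_of_le_radical_of_fg ?_ (maximalIdeal B).fg_of_isNoetherianRing
  rw [Ideal.radical_eq_sInf]
  refine le_sInf fun P ⟨h1, h2⟩ => (eq_maximalIdeal ?_).ge
  refine Ideal.isMaximal_of_isIntegral_of_isMaximal_comap' f hf.to_isIntegral P ?_
  rw [← (maximalIdeal.isMaximal A).eq_of_le (Ideal.comap_isPrime f P).ne_top
    (Ideal.map_le_iff_le_comap.1 h1)]
  infer_instance

theorem isAdicComplete_of_finite {A : Type u} {B : Type v} [CommRing A] [IsLocalRing A]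
    [IsNoetherianRing A] [IsAdicComplete (maximalIdeal A) A] [CommRing B] [IsLocalRing B]
    (f : A →+* B) (hf : f.Finite) : IsAdicComplete (maximalIdeal B) B := by
  let _ := f.toAlgebra
  have : Module.Finite A B := hf
  have : IsNoetherianRing B := IsNoetherianRing.of_finite A B
  obtain ⟨N, hN⟩ := exists_pow_le_map_of_finite f hf
  have h1 := map_le_of_isMaximal f hf (maximalIdeal B)
  obtain ⟨r, p, hp⟩ := Module.Finite.exists_fin' A B
  have := Co2.prec_pi (maximalIdeal A) r
  have : IsPrecomplete ((maximalIdeal A).map f) B :=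
    (IsPrecomplete.map_algebraMap_iff (R := A) (S := B)).2 (Co2.prec_of_surjective _ p hp)
  have : IsPrecomplete (maximalIdeal B) B := ⟨fun g hg => by
    obtain ⟨L, hL⟩ := IsPrecomplete.prec' (I := (maximalIdeal A).map f) (fun n => g ((N + 1) * n))
      fun {m n} h => (hg (Nat.mul_le_mul_left _ h)).mono (Submodule.smul_mono_left (by
        rw [pow_mul]
        exact Ideal.pow_right_mono ((Ideal.pow_le_pow_right N.le_succ).trans hN) m))
    exact ⟨L, fun n => (hg (Nat.le_mul_of_pos_left n N.succ_pos)).trans
      ((hL n).mono (Submodule.smul_mono_left (Ideal.pow_right_mono h1 n)))⟩⟩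
  exact ⟨⟩

end Vale.Agent.P202
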