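import Vale.Agent.P202.Approx
import Vale.Agent.P202.CharP
import Vale.Agent.P202.Isog
import Vale.Agent.P202.LocCrit

/-! Auxiliary lemmas for module I3. -/

namespace Vale.Agent.P202.C0A

open IsLocalRing MvPowerSeries Pointwise

universe u

/-- The property `P` holds for every homomorphism defined on a large enough subring. -/
def Ev (R : Type u) [CommRing R]
    (P : (R' : Type u) → [CommRing R'] → Subring R → (R → R') → Prop) : Prop :=
  ∃ Ω : Finset R, ∀ (R' : Type u) [CommRing R'] (C : Subring R) (u : R → R'), HomOn C u →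
    (Ω : Set R) ⊆ C → P R' C u

section
variable {R : Type u} [CommRing R]
  {P Q : (R' : Type u) → [CommRing R'] → Subring R → (R → R') → Prop}

theorem Ev.mono (h : Ev R P) (h' : ∀ (R' : Type u) [CommRing R'] (C : Subring R) (u : R → R'),
    HomOn C u → P R' C u → Q R' C u) : Ev R Q :=
  let ⟨Ω, h⟩ := h
  ⟨Ω, fun R' _ C u hu hΩ => h' R' C u hu (h R' C u hu hΩ)⟩

theorem Ev.and (h : Ev R P) (h' : Ev R Q) : Ev R fun R' _ C u => P R' C u ∧ Q R' C u := by
  classical
  obtain ⟨Ω, h⟩ := h
  obtain ⟨Ω', h'⟩ := h'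
  refine ⟨Ω ∪ Ω', fun R' _ C u hu hΩ => ?_⟩
  rw [Finset.coe_union, Set.union_subset_iff] at hΩ
  exact ⟨h R' C u hu hΩ.1, h' R' C u hu hΩ.2⟩

theorem Ev.all {ι : Type*} {s : Set ι} (hs : s.Finite)
    {P : ι → (R' : Type u) → [CommRing R'] → Subring R → (R → R') → Prop}
    (h : ∀ i ∈ s, Ev R (P i)) : Ev R fun R' _ C u => ∀ i ∈ s, P i R' C u := by
  induction s, hs using Set.Finite.induction_on with
  | empty => exact ⟨∅, fun _ _ _ _ _ _ _ h => h.elim⟩
  | insert _ _ ih =>
    exact ((h _ (Set.mem_insert _ _)).and (ih fun i hi => h i (Set.mem_insert_of_mem _ hi))).mono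
      fun R' _ C u _ h => Set.forall_mem_insert.2 h

theorem ev_sub {s : Set R} (hs : s.Finite) : Ev R fun _ _ C _ => s ⊆ C :=
  ⟨hs.toFinset, fun _ _ _ _ _ h => hs.coe_toFinset ▸ h⟩

theorem ev_le {s t : Set R} (hs : s.Finite) (h : Ideal.span s ≤ Ideal.span t) :
    Ev R fun _ _ _ u => Ideal.span (u '' s) ≤ Ideal.span (u '' t) :=
  (Ev.all hs (P := fun a _ _ _ u => u a ∈ Ideal.span (u '' t))
    fun _ ha => exists_finset_mem_span (h (Ideal.subset_span ha))).mono
    fun _ _ _ _ _ h => Ideal.span_le.2 (Set.forall_mem_image.2 h)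

variable {R' : Type u} [CommRing R'] {C : Subring R} {u : R → R'}

theorem span_mul (h : HomOn C u) {s t : Set R} (hs : s ⊆ C) (ht : t ⊆ C) :
    Ideal.span (u '' (s * t)) = Ideal.span (u '' s) * Ideal.span (u '' t) := by
  rw [Ideal.span_mul_span', ← Set.image2_mul, ← Set.image2_mul, Set.image_image2,
    Set.image2_image_left, Set.image2_image_right,
    Set.image2_congr fun a ha b hb => h.mul a (hs ha) b (ht hb)]

theorem pow_sub {s : Set R} (hs : s ⊆ C) (n : ℕ) : s ^ n ⊆ C := by
  induction n with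
  | zero => exact Set.one_subset.2 C.one_mem
  | succ n ih => rw [pow_succ]; exact Set.mul_subset_iff.2 fun a ha b hb => C.mul_mem (ih ha) (hs hb)

theorem span_pow (h : HomOn C u) {s : Set R} (hs : s ⊆ C) (n : ℕ) :
    Ideal.span (u '' (s ^ n)) = Ideal.span (u '' s) ^ n := by
  induction n with
  | zero => rw [pow_zero, pow_zero, Set.image_one, h.one, Ideal.span_singleton_one, Ideal.one_eq_top]
  | succ n ih => rw [pow_succ, span_mul h (pow_sub hs n) hs, ih, pow_succ]

theorem finite_pow {s : Set R} (hs : s.Finite) (n : ℕ) : (s ^ n).Finite := by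
  induction n with
  | zero => exact Set.finite_one
  | succ n ih => exact pow_succ s n ▸ ih.mul hs

theorem ev_pow_le {s t : Set R} (hs : s.Finite) {n : ℕ} (h : Ideal.span s ^ n ≤ Ideal.span t) :
    Ev R fun _ _ _ u => Ideal.span (u '' s) ^ n ≤ Ideal.span (u '' t) :=
  ((ev_le (finite_pow hs n) ((Submodule.span_pow s n).ge.trans h)).and (ev_sub hs)).mono
    fun _ _ _ _ hu h => (span_pow hu h.2 n).ge.trans h.1

theorem ev_red {s t : Set R} (hs : s.Finite) (ht : t.Finite) {n : ℕ}
    (h : Ideal.span s ^ (n + 1) ≤ Ideal.span t * Ideal.span s ^ n) :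
    Ev R fun _ _ _ u => Ideal.span (u '' s) ^ (n + 1) ≤
      Ideal.span (u '' t) * Ideal.span (u '' s) ^ n :=
  ((ev_pow_le (t := t * s ^ n) hs (h.trans_eq (by
    rw [← Ideal.span_mul_span']; exact congrArg _ (Submodule.span_pow s n)))).and
    ((ev_sub hs).and (ev_sub ht))).mono fun _ _ _ _ hu h => by
      rw [← span_pow hu h.2.1 n, ← span_mul hu h.2.2 (pow_sub h.2.1 n)]; exact h.1

theorem ev_length [IsLocalRing R] {m : Set R} (hm : m.Finite) (hm' : Ideal.span m = maximalIdeal R)
    (L : ℕ) {t : Set R} (h : ∃ k, maximalIdeal R ^ k ≤ Ideal.span t)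
    (hL : Module.length R (R ⧸ Ideal.span t) ≤ L) :
    Ev R fun R' _ _ u => ∀ [IsLocalRing R'], maximalIdeal R' ≤ Ideal.span (u '' m) →
      Module.length R' (R' ⧸ Ideal.span (u '' t)) ≤ L := by
  classical
  induction L generalizing t with
  | zero =>
    have : Subsingleton (R ⧸ Ideal.span t) := Module.length_eq_zero_iff.1 (le_zero_iff.1 hL)
    refine Ev.mono (exists_finset_mem_span (a := 1) (s := t)
      (Ideal.Quotient.eq_zero_iff_mem.1 (Subsingleton.elim _ _))) fun R' _ C u hu h _ _ => ?_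
    rw [hu.one, ← Ideal.eq_top_iff_one, ← Ideal.Quotient.subsingleton_iff] at h
    exact Module.length_eq_zero.le
  | succ L ih =>
    by_cases h0 : Nat.find h = 0
    · refine (ih h ?_).mono fun R' _ C u hu h _ h' => (h h').trans (by exact_mod_cast L.le_succ)
      have := Nat.find_spec h
      rw [h0, pow_zero, Ideal.one_eq_top, top_le_iff, ← Ideal.Quotient.subsingleton_iff] at this
      exact Module.length_eq_zero.le.trans zero_le
    obtain ⟨k, hk⟩ := Nat.exists_eq_succ_of_ne_zero h0
    obtain ⟨s, h1, h2⟩ := SetLike.not_le_iff_exists.1 (Nat.find_min h (hk ▸ k.lt_succ_self))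
    have h3 : Ideal.span t < Ideal.span (insert s t) := SetLike.lt_iff_le_and_exists.2
      ⟨Ideal.span_mono (Set.subset_insert _ _), s, Ideal.subset_span (Set.mem_insert _ _), h2⟩
    have h4 : Module.length R (R ⧸ Ideal.span (insert s t)) ≤ L := by
      rw [Module.length_quotient] at hL ⊢
      exact (ENat.add_le_add_iff_right ENat.one_ne_top).1 ((Order.coheight_add_one_le h3).trans hL)
    have h5 : Ideal.span (m * {s}) ≤ Ideal.span t := by
      refine le_trans ?_ (Nat.find_spec h)
      rw [← Ideal.span_mul_span', hm', hk, pow_succ']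
      exact Ideal.mul_mono_right ((Ideal.span_singleton_le_iff_mem _).2 h1)
    refine ((ih ⟨_, (Nat.find_spec h).trans h3.le⟩ h4).and
      ((ev_le (hm.mul (Set.finite_singleton s)) h5).and
      ((ev_sub hm).and (ev_sub (Set.finite_singleton s))))).mono
      fun R' _ C u hu ⟨a1, a2, a3, a4⟩ _ h' => ?_
    rw [span_mul hu a3 a4, Set.image_singleton] at a2
    have a5 := a1 h'
    rw [← rl_top] at a5 ⊢
    refine (rl_le_add _ (Ideal.span (u '' insert s t)) _).trans ?_
    rw [Nat.cast_succ]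
    refine add_le_add a5 ?_
    rw [← length_quot_maximalIdeal R', ← rl_top]
    refine rl_le_of_map_surj (LinearMap.mulRight R' (u s)) (fun x hx => a2
      (Ideal.mul_mem_mul (h' hx.2) (Ideal.mem_span_singleton_self _))) fun y hy => ?_
    rw [Set.image_insert_eq, Ideal.mem_span_insert] at hy
    obtain ⟨a, z, hz, rfl⟩ := hy
    exact ⟨a, trivial, by simpa using hz⟩

end

theorem ev_coeff {A R : Type u} [CommRing A] [CommRing R] [Algebra A R] {s : Set R} {w : R}
    (h : w ∈ Submodule.span A s) : Ev A fun A' _ C u => ∀ (R' : Type u) [CommRing R']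
      [Algebra A' R'] (C' : Subring R) (u' : R → R'), HomOn C' u' → s ⊆ C' →
      (∀ a ∈ C, algebraMap A R a ∈ C' ∧ u' (algebraMap A R a) = algebraMap A' R' (u a)) →
      w ∈ C' ∧ u' w ∈ Submodule.span A' (u' '' s) := by
  induction h using Submodule.span_induction with
  | mem x hx => exact ⟨∅, fun _ _ _ _ _ _ _ _ _ _ _ _ hs _ =>
      ⟨hs hx, Submodule.subset_span ⟨x, hx, rfl⟩⟩⟩
  | zero => exact ⟨∅, fun _ _ _ _ _ _ _ _ _ _ _ hu _ _ => ⟨zero_mem _, hu.zero ▸ zero_mem _⟩⟩
  | add x y _ _ hx hy =>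
    refine (hx.and hy).mono fun A' _ C u _ h R' _ _ C' u' hu hs hc => ?_
    obtain ⟨a1, a2⟩ := h.1 R' C' u' hu hs hc
    obtain ⟨b1, b2⟩ := h.2 R' C' u' hu hs hc
    exact ⟨add_mem a1 b1, hu.add x a1 y b1 ▸ add_mem a2 b2⟩
  | smul a x _ hx =>
    refine (hx.and (ev_sub (Set.finite_singleton a))).mono
      fun A' _ C u _ h R' _ _ C' u' hu hs hc => ?_
    obtain ⟨a1, a2⟩ := h.1 R' C' u' hu hs hc
    obtain ⟨b1, b2⟩ := hc a (h.2 rfl)
    rw [Algebra.smul_def, hu.mul _ b1 x a1, b2, ← Algebra.smul_def (u a)]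
    exact ⟨mul_mem b1 a1, Submodule.smul_mem _ _ a2⟩

theorem exists_basis_one (R S : Type u) [CommRing R] [IsLocalRing R] [CommRing S] [IsLocalRing S]
    [Algebra R S] [Module.Free R S] [Module.Finite R S] :
    ∃ (r : ℕ) (b : Module.Basis (Fin r) R S) (i : Fin r), b i = 1 := by
  let e := Module.finBasis R S
  have := isLocalHom_of_finite (algebraMap R S) (RingHom.finite_algebraMap.2 inferInstance)
  obtain ⟨i, hi⟩ : ∃ i, IsUnit (e.repr 1 i) := by
    by_contra h
    refine (maximalIdeal.isMaximal S).ne_top ((Ideal.eq_top_iff_one _).2 ?_)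
    rw [← e.sum_repr 1]
    refine Ideal.sum_mem _ fun i _ => ?_
    rw [Algebra.smul_def]
    exact Ideal.mul_mem_right _ _ (map_max_le _ (Ideal.mem_map_of_mem _ fun h' => h ⟨i, h'⟩))
  obtain ⟨h1, h2⟩ := (e.is_basis_iff_det (v := Function.update e i 1)).2 (by
    rwa [e.det_apply, e.toMatrix_update, e.toMatrix_self, ← Matrix.cramer_apply, Matrix.cramer_one])
  exact ⟨_, Module.Basis.mk h1 h2.ge, i, by rw [Module.Basis.mk_apply, Function.update_self]⟩

theorem charP_case (p : ℕ) [Fact p.Prime] (l : Type u) [Field l] [CharP l p] (n : ℕ)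
    (R S : Type u) [CommRing R] [IsLocalRing R] [CommRing S] [IsLocalRing S]
    [Algebra (MvPowerSeries (Fin (n + 1)) l) R] [Module.Finite (MvPowerSeries (Fin (n + 1)) l) R]
    [Algebra R S] [Module.Free R S] [Module.Finite R S]
    (hres : ∀ s : R, ∃ a : MvPowerSeries (Fin (n + 1)) l, s - algebraMap _ R a ∈ maximalIdeal R)
    (hx : IsReduction fun j => algebraMap (MvPowerSeries (Fin (n + 1)) l) R (X j))
    {y : Fin (n + 1) → S} (hy : IsSop S (List.ofFn y)) {N : ℕ} (hN : 0 < N) :
    N ^ (n + 1) * Module.finrank (MvPowerSeries (Fin (n + 1)) l) R ≤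
      (Module.length S (S ⧸ Ideal.span (Set.range fun j => y j ^ N))).toNat := by
  have f1 : (algebraMap (MvPowerSeries (Fin (n + 1)) l) R).Finite :=
    RingHom.finite_algebraMap.2 inferInstance
  have f2 : (algebraMap R S).Finite := RingHom.finite_algebraMap.2 inferInstance
  have := HS.isDomain_ps l (n + 1)
  have : IsAdicComplete (maximalIdeal l) l := maximalIdeal_eq_bot (R := l) ▸ inferInstance
  have := isAdicComplete_mvPowerSeries (σ := Fin (n + 1)) (V := l)
  have := IsNoetherianRing.of_finite (MvPowerSeries (Fin (n + 1)) l) R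
  have := IsNoetherianRing.of_finite R S
  have := isAdicComplete_of_finite _ f1
  have := isAdicComplete_of_finite _ f2
  have := isLocalHom_of_finite _ f1
  have := isLocalHom_of_finite _ f2
  have : CharP R p := charP_of_hom p ((algebraMap (MvPowerSeries (Fin (n + 1)) l) R).comp C)
  obtain ⟨e, he⟩ := exists_tendsto_of_isReduction hx
  have h1 := mult_eq_finrank (M := R) (HS.ofList_XL l (n + 1)) (by
    rw [ringKrullDim_mvPowerSeries_field, List.length_ofFn])
  rw [mult_restrict_of_residue_surj hres R, List.map_ofFn] at h1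
  have h2 := mult_le_of_tendsto (eqChar_of_charP p R) hx he
  have h3 := finLech_of_charP p R S (algebraMap R S) (RingHom.flat_algebraMap_iff.2 inferInstance)
    (exists_pow_le_map_of_finite _ f2) n _ hx e he y hy
  have h4 := mult_le_length (hy.pow hN)
  rw [mult_pow hy hN, List.length_ofFn, List.map_ofFn, HS.ofList_ofFn, smul_eq_mul,
    Ideal.mul_top] at h4
  have h5 : (Module.finrank (MvPowerSeries (Fin (n + 1)) l) R : ℤ) ≤ mult S (List.ofFn y) := by
    rw [← h1]
    exact_mod_cast h2.trans h3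
  exact_mod_cast (mul_le_mul_of_nonneg_left h5 (by positivity)).trans h4

end Vale.Agent.P202.C0A
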