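import Vale.Agent.P202.Approx
import Vale.Agent.P202.CharP
import Vale.Agent.P202.Isog
import Vale.Agent.P202.LocCrit
import Vale.Agent.P202.Char0AAux

/-! Module I3: the finite free case in characteristic zero, by reduction modulo `p`. -/

namespace Vale.Agent.P202

open IsLocalRing MvPowerSeries

universe u

namespace C0A

/-- Transfer of the upper ring. -/
theorem upper (R S : Type u) [CommRing R] [IsLocalRing R] [CommRing S] [IsLocalRing S]
    [IsNoetherianRing S] [Algebra R S] [Module.Free R S] [Module.Finite R S]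
    (hres : ∀ s : S, ∃ a : R, s - algebraMap R S a ∈ maximalIdeal S) {m : Set R} (hm : m.Finite)
    (hm' : Ideal.span m = maximalIdeal R) {d : ℕ} {y : Fin d → S} (hy : IsSop S (List.ofFn y))
    {N : ℕ} (hN : 0 < N) :
    Ev R fun R' _ _ u => ∀ [IsLocalRing R'], maximalIdeal R' = Ideal.span (u '' m) →
      ∃ (S' : Type u) (_ : CommRing S') (_ : IsLocalRing S') (_ : Algebra R' S')
        (_ : Module.Free R' S') (_ : Module.Finite R' S') (y' : Fin d → S'),
        IsSop S' (List.ofFn y') ∧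
        Module.length S' (S' ⧸ Ideal.span (Set.range fun j => y' j ^ N)) ≤
          (Module.length S (S ⧸ Ideal.span (Set.range fun j => y j ^ N))).toNat := by
  have f2 : (algebraMap R S).Finite := RingHom.finite_algebraMap.2 inferInstance
  have := isLocalHom_of_finite _ f2
  obtain ⟨k, hk⟩ := (maximalIdeal S).fg_of_isNoetherianRing
  replace hk : Ideal.span (k : Set S) = maximalIdeal S := hk
  obtain ⟨r, b, i, hb⟩ := exists_basis_one R S
  choose c hc using fun i => hres (b i)
  obtain ⟨N0, hN0⟩ := exists_pow_le_map_of_finite _ f2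
  have e0 := map_max_le (algebraMap R S)
  rw [← hm', Ideal.map_span, ← hk] at hN0 e0
  have sop : ∀ {z : Fin d → S}, IsSop S (List.ofFn z) →
      ∃ N, maximalIdeal S ^ N ≤ Ideal.span (Set.range z) := fun ⟨_, N, h⟩ => ⟨N, fun r hr => by
    obtain ⟨a, ha, h⟩ := h r hr
    have := (Submodule.mem_bot S).1 (h 1 trivial)
    rw [smul_eq_mul, mul_one, sub_eq_zero] at this
    rwa [this, ← HS.ofList_ofFn]⟩
  obtain ⟨N1, hN1⟩ := sop hy
  have hyN := hy.pow hN
  have e1 := hyN.length_ne_top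
  rw [List.map_ofFn, HS.ofList_ofFn, smul_eq_mul, Ideal.mul_top] at e1
  rw [List.map_ofFn] at hyN
  have e2 : Ideal.span (Set.range y) ≤ Ideal.span (k : Set S) :=
    hk ▸ Ideal.span_le.2 (Set.range_subset_iff.2 fun j => hy.1 _ (List.mem_ofFn.2 ⟨j, rfl⟩))
  have g1 := ev_pow_le k.finite_toSet hN0
  have g2 := ev_le (hm.image _) e0
  have g3 := ev_le (Set.finite_range y) e2
  have g4 := ev_pow_le k.finite_toSet ((congrArg (· ^ N1) hk).trans_le hN1)
  have g5 := ev_length k.finite_toSet hk _ (sop hyN) (ENat.natCast_toNat e1).ge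
  have g6 := ev_sub (Set.finite_range y)
  have g7 := Ev.all (R := S) Set.finite_univ
    (P := fun i _ _ _ u => u (b i - algebraMap R S (c i)) ∈ Ideal.span (u '' k))
    fun i _ => exists_finset_mem_span (hk.ge (hc i))
  obtain ⟨ΩS, hS⟩ := (g1.and g2).and ((g3.and g4).and ((g5.and g6).and g7))
  refine (Ev.and (exists_transfer_free b i hb ΩS) ((ev_sub hm).and
    (ev_sub (Set.finite_range c)))).mono
    fun R' _ C u _ ⟨⟨S', _, _, C', u', b', hu', t1, t2, t3⟩, r1, r2⟩ _ h => ?_
  obtain ⟨⟨s1, s2⟩, ⟨s3, s4⟩, ⟨s5, s6⟩, s7⟩ := hS S' C' u' hu' t1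
  have := Module.Free.of_basis b'
  have := Module.Finite.of_basis b'
  have := nontrivial_of_ne _ _ (b'.ne_zero i)
  have e3 : Ideal.span (u' '' (algebraMap R S '' m)) = (maximalIdeal R').map (algebraMap R' S') := by
    rw [h, Ideal.map_span, Set.image_image, Set.image_image,
      Set.image_congr fun a ha => (t2 a (r1 ha)).2]
  obtain ⟨_, e4⟩ := exists_isLocalRing_of_finite (algebraMap R' S')
    (RingHom.finite_algebraMap.2 inferInstance) _ (e3 ▸ s1) fun s => by
      refine ⟨∑ i, b'.repr s i * u (c i), ?_⟩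
      conv => enter [2, 1]; rw [← b'.sum_repr s]
      rw [map_sum, ← Finset.sum_sub_distrib]
      refine Ideal.sum_mem _ fun i _ => ?_
      have := s7 i trivial
      rw [hu'.sub (t3 i).1 (t2 _ (r2 ⟨i, rfl⟩)).1, (t3 i).2, (t2 _ (r2 ⟨i, rfl⟩)).2] at this
      rw [Algebra.smul_def, map_mul, ← mul_sub]
      exact Ideal.mul_mem_left _ _ this
  rw [← e3, sup_eq_left.2 s2, ] at e4
  rw [← Set.range_comp, ← e4] at s3 s4
  have s8 : IsSop S' (List.ofFn (u' ∘ y)) :=
    HS.isSop_of_le (fun a ha => s3 (Ideal.subset_span (List.mem_ofFn.1 ha)))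
      (s4.trans_eq (HS.ofList_ofFn (u' ∘ y)).symm) S'
  refine ⟨S', inferInstance, inferInstance, inferInstance, inferInstance, inferInstance, u' ∘ y,
    s8, ?_⟩
  have s9 := s5 e4.le
  rw [← Set.range_comp] at s9
  have e5 : (u' ∘ (fun x => x ^ N) ∘ y) = fun j => (u' ∘ y) j ^ N :=
    funext fun j => hu'.pow (s6 ⟨j, rfl⟩) N
  rw [e5] at s9
  exact s9

end C0A
open C0A

theorem pow_mul_finrank_le (l : Type u) [Field l] [CharZero l] (n : ℕ) (R S : Type u) [CommRing R]
    [IsLocalRing R] [IsNoetherianRing R] [CommRing S] [IsLocalRing S] [IsNoetherianRing S]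
    [Algebra (MvPowerSeries (Fin (n + 1)) l) R] [Module.Finite (MvPowerSeries (Fin (n + 1)) l) R]
    [Algebra R S] [Module.Free R S] [Module.Finite R S]
    (hres : ∀ s : S, ∃ a : MvPowerSeries (Fin (n + 1)) l,
      s - algebraMap R S (algebraMap _ R a) ∈ maximalIdeal S)
    (hx : IsReduction fun j => algebraMap (MvPowerSeries (Fin (n + 1)) l) R (X j))
    {y : Fin (n + 1) → S} (hy : IsSop S (List.ofFn y)) {N : ℕ} (hN : 0 < N) :
    N ^ (n + 1) * Module.finrank (MvPowerSeries (Fin (n + 1)) l) R ≤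
      (Module.length S (S ⧸ Ideal.span (Set.range fun j => y j ^ N))).toNat := by
  classical
  rcases Nat.eq_zero_or_pos (Module.finrank (MvPowerSeries (Fin (n + 1)) l) R) with h0 | h0
  · rw [h0, mul_zero]; exact Nat.zero_le _
  have := isLocalHom_of_finite (algebraMap R S) (RingHom.finite_algebraMap.2 inferInstance)
  have := HS.isDomain_ps l (n + 1)
  obtain ⟨m, hm⟩ : ((maximalIdeal R).restrictScalars (MvPowerSeries (Fin (n + 1)) l)).FG :=
    IsNoetherian.noetherian _
  have hm' : Ideal.span (m : Set R) = maximalIdeal R :=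
    le_antisymm (Ideal.span_le.2 fun x hx => hm.le (Submodule.subset_span hx))
      fun x hx => Submodule.span_le_restrictScalars (MvPowerSeries (Fin (n + 1)) l) R _ (hm.ge hx)
  have hm1 : ∀ w : R, w ∈ Submodule.span (MvPowerSeries (Fin (n + 1)) l) (insert 1 (m : Set R)) := by
    intro w
    obtain ⟨a, ha⟩ := hres (algebraMap R S w)
    rw [← map_sub, ← Ideal.mem_comap, maximalIdeal_comap] at ha
    exact Submodule.mem_span_insert.2 ⟨a, _, hm.ge ha, by
      rw [← Algebra.algebraMap_eq_smul_one, add_sub_cancel]⟩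
  obtain ⟨N2, hN2⟩ := hx.pow_le
  have r2 := hN2 1
  obtain ⟨x1, r, x2⟩ := hx
  rw [pow_one, ← hm'] at r2
  rw [← hm'] at x1 x2
  obtain ⟨ΩR, hR⟩ := ((upper R S (fun s => (hres s).elim fun a h => ⟨_, h⟩) m.finite_toSet hm'
    hy hN).and (ev_red m.finite_toSet (Set.finite_range _) x2)).and
    ((ev_pow_le m.finite_toSet r2).and (ev_le (Set.finite_range _)
      (Ideal.span_le.2 (Set.range_subset_iff.2 x1))))
  have q1 : (ΩR : Set R) ⊆ (ΩR ∪ insert 1 m : Finset R) := Finset.subset_union_left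
  have q2 : insert 1 (m : Set R) ⊆ (ΩR ∪ insert 1 m : Finset R) :=
    Finset.coe_insert 1 m ▸ Finset.subset_union_right
  obtain ⟨ΩA1, g, hg, hT⟩ := exists_transfer_finite (A := MvPowerSeries (Fin (n + 1)) l)
    (ΩR ∪ insert 1 m) (eq_top_iff.2 fun w _ => Submodule.span_mono q2 (hm1 w))
  obtain ⟨ΩA, hA⟩ := (Ev.all (ΩR ∪ insert 1 m).finite_toSet fun w _ => ev_coeff (hm1 w)).and
    (ev_sub ΩA1.finite_toSet)
  obtain ⟨p, _, l', _, _, C, u, hu, h1, h2, h3, h4⟩ := exists_approx_hom l (n + 1) ΩA g hg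
  have := HS.isDomain_ps l' (n + 1)
  obtain ⟨a1, a2⟩ := hA _ C u hu h1
  obtain ⟨R', _, _, C', u', hu', t1, t2, t3, t4⟩ := hT _ C u hu a2 h2 h3
  obtain ⟨⟨b1, b2⟩, b3, b4⟩ := hR R' C' u' hu' (q1.trans t1)
  have : Module.Finite (MvPowerSeries (Fin (n + 1)) l') R' :=
    ⟨Submodule.fg_def.2 ⟨_, (Finset.finite_toSet _).image u', t3⟩⟩
  have : Nontrivial R' := Module.nontrivial_of_finrank_pos (h0.trans_le t4)
  have e1 : u' '' Set.range (fun j => algebraMap (MvPowerSeries (Fin (n + 1)) l) R (X j)) =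
      Set.range fun j => algebraMap (MvPowerSeries (Fin (n + 1)) l') R' (X j) := by
    rw [← Set.range_comp]
    exact congrArg _ (funext fun j => (t2 _ (h4 j).1).2.trans (congrArg _ (h4 j).2))
  have e2 : (maximalIdeal (MvPowerSeries (Fin (n + 1)) l')).map (algebraMap _ R') =
      Ideal.span (Set.range fun j => algebraMap (MvPowerSeries (Fin (n + 1)) l') R' (X j)) := by
    rw [HS.max_eq_span, Ideal.map_span, ← Set.range_comp]; rfl
  have e3 : ∀ s : R', ∃ a : MvPowerSeries (Fin (n + 1)) l',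
      s - algebraMap _ R' a ∈ Ideal.span (u' '' m) := by
    intro s
    have : s ∈ Submodule.span (MvPowerSeries (Fin (n + 1)) l') (u' '' insert 1 (m : Set R)) :=
      Submodule.span_le.2 (Set.forall_mem_image.2 fun w hw =>
        (a1 w hw R' C' u' hu' (q2.trans t1) t2).2) (t3.ge trivial)
    rw [Set.image_insert_eq, hu'.one, Submodule.mem_span_insert] at this
    obtain ⟨a, z, hz, rfl⟩ := this
    exact ⟨a, by
      rw [← Algebra.algebraMap_eq_smul_one, add_sub_cancel_left]
      exact Submodule.span_le_restrictScalars (MvPowerSeries (Fin (n + 1)) l') R' _ hz⟩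
  rw [e1] at b2 b3 b4
  obtain ⟨_, e4⟩ := exists_isLocalRing_of_finite (algebraMap (MvPowerSeries (Fin (n + 1)) l') R')
    (RingHom.finite_algebraMap.2 inferInstance) _ (e2 ▸ b3) e3
  rw [e2, sup_eq_left.2 b4] at e4
  obtain ⟨S', _, _, _, _, _, y', c1, c2⟩ := b1 e4
  rw [← e4] at b2 b4 e3
  exact (Nat.mul_le_mul_left _ t4).trans ((charP_case p l' n R' S' e3
    ⟨fun j => b4 (Ideal.subset_span ⟨j, rfl⟩), r, b2⟩ c1 hN).trans (ENat.toNat_le_of_le_natCast c2))

end Vale.Agent.P202
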