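import Mathlib

/-! Module H0: existence of Cohen rings. -/

namespace Vale.Agent.P202

open IsLocalRing

universe u

/-- A complete discrete valuation ring with uniformizer `p`. -/
structure IsCohen (p : ℕ) (V : Type u) [CommRing V] [IsDomain V] [IsDiscreteValuationRing V] :
    Prop where
  max : maximalIdeal V = Ideal.span {(p : V)}
  complete : IsAdicComplete (maximalIdeal V) V

section aux
open Polynomial

/-- roots of the reduction of a monic polynomial lift to a valuation ring of an algebraically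
closed field -/
theorem cohenEx_root {K : Type*} [Field K] [IsAlgClosed K] (A : ValuationSubring K) {κ : Type*}
    [Field κ] (π : A →+* κ) (a : κ) (n : ℕ) : ∀ f : A[X], f.natDegree = n → f.Monic →
      (f.map π).IsRoot a → ∃ x : A, f.IsRoot x ∧ π x = a := by
  induction n with
  | zero =>
    intro f h1 h2 h3
    rw [eq_one_of_monic_natDegree_zero h2 h1, Polynomial.map_one] at h3
    exact absurd h3 (by simp)
  | succ n ih =>
    intro f h1 h2 h3
    obtain ⟨r, hr⟩ := IsAlgClosed.exists_root (f.map (algebraMap A K)) (by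
      rw [h2.degree_map, degree_eq_natDegree h2.ne_zero, h1]
      exact_mod_cast n.succ_ne_zero)
    have h4 : IsIntegral A r := ⟨f, h2, by rwa [← eval_map]⟩
    obtain ⟨x, rfl⟩ := IsIntegrallyClosed.isIntegral_iff.1 h4
    have h5 : f.IsRoot x := hr.of_map (IsFractionRing.injective A K)
    have h6 := mul_divByMonic_eq_iff_isRoot.2 h5
    by_cases h7 : π x = a
    · exact ⟨x, h5, h7⟩
    · have h8 : (f /ₘ (X - C x)).Monic := (monic_X_sub_C x).of_mul_monic_left (h6.symm ▸ h2)
      obtain ⟨y, hy, hy'⟩ := ih (f /ₘ (X - C x))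
        (by rw [natDegree_divByMonic _ (monic_X_sub_C x), h1, natDegree_X_sub_C]; rfl) h8 (by
          rw [← h6, Polynomial.map_mul, IsRoot, eval_mul] at h3
          refine (mul_eq_zero.1 h3).resolve_left ?_
          simpa [sub_eq_zero] using Ne.symm h7)
      refine ⟨y, ?_, hy'⟩
      rw [← h6, IsRoot, eval_mul, hy.eq_zero, mul_zero]

variable {A κ : Type*} [CommRing A] [Field κ] (π : A →+* κ) (k : Subfield κ) (p : ℕ)

/-- subrings with residues in `k` that meet the kernel of `π` in the multiples of `p` -/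
def cohenExGood (B : Subring A) : Prop :=
  (∀ b ∈ B, π b ∈ k) ∧ ∀ b ∈ B, π b = 0 → ∃ c ∈ B, b = p * c

theorem cohenEx_max [CharP κ p] : ∃ B, Maximal (cohenExGood π k p) B := by
  have h0 : cohenExGood π k p ⊥ := by
    refine ⟨fun b hb => ?_, fun b hb h => ?_⟩
    · obtain ⟨n, rfl⟩ := Subring.mem_bot.1 hb
      rw [map_intCast]
      exact intCast_mem k n
    · obtain ⟨n, rfl⟩ := Subring.mem_bot.1 hb
      rw [map_intCast, CharP.intCast_eq_zero_iff κ p] at h
      obtain ⟨m, rfl⟩ := h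
      exact ⟨m, intCast_mem _ m, by push_cast; rfl⟩
  obtain ⟨B, -, hB⟩ := zorn_le_nonempty₀ {B | cohenExGood π k p B} (fun c hc hch y hy => by
    have hm := fun x => Subring.mem_sSup_of_directedOn ⟨y, hy⟩ hch.directedOn (x := x)
    refine ⟨sSup c, ⟨fun b hb => ?_, fun b hb h => ?_⟩, fun z hz => le_sSup hz⟩
    · obtain ⟨B, h1, h2⟩ := (hm b).1 hb
      exact (hc h1).1 b h2
    · obtain ⟨B, h1, h2⟩ := (hm b).1 hb
      obtain ⟨d, h3, h4⟩ := (hc h1).2 b h2 h
      exact ⟨d, (hm d).2 ⟨B, h1, h3⟩, h4⟩) ⊥ h0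
  exact ⟨B, hB⟩

variable {π k p}

theorem cohenEx_inv {B : Subring A} (hB : Maximal (cohenExGood π k p) B) {b u : A} (hb : b ∈ B)
    (hu : u * b = 1) : u ∈ B := by
  have hb0 : π b ≠ 0 := right_ne_zero_of_mul_eq_one (a := π u) (by rw [← map_mul, hu, map_one])
  let B' : Subring A :=
    { carrier := {x | ∃ n : ℕ, x * b ^ n ∈ B}
      mul_mem' := by
        rintro x y ⟨n, hn⟩ ⟨m, hm⟩
        exact ⟨n + m, by rw [pow_add, mul_mul_mul_comm]; exact B.mul_mem hn hm⟩
      one_mem' := ⟨0, by simp⟩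
      add_mem' := by
        rintro x y ⟨n, hn⟩ ⟨m, hm⟩
        refine ⟨n + m, ?_⟩
        have e : (x + y) * b ^ (n + m) = x * b ^ n * b ^ m + y * b ^ m * b ^ n := by ring
        rw [e]
        exact B.add_mem (B.mul_mem hn (B.pow_mem hb m)) (B.mul_mem hm (B.pow_mem hb n))
      zero_mem' := ⟨0, by simp⟩
      neg_mem' := by
        rintro x ⟨n, hn⟩
        exact ⟨n, by rw [neg_mul]; exact B.neg_mem hn⟩ }
  have h1 : cohenExGood π k p B' := by
    refine ⟨?_, ?_⟩
    · rintro x ⟨n, hn⟩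
      have h2 := k.div_mem (hB.1.1 _ hn) (k.pow_mem (hB.1.1 b hb) n)
      rwa [map_mul, map_pow, mul_div_cancel_right₀ _ (pow_ne_zero n hb0)] at h2
    · rintro x ⟨n, hn⟩ hx
      obtain ⟨c, hc, e⟩ := hB.1.2 _ hn (by rw [map_mul, hx, zero_mul])
      refine ⟨c * u ^ n, ⟨n, ?_⟩, ?_⟩
      · rwa [mul_assoc, ← mul_pow, hu, one_pow, mul_one]
      · rw [← mul_assoc, ← e, mul_assoc, ← mul_pow, mul_comm b, hu, one_pow, mul_one]
  exact hB.2 h1 (fun x hx => ⟨0, by simpa using hx⟩) ⟨1, by rw [pow_one, hu]; exact B.one_mem⟩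

theorem cohenEx_onto (hπ : Function.Surjective π) (hunit : ∀ x, π x ≠ 0 → IsUnit x)
    (hroot : ∀ (a : κ) (f : A[X]), f.Monic → (f.map π).IsRoot a → ∃ x : A, f.IsRoot x ∧ π x = a)
    {B : Subring A} (hB : Maximal (cohenExGood π k p) B) {a : κ} (ha : a ∈ k) :
    ∃ b ∈ B, π b = a := by
  let F : Subfield κ :=
    { B.map π with
      inv_mem' := by
        rintro _ ⟨b, hb, rfl⟩
        by_cases h : π b = 0
        · exact ⟨0, B.zero_mem, by rw [h, map_zero, inv_zero]⟩
        · obtain ⟨u, hu⟩ := (hunit b h).exists_left_inv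
          exact ⟨u, cohenEx_inv hB hb hu,
            eq_inv_of_mul_eq_one_left (by rw [← map_mul, hu, map_one])⟩ }
  let σ : B →+* F := (π.comp B.subtype).codRestrict F fun b => ⟨b, b.2, rfl⟩
  have hσ : Function.Surjective σ := by
    rintro ⟨_, b, hb, rfl⟩
    exact ⟨⟨b, hb⟩, rfl⟩
  have hev : ∀ (x : A) (f : B[X]), π (f.eval₂ B.subtype x) = aeval (π x) (f.map σ) := by
    intro x f
    rw [hom_eval₂, aeval_def, eval₂_map]
    rfl
  have key : ∃ x : A, π x = a ∧ ∀ f : B[X], aeval a (f.map σ) = 0 →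
      ∃ r : B[X], r.eval₂ B.subtype x = f.eval₂ B.subtype x ∧ r.map σ = 0 := by
    by_cases hi : IsIntegral F a
    · obtain ⟨M, h1, -, h2⟩ := lifts_and_natDegree_eq_and_monic
        (mem_lifts_of_surjective hσ (minpoly F a)) (minpoly.monic hi)
      obtain ⟨x, h3, h4⟩ := hroot a (M.map B.subtype) (h2.map _) (by
        have h5 := minpoly.aeval F a
        rw [← h1, aeval_def, eval₂_map] at h5
        rw [Polynomial.map_map, IsRoot, eval_map]
        exact h5)
      rw [IsRoot, eval_map] at h3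
      refine ⟨x, h4, fun f hf => ⟨f %ₘ M, eval₂_modByMonic_eq_self_of_root h3, ?_⟩⟩
      rw [map_modByMonic σ h2, h1, modByMonic_eq_zero_iff_dvd (minpoly.monic hi)]
      exact minpoly.dvd F a hf
    · obtain ⟨x, hx⟩ := hπ a
      refine ⟨x, hx, fun f hf => ⟨f, rfl, ?_⟩⟩
      by_contra h
      exact hi (IsAlgebraic.isIntegral ⟨_, h, hf⟩)
  obtain ⟨x, rfl, hx⟩ := key
  have h1 : cohenExGood π k p (eval₂RingHom B.subtype x).range := by
    refine ⟨?_, ?_⟩
    · rintro _ ⟨f, rfl⟩
      rw [coe_eval₂RingHom, eval₂_eq_sum_range, map_sum]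
      refine sum_mem fun i _ => ?_
      rw [map_mul, map_pow]
      exact mul_mem (hB.1.1 _ (f.coeff i).2) (pow_mem ha i)
    · rintro _ ⟨f, rfl⟩ h
      rw [coe_eval₂RingHom, hev] at h
      obtain ⟨r, h2, h3⟩ := hx f h
      obtain ⟨g, rfl⟩ : C (p : B) ∣ r := by
        refine (C_dvd_iff_dvd_coeff _ _).2 fun i => ?_
        have h4 : σ (r.coeff i) = 0 := by rw [← coeff_map, h3, coeff_zero]
        obtain ⟨c, hc, e⟩ := hB.1.2 _ (r.coeff i).2 (congrArg Subtype.val h4)
        exact ⟨⟨c, hc⟩, Subtype.ext e⟩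
      refine ⟨_, ⟨g, rfl⟩, ?_⟩
      rw [coe_eval₂RingHom, ← h2, eval₂_mul, eval₂_C, map_natCast]
  exact ⟨x, hB.2 h1 (fun b hb => ⟨C ⟨b, hb⟩, eval₂_C _ _⟩) ⟨X, eval₂_X _ _⟩, rfl⟩

end aux

/-- a torsion free ring whose reduction is the given field -/
theorem cohenEx_lift (p : ℕ) [Fact p.Prime] (k : Type u) [Field k] [CharP k p] :
    ∃ (B : Type u) (_ : CommRing B) (ρ : B →+* k), Function.Surjective ρ ∧
      RingHom.ker ρ = Ideal.span {(p : B)} ∧ ∀ x : B, p * x = 0 → x = 0 := by
  let P := MvPolynomial k ℤ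
  let K := AlgebraicClosure (FractionRing P)
  let j : P →+* K := (algebraMap (FractionRing P) K).comp (algebraMap P (FractionRing P))
  have hj : Function.Injective j :=
    (algebraMap (FractionRing P) K).injective.comp (IsFractionRing.injective P _)
  let e : P ≃+* j.range := RingEquiv.ofBijective j.rangeRestrict
    ⟨fun x y h => hj (congrArg Subtype.val h), j.rangeRestrict_surjective⟩
  let ev : j.range →+* k := (MvPolynomial.eval₂Hom (Int.castRingHom k) id).comp e.symm.toRingHom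
  have hev : Function.Surjective ev := fun a => ⟨e (MvPolynomial.X a), by simp [ev]⟩
  obtain ⟨A, h1, h2⟩ := Ideal.image_subset_nonunits_valuationSubring (RingHom.ker ev)
    (RingHom.ker_ne_top ev)
  let φ : j.range →+* ResidueField A := (residue A).comp (Subring.inclusion h1)
  let ι : k →+* ResidueField A := ev.liftOfSurjective hev ⟨φ, fun x hx =>
    (residue_eq_zero_iff _).2 (A.coe_mem_nonunits_iff.1 (h2 ⟨x, hx, rfl⟩))⟩
  have := charP_of_injective_ringHom ι.injective p
  obtain ⟨B, hB⟩ := cohenEx_max (residue A) ι.fieldRange p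
  let ρ : B →+* k := (RingEquiv.ofBijective ι.rangeRestrictField
    ι.rangeRestrictField_bijective).symm.toRingHom.comp
      (((residue A).comp B.subtype).codRestrict ι.fieldRange fun b => hB.1.1 b b.2)
  have hρ : ∀ b : B, ι (ρ b) = residue A b := fun b => congrArg Subtype.val
    ((RingEquiv.ofBijective ι.rangeRestrictField
      ι.rangeRestrictField_bijective).apply_symm_apply _)
  refine ⟨B, inferInstance, ρ, fun a => ?_, le_antisymm (fun b hb => ?_) ?_, fun x hx => ?_⟩
  · obtain ⟨b, hb, e⟩ := cohenEx_onto residue_surjective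
      (fun x hx => (residue_ne_zero_iff_isUnit x).1 hx)
      (fun a f => cohenEx_root A (residue A) a _ f rfl) hB (a := ι a) ⟨a, rfl⟩
    exact ⟨⟨b, hb⟩, ι.injective ((hρ _).trans e)⟩
  · obtain ⟨c, hc, e⟩ := hB.1.2 b b.2 (by rw [← hρ, RingHom.mem_ker.1 hb, map_zero])
    exact Ideal.mem_span_singleton.2 ⟨⟨c, hc⟩, Subtype.ext e⟩
  · rw [Ideal.span_le, Set.singleton_subset_iff, SetLike.mem_coe, RingHom.mem_ker, map_natCast,
      CharP.cast_eq_zero]
  · refine (mul_eq_zero.1 hx).resolve_left fun h => ?_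
    have h3 : j p = 0 := by
      have h4 := congrArg (A.subtype.comp B.subtype) h
      rwa [map_natCast, map_zero, ← map_natCast j] at h4
    exact (Nat.cast_ne_zero.2 (Fact.out : p.Prime).ne_zero) (hj (h3.trans (map_zero j).symm))

theorem cohenEx_torsion {B : Type u} [CommRing B] {p : ℕ} (h : ∀ x : B, p * x = 0 → x = 0)
    (x : AdicCompletion (Ideal.span {(p : B)}) B) (hx : p * x = 0) : x = 0 := by
  obtain ⟨a, rfl⟩ := AdicCompletion.mk_surjective _ _ x
  refine AdicCompletion.ext_evalₐ fun n => ?_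
  have h1 := congrArg (AdicCompletion.evalₐ _ (n + 1)) hx
  rw [map_mul, map_natCast, map_zero, AdicCompletion.evalₐ_mk, ← map_natCast (Ideal.Quotient.mk _),
    ← map_mul, Ideal.Quotient.eq_zero_iff_mem, Ideal.span_singleton_pow,
    Ideal.mem_span_singleton] at h1
  obtain ⟨c, hc⟩ := h1
  have h2 : a.val (n + 1) = p ^ n * c :=
    sub_eq_zero.1 (h _ (by rw [mul_sub, hc, pow_succ', mul_assoc, sub_self]))
  rw [map_zero, AdicCompletion.evalₐ_mk, ← AdicCompletion.Ideal.mk_eq_mk _ n.le_succ a,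
    Ideal.Quotient.eq_zero_iff_mem, Ideal.span_singleton_pow, Ideal.mem_span_singleton]
  exact ⟨c, h2⟩

theorem cohenEx_dvr {V : Type u} [CommRing V] {p : ℕ} [hm : (Ideal.span {(p : V)}).IsMaximal]
    [IsAdicComplete (Ideal.span {(p : V)}) V] (h : ∀ x : V, p * x = 0 → x = 0) :
    ∃ (_ : IsDomain V) (_ : IsDiscreteValuationRing V), IsCohen p V := by
  classical
  have := isLocalRing_of_isAdicComplete_maximal (Ideal.span {(p : V)})
  have e : maximalIdeal V = Ideal.span {(p : V)} := (eq_maximalIdeal hm).symm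
  have h1 : ∀ x : V, x ≠ 0 → ∃ n : ℕ, Associated ((p : V) ^ n) x := by
    intro x hx
    have h2 : ∃ n, ¬ (p : V) ^ (n + 1) ∣ x := by
      by_contra h3
      push Not at h3
      refine hx (IsHausdorff.haus' (I := Ideal.span {(p : V)}) x fun n => ?_)
      rw [SModEq.zero, smul_eq_mul, Ideal.mul_top, Ideal.span_singleton_pow,
        Ideal.mem_span_singleton]
      exact (pow_dvd_pow _ n.le_succ).trans (h3 n)
    have h3 : (p : V) ^ Nat.find h2 ∣ x := by
      rcases hn : Nat.find h2 with _ | n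
      · exact (pow_zero (p : V)).symm ▸ one_dvd x
      · exact not_not.1 (Nat.find_min h2 (hn ▸ n.lt_succ_self))
    obtain ⟨y, hy⟩ := h3
    have h4 : IsUnit y := by
      by_contra h5
      obtain ⟨z, hz⟩ := Ideal.mem_span_singleton.1 (e ▸ (mem_maximalIdeal y).2 h5)
      exact Nat.find_spec h2 ⟨z, by rw [pow_succ, mul_assoc, ← hz, ← hy]⟩
    exact ⟨Nat.find h2, h4.unit, hy.symm⟩
  have h2 : ∀ n : ℕ, (p : V) ^ n ≠ 0 := by
    intro n
    induction n with
    | zero => simp
    | succ n ih => exact fun h3 => ih (h _ (by rw [← pow_succ', h3]))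
  have : NoZeroDivisors V := ⟨fun {x y} hxy => by
    by_contra h3
    push Not at h3
    obtain ⟨n, hn⟩ := h1 x h3.1
    obtain ⟨m, hm⟩ := h1 y h3.2
    exact h2 (n + m) ((hn.mul_mul hm).eq_zero_iff.2 hxy ▸ pow_add _ n m)⟩
  have := NoZeroDivisors.to_isDomain V
  have h3 : (p : V) ≠ 0 := by simpa using h2 1
  have h4 := IsDiscreteValuationRing.ofHasUnitMulPowIrreducibleFactorization
    ⟨(p : V), ((Ideal.span_singleton_prime h3).1 hm.isPrime).irreducible, fun {x} => h1 x⟩
  exact ⟨inferInstance, h4, e, by rw [e]; infer_instance⟩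

/-- Every field of characteristic `p` is the residue field of a Cohen ring. -/
theorem exists_isCohen (p : ℕ) [Fact p.Prime] (k : Type u) [Field k] [CharP k p] :
    ∃ (V : Type u) (_ : CommRing V) (_ : IsDomain V) (_ : IsDiscreteValuationRing V),
      IsCohen p V ∧ ∃ ρ : V →+* k, Function.Surjective ρ := by
  obtain ⟨B, _, ρ, h1, h2, h3⟩ := cohenEx_lift p k
  have hfg : (Ideal.span {(p : B)}).FG := Submodule.fg_span_singleton _
  have hmax : (Ideal.span {(p : B)}).IsMaximal := h2 ▸ RingHom.ker_isMaximal_of_surjective ρ h1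
  have e : (Ideal.span {(p : B)}).map (algebraMap B (AdicCompletion (Ideal.span {(p : B)}) B)) =
      Ideal.span {(p : AdicCompletion (Ideal.span {(p : B)}) B)} := by
    rw [Ideal.map_span, Set.image_singleton, map_natCast]
  have h4 := AdicCompletion.isMaximal_map_of_le _ _ le_rfl hfg
  have h5 := AdicCompletion.isAdicComplete_self _ hfg
  have h6 : ∀ a ∈ Ideal.span {(p : B)}, ρ a = 0 := fun a ha => RingHom.mem_ker.1 (h2.symm ▸ ha)
  rw [e] at h4 h5
  obtain ⟨_, _, h7⟩ := cohenEx_dvr (cohenEx_torsion h3)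
  exact ⟨_, _, _, _, h7, (Ideal.Quotient.lift _ ρ h6).comp (AdicCompletion.evalOneₐ _).toRingHom,
    (Ideal.Quotient.lift_surjective_of_surjective _ h6 h1).comp
      (AdicCompletion.evalOneₐ_surjective _)⟩

end Vale.Agent.P202
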