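import Vale.Agent.P202.LocCrit
import Vale.Agent.P202.CM
import Vale.Agent.P202.CohenExist

/-! Module H1: Cohen rings. -/

namespace Vale.Agent.P202

open IsLocalRing RingTheory.Sequence

universe u v w

namespace CoR

theorem flat_quotMap' {A : Type u} {B : Type v} [CommRing A] [CommRing B] [Algebra A B]
    [Module.Flat A B] (I : Ideal A) : Module.Flat (A ⧸ I) (B ⧸ I.map (algebraMap A B)) :=
  Module.Flat.of_linearEquiv (Algebra.TensorProduct.quotIdealMapEquivQuotTensor B I).toLinearEquiv

theorem flat_quotMap {A : Type u} {B : Type v} [CommRing A] [CommRing B] (f : A →+* B)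
    (hf : f.Flat) (I : Ideal A) : (Ideal.quotientMap (I.map f) f Ideal.le_comap_map).Flat := by
  let : Algebra A B := f.toAlgebra
  have : Module.Flat A B := hf
  exact (RingHom.flat_algebraMap_iff (R := A ⧸ I) (S := B ⧸ I.map (algebraMap A B))).2
    (flat_quotMap' I)

theorem smooth_step {A V R' S' : Type*} [CommRing A] [CommRing V] [CommRing R'] [CommRing S']
    (f : A →+* V) (hf : f.Flat) (J : Ideal A) (qA : A →+* R') (qV : V →+* S')
    (hA : Function.Surjective qA) (hV : Function.Surjective qV) (g : R' →+* S')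
    (comm : qV.comp f = g.comp qA) (hker : RingHom.ker qV = (RingHom.ker qA).map f)
    (h1 : J ≤ RingHom.ker qA) (h2 : RingHom.ker qA ^ 2 ≤ J) (hg : g.FormallySmooth) :
    (Ideal.quotientMap (J.map f) f Ideal.le_comap_map).FormallySmooth := by
  have h3 : J.map f ≤ RingHom.ker qV := hker ▸ Ideal.map_mono h1
  refine RingHom.FormallySmooth.of_flat_of_ker_eq_map_of_square_zero _ (flat_quotMap f hf J)
    (Ideal.Quotient.lift J qA fun a ha => h1 ha) (Ideal.Quotient.lift _ qV fun a ha => h3 ha) g
    (Ideal.Quotient.lift_surjective_of_surjective _ _ hA)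
    (Ideal.Quotient.lift_surjective_of_surjective _ _ hV) ?_ ?_ ?_ hg
  · refine Ideal.Quotient.ringHom_ext (RingHom.ext fun a => ?_)
    exact RingHom.congr_fun comm a
  · rw [Ideal.ker_quotient_lift, ← Ideal.map_pow, ← le_bot_iff, Ideal.map_le_iff_le_comap]
    exact h2.trans (by rw [← RingHom.ker_eq_comap_bot, Ideal.mk_ker])
  · rw [Ideal.ker_quotient_lift, Ideal.ker_quotient_lift, hker, Ideal.map_map, Ideal.map_map,
      Ideal.quotientMap_comp_mk]

theorem charP_of_eq_zero (p : ℕ) [Fact p.Prime] (k : Type*) [CommRing k] [Nontrivial k]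
    (h : (p : k) = 0) : CharP k p := (CharP.charP_iff_prime_eq_zero Fact.out).2 h

theorem charP_residue (p : ℕ) [Fact p.Prime] (A : Type*) [CommRing A] [IsLocalRing A]
    (hp : (p : A) ∈ maximalIdeal A) : CharP (ResidueField A) p :=
  charP_of_eq_zero p _ (by rw [← map_natCast (residue A), residue_eq_zero_iff]; exact hp)

end CoR

section
variable {p : ℕ} [Fact p.Prime] {V : Type u} [CommRing V] [IsDomain V] [IsDiscreteValuationRing V]

theorem IsCohen.ne_zero (hV : IsCohen p V) : (p : V) ≠ 0 := by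
  intro h
  apply IsDiscreteValuationRing.not_a_field V
  rw [hV.max, h, Ideal.span_singleton_eq_bot]

theorem IsCohen.mem_max (hV : IsCohen p V) : (p : V) ∈ maximalIdeal V :=
  hV.max ▸ Ideal.mem_span_singleton_self _

theorem IsCohen.charZero (hV : IsCohen p V) : CharZero V := by
  obtain ⟨q, hq⟩ := CharP.exists V
  rcases CharP.char_is_prime_or_zero V q with h | rfl
  · exfalso
    have h1 := CoR.charP_residue p V hV.mem_max
    have h2 : (q : ResidueField V) = 0 := by
      rw [← map_natCast (residue V), CharP.cast_eq_zero, map_zero]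
    have h3 : p = q := (Nat.prime_dvd_prime_iff_eq Fact.out h).1
      ((CharP.cast_eq_zero_iff (ResidueField V) p q).1 h2)
    subst h3
    exact hV.ne_zero (CharP.cast_eq_zero V p)
  · exact CharP.charP_to_charZero V

theorem IsCohen.smooth (hV : IsCohen p V) (N : ℕ) :
    (Ideal.quotientMap ((Ideal.span {(p : ℤ)} ^ (N + 1)).map (Int.castRingHom V))
      (Int.castRingHom V) Ideal.le_comap_map).FormallySmooth := by
  have hc := hV.charZero
  have hf : (Int.castRingHom V).Flat := by
    have : Module.Flat ℤ V := inferInstance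
    exact (RingHom.flat_algebraMap_iff (R := ℤ) (S := V)).2 this
  induction N with
  | zero =>
    have h1 := CoR.charP_residue p V hV.mem_max
    let _ : Algebra (ZMod p) (ResidueField V) := ZMod.algebra _ p
    refine CoR.smooth_step _ hf _ (Int.castRingHom (ZMod p)) (residue V) (ZMod.ringHom_surjective _)
      residue_surjective (algebraMap (ZMod p) (ResidueField V)) (Subsingleton.elim _ _) ?_ ?_ ?_
      (RingHom.formallySmooth_algebraMap.2 (formallySmooth_zmod p _))
    · rw [ker_residue, ZMod.ker_intCastRingHom, Ideal.map_span, Set.image_singleton, map_natCast,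
        hV.max]
    · rw [ZMod.ker_intCastRingHom]
      exact Ideal.pow_le_self (by omega)
    · rw [ZMod.ker_intCastRingHom]
      exact Ideal.pow_le_pow_right (by omega)
  | succ N ih =>
    refine CoR.smooth_step _ hf _ (Ideal.Quotient.mk _) (Ideal.Quotient.mk _)
      Ideal.Quotient.mk_surjective Ideal.Quotient.mk_surjective _
      (Ideal.quotientMap_comp_mk _).symm ?_ ?_ ?_ ih
    · rw [Ideal.mk_ker, Ideal.mk_ker]
    · rw [Ideal.mk_ker]
      exact Ideal.pow_le_pow_right (by omega)
    · rw [Ideal.mk_ker, ← pow_mul]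
      exact Ideal.pow_le_pow_right (by omega)

theorem IsCohen.lift_nilp (hV : IsCohen p V) {B : Type v} {S : Type w} [CommRing B] [CommRing S]
    {N : ℕ} (hp : (p : B) ^ (N + 1) = 0) (π : B →+* S) (hπ : Function.Surjective π)
    (hn : IsNilpotent (RingHom.ker π)) (g : V →+* S) : ∃ f : V →+* B, π.comp f = g := by
  have hs := hV.smooth N
  obtain ⟨J, hJ⟩ : ∃ J : Ideal ℤ, J = Ideal.span {(p : ℤ)} ^ (N + 1) := ⟨_, rfl⟩
  rw [← hJ] at hs
  have hJB : ∀ a ∈ J, Int.castRingHom B a = 0 := by
    intro a ha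
    rw [hJ, Ideal.span_singleton_pow, Ideal.mem_span_singleton'] at ha
    obtain ⟨b, rfl⟩ := ha
    rw [map_mul, map_pow, map_natCast, hp, mul_zero]
  have hJS : J.map (Int.castRingHom V) ≤ RingHom.ker g := by
    rw [Ideal.map_le_iff_le_comap]
    intro a ha
    have h1 : g (Int.castRingHom V a) = π (Int.castRingHom B a) := by simp
    rw [Ideal.mem_comap, RingHom.mem_ker, h1, hJB a ha, map_zero]
  let _ : Algebra (ℤ ⧸ J) (V ⧸ J.map (Int.castRingHom V)) :=
    (Ideal.quotientMap (J.map (Int.castRingHom V)) (Int.castRingHom V) Ideal.le_comap_map).toAlgebra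
  have hs' : Algebra.FormallySmooth (ℤ ⧸ J) (V ⧸ J.map (Int.castRingHom V)) := hs
  let _ : Algebra (ℤ ⧸ J) B := (Ideal.Quotient.lift J (Int.castRingHom B) hJB).toAlgebra
  let _ : Algebra (ℤ ⧸ J) S := (π.comp (Ideal.Quotient.lift J (Int.castRingHom B) hJB)).toAlgebra
  have hsub : ∀ a b : (ℤ ⧸ J) →+* S, a = b := fun a b =>
    Ideal.Quotient.ringHom_ext (Subsingleton.elim _ _)
  let π' : B →ₐ[ℤ ⧸ J] S := ⟨π, fun r => rfl⟩
  let g' : (V ⧸ J.map (Int.castRingHom V)) →ₐ[ℤ ⧸ J] S :=
    ⟨Ideal.Quotient.lift _ g fun a ha => hJS ha, fun r => RingHom.congr_fun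
      (hsub ((Ideal.Quotient.lift _ g fun a ha => hJS ha).comp (algebraMap _ _)) (algebraMap _ _)) r⟩
  refine ⟨(Algebra.FormallySmooth.liftOfSurjective g' π' hπ hn).toRingHom.comp
    (Ideal.Quotient.mk _), RingHom.ext fun x => ?_⟩
  exact Algebra.FormallySmooth.liftOfSurjective_apply g' π' hπ hn (Ideal.Quotient.mk _ x)

theorem IsCohen.lift_range (hV : IsCohen p V) {B : Type v} {S : Type w} [CommRing B] [CommRing S]
    {N : ℕ} (hp : (p : B) ^ (N + 1) = 0) (π : B →+* S)
    (hn : IsNilpotent (RingHom.ker π)) (g : V →+* S) (hg : ∀ x, g x ∈ π.range) :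
    ∃ f : V →+* B, π.comp f = g := by
  obtain ⟨f, hf⟩ := hV.lift_nilp hp π.rangeRestrict π.rangeRestrict_surjective
    (by rwa [RingHom.ker_rangeRestrict]) (g.codRestrict π.range hg)
  exact ⟨f, RingHom.ext fun x => congrArg Subtype.val (RingHom.congr_fun hf x)⟩

theorem IsCohen.lift_succ (hV : IsCohen p V) {B : Type v} {S : Type w} [CommRing B]
    [IsLocalRing B] [CommRing S] [IsLocalRing S] (hp : (p : B) ∈ maximalIdeal B) (π : B →+* S)
    (hπ : Function.Surjective π) (g : V →+* S) (n : ℕ) (f : V →+* B ⧸ maximalIdeal B ^ n)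
    (hf : (Ideal.quotientMap ((maximalIdeal B ^ n).map π) π Ideal.le_comap_map).comp f =
      (Ideal.Quotient.mk _).comp g) :
    ∃ f' : V →+* B ⧸ maximalIdeal B ^ (n + 1),
      (Ideal.quotientMap ((maximalIdeal B ^ (n + 1)).map π) π Ideal.le_comap_map).comp f' =
        (Ideal.Quotient.mk _).comp g ∧
      (Ideal.Quotient.factorPow (maximalIdeal B) n.le_succ).comp f' = f := by
  have hloc := IsLocalHom.of_surjective π hπ
  refine (hV.lift_range (B := B ⧸ maximalIdeal B ^ (n + 1)) (N := n)
    (by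
      rw [← map_natCast (Ideal.Quotient.mk (maximalIdeal B ^ (n + 1))), ← map_pow,
        Ideal.Quotient.eq_zero_iff_mem]
      exact Ideal.pow_mem_pow hp _)
    ((Ideal.quotientMap ((maximalIdeal B ^ (n + 1)).map π) π Ideal.le_comap_map).prod
      (Ideal.Quotient.factorPow (maximalIdeal B) n.le_succ)) ?_
    (((Ideal.Quotient.mk _).comp g).prod f) ?_).imp fun f' hf' =>
      ⟨RingHom.ext fun x => congrArg Prod.fst (RingHom.congr_fun hf' x),
        RingHom.ext fun x => congrArg Prod.snd (RingHom.congr_fun hf' x)⟩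
  · refine ⟨n + 1, ?_⟩
    rw [Ideal.zero_eq_bot, ← le_bot_iff]
    refine (Ideal.pow_right_mono (J := (maximalIdeal B).map (Ideal.Quotient.mk _)) ?_ _).trans ?_
    · intro x hx
      obtain ⟨x, rfl⟩ := Ideal.Quotient.mk_surjective x
      refine Ideal.mem_map_of_mem _ ?_
      have h1 : Ideal.Quotient.mk ((maximalIdeal B ^ (n + 1)).map π) (π x) = 0 :=
        congrArg Prod.fst (RingHom.mem_ker.1 hx)
      rw [Ideal.Quotient.eq_zero_iff_mem] at h1
      have h2 : π x ∈ maximalIdeal S :=
        map_max_le π (Ideal.map_mono (Ideal.pow_le_self n.succ_ne_zero) h1)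
      exact fun hu => h2 (hu.map π)
    · rw [← Ideal.map_pow, Ideal.map_quotient_self]
  · intro x
    obtain ⟨b, hb⟩ := Ideal.Quotient.mk_surjective (f x)
    have h1 : Ideal.Quotient.mk ((maximalIdeal B ^ n).map π) (g x) =
        Ideal.Quotient.mk _ (π b) := by
      have := RingHom.congr_fun hf x
      rw [RingHom.comp_apply, ← hb] at this
      exact this.symm
    obtain ⟨c, hc, hc'⟩ := (Ideal.mem_map_iff_of_surjective π hπ).1 (Ideal.Quotient.eq.1 h1)
    refine ⟨Ideal.Quotient.mk _ (b + c), Prod.ext ?_ ?_⟩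
    · change Ideal.Quotient.mk _ (π (b + c)) = Ideal.Quotient.mk _ (g x)
      rw [map_add, hc', add_sub_cancel]
    · change Ideal.Quotient.mk _ (b + c) = f x
      rw [map_add, Ideal.Quotient.eq_zero_iff_mem.2 hc, add_zero, hb]

/-- (LIFT) maps from a Cohen ring lift along surjections of complete local rings. -/
theorem IsCohen.exists_lift (hV : IsCohen p V) {B : Type v} {S : Type w} [CommRing B]
    [IsLocalRing B] [IsAdicComplete (maximalIdeal B) B] [CommRing S] [IsLocalRing S]
    [IsNoetherianRing S] (hp : (p : B) ∈ maximalIdeal B) (π : B →+* S)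
    (hπ : Function.Surjective π) (g : V →+* S) : ∃ f : V →+* B, π.comp f = g := by
  have hloc := IsLocalHom.of_surjective π hπ
  choose nx hnx1 hnx2 using hV.lift_succ hp π hπ g
  have h0 : Subsingleton (B ⧸ maximalIdeal B ^ 0) := by
    rw [pow_zero, Ideal.one_eq_top]
    infer_instance
  have h0' : Subsingleton (S ⧸ (maximalIdeal B ^ 0).map π) := by
    rw [pow_zero, Ideal.one_eq_top, Ideal.map_top]
    infer_instance
  let f0 : V →+* B ⧸ maximalIdeal B ^ 0 :=
    ⟨⟨⟨fun _ => 0, Subsingleton.elim _ _⟩, fun _ _ => Subsingleton.elim _ _⟩,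
      rfl, fun _ _ => Subsingleton.elim _ _⟩
  let F : (n : ℕ) → {f : V →+* B ⧸ maximalIdeal B ^ n //
      (Ideal.quotientMap ((maximalIdeal B ^ n).map π) π Ideal.le_comap_map).comp f =
        (Ideal.Quotient.mk _).comp g} := fun n =>
    Nat.rec ⟨f0, RingHom.ext fun _ => Subsingleton.elim _ _⟩
      (fun n f => ⟨nx n f.1 f.2, hnx1 n f.1 f.2⟩) n
  have hF : ∀ {m : ℕ}, (Ideal.Quotient.factorPow (maximalIdeal B)
      (strictMono_id.monotone m.le_succ)).comp (F (m + 1)).1 = (F m).1 :=
    fun {m} => hnx2 m (F m).1 (F m).2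
  refine ⟨IsAdicComplete.StrictMono.liftRingHom (maximalIdeal B) (a := id) strictMono_id
    (fun n => (F n).1) hF, RingHom.ext fun x => ?_⟩
  rw [RingHom.comp_apply, ← sub_eq_zero, ← Ideal.mem_bot,
    ← Ideal.iInf_pow_eq_bot_of_isLocalRing (maximalIdeal S) (maximalIdeal.isMaximal S).ne_top,
    Ideal.mem_iInf]
  intro n
  have h1 := IsAdicComplete.StrictMono.mk_liftRingHom (maximalIdeal B) (a := id) strictMono_id
    (fun n => (F n).1) hF (n := n) x
  have h2 := RingHom.congr_fun (F n).2 x
  rw [RingHom.comp_apply, ← h1] at h2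
  have h3 := Ideal.Quotient.eq.1 h2
  rw [Ideal.map_pow] at h3
  exact Ideal.pow_right_mono (map_max_le π) n h3

/-- A lift of Frobenius on a power series ring over a Cohen ring. -/
theorem IsCohen.exists_frobLift (hV : IsCohen p V) (σ : Type) [Finite σ] :
    ∃ (φ : MvPowerSeries σ V →+* MvPowerSeries σ V) (φ₀ : V →+* V),
      (∀ g, φ g - g ^ p ∈ Ideal.span {(p : MvPowerSeries σ V)}) ∧
      ∀ g, MvPowerSeries.constantCoeff (φ g) = φ₀ (MvPowerSeries.constantCoeff g) := by
  have hp0 : p ≠ 0 := (Fact.out : p.Prime).ne_zero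
  have hc := hV.complete
  have hk := CoR.charP_residue p V hV.mem_max
  obtain ⟨φ₀, hφ₀⟩ := hV.exists_lift hV.mem_max (residue V) residue_surjective
    ((frobenius (ResidueField V) p).comp (residue V))
  have hA := isAdicComplete_mvPowerSeries (σ := σ) (V := V)
  have hX : ∀ i : σ, (MvPowerSeries.X i : MvPowerSeries σ V) ∈ maximalIdeal _ := fun i => by
    rw [maximalIdeal_mvPowerSeries]
    exact Ideal.mem_sup_right (Ideal.subset_span ⟨i, rfl⟩)
  obtain ⟨φ, hφC, hφX⟩ := exists_evalHom (S := MvPowerSeries σ V) (MvPowerSeries.C.comp φ₀)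
    (fun i => MvPowerSeries.X i ^ p) fun i => Ideal.pow_mem_of_mem _ (hX i) p (by omega)
  have hφC' : ∀ x, φ (MvPowerSeries.C x) = MvPowerSeries.C (φ₀ x) := RingHom.congr_fun hφC
  refine ⟨φ, φ₀, fun g => ?_, fun g => ?_⟩
  · have hpm : Ideal.span {(p : MvPowerSeries σ V)} ≤ maximalIdeal _ := by
      rw [Ideal.span_singleton_le_iff_mem, maximalIdeal_mvPowerSeries,
        ← map_natCast (MvPowerSeries.C (σ := σ) (R := V))]
      exact Ideal.mem_sup_left (Ideal.mem_map_of_mem _ hV.mem_max)
    have hnt : Nontrivial (MvPowerSeries σ V ⧸ Ideal.span {(p : MvPowerSeries σ V)}) :=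
      Ideal.Quotient.nontrivial_iff.2 (ne_top_of_le_ne_top (maximalIdeal.isMaximal _).ne_top hpm)
    have hl := IsLocalRing.of_surjective' (Ideal.Quotient.mk
      (Ideal.span {(p : MvPowerSeries σ V)})) Ideal.Quotient.mk_surjective
    have hch : CharP (MvPowerSeries σ V ⧸ Ideal.span {(p : MvPowerSeries σ V)}) p :=
      CoR.charP_of_eq_zero p _ (by
        rw [← map_natCast (Ideal.Quotient.mk _), Ideal.Quotient.eq_zero_iff_mem]
        exact Ideal.mem_span_singleton_self _)
    have key := evalHom_ext ((Ideal.Quotient.mk (Ideal.span {(p : MvPowerSeries σ V)})).comp φ)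
      ((frobenius _ p).comp (Ideal.Quotient.mk _)) (RingHom.ext fun x => ?_) (fun i => ?_)
      (fun i => ?_)
    · have := RingHom.congr_fun key g
      rw [RingHom.comp_apply, RingHom.comp_apply, frobenius_def, ← map_pow] at this
      exact Ideal.Quotient.eq.1 this
    · simp only [RingHom.comp_apply, hφC', frobenius_def]
      rw [← map_pow, ← map_pow, Ideal.Quotient.eq, ← map_sub]
      have h1 : φ₀ x - x ^ p ∈ maximalIdeal V := by
        rw [← residue_eq_zero_iff, map_sub, sub_eq_zero, map_pow]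
        exact RingHom.congr_fun hφ₀ x
      rw [hV.max, Ideal.mem_span_singleton'] at h1
      obtain ⟨b, hb⟩ := h1
      rw [← hb, map_mul, map_natCast]
      exact Ideal.mul_mem_left _ _ (Ideal.mem_span_singleton_self _)
    · simp only [RingHom.comp_apply, hφX, frobenius_def, map_pow]
    · rw [RingHom.comp_apply, hφX,
        ← map_maximalIdeal_of_surjective (Ideal.Quotient.mk _) Ideal.Quotient.mk_surjective]
      exact Ideal.mem_map_of_mem _ (Ideal.pow_mem_of_mem _ (hX i) p (by omega))
  · have key := evalHom_ext (MvPowerSeries.constantCoeff.comp φ)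
      (φ₀.comp MvPowerSeries.constantCoeff) (RingHom.ext fun x => ?_) (fun i => ?_) (fun i => ?_)
    · exact RingHom.congr_fun key g
    · simp only [RingHom.comp_apply, hφC', MvPowerSeries.constantCoeff_C]
    · simp only [RingHom.comp_apply, hφX, map_pow, MvPowerSeries.constantCoeff_X, zero_pow hp0,
        map_zero]
    · simp only [RingHom.comp_apply, hφX, map_pow, MvPowerSeries.constantCoeff_X, zero_pow hp0,
        Ideal.zero_mem]
end

/-- Coefficient rings. -/
theorem exists_coeffRing (p : ℕ) [Fact p.Prime] (A : Type u) [CommRing A] [IsLocalRing A]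
    [IsAdicComplete (maximalIdeal A) A] (hp : (p : A) ∈ maximalIdeal A) :
    ∃ (V : Type u) (_ : CommRing V) (_ : IsDomain V) (_ : IsDiscreteValuationRing V)
      (σ : V →+* A), IsCohen p V ∧ IsLocalHom σ ∧ ∀ a : A, ∃ v : V, a - σ v ∈ maximalIdeal A := by
  have hk := CoR.charP_residue p A hp
  obtain ⟨V, i1, i2, i3, hV, ρ, hρ⟩ := exists_isCohen p (ResidueField A)
  obtain ⟨σ, hσ⟩ := hV.exists_lift hp (residue A) residue_surjective ρ
  refine ⟨V, i1, i2, i3, σ, hV, isLocalHom_of_map_le ?_, fun a => ?_⟩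
  · rw [hV.max, Ideal.map_span, Set.image_singleton, map_natCast, Ideal.span_singleton_le_iff_mem]
    exact hp
  · obtain ⟨v, hv⟩ := hρ (residue A a)
    refine ⟨v, ?_⟩
    rw [← residue_eq_zero_iff, map_sub, sub_eq_zero, ← hv]
    exact (RingHom.congr_fun hσ v).symm

/-- Cohen presentation over a given coefficient ring. -/
theorem exists_cohen_surjective_gen {V : Type u} {A : Type v} [CommRing V] [CommRing A]
    [IsLocalRing A] [IsNoetherianRing A] [IsAdicComplete (maximalIdeal A) A] (σ : V →+* A)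
    (hσ : ∀ a : A, ∃ c : V, a - σ c ∈ maximalIdeal A) :
    ∃ (r : ℕ) (π : MvPowerSeries (Fin r) V →+* A), Function.Surjective π ∧
      π.comp MvPowerSeries.C = σ ∧ ∀ i, π (MvPowerSeries.X i) ∈ maximalIdeal A := by
  obtain ⟨r, y, hy⟩ := Submodule.fg_iff_exists_fin_generating_family.1
    (maximalIdeal A).fg_of_isNoetherianRing
  have hy' : Ideal.span (Set.range y) = maximalIdeal A := hy
  have hm : ∀ i, y i ∈ maximalIdeal A := fun i => hy' ▸ Ideal.subset_span ⟨i, rfl⟩
  obtain ⟨π, h1, h2⟩ := exists_evalHom σ y hm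
  refine ⟨r, π, evalHom_surjective π (fun i => h2 i ▸ hm i) fun s => ?_, h1, fun i => h2 i ▸ hm i⟩
  obtain ⟨c, hc⟩ := hσ s
  refine ⟨c, ?_⟩
  simp only [h2, hy']
  rw [show π (MvPowerSeries.C c) = σ c from RingHom.congr_fun h1 c]
  exact hc

/-- (GON) an unramified extension with algebraically closed residue field. -/
theorem exists_unram_algClosed (p : ℕ) [Fact p.Prime] (S : Type u) [CommRing S] [IsLocalRing S]
    [IsNoetherianRing S] [IsAdicComplete (maximalIdeal S) S] (hp : (p : S) ∈ maximalIdeal S) :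
    ∃ (S' : Type u) (_ : CommRing S') (_ : IsLocalRing S') (_ : IsNoetherianRing S')
      (j : S →+* S'), IsUnram j ∧ IsAdicComplete (maximalIdeal S') S' ∧
        IsAlgClosed (ResidueField S') := by
  obtain ⟨V, i1, i2, i3, σ, hV, -, hσ⟩ := exists_coeffRing p S hp
  obtain ⟨r, π, hπ, -, -⟩ := exists_cohen_surjective_gen σ hσ
  have hk := CoR.charP_residue p V hV.mem_max
  obtain ⟨W, j1, j2, j3, hW, ρ, hρ⟩ := exists_isCohen p (AlgebraicClosure (ResidueField V))
  have hWc := hW.complete
  obtain ⟨u, -⟩ := hV.exists_lift hW.mem_max ρ hρ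
    ((algebraMap (ResidueField V) (AlgebraicClosure (ResidueField V))).comp (residue V))
  obtain ⟨j0, hj0⟩ : ∃ j0 : MvPowerSeries (Fin r) V →+* MvPowerSeries (Fin r) W,
    j0 = MvPowerSeries.map u := ⟨_, rfl⟩
  have hjX : ∀ i, j0 (MvPowerSeries.X i) = MvPowerSeries.X i := fun i => by
    rw [hj0, MvPowerSeries.map_X]
  have hofl : ∀ (T : Type u) [CommRing T] [IsDomain T] [IsDiscreteValuationRing T], IsCohen p T →
      Ideal.ofList ((List.finRange r).map MvPowerSeries.X ++
        [(p : T)].map (MvPowerSeries.C (σ := Fin r))) = maximalIdeal (MvPowerSeries (Fin r) T) := by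
    intro T _ _ _ hT
    rw [Ideal.ofList_append, maximalIdeal_mvPowerSeries, hT.max, sup_comm, ← Ideal.map_ofList,
      Ideal.ofList_singleton]
    refine congrArg _ (congrArg Ideal.span (Set.ext fun x => ?_))
    simp
  have hmapl : ((List.finRange r).map MvPowerSeries.X ++
      [(p : V)].map (MvPowerSeries.C (σ := Fin r))).map j0 =
      (List.finRange r).map MvPowerSeries.X ++ [(p : W)].map (MvPowerSeries.C (σ := Fin r)) := by
    simp [hjX]
  have hmax : (maximalIdeal _).map j0 = maximalIdeal _ := by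
    rw [← hofl V hV, Ideal.map_ofList, hmapl, hofl W hW]
  have hloc : IsLocalHom j0 := isLocalHom_of_map_le hmax.le
  have hflat : j0.Flat := by
    refine flat_of_isWeaklyRegular j0 _ (hofl V hV) ?_
    rw [hmapl]
    refine isWeaklyRegular_X_append _ (List.nodup_finRange r) ?_
    rw [isWeaklyRegular_singleton_iff]
    exact fun a b hab => mul_left_cancel₀ hW.ne_zero hab
  have hle : (RingHom.ker π).map j0 ≤ maximalIdeal _ :=
    (Ideal.map_mono (le_maximalIdeal (RingHom.ker_ne_top π))).trans hmax.le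
  have hnt : Nontrivial (MvPowerSeries (Fin r) W ⧸ (RingHom.ker π).map j0) :=
    Ideal.Quotient.nontrivial_iff.2 (ne_top_of_le_ne_top (maximalIdeal.isMaximal _).ne_top hle)
  have hl := IsLocalRing.of_surjective' (Ideal.Quotient.mk ((RingHom.ker π).map j0))
    Ideal.Quotient.mk_surjective
  have hA := isAdicComplete_mvPowerSeries (σ := Fin r) (V := W)
  have hmk := map_maximalIdeal_of_surjective (Ideal.Quotient.mk ((RingHom.ker π).map j0))
    Ideal.Quotient.mk_surjective
  refine ⟨MvPowerSeries (Fin r) W ⧸ (RingHom.ker π).map j0, inferInstance, hl, inferInstance,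
    (Ideal.quotientMap _ j0 Ideal.le_comap_map).comp
      (RingHom.quotientKerEquivOfSurjective hπ).symm.toRingHom, ⟨?_, ?_⟩,
    isAdicComplete_of_surjective _ Ideal.Quotient.mk_surjective, ?_⟩
  · exact (RingHom.Flat.of_bijective (RingEquiv.bijective _)).comp (CoR.flat_quotMap j0 hflat _)
  · rw [← map_maximalIdeal_of_surjective π hπ, Ideal.map_map, ← hmk, ← hmax, Ideal.map_map]
    refine congrArg (fun f => Ideal.map f _) (RingHom.ext fun x => ?_)
    have h1 : (RingHom.quotientKerEquivOfSurjective hπ).symm (π x) = Ideal.Quotient.mk _ x := by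
      rw [RingEquiv.symm_apply_eq, RingHom.quotientKerEquivOfSurjective_apply_mk]
    change Ideal.quotientMap _ j0 Ideal.le_comap_map
      ((RingHom.quotientKerEquivOfSurjective hπ).symm (π x)) = _
    rw [h1]
    rfl
  · obtain ⟨τ, hτ⟩ : ∃ τ : W →+* ResidueField (MvPowerSeries (Fin r) W ⧸ (RingHom.ker π).map j0),
        τ = (residue _).comp ((Ideal.Quotient.mk _).comp MvPowerSeries.C) := ⟨_, rfl⟩
    have hτs : Function.Surjective τ := by
      intro z
      obtain ⟨z, rfl⟩ := residue_surjective z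
      obtain ⟨z, rfl⟩ := Ideal.Quotient.mk_surjective z
      refine ⟨MvPowerSeries.constantCoeff z, ?_⟩
      rw [hτ, RingHom.comp_apply, RingHom.comp_apply, eq_comm, ← sub_eq_zero, ← map_sub, ← map_sub,
        residue_eq_zero_iff, ← hmk]
      refine Ideal.mem_map_of_mem _ ?_
      rw [maximalIdeal_mvPowerSeries]
      refine Ideal.mem_sup_right ?_
      rw [← ker_constantCoeff, RingHom.mem_ker, map_sub, MvPowerSeries.constantCoeff_C, sub_self]
    exact IsAlgClosed.of_ringEquiv (AlgebraicClosure (ResidueField V)) _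
      ((RingHom.quotientKerEquivOfSurjective hρ).symm.trans ((Ideal.quotEquivOfEq
        ((ker_eq_maximalIdeal ρ hρ).trans (ker_eq_maximalIdeal τ hτs).symm)).trans
          (RingHom.quotientKerEquivOfSurjective hτs)))

end Vale.Agent.P202
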