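import Mathlib
import Vale.Agent.P202.Cohen

/-! Module M4b: flatness of Frobenius on power series rings, and Kunz's theorem. -/

namespace Vale.Agent.P202

open IsLocalRing

universe u v w

/-- `B` is, as an `A`-module through `f`, a retract of a product of copies of `A`. -/
def IsPiRetract {A : Type u} {B : Type v} [CommRing A] [CommRing B] (f : A →+* B) : Prop :=
  ∃ (ι : Type (max u v)) (i : B →+ (ι → A)) (r : (ι → A) →+ B), (∀ x, r (i x) = x) ∧
    (∀ a x, i (f a * x) = a • i x) ∧ ∀ a y, r (a • y) = f a * r y

theorem IsPiRetract.flat {A : Type u} {B : Type v} [CommRing A] [CommRing B] [IsNoetherianRing A]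
    {f : A →+* B} (h : IsPiRetract f) : f.Flat := by
  obtain ⟨ι, i, r, hri, hi, hr⟩ := h
  let := f.toAlgebra
  refine Module.Flat.of_forall_isTrivialRelation fun {l c x} hx => ?_
  obtain ⟨k, a, ha⟩ := Submodule.fg_iff_exists_fin_generating_family.mp
    (IsNoetherian.noetherian (LinearMap.ker (Fintype.linearCombination A c)))
  have hx' : ∑ s, c s • i (x s) = 0 := by
    have h1 : ∑ s, f (c s) * x s = 0 := hx
    rw [← map_zero i, ← h1, map_sum]
    exact Finset.sum_congr rfl fun s _ => (hi _ _).symm
  have hmem : ∀ t : ι, ∃ b : Fin k → A, ∑ j, b j • a j = fun s => i (x s) t := by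
    intro t
    rw [← Submodule.mem_span_range_iff_exists_fun, ha, LinearMap.mem_ker,
      Fintype.linearCombination_apply]
    have h2 := congrFun hx' t
    simp only [Finset.sum_apply, Pi.smul_apply, smul_eq_mul, Pi.zero_apply] at h2 ⊢
    rw [← h2]
    exact Finset.sum_congr rfl fun s _ => mul_comm _ _
  choose b hb using hmem
  refine ⟨k, fun s j => a j s, fun j => r fun t => b t j, fun s => ?_, fun j => ?_⟩
  · have h3 : i (x s) = ∑ j, a j s • fun t => b t j := by
      funext t
      have h4 := congrFun (hb t) s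
      simp only [Finset.sum_apply, Pi.smul_apply, smul_eq_mul] at h4 ⊢
      rw [← h4]
      exact Finset.sum_congr rfl fun j _ => mul_comm _ _
    rw [← hri (x s), h3, map_sum]
    exact Finset.sum_congr rfl fun j _ => hr _ _
  · have h5 : a j ∈ LinearMap.ker (Fintype.linearCombination A c) :=
      ha ▸ Submodule.subset_span ⟨j, rfl⟩
    rw [LinearMap.mem_ker, Fintype.linearCombination_apply] at h5
    rw [← h5]
    exact Finset.sum_congr rfl fun s _ => mul_comm _ _

theorem isPiRetract_of_field {K : Type u} {B : Type v} [Field K] [CommRing B] (f : K →+* B) :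
    IsPiRetract f := by
  let := f.toAlgebra
  let i : B →ₗ[K] (Module.Dual K B → K) := LinearMap.pi fun φ => φ
  have hi : LinearMap.ker i = ⊥ := by
    rw [LinearMap.ker_eq_bot']
    intro x hx
    exact (Module.forall_dual_apply_eq_zero_iff K x).mp fun φ => congrFun hx φ
  obtain ⟨r, hr⟩ := i.exists_leftInverse_of_injective hi
  exact ⟨Module.Dual K B, i.toAddMonoidHom, r.toAddMonoidHom, fun x => LinearMap.congr_fun hr x,
    fun a x => i.map_smul a x, fun a y => r.map_smul a y⟩

theorem IsPiRetract.mvPowerSeries_map {A : Type u} {B : Type v} [CommRing A] [CommRing B]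
    {f : A →+* B} (h : IsPiRetract f) (σ : Type) : IsPiRetract (MvPowerSeries.map (σ := σ) f) := by
  classical
  obtain ⟨ι, i, r, hri, hi, hr⟩ := h
  let i' : MvPowerSeries σ B →+ (ι → MvPowerSeries σ A) :=
    { toFun := fun x t m => i (MvPowerSeries.coeff m x) t
      map_zero' := by
        funext t m
        simp only [map_zero]
        rfl
      map_add' := fun x y => by
        funext t m
        simp only [map_add]
        rfl }
  let r' : (ι → MvPowerSeries σ A) →+ MvPowerSeries σ B :=
    { toFun := fun y m => r fun t => MvPowerSeries.coeff m (y t)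
      map_zero' := by
        funext m
        exact map_zero r
      map_add' := fun x y => by
        funext m
        exact map_add r (fun t => MvPowerSeries.coeff m (x t)) fun t => MvPowerSeries.coeff m (y t) }
  have hi' : ∀ x t m, MvPowerSeries.coeff m (i' x t) = i (MvPowerSeries.coeff m x) t :=
    fun _ _ _ => rfl
  have hr' : ∀ y m, MvPowerSeries.coeff m (r' y) = r fun t => MvPowerSeries.coeff m (y t) :=
    fun _ _ => rfl
  refine ⟨ι, i', r', fun x => ?_, fun a x => ?_, fun a y => ?_⟩
  · ext m
    rw [hr']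
    exact hri _
  · funext t
    ext m
    rw [hi', Pi.smul_apply, smul_eq_mul, MvPowerSeries.coeff_mul, MvPowerSeries.coeff_mul, map_sum,
      Finset.sum_apply]
    refine Finset.sum_congr rfl fun q _ => ?_
    rw [MvPowerSeries.coeff_map, hi, hi']
    rfl
  · ext m
    rw [hr', MvPowerSeries.coeff_mul]
    have h1 : (fun t => MvPowerSeries.coeff m ((a • y) t)) = ∑ q ∈ Finset.HasAntidiagonal.antidiagonal m,
        MvPowerSeries.coeff q.1 a • fun t => MvPowerSeries.coeff q.2 (y t) := by
      funext t
      rw [Pi.smul_apply, smul_eq_mul, MvPowerSeries.coeff_mul, Finset.sum_apply]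
      rfl
    rw [h1, map_sum]
    refine Finset.sum_congr rfl fun q _ => ?_
    rw [hr, MvPowerSeries.coeff_map, hr']

namespace FrobFlat

theorem comp {A B C : Type u} [CommRing A] [CommRing B] [CommRing C] {f : A →+* B} {g : B →+* C}
    (hf : IsPiRetract f) (hg : IsPiRetract g) : IsPiRetract (g.comp f) := by
  obtain ⟨ι, i, r, hri, hi, hr⟩ := hf
  obtain ⟨κ, j, s, hsj, hj, hs⟩ := hg
  let i' : C →+ (κ × ι → A) :=
    { toFun := fun x t => i (j x t.1) t.2
      map_zero' := by
        funext t
        simp
      map_add' := fun x y => by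
        funext t
        simp }
  let r' : (κ × ι → A) →+ C :=
    { toFun := fun y => s fun k => r fun t => y (k, t)
      map_zero' := by
        have h1 : (fun k : κ => r fun t => (0 : κ × ι → A) (k, t)) = 0 :=
          funext fun _ => map_zero r
        rw [h1, map_zero]
      map_add' := fun x y => by
        rw [← map_add]
        congr 1
        funext k
        exact map_add r (fun t => x (k, t)) fun t => y (k, t) }
  refine ⟨κ × ι, i', r', fun x => ?_, fun a x => ?_, fun a y => ?_⟩
  · have h1 : (fun k => r fun t => i (j x k) t) = j x := funext fun k => hri _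
    change s (fun k => r fun t => i (j x k) t) = x
    rw [h1, hsj]
  · funext t
    change i (j (g (f a) * x) t.1) t.2 = a * i (j x t.1) t.2
    rw [hj, Pi.smul_apply, smul_eq_mul, hi]
    rfl
  · change s (fun k => r (a • fun t => y (k, t))) = g (f a) * s fun k => r fun t => y (k, t)
    rw [← hs]
    congr 1
    funext k
    exact hr _ _

theorem expand_retract (p : ℕ) (hp : p ≠ 0) {A : Type u} [CommRing A] (σ : Type) [Finite σ] :
    IsPiRetract (MvPowerSeries.expand (σ := σ) (R := A) p hp).toRingHom := by
  classical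
  have := Fintype.ofFinite σ
  let ex : ULift.{u} (σ → Fin p) → (σ →₀ ℕ) := fun e =>
    Finsupp.equivFunOnFinite.symm fun s => (e.down s).val
  have hex : ∀ e s, ex e s = (e.down s).val := fun _ _ => rfl
  let i : MvPowerSeries σ A →+ (ULift.{u} (σ → Fin p) → MvPowerSeries σ A) :=
    { toFun := fun x e m => MvPowerSeries.coeff (p • m + ex e) x
      map_zero' := rfl
      map_add' := fun _ _ => rfl }
  let r : (ULift.{u} (σ → Fin p) → MvPowerSeries σ A) →+ MvPowerSeries σ A :=
    { toFun := fun y => ∑ e, MvPowerSeries.monomial (ex e) 1 * MvPowerSeries.expand p hp (y e)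
      map_zero' := by simp
      map_add' := fun x y => by
        simp only [Pi.add_apply, map_add, mul_add, Finset.sum_add_distrib] }
  have hi : ∀ x e m, MvPowerSeries.coeff m (i x e) = MvPowerSeries.coeff (p • m + ex e) x :=
    fun _ _ _ => rfl
  have hr : ∀ y, r y =
      ∑ e, MvPowerSeries.monomial (ex e) 1 * MvPowerSeries.expand p hp (y e) := fun _ => rfl
  have hir : ∀ y, i (r y) = y := by
    intro y
    funext e
    ext m
    rw [hi, hr, map_sum, Finset.sum_eq_single e]
    · rw [MvPowerSeries.coeff_monomial_mul, if_pos le_add_self, add_tsub_cancel_right, one_mul,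
        MvPowerSeries.coeff_expand_smul]
    · intro e' _ hne
      rw [MvPowerSeries.coeff_monomial_mul]
      split_ifs with hle
      · obtain ⟨s, hs⟩ : ∃ s, e'.down s ≠ e.down s := by
          by_contra hc
          push Not at hc
          exact hne (ULift.ext _ _ (funext hc))
        rw [MvPowerSeries.coeff_expand_of_not_dvd p hp _ (i := s), mul_zero]
        have h1 := hle s
        simp only [Finsupp.coe_tsub, Finsupp.coe_add, Finsupp.coe_smul, Pi.sub_apply, Pi.add_apply,
          Pi.smul_apply, smul_eq_mul, hex] at h1 ⊢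
        rintro ⟨c, hc⟩
        have h2 : p * m s + (e.down s).val = p * c + (e'.down s).val := by omega
        have h3 := congrArg (· % p) h2
        simp only [Nat.mul_add_mod, Nat.mod_eq_of_lt (Fin.is_lt _)] at h3
        exact hs (Fin.ext h3.symm)
      · rfl
    · intro h
      exact absurd (Finset.mem_univ e) h
  have hinj : Function.Injective i := by
    intro x y hxy
    ext n
    let e : ULift.{u} (σ → Fin p) := ⟨fun s => ⟨n s % p, Nat.mod_lt _ (Nat.pos_of_ne_zero hp)⟩⟩
    let m : σ →₀ ℕ := Finsupp.equivFunOnFinite.symm fun s => n s / p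
    have hn : n = p • m + ex e := by
      ext s
      exact (Nat.div_add_mod (n s) p).symm
    rw [hn, ← hi, ← hi, hxy]
  have hri : ∀ x, r (i x) = x := fun x => hinj (hir _)
  have hsm : ∀ a y, r (a • y) = MvPowerSeries.expand p hp a * r y := by
    intro a y
    rw [hr, hr, Finset.mul_sum]
    refine Finset.sum_congr rfl fun e _ => ?_
    rw [Pi.smul_apply, smul_eq_mul, map_mul]
    ring
  refine ⟨ULift.{u} (σ → Fin p), i, r, hri, fun a x => ?_, hsm⟩
  have h1 := hsm a (i x)
  rw [hri] at h1
  rw [← hir (a • i x), h1]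
  rfl

end FrobFlat

theorem IsPiRetract.frobenius_mvPowerSeries (p : ℕ) [Fact p.Prime] {A : Type u} [CommRing A]
    [CharP A p] (h : IsPiRetract (frobenius A p)) (σ : Type) [Finite σ]
    [CharP (MvPowerSeries σ A) p] : IsPiRetract (frobenius (MvPowerSeries σ A) p) := by
  have hp : p ≠ 0 := (Fact.out : p.Prime).ne_zero
  have h1 : frobenius (MvPowerSeries σ A) p = (MvPowerSeries.map (σ := σ) (frobenius A p)).comp
      (MvPowerSeries.expand (σ := σ) (R := A) p hp).toRingHom := by
    refine RingHom.ext fun f => ?_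
    exact (MvPowerSeries.map_frobenius_expand p hp).symm
  rw [h1]
  exact FrobFlat.comp (FrobFlat.expand_retract p hp σ) (h.mvPowerSeries_map σ)


theorem flat_mvPowerSeries_map_of_field {K : Type u} {B : Type v} [Field K] [CommRing B]
    (f : K →+* B) (σ : Type) [Finite σ] : (MvPowerSeries.map (σ := σ) f).Flat :=
  ((isPiRetract_of_field f).mvPowerSeries_map σ).flat

theorem flat_frobenius_mvPowerSeries (p : ℕ) [Fact p.Prime] (K : Type u) [Field K] [CharP K p]
    (σ : Type) [Finite σ] [CharP (MvPowerSeries σ K) p] :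
    (frobenius (MvPowerSeries σ K) p).Flat :=
  ((isPiRetract_of_field (frobenius K p)).frobenius_mvPowerSeries p σ).flat

theorem flat_frobenius_mvPowerSeries₂ (p : ℕ) [Fact p.Prime] (K : Type u) [Field K] [CharP K p]
    (σ τ : Type) [Finite σ] [Finite τ] [CharP (MvPowerSeries σ (MvPowerSeries τ K)) p] :
    (frobenius (MvPowerSeries σ (MvPowerSeries τ K)) p).Flat := by
  have : CharP (MvPowerSeries τ K) p :=
    charP_of_injective_ringHom (MvPowerSeries.C (σ := τ) (R := K)).injective p
  exact (((isPiRetract_of_field (frobenius K p)).frobenius_mvPowerSeries p τ).frobenius_mvPowerSeries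
    p σ).flat

theorem flat_frobenius_localization (p : ℕ) [Fact p.Prime] {A : Type u} [CommRing A] [CharP A p]
    (h : (frobenius A p).Flat) (P : Ideal A) [P.IsPrime] [CharP (Localization.AtPrime P) p] :
    (frobenius (Localization.AtPrime P) p).Flat := by
  have hP : P = Ideal.comap (frobenius A p) P := by
    ext x
    rw [Ideal.mem_comap, frobenius_def]
    exact (Ideal.IsPrime.pow_mem_iff_mem inferInstance p (Fact.out : p.Prime).pos).symm
  have h1 := h.localRingHom P P hP
  have h2 : Localization.localRingHom P P (frobenius A p) hP =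
      frobenius (Localization.AtPrime P) p := by
    refine IsLocalization.ringHom_ext P.primeCompl (RingHom.ext fun x => ?_)
    rw [RingHom.comp_apply, RingHom.comp_apply, Localization.localRingHom_to_map, frobenius_def,
      frobenius_def, map_pow]
  rwa [h2] at h1

theorem flat_iterateFrobenius (p : ℕ) [Fact p.Prime] {A : Type u} [CommRing A] [CharP A p]
    (h : (frobenius A p).Flat) (k : ℕ) : (iterateFrobenius A p k).Flat := by
  induction k with
  | zero =>
    rw [iterateFrobenius_zero]
    exact RingHom.Flat.id A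
  | succ k ih =>
    rw [iterateFrobenius_add, iterateFrobenius_one]
    exact h.comp ih


namespace FrobFlat

/-- Independent families in the sense of Lech. -/
def Indep {A : Type u} [CommRing A] {ι : Type} [Fintype ι] (w : ι → A) : Prop :=
  ∀ a : ι → A, ∑ i, a i * w i = 0 → ∀ i, a i ∈ Ideal.span (Set.range w)

variable {A : Type u} [CommRing A] {ι : Type} [Fintype ι]

theorem Indep.map' {B : Type v} [CommRing B] [Algebra A B] [Module.Flat A B] {w : ι → A}
    (h : Indep w) : Indep fun i => algebraMap A B (w i) := by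
  intro a ha i
  have h1 : ∑ i, w i • a i = 0 := by
    rw [← ha]
    exact Finset.sum_congr rfl fun i _ => by rw [Algebra.smul_def, mul_comm]
  obtain ⟨k, c, y, hy, hc⟩ :=
    Module.Flat.isTrivialRelation_of_sum_smul_eq_zero (R := A) (M := B) (f := w) (x := a) h1
  have h2 : ∀ j, algebraMap A B (c i j) ∈ Ideal.span (Set.range fun i => algebraMap A B (w i)) := by
    intro j
    have h3 : ∑ i, c i j * w i = 0 := by
      rw [← hc j]
      exact Finset.sum_congr rfl fun i _ => mul_comm _ _
    obtain ⟨b, hb⟩ := Ideal.mem_span_range_iff_exists_fun.mp (h (fun i => c i j) h3 i)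
    refine Ideal.mem_span_range_iff_exists_fun.mpr ⟨fun t => algebraMap A B (b t), ?_⟩
    rw [← hb, map_sum]
    simp only [map_mul]
  rw [hy i]
  refine Ideal.sum_mem _ fun j _ => ?_
  rw [Algebra.smul_def]
  exact Ideal.mul_mem_right (y j) _ (h2 j)

theorem Indep.map {B : Type v} [CommRing B] {w : ι → A} (h : Indep w) {f : A →+* B} (hf : f.Flat) :
    Indep fun i => f (w i) :=
  @Indep.map' A _ ι _ B _ f.toAlgebra hf w h

theorem Indep.lech [DecidableEq ι] {w w' : ι → A} (h : Indep w) (j : ι) (g : A)
    (hj : w j = w' j * g) (hne : ∀ i, i ≠ j → w i = w' i) : Indep w' := by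
  have hle : Ideal.span (Set.range w) ≤ Ideal.span (Set.range w') := by
    rw [Ideal.span_le]
    rintro _ ⟨i, rfl⟩
    by_cases hi : i = j
    · rw [hi, hj]
      exact Ideal.mul_mem_right _ _ (Ideal.subset_span ⟨j, rfl⟩)
    · rw [hne i hi]
      exact Ideal.subset_span ⟨i, rfl⟩
  intro a ha
  have h1 : a j ∈ Ideal.span (Set.range w) := by
    have h2 := h (fun i => if i = j then a j else a i * g) ?_ j
    · simpa using h2
    · have h3 : (∑ i, a i * w' i) * g = 0 := by rw [ha, zero_mul]
      rw [← h3, Finset.sum_mul]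
      refine Finset.sum_congr rfl fun i _ => ?_
      by_cases hi : i = j
      · rw [if_pos hi, hi, hj]; ring
      · rw [if_neg hi, hne i hi]; ring
  obtain ⟨b, hb⟩ := Ideal.mem_span_range_iff_exists_fun.mp h1
  intro i
  by_cases hi : i = j
  · rw [hi]
    exact hle h1
  · have h2 := h (fun i => b i * w' j + if i = j then 0 else a i) ?_ i
    · rw [if_neg hi] at h2
      have h3 : b i * w' j ∈ Ideal.span (Set.range w') :=
        Ideal.mul_mem_left _ _ (Ideal.subset_span ⟨j, rfl⟩)
      simpa using Ideal.sub_mem _ (hle h2) h3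
    · have h4 : ∀ i, (b i * w' j + if i = j then 0 else a i) * w i =
          b i * w i * w' j + (a i * w' i - if i = j then a j * w' j else 0) := by
        intro i
        by_cases hi : i = j
        · rw [if_pos hi, if_pos hi, hi]; ring
        · rw [if_neg hi, if_neg hi, hne i hi]; ring
      simp only [h4, Finset.sum_add_distrib, Finset.sum_sub_distrib, ← Finset.sum_mul, hb, ha,
        Finset.sum_ite_eq', Finset.mem_univ, if_true]
      ring

theorem Indep.lower [DecidableEq ι] {w : ι → A} {q : ℕ} (hq : 0 < q) (h : Indep fun i => w i ^ q)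
    (S : Finset ι) : Indep fun i => if i ∈ S then w i else w i ^ q := by
  induction S using Finset.induction_on with
  | empty => simpa using h
  | insert j S hj ih =>
    refine ih.lech j (w j ^ (q - 1)) ?_ fun i hi => ?_
    · simp only [if_neg hj, Finset.mem_insert_self, if_true]
      rw [← pow_succ', Nat.sub_add_cancel hq]
    · simp only [Finset.mem_insert, hi, false_or]

theorem exists_indep [IsLocalRing A] [IsNoetherianRing A] :
    ∃ (n : ℕ) (w : Fin n → A), Ideal.span (Set.range w) = maximalIdeal A ∧ Indep w := by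
  classical
  have hex : ∃ n : ℕ, ∃ w : Fin n → A, Ideal.span (Set.range w) = maximalIdeal A :=
    Submodule.fg_iff_exists_fin_generating_family.mp (IsNoetherian.noetherian (maximalIdeal A))
  obtain ⟨w, hw⟩ := Nat.find_spec hex
  refine ⟨Nat.find hex, w, hw, ?_⟩
  have hmin := fun m => Nat.find_min hex (m := m)
  generalize Nat.find hex = n at w hw hmin
  intro a ha j
  rw [hw]
  by_contra hu
  obtain ⟨c, hc⟩ := (IsLocalRing.notMem_maximalIdeal.mp hu).exists_left_inv
  obtain ⟨n, rfl⟩ : ∃ k, n = k + 1 := ⟨n - 1, by have := j.pos; omega⟩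
  refine hmin n (Nat.lt_succ_self n) ⟨fun i => w (j.succAbove i), le_antisymm ?_ ?_⟩
  · rw [← hw]
    exact Ideal.span_mono (by rintro _ ⟨i, rfl⟩; exact ⟨_, rfl⟩)
  · rw [← hw, Ideal.span_le]
    rintro _ ⟨i, rfl⟩
    rcases Fin.eq_self_or_eq_succAbove j i with rfl | ⟨k, rfl⟩
    · rw [Fin.sum_univ_succAbove _ i] at ha
      refine Ideal.mem_span_range_iff_exists_fun.mpr ⟨fun k => -(c * a (i.succAbove k)), ?_⟩
      have h1 : ∑ k, -(c * a (i.succAbove k)) * w (i.succAbove k) =
          -(c * ∑ k, a (i.succAbove k) * w (i.succAbove k)) := by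
        rw [Finset.mul_sum, ← Finset.sum_neg_distrib]
        exact Finset.sum_congr rfl fun k _ => by ring
      rw [h1]
      linear_combination (-c) * ha + (w i) * hc
    · exact Ideal.subset_span ⟨k, rfl⟩

theorem mem_of_forall_sup_pow [IsLocalRing A] [IsNoetherianRing A] (I : Ideal A) {a : A}
    (h : ∀ N : ℕ, a ∈ I ⊔ maximalIdeal A ^ N) : a ∈ I := by
  have h1 := Ideal.iInf_pow_smul_eq_bot_of_isLocalRing (M := A ⧸ I) (maximalIdeal A)
    (maximalIdeal.isMaximal A).ne_top
  have h2 : Submodule.Quotient.mk (p := I) a ∈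
      (⨅ i : ℕ, maximalIdeal A ^ i • ⊤ : Submodule A (A ⧸ I)) := by
    rw [Submodule.mem_iInf]
    intro N
    obtain ⟨x, hx, y, hy, rfl⟩ := Submodule.mem_sup.mp (h N)
    rw [Submodule.Quotient.mk_add, (Submodule.Quotient.mk_eq_zero I).mpr hx, zero_add]
    have h3 : Submodule.Quotient.mk (p := I) y = y • Submodule.Quotient.mk (p := I) (1 : A) := by
      rw [← Submodule.Quotient.mk_smul, smul_eq_mul, mul_one]
    rw [h3]
    exact Submodule.smul_mem_smul hy Submodule.mem_top
  rw [h1, Submodule.mem_bot] at h2
  exact (Submodule.Quotient.mk_eq_zero I).mp h2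

theorem height_add_le (P : Ideal A) [hP : P.IsPrime] :
    (P.height : WithBot ℕ∞) + ringKrullDim (A ⧸ P) ≤ ringKrullDim A := by
  have : Nonempty (PrimeSpectrum A) := ⟨⟨P, hP⟩⟩
  have h1 : ringKrullDim (A ⧸ P) = (Order.coheight (⟨P, hP⟩ : PrimeSpectrum A) : ℕ∞) := by
    rw [ringKrullDim_quotient, Order.coheight_eq_krullDim_Ici]
    rfl
  have h2 : P.height = Order.height (⟨P, hP⟩ : PrimeSpectrum A) :=
    PrimeSpectrum.height_eq_orderHeight ⟨P, hP⟩
  rw [h1, h2, ringKrullDim, Order.krullDim_eq_iSup_height_add_coheight_of_nonempty,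
    ← WithBot.coe_add, WithBot.coe_le_coe]
  exact le_iSup (fun a : PrimeSpectrum A => Order.height a + Order.coheight a) ⟨P, hP⟩

end FrobFlat

/-- Kunz: if Frobenius is flat, the maximal ideal is generated by a regular sequence. -/
theorem kunz (p : ℕ) [Fact p.Prime] {A : Type u} [CommRing A] [IsLocalRing A] [IsNoetherianRing A]
    [CharP A p] (h : (frobenius A p).Flat) : ∃ w : List A, Ideal.ofList w = maximalIdeal A ∧
      RingTheory.Sequence.IsRegular A w ∧ ringKrullDim A = w.length := by
  classical
  obtain ⟨n, w, hw, hind⟩ := FrobFlat.exists_indep (A := A)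
  have hp := (Fact.out : p.Prime)
  have hlist : Ideal.ofList (List.ofFn w) = maximalIdeal A := by
    rw [← hw, Ideal.ofList]
    congr 1
    ext x
    simp [List.mem_ofFn]
  have hreg : RingTheory.Sequence.IsRegular A (List.ofFn w) := by
    refine ⟨⟨fun j hj => ?_⟩, ?_⟩
    · have hjn : j < n := by simpa using hj
      rw [isSMulRegular_quotient_iff_mem_of_smul_mem, List.getElem_ofFn]
      have hI : (Ideal.ofList ((List.ofFn w).take j) • ⊤ : Submodule A A) =
          Ideal.span (w '' {i | i.val < j}) := by
        rw [smul_eq_mul, Ideal.mul_top, Ideal.ofList]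
        congr 1
        ext x
        simp only [List.mem_take_iff_getElem, List.getElem_ofFn, List.length_ofFn,
          Set.mem_ofPred_eq, Set.mem_image]
        constructor
        · rintro ⟨i, hi, rfl⟩
          exact ⟨⟨i, by omega⟩, by simp only; omega, rfl⟩
        · rintro ⟨i, hi, rfl⟩
          exact ⟨i.val, by have := i.is_lt; omega, rfl⟩
      rw [hI]
      intro a ha
      refine FrobFlat.mem_of_forall_sup_pow _ fun N => ?_
      have hq : 0 < p ^ N := pow_pos hp.pos N
      have h1 : FrobFlat.Indep fun i => w i ^ p ^ N := hind.map (flat_iterateFrobenius p h N)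
      have h2 := h1.lower hq (Finset.univ.filter fun i : Fin n => i.val < j)
      have h3 : a * w ⟨j, hjn⟩ ^ p ^ N ∈ Ideal.span (w '' {i | i.val < j}) := by
        rw [← Nat.sub_add_cancel hq, pow_succ', ← mul_assoc]
        exact Ideal.mul_mem_right _ _ (by rw [mul_comm]; exact ha)
      obtain ⟨c, hc⟩ : ∃ c : Fin n → A, (∀ i, ¬ i.val < j → c i = 0) ∧
          ∑ i, c i * w i = a * w ⟨j, hjn⟩ ^ p ^ N := by
        obtain ⟨c, hc1, hc2⟩ := (Finsupp.mem_span_image_iff_linearCombination A).mp h3
        refine ⟨c, fun i hi => (Finsupp.mem_supported' A c).mp hc1 i hi, ?_⟩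
        rw [← hc2, Finsupp.linearCombination_apply, Finsupp.sum_fintype _ _ (by simp)]
        rfl
      have h4 := h2 (fun i => if i = ⟨j, hjn⟩ then a else -c i) ?_ ⟨j, hjn⟩
      · rw [if_pos rfl] at h4
        refine (Ideal.span_le.mpr ?_) h4
        rintro _ ⟨i, rfl⟩
        by_cases hi : i.val < j
        · simp only [Finset.mem_filter, Finset.mem_univ, true_and, if_pos hi]
          exact Ideal.mem_sup_left (Ideal.subset_span ⟨i, hi, rfl⟩)
        · simp only [Finset.mem_filter, Finset.mem_univ, true_and, if_neg hi]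
          refine Ideal.mem_sup_right (Ideal.pow_le_pow_right (Nat.lt_pow_self hp.one_lt).le ?_)
          exact Ideal.pow_mem_pow (hw ▸ Ideal.subset_span ⟨i, rfl⟩) _
      · have h5 : ∀ i : Fin n, (if i = ⟨j, hjn⟩ then a else -c i) *
            (if i ∈ Finset.univ.filter fun i : Fin n => i.val < j then w i else w i ^ p ^ N) =
            (if i = ⟨j, hjn⟩ then a * w ⟨j, hjn⟩ ^ p ^ N else 0) - c i * w i := by
          intro i
          simp only [Finset.mem_filter, Finset.mem_univ, true_and]
          by_cases hi : i = ⟨j, hjn⟩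
          · rw [if_pos hi, if_pos hi, hi, if_neg (lt_irrefl j), hc.1 _ (lt_irrefl j)]
            ring
          · rw [if_neg hi, if_neg hi]
            by_cases hi' : i.val < j
            · rw [if_pos hi']; ring
            · rw [hc.1 i hi']; ring
        simp only [h5, Finset.sum_sub_distrib, Finset.sum_ite_eq', Finset.mem_univ, if_true, hc.2,
          sub_self]
    · rw [hlist, smul_eq_mul, Ideal.mul_top]
      exact (maximalIdeal.isMaximal A).ne_top.symm
  refine ⟨List.ofFn w, hlist, hreg, ?_⟩
  have h1 := ringKrullDim_add_length_eq_ringKrullDim_of_isRegular _ hreg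
  rw [hlist] at h1
  have h2 : ringKrullDim (A ⧸ maximalIdeal A) = 0 := ringKrullDim_eq_zero_of_field (ResidueField A)
  rw [← h1, h2, zero_add]


/-- (GEN) primes of a power series ring are locally generated by few elements. -/
def LocGen (A : Type u) [CommRing A] (D : ℕ) : Prop :=
  ∀ (P : Ideal A) [P.IsPrime] (d : ℕ), (D : WithBot ℕ∞) ≤ d + ringKrullDim (A ⧸ P) →
    ∃ y : Fin d → A, (∀ i, y i ∈ P) ∧ P.map (algebraMap A (Localization.AtPrime P)) ≤
      (Ideal.span (Set.range y)).map (algebraMap A (Localization.AtPrime P))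

theorem locGen_of_charP (p : ℕ) [Fact p.Prime] (K : Type u) [Field K] [CharP K p] (D : ℕ) :
    LocGen (MvPowerSeries (Fin D) K) D := by
  intro P hP d hd
  have : CharP (MvPowerSeries (Fin D) K) p :=
    charP_of_injective_ringHom (MvPowerSeries.C (σ := Fin D) (R := K)).injective p
  have : CharP (Localization.AtPrime P) p := charP_of_injective_ringHom
    ((algebraMap _ (Localization.AtPrime P)).comp (MvPowerSeries.C (σ := Fin D) (R := K))).injective p
  obtain ⟨w, hw, -, hdim⟩ := kunz p
    (flat_frobenius_localization p (flat_frobenius_mvPowerSeries p K (Fin D)) P)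
  rw [IsLocalization.AtPrime.ringKrullDim_eq_height P] at hdim
  have h1 := FrobFlat.height_add_le P
  rw [ringKrullDim_mvPowerSeries_field, hdim] at h1
  have h2 : ringKrullDim (MvPowerSeries (Fin D) K ⧸ P) ≤ D :=
    (ringKrullDim_quotient_le P).trans (ringKrullDim_mvPowerSeries_field K D).le
  have h3 : 0 ≤ ringKrullDim (MvPowerSeries (Fin D) K ⧸ P) := ringKrullDim_nonneg_of_nontrivial
  have hlen : w.length ≤ d := by
    generalize ringKrullDim (MvPowerSeries (Fin D) K ⧸ P) = e at h1 h2 h3 hd
    induction e using WithBot.recBotCoe with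
    | bot => simp at h3
    | coe e =>
      induction e using ENat.recTopCoe with
      | top => exact absurd h2 (not_le.mpr (WithBot.coe_lt_coe.mpr (ENat.natCast_lt_top D)))
      | coe e =>
        have h4 : w.length + e ≤ D := by exact_mod_cast h1
        have h5 : D ≤ d + e := by exact_mod_cast hd
        omega
  have hnum : ∀ x ∈ w, ∃ y ∈ P, x ∈ Ideal.span {algebraMap _ (Localization.AtPrime P) y} := by
    intro x hx
    have hm : x ∈ maximalIdeal (Localization.AtPrime P) := hw ▸ Ideal.subset_span hx
    obtain ⟨⟨y, s⟩, rfl⟩ := IsLocalization.mk'_surjective P.primeCompl x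
    refine ⟨y, (IsLocalization.AtPrime.mk'_mem_maximal_iff _ P y s).mp hm, ?_⟩
    simp only
    rw [IsLocalization.mk'_eq_mul_mk'_one]
    exact Ideal.mul_mem_right _ _ (Ideal.subset_span rfl)
  choose y hyP hy using hnum
  refine ⟨fun i => if h : i.val < w.length then y w[i.val] (List.getElem_mem h) else 0,
    fun i => ?_, ?_⟩
  · beta_reduce
    split_ifs
    · exact hyP _ _
    · exact P.zero_mem
  · rw [Localization.AtPrime.map_eq_maximalIdeal, ← hw, Ideal.ofList, Ideal.span_le]
    intro x hx
    obtain ⟨i, hi, rfl⟩ := List.getElem_of_mem hx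
    refine (Ideal.span_le.mpr ?_) (hy _ (List.getElem_mem hi))
    rintro _ rfl
    refine Ideal.mem_map_of_mem _ (Ideal.subset_span ⟨⟨i, by omega⟩, ?_⟩)
    simp only [dif_pos hi]


end Vale.Agent.P202
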