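import Vale.Agent.P202.Mult
import Vale.Agent.P202.FrobFlat

/-! Auxiliary results for part A of module M8: Frobenius lengths, colon ideals. -/

namespace Vale.Agent.P202

open IsLocalRing

universe u v

theorem cA_colon_map {A : Type u} {B : Type v} [CommRing A] [CommRing B] [Algebra A B]
    [Module.Flat A B] (I : Ideal A) (a : A) :
    (I.map (algebraMap A B)).colon {algebraMap A B a} = (I.colon {a}).map (algebraMap A B) := by
  apply le_antisymm
  · intro b hb
    rw [Submodule.mem_colon_singleton] at hb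
    obtain ⟨n, c, g, hg⟩ := Submodule.mem_span_set'.1 hb
    have h0 : ∀ i, ∃ r ∈ I, algebraMap A B r = (g i : B) := fun i => (g i).2
    choose r hr hr' using h0
    have h1 : ∑ i : Option (Fin n), (i.elim a r) • (i.elim b fun t => -c t) = 0 := by
      rw [Fintype.sum_option]
      simp only [Option.elim_none, Option.elim_some]
      have e : ∑ i, r i • -c i = -(b • algebraMap A B a) := by
        rw [← hg, ← Finset.sum_neg_distrib]
        refine Finset.sum_congr rfl fun i _ => ?_
        rw [Algebra.smul_def, hr', smul_eq_mul]; ring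
      rw [e, Algebra.smul_def, smul_eq_mul]; ring
    obtain ⟨k, m, y, hy, hm⟩ := Module.Flat.isTrivialRelation_of_sum_smul_eq_zero (R := A) (M := B) h1
    have h2 : b = ∑ j, m none j • y j := hy none
    rw [h2]
    refine Ideal.sum_mem _ fun j _ => ?_
    rw [Algebra.smul_def]
    refine Ideal.mul_mem_right _ _ (Ideal.mem_map_of_mem _ ?_)
    rw [Submodule.mem_colon_singleton, smul_eq_mul]
    have h3 := hm j
    rw [Fintype.sum_option] at h3
    simp only [Option.elim_none, Option.elim_some] at h3
    have h4 : m none j * a = -∑ i, r i * m (some i) j := by linear_combination h3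
    rw [h4]
    exact I.neg_mem (Ideal.sum_mem _ fun i _ => Ideal.mul_mem_right _ _ (hr i))
  · rw [Ideal.map_le_iff_le_comap]
    intro r hr
    rw [Submodule.mem_colon_singleton, smul_eq_mul] at hr
    rw [Ideal.mem_comap, Submodule.mem_colon_singleton, smul_eq_mul, ← map_mul]
    exact Ideal.mem_map_of_mem _ hr

theorem cA_flat_quotientMap' {A : Type u} {B : Type v} [CommRing A] [CommRing B] [Algebra A B]
    [Module.Flat A B] (I : Ideal A) : Module.Flat (A ⧸ I) (B ⧸ I.map (algebraMap A B)) :=
  Module.Flat.of_linearEquiv (Algebra.TensorProduct.quotIdealMapEquivQuotTensor B I).toLinearEquiv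

theorem cA_flat_quotientMap {A : Type u} {B : Type v} [CommRing A] [CommRing B] (f : A →+* B)
    (hf : f.Flat) (I : Ideal A) : (Ideal.quotientMap (I.map f) f Ideal.le_comap_map).Flat := by
  let : Algebra A B := f.toAlgebra
  have : Module.Flat A B := hf
  exact (RingHom.flat_algebraMap_iff (R := A ⧸ I) (S := B ⧸ I.map (algebraMap A B))).2
    (cA_flat_quotientMap' I)

theorem cA_length_max (A : Type u) [CommRing A] [IsLocalRing A] :
    Module.length A (A ⧸ maximalIdeal A) = 1 := by
  rw [Module.length_eq_one_iff, isSimpleModule_iff_isCoatom]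
  exact (maximalIdeal.isMaximal A).out

theorem cA_length_le_one {A : Type u} [CommRing A] [IsLocalRing A] {J : Ideal A}
    (h : maximalIdeal A ≤ J) : Module.length A (A ⧸ J) ≤ 1 := by
  rw [← cA_length_max A]
  exact Module.length_le_of_surjective (Submodule.factor h) (Submodule.factor_surjective h)

/-- `l(Q' / (a Q' + W)) ≤ l(Q / a)` when `m Q' + W` is the maximal ideal -/
theorem cA_length_map_le {Q : Type u} {Q' : Type v} [CommRing Q] [IsLocalRing Q]
    [IsNoetherianRing Q] [CommRing Q'] [IsLocalRing Q'] (j : Q →+* Q') (W : Ideal Q')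
    (hmax : maximalIdeal Q' = (maximalIdeal Q).map j ⊔ W) (N : ℕ) (a : Ideal Q)
    (ha : maximalIdeal Q ^ N ≤ a) :
    Module.length Q' (Q' ⧸ (a.map j ⊔ W)) ≤ Module.length Q (Q ⧸ a) := by
  induction a using IsNoetherian.induction with
  | hgt a ih =>
    by_cases hT : a = ⊤
    · subst hT
      rw [Ideal.map_top, top_sup_eq, Module.length_eq_zero]
      exact zero_le
    obtain ⟨g, hg, hp⟩ := afExists_colon hT
    have h1 : a ≤ a.colon {g} := fun r hr => by
      rw [Submodule.mem_colon_singleton, smul_eq_mul]; exact Ideal.mul_mem_right _ _ hr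
    have h2 : maximalIdeal Q ≤ a.colon {g} := hp.le_of_pow_le (ha.trans h1)
    have h3 : a.colon {g} = maximalIdeal Q := le_antisymm (le_maximalIdeal hp.ne_top) h2
    have h4 : a < a ⊔ Ideal.span {g} := by
      refine lt_of_le_of_ne le_sup_left fun h => hg ?_
      rw [h]
      exact Ideal.mem_sup_right (Ideal.subset_span rfl)
    have h5 := ih _ h4 (ha.trans le_sup_left)
    have h6 : maximalIdeal Q' ≤ (Ideal.map j a ⊔ W).colon {j g} := by
      rw [hmax]
      refine sup_le ?_ fun r hr => ?_
      · rw [Ideal.map_le_iff_le_comap]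
        intro r hr
        have h7 := h2 hr
        rw [Submodule.mem_colon_singleton, smul_eq_mul] at h7
        rw [Ideal.mem_comap, Submodule.mem_colon_singleton, smul_eq_mul, ← map_mul]
        exact Ideal.mem_sup_left (Ideal.mem_map_of_mem _ h7)
      · rw [Submodule.mem_colon_singleton, smul_eq_mul]
        exact Ideal.mem_sup_right (W.mul_mem_right _ hr)
    rw [afLength_colon a g, afLength_colon (Ideal.map j a ⊔ W) (j g), h3, cA_length_max]
    refine add_le_add (cA_length_le_one h6) ?_
    rw [Ideal.map_sup, Ideal.map_span, Set.image_singleton, sup_right_comm] at h5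
    exact h5

section Frob
variable (p : ℕ) [Fact p.Prime] {Q : Type u} [CommRing Q] [CharP Q p]

theorem cA_map_frob_le (k : ℕ) (I : Ideal Q) : I.map (iterateFrobenius Q p k) ≤ I := by
  rw [Ideal.map_le_iff_le_comap]
  intro r hr
  rw [Ideal.mem_comap, iterateFrobenius_def]
  exact I.pow_mem_of_mem hr _ (pow_pos (Fact.out : p.Prime).pos k)

theorem cA_le_radical_frob (k : ℕ) (I : Ideal Q) :
    I ≤ (I.map (iterateFrobenius Q p k)).radical := fun r hr =>
  ⟨p ^ k, by rw [← iterateFrobenius_def]; exact Ideal.mem_map_of_mem _ hr⟩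

theorem cA_isLocalHom_frob (k : ℕ) : IsLocalHom (iterateFrobenius Q p k) :=
  ⟨fun a ha => by
    rw [iterateFrobenius_def] at ha
    exact (isUnit_pow_iff (pow_pos (Fact.out : p.Prime).pos k).ne').1 ha⟩

theorem cA_map_map_frob {Q' : Type v} [CommRing Q'] [CharP Q' p] (j : Q →+* Q') (k : ℕ)
    (I : Ideal Q) :
    (I.map (iterateFrobenius Q p k)).map j = (I.map j).map (iterateFrobenius Q' p k) := by
  rw [Ideal.map_map, Ideal.map_map]
  congr 1
  ext r
  simp only [RingHom.comp_apply, iterateFrobenius_def, map_pow]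

variable [IsLocalRing Q] [IsNoetherianRing Q]

theorem cA_exists_pow_le (k : ℕ) :
    ∃ N : ℕ, maximalIdeal Q ^ N ≤ (maximalIdeal Q).map (iterateFrobenius Q p k) :=
  Ideal.exists_pow_le_of_le_radical_of_fg (cA_le_radical_frob p k _) (IsNoetherian.noetherian _)

theorem cA_isSop_nil (k : ℕ) :
    IsSop (Q ⧸ (maximalIdeal Q).map (iterateFrobenius Q p k)) ([] : List Q) := by
  obtain ⟨N, hN⟩ := cA_exists_pow_le p (Q := Q) k
  exact isSop_quotient_iff.2 ⟨fun _ h => absurd h List.not_mem_nil, N, hN.trans le_sup_left⟩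

theorem cA_length_frob_ne_top (k : ℕ) :
    Module.length Q (Q ⧸ (maximalIdeal Q).map (iterateFrobenius Q p k)) ≠ ⊤ := by
  obtain ⟨N, hN⟩ := cA_exists_pow_le p (Q := Q) k
  refine length_ne_top_of_pow_smul (n := N) fun r hr x => ?_
  obtain ⟨x, rfl⟩ := Ideal.Quotient.mk_surjective x
  exact Ideal.Quotient.eq_zero_iff_mem.2 (Ideal.mul_mem_right x _ (hN hr))

theorem cA_frobLen_pos (k : ℕ) :
    0 < (Module.length Q (Q ⧸ (maximalIdeal Q).map (iterateFrobenius Q p k))).toNat := by
  have h : (maximalIdeal Q).map (iterateFrobenius Q p k) ≠ ⊤ :=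
    ne_top_of_le_ne_top (maximalIdeal.isMaximal Q).ne_top (cA_map_frob_le p k _)
  have := Ideal.Quotient.nontrivial_iff.2 h
  exact ENat.toNat_pos (Module.length_pos (R := Q)).ne' (cA_length_frob_ne_top p k)

theorem cA_isSop_frob (k : ℕ) {I : Ideal Q} {z : List Q} (hz : IsSop (Q ⧸ I) z) :
    IsSop (Q ⧸ I.map (iterateFrobenius Q p k)) z := by
  obtain ⟨h1, N, hN⟩ := isSop_quotient_iff.1 hz
  refine isSop_quotient_iff.2 ⟨h1, ?_⟩
  refine Ideal.exists_pow_le_of_le_radical_of_fg ?_ (IsNoetherian.noetherian _)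
  have h2 : I ⊔ Ideal.ofList z ≤ (I.map (iterateFrobenius Q p k) ⊔ Ideal.ofList z).radical :=
    sup_le ((cA_le_radical_frob p k I).trans (Ideal.radical_mono le_sup_left))
      (le_sup_right.trans Ideal.le_radical)
  intro r hr
  exact Ideal.mem_radical_of_pow_mem (h2 (hN (Ideal.pow_mem_pow hr N)))

theorem cA_mult_frob (hF : (frobenius Q p).Flat) (k : ℕ) {I : Ideal Q} {z : List Q}
    (hz : IsSop (Q ⧸ I) z) :
    ((p : ℤ) ^ k) ^ z.length * mult (Q ⧸ I.map (iterateFrobenius Q p k)) z = mult (Q ⧸ I) z *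
      (Module.length Q (Q ⧸ (maximalIdeal Q).map (iterateFrobenius Q p k))).toNat := by
  have := cA_isLocalHom_frob p (Q := Q) k
  have h1 := (mult_quotient_map (iterateFrobenius Q p k) (flat_iterateFrobenius p hF k) I hz
    (cA_isSop_nil p k)).2
  rw [List.append_nil, mult_nil] at h1
  have h2 := mult_pow (cA_isSop_frob p k hz) (pow_pos (Fact.out : p.Prime).pos k)
  have e : z.map (iterateFrobenius Q p k) = z.map (· ^ p ^ k) :=
    List.map_congr_left fun a _ => iterateFrobenius_def p k a
  rw [← h1, e, h2, Nat.cast_pow]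

theorem cA_length_frob_prime (hF : (frobenius Q p).Flat) (k : ℕ) (P : Ideal Q) [P.IsPrime] {d : ℕ}
    (hd : ringKrullDim (Q ⧸ P) = d) :
    ((p : ℤ) ^ k) ^ d * ((Module.length (Localization.AtPrime P) (Localization.AtPrime P ⧸
      (P.map (iterateFrobenius Q p k)).map (algebraMap Q (Localization.AtPrime P)))).toNat : ℤ) =
      (Module.length Q (Q ⧸ (maximalIdeal Q).map (iterateFrobenius Q p k))).toNat := by
  obtain ⟨z, hzd, hz⟩ := exists_isSop_quotient P hd.le
  have h1 := cA_mult_frob p hF k hz
  have hz' := cA_isSop_frob p k hz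
  have hP : IsSopP z (⊤ : Submodule Q Q) (P.map (iterateFrobenius Q p k)) := by
    obtain ⟨h2, N, hN⟩ := isSop_quotient_iff.1 hz'
    refine ⟨h2, N, fun r hr => ?_⟩
    obtain ⟨b, hb, a, ha, rfl⟩ := Submodule.mem_sup.1 (hN hr)
    refine ⟨a, ha, fun x _ => ?_⟩
    rw [add_sub_cancel_right]
    exact Ideal.mul_mem_right x _ hb
  have h2 := additive_eq_mul P (P.map (iterateFrobenius Q p k)) (cA_map_frob_le p k P)
    (cA_le_radical_frob p k P) d hd.le (fun A C => multP z (A : Submodule Q Q) C)
    (fun A B C hC hCB hBA => multP_add hCB hBA (hP.mono le_top hC))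
    (fun A g _ => by
      refine (multP_eq_of_map z (LinearMap.toSpanSingleton Q Q g) le_top le_sup_left
        (fun x _ => ?_) (fun x hx => ?_) (fun y hy => ?_) (fun x _ hx => ?_)).symm
      · exact Ideal.mem_sup_right (Ideal.mul_mem_left _ x (Ideal.subset_span rfl))
      · exact Submodule.mem_colon_singleton.1 hx
      · obtain ⟨a, ha, b, hb, rfl⟩ := Submodule.mem_sup.1 hy
        obtain ⟨c, rfl⟩ := Ideal.mem_span_singleton'.1 hb
        refine ⟨c, Submodule.mem_top, ?_⟩
        rw [LinearMap.toSpanSingleton_apply, smul_eq_mul, add_sub_cancel_right]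
        exact ha
      · exact Submodule.mem_colon_singleton.2 hx)
    (fun q _ hq hdq => by
      show multP z (⊤ : Submodule Q Q) q = 0
      rw [multP_top_eq_mult]
      refine mult_eq_zero_of_dim_lt
        (hz.of_surjective (Submodule.factor hq) (Submodule.factor_surjective hq)) q
        (fun r hr x => ?_) (by rwa [hzd])
      obtain ⟨x, rfl⟩ := Ideal.Quotient.mk_surjective x
      exact Ideal.Quotient.eq_zero_iff_mem.2 (Ideal.mul_mem_right x _ hr))
    1 ((Module.length (Localization.AtPrime P) (Localization.AtPrime P ⧸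
      (P.map (iterateFrobenius Q p k)).map (algebraMap Q (Localization.AtPrime P)))).toNat : ℤ)
    (fun q _ hq hdq => by
      obtain rfl : P = q := afEq_of_le hd.le le_rfl hdq hq
      have h3 : Module.length (Localization.AtPrime P) (Localization.AtPrime P ⧸
          P.map (algebraMap Q (Localization.AtPrime P))) = 1 := afLen_self ⟨P, inferInstance⟩
      rw [h3, one_mul, ENat.toNat_one, Nat.cast_one, mul_one])
  simp only [one_mul] at h2
  rw [multP_top_eq_mult, multP_top_eq_mult] at h2
  have h3 := mult_pos P hz (by rw [hd, hzd])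
  rw [hzd, h2] at h1
  exact mul_left_cancel₀ h3.ne' (by rw [← h1]; ring)

theorem cA_length_frob_loc (hF : (frobenius Q p).Flat) (k : ℕ) (I : Ideal Q) {d : ℕ}
    (hI : ringKrullDim (Q ⧸ I) ≤ d) (P : Ideal Q) [P.IsPrime] (_hIP : I ≤ P)
    (hd : ringKrullDim (Q ⧸ P) = d) :
    ((p : ℤ) ^ k) ^ d * ((Module.length (Localization.AtPrime P) (Localization.AtPrime P ⧸
      (I.map (iterateFrobenius Q p k)).map (algebraMap Q (Localization.AtPrime P)))).toNat : ℤ) =
    ((Module.length Q (Q ⧸ (maximalIdeal Q).map (iterateFrobenius Q p k))).toNat : ℤ) *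
      ((Module.length (Localization.AtPrime P) (Localization.AtPrime P ⧸
      I.map (algebraMap Q (Localization.AtPrime P)))).toNat : ℤ) := by
  have hc : CharP (Localization.AtPrime P) p := by
    rw [CharP.charP_iff_prime_eq_zero Fact.out, ← map_natCast (algebraMap Q _), CharP.cast_eq_zero,
      map_zero]
  have hs : IsSop (Localization.AtPrime P ⧸ I.map (algebraMap Q (Localization.AtPrime P)))
      ([] : List (Localization.AtPrime P)) := by
    refine isSop_quotient_iff.2 ⟨fun _ h => absurd h List.not_mem_nil, ?_⟩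
    refine Ideal.exists_pow_le_of_le_radical_of_fg ?_ (IsNoetherian.noetherian _)
    refine le_trans ?_ (Ideal.radical_mono le_sup_left)
    rw [Ideal.radical_eq_sInf]
    refine le_sInf ?_
    rintro q ⟨hq, hq'⟩
    have h1 : q.comap (algebraMap Q (Localization.AtPrime P)) ≤ P := by
      have h2 := Ideal.comap_mono (f := algebraMap Q (Localization.AtPrime P))
        (le_maximalIdeal hq'.ne_top)
      exact h2.trans (Localization.AtPrime.under_maximalIdeal (I := P)).le
    have h3 := afEq_of_le hI (Ideal.map_le_iff_le_comap.1 hq) hd h1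
    rw [← Localization.AtPrime.map_eq_maximalIdeal, Ideal.map_le_iff_le_comap]
    exact h3.ge
  have h1 := cA_mult_frob p (flat_frobenius_localization p hF P) k hs
  rw [mult_nil, mult_nil, List.length_nil, pow_zero, one_mul,
    ← Localization.AtPrime.map_eq_maximalIdeal, ← cA_map_map_frob, ← cA_map_map_frob] at h1
  rw [h1, ← cA_length_frob_prime p hF k P hd]
  ring

theorem cA_frobLen_le {Q' : Type v} [CommRing Q'] [IsLocalRing Q'] [IsNoetherianRing Q']
    [CharP Q' p] (j : Q →+* Q') (w : List Q')
    (hmax : maximalIdeal Q' = (maximalIdeal Q).map j ⊔ Ideal.ofList w) (k : ℕ) :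
    (Module.length Q' (Q' ⧸ (maximalIdeal Q').map (iterateFrobenius Q' p k))).toNat ≤
      (Module.length Q (Q ⧸ (maximalIdeal Q).map (iterateFrobenius Q p k))).toNat *
        (p ^ k) ^ w.length := by
  obtain ⟨N, hN⟩ := cA_exists_pow_le p (Q := Q) k
  have h1 := cA_length_map_le j _ hmax N _ hN
  have h2 := rl_sup_ofList_pow_le w (p ^ k)
    ((((maximalIdeal Q).map (iterateFrobenius Q p k)).map j : Ideal Q') : Submodule Q' Q')
  have e : w.map (· ^ p ^ k) = w.map (iterateFrobenius Q' p k) :=
    List.map_congr_left fun a _ => (iterateFrobenius_def p k a).symm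
  rw [rl_top, rl_top, smul_eq_mul, smul_eq_mul, Ideal.mul_top, Ideal.mul_top] at h2
  have h3 : (maximalIdeal Q').map (iterateFrobenius Q' p k) =
      ((maximalIdeal Q).map (iterateFrobenius Q p k)).map j ⊔ Ideal.ofList (w.map (· ^ p ^ k)) := by
    rw [hmax, Ideal.map_sup, cA_map_map_frob, e, Ideal.map_ofList]
  rw [h3]
  have h4 := h2.trans (mul_le_mul_right h1 _)
  have h5 := cA_length_frob_ne_top p (Q := Q) k
  generalize Module.length Q (Q ⧸ (maximalIdeal Q).map (iterateFrobenius Q p k)) = b at h4 h5 ⊢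
  lift b to ℕ using h5
  rw [ENat.toNat_natCast, mul_comm]
  refine ENat.toNat_le_of_le_natCast ?_
  rw [Nat.cast_mul, Nat.cast_pow]
  exact h4

end Frob

end Vale.Agent.P202
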