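import Vale.Agent.P202.HSMultAuxB
import Vale.Agent.P202.FrobFlat

/-! Auxiliary results for HSMult: the localisation inequality. -/

namespace Vale.Agent.P202.HS

open IsLocalRing Filter Topology TensorProduct

universe u v

theorem mult_baseChange_le {A : Type u} {B : Type u} [CommRing A] [IsLocalRing A]
    [IsNoetherianRing A] [CommRing B] [IsLocalRing B] [IsNoetherianRing B] [IsDomain B]
    [Algebra A B] [Module.Flat A B] (hinj : Function.Injective (algebraMap A B)) {Y : List A}
    (hY1 : ∀ a ∈ Y, a ∈ maximalIdeal A) (hY2 : maximalIdeal A ≤ Ideal.ofList Y)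
    (hdim : ringKrullDim A = Y.length) {z : List B} (hz1 : ∀ a ∈ z, a ∈ maximalIdeal B)
    (hz2 : maximalIdeal B ≤ Ideal.ofList z) (M : Type v) [AddCommGroup M] [Module A M]
    [hM : Module.Finite A M] : mult (B ⊗[A] M) z ≤ mult M Y := by
  have sY : ∀ (N : Type v) [AddCommGroup N] [Module A N], IsSop N Y := fun N _ _ =>
    isSop_of_le (N := 1) hY1 (by rwa [pow_one]) N
  have sz : ∀ (N : Type (max u v)) [AddCommGroup N] [Module B N], IsSop N z := fun N _ _ =>
    isSop_of_le (N := 1) hz1 (by rwa [pow_one]) N
  induction hM using IsNoetherianRing.induction_on_isQuotientEquivQuotientPrime A with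
  | subsingleton N => rw [mult_of_subsingleton, mult_of_subsingleton]
  | quotient N p f =>
    by_cases hp : p.1 = ⊥
    · have e : N ≃ₗ[A] A := f.trans (Submodule.quotEquivOfEqBot _ hp)
      have e' : B ⊗[A] N ≃ₗ[B] B :=
        (LinearEquiv.baseChange A B N A e).trans (AlgebraTensorModule.rid A B B)
      have h1 : mult B z ≤ 1 := mult_le_one_of_le hz1 hz2
      have h2 : 0 < mult (A ⧸ (⊥ : Ideal A)) Y := by
        refine mult_pos ⊥ (isSop_of_le (N := 1) hY1 (by rwa [pow_one]) _) ?_
        rw [ringKrullDim_eq_of_ringEquiv (RingEquiv.quotientBot A), hdim]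
      rw [mult_eq_of_equiv _ e', mult_eq_of_equiv _ (e.trans (Submodule.quotEquivOfEqBot _ rfl).symm)]
      omega
    · have hB : ringKrullDim B ≤ z.length := by
        rw [← ringKrullDim_eq_of_ringEquiv (RingEquiv.quotientBot B)]
        exact dim_le_of_isSop (isSop_of_le (N := 1) hz1 (by rwa [pow_one]) _)
      have hne : p.1.map (algebraMap A B) ≠ ⊥ := by
        rwa [Ne, Ideal.map_eq_bot_iff_of_injective hinj]
      have hk : ∀ r ∈ p.1, ∀ x : N, r • x = 0 := by
        intro r hr x
        apply f.injective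
        obtain ⟨z, hz⟩ := Ideal.Quotient.mk_surjective (f x)
        rw [map_smul, map_zero, ← hz, Algebra.smul_def, Ideal.Quotient.algebraMap_eq,
          Ideal.Quotient.eq_zero_iff_mem.mpr hr, zero_mul]
      have hk' : p.1.map (algebraMap A B) ≤ Module.annihilator B (B ⊗[A] N) := by
        rw [Ideal.map_le_iff_le_comap]
        intro r hr
        rw [Ideal.mem_comap, Module.mem_annihilator]
        intro x
        rw [algebraMap_smul]
        induction x with
        | zero => exact smul_zero _
        | tmul b n => rw [← TensorProduct.tmul_smul, hk r hr, TensorProduct.tmul_zero]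
        | add x y hx hy => rw [smul_add, hx, hy, add_zero]
      rw [mult_eq_zero_of_dim_lt (sz _) _ (fun r hr => Module.mem_annihilator.mp (hk' hr))
        (dim_quot_lt hB hne)]
      exact mult_nonneg (sY N)
  | exact N₁ N₂ N₃ f g hf hg hfg h₁ h₃ =>
    rw [mult_add_of_exact (sY N₂) f g hf hg hfg,
      mult_add_of_exact (sz (B ⊗[A] N₂)) (f.baseChange B) (g.baseChange B)
        (Module.Flat.lTensor_preserves_injective_linearMap f hf)
        (LinearMap.lTensor_surjective B hg) (Module.Flat.lTensor_exact B hfg)]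
    exact add_le_add h₁ h₃

theorem length_loc_le {A B S S' : Type*} [CommRing A] [CommRing B] [CommRing S] [CommRing S']
    [Algebra A B] [Algebra A S] [Algebra S S'] [Algebra B S'] [Algebra A S']
    [IsScalarTower A B S'] [IsScalarTower A S S'] (T : Submonoid S) [IsLocalization T S']
    (J : Ideal B) :
    Module.length S' (S' ⧸ J.map (algebraMap B S')) ≤
      Module.length B ((B ⊗[A] S) ⧸ (J • ⊤ : Submodule B (B ⊗[A] S))) := by
  let ψ : B ⊗[A] S →ₗ[B] S' :=
    LinearMap.liftBaseChange B (IsScalarTower.toAlgHom A S S').toLinearMap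
  let g : Ideal S' → Submodule B (B ⊗[A] S) := fun I => (I.restrictScalars B).comap ψ
  have hψ : ∀ s : S, ψ (1 ⊗ₜ s) = algebraMap S S' s := fun s => by
    simp [ψ]
  have hg : StrictMono g := by
    refine Monotone.strictMono_of_injective (fun I I' h x hx => h hx) fun I I' h => ?_
    rw [← IsLocalization.map_under T S' I, ← IsLocalization.map_under T S' I']
    congr 1
    ext s
    have h1 : (1 : B) ⊗ₜ[A] s ∈ g I ↔ (1 : B) ⊗ₜ[A] s ∈ g I' := by rw [h]
    simpa [g, hψ] using h1
  rw [Module.length_quotient, Module.length_quotient]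
  refine (Order.coheight_le_coheight_apply_of_strictMono g hg _).trans (Order.coheight_anti ?_)
  refine Submodule.smul_le.mpr fun r hr x _ => ?_
  change ψ (r • x) ∈ J.map (algebraMap B S')
  rw [map_smul, Algebra.smul_def]
  exact Ideal.mul_mem_right _ _ (Ideal.mem_map_of_mem _ hr)

theorem dim_le_of_integral {A S : Type*} [CommRing A] [CommRing S] [Algebra A S]
    [Algebra.IsIntegral A S] : ringKrullDim S ≤ ringKrullDim A :=
  Order.krullDim_le_of_strictMono (PrimeSpectrum.comap (algebraMap A S))
    fun _ _ h => Ideal.IsIntegral.comap_lt_comap (R := A) h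

theorem int_le_of_growth {a b : ℤ} {d : ℕ} {K : ℝ}
    (h : ∀ N : ℕ, 0 < N → (N : ℝ) ^ (d + 1) * a ≤ (N : ℝ) ^ (d + 1) * b + K * (N : ℝ) ^ d) :
    a ≤ b := by
  by_contra hab
  have h1 : (b : ℝ) + 1 ≤ a := by exact_mod_cast (by omega : b + 1 ≤ a)
  obtain ⟨N, hN⟩ := exists_nat_gt (max K 0)
  have hN0 : (0 : ℝ) < N := (le_max_right _ _).trans_lt hN
  have hK : K < N := (le_max_left _ _).trans_lt hN
  have h2 := h N (by exact_mod_cast hN0)
  have h3 : (0 : ℝ) < (N : ℝ) ^ d := by positivity
  have h4 : (N : ℝ) ^ (d + 1) * (b + 1) ≤ (N : ℝ) ^ (d + 1) * a :=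
    mul_le_mul_of_nonneg_left h1 (by positivity)
  have h5 : K * (N : ℝ) ^ d < N * (N : ℝ) ^ d := mul_lt_mul_of_pos_right hK h3
  rw [pow_succ] at h2 h4
  nlinarith

theorem mult_loc_le {A B S S' : Type*} [CommRing A] [CommRing B] [IsLocalRing B]
    [IsNoetherianRing B] [CommRing S] [CommRing S'] [IsLocalRing S'] [IsNoetherianRing S']
    [Algebra A B] [Algebra A S] [Module.Finite A S] [Algebra S S'] [Algebra B S'] [Algebra A S']
    [IsScalarTower A B S'] [IsScalarTower A S S'] (T : Submonoid S) [IsLocalization T S']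
    {z : List B} (hz : IsSop (B ⊗[A] S) z) (hz' : IsSop S' (z.map (algebraMap B S'))) :
    mult S' (z.map (algebraMap B S')) ≤ mult (B ⊗[A] S) z := by
  obtain ⟨K, hK⟩ := exists_length_pow_le hz
  refine int_le_of_growth (d := z.length) (K := K) fun N hN => le_trans ?_ (hK N hN)
  have h1 := mult_le_length (hz'.pow hN)
  rw [mult_pow hz' hN, List.length_map] at h1
  have e1 : Ideal.ofList ((z.map (algebraMap B S')).map (· ^ N)) =
      (Ideal.ofList (z.map (· ^ N))).map (algebraMap B S') := by
    rw [Ideal.map_ofList, List.map_map, List.map_map]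
    congr 2
    funext a
    simp
  rw [smul_eq_mul, Ideal.mul_top, e1] at h1
  have h2 := ENat.toNat_le_toNat (length_loc_le (A := A) (S := S) (S' := S') T
    (Ideal.ofList (z.map (· ^ N)))) (hz.pow hN).length_ne_top
  have h3 : (N : ℝ) ^ z.length * (mult S' (z.map (algebraMap B S')) : ℝ) ≤
      ((Module.length B ((B ⊗[A] S) ⧸ (Ideal.ofList (z.map (· ^ N)) • ⊤ :
        Submodule B (B ⊗[A] S)))).toNat : ℝ) := by
    have h4 := h1.trans (Int.ofNat_le.mpr h2)
    exact_mod_cast h4
  rw [pow_succ', mul_assoc]
  exact mul_le_mul_of_nonneg_left h3 (Nat.cast_nonneg _)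

theorem exists_pow_le_map {A S : Type*} [CommRing A] [CommRing S] [IsNoetherianRing S]
    [Algebra A S] [Algebra.IsIntegral A S] (P : Ideal S) [P.IsPrime] :
    ∃ N : ℕ, maximalIdeal (Localization.AtPrime P) ^ N ≤
      ((P.comap (algebraMap A S)).map (algebraMap A S)).map
        (algebraMap S (Localization.AtPrime P)) := by
  refine Ideal.exists_pow_le_of_le_radical_of_fg ?_ (IsNoetherian.noetherian _)
  rw [Ideal.radical_eq_sInf]
  refine le_sInf fun Q hQ => ?_
  obtain ⟨h1, h2⟩ := hQ
  have h3 : Q.comap (algebraMap S (Localization.AtPrime P)) ≤ P := by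
    refine le_trans (Ideal.comap_mono (le_maximalIdeal h2.ne_top)) ?_
    exact (Localization.AtPrime.under_maximalIdeal (I := P)).le
  have h4 : Q.comap (algebraMap S (Localization.AtPrime P)) = P := by
    by_contra hne
    have h5 := Ideal.IsIntegral.comap_lt_comap (R := A) (lt_of_le_of_ne h3 hne)
    rw [Ideal.map_le_iff_le_comap, Ideal.map_le_iff_le_comap] at h1
    exact absurd h1 (not_le_of_gt h5)
  rw [← Localization.AtPrime.map_eq_maximalIdeal, Ideal.map_le_iff_le_comap, h4]

theorem exists_mult_localization_le' {S : Type u} [CommRing S] [IsLocalRing S]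
    [IsNoetherianRing S] [IsAdicComplete (maximalIdeal S) S] (hS : EqChar S) {D : ℕ}
    {y : Fin D → S} (hy : IsReduction y)
    (hgen : LocGen (MvPowerSeries (Fin D) (ResidueField S)) D) (P : Ideal S) [P.IsPrime] (d : ℕ)
    (hd : (D : WithBot ℕ∞) ≤ d + ringKrullDim (S ⧸ P)) :
    ∃ y' : Fin d → S,
      IsSop (Localization.AtPrime P)
        (List.ofFn fun i => algebraMap S (Localization.AtPrime P) (y' i)) ∧
      mult (Localization.AtPrime P) (List.ofFn fun i => algebraMap S (Localization.AtPrime P) (y' i))
        ≤ mult S (List.ofFn y) := by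
  obtain ⟨Φ, h1, h2, h3, h4⟩ := exists_pres hS hy
  have e0 := ofList_XL (ResidueField S) D
  have e0' := (isSop_XL (ResidueField S) D (MvPowerSeries (Fin D) (ResidueField S))).1
  have e0'' : ringKrullDim (MvPowerSeries (Fin D) (ResidueField S)) =
      (XL (ResidueField S) D).length := by
    rw [List.length_ofFn, ringKrullDim_mvPowerSeries_field]
  have e1 : (XL (ResidueField S) D).map Φ = List.ofFn y := by
    rw [List.map_ofFn]
    exact congrArg List.ofFn (funext h1)
  have hdom := isDomain_ps (ResidueField S) D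
  have hnoeth : IsNoetherianRing (MvPowerSeries (Fin D) (ResidueField S)) := inferInstance
  clear h1
  generalize XL (ResidueField S) D = Y at e0 e0' e0'' e1
  let _ : Algebra (MvPowerSeries (Fin D) (ResidueField S)) S := Φ.toAlgebra
  have hfin : Module.Finite (MvPowerSeries (Fin D) (ResidueField S)) S := h2
  have hloc : IsLocalHom (algebraMap (MvPowerSeries (Fin D) (ResidueField S)) S) := h3
  have e2 := mult_restrict (A := MvPowerSeries (Fin D) (ResidueField S)) h4 S Y
  have e1' : Y.map (algebraMap (MvPowerSeries (Fin D) (ResidueField S)) S) = List.ofFn y := e1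
  rw [e1'] at e2
  rw [← e2]
  set A := MvPowerSeries (Fin D) (ResidueField S) with hA
  let p : Ideal A := P.comap (algebraMap A S)
  have hdim : ringKrullDim (S ⧸ P) ≤ ringKrullDim (A ⧸ p) := dim_le_of_integral
  obtain ⟨y', hy1, hy2⟩ := hgen p d (hd.trans (add_le_add_right hdim _))
  let _ : Algebra (Localization.AtPrime p) (Localization.AtPrime P) :=
    (Localization.localRingHom p P (algebraMap A S) rfl).toAlgebra
  have hmap : ∀ a : A, algebraMap (Localization.AtPrime p) (Localization.AtPrime P)
      (algebraMap A (Localization.AtPrime p) a) =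
      algebraMap S (Localization.AtPrime P) (algebraMap A S a) := fun a =>
    Localization.localRingHom_to_map p P (algebraMap A S) rfl a
  have : IsScalarTower A (Localization.AtPrime p) (Localization.AtPrime P) :=
    IsScalarTower.of_algebraMap_eq fun a => by
      rw [hmap, ← IsScalarTower.algebraMap_apply]
  let z : List (Localization.AtPrime p) :=
    List.ofFn fun i => algebraMap A (Localization.AtPrime p) (y' i)
  have hz1 : ∀ a ∈ z, a ∈ maximalIdeal (Localization.AtPrime p) := by
    intro a ha
    obtain ⟨i, rfl⟩ := List.mem_ofFn.mp ha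
    rw [← Localization.AtPrime.map_eq_maximalIdeal]
    exact Ideal.mem_map_of_mem _ (hy1 i)
  have hz2 : maximalIdeal (Localization.AtPrime p) ≤ Ideal.ofList z := by
    rw [← Localization.AtPrime.map_eq_maximalIdeal]
    refine hy2.trans (le_of_eq ?_)
    rw [ofList_ofFn, Ideal.map_span, ← Set.range_comp]
    rfl
  have e3 : (List.ofFn fun i => algebraMap S (Localization.AtPrime P) (algebraMap A S (y' i))) =
      z.map (algebraMap (Localization.AtPrime p) (Localization.AtPrime P)) := by
    rw [List.map_ofFn]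
    exact congrArg List.ofFn (funext fun i => (hmap (y' i)).symm)
  have hsop : IsSop (Localization.AtPrime P)
      (z.map (algebraMap (Localization.AtPrime p) (Localization.AtPrime P))) := by
    obtain ⟨N, hN⟩ := exists_pow_le_map (A := A) P
    refine isSop_of_le (N := N) (fun a ha => ?_) (hN.trans ?_) _
    · rw [← e3] at ha
      obtain ⟨i, rfl⟩ := List.mem_ofFn.mp ha
      rw [← Localization.AtPrime.map_eq_maximalIdeal]
      exact Ideal.mem_map_of_mem _ (hy1 i)
    · rw [← Ideal.map_ofList, Ideal.map_le_iff_le_comap, Ideal.map_le_iff_le_comap]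
      intro a ha
      rw [Ideal.mem_comap, Ideal.mem_comap, ← hmap]
      refine Ideal.mem_map_of_mem _ (hz2 ?_)
      rw [← Localization.AtPrime.map_eq_maximalIdeal]
      exact Ideal.mem_map_of_mem _ ha
  refine ⟨fun i => algebraMap A S (y' i), ?_, ?_⟩
  · rw [e3]
    exact hsop
  · rw [e3]
    refine (mult_loc_le (A := A) (S := S) P.primeCompl
      (isSop_of_le (N := 1) hz1 (by rwa [pow_one]) _) hsop).trans ?_
    exact mult_baseChange_le (IsLocalization.injective _ p.primeCompl_le_nonZeroDivisors)
      e0' e0.ge e0'' hz1 hz2 S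

end Vale.Agent.P202.HS
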