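import Vale.Agent.P202.Reduce
import Vale.Agent.P202.FrobFlat
import Vale.Agent.P202.HSMultAuxC

/-! Modules S1 and M6: multiplicity versus the symbol; the localisation inequality. -/

namespace Vale.Agent.P202

open IsLocalRing Filter Topology

universe u v

/-- (E^-) lower bound for the Hilbert-Samuel function of a finite module over a power series
ring. -/
theorem exists_mult_le_length (K : Type u) [Field K] (D : ℕ) (M : Type v) [AddCommGroup M]
    [Module (MvPowerSeries (Fin D) K) M] [Module.Finite (MvPowerSeries (Fin D) K) M] :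
    ∃ C : ℝ, ∀ N : ℕ, 0 < N →
      (N : ℝ) ^ (D + 1) * (mult M (List.ofFn (MvPowerSeries.X : Fin D → MvPowerSeries (Fin D) K)) : ℝ)
        ≤ (N : ℝ) * (D.factorial : ℝ) * (Module.length (MvPowerSeries (Fin D) K)
          (M ⧸ (maximalIdeal (MvPowerSeries (Fin D) K) ^ N • ⊤ :
            Submodule (MvPowerSeries (Fin D) K) M))).toNat + C * (N : ℝ) ^ D := by
  obtain ⟨C, -, hC⟩ := HS.lb_module K D M
  exact ⟨C, hC⟩

/-- The symbol is unchanged under restriction along a finite local map with trivial residue
field extension. -/
theorem mult_restrict_of_residue_surj {A : Type u} {B : Type v} [CommRing A] [IsLocalRing A]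
    [CommRing B] [IsLocalRing B] [Algebra A B] [IsLocalHom (algebraMap A B)]
    (h : ∀ b : B, ∃ a : A, b - algebraMap A B a ∈ maximalIdeal B) (M : Type*) [AddCommGroup M]
    [Module A M] [Module B M] [IsScalarTower A B M] (y : List A) :
    mult M y = mult M (y.map (algebraMap A B)) := HS.mult_restrict h M y

/-- (S1) the symbol of a reduction is at most the multiplicity (equal characteristic). -/
theorem mult_le_of_tendsto {T : Type u} [CommRing T] [IsLocalRing T] [IsNoetherianRing T]
    (hT : EqChar T) {d : ℕ} {x : Fin d → T} (hx : IsReduction x) {e : ℝ}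
    (he : Tendsto (hsSeq T d) atTop (𝓝 e)) : (mult T (List.ofFn x) : ℝ) ≤ e :=
  HS.mult_le_of_tendsto' hT hx he

/-- (LOC) the localisation inequality. -/
theorem exists_mult_localization_le {S : Type u} [CommRing S] [IsLocalRing S] [IsNoetherianRing S]
    [IsAdicComplete (maximalIdeal S) S] (hS : EqChar S) {D : ℕ} {y : Fin D → S} (hy : IsReduction y)
    (hgen : LocGen (MvPowerSeries (Fin D) (ResidueField S)) D) (P : Ideal S) [P.IsPrime] (d : ℕ)
    (hd : (D : WithBot ℕ∞) ≤ d + ringKrullDim (S ⧸ P)) :
    ∃ y' : Fin d → S,
      IsSop (Localization.AtPrime P) (List.ofFn fun i => algebraMap S (Localization.AtPrime P) (y' i)) ∧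
      mult (Localization.AtPrime P) (List.ofFn fun i => algebraMap S (Localization.AtPrime P) (y' i))
        ≤ mult S (List.ofFn y) := HS.exists_mult_localization_le' hS hy hgen P d hd

end Vale.Agent.P202
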