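import Vale.Agent.P202.ResolutionAux

/-! Module M5: minimal free resolutions of flat quotients over a regular closed fibre. -/

namespace Vale.Agent.P202

open IsLocalRing

universe u v

/-- `D` is exact in positive degrees: a cycle supported in degree `i > 0` is the boundary of a
vector supported in degree `i + 1`. -/
def ExactPos {T : Type*} [CommRing T] {ι : Type*} [Fintype ι] (D : Matrix ι ι T) (deg : ι → ℤ) :
    Prop := ∀ i : ℤ, 0 < i → ∀ v : ι → T, (∀ a, deg a ≠ i → v a = 0) → D.mulVec v = 0 →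
      ∃ w : ι → T, (∀ a, deg a ≠ i + 1 → w a = 0) ∧ v = D.mulVec w

theorem ExactPos.map {T T' : Type*} [CommRing T] [CommRing T'] {ι : Type*} [Fintype ι]
    {D : Matrix ι ι T} {deg : ι → ℤ} (hD : IsMC D deg) (h : ExactPos D deg) (f : T →+* T')
    (hf : f.Flat) : ExactPos (D.map f) deg :=
  fun i hi v hv h0 => Res.exact_map hD (h i hi) f hf v hv h0

theorem exists_resolution {R : Type u} {T : Type v} [CommRing R] [IsLocalRing R] [CommRing T]
    [IsLocalRing T] [IsNoetherianRing T] [Algebra R T] [IsLocalHom (algebraMap R T)]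
    [Module.Flat R T] (J : Ideal T) (hJ : J ≠ ⊤) [Module.Flat R (T ⧸ J)] (w : List T)
    (hw : RingTheory.Sequence.IsWeaklyRegular (T ⧸ (maximalIdeal R).map (algebraMap R T)) w)
    (hmax : maximalIdeal T = (maximalIdeal R).map (algebraMap R T) ⊔ Ideal.ofList w) :
    ∃ (ι : Type) (_ : Fintype ι) (_ : DecidableEq ι) (deg : ι → ℤ) (D : Matrix ι ι T) (a₀ : ι),
      IsMC D deg ∧ (∀ a, 0 ≤ deg a ∧ deg a ≤ w.length) ∧ (∀ a b, D a b ∈ maximalIdeal T) ∧
      (∀ a, deg a = 0 ↔ a = a₀) ∧ Ideal.span (Set.range (D a₀)) = J ∧ ExactPos D deg ∧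
      ∀ j ∈ J, ∃ H : Matrix ι ι T, IsHomog H deg (-1) ∧
        D * H + H * D = j • (1 : Matrix ι ι T) := by
  classical
  let Z : Submodule T (Unit → T) := Submodule.pi Set.univ fun _ => J
  have hZ : ∀ f, f ∈ Z ↔ f () ∈ J := fun f =>
    ⟨fun h => h () trivial, fun h _ _ => h⟩
  have hflat : Module.Flat R ((Unit → T) ⧸ Z) :=
    Module.Flat.of_linearEquiv ((Submodule.Quotient.equiv Z J (LinearEquiv.funUnique Unit T T) (by
      ext y
      simp only [Submodule.mem_map, hZ]
      exact ⟨fun ⟨f, h1, h2⟩ => h2 ▸ h1, fun h => ⟨fun _ => y, h, rfl⟩⟩)).restrictScalars R)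
  have hmem : ∀ (L : Ideal T) (t : T), Ideal.Quotient.mk ((maximalIdeal R).map (algebraMap R T)) t ∈
      (L • ⊤ : Submodule T (T ⧸ (maximalIdeal R).map (algebraMap R T))) ↔
      t ∈ (maximalIdeal R).map (algebraMap R T) ⊔ L := by
    intro L t
    rw [Ideal.smul_top_eq_map, Submodule.restrictScalars_mem, Ideal.Quotient.algebraMap_eq,
      Ideal.mem_quotient_iff_mem_sup, sup_comm]
  obtain ⟨ι, _, _, deg, D, E, h⟩ := Res.exists_isRes (maximalIdeal R)
    (fun j => (maximalIdeal R).map (algebraMap R T) ⊔ Ideal.ofList (w.take j))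
    (fun j => w.getD j 0) w.length (by simp) (by rw [List.take_length, hmax])
    (fun j hj => by
      rw [List.take_add_one, Ideal.ofList_append, sup_assoc, List.getElem?_eq_getElem hj,
        List.getD_eq_getElem _ _ hj, Option.toList_some, Ideal.ofList_singleton])
    (fun j hj t ht => by
      rw [List.getD_eq_getElem _ _ hj] at ht
      rw [← hmem] at ht ⊢
      rw [← Submodule.Quotient.mk_eq_zero] at ht ⊢
      refine hw.regular_mod_prev j hj ?_
      simp only [smul_zero]
      exact ht)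
    w.length 0 (by simp) Unit Z (fun z hz _ => le_maximalIdeal hJ ((hZ z).mp hz))
    (fun j hj => absurd hj (by simp))
  refine ⟨Unit ⊕ ι, inferInstance, inferInstance, Sum.elim (fun _ => 0) deg,
    Matrix.fromBlocks 0 E 0 D, .inl (), h.full_mc, ?_, h.full_mem, ?_, ?_, h.full_ex, ?_⟩
  · rintro (a | a)
    · simp
    · have := h.bd a
      simp only [Sum.elim_inr]; omega
  · rintro (a | a)
    · simp
    · have := h.bd a
      simp only [Sum.elim_inr, reduceCtorEq, iff_false]; omega
  · refine le_antisymm ?_ fun y hy => ?_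
    · rw [Ideal.span_le]
      rintro _ ⟨b | b, rfl⟩
      · simp
      · simpa using (hZ _).mp (h.mem (Pi.single b 1))
    · obtain ⟨v, -, hv⟩ := h.gen (fun _ => y) ((hZ _).mpr hy)
      rw [congrFun hv ()]
      exact Ideal.sum_mem _ fun b _ => Ideal.mul_mem_right _ _ (Ideal.subset_span ⟨.inr b, rfl⟩)
  · intro j hj
    refine Res.exists_homotopy h.full_mc ?_ j h.full_ex ?_
    · rintro (a | a)
      · simp
      · have := h.bd a
        simp only [Sum.elim_inr]; omega
    · rintro (a | a) ha
      · obtain ⟨v, h1, h2⟩ := h.full_zero (z := fun _ => j) ((hZ _).mpr hj)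
        refine ⟨v, h1, Eq.trans ?_ h2⟩
        funext b
        rcases b with b | b <;> simp
      · have := h.bd a
        simp only [Sum.elim_inr] at ha; omega

end Vale.Agent.P202
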