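import Vale.Agent.P202.GeoMain
import Vale.Agent.P202.Resolution
import Vale.Agent.P202.HSMult

/-! Auxiliary facts for part C of `Core0`: passing along surjective ring maps. -/

namespace Vale.Agent.P202.CoreC

open IsLocalRing

universe u v

section Surj
variable {A : Type u} {B : Type v} [CommRing A] [CommRing B] {f : A →+* B}

theorem comap_map_eq (hf : Function.Surjective f) {K : Ideal A} (hK : RingHom.ker f ≤ K) :
    (K.map f).comap f = K := by
  rw [Ideal.comap_map_of_surjective f hf, ← RingHom.ker_eq_comap_bot, sup_eq_left.mpr hK]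

theorem multP_comap [IsLocalRing B] [IsNoetherianRing B] (hf : Function.Surjective f)
    (y : List A) (K : Ideal B) :
    multP (y.map f) (⊤ : Submodule B B) K = multP y (⊤ : Submodule A A) (K.comap f) := by
  let _ := f.toAlgebra
  have h1 := multP_restrictScalars (Λ₀ := A) (Λ := B) (M := B) hf y ⊤ K
  refine h1.symm.trans (multP_eq_of_map y (Algebra.linearMap A B) le_top le_top
    (fun _ _ => trivial) (fun _ hx => hx) (fun b _ => ?_) fun _ _ hx => hx).symm
  obtain ⟨a, rfl⟩ := hf b
  exact ⟨a, trivial, by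
    change f a - f a ∈ _
    rw [sub_self]
    exact zero_mem _⟩

theorem mult_quot_map [IsLocalRing B] [IsNoetherianRing B] (hf : Function.Surjective f)
    (y : List A) {K : Ideal A}
    (hK : RingHom.ker f ≤ K) : mult (B ⧸ K.map f) (y.map f) = mult (A ⧸ K) y := by
  rw [← multP_top_eq_mult, ← multP_top_eq_mult, multP_comap hf, comap_map_eq hf hK]

theorem mult_quot_ker [IsLocalRing B] [IsNoetherianRing B] (hf : Function.Surjective f)
    (y : List A) :
    mult (A ⧸ RingHom.ker f) y = mult B (y.map f) := by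
  rw [← multP_top_eq_mult]
  exact (multP_comap hf y ⊥).symm

theorem pow_le_sup_ker [IsLocalRing A] [IsLocalRing B] (hf : Function.Surjective f) {N : ℕ}
    {K : Ideal A} (h : maximalIdeal B ^ N ≤ K.map f) : maximalIdeal A ^ N ≤ RingHom.ker f ⊔ K := by
  rw [← map_maximalIdeal_of_surjective f hf, ← Ideal.map_pow, Ideal.map_le_iff_le_comap,
    Ideal.comap_map_of_surjective f hf, sup_comm] at h
  exact h

theorem isSop_quot_ker [IsLocalRing A] [IsLocalRing B] [IsNoetherianRing A]
    (hf : Function.Surjective f) {y : List A} (hy : IsSop B (y.map f)) :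
    IsSop (A ⧸ RingHom.ker f) y := by
  obtain ⟨h1, N, h2⟩ := hy
  have := IsLocalHom.of_surjective f hf
  refine isSop_quotient_iff.mpr ⟨fun a ha => ?_, N, pow_le_sup_ker hf fun r hr => ?_⟩
  · rw [← maximalIdeal_comap f]
    exact h1 _ (List.mem_map_of_mem ha)
  · obtain ⟨a, ha, h3⟩ := h2 r hr
    have h4 : r - a = 0 := by simpa using h3 1 trivial
    rw [Ideal.map_ofList, sub_eq_zero.mp h4]
    exact ha

theorem isWeaklyRegular_map (hf : Function.Surjective f) {K : Ideal A} (hK : RingHom.ker f ≤ K)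
    {w : List A} (hw : RingTheory.Sequence.IsWeaklyRegular (A ⧸ K) w) :
    RingTheory.Sequence.IsWeaklyRegular (B ⧸ K.map f) (w.map f) := by
  let e : (A ⧸ K) ≃+* (B ⧸ K.map f) := RingEquiv.ofBijective
    (Ideal.quotientMap (K.map f) f Ideal.le_comap_map)
    ⟨Ideal.quotientMap_injective' (comap_map_eq hf hK).le, Ideal.quotientMap_surjective hf⟩
  refine (AddEquiv.isWeaklyRegular_congr (e := e.toAddEquiv) ?_).mp hw
  refine List.forall₂_map_right_iff.mpr (List.forall₂_same.mpr fun r _ x => ?_)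
  obtain ⟨x, rfl⟩ := Ideal.Quotient.mk_surjective x
  change Ideal.Quotient.mk (K.map f) (f (r * x)) = Ideal.Quotient.mk (K.map f) (f r * f x)
  rw [map_mul f]

theorem colon_map_of_surjective (hf : Function.Surjective f) {K : Ideal A}
    (hK : RingHom.ker f ≤ K) (a : A) : (K.map f).colon {f a} = (K.colon {a}).map f := by
  have hK' : RingHom.ker f ≤ K.colon {a} := fun r hr =>
    Submodule.mem_colon_singleton.mpr (K.mul_mem_right a (hK hr))
  ext b
  obtain ⟨r, rfl⟩ := hf b
  rw [Submodule.mem_colon_singleton, smul_eq_mul, ← map_mul, ← Ideal.mem_comap,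
    ← Ideal.mem_comap, comap_map_eq hf hK, comap_map_eq hf hK', Submodule.mem_colon_singleton,
    smul_eq_mul]

end Surj

theorem flat_quotientMap {A : Type u} {B : Type v} [CommRing A] [CommRing B] {j : A →+* B}
    (hj : j.Flat) (I : Ideal A) : (Ideal.quotientMap (I.map j) j Ideal.le_comap_map).Flat := by
  let _ := j.toAlgebra
  have : Module.Flat A B := hj
  have h1 : Module.Flat (A ⧸ I) (B ⧸ I.map (algebraMap A B)) :=
    Module.Flat.of_linearEquiv
      (Algebra.TensorProduct.quotIdealMapEquivQuotTensor B I).toLinearEquiv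
  exact RingHom.flat_algebraMap_iff.mpr h1

theorem ofList_ofFn {A : Type u} [CommRing A] {d : ℕ} (y : Fin d → A) :
    Ideal.ofList (List.ofFn y) = Ideal.span (Set.range y) := by
  rw [Ideal.ofList]
  refine congrArg Ideal.span (Set.ext fun t => ?_)
  simp [List.mem_ofFn]

theorem one_le_mult {T : Type u} [CommRing T] [IsLocalRing T] [IsNoetherianRing T] {K : Ideal T}
    {w : List T} (hw : RingTheory.Sequence.IsWeaklyRegular (T ⧸ K) w)
    (hmax : maximalIdeal T = K ⊔ Ideal.ofList w) : IsSop (T ⧸ K) w ∧ 1 ≤ mult (T ⧸ K) w := by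
  have h1 : IsSop (T ⧸ K) w := isSop_quotient_iff.mpr ⟨fun a ha => by
    rw [hmax]
    exact Ideal.mem_sup_right (Ideal.subset_span ha), 1, by rw [pow_one, hmax]⟩
  refine ⟨h1, ?_⟩
  rw [mult_eq_length_of_isRegular hw]
  have h2 : Module.length T ((T ⧸ K) ⧸ (Ideal.ofList w • ⊤ : Submodule T (T ⧸ K))) ≠ 0 := by
    rw [Ne, Module.length_eq_zero_iff, Submodule.Quotient.subsingleton_iff]
    intro h
    have h3 : Ideal.Quotient.mk K 1 ∈ (Ideal.ofList w • ⊤ : Submodule T (T ⧸ K)) := by
      rw [h]; trivial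
    rw [Ideal.smul_top_eq_map, Submodule.restrictScalars_mem, Ideal.Quotient.algebraMap_eq,
      Ideal.mem_quotient_iff_mem_sup, sup_comm, ← hmax] at h3
    exact (maximalIdeal.isMaximal T).ne_top ((Ideal.eq_top_iff_one _).mpr h3)
  have h3 := ENat.toNat_eq_zero.not.mpr (not_or.mpr ⟨h2, h1.length_ne_top⟩)
  omega

theorem kos_mem {T : Type u} [CommRing T] {K : Ideal T} {d : ℕ} {y : Fin d → T}
    (hy : ∀ i, y i ∈ K) (S S' : Finset (Fin d)) : kos y S S' ∈ K := by
  refine Ideal.sum_mem _ fun i _ => ?_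
  split_ifs
  · exact zsmul_mem (hy i) _
  · exact zero_mem _

theorem tensMat_mem {T : Type u} [CommRing T] {K : Ideal T} {ι κ : Type} [DecidableEq ι]
    [DecidableEq κ] {D : Matrix ι ι T} {E : Matrix κ κ T} (deg : ι → ℤ) (hD : ∀ a b, D a b ∈ K)
    (hE : ∀ a b, E a b ∈ K) (a b : ι × κ) : tensMat D deg E a b ∈ K := by
  refine add_mem ?_ ?_
  · split_ifs
    exacts [hD _ _, zero_mem _]
  · split_ifs
    exacts [zsmul_mem (hE _ _) _, zero_mem _]

end Vale.Agent.P202.CoreC
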