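import Vale.Agent.P202.GeoMain
import Vale.Agent.P202.Resolution
import Vale.Agent.P202.HSMult
import Vale.Agent.P202.Core0AuxC
import Vale.Agent.P202.Core0AuxA

/-! Module M8: the core inequality in characteristic `p`. -/

namespace Vale.Agent.P202

open IsLocalRing Filter Topology

universe u v w w'

/-! ### Part A: null-homotopic scalars and Frobenius lengths -/

/-- The scalars that are null-homotopic on the matrix complex `D`. -/
def nullIdeal {T : Type*} [CommRing T] {ι : Type*} [Fintype ι] [DecidableEq ι] (D : Matrix ι ι T)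
    (deg : ι → ℤ) : Ideal T where
  carrier := {z | ∃ H : Matrix ι ι T, IsHomog H deg (-1) ∧ D * H + H * D = z • (1 : Matrix ι ι T)}
  add_mem' := by
    rintro a b ⟨H, hH, ha⟩ ⟨H', hH', hb⟩
    refine ⟨H + H', fun i j h => ?_, ?_⟩
    · by_cases h1 : H i j = 0
      · rw [Matrix.add_apply, h1, zero_add] at h
        exact hH' i j h
      · exact hH i j h1
    · rw [add_smul, ← ha, ← hb, Matrix.mul_add, Matrix.add_mul]
      abel
  zero_mem' := ⟨0, fun _ _ h => absurd rfl h, by simp⟩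
  smul_mem' := by
    rintro c a ⟨H, hH, ha⟩
    refine ⟨c • H, fun i j h => hH i j (right_ne_zero_of_mul h), ?_⟩
    rw [Matrix.mul_smul, Matrix.smul_mul, ← smul_add, ha, smul_eq_mul, mul_smul]

theorem mem_nullIdeal {T : Type*} [CommRing T] {ι : Type*} [Fintype ι] [DecidableEq ι]
    {D : Matrix ι ι T} {deg : ι → ℤ} {z : T} : z ∈ nullIdeal D deg ↔
      ∃ H : Matrix ι ι T, IsHomog H deg (-1) ∧ D * H + H * D = z • (1 : Matrix ι ι T) := Iff.rfl

theorem map_nullIdeal_le {T T' : Type*} [CommRing T] [CommRing T'] {ι : Type*} [Fintype ι]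
    [DecidableEq ι] (D : Matrix ι ι T) (deg : ι → ℤ) (f : T →+* T') :
    (nullIdeal D deg).map f ≤ nullIdeal (D.map f) deg := by
  rw [Ideal.map_le_iff_le_comap]
  rintro z ⟨H, hH, hz⟩
  refine ⟨H.map f, fun i j h => hH i j fun h0 => h ?_, ?_⟩
  · rw [Matrix.map_apply, h0, map_zero]
  · rw [← Matrix.map_mul, ← Matrix.map_mul, ← Matrix.map_add _ (map_add f), hz]
    ext i j
    by_cases h : i = j <;> simp [h]

theorem IsMC.map {T T' : Type*} [CommRing T] [CommRing T'] {ι : Type*} [Fintype ι]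
    {D : Matrix ι ι T} {deg : ι → ℤ} (h : IsMC D deg) (f : T →+* T') : IsMC (D.map f) deg := by
  refine ⟨?_, fun i j h1 => h.homog i j fun h0 => h1 ?_⟩
  · rw [← Matrix.map_mul, h.sq, Matrix.map_zero _ (map_zero f)]
  · rw [Matrix.map_apply, h0, map_zero]

theorem tensMat_map {T T' : Type*} [CommRing T] [CommRing T'] {ι κ : Type*} [Fintype ι] [Fintype κ]
    [DecidableEq ι] [DecidableEq κ] (D : Matrix ι ι T) (deg : ι → ℤ) (E : Matrix κ κ T)
    (f : T →+* T') : (tensMat D deg E).map f = tensMat (D.map f) deg (E.map f) := by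
  ext x y
  simp only [Matrix.map_apply, tensMat, map_add, apply_ite f, map_zero, map_zsmul]

/-- The elements of `(y) + null(D)` are null-homotopic on Koszul tensor `D`. -/
theorem le_nullIdeal_kos_tensMat {T : Type*} [CommRing T] {ι : Type*} [Fintype ι] [DecidableEq ι]
    {D : Matrix ι ι T} {deg : ι → ℤ} {d : ℕ} (y : Fin d → T) :
    Ideal.span (Set.range y) ⊔ nullIdeal D deg ≤
      nullIdeal (tensMat (kos y) kdeg D) (tensDeg kdeg deg) := by
  refine sup_le (Ideal.span_le.2 ?_) ?_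
  · rintro _ ⟨i, rfl⟩
    have h := kos_mul_creMat y i 1
    rw [one_mul] at h
    exact tensMat_homotopy_left (isHomog_creMat i 1) h
  · rintro z ⟨H, hH, hz⟩
    exact tensMat_homotopy_right (kos_isHomog y) hH hz

section Frob
variable (p : ℕ) [Fact p.Prime] {Q : Type u} [CommRing Q] [IsLocalRing Q] [IsNoetherianRing Q]
  [CharP Q p]

/-- The length of `Q / 𝔪^{[p^k]}`. -/
noncomputable def frobLen (Q : Type u) [CommRing Q] [IsLocalRing Q] [CharP Q p] (k : ℕ) : ℕ :=
  (Module.length Q (Q ⧸ (maximalIdeal Q).map (iterateFrobenius Q p k))).toNat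

theorem length_frob_ne_top (k : ℕ) :
    Module.length Q (Q ⧸ (maximalIdeal Q).map (iterateFrobenius Q p k)) ≠ ⊤ :=
  cA_length_frob_ne_top p k
theorem frobLen_pos (k : ℕ) : 0 < frobLen p Q k := cA_frobLen_pos p k

/-- `q ^ d * l(Q_P / P^{[q]}) = l(Q / 𝔪^{[q]})` for `dim Q / P = d`. -/
theorem length_frob_prime (hF : (frobenius Q p).Flat) (k : ℕ) (P : Ideal Q) [P.IsPrime] {d : ℕ}
    (hd : ringKrullDim (Q ⧸ P) = d) :
    ((p : ℤ) ^ k) ^ d * ((Module.length (Localization.AtPrime P) (Localization.AtPrime P ⧸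
      (P.map (iterateFrobenius Q p k)).map (algebraMap Q (Localization.AtPrime P)))).toNat : ℤ) =
      frobLen p Q k := cA_length_frob_prime p hF k P hd

/-- The length hypothesis of `additive_eq_mul` for `I₀ = I^{[q]}`. -/
theorem length_frob_loc (hF : (frobenius Q p).Flat) (k : ℕ) (I : Ideal Q) {d : ℕ}
    (hI : ringKrullDim (Q ⧸ I) ≤ d) (P : Ideal Q) [P.IsPrime] (hIP : I ≤ P)
    (hd : ringKrullDim (Q ⧸ P) = d) :
    ((p : ℤ) ^ k) ^ d * ((Module.length (Localization.AtPrime P) (Localization.AtPrime P ⧸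
      (I.map (iterateFrobenius Q p k)).map (algebraMap Q (Localization.AtPrime P)))).toNat : ℤ) =
    (frobLen p Q k : ℤ) * ((Module.length (Localization.AtPrime P) (Localization.AtPrime P ⧸
      I.map (algebraMap Q (Localization.AtPrime P)))).toNat : ℤ) :=
  cA_length_frob_loc p hF k I hI P hIP hd

theorem frobLen_le {Q' : Type v} [CommRing Q'] [IsLocalRing Q'] [IsNoetherianRing Q'] [CharP Q' p]
    (j : Q →+* Q') (w : List Q')
    (hmax : maximalIdeal Q' = (maximalIdeal Q).map j ⊔ Ideal.ofList w) (k : ℕ) :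
    frobLen p Q' k ≤ frobLen p Q k * (p ^ k) ^ w.length := cA_frobLen_le p j w hmax k

omit [IsLocalRing Q] [IsNoetherianRing Q] in
/-- The relative Frobenius `Q / I → Q / I^{[q]}` is flat. -/
theorem exists_relFrob (hF : (frobenius Q p).Flat) (k : ℕ) (I : Ideal Q) :
    ∃ ψ : Q ⧸ I →+* Q ⧸ I.map (iterateFrobenius Q p k), ψ.Flat ∧
      ∀ a : Q, ψ (Ideal.Quotient.mk I a) = Ideal.Quotient.mk _ (a ^ p ^ k) :=
  ⟨_, cA_flat_quotientMap _ (flat_iterateFrobenius p hF k) I, fun a => by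
    rw [Ideal.quotientMap_mk, iterateFrobenius_def]⟩
end Frob

/-- Colon ideals commute with flat extension. -/
theorem colon_map_of_flat {A : Type u} {B : Type v} [CommRing A] [CommRing B] (f : A →+* B)
    (hf : f.Flat) (I : Ideal A) (a : A) :
    (I.map f).colon {f a} = (I.colon {a}).map f :=
  @cA_colon_map A B _ _ f.toAlgebra hf I a

/-! ### Part B: the Euler characteristic as an additive functional -/

/-- The Euler characteristic of Koszul(`y`) tensor `D` tensor `A / C`. -/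
noncomputable def chiKos {T : Type*} [CommRing T] {ι : Type*} [Fintype ι] {d : ℕ} (y : Fin d → T)
    (D : Matrix ι ι T) (deg : ι → ℤ) (A C : Ideal T) : ℤ :=
  eul (tot (kos y) kdeg (tot D deg (0 : T →ₗ[T] T)))
    (totFam kdeg fun _ => totFam deg fun _ => conc (A : Submodule T T))
    (totFam kdeg fun _ => totFam deg fun _ => conc (C : Submodule T T))

section ChiAux
variable {T : Type*} [CommRing T] {ι : Type*} [Fintype ι] {d : ℕ} {D : Matrix ι ι T} {deg : ι → ℤ}

theorem Chi.pair (y : Fin d → T) (hD : IsMC D deg) {A C : Ideal T} (h : C ≤ A) :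
    IsPair (tot (kos y) kdeg (tot D deg (0 : T →ₗ[T] T)))
      (totFam kdeg fun _ => totFam deg fun _ => conc (A : Submodule T T))
      (totFam kdeg fun _ => totFam deg fun _ => conc (C : Submodule T T)) :=
  (isTotPair_kos (isTotPair_conc hD h).isPair.dd (fun _ => (isTotPair_conc hD h).isPair)
    (fun _ _ _ _ _ hx => Submodule.smul_mem _ _ hx) fun _ _ _ _ _ hx =>
      Submodule.smul_mem _ _ hx).isPair

theorem Chi.mem_fam {A : Ideal T} {i : ℤ} {v : ι → T} :
    v ∈ totFam deg (fun _ => conc (A : Submodule T T)) i ↔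
      ∀ a, v a ∈ A ∧ (deg a ≠ i → v a = 0) := by
  simp only [mem_totFam, mem_conc, ne_eq, sub_eq_zero, eq_comm (a := i)]

theorem Chi.tot_eq (v : ι → T) : tot D deg (0 : T →ₗ[T] T) v = D.mulVec v := by
  funext a
  simp [tot_apply, Matrix.mulVec, dotProduct]

theorem Chi.kill [DecidableEq ι] {z : T} (hz : z ∈ nullIdeal D deg) {A C : Ideal T} {i : ℤ}
    {x : ι → T} (hx : x ∈ cyc (tot D deg (0 : T →ₗ[T] T))
      (totFam deg fun _ => conc (A : Submodule T T))
      (totFam deg fun _ => conc (C : Submodule T T)) i) :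
    z • x ∈ bdy (tot D deg (0 : T →ₗ[T] T)) (totFam deg fun _ => conc (A : Submodule T T))
      (totFam deg fun _ => conc (C : Submodule T T)) i := by
  obtain ⟨H, hH, e⟩ := hz
  rw [mem_cyc] at hx
  have h1 := matAct_mem_totFam hH (fun _ _ _ _ h => Submodule.smul_mem _ _ h) _ _ hx.1
  have h2 := matAct_mem_totFam hH (fun _ _ _ _ h => Submodule.smul_mem _ _ h) _ _ hx.2
  rw [sub_neg_eq_add] at h1 h2
  rw [sub_add_cancel] at h2
  refine mem_bdy.2 ⟨_, h1, ?_⟩
  rwa [← matAct_smul_one, ← e, ← tot_matAct_homotopy hH 0, add_sub_cancel_left]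

theorem Chi.iso_conc {B B' M M' : Type*} [CommRing B] [Algebra T B] [AddCommGroup M] [Module B M]
    [Module T M] [IsScalarTower T B M] [CommRing B'] [Algebra T B'] [AddCommGroup M'] [Module B' M']
    [Module T M'] [IsScalarTower T B' M'] (φ : M →ₗ[T] M') {P Q : Submodule T M}
    {P' Q' : Submodule T M'} (h1 : ∀ x ∈ P, φ x ∈ P') (h2 : ∀ x ∈ Q, φ x ∈ Q')
    (h3 : ∀ y ∈ P', ∃ x ∈ P, y - φ x ∈ Q') (h4 : ∀ x ∈ P, φ x ∈ Q' → x ∈ Q) :
    PairIso (0 : M →ₗ[B] M) (conc P) (conc Q) (0 : M' →ₗ[B'] M') (conc P') (conc Q') φ 1 0 := by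
  refine ⟨fun i => ?_, fun i => ?_, fun i y hy => ?_, fun i x hx hx' => ?_, fun i x _ => by simp⟩
  · rw [add_zero]
    exact Lb.conc_map (map_zero _) h1 i
  · rw [add_zero]
    exact Lb.conc_map (map_zero _) h2 i
  · rw [add_zero] at hy ⊢
    unfold conc at hy ⊢
    split_ifs at hy ⊢
    · exact h3 y hy
    · exact ⟨0, zero_mem _, by simpa using hy⟩
  · rw [add_zero] at hx'
    unfold conc at hx hx' ⊢
    split_ifs at hx hx' ⊢
    · exact h4 x hx hx'
    · exact hx

theorem Chi.iso {T' : Type*} [CommRing T'] [Algebra T T'] (y : Fin d → T) (hD : IsMC D deg)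
    (φ : T →ₗ[T] T') {P Q : Submodule T T} {P' Q' : Submodule T T'}
    (h : PairIso (0 : T →ₗ[T] T) (conc P) (conc Q) (0 : T' →ₗ[T'] T') (conc P') (conc Q') φ 1 0) :
    PairIso (tot (kos y) kdeg (tot D deg (0 : T →ₗ[T] T)))
      (totFam kdeg fun _ => totFam deg fun _ => conc P)
      (totFam kdeg fun _ => totFam deg fun _ => conc Q)
      (tot (kos fun i => algebraMap T T' (y i)) kdeg
        (tot (D.map (algebraMap T T')) deg (0 : T' →ₗ[T'] T')))
      (totFam kdeg fun _ => totFam deg fun _ => conc P')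
      (totFam kdeg fun _ => totFam deg fun _ => conc Q') (totMap kdeg (totMap deg φ 1) 1) 1 0 := by
  refine PairIso.tot (isMC_kos _).homog (isMC_kos _).homog (fun _ => PairIso.tot hD.homog
    (hD.map _).homog (fun _ => h) fun a b j _ x _ => ?_) fun S S' j _ x _ => ?_
  · rw [map_smul, Matrix.map_apply, algebraMap_smul, sub_self]
    exact zero_mem _
  · rw [kos_semilinear _ (fun i => algebraMap T T' (y i)) _ fun _ _ => by
      rw [map_smul, algebraMap_smul], sub_self]
    exact zero_mem _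

theorem Chi.hyp [IsLocalRing T] [IsNoetherianRing T] [DecidableEq ι] {y : Fin d → T} {J : Ideal T}
    (hD : IsMC D deg) (hJ : J ≤ nullIdeal D deg) (hy : IsSop (T ⧸ J) (List.ofFn y))
    {A C : Ideal T} (h : C ≤ A) :
    (∀ i, IsSopP (List.ofFn y) (cyc (tot D deg (0 : T →ₗ[T] T))
      (totFam deg fun _ => conc (A : Submodule T T))
      (totFam deg fun _ => conc (C : Submodule T T)) i) (bdy (tot D deg (0 : T →ₗ[T] T))
      (totFam deg fun _ => conc (A : Submodule T T))
      (totFam deg fun _ => conc (C : Submodule T T)) i)) ∧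
    FinH (tot (kos y) kdeg (tot D deg (0 : T →ₗ[T] T)))
      (totFam kdeg fun _ => totFam deg fun _ => conc (A : Submodule T T))
      (totFam kdeg fun _ => totFam deg fun _ => conc (C : Submodule T T)) ∧
    chiKos y D deg A C = ∑ i ∈ Finset.univ.image deg, sgn i * multP (List.ofFn y)
      (cyc (tot D deg (0 : T →ₗ[T] T)) (totFam deg fun _ => conc (A : Submodule T T))
        (totFam deg fun _ => conc (C : Submodule T T)) i)
      (bdy (tot D deg (0 : T →ₗ[T] T)) (totFam deg fun _ => conc (A : Submodule T T))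
        (totFam deg fun _ => conc (C : Submodule T T)) i) := by
  obtain ⟨h1, N, hN⟩ := isSop_quotient_iff.1 hy
  have hs : ∀ i, IsSopP (List.ofFn y) (cyc (tot D deg (0 : T →ₗ[T] T))
      (totFam deg fun _ => conc (A : Submodule T T))
      (totFam deg fun _ => conc (C : Submodule T T)) i) (bdy (tot D deg (0 : T →ₗ[T] T))
      (totFam deg fun _ => conc (A : Submodule T T))
      (totFam deg fun _ => conc (C : Submodule T T)) i) := fun i => ⟨h1, N, fun r hr => by
    obtain ⟨j, hj, a, ha, rfl⟩ := Submodule.mem_sup.1 (hN hr)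
    exact ⟨a, ha, fun x hx => by
      rw [add_sub_cancel_right]
      exact Chi.kill (hJ hj) hx⟩⟩
  refine ⟨hs, finH_eul_kos_hyp y (isTotPair_conc hD h).isPair _ (fun i hi => ?_) hs⟩
  have hne : ∀ a, deg a ≠ i := fun a e => hi (Finset.mem_image.2 ⟨a, Finset.mem_univ a, e⟩)
  ext v
  rw [Chi.mem_fam, Chi.mem_fam]
  exact forall_congr' fun a => ⟨fun h => ⟨h.2 (hne a) ▸ zero_mem _, h.2⟩,
    fun h => ⟨h.2 (hne a) ▸ zero_mem _, h.2⟩⟩

end ChiAux

section Chi
variable {T : Type v} [CommRing T] [IsLocalRing T] [IsNoetherianRing T] {ι : Type} [Fintype ι]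
  [DecidableEq ι] {d : ℕ} {y : Fin d → T} {D : Matrix ι ι T} {deg : ι → ℤ} {J : Ideal T}

theorem chiKos_add (hD : IsMC D deg) (hJ : J ≤ nullIdeal D deg) (hy : IsSop (T ⧸ J) (List.ofFn y))
    {A B C : Ideal T} (hCB : C ≤ B) (hBA : B ≤ A) :
    chiKos y D deg A C = chiKos y D deg A B + chiKos y D deg B C :=
  eul_add (Chi.pair y hD hBA) (Chi.pair y hD hCB) (Chi.hyp hD hJ hy hBA).2.1
    (Chi.hyp hD hJ hy hCB).2.1
omit [IsLocalRing T] [IsNoetherianRing T] [DecidableEq ι] in
theorem chiKos_cyc (hD : IsMC D deg) (A : Ideal T) (g : T) :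
    chiKos y D deg (A ⊔ Ideal.span {g}) A = chiKos y D deg ⊤ (A.colon {g}) := by
  have := (Chi.iso y hD (LinearMap.mulRight T g) (Chi.iso_conc (P := ⊤) (Q := A.colon {g})
    (P' := A ⊔ Ideal.span {g}) (Q' := A) _
    (fun x _ => Ideal.mem_sup_right (Ideal.mul_mem_left _ _ (Ideal.mem_span_singleton_self g)))
    (fun x hx => Submodule.mem_colon_singleton.1 hx) (fun z hz => by
      obtain ⟨a, ha, b, hb, rfl⟩ := Submodule.mem_sup.1 hz
      obtain ⟨c, rfl⟩ := Ideal.mem_span_singleton'.1 hb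
      exact ⟨c, trivial, by simpa using ha⟩)
    fun x _ hx => Submodule.mem_colon_singleton.2 hx)).eul_eq (Chi.pair y hD le_top)
    (Chi.pair y hD le_sup_left)
  rwa [sgn_zero, one_mul] at this
theorem chiKos_eq_zero (hD : IsMC D deg) (hJ : J ≤ nullIdeal D deg)
    (hy : IsSop (T ⧸ J) (List.ofFn y)) (C : Ideal T) (hC : ringKrullDim (T ⧸ (J ⊔ C)) < d) :
    chiKos y D deg ⊤ C = 0 := by
  obtain ⟨h1, -, h2⟩ := Chi.hyp hD hJ hy (le_top : C ≤ ⊤)
  rw [h2]
  refine Finset.sum_eq_zero fun i _ => ?_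
  rw [multP_eq_mult _ ((isTotPair_conc hD le_top).isPair.bdy_le_cyc i),
    mult_eq_zero_of_dim_lt (isSopP_iff_isSop.1 (h1 i)) (J ⊔ C) ?_ (by simpa using hC), mul_zero]
  rintro r hr ⟨_, x, hx, rfl⟩
  refine Subtype.ext ?_
  rw [Submodule.coe_smul, ← map_smul, Submodule.coe_zero, Submodule.mkQ_apply,
    Submodule.Quotient.mk_eq_zero]
  obtain ⟨j, hj, c, hc, rfl⟩ := Submodule.mem_sup.1 hr
  rw [add_smul]
  refine add_mem (Chi.kill (hJ hj) hx) (les_bot_le_bdy (Chi.mem_fam.2 fun a =>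
    ⟨C.mul_mem_right _ hc, fun h => ?_⟩))
  rw [Pi.smul_apply, (Chi.mem_fam.1 (mem_cyc.1 hx).1 a).2 h, smul_zero]
theorem chiKos_top_bot (hD : IsMC D deg) (hJ : J ≤ nullIdeal D deg)
    (hy : IsSop (T ⧸ J) (List.ofFn y)) (hdeg : ∀ a, 0 ≤ deg a) {a₀ : ι}
    (h0 : ∀ a, deg a = 0 ↔ a = a₀) (hrow : Ideal.span (Set.range (D a₀)) = J)
    (hex : ExactPos D deg) : chiKos y D deg ⊤ ⊥ = mult (T ⧸ J) (List.ofFn y) := by
  have hb : ∀ i (v : ι → T), v ∈ totFam deg (fun _ => conc ((⊥ : Ideal T) : Submodule T T)) i ↔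
      v = 0 := fun i v => by
    rw [Chi.mem_fam, funext_iff]
    exact forall_congr' fun a => ⟨fun h => h.1, fun h => ⟨h, fun _ => h⟩⟩
  have hle := (isTotPair_conc hD (bot_le : ⊥ ≤ (⊤ : Ideal T))).isPair.bdy_le_cyc
  have ha₀ := (h0 a₀).2 rfl
  rw [(Chi.hyp hD hJ hy bot_le).2.2, Finset.sum_eq_single 0 (fun i hi hi0 => ?_)
    fun h => (h (Finset.mem_image.2 ⟨a₀, Finset.mem_univ _, ha₀⟩)).elim, sgn_zero, one_mul,
    ← multP_top_eq_mult]
  · refine multP_eq_of_map _ (LinearMap.proj a₀) (hle 0) le_top (fun _ _ => trivial)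
      (fun x hx => ?_) (fun t _ => ⟨Pi.single a₀ t, mem_cyc.2 ⟨Chi.mem_fam.2 fun a =>
        ⟨trivial, fun h => Pi.single_eq_of_ne (fun e => h ((h0 a).2 e)) _⟩, ?_⟩, by simp⟩)
      fun x hx hx' => ?_
    · obtain ⟨w, -, hw⟩ := mem_bdy.1 hx
      rw [hb, sub_eq_zero, Chi.tot_eq] at hw
      rw [hw, ← hrow]
      exact Ideal.sum_mem _ fun b _ => Ideal.mul_mem_right _ _ (Ideal.subset_span ⟨b, rfl⟩)
    · rw [hb, Chi.tot_eq]
      funext a
      have : D a a₀ = 0 := by_contra fun e => by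
        have := hD.homog a a₀ e
        have := hdeg a
        omega
      simp [this]
    · rw [← hrow] at hx'
      obtain ⟨c, hc⟩ := Ideal.mem_span_range_iff_exists_fun.1 hx'
      refine mem_bdy.2 ⟨fun b => if deg b = 1 then c b else 0, Chi.mem_fam.2 fun b =>
        ⟨trivial, fun h => if_neg (by simpa using h)⟩, ?_⟩
      rw [hb, sub_eq_zero, Chi.tot_eq]
      funext a
      by_cases e : a = a₀
      · subst e
        refine hc.symm.trans (Finset.sum_congr rfl fun b _ => ?_)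
        change c b * D a b = D a b * (if deg b = 1 then c b else 0)
        by_cases e' : D a b = 0
        · simp [e']
        · rw [if_pos (by rw [hD.homog a b e', ha₀, zero_add]), mul_comm]
      · rw [(Chi.mem_fam.1 (mem_cyc.1 hx).1 a).2 fun h => e ((h0 a).1 h)]
        refine (Finset.sum_eq_zero fun b _ => ?_).symm
        change D a b * (if deg b = 1 then c b else 0) = 0
        by_cases e' : D a b = 0
        · rw [e', zero_mul]
        · rw [if_neg fun h => e ((h0 a).1 (by have := hD.homog a b e'; omega)), mul_zero]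
  · obtain ⟨a, -, rfl⟩ := Finset.mem_image.1 hi
    rw [← le_antisymm (hle _) fun x hx => ?_, multP_self, mul_zero]
    rw [mem_cyc, hb, Chi.tot_eq, Chi.mem_fam] at hx
    obtain ⟨w, hw, e⟩ := hex _ (lt_of_le_of_ne (hdeg a) (Ne.symm hi0)) x (fun b => (hx.1 b).2) hx.2
    exact mem_bdy.2 ⟨w, Chi.mem_fam.2 fun b => ⟨trivial, hw b⟩, by
      rw [hb, sub_eq_zero, Chi.tot_eq, e]⟩
omit [IsLocalRing T] [IsNoetherianRing T] [DecidableEq ι] in
/-- Passing to a quotient ring. -/
theorem chiKos_map_surjective {T' : Type w} [CommRing T'] (f : T →+* T')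
    (hf : Function.Surjective f) (hD : IsMC D deg) :
    chiKos y D deg ⊤ (RingHom.ker f) = chiKos (fun i => f (y i)) (D.map f) deg ⊤ ⊥ := by
  let _ := f.toAlgebra
  have p' := Chi.pair (fun i => f (y i)) (hD.map f) (bot_le : ⊥ ≤ (⊤ : Ideal T'))
  have e : ∀ A : Ideal T', (totFam kdeg fun _ : Finset (Fin d) => totFam deg fun _ =>
      conc (A.restrictScalars T)) = fun i => ((totFam kdeg fun _ : Finset (Fin d) =>
        totFam deg fun _ => conc (A : Submodule T' T')) i).restrictScalars T := fun A => by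
    ext i v
    simp only [mem_totFam, mem_conc, Submodule.restrictScalars_mem]
  have := (Chi.iso y hD (Algebra.linearMap T T') (Chi.iso_conc (P := ⊤) (Q := RingHom.ker f)
    (P' := (⊤ : Ideal T').restrictScalars T) (Q' := (⊥ : Ideal T').restrictScalars T) _
    (fun _ _ => trivial) (fun _ hx => hx) (fun z _ => by
      obtain ⟨x, rfl⟩ := hf z
      exact ⟨x, trivial, sub_self _⟩) fun _ _ hx => hx)).eul_eq (Chi.pair y hD le_top)
    (by
      rw [e, e]
      exact ⟨p'.dd, p'.top, p'.bot, p'.le⟩)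
  rw [sgn_zero, one_mul, e, e] at this
  refine this.symm.trans (finsum_congr fun i => ?_)
  rw [hl, hl, ← rl_restrictScalars (T₀ := T) hf]
  congr 4
  ext x
  simp only [mem_bdy, Submodule.restrictScalars_mem]
  rfl
theorem chiMat_tensMat_kos :
    chiMat (tensMat (kos y) kdeg D) (tensDeg kdeg deg) ⊤ = chiKos y D deg ⊤ ⊥ :=
  finsum_congr fun i => by
    rw [hl_tot_tensMat (fun _ _ => conc ((⊤ : Ideal T) : Submodule T T))
      (fun _ _ => conc (⊥ : Submodule T T)) i]

/-- The additive functional `A / C ↦ χ(K(y) ⊗ D ⊗ A T / C T)` on the subquotients of `Λ / I₀`. -/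
theorem chiKos_rel {Λ : Type u} [CommRing Λ] [IsLocalRing Λ] [IsNoetherianRing Λ] (g : Λ →+* T)
    [IsLocalHom g] (I I₀ : Ideal Λ) (hI : I₀ ≤ I) (hrad : I ≤ I₀.radical)
    (hcol : ∀ (A : Ideal Λ) (a : Λ), I₀ ≤ A → (A.map g).colon {g a} = (A.colon {a}).map g)
    (hdim : ringKrullDim (Λ ⧸ I) ≤ d) (hD : IsMC D deg) (hJ : J ≤ nullIdeal D deg)
    (hy : IsSop (T ⧸ J) (List.ofFn y)) {N : ℕ}
    (hN : maximalIdeal T ^ N ≤ J ⊔ (maximalIdeal Λ).map g) (a b : ℤ)
    (hlen : ∀ (p : Ideal Λ) [p.IsPrime], I ≤ p → ringKrullDim (Λ ⧸ p) = d →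
      a * ((Module.length (Localization.AtPrime p) (Localization.AtPrime p ⧸
        I₀.map (algebraMap Λ (Localization.AtPrime p)))).toNat : ℤ) =
      b * ((Module.length (Localization.AtPrime p) (Localization.AtPrime p ⧸
        I.map (algebraMap Λ (Localization.AtPrime p)))).toNat : ℤ)) :
    a * chiKos y D deg ⊤ (I₀.map g) = b * chiKos y D deg ⊤ (I.map g) := by
  have := additive_eq_mul I I₀ hI hrad d hdim (fun A C => chiKos y D deg (A.map g) (C.map g))
    (fun A B C _ h1 h2 => chiKos_add hD hJ hy (Ideal.map_mono h1) (Ideal.map_mono h2))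
    (fun A a hA => by
      rw [Ideal.map_sup, Ideal.map_span, Set.image_singleton, chiKos_cyc hD, hcol A a hA,
        Ideal.map_top])
    (fun p hp _ hd => by
      obtain ⟨s, rfl⟩ : ∃ s, d = s + 1 := ⟨d - 1, by
        have h0 : (0 : WithBot ℕ∞) < d := lt_of_le_of_lt ringKrullDim_nonneg_of_nontrivial hd
        have : 0 < d := by exact_mod_cast h0
        omega⟩
      obtain ⟨z, hz, hs⟩ := exists_isSop_quotient p (s := s)
        (ENat.WithBot.lt_add_one_iff.1 (by exact_mod_cast hd))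
      obtain ⟨h1, M, hM⟩ := isSop_quotient_iff.1 hs
      have h2 : IsSop (T ⧸ (J ⊔ p.map g)) (z.map g) := by
        refine isSop_quotient_iff.2 ⟨fun a ha => ?_, N * (1 + M), ?_⟩
        · obtain ⟨b, hb, rfl⟩ := List.mem_map.1 ha
          exact map_nonunit g b (h1 b hb)
        · rw [pow_mul]
          refine (Ideal.pow_right_mono hN _).trans (Ideal.sup_pow_add_le_pow_sup_pow.trans ?_)
          rw [pow_one, ← Ideal.map_pow, sup_assoc, ← Ideal.map_ofList, ← Ideal.map_sup]
          exact sup_le_sup_left (Ideal.map_mono hM) _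
      rw [Ideal.map_top]
      refine chiKos_eq_zero hD hJ hy _ ((dim_le_of_isSop h2).trans_lt ?_)
      rw [List.length_map, hz]
      exact_mod_cast Nat.lt_succ_self s) a b hlen
  rwa [Ideal.map_top] at this
end Chi

/-! ### Part C: the Frobenius bound and the core inequality -/

/-- The Euler characteristic of the Frobenius pull-backs of Koszul tensor resolution over
`T = Q / I Q`. -/
theorem chiKos_frob_le (p : ℕ) [Fact p.Prime] {Q₀ : Type u} {Q : Type v} [CommRing Q₀]
    [IsLocalRing Q₀] [IsNoetherianRing Q₀] [CharP Q₀ p] [CommRing Q] [IsLocalRing Q]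
    [IsNoetherianRing Q] [CharP Q p] (hF₀ : (frobenius Q₀ p).Flat) (hF : (frobenius Q p).Flat)
    (j : Q₀ →+* Q) [IsLocalHom j] (hj : j.Flat) (w : List Q)
    (hmax : maximalIdeal Q = (maximalIdeal Q₀).map j ⊔ Ideal.ofList w) (I : Ideal Q₀) {d : ℕ}
    (hdim : ringKrullDim (Q₀ ⧸ I) ≤ d) [IsLocalRing (Q ⧸ I.map j)] [CharP (Q ⧸ I.map j) p]
    {ι : Type} [Fintype ι] [DecidableEq ι] {D : Matrix ι ι (Q ⧸ I.map j)} {deg : ι → ℤ}
    {J : Ideal (Q ⧸ I.map j)} (hD : IsMC D deg) (hJ : J ≤ nullIdeal D deg)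
    {y : Fin d → Q ⧸ I.map j} (hy : IsSop ((Q ⧸ I.map j) ⧸ J) (List.ofFn y))
    (hdeg : ∀ a, 0 ≤ deg a) {a₀ : ι} (h0 : ∀ a, deg a = 0 ↔ a = a₀)
    (hrow : Ideal.span (Set.range (D a₀)) = J) (hex : ExactPos D deg) {N : ℕ}
    (hN : maximalIdeal (Q ⧸ I.map j) ^ N ≤
      J ⊔ (maximalIdeal Q₀).map ((Ideal.Quotient.mk (I.map j)).comp j)) (k : ℕ) :
    chiKos (fun i => iterateFrobenius _ p k (y i)) (D.map (iterateFrobenius _ p k)) deg ⊤ ⊥ ≤
      ((p : ℤ) ^ k) ^ (d + w.length) * mult ((Q ⧸ I.map j) ⧸ J) (List.ofFn y) := by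
  have hq : p ^ k ≠ 0 := pow_ne_zero _ (Fact.out : p.Prime).ne_zero
  have hFle : ∀ K : Ideal Q, K.map (iterateFrobenius Q p k) ≤ K := fun K =>
    Ideal.map_le_iff_le_comap.mpr fun a ha => K.pow_mem_of_mem ha _ (Nat.pos_of_ne_zero hq)
  have hK : I.map j ≠ ⊤ := Ideal.Quotient.nontrivial_iff.mp inferInstance
  obtain ⟨K₂, hK₂⟩ : ∃ K₂, K₂ = (I.map j).map (iterateFrobenius Q p k) := ⟨_, rfl⟩
  obtain ⟨ψ, hψ, hψa⟩ : ∃ ψ : Q ⧸ I.map j →+* Q ⧸ K₂, ψ.Flat ∧
      ∀ a : Q, ψ (Ideal.Quotient.mk _ a) = Ideal.Quotient.mk _ (a ^ p ^ k) := by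
    subst hK₂
    exact exists_relFrob p hF k (I.map j)
  have hK₂le : K₂ ≤ I.map j := hK₂ ▸ hFle _
  have : Nontrivial (Q ⧸ K₂) :=
    Ideal.Quotient.nontrivial_iff.mpr (ne_top_of_le_ne_top hK hK₂le)
  have hs₁ : Function.Surjective (Ideal.Quotient.mk (I.map j)) := Ideal.Quotient.mk_surjective
  have hs₂ : Function.Surjective (Ideal.Quotient.mk K₂) := Ideal.Quotient.mk_surjective
  have : IsLocalRing (Q ⧸ K₂) := IsLocalRing.of_surjective' _ hs₂
  have hm₁ := map_maximalIdeal_of_surjective _ hs₁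
  have hm₂ := map_maximalIdeal_of_surjective _ hs₂
  have hψc : ψ.comp (Ideal.Quotient.mk (I.map j)) =
      (Ideal.Quotient.mk K₂).comp (iterateFrobenius Q p k) := RingHom.ext hψa
  have hmψ : (maximalIdeal (Q ⧸ I.map j)).map ψ =
      ((maximalIdeal Q).map (iterateFrobenius Q p k)).map (Ideal.Quotient.mk K₂) := by
    rw [← hm₁, Ideal.map_map, hψc, Ideal.map_map]
  have : IsLocalHom ψ := isLocalHom_of_map_le (by
    rw [hmψ, ← hm₂]
    exact Ideal.map_mono (hFle _))
  obtain ⟨M, hM⟩ : ∃ M : ℕ, maximalIdeal (Q ⧸ K₂) ^ M ≤ (maximalIdeal (Q ⧸ I.map j)).map ψ := by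
    refine Ideal.exists_pow_le_of_le_radical_of_fg ?_ (IsNoetherian.noetherian _)
    rw [← hm₂, hmψ, Ideal.map_le_iff_le_comap]
    intro a ha
    refine ⟨p ^ k, ?_⟩
    rw [← map_pow]
    exact Ideal.mem_map_of_mem _ (Ideal.mem_map_of_mem (iterateFrobenius Q p k) ha)
  let g : Q₀ →+* Q ⧸ K₂ := (Ideal.Quotient.mk K₂).comp j
  have : IsLocalHom (Ideal.Quotient.mk K₂) := IsLocalHom.of_surjective _ hs₂
  have : IsLocalHom g := RingHom.isLocalHom_comp _ _
  have hjF : (iterateFrobenius Q p k).comp j = j.comp (iterateFrobenius Q₀ p k) :=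
    RingHom.ext fun a => (map_pow j a _).symm
  have hK₂' : K₂ = (I.map (iterateFrobenius Q₀ p k)).map j := by
    rw [hK₂, Ideal.map_map, hjF, Ideal.map_map]
  have hnil : IsSop ((Q ⧸ K₂) ⧸ (maximalIdeal (Q ⧸ I.map j)).map ψ) ([] : List (Q ⧸ K₂)) :=
    isSop_quotient_iff.mpr ⟨by simp, M, hM.trans le_sup_left⟩
  obtain ⟨hy₂, hmult⟩ := mult_quotient_map ψ hψ J hy hnil
  rw [List.append_nil, List.map_ofFn] at hy₂ hmult
  have hJ₂ : J.map ψ ≤ nullIdeal (D.map ψ) deg :=
    (Ideal.map_mono hJ).trans (map_nullIdeal_le D deg ψ)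
  have hfl : mult ((Q ⧸ K₂) ⧸ (maximalIdeal (Q ⧸ I.map j)).map ψ) ([] : List (Q ⧸ K₂)) =
      frobLen p Q k := by
    rw [← multP_top_eq_mult, hmψ, multP_top_eq_mult]
    refine (CoreC.mult_quot_map hs₂ [] ?_).trans mult_nil
    rw [Ideal.mk_ker]
    exact hK₂ ▸ Ideal.map_mono (le_maximalIdeal hK)
  have hrel := chiKos_rel (y := ψ ∘ y) g I (I.map (iterateFrobenius Q₀ p k))
    (Ideal.map_le_iff_le_comap.mpr fun a ha => I.pow_mem_of_mem ha _ (Nat.pos_of_ne_zero hq))
    (fun a ha => ⟨p ^ k, Ideal.mem_map_of_mem (iterateFrobenius Q₀ p k) ha⟩)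
    (fun A a hA => by
      rw [← Ideal.map_map, ← Ideal.map_map, ← colon_map_of_flat j hj]
      refine CoreC.colon_map_of_surjective hs₂ ?_ (j a)
      rw [Ideal.mk_ker, hK₂']
      exact Ideal.map_mono hA)
    hdim (hD.map ψ) hJ₂ hy₂ (N := M * N) (by
      rw [pow_mul]
      refine (Ideal.pow_right_mono hM N).trans ?_
      rw [← Ideal.map_pow]
      refine (Ideal.map_mono hN).trans ?_
      rw [Ideal.map_sup, Ideal.map_map, ← RingHom.comp_assoc, hψc, RingHom.comp_assoc, hjF,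
        ← RingHom.comp_assoc, ← Ideal.map_map]
      refine sup_le_sup_left (Ideal.map_mono (Ideal.map_le_iff_le_comap.mpr fun a ha => ?_)) _
      exact Ideal.pow_mem_of_mem _ ha _ (Nat.pos_of_ne_zero hq))
    (((p : ℤ) ^ k) ^ d) (frobLen p Q₀ k)
    fun P _ hP hd => length_frob_loc p hF₀ k I hdim P hP hd
  have hbot : (I.map (iterateFrobenius Q₀ p k)).map g = ⊥ := by
    rw [← Ideal.map_map, ← hK₂', Ideal.map_quotient_self]
  let ρ : Q ⧸ K₂ →+* Q ⧸ I.map j := Ideal.Quotient.factor hK₂le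
  have hρ : Function.Surjective ρ := Ideal.Quotient.factor_surjective hK₂le
  have hker : I.map g = RingHom.ker ρ := by
    rw [← Ideal.map_map]
    exact (Ideal.Quotient.factor_ker hK₂le).symm
  have hρψ : ∀ t, ρ (ψ t) = iterateFrobenius _ p k t := fun t => by
    obtain ⟨a, rfl⟩ := hs₁ t
    rw [hψa, iterateFrobenius_def, ← map_pow]
    rfl
  rw [hbot, hker, chiKos_map_surjective ρ hρ (hD.map ψ), chiKos_top_bot (hD.map ψ) hJ₂ hy₂ hdeg h0
    (by rw [← hrow, Ideal.map_span, ← Set.range_comp]; rfl) (hex.map hD ψ hψ), hmult, hfl,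
    Matrix.map_map] at hrel
  have h1 : (fun i => ρ ((ψ ∘ y) i)) = fun i => iterateFrobenius _ p k (y i) :=
    funext fun i => hρψ _
  have h2 : ρ ∘ ψ = iterateFrobenius _ p k := funext hρψ
  rw [h1, h2] at hrel
  have h3 : (frobLen p Q k : ℤ) ≤ frobLen p Q₀ k * ((p : ℤ) ^ k) ^ w.length := by
    exact_mod_cast frobLen_le p j w hmax k
  have h4 : (0 : ℤ) < frobLen p Q₀ k := by exact_mod_cast frobLen_pos p k
  refine le_of_mul_le_mul_left ?_ h4
  rw [← hrel, pow_add]
  have h5 := mul_le_mul_of_nonneg_left h3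
    (mul_nonneg (show (0 : ℤ) ≤ ((p : ℤ) ^ k) ^ d by positivity) (mult_nonneg hy))
  linarith

/-- A reduction of `𝔪` together with generators of the maximal ideal of the fibre. -/
theorem exists_isReduction_append {R : Type u} {T : Type v} [CommRing R] [IsLocalRing R]
    [CommRing T] [IsLocalRing T] (f : R →+* T) (w : List T)
    (hmax : maximalIdeal T = (maximalIdeal R).map f ⊔ Ideal.ofList w) {n : ℕ} {x : Fin (n + 1) → R}
    (hx : IsReduction x) : ∃ x' : Fin (n + w.length + 1) → T, IsReduction x' ∧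
      List.ofFn x' = (List.ofFn x).map f ++ w := by
  obtain ⟨hx1, r, hr⟩ := hx
  have hlen : ((List.ofFn x).map f ++ w).length = n + w.length + 1 := by
    rw [List.length_append, List.length_map, List.length_ofFn]; omega
  have key : ∀ (l : List T) (m : ℕ), l.length = m → ∃ x' : Fin m → T, List.ofFn x' = l := by
    rintro l _ rfl
    exact ⟨l.get, List.ofFn_get l⟩
  obtain ⟨x', hx'⟩ := key _ _ hlen
  have hspan : Ideal.span (Set.range x') =
      (Ideal.span (Set.range x)).map f ⊔ Ideal.ofList w := by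
    have e1 : ∀ {A : Type v} [CommRing A] {m : ℕ} (u : Fin m → A),
        Ideal.span (Set.range u) = Ideal.ofList (List.ofFn u) := by
      intro A _ m u
      rw [Ideal.ofList]
      congr 1
      ext a
      simp [List.mem_ofFn']
    rw [e1, hx', Ideal.ofList_append, Ideal.map_span, ← Set.range_comp, e1, List.map_ofFn]
  have h1 : (maximalIdeal R).map f ≤ maximalIdeal T := hmax ▸ le_sup_left
  have h2 : Ideal.ofList w ≤ maximalIdeal T := hmax ▸ le_sup_right
  refine ⟨x', ⟨fun j => ?_, r, ?_⟩, hx'⟩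
  · have h3 : Ideal.span (Set.range x') ≤ maximalIdeal T := by
      rw [hspan]
      exact sup_le ((Ideal.map_mono (Ideal.span_le.2 (Set.range_subset_iff.2 hx1))).trans h1) h2
    exact h3 (Ideal.subset_span ⟨j, rfl⟩)
  · have h4 : ∀ s : ℕ, maximalIdeal T ^ (s + 1) ≤
        (maximalIdeal R).map f ^ (s + 1) ⊔ Ideal.ofList w * maximalIdeal T ^ s := by
      intro s
      induction s with
      | zero => rw [zero_add, pow_one, pow_one, pow_zero, mul_one]; exact hmax.le
      | succ s ih =>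
        rw [pow_succ (maximalIdeal T) (s + 1)]
        refine (Ideal.mul_mono_left ih).trans ?_
        rw [Ideal.sup_mul]
        refine sup_le ?_ (le_sup_of_le_right ?_)
        · nth_rewrite 1 [hmax]
          rw [Ideal.mul_sup]
          refine sup_le_sup (pow_succ _ _).ge ?_
          rw [mul_comm]
          exact Ideal.mul_mono_right (Ideal.pow_right_mono h1 _)
        · rw [mul_assoc, ← pow_succ]
    refine (h4 r).trans ?_
    rw [hspan, Ideal.sup_mul]
    refine sup_le_sup_right ?_ _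
    rw [← Ideal.map_pow]
    refine (Ideal.map_mono hr).trans ?_
    rw [Ideal.map_mul, Ideal.map_pow]
    exact Ideal.mul_mono_right (Ideal.pow_right_mono h1 _)

theorem exists_tendsto_of_isReduction {T : Type u} [CommRing T] [IsLocalRing T]
    [IsNoetherianRing T] {n : ℕ} {x : Fin (n + 1) → T} (hx : IsReduction x) :
    ∃ e : ℝ, Tendsto (hsSeq T (n + 1)) atTop (𝓝 e) := by
  obtain ⟨e, he⟩ := exists_cyc (maximalIdeal T) (isFG_gr hx)
  exact ⟨e, tendsto_hsSeq_of_cyc hx he⟩

/-- (Core) Lech's inequality for a finite fibre, given a Cohen factorisation. -/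
theorem core0 (p : ℕ) [Fact p.Prime] {Q₀ : Type u} {Q : Type v} {R : Type w} {S : Type w'}
    [CommRing Q₀] [IsLocalRing Q₀] [IsNoetherianRing Q₀] [CharP Q₀ p] [CommRing Q] [IsLocalRing Q]
    [IsNoetherianRing Q] [CharP Q p] [CommRing R] [IsLocalRing R] [IsNoetherianRing R]
    [CommRing S] [IsLocalRing S] [IsNoetherianRing S]
    (hF₀ : (frobenius Q₀ p).Flat) (hF : (frobenius Q p).Flat) (j : Q₀ →+* Q) [IsLocalHom j]
    (hj : j.Flat) (π₀ : Q₀ →+* R) (h₀ : Function.Surjective π₀) (π : Q →+* S)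
    (h : Function.Surjective π) (φ : R →+* S) (hφ : φ.Flat) (hc : π.comp j = φ.comp π₀)
    (w : List Q) (hw : RingTheory.Sequence.IsWeaklyRegular (Q ⧸ (maximalIdeal Q₀).map j) w)
    (hmax : maximalIdeal Q = (maximalIdeal Q₀).map j ⊔ Ideal.ofList w) {N : ℕ}
    (hN : maximalIdeal S ^ N ≤ (maximalIdeal R).map φ) {n : ℕ} {x : Fin (n + 1) → R}
    (hx : IsReduction x) {e : ℝ} (he : Tendsto (hsSeq R (n + 1)) atTop (𝓝 e))
    {y : Fin (n + 1) → S} (hy : IsSop S (List.ofFn y)) : e ≤ (mult S (List.ofFn y) : ℝ) := by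
  classical
  set I := RingHom.ker π₀ with hI
  have hIπ : ∀ a ∈ I.map j, π a = 0 := fun a ha =>
    (Ideal.map_le_iff_le_comap.mpr (show I ≤ (RingHom.ker π).comap j from fun b hb => by
      rw [Ideal.mem_comap, RingHom.mem_ker, ← RingHom.comp_apply, hc, RingHom.comp_apply,
        (RingHom.mem_ker).mp hb, map_zero])) ha
  let σ : Q ⧸ I.map j →+* S := Ideal.Quotient.lift _ π hIπ
  have hσ : Function.Surjective σ := Ideal.Quotient.lift_surjective_of_surjective _ hIπ h
  have : Nontrivial (Q ⧸ I.map j) := σ.domain_nontrivial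
  have hs₁ : Function.Surjective (Ideal.Quotient.mk (I.map j)) := Ideal.Quotient.mk_surjective
  have : IsLocalRing (Q ⧸ I.map j) := IsLocalRing.of_surjective' _ hs₁
  have : CharP (Q ⧸ I.map j) p := (CharP.charP_iff_prime_eq_zero Fact.out).mpr (by
    rw [← map_natCast (Ideal.Quotient.mk (I.map j)), CharP.cast_eq_zero, map_zero])
  let f : R →+* Q ⧸ I.map j := (Ideal.quotientMap (I.map j) j Ideal.le_comap_map).comp
    (RingHom.quotientKerEquivOfSurjective h₀).symm.toRingHom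
  have hf : f.Flat :=
    (RingHom.Flat.of_bijective (RingEquiv.bijective _)).comp (CoreC.flat_quotientMap hj I)
  have hfπ : f.comp π₀ = (Ideal.Quotient.mk (I.map j)).comp j := RingHom.ext fun a => by
    have : (RingHom.quotientKerEquivOfSurjective h₀).symm (π₀ a) = Ideal.Quotient.mk I a :=
      (RingEquiv.symm_apply_eq _).mpr rfl
    exact congrArg (Ideal.quotientMap (I.map j) j Ideal.le_comap_map) this
  have hσf : ∀ r, σ (f r) = φ r := fun r => by
    obtain ⟨a, rfl⟩ := h₀ r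
    exact (congrArg σ (RingHom.congr_fun hfπ a)).trans (RingHom.congr_fun hc a)
  have hmf : (maximalIdeal R).map f =
      ((maximalIdeal Q₀).map j).map (Ideal.Quotient.mk (I.map j)) := by
    rw [← map_maximalIdeal_of_surjective π₀ h₀, Ideal.map_map, hfπ, Ideal.map_map]
  have hmax' : maximalIdeal (Q ⧸ I.map j) =
      (maximalIdeal R).map f ⊔ Ideal.ofList (w.map (Ideal.Quotient.mk (I.map j))) := by
    rw [← map_maximalIdeal_of_surjective _ hs₁, hmax, Ideal.map_sup, Ideal.map_ofList, hmf]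
  have hw' : RingTheory.Sequence.IsWeaklyRegular ((Q ⧸ I.map j) ⧸ (maximalIdeal R).map f)
      (w.map (Ideal.Quotient.mk (I.map j))) := by
    rw [hmf]
    refine CoreC.isWeaklyRegular_map hs₁ ?_ hw
    rw [Ideal.mk_ker]
    exact Ideal.map_mono (le_maximalIdeal (RingHom.ker_ne_top π₀))
  have : IsLocalHom f := isLocalHom_of_map_le (hmax' ▸ le_sup_left)
  obtain ⟨ι, _, _, deg, D, a₀, hD, hdeg, hmin, h0, hrow, hex, hnull⟩ :
      ∃ (ι : Type) (_ : Fintype ι) (_ : DecidableEq ι) (deg : ι → ℤ)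
        (D : Matrix ι ι (Q ⧸ I.map j)) (a₀ : ι), IsMC D deg ∧
        (∀ a, 0 ≤ deg a ∧ deg a ≤ (w.map (Ideal.Quotient.mk (I.map j))).length) ∧
        (∀ a b, D a b ∈ maximalIdeal (Q ⧸ I.map j)) ∧ (∀ a, deg a = 0 ↔ a = a₀) ∧
        Ideal.span (Set.range (D a₀)) = RingHom.ker σ ∧ ExactPos D deg ∧
        RingHom.ker σ ≤ nullIdeal D deg := by
    let _ := f.toAlgebra
    let _ := φ.toAlgebra
    have : Module.Flat R (Q ⧸ I.map j) := hf
    have : Module.Flat R S := hφ
    have : IsLocalHom (algebraMap R (Q ⧸ I.map j)) := ‹IsLocalHom f›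
    let σₐ : (Q ⧸ I.map j) →ₐ[R] S := { σ with commutes' := hσf }
    have : Module.Flat R ((Q ⧸ I.map j) ⧸ RingHom.ker σ) :=
      Module.Flat.of_linearEquiv
        (Ideal.quotientKerAlgEquivOfSurjective (f := σₐ) hσ).toLinearEquiv
    exact exists_resolution (R := R) (RingHom.ker σ) (RingHom.ker_ne_top σ) _ hw' hmax'
  obtain ⟨yb, hyb⟩ : ∃ yb : Fin (n + 1) → Q ⧸ I.map j, σ ∘ yb = y :=
    ⟨fun i => Function.surjInv hσ (y i), funext fun i => Function.surjInv_eq hσ _⟩
  have hyl : (List.ofFn yb).map σ = List.ofFn y := by rw [List.map_ofFn, hyb]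
  have hyb' : IsSop ((Q ⧸ I.map j) ⧸ RingHom.ker σ) (List.ofFn yb) :=
    CoreC.isSop_quot_ker hσ (hyl ▸ hy)
  obtain ⟨hybm, N', hN'⟩ := isSop_quotient_iff.mp hyb'
  obtain ⟨x', hx', hxl⟩ := exists_isReduction_append f _ hmax' hx
  obtain ⟨e', he'⟩ := exists_tendsto_of_isReduction hx'
  have hdim : ringKrullDim (Q₀ ⧸ I) ≤ (n + 1 : ℕ) := by
    have h1 : (List.ofFn fun i => Function.surjInv h₀ (x i)).map π₀ = List.ofFn x := by
      rw [List.map_ofFn]
      exact congrArg List.ofFn (funext fun i => Function.surjInv_eq h₀ _)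
    have h2 := dim_le_of_isSop (CoreC.isSop_quot_ker h₀ (h1 ▸ hx.isSop))
    rwa [List.length_ofFn] at h2
  have hNσ : maximalIdeal (Q ⧸ I.map j) ^ N ≤
      RingHom.ker σ ⊔ (maximalIdeal Q₀).map ((Ideal.Quotient.mk (I.map j)).comp j) := by
    rw [← Ideal.map_map, ← hmf]
    refine CoreC.pow_le_sup_ker hσ ?_
    rwa [Ideal.map_map, show σ.comp f = φ from RingHom.ext hσf]
  have hshort : IsShort x' (tensMat (kos yb) kdeg D) (tensDeg kdeg deg) N' :=
    { red := hx'
      mc := isMC_tensMat (isMC_kos yb) hD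
      beta := by
        simp only [tensDeg, sgn_add, Fintype.sum_prod_type, ← Finset.mul_sum, ← Finset.sum_mul,
          sum_sgn_kdeg, zero_mul]
      null := fun i => by
        refine mem_nullIdeal.mp (le_nullIdeal_kos_tensMat yb ?_)
        have h1 := hN' (Ideal.pow_mem_pow (hx'.1 i) N')
        rw [CoreC.ofList_ofFn, sup_comm] at h1
        exact sup_le_sup_left hnull _ h1 }
  have hmain := main_ineq p hshort
    (CoreC.tensMat_mem kdeg (CoreC.kos_mem fun i => hybm _ (List.mem_ofFn.mpr ⟨i, rfl⟩)) hmin)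
    (fun a => by
      have h1 := hdeg a.2
      have h2 : a.1.card ≤ n + 1 := by simpa using a.1.card_le_univ
      simp only [tensDeg, kdeg]
      push_cast
      omega)
    he' (mult ((Q ⧸ I.map j) ⧸ RingHom.ker σ) (List.ofFn yb)) fun k => by
      rw [tensMat_map, kos_map, chiMat_tensMat_kos, List.length_map,
        show n + w.length + 1 = n + 1 + w.length by omega]
      exact chiKos_frob_le p hF₀ hF j hj w hmax I hdim hD hnull hyb' (fun a => (hdeg a).1) h0 hrow
        hex hNσ k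
  have hcard : (Finset.univ.filter fun a : Finset (Fin (n + 1)) × ι =>
      tensDeg kdeg deg a = 0) = {(∅, a₀)} := by
    ext ⟨s, a⟩
    have h1 := (hdeg a).1
    rw [Finset.mem_filter, Finset.mem_singleton, Prod.mk.injEq, ← h0, ← Finset.card_eq_zero]
    simp only [Finset.mem_univ, true_and, tensDeg, kdeg]
    omega
  rw [hcard, Finset.card_singleton, Nat.cast_one, mul_one, CoreC.mult_quot_ker hσ, hyl] at hmain
  obtain ⟨hw₁, hw₂⟩ := CoreC.one_le_mult hw' hmax'
  have hxb : IsSop (R ⧸ (⊥ : Ideal R)) (List.ofFn x) :=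
    hx.isSop.of_surjective (Submodule.mkQ _) (Submodule.mkQ_surjective _)
  have h1 := (mult_quotient_map f hf ⊥ hxb hw₁).2
  rw [← hxl, ← multP_top_eq_mult, ← multP_top_eq_mult (List.ofFn x), Ideal.map_bot] at h1
  have h2 : mult R (List.ofFn x) ≤ mult (Q ⧸ I.map j) (List.ofFn x') :=
    le_of_le_of_eq (le_mul_of_one_le_right (mult_nonneg hx.isSop) hw₂) h1.symm
  have h3 := mult_le_of_tendsto
    (eqChar_of_field (ZMod p) _ (ZMod.castHom (dvd_refl p) (Q ⧸ I.map j))) hx' he'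
  exact (le_mult_of_tendsto hx he).trans ((Int.cast_le.mpr h2).trans (h3.trans hmain))

end Vale.Agent.P202
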