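import Vale.Agent.P202.TowerEx
import Vale.Agent.P202.Isog

/-! Auxiliary results for the construction of covers. -/

namespace Vale.Agent.P202

namespace CovAux

open IsLocalRing RingTheory.Sequence Polynomial

universe u

theorem ofList_ofFn {A : Type*} [CommRing A] {n : ℕ} (x : Fin n → A) :
    Ideal.ofList (List.ofFn x) = Ideal.span (Set.range x) := by
  unfold Ideal.ofList
  congr 1
  ext a
  simp [List.mem_ofFn']

theorem exists_homog {A : Type u} [CommRing A] (F ϖ : A) (P : ℕ) {y : A}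
    (hy : y ∈ Ideal.span {F, ϖ} ^ P) : ∃ H : A[X], H.natDegree ≤ P ∧
      ∀ (E : Type u) [CommRing E] (ψ : A →+* E) (z : E), ψ F = ψ ϖ * z →
        ψ y = ψ ϖ ^ P * H.eval₂ ψ z := by
  induction P generalizing y with
  | zero => exact ⟨C y, by simp, fun E _ ψ z _ => by simp⟩
  | succ P ih =>
    rw [pow_succ] at hy
    refine Submodule.mul_induction_on hy (fun m hm n hn => ?_) ?_
    · obtain ⟨H, hH, h⟩ := ih hm
      obtain ⟨a, b, rfl⟩ := Ideal.mem_span_pair.1 hn
      refine ⟨H * (C a * X + C b), natDegree_mul_le.trans (add_le_add hH natDegree_linear_le),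
        fun E _ ψ z hz => ?_⟩
      rw [map_mul, h E ψ z hz, eval₂_mul, eval₂_add, eval₂_mul, eval₂_C, eval₂_C, eval₂_X, map_add,
        map_mul, map_mul, hz]
      ring
    · rintro x y ⟨H, hH, h⟩ ⟨H', hH', h'⟩
      refine ⟨H + H', (natDegree_add_le _ _).trans (max_le hH hH'), fun E _ ψ z hz => ?_⟩
      rw [map_add, h E ψ z hz, h' E ψ z hz, eval₂_add, mul_add]

theorem exists_monic {A : Type u} [CommRing A] [IsLocalRing A] {p F ϖ f : A}
    (hp : p ∈ maximalIdeal A) {P : ℕ}
    (h : f - F ^ P ∈ Ideal.span {p} * Ideal.span {F, ϖ} ^ P) :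
    ∃ (G : A[X]) (u : A), IsUnit u ∧ G.Monic ∧ G.natDegree = P ∧
      (∀ (E : Type u) [CommRing E] (ψ : A →+* E) (z : E), G.eval₂ ψ z = 0 →
        z ^ P ∈ Ideal.span {ψ p}) ∧
      ∀ (E : Type u) [CommRing E] (ψ : A →+* E) (z : E), ψ F = ψ ϖ * z →
        ψ f = ψ u * (ψ ϖ ^ P * G.eval₂ ψ z) := by
  obtain ⟨y, hy, hy'⟩ := Ideal.mem_span_singleton_mul.1 h
  obtain ⟨H, hH, hE⟩ := exists_homog F ϖ P hy
  have hu : IsUnit (1 + p * H.coeff P) := by
    have h1 : -(p * H.coeff P) ∈ maximalIdeal A := neg_mem (Ideal.mul_mem_right _ _ hp)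
    simpa using isUnit_one_sub_self_of_mem_nonunits _ h1
  obtain ⟨v, hv⟩ := hu.exists_left_inv
  have hd : (C v * (X ^ P + C p * H)).natDegree ≤ P :=
    (natDegree_C_mul_le _ _).trans ((natDegree_add_le _ _).trans
      (max_le (natDegree_X_pow_le _) ((natDegree_C_mul_le _ _).trans hH)))
  have hc : (C v * (X ^ P + C p * H)).coeff P = 1 := by
    rw [coeff_C_mul, coeff_add, coeff_X_pow_self, coeff_C_mul, hv]
  have hev : ∀ (E : Type u) [CommRing E] (ψ : A →+* E) (z : E),
      ψ (1 + p * H.coeff P) * (C v * (X ^ P + C p * H)).eval₂ ψ z = z ^ P + ψ p * H.eval₂ ψ z := by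
    intro E _ ψ z
    rw [eval₂_mul, eval₂_C, ← mul_assoc, ← map_mul, mul_comm _ v, hv, map_one, one_mul, eval₂_add,
      eval₂_X_pow, eval₂_mul, eval₂_C]
  refine ⟨C v * (X ^ P + C p * H), 1 + p * H.coeff P, hu,
    monic_of_natDegree_le_of_coeff_eq_one P hd hc,
    natDegree_eq_of_le_of_coeff_ne_zero hd (by rw [hc]; exact one_ne_zero),
    fun E _ ψ z hz => ?_, fun E _ ψ z hz => ?_⟩
  · have h1 := hev E ψ z
    rw [hz, mul_zero] at h1
    exact Ideal.mem_span_singleton'.2 ⟨-H.eval₂ ψ z, by linear_combination h1⟩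
  · have h1 := congrArg ψ hy'
    rw [map_mul, map_sub, map_pow, hE E ψ z hz, hz] at h1
    rw [mul_left_comm, hev]
    linear_combination -h1

theorem reg_quot {D C : Type*} [CommRing D] [CommRing C] (q : D →+* C)
    (hq : Function.Surjective q) (r s : List D) (hker : RingHom.ker q = Ideal.ofList r)
    (h : IsWeaklyRegular D (r ++ s)) : IsWeaklyRegular C (s.map q) := by
  rw [CMAux.weaklyRegular_iff] at h ⊢
  intro l₁ a l₂ hl y hy
  obtain ⟨s₁, s', rfl, rfl, h2⟩ := List.map_eq_append_iff.1 hl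
  obtain ⟨a', s₂, rfl, rfl, -⟩ := List.map_eq_cons_iff.1 h2
  obtain ⟨y', rfl⟩ := hq y
  have key : ∀ t, q t ∈ Ideal.ofList (s₁.map q) ↔ t ∈ Ideal.ofList (r ++ s₁) := by
    intro t
    rw [← Ideal.map_ofList, ← Ideal.mem_comap, Ideal.comap_map_of_surjective q hq,
      ← RingHom.ker_eq_comap_bot, hker, Ideal.ofList_append, sup_comm]
  rw [← map_mul, key] at hy
  rw [key]
  exact h (r ++ s₁) a' s₂ (by simp) y' hy

theorem unif {B M : Type*} [CommRing B] [AddCommGroup M] [Module B M] (g : B)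
    (P N : Submodule B M) (hP : P.FG) (h : ∀ x ∈ P, ∃ e : ℕ, g ^ e • x ∈ N) :
    ∃ e : ℕ, ∀ x ∈ P, ∀ e', g ^ (e + e') • x ∈ N := by
  induction P, hP using Submodule.fg_induction with
  | singleton x =>
    obtain ⟨e, he⟩ := h x (Submodule.mem_span_singleton_self x)
    refine ⟨e, fun y hy e' => ?_⟩
    obtain ⟨c, rfl⟩ := Submodule.mem_span_singleton.1 hy
    rw [add_comm, pow_add, mul_smul, smul_comm (g ^ e)]
    exact N.smul_mem _ (N.smul_mem _ he)
  | sup P₁ P₂ _ _ ih₁ ih₂ =>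
    obtain ⟨e₁, h₁⟩ := ih₁ fun x hx => h x (Submodule.mem_sup_left hx)
    obtain ⟨e₂, h₂⟩ := ih₂ fun x hx => h x (Submodule.mem_sup_right hx)
    refine ⟨e₁ + e₂, fun y hy e' => ?_⟩
    obtain ⟨a, ha, b, hb, rfl⟩ := Submodule.mem_sup.1 hy
    rw [smul_add]
    refine N.add_mem ?_ ?_
    · rw [add_assoc]; exact h₁ a ha _
    · rw [add_comm e₁, add_assoc]; exact h₂ b hb _

theorem repr_mem {Q A : Type*} [CommRing Q] [CommRing A] [Algebra Q A] {ι : Type*}
    (b : Module.Basis ι Q A) (I : Ideal Q) {a : A} (ha : a ∈ I.map (algebraMap Q A)) (i : ι) :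
    b.repr a i ∈ I := by
  have h1 : a ∈ (I • ⊤ : Submodule Q A) := by rw [Ideal.smul_top_eq_map]; exact ha
  refine Submodule.smul_induction_on h1 (fun r hr x _ => ?_) fun x y hx hy => ?_
  · rw [map_smul, Finsupp.smul_apply, smul_eq_mul]
    exact I.mul_mem_right _ hr
  · rw [map_add, Finsupp.add_apply]
    exact I.add_mem hx hy

theorem isSop_iff {A : Type*} [CommRing A] [IsLocalRing A] {y : List A} : IsSop A y ↔
    (∀ a ∈ y, a ∈ maximalIdeal A) ∧ ∃ N : ℕ, maximalIdeal A ^ N ≤ Ideal.ofList y := by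
  refine and_congr_right fun _ => exists_congr fun N => ⟨fun h r hr => ?_, fun h r hr => ?_⟩
  · obtain ⟨a, ha, hx⟩ := h r hr
    have := hx 1 trivial
    rw [smul_eq_mul, mul_one, Submodule.mem_bot, sub_eq_zero] at this
    rwa [this]
  · exact ⟨r, h hr, fun x _ => by simp⟩

/-- the abstract construction of the cover -/
theorem core {Q T₀ A : Type u} [CommRing Q] [IsLocalRing Q] [CommRing T₀] [IsLocalRing T₀]
    [IsNoetherianRing T₀] [CommRing A] [IsLocalRing A] [IsNoetherianRing A] [Algebra Q A]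
    [Module.Finite Q A] [Module.Free Q A] (Φ : Q →+* T₀) (hΦ : Function.Surjective Φ) {κ d : ℕ}
    (f : Fin κ → Q) (hker : RingHom.ker Φ = Ideal.span (Set.range f)) (wl : List A)
    (hwl : IsWeaklyRegular A wl) (hwm : ∀ a ∈ wl, a ∈ maximalIdeal A) (hlen : wl.length = d + κ)
    (p : Q) (hp : p ∈ maximalIdeal Q) (F : Fin κ → A) (ϖ : A) {P N : ℕ} (hP : 0 < P)
    (hF : ∀ i, algebraMap Q A (f i) - F i ^ P ∈
      Ideal.span {algebraMap Q A p} * Ideal.span {F i, ϖ} ^ P)
    (hϖ : ϖ ∣ algebraMap Q A p ^ N) (x : Fin d → Q) (hx : IsSop T₀ (List.ofFn fun i => Φ (x i)))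
    (ξ : Fin d → A) (hξ : ∀ i, ξ i ∈ maximalIdeal A) (hxξ : ∀ i, ξ i ∣ algebraMap Q A (x i)) :
    ∃ (C : Type u) (_ : CommRing C) (_ : IsLocalRing C) (_ : IsNoetherianRing C)
      (_ : Algebra T₀ C) (ψ : A →+* C), Module.Finite T₀ C ∧
      (∀ q, algebraMap T₀ C (Φ q) = ψ (algebraMap Q A q)) ∧ IsLocalHom ψ ∧
      (∀ y : C, ∃ a : A, y - ψ a ∈ maximalIdeal C) ∧
      IsWeaklyRegular C (List.ofFn fun i => ψ (ξ i)) ∧ (∀ i, ψ ϖ ∣ ψ (F i)) ∧
      ∃ ρ b : ℕ, 0 < ρ ∧ IsIsog (Φ p ^ b) (Fin ρ → T₀) C := by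
  classical
  have hfinQA : (algebraMap Q A).Finite := RingHom.finite_algebraMap.2 inferInstance
  have hlocQA : IsLocalHom (algebraMap Q A) := isLocalHom_of_finite _ hfinQA
  have hpA : algebraMap Q A p ∈ maximalIdeal A := map_nonunit _ _ hp
  choose G u hu hGm hGd hG1 hG2 using fun i => exists_monic hpA (hF i)
  obtain ⟨D, _, _, ζ, _, hfree, hfin, hζ, hadj, huniv⟩ :=
    exists_adjoin_roots G hGm (fun i => by rw [hGd]; exact hP)
  have hfinAD : (algebraMap A D).Finite := RingHom.finite_algebraMap.2 hfin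
  have hDn : IsNoetherianRing D := IsNoetherianRing.of_finite A D
  have hres : ∀ y : D, ∃ a : A, y - algebraMap A D a ∈ Ideal.span (Set.range ζ) := by
    intro y
    have hy : y ∈ Algebra.adjoin A (Set.range ζ) := hadj ▸ trivial
    induction hy using Algebra.adjoin_induction with
    | mem x hx => exact ⟨0, by rw [map_zero, sub_zero]; exact Ideal.subset_span hx⟩
    | algebraMap r => exact ⟨r, by simp⟩
    | add x y _ _ hx hy =>
      obtain ⟨a, ha⟩ := hx
      obtain ⟨b, hb⟩ := hy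
      exact ⟨a + b, by rw [map_add, add_sub_add_comm]; exact add_mem ha hb⟩
    | mul x y _ _ hx hy =>
      obtain ⟨a, ha⟩ := hx
      obtain ⟨b, hb⟩ := hy
      refine ⟨a * b, ?_⟩
      have : x * y - algebraMap A D (a * b) =
          (x - algebraMap A D a) * y + algebraMap A D a * (y - algebraMap A D b) := by
        rw [map_mul]; ring
      rw [this]
      exact add_mem (Ideal.mul_mem_right _ _ ha) (Ideal.mul_mem_left _ _ hb)
  obtain ⟨N₁, hN₁⟩ : ∃ n : ℕ, Ideal.span (Set.range ζ) ^ n ≤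
      (maximalIdeal A).map (algebraMap A D) := by
    refine Ideal.exists_pow_le_of_le_radical_of_fg ?_ (Ideal.fg_of_isNoetherianRing _)
    rw [Ideal.span_le]
    rintro _ ⟨i, rfl⟩
    refine ⟨P, ?_⟩
    have h1 := hG1 i D (algebraMap A D) (ζ i) (hζ i)
    exact (Ideal.span_singleton_le_iff_mem _).2 (Ideal.mem_map_of_mem _ hpA) h1
  obtain ⟨_, hmD⟩ := exists_isLocalRing_of_finite _ hfinAD _ hN₁ hres
  have hlocAD : IsLocalHom (algebraMap A D) := isLocalHom_of_finite _ hfinAD
  have hζm : ∀ i, ζ i ∈ maximalIdeal D := fun i =>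
    hmD ▸ Ideal.mem_sup_left (Ideal.subset_span ⟨i, rfl⟩)
  have hfm : ∀ i, f i ∈ maximalIdeal Q := fun i =>
    le_maximalIdeal (RingHom.ker_ne_top Φ) (hker ▸ Ideal.subset_span ⟨i, rfl⟩)
  have hFm : ∀ i, F i ∈ maximalIdeal A := fun i => by
    refine Ideal.IsPrime.mem_of_pow_mem inferInstance P ?_
    have h1 : algebraMap Q A (f i) - F i ^ P ∈ maximalIdeal A :=
      (Ideal.mul_le_left.trans ((Ideal.span_singleton_le_iff_mem _).2 hpA)) (hF i)
    have h2 := sub_mem (map_nonunit (algebraMap Q A) _ (hfm i)) h1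
    rwa [sub_sub_cancel] at h2
  let rel : Fin κ → D := fun i => algebraMap A D ϖ * ζ i - algebraMap A D (F i)
  have hrel : ∀ i, rel i ∈ maximalIdeal D := fun i =>
    sub_mem (Ideal.mul_mem_left _ _ (hζm i)) (map_nonunit _ _ (hFm i))
  let I : Ideal D := Ideal.span (Set.range rel)
  have hI : I ≤ maximalIdeal D := Ideal.span_le.2 (by rintro _ ⟨i, rfl⟩; exact hrel i)
  have hnt : Nontrivial (D ⧸ I) :=
    Ideal.Quotient.nontrivial_iff.2 fun h => (maximalIdeal.isMaximal D).ne_top (top_le_iff.1 (h ▸ hI))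
  let q : D →+* D ⧸ I := Ideal.Quotient.mk I
  have hq : Function.Surjective q := Ideal.Quotient.mk_surjective
  have hloc : IsLocalRing (D ⧸ I) := IsLocalRing.of_surjective' q hq
  have hlq : IsLocalHom q := IsLocalHom.of_surjective q hq
  let ψ : A →+* D ⧸ I := q.comp (algebraMap A D)
  have hψF : ∀ i, ψ (F i) = ψ ϖ * q (ζ i) := fun i => by
    have h1 : q (rel i) = 0 := Ideal.Quotient.eq_zero_iff_mem.2 (Ideal.subset_span ⟨i, rfl⟩)
    simp only [rel, map_sub, map_mul] at h1
    exact (sub_eq_zero.1 h1).symm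
  have hψf : ∀ i, ψ (algebraMap Q A (f i)) = 0 := fun i => by
    rw [hG2 i _ ψ _ (hψF i), ← hom_eval₂, ← aeval_def, hζ, map_zero, mul_zero, mul_zero]
  have hkle : RingHom.ker Φ ≤ RingHom.ker (ψ.comp (algebraMap Q A)) := by
    rw [hker, Ideal.span_le]
    rintro _ ⟨i, rfl⟩
    exact hψf i
  let θ : T₀ →+* D ⧸ I := Φ.liftOfSurjective hΦ ⟨ψ.comp (algebraMap Q A), hkle⟩
  have hθ : ∀ t, θ (Φ t) = ψ (algebraMap Q A t) := fun t =>
    RingHom.liftOfSurjective_comp_apply Φ hΦ _ t
  have hθfin : θ.Finite := by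
    refine RingHom.Finite.of_comp_finite (f := Φ) ?_
    have : θ.comp Φ = (q.comp (algebraMap A D)).comp (algebraMap Q A) := RingHom.ext hθ
    rw [this]
    exact ((RingHom.Finite.of_surjective q hq).comp hfinAD).comp hfinQA
  let _ : Algebra T₀ (D ⧸ I) := θ.toAlgebra
  have hfinC : Module.Finite T₀ (D ⧸ I) := hθfin
  have hlψ : IsLocalHom ψ := inferInstance
  refine ⟨D ⧸ I, inferInstance, hloc, inferInstance, inferInstance, ψ, hfinC, hθ, hlψ, ?_, ?_,
    fun i => ⟨_, hψF i⟩, ?_⟩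
  · intro y
    obtain ⟨y, rfl⟩ := hq y
    obtain ⟨a, ha⟩ := hres y
    refine ⟨a, ?_⟩
    have h1 : y - algebraMap A D a ∈ maximalIdeal D := hmD ▸ Ideal.mem_sup_left ha
    have h2 := map_nonunit q _ h1
    rwa [map_sub] at h2
  · have hreg : IsWeaklyRegular D (wl.map (algebraMap A D)) := hwl.of_flat
    have hsop : IsSop D (List.ofFn rel ++ List.ofFn fun i => algebraMap A D (ξ i)) := by
      refine isSop_iff.2 ⟨fun a ha => ?_, ?_⟩
      · rcases List.mem_append.1 ha with h | h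
        · obtain ⟨i, rfl⟩ := (List.mem_ofFn' _ _).1 h
          exact hrel i
        · obtain ⟨i, rfl⟩ := (List.mem_ofFn' _ _).1 h
          exact map_nonunit _ _ (hξ i)
      · obtain ⟨n₁, h₁⟩ := exists_pow_le_map_of_finite θ hθfin
        obtain ⟨n₂, h₂⟩ := (isSop_iff.1 hx).2
        refine ⟨n₁ * n₂, ?_⟩
        have h3 : maximalIdeal (D ⧸ I) ^ (n₁ * n₂) ≤
            (Ideal.span (Set.range fun i => algebraMap A D (ξ i))).map q := by
          rw [pow_mul]
          refine (Ideal.pow_right_mono h₁ _).trans ?_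
          rw [← Ideal.map_pow]
          refine (Ideal.map_mono h₂).trans ?_
          rw [ofList_ofFn, Ideal.map_span, Ideal.span_le]
          rintro _ ⟨_, ⟨i, rfl⟩, rfl⟩
          obtain ⟨c, hc⟩ := hxξ i
          rw [hθ, hc, map_mul]
          exact Ideal.mul_mem_right _ _ (Ideal.mem_map_of_mem q (Ideal.subset_span ⟨i, rfl⟩))
        have h4 : maximalIdeal D ^ (n₁ * n₂) ≤ (maximalIdeal (D ⧸ I) ^ (n₁ * n₂)).comap q := by
          rw [← Ideal.map_le_iff_le_comap, Ideal.map_pow]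
          exact Ideal.pow_right_mono (map_max_le q) _
        refine h4.trans ((Ideal.comap_mono h3).trans ?_)
        rw [Ideal.comap_map_of_surjective q hq, ← RingHom.ker_eq_comap_bot, Ideal.mk_ker,
          Ideal.ofList_append, ofList_ofFn, ofList_ofFn, sup_comm]
    have h5 := isWeaklyRegular_of_isSop hreg (fun a ha => by
      obtain ⟨a', ha', rfl⟩ := List.mem_map.1 ha
      exact map_nonunit _ _ (hwm a' ha')) hsop (by simp [hlen, add_comm])
    have h6 := reg_quot q hq _ _ (by rw [Ideal.mk_ker, ofList_ofFn]) h5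
    rwa [List.map_ofFn] at h6
  · let b := Module.finBasis Q A
    have hρ : 0 < Module.finrank Q A := (Module.finrank_pos_iff_of_free Q A).2 inferInstance
    let φ : (Fin (Module.finrank Q A) → T₀) →ₗ[T₀] D ⧸ I :=
      Fintype.linearCombination T₀ fun i => ψ (b i)
    have hφ : ∀ c : Fin (Module.finrank Q A) → Q, φ (fun i => Φ (c i)) = ψ (∑ i, c i • b i) := by
      intro c
      simp only [φ, Fintype.linearCombination_apply, map_sum]
      refine Finset.sum_congr rfl fun i _ => ?_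
      rw [Algebra.smul_def, Algebra.smul_def, map_mul, ← hθ]
      rfl
    have hrange : ∀ a, ψ a ∈ LinearMap.range φ := fun a =>
      ⟨fun i => Φ (b.repr a i), by rw [hφ, b.sum_repr]⟩
    obtain ⟨ϖ', hϖ'⟩ := hϖ
    obtain ⟨e₁, he₁⟩ := unif (Φ p) ⊤ (LinearMap.range φ) Module.Finite.fg_top fun y _ => by
      obtain ⟨y, rfl⟩ := hq y
      have key : ∃ (e : ℕ) (a : A), ψ ϖ ^ e * q y = ψ a := by
        have hy : y ∈ Algebra.adjoin A (Set.range ζ) := hadj ▸ trivial
        induction hy using Algebra.adjoin_induction with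
        | mem x hx =>
          obtain ⟨i, rfl⟩ := hx
          exact ⟨1, F i, by rw [pow_one, hψF]⟩
        | algebraMap r => exact ⟨0, r, by rw [pow_zero, one_mul]; rfl⟩
        | add x y _ _ hx hy =>
          obtain ⟨e, a, ha⟩ := hx trivial
          obtain ⟨e', a', ha'⟩ := hy trivial
          refine ⟨e + e', ϖ ^ e' * a + ϖ ^ e * a', ?_⟩
          rw [map_add, map_add, map_mul, map_mul, map_pow, map_pow, ← ha, ← ha']
          ring
        | mul x y _ _ hx hy =>
          obtain ⟨e, a, ha⟩ := hx trivial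
          obtain ⟨e', a', ha'⟩ := hy trivial
          refine ⟨e + e', a * a', ?_⟩
          rw [map_mul, map_mul, ← ha, ← ha']
          ring
      obtain ⟨e, a, ha⟩ := key
      refine ⟨N * e, ?_⟩
      have : Φ p ^ (N * e) • q y = ψ (ϖ' ^ e * a) := by
        rw [Algebra.smul_def, map_pow]
        change θ (Φ p) ^ (N * e) * _ = _
        rw [hθ, pow_mul, ← map_pow, hϖ', map_mul, map_mul, map_pow, ← ha]
        ring
      rw [this]
      exact hrange _
    obtain ⟨e₂, he₂⟩ := unif (Φ p) (LinearMap.ker φ) ⊥ (IsNoetherian.noetherian _) fun t ht => by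
      choose c hc using fun i => hΦ (t i)
      have ht' : t = fun i => Φ (c i) := funext fun i => (hc i).symm
      rw [LinearMap.mem_ker, ht', hφ] at ht
      let J : Ideal A := (Ideal.span (Set.range f)).map (algebraMap Q A)
      let pb : A ⧸ J := Ideal.Quotient.mk J (algebraMap Q A p)
      let E := Localization.Away pb
      have hE : ∀ a, algebraMap A E a = algebraMap (A ⧸ J) E (Ideal.Quotient.mk J a) := fun a => rfl
      have hϖu : IsUnit (algebraMap A E ϖ) := by
        have h1 : IsUnit (algebraMap A E (algebraMap Q A p ^ N)) := by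
          rw [map_pow, hE]
          exact (IsLocalization.Away.algebraMap_isUnit pb).pow N
        rw [hϖ', map_mul] at h1
        exact isUnit_of_mul_isUnit_left h1
      obtain ⟨v, hv⟩ := hϖu.exists_right_inv
      have hz : ∀ i, algebraMap A E (F i) = algebraMap A E ϖ * (v * algebraMap A E (F i)) :=
        fun i => by rw [← mul_assoc, hv, one_mul]
      obtain ⟨χ, hχ⟩ := huniv E (fun i => v * algebraMap A E (F i)) fun i => by
        have h1 := hG2 i E (algebraMap A E) _ (hz i)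
        have h2 : algebraMap A E (algebraMap Q A (f i)) = 0 := by
          have h3 : algebraMap Q A (f i) ∈ J :=
            Ideal.mem_map_of_mem _ (Ideal.subset_span (Set.mem_range_self i))
          rw [hE, Ideal.Quotient.eq_zero_iff_mem.2 h3, map_zero]
        rw [h2] at h1
        rw [aeval_def]
        exact ((hϖu.pow P).mul_right_eq_zero).1 ((((hu i).map _).mul_right_eq_zero).1 h1.symm)
      have hIχ : I ≤ RingHom.ker (χ : D →+* E) := by
        rw [Ideal.span_le]
        rintro _ ⟨i, rfl⟩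
        change χ (rel i) = 0
        simp only [rel, map_sub, map_mul, AlgHom.commutes, hχ]
        rw [← hz, sub_self]
      have h3 : χ (algebraMap A D (∑ i, c i • b i)) = 0 :=
        hIχ (Ideal.Quotient.eq_zero_iff_mem.1 ht)
      rw [AlgHom.commutes, hE, IsLocalization.map_eq_zero_iff (Submonoid.powers pb)] at h3
      obtain ⟨⟨_, e, rfl⟩, h4⟩ := h3
      refine ⟨e, ?_⟩
      have h5 : p ^ e • ∑ i, c i • b i ∈ J := by
        rw [← Ideal.Quotient.eq_zero_iff_mem, Algebra.smul_def, map_mul, map_pow, map_pow]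
        exact h4
      rw [Submodule.mem_bot]
      funext i
      have h6 := repr_mem b _ h5 i
      rw [map_smul, Finsupp.smul_apply, b.repr_sum_self, ← hker, RingHom.mem_ker, smul_eq_mul,
        map_mul, map_pow, hc] at h6
      exact h6
    refine ⟨_, (e₁ + e₂) * 2, hρ, ?_⟩
    rw [pow_mul]
    refine isIsog_of_ker_coker φ (fun t ht => ?_) fun y => he₁ y trivial e₂
    rw [add_comm]
    exact he₂ t ht e₁

end CovAux

end Vale.Agent.P202
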