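import Vale.Agent.P202.TowerEx
import Vale.Agent.P202.Isog
import Vale.Agent.P202.CoverAux

/-! Module E4: finite Cohen-Macaulay covers with a Briancon-Skoda property. -/

namespace Vale.Agent.P202

open IsLocalRing RingTheory.Sequence

universe u

namespace CovAux

theorem prod_single {A σ : Type*} [CommMonoid A] [Fintype σ] [DecidableEq σ] (y : σ → A) (s : σ)
    (m : ℕ) : ∏ t, y t ^ (Pi.single s m : σ → ℕ) t = y s ^ m := by
  rw [Finset.prod_eq_single s]
  · simp
  · intro t _ ht; simp [ht]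
  · simp

theorem map_eq {A B α : Type*} [CommRing A] [CommRing B] (g : A →+* B) (c : A) (xs : α → A)
    (K : ℕ) : (Ideal.span {c} * Ideal.span (Set.range xs) ^ K).map g =
      Ideal.span {g c} * Ideal.span (Set.range fun i => g (xs i)) ^ K := by
  rw [Ideal.map_mul, Ideal.map_pow, Ideal.map_span, Ideal.map_span, Set.image_singleton,
    ← Set.range_comp]
  rfl

theorem map_mem {A B α : Type*} [CommRing A] [CommRing B] (g : A →+* B) {c y : A} {xs : α → A}
    {K : ℕ} {I : Ideal A} (h : y ∈ Ideal.span {c} * Ideal.span (Set.range xs) ^ K ⊔ I) :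
    g y ∈ Ideal.span {g c} * Ideal.span (Set.range fun i => g (xs i)) ^ K ⊔ I.map g := by
  rw [← map_eq, ← Ideal.map_sup]
  exact Ideal.mem_map_of_mem g h

theorem lift_mem {A B α : Type*} [CommRing A] [CommRing B] (g : A →+* B)
    (hg : Function.Surjective g) {c y : A} {xs : α → A} {K : ℕ}
    (h : g y ∈ Ideal.span {g c} * Ideal.span (Set.range fun i => g (xs i)) ^ K) :
    y ∈ Ideal.span {c} * Ideal.span (Set.range xs) ^ K ⊔ RingHom.ker g := by
  rw [← map_eq, ← Ideal.mem_comap, Ideal.comap_map_of_surjective g hg] at h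
  exact h

theorem pigeon {A : Type*} [CommRing A] {d : ℕ} (η : Fin d → A) {q m wt r₀ : ℕ} (hm : 0 < m)
    (h : q * r₀ ≤ m) :
    Ideal.span (Set.range fun i => η i ^ q) ^ (wt * m - r₀) ≤
      Ideal.span (Set.range fun i => η i ^ m) ^ (wt * q - (d + 1)) := by
  have h1 : Ideal.span (Set.range fun i => η i ^ q) ≤ Ideal.span (Set.range η) ^ q := by
    rw [Ideal.span_le]
    rintro _ ⟨i, rfl⟩
    exact Ideal.pow_mem_pow (Ideal.subset_span (Set.mem_range_self i)) q
  refine (Ideal.pow_right_mono h1 _).trans ?_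
  rw [← pow_mul]
  refine span_pow_le_span_pow_pow η hm ?_
  by_cases h2 : wt * q ≤ d + 1
  · exact Or.inr (Nat.sub_eq_zero_of_le h2)
  · left
    obtain ⟨J, hJ⟩ := Nat.exists_eq_add_of_le (not_le.1 h2).le
    obtain ⟨m', rfl⟩ : ∃ m', m = m' + 1 := ⟨m - 1, by omega⟩
    rw [hJ, Nat.add_sub_cancel_left, Nat.add_sub_cancel, Nat.mul_sub]
    have h3 : q * (wt * (m' + 1)) = (d + 1 + J) * (m' + 1) := by rw [← hJ]; ring
    rw [h3]
    refine Nat.le_sub_of_add_le ?_
    nlinarith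

end CovAux

theorem exists_cover {p : ℕ} [Fact p.Prime] {V : Type u} [CommRing V] [IsDomain V]
    [IsDiscreteValuationRing V] (hV : IsCohen p V)
    (hperf : ∀ v : V, ∃ y : V, y ^ p - v ∈ Ideal.span {(p : V)}) {T₀ : Type u} [CommRing T₀]
    [IsLocalRing T₀] [IsNoetherianRing T₀] {d : ℕ} (hCI : IsCI V T₀ d) {x : Fin d → T₀}
    (hx : IsSop T₀ (List.ofFn x)) {c₁ : T₀} (hc₁ : c₁ ∈ maximalIdeal T₀) (μ : ℕ) {R : Type}
    [Finite R] (a : R → T₀) (ha : ∀ r, a r ∈ maximalIdeal T₀) (wt : R → ℕ) (r₀ : ℕ)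
    (hint : ∀ r (N : ℕ), ((p : T₀) ^ μ * c₁) * a r ^ N ∈
      Ideal.span {((p : T₀) ^ μ * c₁) ^ N} * Ideal.span (Set.range x) ^ (wt r * N - r₀))
    (hp : ∀ N : ℕ, (p : T₀) ^ N ∈ Ideal.span (Set.range x) ^ (N - r₀)) (j k L : ℕ) (hL : 2 ≤ L)
    (hk : p ^ j * r₀ ≤ p ^ k) (hk' : p ^ j ≤ p ^ k) (hk'' : ∀ r, wt r * p ^ j ≤ p ^ k) :
    ∃ (C : Type u) (_ : CommRing C) (_ : IsLocalRing C) (_ : IsNoetherianRing C)
      (_ : Algebra T₀ C) (ξ : Fin d → C) (π γ : C), Module.Finite T₀ C ∧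
      (∀ y : C, ∃ t : T₀, y - algebraMap T₀ C t ∈ maximalIdeal C) ∧
      (∀ i, ξ i ^ p ^ j = algebraMap T₀ C (x i)) ∧ π ^ p ^ k = p ∧
      γ ^ p ^ k = algebraMap T₀ C c₁ ∧ IsWeaklyRegular C (List.ofFn ξ) ∧
      (p : C) ∈ Ideal.span (Set.range ξ) ^ (p ^ j - 2 * (d + 1)) ∧
      (∀ r, (π ^ μ * γ) ^ 2 * algebraMap T₀ C (a r) ∈
        Ideal.span {algebraMap T₀ C ((p : T₀) ^ μ * c₁)} *
          Ideal.span (Set.range ξ) ^ (wt r * p ^ j - 2 * (d + 1)) ⊔ Ideal.span {(p : C) ^ L}) ∧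
      ∃ ρ b : ℕ, 0 < ρ ∧ IsIsog ((p : T₀) ^ b) (Fin ρ → T₀) C := by
  classical
  have hc := hV.complete
  have hp0 : 0 < p := (Fact.out : p.Prime).pos
  obtain ⟨σ, _, κ, Φ, f, v, hΦ, hker, hcard, hv⟩ := hCI.exists_vars (ι := Fin d ⊕ Option R)
    (Sum.elim x fun o => o.elim c₁ a) (by
      rintro (i | _ | r)
      · exact hx.1 _ ((List.mem_ofFn' _ _).2 ⟨i, rfl⟩)
      · exact hc₁
      · exact ha r)
  have hvx : ∀ i, Φ (MvPowerSeries.X (v (.inl i))) = x i := fun i => hv (.inl i)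
  have hvc : Φ (MvPowerSeries.X (v (.inr none))) = c₁ := hv (.inr none)
  have hva : ∀ r, Φ (MvPowerSeries.X (v (.inr (some r)))) = a r := fun r => hv (.inr (some r))
  obtain ⟨Q, _, _, ι, w, j₀, hT, hj₀, hQ⟩ := hV.exists_tower hperf σ
  let g : ∀ n, MvPowerSeries σ V →+* Q n := fun n => (ι 0 n (Nat.zero_le n)).comp j₀
  have hgX : ∀ n s, g n (MvPowerSeries.X s) = w n (some s) ^ p ^ n := fun n s => by
    simp only [g, RingHom.comp_apply, hj₀]
    exact hT.root 0 n _ _
  have hgp : ∀ n, w n none ^ p ^ n = p := fun n => by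
    have := hT.root 0 n (Nat.zero_le n) none
    rw [hT.zero, map_natCast] at this
    exact this.symm
  let cγ : Option R → Option σ → ℕ := fun o =>
    o.elim 0 fun _ => Pi.single none μ + Pi.single (some (v (.inr none))) 1
  let aγ : Option R → Option σ → ℕ := fun o =>
    o.elim (Pi.single none 1) fun r => Pi.single (some (v (.inr (some r)))) 1
  let wt' : Option R → ℕ := fun o => o.elim 1 wt
  let cQ : Option R → MvPowerSeries σ V := fun o =>
    o.elim 1 fun _ => (p : MvPowerSeries σ V) ^ μ * MvPowerSeries.X (v (.inr none))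
  let aQ : Option R → MvPowerSeries σ V := fun o =>
    o.elim p fun r => MvPowerSeries.X (v (.inr (some r)))
  have hcγ : ∀ n r, ∏ s, w n s ^ cγ (some r) s = w n none ^ μ * w n (some (v (.inr none))) :=
    fun n r => by
      simp only [cγ, Option.elim, Pi.add_apply, pow_add, Finset.prod_mul_distrib,
        CovAux.prod_single, pow_one]
  have hcQ : ∀ o, ∏ s, w 0 s ^ cγ o s = j₀ (cQ o) := by
    rintro (_ | r)
    · simp [cγ, cQ]
    · rw [hcγ, hT.zero]
      simp only [cQ, Option.elim, map_mul, map_pow, map_natCast, hj₀]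
  have haQ : ∀ o, ∏ s, w 0 s ^ aγ o s = j₀ (aQ o) := by
    rintro (_ | r)
    · simp only [aγ, aQ, Option.elim, CovAux.prod_single, pow_one, hT.zero, map_natCast]
    · simp only [aγ, aQ, Option.elim, CovAux.prod_single, pow_one, hj₀]
  have hT0 : ∀ o, Φ (cQ o * aQ o ^ p ^ k) ∈ Ideal.span {Φ (cQ o ^ p ^ k)} *
      Ideal.span (Set.range fun i => Φ (MvPowerSeries.X (v (.inl i)))) ^ (wt' o * p ^ k - r₀) := by
    rintro (_ | r)
    · simpa [cQ, aQ, wt', hvx, Ideal.span_singleton_one] using hp (p ^ k)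
    · simpa only [cQ, aQ, wt', Option.elim, map_mul, map_pow, map_natCast, hvx, hvc, hva] using
        hint r (p ^ k)
  obtain ⟨n, k₁, F, hjn, hk₁n, hkk₁, hA, hB⟩ := hT.exists_approx (fun i => j₀ (f i)) cγ aγ
    (fun i => some (v (.inl i))) j k (L * p ^ (2 * k)) (fun o => wt' o * p ^ j - (d + 1))
    (by
      rintro (_ | r)
      · exact (Nat.sub_le _ _).trans (by simpa [wt'] using hk')
      · exact (Nat.sub_le _ _).trans (hk'' r))
    (fun o => by
      have h1 := CovAux.map_mem (g j) (CovAux.lift_mem Φ hΦ (hT0 o))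
      rw [hker, Ideal.map_span, ← Set.range_comp] at h1
      simp only [hgX] at h1
      rw [hcQ, haQ, ← map_pow j₀, ← map_mul j₀, ← map_pow, ← map_pow]
      exact sup_le_sup_right (Ideal.mul_mono_right
        (CovAux.pigeon (fun i => w j (some (v (.inl i)))) (pow_pos hp0 k) hk)) _ h1)
  obtain ⟨hAn, hmA, hreg, hres⟩ := hQ n
  have hkn : k ≤ n := by omega
  have hwm : ∀ s, w n s ∈ maximalIdeal (Q n) := fun s =>
    hmA ▸ Ideal.subset_span (Set.mem_range_self s)
  have hwp : ∀ s e, w n s ^ p ^ e ∈ maximalIdeal (Q n) := fun s e =>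
    Ideal.pow_mem_of_mem _ (hwm s) _ (pow_pos hp0 e)
  let y : Option σ → MvPowerSeries σ V := fun o => o.elim p MvPowerSeries.X
  have hgy : ∀ s, g n (y s) = w n s ^ p ^ n := by
    rintro (_ | s)
    · simp only [y, Option.elim, map_natCast, hgp]
    · exact hgX n s
  have hmQ : maximalIdeal (MvPowerSeries σ V) = Ideal.span (Set.range y) := by
    rw [maximalIdeal_mvPowerSeries, hV.max, Ideal.map_span, Set.image_singleton, map_natCast,
      ← Ideal.span_union]
    congr 1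
    ext t
    simp only [Set.mem_union, Set.mem_singleton_iff, Set.mem_range, Option.exists, y, Option.elim]
    exact or_congr_left eq_comm
  have hmap : (maximalIdeal (MvPowerSeries σ V)).map (g n) =
      Ideal.span (Set.range fun s => w n s ^ p ^ n) := by
    rw [hmQ, Ideal.map_span, ← Set.range_comp]
    congr 2
    exact funext hgy
  have hloc : IsLocalHom (g n) := isLocalHom_of_map_le (by
    rw [hmap, Ideal.span_le]
    rintro _ ⟨s, rfl⟩
    exact hwp s n)
  obtain ⟨N₀, hN₀⟩ : ∃ N₀ : ℕ, maximalIdeal (Q n) ^ N₀ ≤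
      (maximalIdeal (MvPowerSeries σ V)).map (g n) := by
    refine Ideal.exists_pow_le_of_le_radical_of_fg ?_ (Ideal.fg_of_isNoetherianRing _)
    rw [hmA, hmap, Ideal.span_le]
    rintro _ ⟨s, rfl⟩
    exact ⟨p ^ n, Ideal.subset_span (Set.mem_range_self s)⟩
  have hcQ' := isAdicComplete_mvPowerSeries (σ := σ) (V := V)
  have hfin : (g n).Finite := finite_of_complete (g n)
    (fun b => (hres b).imp' MvPowerSeries.C fun _ h => h) hN₀
  let _ : Algebra (MvPowerSeries σ V) (Q n) := (g n).toAlgebra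
  have hfin' : Module.Finite (MvPowerSeries σ V) (Q n) := hfin
  let l : List (Option σ) := Finset.univ.toList
  have hl : ∀ {B : Type u} [CommRing B] (z : Option σ → B),
      Ideal.ofList (l.map z) = Ideal.span (Set.range z) := by
    intro B _ z
    unfold Ideal.ofList
    congr 1
    ext t
    simp [l]
  have hwl := hreg l (Finset.nodup_toList _)
  have hwlm : ∀ t ∈ l.map (w n), t ∈ maximalIdeal (Q n) := fun t ht => by
    obtain ⟨s, -, rfl⟩ := List.mem_map.1 ht
    exact hwm s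
  have hfree : Module.Free (MvPowerSeries σ V) (Q n) := by
    refine free_of_isWeaklyRegular (l.map y) (by rw [hl, hmQ]) ?_
    rw [← isWeaklyRegular_map_algebraMap_iff (Q n)]
    refine isWeaklyRegular_of_isSop hwl hwlm (CovAux.isSop_iff.2 ⟨fun t ht => ?_, N₀, ?_⟩)
      (by simp)
    · obtain ⟨t', ht', rfl⟩ := List.mem_map.1 ht
      obtain ⟨s, -, rfl⟩ := List.mem_map.1 ht'
      exact (hgy s).symm ▸ hwp s n
    · rw [← Ideal.map_ofList, hl, ← hmQ]
      exact hN₀
  have hpow : ∀ (s : Option σ) (e : ℕ), e ≤ n → (w n s ^ p ^ (n - e)) ^ p ^ e = w n s ^ p ^ n :=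
    fun s e he => by rw [← pow_mul, ← pow_add, Nat.sub_add_cancel he]
  obtain ⟨C, _, _, _, _, ψ, hfinC, hθ, hlψ, hresC, hregC, hdvd, hiso⟩ :=
    CovAux.core (A := Q n) Φ hΦ f hker (l.map (w n)) hwl hwlm (by simp [l, hcard]) p
      (hmQ ▸ Ideal.subset_span ⟨none, rfl⟩) F ((w n none ^ p ^ (n - k₁)) ^ (L * p ^ (2 * k)))
      (P := p ^ k₁) (N := L * p ^ (2 * k)) (pow_pos hp0 _)
      (fun i => by rw [map_natCast]; exact hA i)
      (by
        rw [map_natCast, ← hgp n, ← hpow none k₁ hk₁n]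
        exact pow_dvd_pow_of_dvd (dvd_pow_self _ (pow_pos hp0 _).ne') _)
      (fun i => MvPowerSeries.X (v (.inl i))) (by simpa only [hvx] using hx)
      (fun i => w n (some (v (.inl i))) ^ p ^ (n - j)) (fun i => hwp _ _)
      (fun i => by
        change _ ∣ g n _
        rw [hgX, ← hpow _ j hjn]
        exact dvd_pow_self _ (pow_pos hp0 _).ne')
  have hθ' : ∀ q, algebraMap T₀ C (Φ q) = ψ (g n q) := hθ
  have hBS : (Ideal.span (insert ((w n none ^ p ^ (n - k₁)) ^ (L * p ^ (2 * k))) (Set.range F)) ^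
      p ^ (k₁ - 2 * k)).map ψ ≤ Ideal.span {(p : C) ^ L} := by
    have h1 : (Ideal.span (insert ((w n none ^ p ^ (n - k₁)) ^ (L * p ^ (2 * k)))
        (Set.range F))).map ψ ≤ Ideal.span {ψ ((w n none ^ p ^ (n - k₁)) ^ (L * p ^ (2 * k)))} := by
      rw [Ideal.map_span, Ideal.span_le]
      rintro _ ⟨_, rfl | ⟨i, rfl⟩, rfl⟩
      · exact Ideal.mem_span_singleton_self _
      · exact Ideal.mem_span_singleton.2 (hdvd i)
    rw [Ideal.map_pow]
    refine (Ideal.pow_right_mono h1 _).trans (le_of_eq ?_)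
    rw [Ideal.span_singleton_pow, ← map_pow, ← pow_mul, mul_assoc, ← pow_add,
      Nat.add_sub_cancel' hkk₁, mul_comm L, pow_mul, hpow none k₁ hk₁n, hgp, map_pow, map_natCast]
  have hB' : ∀ o, ψ ((∏ s, w n s ^ cγ o s) ^ p ^ (n - k)) ^ 2 * algebraMap T₀ C (Φ (aQ o)) ∈
      Ideal.span {algebraMap T₀ C (Φ (cQ o))} *
        Ideal.span (Set.range fun i => ψ (w n (some (v (.inl i))) ^ p ^ (n - j))) ^
          (wt' o * p ^ j - 2 * (d + 1)) ⊔ Ideal.span {(p : C) ^ L} := by
    intro o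
    have h1 := CovAux.map_mem ψ (hB o)
    rw [hcQ, haQ, map_mul, map_pow, Nat.sub_sub, ← two_mul] at h1
    rw [hθ', hθ']
    exact sup_le_sup_left hBS _ h1
  refine ⟨C, inferInstance, inferInstance, inferInstance, inferInstance,
    fun i => ψ (w n (some (v (.inl i))) ^ p ^ (n - j)), ψ (w n none ^ p ^ (n - k)),
    ψ (w n (some (v (.inr none))) ^ p ^ (n - k)), hfinC, fun t => ?_, fun i => ?_, ?_, ?_, hregC,
    ?_, fun r => ?_, by simpa only [map_natCast] using hiso⟩
  · obtain ⟨b, hb⟩ := hresC t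
    obtain ⟨c, hc⟩ := hres b
    refine ⟨Φ (MvPowerSeries.C c), ?_⟩
    have h1 := add_mem hb (map_nonunit ψ _ hc)
    rw [map_sub, sub_add_sub_cancel] at h1
    rw [hθ']
    exact h1
  · rw [← map_pow, hpow _ j hjn, ← hvx, hθ', hgX]
  · rw [← map_pow, hpow _ k hkn, hgp, map_natCast]
  · rw [← map_pow, hpow _ k hkn, ← hvc, hθ', hgX]
  · have h1 := hB' none
    simp only [cγ, cQ, aQ, wt', Option.elim, Pi.zero_apply, pow_zero, Finset.prod_const_one,
      one_pow, map_one, one_mul, map_natCast, Ideal.span_singleton_one, Ideal.top_mul] at h1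
    obtain ⟨s, hs, t, ht, hst⟩ := Submodule.mem_sup.1 h1
    obtain ⟨c, rfl⟩ := Ideal.mem_span_singleton'.1 ht
    have hpC : (p : C) ∈ maximalIdeal C := by
      have := map_nonunit ψ _ (hwp none n)
      rwa [hgp, map_natCast] at this
    obtain ⟨L', rfl⟩ := Nat.exists_eq_add_of_le' hL
    have hu : IsUnit (1 - c * (p : C) ^ L' * p) :=
      isUnit_one_sub_self_of_mem_nonunits _ (Ideal.mul_mem_left (maximalIdeal C) _ hpC)
    rw [← Ideal.mul_unit_mem_iff_mem _ hu]
    have : (p : C) * (1 - c * (p : C) ^ L' * p) = s := by linear_combination -hst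
    rw [this]
    exact hs
  · have h1 := hB' (some r)
    rw [hcγ, mul_pow, map_mul, ← pow_mul, mul_comm μ, pow_mul, map_pow] at h1
    simpa only [cQ, aQ, wt', Option.elim, map_mul Φ, map_pow Φ, map_natCast Φ, hvc, hva] using h1

end Vale.Agent.P202
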