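import Mathlib

/-! Definitions used by the statement of the P202 hand-ins (Lech's conjecture). -/

namespace Vale.Agent.P202

open IsLocalRing Filter Topology

/-- The sequence `d! * length(A / m^N) / N^d` (for a Noetherian local ring the length is finite). -/
noncomputable def hsSeq (A : Type*) [CommRing A] [IsLocalRing A] (d : ℕ) (N : ℕ) : ℝ :=
  (d.factorial : ℝ) * ((Module.length A (A ⧸ maximalIdeal A ^ N)).toNat : ℝ) / (N : ℝ) ^ d

/-- `e` is the Hilbert-Samuel multiplicity of the local ring `A`:
`d = dim A` is finite and `d! * length(A / m^N) / N^d` tends to `e`. -/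
def IsMultiplicity (A : Type*) [CommRing A] [IsLocalRing A] (e : ℝ) : Prop :=
  ∃ d : ℕ, ringKrullDim A = d ∧ Tendsto (hsSeq A d) atTop (𝓝 e)

end Vale.Agent.P202
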