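import Vale.Agent.P202.CohenRing
import Vale.Agent.P202.Core0AuxC

/-! Module F2a: flat maps of power series rings over Cohen rings; base change of a finite map. -/

namespace Vale.Agent.P202

open IsLocalRing RingTheory.Sequence TensorProduct

universe u

namespace FacA

theorem ofList_vars {p : ℕ} {V : Type u} [CommRing V] [IsDomain V] [IsDiscreteValuationRing V]
    (h : IsCohen p V) {σ : Type} [Finite σ] (l : List σ) (hl : ∀ s, s ∈ l) :
    Ideal.ofList (l.map MvPowerSeries.X ++ [(p : MvPowerSeries σ V)]) =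
      maximalIdeal (MvPowerSeries σ V) := by
  rw [Ideal.ofList_append, maximalIdeal_mvPowerSeries, h.max, sup_comm, Ideal.map_span,
    Set.image_singleton, map_natCast, Ideal.ofList_singleton]
  refine congrArg _ (congrArg Ideal.span (Set.ext fun x => ?_))
  simp [hl]

theorem reg_vars {p : ℕ} [Fact p.Prime] {V : Type u} [CommRing V] [IsDomain V]
    [IsDiscreteValuationRing V] (h : IsCohen p V) {σ : Type} [Finite σ] (l : List σ)
    (hl : l.Nodup) : IsWeaklyRegular (MvPowerSeries σ V)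
      (l.map MvPowerSeries.X ++ [(p : MvPowerSeries σ V)]) := by
  have h1 := isWeaklyRegular_X_append (V := V) l hl (w := [(p : V)])
    ((isWeaklyRegular_singleton_iff V _).mpr (IsSMulRegular.of_ne_zero h.ne_zero))
  rwa [List.map_singleton, map_natCast] at h1

theorem X_mem {V : Type u} [CommRing V] [IsLocalRing V] {σ : Type} [Finite σ] (s : σ) :
    (MvPowerSeries.X s : MvPowerSeries σ V) ∈ maximalIdeal (MvPowerSeries σ V) := by
  rw [maximalIdeal_mvPowerSeries]
  exact Ideal.mem_sup_right (Ideal.subset_span ⟨s, rfl⟩)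

theorem p_mem {p : ℕ} [Fact p.Prime] {V : Type u} [CommRing V] [IsDomain V]
    [IsDiscreteValuationRing V] (h : IsCohen p V) (σ : Type) [Finite σ] :
    (p : MvPowerSeries σ V) ∈ maximalIdeal (MvPowerSeries σ V) := by
  rw [maximalIdeal_mvPowerSeries, ← map_natCast (MvPowerSeries.C (σ := σ) (R := V))]
  exact Ideal.mem_sup_left (Ideal.mem_map_of_mem _ h.mem_max)

theorem reg_quot {B : Type u} [CommRing B] {l₁ l₂ : List B} (h : IsWeaklyRegular B (l₁ ++ l₂))
    {I : Ideal B} (hI : Ideal.ofList l₁ = I) : IsWeaklyRegular (B ⧸ I) l₂ := by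
  have h1 := ((isWeaklyRegular_append_iff B l₁ l₂).1 h).2
  have e : (Ideal.ofList l₁ • ⊤ : Submodule B B) = I := by
    rw [hI, smul_eq_mul, Ideal.mul_top]
  exact ((Submodule.quotEquivOfEq _ _ e).isWeaklyRegular_congr l₂).1 h1

theorem reg_map {A B : Type u} [CommRing A] [CommRing B] (f : A →+* B) {K : Ideal A}
    {K' : Ideal B} (h1 : K ≤ K'.comap f) (h2 : K'.comap f ≤ K)
    (h3 : ∀ b : B, ∃ a : A, b - f a ∈ K') {w : List A} (hw : IsWeaklyRegular (A ⧸ K) w) :
    IsWeaklyRegular (B ⧸ K') (w.map f) := by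
  have hs : Function.Surjective (Ideal.quotientMap K' f h1) := fun z => by
    obtain ⟨b, rfl⟩ := Ideal.Quotient.mk_surjective z
    obtain ⟨a, ha⟩ := h3 b
    exact ⟨Ideal.Quotient.mk _ a, (Ideal.Quotient.eq.2 ha).symm⟩
  let e : (A ⧸ K) ≃+* (B ⧸ K') := RingEquiv.ofBijective (Ideal.quotientMap K' f h1)
    ⟨Ideal.quotientMap_injective' h2, hs⟩
  refine (AddEquiv.isWeaklyRegular_congr (e := e.toAddEquiv) ?_).mp hw
  refine List.forall₂_map_right_iff.mpr (List.forall₂_same.mpr fun r _ x => ?_)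
  obtain ⟨x, rfl⟩ := Ideal.Quotient.mk_surjective x
  change Ideal.Quotient.mk K' (f (r * x)) = Ideal.Quotient.mk K' (f r * f x)
  rw [map_mul f]

theorem comap_map_of_flat {A B : Type u} [CommRing A] [IsLocalRing A] [CommRing B]
    [IsLocalRing B] (j : A →+* B) [hl : IsLocalHom j] (hj : j.Flat) (I : Ideal A) :
    (I.map j).comap j = I := by
  let _ := j.toAlgebra
  have _ : Module.Flat A B := hj
  have _ : IsLocalHom (algebraMap A B) := hl
  have := Module.FaithfullyFlat.of_flat_of_isLocalHom (A := A) (B := B)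
  exact Ideal.comap_map_eq_self_of_faithfullyFlat (B := B) I

end FacA

open FacA

/-- Extension of coefficients along `u : V₀ → V[[τ]]`. -/
theorem exists_pres_map {p : ℕ} [Fact p.Prime] {V₀ V : Type u} [CommRing V₀] [IsDomain V₀]
    [IsDiscreteValuationRing V₀] [CommRing V] [IsDomain V] [IsDiscreteValuationRing V]
    (h₀ : IsCohen p V₀) (h : IsCohen p V) {τ : Type} [Finite τ] (u : V₀ →+* MvPowerSeries τ V)
    (σ : Type) [Finite σ] :
    ∃ (ρ : MvPowerSeries τ V →+* MvPowerSeries (τ ⊕ σ) V)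
      (j : MvPowerSeries σ V₀ →+* MvPowerSeries (τ ⊕ σ) V),
      ρ.comp MvPowerSeries.C = MvPowerSeries.C ∧
      (∀ t, ρ (MvPowerSeries.X t) = MvPowerSeries.X (Sum.inl t)) ∧
      j.comp MvPowerSeries.C = ρ.comp u ∧
      (∀ s, j (MvPowerSeries.X s) = MvPowerSeries.X (Sum.inr s)) ∧ IsLocalHom j ∧ j.Flat ∧
      (∀ c, (p : MvPowerSeries (τ ⊕ σ) V) ∣ j c → (p : MvPowerSeries σ V₀) ∣ c) ∧
      ∀ l : List τ, l.Nodup → (∀ t, t ∈ l) →
        maximalIdeal (MvPowerSeries (τ ⊕ σ) V) = (maximalIdeal (MvPowerSeries σ V₀)).map j ⊔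
          Ideal.ofList (l.map fun t => MvPowerSeries.X (Sum.inl t)) ∧
        IsWeaklyRegular (MvPowerSeries (τ ⊕ σ) V ⧸ (maximalIdeal (MvPowerSeries σ V₀)).map j)
          (l.map fun t => (MvPowerSeries.X (Sum.inl t) : MvPowerSeries (τ ⊕ σ) V)) := by
  classical
  have := h.complete
  have := isAdicComplete_mvPowerSeries (σ := τ ⊕ σ) (V := V)
  obtain ⟨ρ, hρC, hρX⟩ := exists_evalHom (σ := τ)
    (MvPowerSeries.C : V →+* MvPowerSeries (τ ⊕ σ) V) (fun t => MvPowerSeries.X (Sum.inl t))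
    fun t => X_mem _
  obtain ⟨j, hjC, hjX⟩ := exists_evalHom (σ := σ) (ρ.comp u)
    (fun s => MvPowerSeries.X (Sum.inr s)) fun s => X_mem _
  have := Fintype.ofFinite σ
  obtain ⟨k, hk, hk'⟩ : ∃ k : List σ, k.Nodup ∧ ∀ s, s ∈ k :=
    ⟨Finset.univ.toList, Finset.nodup_toList _, by simp⟩
  have hmapl : (k.map MvPowerSeries.X ++ [(p : MvPowerSeries σ V₀)]).map j =
      (k.map Sum.inr).map MvPowerSeries.X ++ [(p : MvPowerSeries (τ ⊕ σ) V)] := by
    simp [hjX]
  have hmap : (maximalIdeal (MvPowerSeries σ V₀)).map j =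
      Ideal.ofList ((k.map Sum.inr).map MvPowerSeries.X ++ [(p : MvPowerSeries (τ ⊕ σ) V)]) := by
    rw [← ofList_vars h₀ k hk', Ideal.map_ofList, hmapl]
  have hmem : ∀ l : List (τ ⊕ σ), ∀ r ∈ l.map MvPowerSeries.X ++ [(p : MvPowerSeries (τ ⊕ σ) V)],
      r ∈ maximalIdeal (MvPowerSeries (τ ⊕ σ) V) := by
    intro l r hr
    rcases List.mem_append.1 hr with hr | hr
    · obtain ⟨s, -, rfl⟩ := List.mem_map.1 hr
      exact X_mem s
    · rw [List.mem_singleton.1 hr]
      exact p_mem h _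
  have hloc : IsLocalHom j := isLocalHom_of_map_le (by
    rw [hmap]
    exact Ideal.span_le.2 (hmem _))
  have hflat : j.Flat := by
    refine flat_of_isWeaklyRegular j _ (ofList_vars h₀ k hk') ?_
    rw [hmapl]
    exact reg_vars h _ (hk.map Sum.inr_injective)
  refine ⟨ρ, j, hρC, hρX, hjC, hjX, hloc, hflat, fun c hc => ?_, fun l hl hl' => ?_⟩
  · rw [← Ideal.mem_span_singleton, ← comap_map_of_flat j hflat (Ideal.span {_}), Ideal.mem_comap,
      Ideal.map_span, Set.image_singleton, map_natCast, Ideal.mem_span_singleton]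
    exact hc
  · have hperm : ((k.map Sum.inr ++ l.map Sum.inl).map MvPowerSeries.X ++
        [(p : MvPowerSeries (τ ⊕ σ) V)]).Perm
        (((k.map Sum.inr).map MvPowerSeries.X ++ [(p : MvPowerSeries (τ ⊕ σ) V)]) ++
          l.map fun t => MvPowerSeries.X (Sum.inl t)) := by
      rw [List.map_append, List.append_assoc, List.append_assoc, List.map_map (l := l)]
      exact List.Perm.append_left _ List.perm_append_comm
    have hnd : (k.map Sum.inr ++ l.map Sum.inl : List (τ ⊕ σ)).Nodup := by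
      rw [List.nodup_append]
      refine ⟨hk.map Sum.inr_injective, hl.map Sum.inl_injective, fun a ha b hb hab => ?_⟩
      obtain ⟨s, -, rfl⟩ := List.mem_map.1 ha
      obtain ⟨t, -, rfl⟩ := List.mem_map.1 hb
      exact Sum.inr_ne_inl hab
    have hall : ∀ s : τ ⊕ σ, s ∈ k.map Sum.inr ++ l.map Sum.inl := by
      rintro (t | s)
      · exact List.mem_append_right _ (List.mem_map_of_mem (hl' t))
      · exact List.mem_append_left _ (List.mem_map_of_mem (hk' s))
    refine ⟨?_, reg_quot (IsLocalRing.isWeaklyRegular_of_perm_of_subset_maximalIdeal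
      (reg_vars h _ hnd) hperm (hmem _)) hmap.symm⟩
    rw [hmap, ← Ideal.ofList_append, ← ofList_vars h _ hall]
    exact congrArg Ideal.span (Set.ext fun x => hperm.mem_iff)

theorem IsCohen.prime_mvPowerSeries {p : ℕ} [Fact p.Prime] {V : Type u} [CommRing V] [IsDomain V]
    [IsDiscreteValuationRing V] (h : IsCohen p V) (σ : Type) :
    Prime (p : MvPowerSeries σ V) ∧ ∀ s, ¬ (p : MvPowerSeries σ V) ∣ MvPowerSeries.X s := by
  have hker : RingHom.ker (MvPowerSeries.map (σ := σ) (residue V)) =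
      Ideal.span {(p : MvPowerSeries σ V)} := by
    refine le_antisymm (fun g hg => ?_) ?_
    · have h1 : ∀ m, ∃ c, p * c = MvPowerSeries.coeff m g := fun m => by
        have h2 := congrArg (MvPowerSeries.coeff m) (RingHom.mem_ker.1 hg)
        rw [MvPowerSeries.coeff_map, map_zero, residue_eq_zero_iff, h.max,
          Ideal.mem_span_singleton] at h2
        obtain ⟨c, hc⟩ := h2
        exact ⟨c, hc.symm⟩
      choose c hc using h1
      obtain ⟨c', hc'⟩ : ∃ c' : MvPowerSeries σ V, ∀ m, MvPowerSeries.coeff m c' = c m :=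
        ⟨c, fun _ => rfl⟩
      refine Ideal.mem_span_singleton.2 ⟨c', MvPowerSeries.ext fun m => ?_⟩
      rw [← map_natCast (MvPowerSeries.C (σ := σ) (R := V)), MvPowerSeries.coeff_C_mul, ← hc, hc']
    · rw [Ideal.span_le, Set.singleton_subset_iff, SetLike.mem_coe, RingHom.mem_ker,
        ← map_natCast (MvPowerSeries.C (σ := σ) (R := V)), MvPowerSeries.map_C,
        (residue_eq_zero_iff _).2 h.mem_max, map_zero]
  have hne : (p : MvPowerSeries σ V) ≠ 0 := fun h0 => h.ne_zero (by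
    rw [← map_natCast (MvPowerSeries.constantCoeff (σ := σ) (R := V)), h0, map_zero])
  have : IsDomain (MvPowerSeries σ (ResidueField V)) := NoZeroDivisors.to_isDomain _
  refine ⟨(Ideal.span_singleton_prime hne).1 (hker ▸ RingHom.ker_isPrime _), fun s hs => ?_⟩
  rw [← Ideal.mem_span_singleton, ← hker, RingHom.mem_ker, MvPowerSeries.map_X] at hs
  have h1 := congrArg (MvPowerSeries.coeff (Finsupp.single s 1)) hs
  rw [MvPowerSeries.coeff_index_single_self_X, map_zero] at h1
  exact one_ne_zero h1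

/-- Base change of the finite map `Q₀ → R` along the flat map `Q₀ → Q`. -/
theorem exists_baseChange {Q₀ Q R S : Type u} [CommRing Q₀] [IsLocalRing Q₀] [IsNoetherianRing Q₀]
    [CommRing Q] [IsLocalRing Q] [IsNoetherianRing Q] [CommRing R] [IsLocalRing R]
    [IsNoetherianRing R] [CommRing S] (j : Q₀ →+* Q) [IsLocalHom j] (hj : j.Flat) (Φ : Q₀ →+* R)
    (hΦ : Φ.Finite) (hres : ∀ r : R, ∃ a : Q₀, r - Φ a ∈ maximalIdeal R) (w : List Q)
    (hmax : maximalIdeal Q = (maximalIdeal Q₀).map j ⊔ Ideal.ofList w)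
    (hw : IsWeaklyRegular (Q ⧸ (maximalIdeal Q₀).map j) w) (φ : R →+* S) (π₀ : Q →+* S)
    (hc : π₀.comp j = φ.comp Φ) :
    ∃ (T : Type u) (_ : CommRing T) (_ : IsLocalRing T) (_ : IsNoetherianRing T)
      (i : Q →+* T) (f : R →+* T) (π : T →+* S), i.Finite ∧
      RingHom.ker i = (RingHom.ker Φ).map j ∧ i.comp j = f.comp Φ ∧ f.Flat ∧ π.comp i = π₀ ∧
      π.comp f = φ ∧ (∀ t : T, ∃ a : Q, t - i a ∈ maximalIdeal T) ∧
      (∀ c : Q₀, (∀ r : R, ∃ z, Φ z = Φ c * r) → ∀ t : T, ∃ z, i z = i (j c) * t) ∧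
      maximalIdeal T = (maximalIdeal R).map f ⊔ Ideal.ofList (w.map i) ∧
      IsWeaklyRegular (T ⧸ (maximalIdeal R).map f) (w.map i) := by
  let _ := j.toAlgebra
  let _ := Φ.toAlgebra
  have _ : Module.Flat Q₀ Q := hj
  have _ : Module.Finite Q₀ R := hΦ
  have hΦl := isLocalHom_of_finite Φ hΦ
  obtain ⟨i, hi⟩ : ∃ i : Q →+* Q ⊗[Q₀] R, i = algebraMap Q (Q ⊗[Q₀] R) := ⟨_, rfl⟩
  obtain ⟨f, hf⟩ : ∃ f : R →+* Q ⊗[Q₀] R,
    f = (Algebra.TensorProduct.includeRight : R →ₐ[Q₀] Q ⊗[Q₀] R).toRingHom := ⟨_, rfl⟩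
  have hi' : ∀ a, i a = a ⊗ₜ 1 := fun a => by rw [hi]; rfl
  have hf' : ∀ r, f r = 1 ⊗ₜ r := fun r => by rw [hf]; rfl
  have htm : ∀ (a : Q) (r : R), a ⊗ₜ[Q₀] r = i a * f r := fun a r => by
    rw [hi', hf', Algebra.TensorProduct.tmul_mul_tmul, mul_one, one_mul]
  have hcomm : i.comp j = f.comp Φ := by
    rw [hi, hf]
    exact Algebra.TensorProduct.includeLeftRingHom_comp_algebraMap
  have hcomm' : ∀ c, i (j c) = f (Φ c) := RingHom.congr_fun hcomm
  have hlift : ∀ {S' : Type u} [CommRing S'] (a : Q →+* S') (b : R →+* S'),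
      a.comp j = b.comp Φ → ∃ π : Q ⊗[Q₀] R →+* S', π.comp i = a ∧ π.comp f = b := by
    intro S' _ a b hab
    let _ := (b.comp Φ).toAlgebra
    let a' : Q →ₐ[Q₀] S' := ⟨a, RingHom.congr_fun hab⟩
    let b' : R →ₐ[Q₀] S' := ⟨b, fun _ => rfl⟩
    refine ⟨(Algebra.TensorProduct.productMap a' b').toRingHom, RingHom.ext fun x => ?_,
      RingHom.ext fun x => ?_⟩
    · rw [RingHom.comp_apply, hi']
      exact Algebra.TensorProduct.productMap_left_apply a' b' x
    · rw [RingHom.comp_apply, hf']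
      exact Algebra.TensorProduct.productMap_right_apply a' b' x
  have hifin : i.Finite := by
    rw [hi]
    exact RingHom.finite_algebraMap.2 inferInstance
  have hfflat : f.Flat := by
    have h1 : (algebraMap R (R ⊗[Q₀] Q)).Flat := RingHom.flat_algebraMap_iff.2 inferInstance
    have h2 : f = (Algebra.TensorProduct.comm Q₀ R Q).toRingEquiv.toRingHom.comp
        (algebraMap R (R ⊗[Q₀] Q)) := RingHom.ext fun r => by rw [hf']; rfl
    rw [h2]
    exact h1.comp (RingHom.Flat.of_bijective (Algebra.TensorProduct.comm Q₀ R Q).bijective)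
  have hker : RingHom.ker i = (RingHom.ker Φ).map j := by
    refine le_antisymm (fun a ha => ?_) (Ideal.map_le_iff_le_comap.2 fun c hc => ?_)
    · have hex := Module.Flat.lTensor_exact Q
        (LinearMap.exact_subtype_ker_map (Algebra.linearMap Q₀ R))
      have h1 : (Algebra.linearMap Q₀ R).lTensor Q (a ⊗ₜ 1) = 0 := by
        rw [LinearMap.lTensor_tmul, Algebra.linearMap_apply, map_one, ← hi']
        exact ha
      obtain ⟨y, hy⟩ := (hex _).1 h1
      have h2 : ∀ y : Q ⊗[Q₀] (LinearMap.ker (Algebra.linearMap Q₀ R)),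
          TensorProduct.rid Q₀ Q ((LinearMap.ker (Algebra.linearMap Q₀ R)).subtype.lTensor Q y) ∈
            (RingHom.ker Φ).map j := by
        intro y
        induction y with
        | zero => rw [map_zero, map_zero]; exact zero_mem _
        | add x y hx hy => rw [map_add, map_add]; exact add_mem hx hy
        | tmul q c =>
          rw [LinearMap.lTensor_tmul, TensorProduct.rid_tmul, Algebra.smul_def]
          exact Ideal.mul_mem_right _ _ (Ideal.mem_map_of_mem j c.2)
      have h3 := h2 y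
      rwa [hy, TensorProduct.rid_tmul, one_smul] at h3
    · rw [Ideal.mem_comap, RingHom.mem_ker, hcomm', RingHom.mem_ker.1 hc, map_zero]
  have hresT : ∀ t : Q ⊗[Q₀] R, ∃ a : Q, t - i a ∈ (maximalIdeal R).map f := by
    intro t
    induction t with
    | zero => exact ⟨0, by rw [map_zero, sub_zero]; exact zero_mem _⟩
    | add x y hx hy =>
      obtain ⟨a, ha⟩ := hx
      obtain ⟨b, hb⟩ := hy
      exact ⟨a + b, by rw [map_add, add_sub_add_comm]; exact add_mem ha hb⟩
    | tmul q r =>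
      obtain ⟨c, hc⟩ := hres r
      refine ⟨q * j c, ?_⟩
      rw [htm, map_mul, hcomm', ← mul_sub, ← map_sub]
      exact Ideal.mul_mem_left _ _ (Ideal.mem_map_of_mem f hc)
  have hle : ((maximalIdeal Q₀).map j).map i ≤ (maximalIdeal R).map f := by
    rw [Ideal.map_map, hcomm, ← Ideal.map_map]
    exact Ideal.map_mono (map_max_le Φ)
  have hcomap : ((maximalIdeal R).map f).comap i ≤ (maximalIdeal Q₀).map j := by
    have hs : Function.Surjective ((residue R).comp Φ) := fun z => by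
      obtain ⟨r, rfl⟩ := residue_surjective z
      obtain ⟨c, hc⟩ := hres r
      refine ⟨c, ?_⟩
      rw [RingHom.comp_apply, eq_comm, ← sub_eq_zero, ← map_sub, residue_eq_zero_iff]
      exact hc
    have hk : RingHom.ker ((residue R).comp Φ) ≤
        RingHom.ker ((Ideal.Quotient.mk ((maximalIdeal Q₀).map j)).comp j) := fun c hc => by
      rw [RingHom.mem_ker, RingHom.comp_apply, Ideal.Quotient.eq_zero_iff_mem]
      exact Ideal.mem_map_of_mem j (le_maximalIdeal (RingHom.ker_ne_top _) hc)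
    obtain ⟨ψ, hψi, hψf⟩ := hlift (Ideal.Quotient.mk ((maximalIdeal Q₀).map j))
      ((((residue R).comp Φ).liftOfSurjective hs ⟨_, hk⟩).comp (residue R))
      (by rw [RingHom.comp_assoc, RingHom.liftOfSurjective_comp])
    have h1 : (maximalIdeal R).map f ≤ RingHom.ker ψ :=
      Ideal.map_le_iff_le_comap.2 fun r hr => by
        rw [Ideal.mem_comap, RingHom.mem_ker, ← RingHom.comp_apply, hψf, RingHom.comp_apply,
          (residue_eq_zero_iff r).2 hr, map_zero]
    intro a ha
    have h2 := h1 ha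
    rwa [RingHom.mem_ker, ← RingHom.comp_apply, hψi, Ideal.Quotient.eq_zero_iff_mem] at h2
  have hnt : Nontrivial (Q ⊗[Q₀] R) := by
    refine ⟨1, 0, fun h10 => (maximalIdeal.isMaximal Q).ne_top ((Ideal.eq_top_iff_one _).2 ?_)⟩
    refine map_max_le j (hcomap ?_)
    rw [Ideal.mem_comap, map_one, h10]
    exact zero_mem _
  obtain ⟨N, hN⟩ := exists_pow_le_map_of_finite Φ hΦ
  obtain ⟨hloc, hm⟩ := exists_isLocalRing_of_finite i hifin ((maximalIdeal R).map f) (N := N)
    (by
      rw [← Ideal.map_pow]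
      refine (Ideal.map_mono hN).trans ?_
      rw [Ideal.map_map, ← hcomm, ← Ideal.map_map]
      exact Ideal.map_mono (map_max_le j)) hresT
  have hm' : maximalIdeal (Q ⊗[Q₀] R) = (maximalIdeal R).map f ⊔ Ideal.ofList (w.map i) := by
    rw [hm, hmax, Ideal.map_sup, ← sup_assoc, sup_eq_left.2 hle, Ideal.map_ofList]
  obtain ⟨π, hπi, hπf⟩ := hlift π₀ φ hc
  refine ⟨Q ⊗[Q₀] R, inferInstance, hloc, IsNoetherianRing.of_finite Q _, i, f, π, hifin, hker,
    hcomm, hfflat, hπi, hπf, fun t => ?_, fun c hc t => ?_, hm',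
    reg_map i (Ideal.map_le_iff_le_comap.1 hle) hcomap hresT hw⟩
  · obtain ⟨a, ha⟩ := hresT t
    exact ⟨a, hm' ▸ Ideal.mem_sup_left ha⟩
  · induction t with
    | zero => exact ⟨0, by rw [map_zero, mul_zero]⟩
    | add x y hx hy =>
      obtain ⟨a, ha⟩ := hx
      obtain ⟨b, hb⟩ := hy
      exact ⟨a + b, by rw [map_add, ha, hb, mul_add]⟩
    | tmul q r =>
      obtain ⟨z, hz⟩ := hc r
      refine ⟨q * j z, ?_⟩
      rw [htm, map_mul, hcomm', hcomm', hz, map_mul, mul_left_comm]

end Vale.Agent.P202
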