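import Vale.Agent.P202.Cover
import Vale.Agent.P202.LocCrit

/-! Module D2: the standing data in mixed characteristic and their first consequences. -/

namespace Vale.Agent.P202

open IsLocalRing RingTheory.Sequence

universe u

/-- `T` is birational over the complete intersection `T₀`, which is finite over the regular
ring `A`; `p ^ μ * c₁` is in the conductor and `x` is a reduction of the maximal ideal of `T`. -/
structure IsMixBase (p : ℕ) (V : Type u) [CommRing V] [IsDomain V] [IsDiscreteValuationRing V]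
    {A T₀ : Type u} (T : Type u) [CommRing A] [IsLocalRing A] [CommRing T₀] [CommRing T]
    [IsLocalRing T] [Algebra A T₀] [Algebra T₀ T] {n : ℕ} (c₁ : A) (μ : ℕ)
    (x : Fin (n + 1) → T₀) : Prop where
  cohen : IsCohen p V
  perf : ∀ v : V, ∃ y : V, y ^ p - v ∈ Ideal.span {(p : V)}
  ci : IsCI V T₀ (n + 1)
  dom : IsDomain A
  noethA : IsNoetherianRing A
  gens : ∃ w : List A, Ideal.ofList w = maximalIdeal A ∧ w.length = n + 1
  prime : Prime (p : A)
  finA : Module.Finite A T₀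
  finT : Module.Finite T₀ T
  inj : Function.Injective (algebraMap T₀ T)
  res : ∀ t : T, ∃ z : T₀, t - algebraMap T₀ T z ∈ maximalIdeal T
  mem : c₁ ∈ maximalIdeal A
  ndvd : ¬ (p : A) ∣ c₁
  cond : ∀ r : T, ∃ z : T₀,
    algebraMap T₀ T z = algebraMap T₀ T ((p : T₀) ^ μ * algebraMap A T₀ c₁) * r
  red : IsReduction fun j => algebraMap T₀ T (x j)

namespace MixAux

theorem map_span {R S ι : Type*} [CommRing R] [CommRing S] (f : R →+* S) (x : ι → R) :
    (Ideal.span (Set.range x)).map f = Ideal.span (Set.range fun j => f (x j)) := by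
  rw [Ideal.map_span, ← Set.range_comp]; rfl

theorem isSop_ring {R : Type*} [CommRing R] [IsLocalRing R] {y : List R} (h : IsSop R y) :
    ∃ N : ℕ, maximalIdeal R ^ N ≤ Ideal.ofList y := by
  obtain ⟨-, N, hN⟩ := h
  refine ⟨N, fun r hr => ?_⟩
  obtain ⟨a, ha, h1⟩ := hN r hr
  have h2 := h1 1 trivial
  rw [Submodule.mem_bot, smul_eq_mul, mul_one, sub_eq_zero] at h2
  exact h2 ▸ ha

theorem isSop_map {R S : Type*} [CommRing R] [IsLocalRing R] [CommRing S] [IsLocalRing S]
    [IsNoetherianRing S] (f : R →+* S) (hf : f.Finite) {y : List R} (h : IsSop R y) :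
    IsSop S (y.map f) := by
  have := isLocalHom_of_finite f hf
  obtain ⟨M, hM⟩ := isSop_ring h
  obtain ⟨N, hN⟩ := exists_pow_le_map_of_finite f hf
  refine HS.isSop_of_le (N := N * M) (fun a ha => ?_) ?_ S
  · obtain ⟨b, hb, rfl⟩ := List.mem_map.1 ha
    exact map_max_le f (Ideal.mem_map_of_mem f (h.1 b hb))
  · rw [pow_mul, ← Ideal.map_ofList]
    refine (Ideal.pow_right_mono hN M).trans ?_
    rw [← Ideal.map_pow]
    exact Ideal.map_mono hM

theorem mult_eq_len {R : Type*} [CommRing R] [IsLocalRing R] [IsNoetherianRing R] {y : List R}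
    (h : IsSop R y) (hr : IsWeaklyRegular R y) :
    Module.length R (R ⧸ Ideal.ofList y) = ((mult R y).toNat : ℕ) := by
  have h1 := mult_eq_length_of_isRegular hr
  have h2 := h.length_ne_top
  rw [smul_eq_mul, Ideal.mul_top] at h1 h2
  rw [h1, Int.toNat_natCast, ENat.natCast_toNat h2]

theorem pow_mem_of_monic {R : Type*} [CommRing R] (I : Ideal R) (t : R) (r : ℕ)
    (q : Polynomial R) (hq : q.Monic) (hc : ∀ k, q.coeff k ∈ I ^ (q.natDegree - k))
    (h0 : q.eval t * t ^ r = 0) (N : ℕ) : t ^ N ∈ I ^ (N - (q.natDegree + r)) := by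
  induction N using Nat.strong_induction_on with
  | _ N ih =>
    rcases le_or_gt N (q.natDegree + r) with hN | hN
    · rw [Nat.sub_eq_zero_of_le hN, pow_zero, Ideal.one_eq_top]; trivial
    obtain ⟨M, rfl⟩ : ∃ M, N = q.natDegree + r + M := ⟨N - (q.natDegree + r), by omega⟩
    rw [Polynomial.eval_eq_sum_range, Finset.sum_range_succ, hq.coeff_natDegree, one_mul,
      add_mul, add_eq_zero_iff_eq_neg'] at h0
    rw [pow_add, pow_add, h0, neg_mul, Finset.sum_mul, Finset.sum_mul]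
    refine neg_mem (Submodule.sum_mem _ fun k hk => ?_)
    have hk' := Finset.mem_range.1 hk
    rw [mul_assoc, mul_assoc, ← pow_add, ← pow_add]
    have := Ideal.mul_mem_mul (hc k) (ih (k + (r + M)) (by omega))
    rw [← pow_add] at this
    exact Ideal.pow_le_pow_right (by omega) this

end MixAux

open MixAux

namespace IsMixBase

variable {p : ℕ} [Fact p.Prime] {V : Type u} [CommRing V] [IsDomain V]
  [IsDiscreteValuationRing V] {A T₀ T : Type u} [CommRing A] [IsLocalRing A] [CommRing T₀]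
  [IsLocalRing T₀] [IsNoetherianRing T₀] [CommRing T] [IsLocalRing T] [IsNoetherianRing T]
  [Algebra A T₀] [Algebra T₀ T] {n : ℕ} {c₁ : A} {μ : ℕ} {x : Fin (n + 1) → T₀}

omit [Fact p.Prime] [IsNoetherianRing T₀] [IsNoetherianRing T] in
theorem locA (h : IsMixBase p V T c₁ μ x) : IsLocalHom (algebraMap A T₀) :=
  isLocalHom_of_finite _ (RingHom.finite_algebraMap.2 h.finA)

omit [Fact p.Prime] [IsNoetherianRing T₀] [IsNoetherianRing T] in
theorem locT (h : IsMixBase p V T c₁ μ x) : IsLocalHom (algebraMap T₀ T) :=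
  isLocalHom_of_finite _ (RingHom.finite_algebraMap.2 h.finT)

omit [Fact p.Prime] [IsNoetherianRing T₀] [IsNoetherianRing T] in
theorem mem_of_map (_h : IsMixBase p V T c₁ μ x) {z : T₀}
    (hz : algebraMap T₀ T z ∈ maximalIdeal T) : z ∈ maximalIdeal T₀ :=
  fun hu => hz (hu.map _)

omit [Fact p.Prime] [IsLocalRing T₀] [IsNoetherianRing T₀] [IsNoetherianRing T] in
theorem c_ne (h : IsMixBase p V T c₁ μ x) : c₁ ≠ 0 := fun e => h.ndvd (e ▸ dvd_zero _)

omit [Fact p.Prime] [IsLocalRing T₀] [IsNoetherianRing T₀] [IsNoetherianRing T] in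
theorem pc_ne (h : IsMixBase p V T c₁ μ x) : (p : A) ^ μ * c₁ ≠ 0 := by
  have := h.dom
  exact mul_ne_zero (pow_ne_zero _ h.prime.ne_zero) h.c_ne

omit [Fact p.Prime] [IsLocalRing T₀] [IsNoetherianRing T₀] [IsNoetherianRing T] in
theorem cond_mem (h : IsMixBase p V T c₁ μ x) (I : Ideal T₀) {y : T}
    (hy : y ∈ I.map (algebraMap T₀ T)) : ∃ z ∈ I,
      algebraMap T₀ T z = algebraMap T₀ T ((p : T₀) ^ μ * algebraMap A T₀ c₁) * y := by
  rw [← Submodule.restrictScalars_mem T₀, ← Ideal.smul_top_eq_map] at hy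
  refine Submodule.smul_induction_on hy (fun r hr t _ => ?_) ?_
  · obtain ⟨z, hz⟩ := h.cond t
    exact ⟨r * z, I.mul_mem_right _ hr, by rw [map_mul, hz, Algebra.smul_def]; ring⟩
  · rintro a b ⟨z, hz, e⟩ ⟨z', hz', e'⟩
    exact ⟨z + z', I.add_mem hz hz', by rw [map_add, e, e', mul_add]⟩

theorem isSop (h : IsMixBase p V T c₁ μ x) : IsSop T₀ (List.ofFn x) := by
  have := h.finT
  have := h.locT
  refine isSop_iff_support.2 ⟨fun a ha => ?_, fun P _ hP => ?_⟩
  · obtain ⟨j, rfl⟩ := List.mem_ofFn.1 ha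
    exact h.mem_of_map (h.red.1 j)
  · obtain ⟨Q, -, hQ, hQP⟩ := Ideal.exists_ideal_over_prime_of_isIntegral (S := T) P.asIdeal ⊥
      (by rw [← RingHom.ker_eq_comap_bot, (RingHom.injective_iff_ker_eq_bot _).1 h.inj]
          exact bot_le)
    obtain ⟨r, hr⟩ := h.red.pow_le
    have h1 : maximalIdeal T ^ (1 + r) ≤ Q := by
      refine (hr 1).trans ?_
      rw [pow_one, Ideal.span_le]
      rintro _ ⟨j, rfl⟩
      have : x j ∈ Q.comap (algebraMap T₀ T) := hQP ▸ hP _ (List.mem_ofFn.2 ⟨j, rfl⟩)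
      exact this
    refine ((maximalIdeal.isMaximal T₀).eq_of_le P.2.ne_top ?_).symm
    rw [← hQP, ← Ideal.map_le_iff_le_comap]
    exact (map_max_le _).trans (hQ.le_of_pow_le h1)

theorem p_mem (h : IsMixBase p V T c₁ μ x) : (p : T₀) ∈ maximalIdeal T₀ := by
  have := h.locA
  rw [← map_natCast (algebraMap A T₀)]
  exact map_max_le _ (Ideal.mem_map_of_mem _ h.prime.not_isUnit)

theorem c_mem (h : IsMixBase p V T c₁ μ x) : algebraMap A T₀ c₁ ∈ maximalIdeal T₀ := by
  have := h.locA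
  exact map_max_le _ (Ideal.mem_map_of_mem _ h.mem)

theorem dim_lt (h : IsMixBase p V T c₁ μ x) {a : A} (ha : a ≠ 0) :
    ringKrullDim (T₀ ⧸ Ideal.span {algebraMap A T₀ a}) < (n + 1 : ℕ) := by
  have := h.dom
  have := h.noethA
  have := h.finA
  obtain ⟨w, hw, hl⟩ := h.gens
  have h1 : ringKrullDim A ≤ (n + 1 : ℕ) := by
    rw [← hl, ← Module.supportDim_self_eq_ringKrullDim]
    exact (HS.isSop_of_le (N := 1) (fun b hb => hw ▸ Ideal.subset_span hb)
      (by rw [pow_one, hw]) A).supportDim_le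
  refine lt_of_le_of_lt (HS.dim_le_of_integral
    (A := A ⧸ (Ideal.span {algebraMap A T₀ a}).comap (algebraMap A T₀))) (HS.dim_quot_lt h1 ?_)
  intro e
  have h2 : a ∈ (Ideal.span {algebraMap A T₀ a}).comap (algebraMap A T₀) :=
    Ideal.mem_span_singleton_self _
  rw [e] at h2
  exact ha h2

theorem mult_eq (h : IsMixBase p V T c₁ μ x) :
    mult T₀ (List.ofFn x) = mult T (List.ofFn fun j => algebraMap T₀ T (x j)) := by
  have := h.finT
  have := h.locT
  have := h.dom
  have h1 : IsIsog (((p : T₀) ^ μ * algebraMap A T₀ c₁) ^ 2) T₀ T :=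
    isIsog_of_ker_coker (Algebra.linearMap T₀ T)
      (fun z hz => by rw [h.inj (hz.trans (map_zero _).symm), smul_zero])
      fun y => by
        obtain ⟨z, hz⟩ := h.cond y
        exact ⟨z, by rw [Algebra.smul_def]; exact hz⟩
  have h2 := h.dim_lt (pow_ne_zero 2 h.pc_ne)
  rw [map_pow, map_mul, map_pow, map_natCast] at h2
  rw [h1.mult_eq h.isSop h.isSop.of_ring (by rwa [List.length_ofFn]),
    mult_restrict_of_residue_surj h.res, List.map_ofFn]
  rfl

/-- The reduction number and the integral dependence of `p`. -/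
theorem exists_r (h : IsMixBase p V T c₁ μ x) : ∃ r₀ : ℕ,
    (∀ a : ℕ, maximalIdeal T ^ (a + r₀) ≤
      Ideal.span (Set.range fun j => algebraMap T₀ T (x j)) ^ a * maximalIdeal T ^ r₀) ∧
    ∀ N : ℕ, (p : T₀) ^ N ∈ Ideal.span (Set.range x) ^ (N - r₀) := by
  have := h.finT
  have := h.locT
  obtain ⟨-, r, hr⟩ := h.red
  have hp : (p : T) ∈ maximalIdeal T := by
    rw [← map_natCast (algebraMap T₀ T)]
    exact map_max_le _ (Ideal.mem_map_of_mem _ h.p_mem)
  obtain ⟨q, hq, -, hc, h0⟩ :=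
    LinearMap.exists_monic_and_natDegree_eq_and_coeff_mem_pow_and_aeval_eq_zero T₀
      (algebraMap T₀ (Module.End T₀ ((maximalIdeal T ^ r).restrictScalars T₀)) p)
      (Ideal.span (Set.range x)) (by
        rintro _ ⟨y, rfl⟩
        rw [Submodule.mem_smul_top_iff, ← Ideal.smul_restrictScalars, map_span,
          Submodule.restrictScalars_mem, smul_eq_mul]
        refine hr ?_
        rw [Module.algebraMap_end_apply, Submodule.coe_smul_of_tower, Algebra.smul_def,
          map_natCast, pow_succ']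
        exact Ideal.mul_mem_mul hp y.2)
  refine ⟨q.natDegree + r, reduction_pow_le ?_, pow_mem_of_monic _ _ r q hq hc (h.inj ?_)⟩
  · rw [add_assoc, pow_add _ q.natDegree, pow_add _ q.natDegree, mul_left_comm]
    exact Ideal.mul_mono_right hr
  · rw [Polynomial.aeval_algebraMap_apply_eq_algebraMap_eval] at h0
    have h1 := congrArg Subtype.val (LinearMap.congr_fun h0 ⟨(p : T) ^ r, Ideal.pow_mem_pow hp r⟩)
    rw [Module.algebraMap_end_apply, Submodule.coe_smul_of_tower, Algebra.smul_def] at h1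
    rw [map_mul, map_pow, map_natCast (algebraMap T₀ T), map_zero (algebraMap T₀ T)]
    exact h1

/-- Generators of `c 𝔪 ^ a`, `a ≤ r₀`, in the form needed for `exists_cover`. -/
theorem exists_gens (h : IsMixBase p V T c₁ μ x) {r₀ : ℕ}
    (hr : ∀ a : ℕ, maximalIdeal T ^ (a + r₀) ≤
      Ideal.span (Set.range fun j => algebraMap T₀ T (x j)) ^ a * maximalIdeal T ^ r₀) :
    ∃ (R : Type) (_ : Finite R) (a : R → T₀) (wt : R → ℕ), (∀ r, a r ∈ maximalIdeal T₀) ∧
      (∀ r, wt r ≤ r₀) ∧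
      (∀ r (N : ℕ), ((p : T₀) ^ μ * algebraMap A T₀ c₁) * a r ^ N ∈
        Ideal.span {((p : T₀) ^ μ * algebraMap A T₀ c₁) ^ N} *
          Ideal.span (Set.range x) ^ (wt r * N - r₀)) ∧
      ∀ k ≤ r₀, ∀ g ∈ maximalIdeal T ^ k, ∀ z : T₀,
        algebraMap T₀ T z = algebraMap T₀ T ((p : T₀) ^ μ * algebraMap A T₀ c₁) * g →
        z ∈ Ideal.span (a '' {r | wt r = k}) := by
  have := h.locT
  have hc : algebraMap T₀ T ((p : T₀) ^ μ * algebraMap A T₀ c₁) ∈ maximalIdeal T :=
    map_max_le _ (Ideal.mem_map_of_mem _ (Ideal.mul_mem_left _ _ h.c_mem))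
  have hpow : ∀ N, maximalIdeal T ^ N ≤
      (Ideal.span (Set.range x) ^ (N - r₀)).map (algebraMap T₀ T) := by
    intro N
    rw [Ideal.map_pow, map_span]
    rcases le_or_gt N r₀ with hN | hN
    · rw [Nat.sub_eq_zero_of_le hN, pow_zero, Ideal.one_eq_top]; exact le_top
    · have := (hr (N - r₀)).trans Ideal.mul_le_left
      rwa [Nat.sub_add_cancel hN.le] at this
  choose m a ha using fun k : ℕ => Submodule.fg_iff_exists_fin_generating_family.1
    (IsNoetherian.noetherian ((Ideal.span {algebraMap T₀ T ((p : T₀) ^ μ * algebraMap A T₀ c₁)} *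
      maximalIdeal T ^ k).comap (algebraMap T₀ T)))
  have hmem : ∀ k i, ∃ g ∈ maximalIdeal T ^ k,
      algebraMap T₀ T ((p : T₀) ^ μ * algebraMap A T₀ c₁) * g = algebraMap T₀ T (a k i) := by
    intro k i
    have h1 : a k i ∈ Submodule.span T₀ (Set.range (a k)) := Submodule.subset_span ⟨i, rfl⟩
    rw [ha] at h1
    exact Ideal.mem_span_singleton_mul.1 h1
  refine ⟨Σ k : Fin (r₀ + 1), Fin (m k), inferInstance, fun r => a r.1 r.2, fun r => r.1,
    fun r => ?_, fun r => Nat.lt_succ_iff.1 r.1.2, fun r N => ?_, fun k hk g hg z hz => ?_⟩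
  · obtain ⟨g, -, e⟩ := hmem r.1 r.2
    exact h.mem_of_map (e ▸ Ideal.mul_mem_right _ _ hc)
  · obtain ⟨g, hg, e⟩ := hmem r.1 r.2
    have h1 := Ideal.pow_mem_pow hg N
    rw [← pow_mul] at h1
    obtain ⟨z, hz, e'⟩ := h.cond_mem _ (hpow _ h1)
    refine Ideal.mem_span_singleton_mul.2 ⟨z, hz, h.inj ?_⟩
    rw [map_mul, e', map_pow, map_mul _ _ (_ ^ N), map_pow _ (a _ _), ← e]
    ring
  · have h1 : z ∈ Submodule.span T₀ (Set.range (a k)) := by
      rw [ha]
      exact Ideal.mem_span_singleton_mul.2 ⟨g, hg, hz.symm⟩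
    refine Submodule.span_mono ?_ h1
    rintro _ ⟨i, rfl⟩
    exact ⟨⟨⟨k, Nat.lt_succ_of_le hk⟩, i⟩, rfl, rfl⟩

/-- A colon property of `c₁` in all covers. -/
theorem exists_colon (h : IsMixBase p V T c₁ μ x) : ∃ ω : ℕ, ∀ (C : Type u) [CommRing C]
    [Algebra T₀ C] (ξ : Fin (n + 1) → C) (q q' : ℕ), QuasiReg ξ →
    (∀ j, ξ j ^ q = algebraMap T₀ C (x j)) → (p : C) ∈ Ideal.span (Set.range ξ) ^ q' →
    q' ≤ q → ω * q + 1 ≤ (ω + 1) * q' → ∀ (a : ℕ) (y : C),
      algebraMap T₀ C (algebraMap A T₀ c₁) * y ∈ Ideal.span (Set.range ξ) ^ (a + ω * q) →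
      y ∈ Ideal.span (Set.range ξ) ^ a := by
  classical
  obtain ⟨s, hs⟩ := isSop_ring h.isSop
  rw [HS.ofList_ofFn] at hs
  obtain ⟨ω, F, hF, ⟨m, hm⟩, hev⟩ := exists_form_mem x
    (Ideal.span {(p : T₀)} ⊔ Ideal.span (Set.range x)) (Ideal.span {algebraMap A T₀ c₁})
    (fun j => Ideal.mem_sup_right (Ideal.subset_span ⟨j, rfl⟩)) (hs.trans le_sup_right)
    (h.dim_lt h.c_ne)
  refine ⟨ω, fun C _ _ ξ q q' hξ hroot hp hq hω a y hy => ?_⟩
  have hq0 : q ≠ 0 := by
    rintro rfl
    obtain rfl : q' = 0 := by omega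
    simp at hω
  obtain ⟨e, he, v, hv, hsum⟩ := Submodule.mem_sup.1 hev
  obtain ⟨u, rfl⟩ := Ideal.mem_span_singleton'.1 hv
  have hle : (Ideal.span {(p : T₀)} ⊔ Ideal.span (Set.range x)).map (algebraMap T₀ C) ≤
      Ideal.span (Set.range ξ) ^ q' := by
    rw [Ideal.map_sup, map_span, Ideal.map_span, Set.image_singleton, map_natCast]
    refine sup_le ((Ideal.span_singleton_le_iff_mem _).2 hp) (Ideal.span_le.2 ?_)
    rintro _ ⟨j, rfl⟩
    simp only [← hroot]
    exact Ideal.pow_le_pow_right hq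
      (Ideal.pow_mem_pow (Ideal.subset_span (Set.mem_range_self j)) q)
  refine hξ.colon (ω := ω * q)
    (F := MvPolynomial.expand q (MvPolynomial.map (algebraMap T₀ C) F))
    (u := algebraMap T₀ C (u * algebraMap A T₀ c₁)) (mem_homog.2 fun m' hm' => ?_)
    ⟨q • m, ?_⟩ ?_ a y ?_
  · obtain ⟨m₀, h0, rfl⟩ := Finset.mem_image.1 (MvPolynomial.support_expand_subset _
      (MvPolynomial.mem_support_iff.2 hm'))
    have h1 := mem_homog.1 hF m₀ (MvPolynomial.mem_support_iff.1
      (MvPolynomial.support_map_subset _ _ h0))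
    have h2 : m₀.degree = ω := by exact_mod_cast h1
    rw [map_nsmul, h2, smul_eq_mul, mul_comm]
  · rw [MvPolynomial.coeff_expand_smul _ hq0, MvPolynomial.coeff_map]
    exact hm.map _
  · have h1 : MvPolynomial.eval ξ (MvPolynomial.expand q (MvPolynomial.map (algebraMap T₀ C) F))
        = algebraMap T₀ C (MvPolynomial.eval x F) := by
      rw [MvPolynomial.eval_expand, MvPolynomial.map_eval]
      congr 2
      exact funext hroot
    rw [h1, ← hsum, ← map_sub, sub_add_cancel_right, map_neg]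
    have h2 := Ideal.mem_map_of_mem (algebraMap T₀ C) he
    rw [Ideal.map_pow] at h2
    have h3 := Ideal.pow_right_mono hle _ h2
    rw [← pow_mul] at h3
    exact neg_mem (Ideal.pow_le_pow_right (by rwa [mul_comm q']) h3)
  · rw [map_mul, mul_assoc]
    exact Ideal.mul_mem_left _ _ hy

section Cover
variable {C : Type u} [CommRing C] [IsLocalRing C] [IsNoetherianRing C] [Algebra T₀ C]
  [Module.Finite T₀ C] {ξ : Fin (n + 1) → C} {q ρ b : ℕ}

theorem free (h : IsMixBase p V T c₁ μ x) [Algebra A C] [IsScalarTower A T₀ C]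
    (hξ : IsWeaklyRegular C (List.ofFn ξ)) (hm : ∀ j, ξ j ∈ maximalIdeal C) :
    Module.Free A C := by
  have := h.noethA
  have := h.finA
  have : Module.Finite A C := Module.Finite.trans T₀ C
  obtain ⟨w, hw, hl⟩ := h.gens
  refine free_of_isWeaklyRegular w hw ((isWeaklyRegular_map_algebraMap_iff C C w).1
    (isWeaklyRegular_of_isSop hξ (fun a ha => ?_)
      (isSop_map _ (RingHom.finite_algebraMap.2 this) (HS.isSop_of_le (N := 1)
        (fun b hb => hw ▸ Ideal.subset_span hb) (by rw [pow_one, hw]) A)) (by simp [hl])))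
  obtain ⟨j, rfl⟩ := List.mem_ofFn.1 ha
  exact hm j

theorem regular (h : IsMixBase p V T c₁ μ x) [Algebra A C] [IsScalarTower A T₀ C]
    [Module.Free A C] :
    (∀ y : C, p * y = 0 → y = 0) ∧ (∀ y : C, algebraMap A C c₁ * y = 0 → y = 0) ∧
      ∀ y : C, p * y ∈ Ideal.span {algebraMap A C c₁} → y ∈ Ideal.span {algebraMap A C c₁} := by
  have := h.dom
  let b := Module.Free.chooseBasis A C
  have key : ∀ a : A, a ≠ 0 → ∀ y : C, algebraMap A C a * y = 0 → y = 0 := by
    intro a ha y hy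
    rw [← Algebra.smul_def] at hy
    refine b.ext_elem fun i => ?_
    have h1 := congrArg (fun v => b.repr v i) hy
    simp only [map_smul, Finsupp.smul_apply, smul_eq_mul, map_zero, Finsupp.zero_apply] at h1
    simpa using (mul_eq_zero.1 h1).resolve_left ha
  have kp : ∀ y : C, p * y = 0 → y = 0 := fun y hy =>
    key p h.prime.ne_zero y (by rwa [map_natCast])
  refine ⟨kp, key c₁ h.c_ne, fun y hy => ?_⟩
  obtain ⟨z, hz⟩ := Ideal.mem_span_singleton'.1 hy
  have h1 : z ∈ Ideal.span {(p : C)} := by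
    rw [← b.linearCombination_repr z, Finsupp.linearCombination_apply]
    refine Submodule.sum_mem _ fun i _ => ?_
    have h2 : c₁ • z = (p : A) • y := by
      rw [Algebra.smul_def, Algebra.smul_def, map_natCast, mul_comm, hz]
    have h3 := congrArg (fun v => b.repr v i) h2
    simp only [map_smul, Finsupp.smul_apply, smul_eq_mul] at h3
    obtain ⟨t, ht⟩ := (h.prime.dvd_or_dvd ⟨_, h3⟩).resolve_left h.ndvd
    simp only [ht, mul_smul]
    rw [Algebra.smul_def, map_natCast]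
    exact Ideal.mul_mem_right _ _ (Ideal.mem_span_singleton_self _)
  obtain ⟨t, rfl⟩ := Ideal.mem_span_singleton'.1 h1
  refine Ideal.mem_span_singleton'.2 ⟨t, (sub_eq_zero.1 (kp _ ?_)).symm⟩
  rw [mul_sub, ← hz]; ring

/-- Multiplicities in a cover. -/
theorem length_eq (h : IsMixBase p V T c₁ μ x)
    (hres : ∀ y : C, ∃ t : T₀, y - algebraMap T₀ C t ∈ maximalIdeal C)
    (hξ : IsWeaklyRegular C (List.ofFn ξ)) (hm : ∀ j, ξ j ∈ maximalIdeal C)
    (hiso : IsIsog ((p : T₀) ^ b) (Fin ρ → T₀) C) {z : List T₀} (hz : IsSop T₀ z)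
    (hl : z.length = n + 1) :
    IsWeaklyRegular C (z.map (algebraMap T₀ C)) ∧
      Module.length C (C ⧸ Ideal.ofList (z.map (algebraMap T₀ C))) =
        (ρ * (mult T₀ z).toNat : ℕ) := by
  have hf : (algebraMap T₀ C).Finite := RingHom.finite_algebraMap.2 inferInstance
  have := isLocalHom_of_finite _ hf
  have hs := isSop_map _ hf hz
  have hr : IsWeaklyRegular C (z.map (algebraMap T₀ C)) :=
    isWeaklyRegular_of_isSop hξ (fun a ha => by
      obtain ⟨j, rfl⟩ := List.mem_ofFn.1 ha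
      exact hm j) hs (by simp [hl])
  refine ⟨hr, ?_⟩
  have := h.dom
  have h2 := h.dim_lt (pow_ne_zero b h.prime.ne_zero)
  rw [map_pow, map_natCast] at h2
  rw [mult_eq_len hs hr, ← mult_restrict_of_residue_surj hres,
    ← hiso.mult_eq hz.of_ring hz.of_ring (by rwa [hl]), mult_pi hz, Int.toNat_mul
      (Int.natCast_nonneg _) (mult_nonneg hz), Int.toNat_natCast]

/-- (N1) -/
theorem length_root (h : IsMixBase p V T c₁ μ x)
    (hres : ∀ y : C, ∃ t : T₀, y - algebraMap T₀ C t ∈ maximalIdeal C)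
    (hξ : IsWeaklyRegular C (List.ofFn ξ)) (hq : 0 < q)
    (hroot : ∀ j, ξ j ^ q = algebraMap T₀ C (x j))
    (hiso : IsIsog ((p : T₀) ^ b) (Fin ρ → T₀) C) :
    ((q ^ (n + 1) : ℕ) : ℕ∞) * Module.length C (C ⧸ Ideal.span (Set.range ξ)) =
      (ρ * (mult T₀ (List.ofFn x)).toNat : ℕ) := by
  have hf : (algebraMap T₀ C).Finite := RingHom.finite_algebraMap.2 inferInstance
  have hs := isSop_map _ hf h.isSop
  have e : (List.ofFn x).map (algebraMap T₀ C) = (List.ofFn ξ).map (· ^ q) := by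
    rw [List.map_ofFn, List.map_ofFn]
    exact congrArg _ (funext hroot).symm
  have hm : ∀ j, ξ j ∈ maximalIdeal C := fun j =>
    (maximalIdeal.isMaximal C).isPrime.mem_of_pow_mem q (hs.1 _ (by
      rw [e]; exact List.mem_map_of_mem (List.mem_ofFn.2 ⟨j, rfl⟩)))
  obtain ⟨hr, hl⟩ := h.length_eq hres hξ hm hiso h.isSop (by simp)
  obtain ⟨N, hN⟩ := isSop_ring hs
  have hs' : IsSop C (List.ofFn ξ) := by
    refine HS.isSop_of_le (N := N) (fun a ha => ?_) (hN.trans (Submodule.span_le.2 ?_)) C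
    · obtain ⟨j, rfl⟩ := List.mem_ofFn.1 ha
      exact hm j
    · intro a ha
      rw [e] at ha
      obtain ⟨c, hc, rfl⟩ := List.mem_map.1 ha
      have hc' : c ∈ Ideal.ofList (List.ofFn ξ) := Ideal.subset_span hc
      exact Ideal.pow_mem_of_mem _ hc' q hq
  rw [← hl, mult_eq_len hs hr, e, mult_pow hs' hq, ← HS.ofList_ofFn, mult_eq_len hs' hξ,
    List.length_ofFn, ← Nat.cast_pow, Int.toNat_mul (Int.natCast_nonneg _) (mult_nonneg hs'),
    Int.toNat_natCast, Nat.cast_mul]

end Cover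

/-- (N2) -/
theorem exists_small (h : IsMixBase p V T c₁ μ x) : ∃ K : ℕ, ∀ (C : Type u) [CommRing C]
    [IsLocalRing C] [IsNoetherianRing C] [Algebra T₀ C] [Module.Finite T₀ C]
    (ξ : Fin (n + 1) → C) (q ρ b E : ℕ) (θ : C),
    (∀ y : C, ∃ t : T₀, y - algebraMap T₀ C t ∈ maximalIdeal C) →
    IsWeaklyRegular C (List.ofFn ξ) → 0 < q → (∀ j, ξ j ^ q = algebraMap T₀ C (x j)) →
    IsIsog ((p : T₀) ^ b) (Fin ρ → T₀) C →
    θ ^ E ∣ algebraMap T₀ C ((p : T₀) ^ μ * algebraMap A T₀ c₁) →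
    (E : ℕ∞) * Module.length C (C ⧸ (Ideal.span (Set.range ξ) ⊔ Ideal.span {θ})) ≤
      (K * ρ : ℕ) := by
  have h1 := h.dim_lt h.pc_ne
  rw [map_mul, map_pow, map_natCast] at h1
  obtain ⟨z, hl, hz⟩ := exists_isSop_quotient (s := n) _ (ENat.WithBot.lt_add_one_iff.1 (by
    simpa using h1))
  obtain ⟨s, hs⟩ := isSop_ring h.isSop
  rw [HS.ofList_ofFn] at hs
  obtain ⟨hz1, N, hN⟩ := isSop_quotient_iff.1 (hz.pow s.succ_pos)
  have hsop : IsSop T₀ (z.map (· ^ s.succ) ++ [(p : T₀) ^ μ * algebraMap A T₀ c₁]) := by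
    refine HS.isSop_of_le (N := N) (fun a ha => ?_) ?_ T₀
    · rcases List.mem_append.1 ha with ha | ha
      · exact hz1 a ha
      · rw [List.mem_singleton.1 ha]; exact Ideal.mul_mem_left _ _ h.c_mem
    · rwa [Ideal.ofList_append, Ideal.ofList_singleton, sup_comm]
  refine ⟨(mult T₀ (z.map (· ^ s.succ) ++ [(p : T₀) ^ μ * algebraMap A T₀ c₁])).toNat,
    fun C _ _ _ _ _ ξ q ρ b E θ hres hξ hq hroot hiso hθ => ?_⟩
  have := isLocalHom_of_finite (algebraMap T₀ C) (RingHom.finite_algebraMap.2 inferInstance)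
  have hm : ∀ j, ξ j ∈ maximalIdeal C := fun j =>
    (maximalIdeal.isMaximal C).isPrime.mem_of_pow_mem q (by
      rw [hroot]
      exact map_max_le _ (Ideal.mem_map_of_mem _ (h.isSop.1 _ (List.mem_ofFn.2 ⟨j, rfl⟩))))
  obtain ⟨hr, hlen⟩ := h.length_eq hres hξ hm hiso hsop (by simp [hl])
  rw [List.map_append, List.map_singleton] at hr hlen
  rw [Ideal.ofList_append, Ideal.ofList_singleton, mul_comm ρ] at hlen
  rw [← hlen]
  refine le_trans (mul_le_mul_right ?_ _) (mul_length_le_of_pow_dvd _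
    ((CMAux.weaklyRegular_iff _).1 hr _ _ [] rfl) hθ)
  have hle : Ideal.ofList ((z.map (· ^ s.succ)).map (algebraMap T₀ C)) ≤
      Ideal.span (Set.range ξ) := by
    rw [← Ideal.map_ofList]
    refine (Ideal.map_mono (J := Ideal.span (Set.range x)) (Ideal.span_le.2 fun a ha => ?_)).trans ?_
    · obtain ⟨c, hc, rfl⟩ := List.mem_map.1 ha
      exact hs (Ideal.pow_le_pow_right s.le_succ (Ideal.pow_mem_pow (hz.1 c hc) _))
    · rw [map_span, Ideal.span_le]
      rintro _ ⟨j, rfl⟩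
      simp only [← hroot]
      exact Ideal.pow_mem_of_mem _ (Ideal.subset_span (Set.mem_range_self j)) q hq
  exact Module.length_le_of_surjective (Submodule.factor (sup_le_sup_right hle _))
    (Submodule.factor_surjective _)

end IsMixBase

end Vale.Agent.P202
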