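import Vale.Agent.P202.Model
import Vale.Agent.P202.FactorA
import Vale.Agent.P202.Core0
import Vale.Agent.P202.MixBase

/-! Module F2: factorisation of a flat map through the standing data. -/

namespace Vale.Agent.P202

open IsLocalRing TensorProduct RingTheory.Sequence

universe u

namespace FacB

theorem approx {A B : Type u} [CommRing A] [CommRing B] [Algebra A B] (B' : Subalgebra A B)
    (s : Set B) (hs : s ⊆ B') (h : ∀ b : B, ∃ b' ∈ B', b - b' ∈ Ideal.span s) (N : ℕ) (b : B) :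
    ∃ b' ∈ B', b - b' ∈ Ideal.span s ^ N := by
  have key : ∀ N : ℕ, ∀ b ∈ Ideal.span s ^ N,
      ∃ b' ∈ B', b' ∈ Ideal.span s ^ N ∧ b - b' ∈ Ideal.span s ^ (N + 1) := by
    intro N
    induction N with
    | zero =>
      intro b _
      obtain ⟨b', h1, h2⟩ := h b
      exact ⟨b', h1, by simp, by rwa [zero_add, pow_one]⟩
    | succ N ih =>
      intro b hb
      rw [pow_succ'] at hb
      refine Submodule.mul_induction_on hb (fun y hy => ?_) ?_
      · induction hy using Submodule.span_induction with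
        | mem x hx =>
          intro a ha
          obtain ⟨a', h1, h2, h3⟩ := ih a ha
          refine ⟨x * a', mul_mem (hs hx) h1, ?_, ?_⟩
          · rw [pow_succ']
            exact Ideal.mul_mem_mul (Ideal.subset_span hx) h2
          · rw [pow_succ', ← mul_sub]
            exact Ideal.mul_mem_mul (Ideal.subset_span hx) h3
        | zero => exact fun a _ => ⟨0, zero_mem _, zero_mem _, by simp⟩
        | add x y _ _ hx hy =>
          intro a ha
          obtain ⟨c, h1, h2, h3⟩ := hx a ha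
          obtain ⟨d, k1, k2, k3⟩ := hy a ha
          refine ⟨c + d, add_mem h1 k1, add_mem h2 k2, ?_⟩
          rw [add_mul, add_sub_add_comm]
          exact add_mem h3 k3
        | smul c x _ hx =>
          intro a ha
          rw [smul_eq_mul, mul_comm c, mul_assoc]
          exact hx _ (Ideal.mul_mem_left _ c ha)
      · rintro x y ⟨c, h1, h2, h3⟩ ⟨d, k1, k2, k3⟩
        refine ⟨c + d, add_mem h1 k1, add_mem h2 k2, ?_⟩
        rw [add_sub_add_comm]
        exact add_mem h3 k3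
  induction N with
  | zero => exact ⟨0, zero_mem _, by simp⟩
  | succ N ih =>
    obtain ⟨c, h1, h2⟩ := ih
    obtain ⟨d, k1, -, k3⟩ := key N _ h2
    exact ⟨c + d, add_mem h1 k1, by rwa [← sub_sub]⟩

theorem span_range_eq_top {A B B₀ : Type u} [CommRing A] [IsLocalRing A] [CommRing B]
    [IsLocalRing B] [IsNoetherianRing B] [Algebra A B] [Module.Finite A B] [CommRing B₀]
    (g : B₀ →+* B) (s : Set B) (hs : ∀ x ∈ s, x ∈ (algebraMap A B).range ∨ x ∈ g.range)
    (hm : Ideal.span s ≤ maximalIdeal B)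
    (h : ∀ b : B, ∃ a : A, b - algebraMap A B a ∈ Ideal.span s) :
    Submodule.span A (Set.range g) = ⊤ := by
  have e : (Algebra.adjoin A (Set.range g)).toSubmodule = Submodule.span A (Set.range g) := by
    rw [Algebra.adjoin_eq_span, ← MonoidHom.coe_mrange, Submonoid.closure_eq]
  obtain ⟨N, hN⟩ := exists_pow_le_map_of_finite (algebraMap A B)
    (RingHom.finite_algebraMap.2 inferInstance)
  refine eq_top_iff.2 (Submodule.le_of_le_smul_of_le_jacobson_bot (I := maximalIdeal A)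
    Module.Finite.fg_top (IsLocalRing.maximalIdeal_le_jacobson _) fun b _ => ?_)
  obtain ⟨b', h1, h2⟩ := approx (Algebra.adjoin A (Set.range g)) s (fun x hx => by
      rcases hs x hx with ⟨a, rfl⟩ | hx
      · exact Subalgebra.algebraMap_mem _ a
      · exact Algebra.subset_adjoin hx)
    (fun b => (h b).elim fun a ha => ⟨_, Subalgebra.algebraMap_mem _ a, ha⟩) N b
  rw [← e, Ideal.smul_top_eq_map, ← add_sub_cancel b' b]
  exact Submodule.add_mem_sup h1 (hN (Ideal.pow_right_mono hm N h2))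

theorem sub_C_mem {V : Type u} [CommRing V] {σ : Type} [Finite σ] (z : MvPowerSeries σ V) :
    z - MvPowerSeries.C (MvPowerSeries.constantCoeff z) ∈
      Ideal.span (Set.range (MvPowerSeries.X : σ → MvPowerSeries σ V)) := by
  rw [← ker_constantCoeff, RingHom.mem_ker, map_sub, MvPowerSeries.constantCoeff_C, sub_self]

/-- A Cohen presentation with at least one variable. -/
theorem exists_pres {V S : Type u} [CommRing V] [CommRing S] [IsLocalRing S] [IsNoetherianRing S]
    [IsAdicComplete (maximalIdeal S) S] (τ : V →+* S)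
    (hτ : ∀ a : S, ∃ c : V, a - τ c ∈ maximalIdeal S) :
    ∃ (r : ℕ) (π : MvPowerSeries (Fin (r + 1)) V →+* S), Function.Surjective π ∧
      π.comp MvPowerSeries.C = τ ∧ ∀ i, π (MvPowerSeries.X i) ∈ maximalIdeal S := by
  obtain ⟨r, y, hy⟩ := Submodule.fg_iff_exists_fin_generating_family.1
    (maximalIdeal S).fg_of_isNoetherianRing
  have hy' : Ideal.span (Set.range y) = maximalIdeal S := hy
  have hm : ∀ i, (Fin.cons 0 y : Fin (r + 1) → S) i ∈ maximalIdeal S := fun i => by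
    refine Fin.cases (zero_mem _) (fun i => ?_) i
    exact hy' ▸ Ideal.subset_span ⟨i, rfl⟩
  obtain ⟨π, h1, h2⟩ := exists_evalHom τ (Fin.cons 0 y : Fin (r + 1) → S) hm
  refine ⟨r, π, evalHom_surjective π (fun i => h2 i ▸ hm i) fun s => ?_, h1, fun i => h2 i ▸ hm i⟩
  obtain ⟨c, hc⟩ := hτ s
  refine ⟨c, ?_⟩
  rw [show π (MvPowerSeries.C c) = τ c from RingHom.congr_fun h1 c]
  rw [← hy'] at hc
  refine Ideal.span_mono ?_ hc
  rintro _ ⟨i, rfl⟩
  exact ⟨i.succ, h2 _⟩

theorem perf {p : ℕ} [Fact p.Prime] {V S : Type u} [CommRing V] [IsDomain V]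
    [IsDiscreteValuationRing V] (h : IsCohen p V) [CommRing S] [IsLocalRing S]
    [IsAlgClosed (ResidueField S)] (τ : V →+* S) [IsLocalHom τ]
    (hτ : ∀ a : S, ∃ c : V, a - τ c ∈ maximalIdeal S) (v : V) :
    ∃ y : V, y ^ p - v ∈ Ideal.span {(p : V)} := by
  obtain ⟨z, hz⟩ := IsAlgClosed.exists_pow_nat_eq (residue S (τ v)) (Fact.out : p.Prime).pos
  obtain ⟨s, rfl⟩ := residue_surjective z
  obtain ⟨y, hy⟩ := hτ s
  refine ⟨y, ?_⟩
  rw [← residue_eq_zero_iff, map_sub, sub_eq_zero] at hy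
  have h1 : τ (y ^ p - v) ∈ maximalIdeal S := by
    rw [← residue_eq_zero_iff, map_sub, map_pow, map_sub, map_pow, ← hy, hz, sub_self]
  rw [← h.max]
  exact fun hu => h1 (hu.map τ)

/-- The separability element. -/
theorem exists_sep {A₀ Q₀ R A T₀ : Type u} [CommRing A₀] [IsDomain A₀] [CharZero A₀]
    [IsNoetherianRing A₀] [CommRing Q₀] [CommRing R] [IsDomain R] [CommRing A] [CommRing T₀]
    [Algebra A T₀] (α : A₀ →+* Q₀) (Φ : Q₀ →+* R) (hfin : (Φ.comp α).Finite)
    (hinj : Function.Injective (Φ.comp α)) (i : A₀ →+* A) (j : Q₀ →+* T₀)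
    (hker : RingHom.ker Φ ≤ RingHom.ker j) (hc : j.comp α = (algebraMap A T₀).comp i)
    (hspan : Submodule.span A (Set.range j) = ⊤) :
    ∃ (z : Q₀) (ε : T₀ ⊗[A] T₀), Φ z ≠ 0 ∧ IsSepElt A ε (j z) := by
  have := RingHom.ker_isPrime Φ
  let _ : Algebra A₀ (Q₀ ⧸ RingHom.ker Φ) := ((Ideal.Quotient.mk _).comp α).toAlgebra
  let _ : Algebra A₀ R := (Φ.comp α).toAlgebra
  have _ : Module.Finite A₀ R := hfin
  let k : (Q₀ ⧸ RingHom.ker Φ) →ₐ[A₀] R := ⟨RingHom.kerLift Φ, fun _ => rfl⟩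
  have : Module.Finite A₀ (Q₀ ⧸ RingHom.ker Φ) :=
    Module.Finite.of_injective k.toLinearMap (RingHom.kerLift_injective Φ)
  have hinj' : Function.Injective (algebraMap A₀ (Q₀ ⧸ RingHom.ker Φ)) := fun a b hab =>
    hinj (congrArg (RingHom.kerLift Φ) hab)
  obtain ⟨ε, g, hg, hε⟩ := exists_isSepElt A₀ (Q₀ ⧸ RingHom.ker Φ) hinj'
  obtain ⟨z, rfl⟩ := Ideal.Quotient.mk_surjective g
  obtain ⟨ε', hε'⟩ := hε.map i (Ideal.Quotient.lift (RingHom.ker Φ) j fun a ha => hker ha) hc
    (eq_top_iff.2 (hspan.ge.trans (Submodule.span_mono (by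
      rintro _ ⟨y, rfl⟩
      exact ⟨Ideal.Quotient.mk _ y, rfl⟩))))
  exact ⟨z, ε', fun h0 => hg (Ideal.Quotient.eq_zero_iff_mem.2 h0), hε'⟩

end FacB

open FacA FacB

theorem exists_factorization (p : ℕ) [Fact p.Prime] {R S : Type u} [CommRing R] [IsDomain R]
    [IsLocalRing R] [IsNoetherianRing R] [IsAdicComplete (maximalIdeal R) R]
    [Infinite (ResidueField R)] [CommRing S] [IsLocalRing S] [IsNoetherianRing S]
    [IsAdicComplete (maximalIdeal S) S] [IsAlgClosed (ResidueField S)]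
    (hp : (p : R) ∈ maximalIdeal R) (hp0 : (p : R) ≠ 0) {n₀ : ℕ} {x : Fin (n₀ + 1) → R}
    (hx : IsReduction x) (hd : ringKrullDim R = (n₀ + 1 : ℕ)) (φ : R →+* S) [IsLocalHom φ] :
    ∃ (V : Type u) (_ : CommRing V) (_ : IsDomain V) (_ : IsDiscreteValuationRing V)
      (A T₀ T : Type u) (_ : CommRing A) (_ : IsLocalRing A) (_ : CommRing T₀) (_ : IsLocalRing T₀)
      (_ : IsNoetherianRing T₀) (_ : CommRing T) (_ : IsLocalRing T) (_ : IsNoetherianRing T)
      (_ : Algebra A T₀) (_ : Algebra T₀ T) (n : ℕ) (c₁ : A) (μ : ℕ) (x' : Fin (n + 1) → T₀)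
      (ε : T₀ ⊗[A] T₀) (g : T₀) (g₀ : R) (f : R →+* T) (π : T →+* S) (w : List T),
      IsMixBase p V T c₁ μ x' ∧ IsSepElt A ε g ∧ g₀ ≠ 0 ∧ algebraMap T₀ T g = f g₀ ∧ f.Flat ∧
      Function.Surjective π ∧ π.comp f = φ ∧
      IsWeaklyRegular (T ⧸ (maximalIdeal R).map f) w ∧
      maximalIdeal T = (maximalIdeal R).map f ⊔ Ideal.ofList w ∧
      (List.ofFn fun j => algebraMap T₀ T (x' j)) = (List.ofFn x).map f ++ w := by
  classical
  obtain ⟨V₀, _, _, _, Φ, f₀, α, c₁, μ, h₀, hΦx, hΦn, hker, hres, hαC, hfin, hinj, hc₁, hcond⟩ :=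
    exists_model p hp hp0 hx hd
  have hpS : (p : S) ∈ maximalIdeal S := by
    rw [← map_natCast φ]
    exact map_max_le φ (Ideal.mem_map_of_mem φ hp)
  obtain ⟨V, _, _, _, τ₀, h, hτl, hτ⟩ := exists_coeffRing p S hpS
  obtain ⟨r, πV, hπV, hπVC, hπVX⟩ := exists_pres τ₀ hτ
  have := h.complete
  have := isAdicComplete_mvPowerSeries (σ := Fin (r + 1)) (V := V)
  obtain ⟨u, hu⟩ := h₀.exists_lift (p_mem h (Fin (r + 1))) πV hπV
    (φ.comp (Φ.comp MvPowerSeries.C))
  obtain ⟨ρ, j, hρC, hρX, hjC, hjX, hjl, hjf, -, hj⟩ :=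
    exists_pres_map h₀ h u (Option (Fin (n₀ + 1)))
  obtain ⟨ρA, jA, hρAC, hρAX, hjAC, hjAX, hjAl, -, hjAp, -⟩ := exists_pres_map h₀ h u (Fin n₀)
  obtain ⟨hmax, hw⟩ := hj (List.finRange (r + 1)) (List.nodup_finRange _) List.mem_finRange
  have hΦX : ∀ s, Φ (MvPowerSeries.X s) ∈ maximalIdeal R := by
    rintro (_ | s)
    · exact hΦn
    · exact hΦx s ▸ hx.1 s
  have hφX : ∀ s, φ (Φ (MvPowerSeries.X s)) ∈ maximalIdeal S := fun s =>
    map_max_le φ (Ideal.mem_map_of_mem φ (hΦX s))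
  obtain ⟨π₀, hπ₀C, hπ₀X⟩ := exists_evalHom (σ := Fin (r + 1) ⊕ Option (Fin (n₀ + 1))) τ₀
    (Sum.elim (fun t => πV (MvPowerSeries.X t)) fun s => φ (Φ (MvPowerSeries.X s)))
    (by rintro (t | s); exacts [hπVX t, hφX s])
  have hπρ : π₀.comp ρ = πV := by
    refine evalHom_ext _ _ ?_ (fun t => ?_) fun t => ?_
    · rw [RingHom.comp_assoc, hρC, hπ₀C, hπVC]
    · rw [RingHom.comp_apply, hρX, hπ₀X, Sum.elim_inl]
    · rw [RingHom.comp_apply, hρX, hπ₀X, Sum.elim_inl]
      exact hπVX t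
  have hπj : π₀.comp j = φ.comp Φ := by
    refine evalHom_ext _ _ ?_ (fun t => ?_) fun t => ?_
    · rw [RingHom.comp_assoc, hjC, ← RingHom.comp_assoc, hπρ, hu, RingHom.comp_assoc]
    · rw [RingHom.comp_apply, hjX, hπ₀X, Sum.elim_inr, RingHom.comp_apply]
    · rw [RingHom.comp_apply, hjX, hπ₀X, Sum.elim_inr]
      exact hφX t
  have hΦαl := isLocalHom_of_finite _ hfin
  have hαX : ∀ i, j (α (MvPowerSeries.X i)) ∈ maximalIdeal _ := fun i =>
    map_max_le j (Ideal.mem_map_of_mem j fun hu =>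
      map_max_le (Φ.comp α) (Ideal.mem_map_of_mem _ (X_mem i)) (hu.map Φ))
  have := isAdicComplete_mvPowerSeries (σ := Fin (r + 1) ⊕ Option (Fin (n₀ + 1))) (V := V)
  have := isAdicComplete_mvPowerSeries (σ := Fin (r + 1) ⊕ Fin n₀) (V := V)
  obtain ⟨β, hβC, hβX⟩ := exists_evalHom (σ := Fin (r + 1) ⊕ Fin n₀)
    (MvPowerSeries.C : V →+* MvPowerSeries (Fin (r + 1) ⊕ Option (Fin (n₀ + 1))) V)
    (Sum.elim (fun t => MvPowerSeries.X (Sum.inl t)) fun i => j (α (MvPowerSeries.X i)))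
    (by rintro (t | s); exacts [X_mem _, hαX s])
  have hβC' : ∀ v, β (MvPowerSeries.C v) = MvPowerSeries.C v := RingHom.congr_fun hβC
  have hβl : ∀ t, β (MvPowerSeries.X (Sum.inl t)) = MvPowerSeries.X (Sum.inl t) := fun t => hβX _
  have hβρ : β.comp ρA = ρ := by
    refine evalHom_ext _ _ ?_ (fun t => ?_) fun t => ?_
    · rw [RingHom.comp_assoc, hρAC, hβC, hρC]
    · rw [RingHom.comp_apply, hρAX, hβl, hρX]
    · rw [RingHom.comp_apply, hρAX, hβl]
      exact X_mem _
  have hβj : β.comp jA = j.comp α := by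
    refine evalHom_ext _ _ ?_ (fun t => ?_) fun t => ?_
    · rw [RingHom.comp_assoc, hjAC, ← RingHom.comp_assoc, hβρ, RingHom.comp_assoc, hαC, hjC]
    · rw [RingHom.comp_apply, hjAX, hβX, Sum.elim_inr, RingHom.comp_apply]
    · rw [RingHom.comp_apply, hjAX, hβX, Sum.elim_inr]
      exact hαX t
  have hβm : (maximalIdeal _).map β ≤ maximalIdeal _ := by
    rw [← ofList_vars h Finset.univ.toList (by simp), Ideal.map_ofList]
    refine Ideal.span_le.2 fun y hy => ?_
    obtain ⟨z, hz, rfl⟩ := List.mem_map.1 hy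
    rcases List.mem_append.1 hz with hz | hz
    · obtain ⟨s, -, rfl⟩ := List.mem_map.1 hz
      rw [hβX]
      rcases s with t | s
      exacts [X_mem _, hαX s]
    · rw [List.mem_singleton.1 hz, map_natCast]
      exact p_mem h _
  obtain ⟨T, _, _, _, i, f, π, hi, hik, hij, hf, hπi, hπf, hresT, hcT, hmT, hwT⟩ :=
    exists_baseChange j hjf Φ (RingHom.Finite.of_comp_finite hfin)
      (fun r => (hres r).elim fun v hv => ⟨_, hv⟩) _ hmax hw φ π₀ hπj
  have hij' : ∀ z, i (j z) = f (Φ z) := RingHom.congr_fun hij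
  have hil := isLocalHom_of_finite i hi
  have hβl' := isLocalHom_of_map_le hβm
  -- `T` is finite over `A`
  have hAT : (i.comp β).Finite := by
    obtain ⟨N, hN⟩ := exists_pow_le_map_of_finite _ hfin
    refine finite_of_complete (i.comp β) (fun t => ?_) (N := N + 1) ?_
    · obtain ⟨a, ha⟩ := hresT t
      refine ⟨MvPowerSeries.C (MvPowerSeries.constantCoeff a), ?_⟩
      rw [RingHom.comp_apply, hβC', ← sub_add_sub_cancel _ (i a), ← map_sub]
      refine add_mem ha (map_max_le i (Ideal.mem_map_of_mem i ?_))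
      rw [maximalIdeal_mvPowerSeries]
      exact Ideal.mem_sup_right (sub_C_mem a)
    · rw [hmT]
      refine Ideal.sup_pow_add_le_pow_sup_pow.trans (sup_le ?_ ?_)
      · rw [← Ideal.map_pow]
        refine (Ideal.map_mono hN).trans ?_
        rw [Ideal.map_map, ← RingHom.comp_assoc, ← hij, RingHom.comp_assoc, ← hβj,
          ← RingHom.comp_assoc, ← Ideal.map_map]
        exact Ideal.map_mono (map_max_le jA)
      · rw [pow_one]
        refine Ideal.span_le.2 fun y hy => ?_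
        obtain ⟨z, hz, rfl⟩ := List.mem_map.1 hy
        obtain ⟨t, -, rfl⟩ := List.mem_map.1 hz
        rw [← hβl]
        exact Ideal.mem_map_of_mem (i.comp β) (X_mem _)
  obtain ⟨w, hwdef⟩ : ∃ w : List T, w = ((List.finRange (r + 1)).map fun t =>
    MvPowerSeries.X (Sum.inl t)).map i := ⟨_, rfl⟩
  rw [← hwdef] at hmT hwT
  have hwl : w.length = r + 1 := by simp [hwdef]
  obtain ⟨x'', hx'', hlist⟩ := exists_isReduction_append f w hmT hx
  have hz : ∀ k, ∃ z, i z = x'' k := fun k => by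
    have h1 : x'' k ∈ (List.ofFn x).map f ++ w := hlist ▸ List.mem_ofFn.2 ⟨k, rfl⟩
    rcases List.mem_append.1 h1 with h1 | h1
    · obtain ⟨a, ha, h2⟩ := List.mem_map.1 h1
      obtain ⟨s, rfl⟩ := List.mem_ofFn.1 ha
      exact ⟨j (MvPowerSeries.X (some s)), by rw [hij', hΦx, h2]⟩
    · rw [hwdef] at h1
      obtain ⟨a, -, h2⟩ := List.mem_map.1 h1
      exact ⟨a, h2⟩
  choose z hz using hz
  have hnt := Ideal.Quotient.nontrivial_iff.2 (RingHom.ker_ne_top i)
  have hT₀ := IsLocalRing.of_surjective' (Ideal.Quotient.mk (RingHom.ker i))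
    Ideal.Quotient.mk_surjective
  let a₁ := ((Ideal.Quotient.mk (RingHom.ker i)).comp β).toAlgebra
  let a₂ := (RingHom.kerLift i).toAlgebra
  have ha₁ : ∀ a, algebraMap _ (_ ⧸ RingHom.ker i) a = Ideal.Quotient.mk (RingHom.ker i) (β a) :=
    fun _ => rfl
  have ha₂ : ∀ a, algebraMap _ T (Ideal.Quotient.mk (RingHom.ker i) a) = i a := fun _ => rfl
  have hfinA : Module.Finite (MvPowerSeries (Fin (r + 1) ⊕ Fin n₀) V)
      (_ ⧸ RingHom.ker i) := by
    let _ := (i.comp β).toAlgebra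
    have _ : Module.Finite (MvPowerSeries (Fin (r + 1) ⊕ Fin n₀) V) T := hAT
    let k : (_ ⧸ RingHom.ker i) →ₐ[MvPowerSeries (Fin (r + 1) ⊕ Fin n₀) V] T :=
      ⟨RingHom.kerLift i, fun _ => rfl⟩
    exact Module.Finite.of_injective k.toLinearMap (RingHom.kerLift_injective i)
  have := h₀.charZero
  have : CharZero (MvPowerSeries (Fin n₀) V₀) :=
    charZero_of_injective_ringHom (MvPowerSeries.C_injective (σ := Fin n₀) (R := V₀))
  have : IsDomain (MvPowerSeries (Fin n₀) V₀) := NoZeroDivisors.to_isDomain _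
  obtain ⟨g, ε, hg, hε⟩ := exists_sep α Φ hfin hinj jA
    ((Ideal.Quotient.mk (RingHom.ker i)).comp j)
    (fun a ha => by
      rw [RingHom.mem_ker, RingHom.comp_apply, Ideal.Quotient.eq_zero_iff_mem, hik]
      exact Ideal.mem_map_of_mem j ha)
    (by rw [RingHom.comp_assoc, ← hβj]; rfl)
    (span_range_eq_top _ (Ideal.Quotient.mk (RingHom.ker i) '' Set.range MvPowerSeries.X)
      (by
        rintro _ ⟨_, ⟨t | s, rfl⟩, rfl⟩
        · exact Or.inl ⟨MvPowerSeries.X (Sum.inl t), by rw [ha₁, hβl]⟩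
        · exact Or.inr ⟨MvPowerSeries.X s, by rw [RingHom.comp_apply, hjX]⟩)
      (by
        rw [← Ideal.map_span, ← map_maximalIdeal_of_surjective _ Ideal.Quotient.mk_surjective,
          maximalIdeal_mvPowerSeries]
        exact Ideal.map_mono le_sup_right)
      (fun b => by
        obtain ⟨b, rfl⟩ := Ideal.Quotient.mk_surjective b
        refine ⟨MvPowerSeries.C (MvPowerSeries.constantCoeff b), ?_⟩
        rw [ha₁, hβC', ← map_sub, ← Ideal.map_span]
        exact Ideal.mem_map_of_mem _ (sub_C_mem b)))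
  have hx' : (fun k => algebraMap _ T (Ideal.Quotient.mk (RingHom.ker i) (z k))) = x'' :=
    funext hz
  obtain ⟨hprime, hndvd⟩ := h.prime_mvPowerSeries (Fin (r + 1) ⊕ Fin n₀)
  refine ⟨V, inferInstance, inferInstance, inferInstance, MvPowerSeries (Fin (r + 1) ⊕ Fin n₀) V,
    _ ⧸ RingHom.ker i, T, inferInstance, inferInstance, inferInstance, hT₀, inferInstance,
    inferInstance, inferInstance, inferInstance, a₁, a₂, n₀ + w.length,
    jA c₁ * MvPowerSeries.X (Sum.inl 0), μ, fun k => Ideal.Quotient.mk _ (z k), ε, _, Φ g, f, π, w,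
    ⟨h, perf h τ₀ hτ, ?_, NoZeroDivisors.to_isDomain _, inferInstance, ?_, hprime, hfinA, ?_,
      RingHom.kerLift_injective i, fun t => ?_, Ideal.mul_mem_left _ _ (X_mem _), fun hd => ?_,
      fun t => ?_, hx' ▸ hx''⟩, hε, hg, hij' g, hf, ?_, hπf, hwT, hmT, hx' ▸ hlist⟩
  · refine ⟨Fin (r + 1) ⊕ Option (Fin (n₀ + 1)), inferInstance, 2, Ideal.Quotient.mk _,
      fun k => j (f₀ k), Ideal.Quotient.mk_surjective, ?_, ?_⟩
    · rw [Ideal.mk_ker, hik, hker, Ideal.map_span, ← Set.range_comp]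
      rfl
    · simp only [Fintype.card_sum, Fintype.card_option, Fintype.card_fin, hwl]
      omega
  · refine ⟨_, ofList_vars h Finset.univ.toList (by simp), ?_⟩
    simp only [List.length_append, List.length_map, Finset.length_toList, Finset.card_univ,
      Fintype.card_sum, Fintype.card_fin, List.length_singleton, hwl]
    omega
  · exact RingHom.Finite.of_comp_finite (f := Ideal.Quotient.mk (RingHom.ker i))
      (g := RingHom.kerLift i) hi
  · obtain ⟨a, ha⟩ := hresT t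
    exact ⟨Ideal.Quotient.mk _ a, ha⟩
  · rcases hprime.dvd_or_dvd hd with hd | hd
    exacts [hc₁ (hjAp _ hd), hndvd _ hd]
  · obtain ⟨y, hy⟩ := hcT _ hcond (i (MvPowerSeries.X (Sum.inl 0)) * t)
    refine ⟨Ideal.Quotient.mk _ y, ?_⟩
    rw [ha₂, hy, ha₁, map_mul (algebraMap _ T), ha₂, map_mul β, hβl,
      show β (jA c₁) = j (α c₁) from RingHom.congr_fun hβj c₁]
    simp only [map_mul, map_pow, map_natCast, mul_assoc]
  · intro s
    obtain ⟨a, rfl⟩ := hπV s
    exact ⟨i (ρ a), by rw [← RingHom.comp_apply, hπi, ← RingHom.comp_apply, hπρ]⟩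

end Vale.Agent.P202
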