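import Vale.Agent.P202.MixLev

/-! Module D4: the core inequality in mixed characteristic. -/

namespace Vale.Agent.P202

open IsLocalRing TensorProduct

universe u

open Filter Topology in
/-- The limit `q → ∞`. -/
theorem le_of_twists {n : ℕ} {ι : Type} [Fintype ι] {deg : ι → ℤ} {a₀ : ι}
    (hdeg : ∀ a, 0 ≤ deg a ∧ deg a ≤ n + 1) (h0 : ∀ a, deg a = 0 ↔ a = a₀)
    (hβ : ∑ a, sgn (deg a) = 0) {p : ℕ} (hp : 1 < p) (D j₀ : ℕ) {e s U : ℝ}
    (h : ∀ j, j₀ ≤ j → ∀ c : Fin n → ℤ,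
      (∀ l : Fin n, (((l : ℕ) : ℤ) + 1) * (p ^ j - D : ℕ) ≤ c l ∧
        c l ≤ (((l : ℕ) : ℤ) + 2) * (p ^ j - D : ℕ)) →
      s * -(e / ((p : ℝ) ^ j) ^ (n + 1) * ((∑ a, sgn (deg a) *
        ∑ i ∈ Finset.range ((deg a).toNat * (p ^ j - D)), ∏ l, (c l - i) : ℤ) : ℝ)) ≤
      n.factorial * U) : s * e ≤ U := by
  classical
  obtain ⟨c, hc, hlim⟩ := exists_twists n
  have hQ : Tendsto (fun k : ℕ => p ^ k) atTop atTop := tendsto_pow_atTop_atTop_of_one_lt hp
  have hq : Tendsto (fun k : ℕ => p ^ k - D) atTop atTop := (tendsto_sub_atTop_nat D).comp hQ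
  have h1 : ∀ a, Tendsto (fun q : ℕ => ((∑ s ∈ Finset.range ((deg a).toNat * q),
      ∏ l, (c q l - s) : ℤ) : ℝ) / (q : ℝ) ^ (n + 1)) atTop
      (𝓝 (if deg a = 0 then 0 else (n.factorial : ℝ))) := by
    intro a
    have := hdeg a
    split_ifs with ha
    · simp [ha]
    · exact hlim _ (by omega) (by omega)
  have hr : Tendsto (fun Q : ℕ => ((Q - D : ℕ) : ℝ) / Q) atTop (𝓝 1) := by
    have h2 : Tendsto (fun Q : ℕ => 1 - (D : ℝ) / Q) atTop (𝓝 (1 - 0)) :=
      tendsto_const_nhds.sub (tendsto_const_div_atTop_nhds_zero_nat _)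
    rw [sub_zero] at h2
    refine h2.congr' ?_
    filter_upwards [eventually_ge_atTop (D + 1)] with Q hQ
    have h3 : (0 : ℝ) < Q := by exact_mod_cast (show 0 < Q by omega)
    rw [Nat.cast_sub (by omega), sub_div, div_self h3.ne']
  have h2 : Tendsto (fun j : ℕ => s * -(e * (((p ^ j - D : ℕ) : ℝ) / (p ^ j : ℕ)) ^ (n + 1) *
      ∑ a, (sgn (deg a) : ℝ) * (((∑ i ∈ Finset.range ((deg a).toNat * (p ^ j - D)),
        ∏ l, (c (p ^ j - D) l - i) : ℤ) : ℝ) / ((p ^ j - D : ℕ) : ℝ) ^ (n + 1)))) atTop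
      (𝓝 (s * -(e * 1 ^ (n + 1) *
        ∑ a, (sgn (deg a) : ℝ) * if deg a = 0 then 0 else (n.factorial : ℝ)))) :=
    ((((hr.comp hQ).pow _).const_mul e).mul
      (tendsto_finsetSum _ fun a _ => ((h1 a).comp hq).const_mul _)).neg.const_mul s
  have h3 := le_of_tendsto h2 (b := (n.factorial : ℝ) * U) (by
    filter_upwards [eventually_ge_atTop j₀, hq.eventually (eventually_gt_atTop 0)] with j hj hj0
    refine le_of_eq_of_le ?_ (h j hj (c (p ^ j - D)) (hc _))
    have h4 : (0 : ℝ) < ((p ^ j - D : ℕ) : ℝ) := by exact_mod_cast hj0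
    have h5 : (0 : ℝ) < (p : ℝ) ^ j := by positivity
    rw [Int.cast_sum]
    simp only [Int.cast_mul, ← mul_div_assoc, ← Finset.sum_div, Nat.cast_pow, div_pow]
    field_simp)
  have h4 : (∑ a, (sgn (deg a) : ℝ)) = 0 := by exact_mod_cast hβ
  have h5 : ∀ a, (sgn (deg a) : ℝ) * (if deg a = 0 then 0 else (n.factorial : ℝ)) =
      (sgn (deg a) : ℝ) * n.factorial - (if a = a₀ then 1 else 0) * n.factorial := by
    intro a
    by_cases ha : a = a₀
    · simp [ha, (h0 a₀).2 rfl, sgn_zero]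
    · simp [ha, (h0 a).not.2 ha]
  simp only [h5, Finset.sum_sub_distrib, ← Finset.sum_mul, h4, Finset.sum_ite_eq',
    Finset.mem_univ, if_true] at h3
  have h6 : (0 : ℝ) < n.factorial := by exact_mod_cast n.factorial_pos
  refine le_of_mul_le_mul_left (le_of_eq_of_le ?_ h3) h6
  rw [one_pow]
  ring

theorem dim_quot_quot {T : Type u} [CommRing T] (J : Ideal T) (a : T) :
    ringKrullDim ((T ⧸ J) ⧸ Ideal.span {Ideal.Quotient.mk J a}) =
      ringKrullDim (T ⧸ (J ⊔ Ideal.span {a})) := by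
  rw [← ringKrullDim_eq_of_ringEquiv (DoubleQuot.quotQuotEquivQuotSup J (Ideal.span {a})),
    Ideal.map_span, Set.image_singleton]

/-- The uniform bound in the form used for the levels. -/
theorem exists_level_bound {A T₀ T : Type u} [CommRing A] [IsDomain A] [CommRing T₀]
    [IsLocalRing T₀] [CommRing T] [IsLocalRing T] [IsNoetherianRing T] [Algebra A T₀]
    [Algebra T₀ T] [Module.Finite A T₀] [Module.Finite T₀ T]
    (hres : ∀ t : T, ∃ z : T₀, t - algebraMap T₀ T z ∈ maximalIdeal T) {p : ℕ} (hp0 : (p : A) ≠ 0)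
    {ε : T₀ ⊗[A] T₀} {g : T₀} (hε : IsSepElt A ε g) {d : ℕ} {J : Ideal T}
    (hJ : J ≤ maximalIdeal T) {y : Fin d → T} (hy : IsSop (T ⧸ J) (List.ofFn y))
    (hg : ringKrullDim (T ⧸ (J ⊔ Ideal.span {algebraMap T₀ T g})) < d)
    (hp : ringKrullDim (T ⧸ (J ⊔ Ideal.span {(p : T)})) < d) :
    ∃ K : ℝ, ∀ (C : Type u) [CommRing C] [IsLocalRing C] [Algebra T₀ C] [Algebra A C]
      [IsScalarTower A T₀ C] [Module.Finite T₀ C] [Module.Free A C] (ρ b : ℕ),
      (∀ y : C, ∃ t : T₀, y - algebraMap T₀ C t ∈ maximalIdeal C) →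
      IsIsog ((p : T₀) ^ b) (Fin ρ → T₀) C → ∀ t : ℕ, 0 < t →
        Module.length C (C ⊗[T₀] (T ⧸ (J ⊔ Ideal.span (Set.range fun j => y j ^ t)))) ≠ ⊤ ∧
        (t : ℝ) * (Module.length C
            (C ⊗[T₀] (T ⧸ (J ⊔ Ideal.span (Set.range fun j => y j ^ t))))).toNat ≤
          ρ * ((t : ℝ) ^ (d + 1) * (mult (T ⧸ J) (List.ofFn y) : ℝ) + K * (t : ℝ) ^ d) := by
  have hJt : J ≠ ⊤ := fun e => (maximalIdeal.isMaximal T).ne_top (top_le_iff.1 (e ▸ hJ))
  have : Nontrivial (T ⧸ J) := Ideal.Quotient.nontrivial_iff.2 hJt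
  have : IsLocalRing (T ⧸ J) := IsLocalRing.of_surjective' _ (Ideal.Quotient.mk_surjective (I := J))
  have hmm : (maximalIdeal T).map (Ideal.Quotient.mk J) = maximalIdeal (T ⧸ J) :=
    map_maximalIdeal_of_surjective _ Ideal.Quotient.mk_surjective
  obtain ⟨hym, N, hN⟩ := isSop_quotient_iff.1 hy
  have hy' : IsSop (T ⧸ J) (List.ofFn fun j => Ideal.Quotient.mk J (y j)) := by
    refine isSop_iff_ann.2 ⟨fun a ha => ?_, N, ?_⟩
    · obtain ⟨j, rfl⟩ := List.mem_ofFn.1 ha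
      rw [← hmm]
      exact Ideal.mem_map_of_mem _ (hym _ (List.mem_ofFn.2 ⟨j, rfl⟩))
    · rw [← hmm, ← Ideal.map_pow]
      refine (Ideal.map_mono hN).trans ?_
      rw [Ideal.map_sup, Ideal.map_quotient_self, Ideal.map_ofList, List.map_ofFn]
      exact sup_le bot_le le_sup_right
  have hm : mult (T ⧸ J) (List.ofFn fun j => Ideal.Quotient.mk J (y j)) =
      mult (T ⧸ J) (List.ofFn y) := by
    have h1 := CoreC.mult_quot_ker (f := Ideal.Quotient.mk J) Ideal.Quotient.mk_surjective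
      (List.ofFn y)
    rw [Ideal.mk_ker, List.map_ofFn] at h1
    exact h1.symm
  obtain ⟨K, hK⟩ := exists_uniform_bound (A := A) (B := T₀) (S := T ⧸ J) hε hp0 hy'
    (by rwa [← dim_quot_quot] at hg)
    (by rwa [map_natCast, map_natCast, ← map_natCast (Ideal.Quotient.mk J), dim_quot_quot])
  refine ⟨K, fun C _ _ _ _ _ _ _ ρ b hresC hiso t ht => ?_⟩
  have : Module.Finite A C := Module.Finite.trans T₀ C
  have h1 := hK C ρ b (by rwa [map_natCast]) t ht
  have : IsLocalHom (algebraMap T₀ C) :=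
    isLocalHom_of_finite _ (RingHom.finite_algebraMap.2 inferInstance)
  have : IsLocalHom (algebraMap T₀ (T ⧸ J)) :=
    isLocalHom_of_finite _ (RingHom.finite_algebraMap.2 inferInstance)
  have hresS : ∀ s : T ⧸ J, ∃ z : T₀, s - algebraMap T₀ (T ⧸ J) z ∈ maximalIdeal (T ⧸ J) := by
    intro s
    obtain ⟨s, rfl⟩ := Ideal.Quotient.mk_surjective s
    obtain ⟨z, hz⟩ := hres s
    refine ⟨z, ?_⟩
    rw [← hmm]
    exact Ideal.mem_map_of_mem (Ideal.Quotient.mk J) hz
  have e1 : (Ideal.span (Set.range fun j => y j ^ t)).map (Ideal.Quotient.mkₐ T₀ J) =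
      Ideal.span (Set.range fun j => Ideal.Quotient.mk J (y j) ^ t) := by
    rw [Ideal.map_span, ← Set.range_comp]
    rfl
  have e2 : Module.length C (C ⊗[T₀] (T ⧸ (J ⊔ Ideal.span (Set.range fun j => y j ^ t)))) =
      Module.length (T ⧸ J) (((T ⧸ J) ⧸
        Ideal.span (Set.range fun j => Ideal.Quotient.mk J (y j) ^ t)) ⊗[T₀] C) := by
    rw [← HS.length_eq_of_residue_surj hresC, ← HS.length_eq_of_residue_surj hresS, ← e1]
    exact ((TensorProduct.comm T₀ _ _).trans (TensorProduct.congr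
      (DoubleQuot.quotQuotEquivQuotSupₐ T₀ J _).symm.toLinearEquiv (LinearEquiv.refl T₀ C))).length_eq
  rwa [e2, ← hm]

theorem IsMixBase.core {p : ℕ} [Fact p.Prime] {V : Type u} [CommRing V] [IsDomain V]
    [IsDiscreteValuationRing V] {A T₀ T : Type u} [CommRing A] [IsLocalRing A] [CommRing T₀]
    [IsLocalRing T₀] [IsNoetherianRing T₀] [CommRing T] [IsLocalRing T] [IsNoetherianRing T]
    [Algebra A T₀] [Algebra T₀ T] {n : ℕ} {c₁ : A} {μ : ℕ} {x : Fin (n + 1) → T₀}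
    (h : IsMixBase p V T c₁ μ x) {ε : T₀ ⊗[A] T₀} {g : T₀} (hε : IsSepElt A ε g)
    {ι : Type} [Fintype ι] [DecidableEq ι] {F : Matrix ι ι T} {deg : ι → ℤ} {a₀ : ι} {d : ℕ}
    (hF : IsMC F deg) (hdeg : ∀ a, 0 ≤ deg a ∧ deg a + d ≤ n + 1) (h0 : ∀ a, deg a = 0 ↔ a = a₀)
    (hFm : ∀ a b, F a b ∈ maximalIdeal T) {J : Ideal T} (hrow : Ideal.span (Set.range (F a₀)) = J)
    (hnull : J ≤ nullIdeal F deg) {y : Fin d → T} (hy : IsSop (T ⧸ J) (List.ofFn y))
    (hg : ringKrullDim (T ⧸ (J ⊔ Ideal.span {algebraMap T₀ T g})) < d)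
    (hp : ringKrullDim (T ⧸ (J ⊔ Ideal.span {(p : T)})) < d) :
    mult T (List.ofFn fun j => algebraMap T₀ T (x j)) ≤ mult (T ⧸ J) (List.ofFn y) := by
  have hp1 : 1 < p := (Fact.out : p.Prime).one_lt
  have := h.dom
  have := h.finA
  have := h.finT
  have hJ : J ≤ maximalIdeal T := by
    rw [← hrow, Ideal.span_le]
    rintro _ ⟨b, rfl⟩
    exact hFm a₀ b
  have : IsLocalHom (algebraMap T₀ T) :=
    isLocalHom_of_finite _ (RingHom.finite_algebraMap.2 inferInstance)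
  have hpm : (p : T) ∈ maximalIdeal T := by
    rw [← map_natCast (algebraMap T₀ T)]
    exact map_nonunit _ _ h.p_mem
  have hd : 0 < d := by
    have h1 : J ⊔ Ideal.span {(p : T)} ≠ ⊤ := fun e => (maximalIdeal.isMaximal T).ne_top
      (top_le_iff.1 (e ▸ sup_le hJ ((Ideal.span_singleton_le_iff_mem _).2 hpm)))
    have : Nontrivial (T ⧸ (J ⊔ Ideal.span {(p : T)})) := Ideal.Quotient.nontrivial_iff.2 h1
    exact_mod_cast ringKrullDim_nonneg_of_nontrivial.trans_lt hp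
  obtain ⟨hym, N, hN⟩ := isSop_quotient_iff.1 hy
  have hym' : ∀ j, y j ∈ maximalIdeal T := fun j => hym _ (List.mem_ofFn.2 ⟨j, rfl⟩)
  have hnull' : ∀ j, algebraMap T₀ T (x j) ^ (N + 1) ∈
      nullIdeal (tensMat (kos y) kdeg F) (tensDeg kdeg deg) := fun j => by
    refine le_nullIdeal_kos_tensMat y ?_
    have h1 := hN (Ideal.pow_le_pow_right (Nat.le_succ N) (Ideal.pow_mem_pow (h.red.1 j) (N + 1)))
    rw [CoreC.ofList_ofFn, sup_comm] at h1
    exact sup_le_sup_left hnull _ h1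
  obtain ⟨K, hK⟩ := exists_level_bound h.res h.prime.ne_zero hε hJ hy hg hp
  obtain ⟨j₀, K', hlev⟩ := h.exists_levels (Nat.succ_pos N)
  set e := mult T (List.ofFn fun j => algebraMap T₀ T (x j)) with he
  set f := mult (T ⧸ J) (List.ofFn y) with hf
  have he0 : 0 ≤ e := mult_nonneg h.red.isSop
  have hf0 : 0 ≤ f := mult_nonneg hy
  have hmain : ∀ t : ℕ, 0 < t → (t : ℝ) ^ d * e ≤ (t : ℝ) ^ d * f + |K| * (t : ℝ) ^ d / t := by
    intro t ht
    have ht' : (0 : ℝ) < t := by exact_mod_cast ht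
    obtain ⟨-, m₀, hm₀⟩ := isSop_quotient_iff.1 (hy.pow ht)
    rw [List.map_ofFn, CoreC.ofList_ofFn] at hm₀
    have : Nonempty (Fin d) := ⟨⟨0, hd⟩⟩
    refine le_of_twists (n := n) (deg := tensDeg (kdeg (J := Fin d)) deg) (a₀ := (∅, a₀))
      (fun a => ?_) (fun a => ?_) ?_ hp1 (2 * (n + 2)) j₀ fun j hj c hc => ?_
    · have h1 := hdeg a.2
      have h2 : a.1.card ≤ d := by simpa using a.1.card_le_univ
      simp only [tensDeg, kdeg]
      omega
    · have h1 := hdeg a.2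
      simp only [tensDeg, kdeg, Prod.ext_iff, ← h0, ← Finset.card_eq_zero]
      omega
    · simp only [tensDeg, sgn_add, Fintype.sum_prod_type, ← Finset.mul_sum, ← Finset.sum_mul,
        sum_sgn_kdeg, zero_mul]
    · obtain ⟨m, hm, hl⟩ := hlev j hj m₀
      choose C H _ _ _ _ _ _ _ _ ψ ξ P θ ρ b hL hρ hfin hfree hres hiso h1 h2 h3 using hl
      have hq : (0 : ℝ) < ((p : ℝ) ^ j) ^ (n + 1) := by positivity
      let Λ : NNReal := ⟨(e : ℝ) / ((p : ℝ) ^ j) ^ (n + 1), by positivity⟩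
      let U : NNReal := ⟨(t : ℝ) ^ d * f + |K| * (t : ℝ) ^ d / t, by positivity⟩
      refine level_ineq hL ρ hρ Λ (fun k => ?_) K' h2 hF hdeg h0 hFm hym' hd hnull' t U
        (fun k => ?_) hc
      · have h4 := h1 k
        generalize Module.length (C k) (C k ⧸ Ideal.span (Set.range (ξ k))) = l at h4
        induction l using ENat.recTopCoe with
        | top =>
          rw [ENat.mul_top (by positivity)] at h4
          exact absurd h4.symm (ENat.coe_ne_top _)
        | coe l =>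
          have h5 : (p ^ j) ^ (n + 1) * l = ρ k * e.toNat := by exact_mod_cast h4
          have h6 : ((p : ℝ) ^ j) ^ (n + 1) * l = ρ k * (e.toNat : ℤ) := by exact_mod_cast h5
          rw [Int.toNat_of_nonneg he0] at h6
          have h7 : (l : NNReal) = Λ * ρ k := by
            ext
            change (l : ℝ) = (e : ℝ) / ((p : ℝ) ^ j) ^ (n + 1) * ρ k
            field_simp
            linarith
          rw [ENat.toENNReal_coe, ← ENNReal.coe_natCast, h7, ENNReal.coe_mul, ENNReal.coe_natCast]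
      · have := hfin k
        have := hfree k
        rw [hrow]
        refine (ENat.toENNReal_le.2 (h3 k _ (hm₀ (Ideal.pow_le_pow_right hm
          (Ideal.pow_mem_pow hpm m))))).trans ?_
        obtain ⟨h4, h5⟩ := hK (C k) (ρ k) (b k) (hres k) (hiso k) t ht
        change ((Module.length (C k) (C k ⊗[T₀]
          (T ⧸ (J ⊔ Ideal.span (Set.range fun j => y j ^ t)))) : ℕ∞) : ENNReal) ≤ _
        generalize Module.length (C k) (C k ⊗[T₀]
          (T ⧸ (J ⊔ Ideal.span (Set.range fun j => y j ^ t)))) = l at h4 h5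
        lift l to ℕ using h4
        rw [ENat.toNat_coe] at h5
        have h7 : (l : NNReal) ≤ U * ρ k := by
          rw [← NNReal.coe_le_coe]
          change (l : ℝ) ≤ ((t : ℝ) ^ d * f + |K| * (t : ℝ) ^ d / t) * ρ k
          refine le_of_mul_le_mul_left (h5.trans ?_) ht'
          have h8 : (t : ℝ) * (((t : ℝ) ^ d * f + |K| * (t : ℝ) ^ d / t) * ρ k) =
              ρ k * ((t : ℝ) ^ (d + 1) * f + |K| * (t : ℝ) ^ d) := by
            field_simp
            ring
          rw [h8]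
          gcongr
          exact le_abs_self K
        rw [ENat.toENNReal_coe, ← ENNReal.coe_natCast, ← ENNReal.coe_natCast, ← ENNReal.coe_mul,
          ENNReal.coe_le_coe]
        exact h7
  by_contra hlt
  have h1 : (f : ℝ) + 1 ≤ e := by exact_mod_cast (show f + 1 ≤ e by omega)
  obtain ⟨t, ht⟩ := exists_nat_gt |K|
  have ht' : (0 : ℝ) < t := (abs_nonneg K).trans_lt ht
  have h2 := hmain t (by exact_mod_cast ht')
  have h3 : (0 : ℝ) < (t : ℝ) ^ d := by positivity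
  have h4 : |K| * (t : ℝ) ^ d / t < (t : ℝ) ^ d := by
    rw [div_lt_iff₀ ht']
    nlinarith
  nlinarith

end Vale.Agent.P202
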