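import Vale.Agent.P202.HomKos
import Vale.Agent.P202.HSMult

/-! Module S1: the multiplicity symbol of a reduction is at most the multiplicity (Serre's
argument, any characteristic). -/

namespace Vale.Agent.P202

open IsLocalRing Filter Topology

universe u

namespace SerreS1

theorem tendsto_choose_div {d k : ℕ} (hk : k ≤ d) :
    Tendsto (fun n : ℕ => (d.factorial : ℝ) * (n.choose k : ℝ) / (n : ℝ) ^ d) atTop
      (𝓝 (if k = d then 1 else 0)) := by
  split_ifs with h
  · subst h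
    have hz : ∀ᶠ n : ℕ in atTop, ((n : ℝ) ^ k / k.factorial) ≠ 0 := by
      filter_upwards [eventually_gt_atTop 0] with n hn
      have : (0 : ℝ) < n := by exact_mod_cast hn
      positivity
    refine ((Asymptotics.isEquivalent_iff_tendsto_one hz).1 (isEquivalent_choose k)).congr
      fun n => ?_
    rw [Pi.div_apply, div_div_eq_mul_div, mul_comm]
  · refine squeeze_zero' (Eventually.of_forall fun n => by positivity) ?_
      (tendsto_const_div_atTop_nhds_zero_nat (d.factorial : ℝ))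
    filter_upwards [eventually_gt_atTop 0] with n hn
    have h0 : (1 : ℝ) ≤ n := by exact_mod_cast hn
    have h1 : (n.choose k : ℝ) ≤ (n : ℝ) ^ k := by exact_mod_cast Nat.choose_le_pow n k
    have h2 : (n : ℝ) ^ (k + 1) ≤ (n : ℝ) ^ d := pow_le_pow_right₀ h0 (by omega)
    rw [div_le_div_iff₀ (by positivity) (by positivity), mul_assoc]
    refine mul_le_mul_of_nonneg_left (le_trans ?_ h2) (by positivity)
    rw [pow_succ]
    exact mul_le_mul_of_nonneg_right h1 (by positivity)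

theorem tendsto_of_fwdDiff {d y₀ : ℕ} {h : ℕ → ℝ} {m : ℝ}
    (H : ∀ y ≥ y₀, (fwdDiff 1)^[d] h y = m) :
    Tendsto (fun n : ℕ => (d.factorial : ℝ) * h (y₀ + n) / (n : ℝ) ^ d) atTop (𝓝 m) := by
  have h0 : ∀ j, ∀ y ≥ y₀, (fwdDiff 1)^[d + 1 + j] h y = 0 := by
    intro j
    induction j with
    | zero =>
      intro y hy
      rw [add_zero, Function.iterate_succ_apply', fwdDiff, H y hy, H _ (by omega), sub_self]
    | succ j ih =>
      intro y hy
      rw [← add_assoc, Function.iterate_succ_apply', fwdDiff, ih y hy, ih _ (by omega), sub_self]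
  have h1 : ∀ n ≥ d, h (y₀ + n) =
      ∑ k ∈ Finset.range (d + 1), (n.choose k : ℝ) * (fwdDiff 1)^[k] h y₀ := by
    intro n hn
    have h2 := shift_eq_sum_fwdDiff_iter 1 h n y₀
    rw [smul_eq_mul, mul_one] at h2
    rw [h2]
    simp only [nsmul_eq_mul]
    refine (Finset.sum_subset (Finset.range_mono (by omega)) fun k _ hk => ?_).symm
    rw [Finset.mem_range, not_lt] at hk
    obtain ⟨j, rfl⟩ := Nat.exists_eq_add_of_le hk
    rw [h0 j y₀ le_rfl, mul_zero]
  have h2 : Tendsto (fun n : ℕ => ∑ k ∈ Finset.range (d + 1),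
      (d.factorial : ℝ) * (n.choose k : ℝ) / (n : ℝ) ^ d * (fwdDiff 1)^[k] h y₀) atTop
      (𝓝 (∑ k ∈ Finset.range (d + 1), (if k = d then 1 else 0) * (fwdDiff 1)^[k] h y₀)) :=
    tendsto_finsetSum _ fun k hk =>
      (tendsto_choose_div (Nat.lt_succ_iff.1 (Finset.mem_range.1 hk))).mul_const _
  simp only [ite_mul, one_mul, zero_mul, Finset.sum_ite_eq', Finset.self_mem_range_succ, if_true,
    H y₀ le_rfl] at h2
  refine h2.congr' ?_
  filter_upwards [eventually_ge_atTop d] with n hn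
  rw [h1 n hn, Finset.mul_sum, Finset.sum_div]
  exact Finset.sum_congr rfl fun k _ => by ring

theorem sum_sgn_eq (d y : ℕ) (h : ℕ → ℝ) :
    ∑ S : Finset (Fin d), (-1 : ℝ) ^ S.card * h (y + d - S.card) = (fwdDiff 1)^[d] h y := by
  rw [← Finset.powerset_univ,
    Finset.sum_powerset_apply_card (fun k => (-1 : ℝ) ^ k * h (y + d - k)), Finset.card_univ,
    Fintype.card_fin, fwdDiff_iter_eq_sum_shift, ← Finset.sum_range_reflect]
  refine Finset.sum_congr rfl fun k hk => ?_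
  have hk' : k ≤ d := Nat.lt_succ_iff.1 (Finset.mem_range.1 hk)
  rw [Nat.add_sub_cancel, Nat.choose_symm hk', smul_eq_mul, mul_one,
    show y + d - (d - k) = y + k by omega, nsmul_eq_mul, zsmul_eq_mul]
  push_cast
  ring

theorem le_of_shift {d y₀ r : ℕ} {h l : ℕ → ℝ} {m e : ℝ}
    (h1 : Tendsto (fun n : ℕ => (d.factorial : ℝ) * h (y₀ + n) / (n : ℝ) ^ d) atTop (𝓝 m))
    (he : Tendsto (fun N : ℕ => (d.factorial : ℝ) * l N / (N : ℝ) ^ d) atTop (𝓝 e))
    (hl : ∀ N, h N ≤ l (N + r)) : m ≤ e := by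
  have h2 : Tendsto (fun n : ℕ => (d.factorial : ℝ) * l (n + (y₀ + r)) /
      ((n + (y₀ + r) : ℕ) : ℝ) ^ d * (1 + ((y₀ + r : ℕ) : ℝ) / n) ^ d) atTop
      (𝓝 (e * (1 + 0) ^ d)) :=
    (he.comp (tendsto_add_atTop_nat (y₀ + r))).mul
      (((tendsto_const_div_atTop_nhds_zero_nat ((y₀ + r : ℕ) : ℝ)).const_add 1).pow d)
  rw [add_zero, one_pow, mul_one] at h2
  refine le_of_tendsto_of_tendsto h1 h2 ?_
  filter_upwards [eventually_gt_atTop 0] with n hn
  have hn' : (0 : ℝ) < n := by exact_mod_cast hn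
  have hnr : (0 : ℝ) < ((n + (y₀ + r) : ℕ) : ℝ) := by
    exact_mod_cast (by omega : 0 < n + (y₀ + r))
  have e1 : (1 + ((y₀ + r : ℕ) : ℝ) / n) = ((n + (y₀ + r) : ℕ) : ℝ) / n := by
    push_cast
    field_simp
  have e2 : (d.factorial : ℝ) * l (n + (y₀ + r)) / ((n + (y₀ + r) : ℕ) : ℝ) ^ d *
      (1 + ((y₀ + r : ℕ) : ℝ) / n) ^ d = (d.factorial : ℝ) * l (n + (y₀ + r)) / (n : ℝ) ^ d := by
    rw [e1, div_pow]
    field_simp
  rw [e2, show n + (y₀ + r) = y₀ + n + r by omega]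
  have := hl (y₀ + n)
  gcongr

variable {T : Type u} [CommRing T] {d : ℕ}

theorem mem_smul_top (I : Ideal T) (v : Finset (Fin d) → T) :
    v ∈ (I • ⊤ : Submodule T (Finset (Fin d) → T)) ↔ ∀ S, v S ∈ I := by
  constructor
  · intro hv
    refine Submodule.smul_induction_on hv (fun r hr w _ S => ?_) fun w w' hw hw' S => ?_
    · exact I.mul_mem_right _ hr
    · exact I.add_mem (hw S) (hw' S)
  · intro hv
    rw [pi_eq_sum_univ' v]
    exact Submodule.sum_mem _ fun S _ => Submodule.smul_mem_smul (hv S) Submodule.mem_top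

/-- The labels of the filtered Koszul complex. -/
def lab (x : Fin d → T) (N : ℕ) (S : Finset (Fin d)) : Submodule T T :=
  Ideal.span (Set.range x) ^ (N - S.card)

theorem lab_compat (x : Fin d → T) (N : ℕ) (j : Fin d) (S : Finset (Fin d)) (hj : j ∉ S) (z : T)
    (hz : z ∈ lab x N (insert j S)) : x j • z ∈ lab x N S := by
  rw [lab, Finset.card_insert_of_notMem hj] at hz
  have h1 : x j * z ∈ Ideal.span (Set.range x) ^ (N - (S.card + 1) + 1) := by
    rw [pow_succ']
    exact Ideal.mul_mem_mul (Ideal.subset_span ⟨j, rfl⟩) hz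
  exact Ideal.pow_le_pow_right (by omega) h1

theorem acyclic [IsNoetherianRing T] (x : Fin d → T) : ∃ N₀ : ℕ, ∀ N ≥ N₀, ∀ i : ℤ,
    hl (tot (kos x) kdeg (0 : T →ₗ[T] T)) (brFam (lab x N))
      (brFam fun _ : Finset (Fin d) => (⊥ : Submodule T T)) i = 0 := by
  set I := Ideal.span (Set.range x) with hI
  set δ := tot (kos x) kdeg (0 : T →ₗ[T] T) with hδ
  choose k hk using fun c : ℕ => Ideal.exists_pow_inf_eq_pow_smul I
    (brFam (fun _ : Finset (Fin d) => (⊤ : Submodule T T)) (c : ℤ) ⊓ LinearMap.ker δ)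
  refine ⟨∑ c ∈ Finset.range (d + 1), k c + d + 1, fun N hN i => ?_⟩
  rw [hl_eq_zero_iff]
  intro v hv hdv
  have hd0 : δ v = 0 := funext fun S => (br_mem_fam.1 hdv S).1
  rw [br_mem_fam] at hv
  by_cases hi : ∃ S : Finset (Fin d), i = S.card
  swap
  · push Not at hi
    have : v = 0 := funext fun S => (hv S).2 (hi S)
    exact ⟨0, zero_mem _, by rw [this, map_zero, sub_zero]; exact zero_mem _⟩
  obtain ⟨S₀, rfl⟩ := hi
  have hc : S₀.card ≤ d := by simpa using S₀.card_le_univ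
  generalize S₀.card = c at hv hc
  have hkc : k c ≤ ∑ c ∈ Finset.range (d + 1), k c :=
    Finset.single_le_sum (f := k) (fun _ _ => Nat.zero_le _) (Finset.mem_range.2 (by omega))
  obtain ⟨n, hn⟩ : ∃ n, N - c = n + 1 := ⟨N - c - 1, by omega⟩
  have h1 : v ∈ I ^ (n + 1) • (⊤ : Submodule T (Finset (Fin d) → T)) ⊓
      (brFam (fun _ : Finset (Fin d) => (⊤ : Submodule T T)) (c : ℤ) ⊓ LinearMap.ker δ) := by
    refine ⟨(mem_smul_top _ _).2 fun S => ?_, br_mem_fam.2 fun S => ⟨trivial, (hv S).2⟩, hd0⟩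
    by_cases hS : (c : ℤ) = S.card
    · have h2 := (hv S).1
      rwa [lab, ← Int.natCast_inj.1 hS, hn] at h2
    · rw [(hv S).2 hS]
      exact zero_mem _
  rw [hk c _ (by omega), show n + 1 - k c = n - k c + 1 by omega, pow_succ', mul_smul,
    ← hk c _ (by omega)] at h1
  have h2 : v ∈ (brFam (lab x N) ((c : ℤ) + 1)).map δ := by
    refine Submodule.smul_le.2 (fun r hr z hz => ?_) h1
    obtain ⟨hz1, hz2, hz3⟩ := hz
    have hz1' := (mem_smul_top _ _).1 hz1
    have hz2' := br_mem_fam.1 hz2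
    induction hr using Submodule.span_induction with
    | mem r hr =>
      obtain ⟨j, rfl⟩ := hr
      refine ⟨brCre (Λ := T) j z, brCre_mem (F := fun S => lab x N (insert j S))
        (fun S _ => (hz2' S).2) (fun S hS => ?_) fun _ _ => le_rfl, ?_⟩
      · by_cases hS' : (c : ℤ) = S.card
        · rw [lab, Finset.card_insert_of_notMem hS, ← Int.natCast_inj.1 hS',
            show N - (c + 1) = n by omega]
          exact hz1' S
        · rw [(hz2' S).2 hS']
          exact zero_mem _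
      · have h3 := brCre_homotopy x j z
        rwa [← hδ, LinearMap.mem_ker.1 hz3, map_zero, add_zero] at h3
    | zero => rw [zero_smul]; exact zero_mem _
    | add a b _ _ ha hb => rw [add_smul]; exact add_mem ha hb
    | smul a b _ hb => rw [smul_assoc]; exact Submodule.smul_mem _ _ hb
  obtain ⟨y, hy, hyv⟩ := h2
  exact ⟨y, hy, by rw [hyv, sub_self]; exact zero_mem _⟩

theorem finH_eul_conc {L : Submodule T T} (h : rl ⊤ L ≠ ⊤) :
    FinH (0 : T →ₗ[T] T) (conc ⊤) (conc L) ∧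
      eul (0 : T →ₗ[T] T) (conc ⊤) (conc L) = ((rl ⊤ L).toNat : ℤ) := by
  refine ⟨⟨fun i => ?_, (Set.finite_singleton 0).subset fun i hi => ?_⟩, ?_⟩
  · rw [hl_conc]
    split_ifs
    · exact h
    · exact ENat.zero_ne_top
  · by_contra h0
    exact hi (by rw [hl_conc, if_neg (by simpa using h0)])
  · rw [eul_eq_sum {0} fun i hi => by rw [hl_conc, if_neg (by simpa using hi)],
      Finset.sum_singleton, hl_conc, if_pos rfl, sgn_zero, one_mul]

theorem mult_eq [IsLocalRing T] [IsNoetherianRing T] {x : Fin d → T}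
    (hx : IsSop T (List.ofFn x)) (hfin : ∀ n, rl ⊤ (Ideal.span (Set.range x) ^ n) ≠ ⊤) :
    ∃ N₀ : ℕ, ∀ N ≥ N₀, mult T (List.ofFn x) = ∑ S : Finset (Fin d),
      (-1) ^ S.card * ((rl ⊤ (Ideal.span (Set.range x) ^ (N - S.card))).toNat : ℤ) := by
  obtain ⟨N₀, h⟩ := acyclic x
  refine ⟨N₀, fun N hN => ?_⟩
  have p1 := br_isTotPair x (F := fun _ => (⊤ : Submodule T T)) (F' := lab x N)
    (fun _ => le_top) (fun _ _ _ _ _ => trivial) (lab_compat x N)
  have p2 := br_isPair x (F := lab x N) (F' := fun _ => (⊥ : Submodule T T))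
    (fun _ => bot_le) (lab_compat x N) fun _ _ _ z hz => by
      rw [(Submodule.mem_bot T).1 hz, smul_zero]; exact zero_mem _
  have f1 : ∀ S : Finset (Fin d), FinH (0 : T →ₗ[T] T) (conc ⊤) (conc (lab x N S)) :=
    fun S => (finH_eul_conc (hfin _)).1
  have e1 := eul_add p1.isPair p2 (finH_tot p1 f1) (finH_of_hl_eq_zero (h N hN))
  have e2 := eul_of_hl_eq_zero (h N hN)
  unfold brFam at e1 e2
  rw [e2, add_zero, eul_tot p1 f1] at e1
  rw [mult, ← (finH_eul_kos_conc x bot_le hx).2]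
  refine e1.trans (Finset.sum_congr rfl fun S _ => ?_)
  rw [kdeg, sgn_natCast, lab, (finH_eul_conc (hfin _)).2]

theorem fwdDiff_eq {d N₀ : ℕ} {g : ℕ → ℕ} {m : ℤ} (H : ∀ N ≥ N₀, m = ∑ S : Finset (Fin d),
    (-1) ^ S.card * (g (N - S.card) : ℤ)) (y : ℕ) (hy : y ≥ N₀) :
    (fwdDiff 1)^[d] (fun n => (g n : ℝ)) y = (m : ℝ) := by
  rw [← sum_sgn_eq, H (y + d) (by omega)]
  push_cast
  rfl

end SerreS1

theorem mult_le_of_tendsto_gen {T : Type u} [CommRing T] [IsLocalRing T] [IsNoetherianRing T]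
    {d : ℕ} {x : Fin d → T} (hx : IsReduction x) {e : ℝ}
    (he : Tendsto (hsSeq T d) atTop (𝓝 e)) : (mult T (List.ofFn x) : ℝ) ≤ e := by
  obtain ⟨r, hr⟩ := hx.pow_le
  have h1 : ∀ n, rl ⊤ (Ideal.span (Set.range x) ^ n) ≤
      Module.length T (T ⧸ maximalIdeal T ^ (n + r)) := fun n => by
    rw [← rl_top]
    exact rl_mono le_rfl (hr n)
  have h2 : ∀ n, Module.length T (T ⧸ maximalIdeal T ^ n) ≠ ⊤ := fun n => by
    have h7 := HS.length_quot_pow_ne_top (Λ := T) T n
    rwa [smul_eq_mul, Ideal.mul_top] at h7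
  obtain ⟨N₀, hN⟩ := SerreS1.mult_eq hx.isSop fun n => ne_top_of_le_ne_top (h2 (n + r)) (h1 n)
  have h3 := SerreS1.tendsto_of_fwdDiff (SerreS1.fwdDiff_eq
    (g := fun n => (rl ⊤ (Ideal.span (Set.range x) ^ n)).toNat) hN)
  have h5 : ∀ n, ((rl ⊤ (Ideal.span (Set.range x) ^ n)).toNat : ℝ) ≤
      ((Module.length T (T ⧸ maximalIdeal T ^ (n + r))).toNat : ℝ) := fun n =>
    Nat.cast_le.2 (ENat.toNat_le_toNat (h1 n) (h2 (n + r)))
  exact SerreS1.le_of_shift (d := d) (r := r) (y₀ := N₀)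
    (h := fun n => ((rl ⊤ (Ideal.span (Set.range x) ^ n)).toNat : ℝ))
    (l := fun N => ((Module.length T (T ⧸ maximalIdeal T ^ N)).toNat : ℝ)) h3 he h5

end Vale.Agent.P202
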