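import Vale.Agent.P202.Factor
import Vale.Agent.P202.MixCore
import Vale.Agent.P202.CharP
import Vale.Agent.P202.SerreS1

/-! Module G1: Lech's inequality for a finite fibre in residue characteristic `p`. -/

namespace Vale.Agent.P202

open IsLocalRing

universe u

namespace FM

theorem dim_le {T : Type*} [CommRing T] [IsLocalRing T] [IsNoetherianRing T]
    {y : List T} (h : IsSop T y) : ringKrullDim T ≤ y.length := by
  rw [← ringKrullDim_eq_of_ringEquiv (RingEquiv.quotientBot T)]
  exact dim_le_of_isSop (h.of_surjective (Submodule.mkQ ⊥) (Submodule.mkQ_surjective _))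

theorem dim_sup_eq {T S : Type*} [CommRing T] [CommRing S] {σ : T →+* S}
    (hσ : Function.Surjective σ) (a : T) :
    ringKrullDim (T ⧸ (RingHom.ker σ ⊔ Ideal.span {a})) =
      ringKrullDim (S ⧸ Ideal.span {σ a}) := by
  have h1 : Function.Surjective ((Ideal.Quotient.mk (Ideal.span {σ a})).comp σ) :=
    Ideal.Quotient.mk_surjective.comp hσ
  rw [← ringKrullDim_eq_of_ringEquiv (RingHom.quotientKerEquivOfSurjective h1),
    ← RingHom.comap_ker, Ideal.mk_ker, ← Set.image_singleton, ← Ideal.map_span,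
    Ideal.comap_map_of_surjective σ hσ, sup_comm, RingHom.ker_eq_comap_bot]

theorem multP_colon {A : Type*} [CommRing A] (y : List A) (I : Ideal A) (g : A) :
    multP y (I ⊔ Ideal.span {g}) I = multP y ⊤ (I.colon {g}) := by
  refine (multP_eq_of_map y (LinearMap.lsmul A A g) le_top le_sup_left (fun a _ => ?_)
    (fun a ha => ?_) (fun b hb => ?_) (fun a _ ha => ?_)).symm
  · exact Submodule.mem_sup_right (Ideal.mul_mem_right a _ (Ideal.mem_span_singleton_self g))
  · have := Submodule.mem_colon_singleton.mp ha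
    simpa [mul_comm] using this
  · obtain ⟨c, hc, d, hd, rfl⟩ := Submodule.mem_sup.mp hb
    obtain ⟨r, rfl⟩ := Ideal.mem_span_singleton'.mp hd
    exact ⟨r, trivial, by simpa [mul_comm] using hc⟩
  · exact Submodule.mem_colon_singleton.mpr (by simpa [mul_comm] using ha)

theorem isReduction_map {A B : Type*} [CommRing A] [IsLocalRing A] [CommRing B] [IsLocalRing B]
    {f : A →+* B} (hf : Function.Surjective f) {d : ℕ} {x : Fin d → A} (hx : IsReduction x) :
    IsReduction fun j => f (x j) := by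
  have hm := map_maximalIdeal_of_surjective f hf
  obtain ⟨h1, r, hr⟩ := hx
  refine ⟨fun j => hm ▸ Ideal.mem_map_of_mem f (h1 j), r, ?_⟩
  have := Ideal.map_mono (f := f) hr
  rwa [Ideal.map_mul, Ideal.map_pow, Ideal.map_pow, hm, Ideal.map_span, ← Set.range_comp] at this

theorem isSop_map {A B : Type*} [CommRing A] [IsLocalRing A] [IsNoetherianRing A] [CommRing B]
    [IsLocalRing B] {f : A →+* B} (hf : Function.Surjective f) {y : List A} (hy : IsSop A y) :
    IsSop B (y.map f) := by
  have hm := map_maximalIdeal_of_surjective f hf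
  obtain ⟨h1, N, hN⟩ := isSop_iff_ann.mp hy
  rw [Module.annihilator_eq_bot.mpr inferInstance, bot_sup_eq] at hN
  refine HS.isSop_of_le (N := N) (fun a ha => ?_) ?_ B
  · obtain ⟨b, hb, rfl⟩ := List.mem_map.mp ha
    exact hm ▸ Ideal.mem_map_of_mem f (h1 b hb)
  · rw [← hm, ← Ideal.map_pow, ← Ideal.map_ofList]
    exact Ideal.map_mono hN

theorem residue_bijective {A B : Type*} [CommRing A] [IsLocalRing A] [CommRing B] [IsLocalRing B]
    (f : A →+* B) [IsLocalHom f] (hf : Function.Surjective f) :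
    Function.Bijective (ResidueField.map f) := by
  refine ⟨(ResidueField.map f).injective, fun z => ?_⟩
  obtain ⟨b, rfl⟩ := residue_surjective z
  obtain ⟨a, rfl⟩ := hf b
  exact ⟨residue A a, ResidueField.map_residue f a⟩

end FM

theorem finMix (p : ℕ) [Fact p.Prime] {R S : Type u} [CommRing R] [IsDomain R]
    [IsLocalRing R] [IsNoetherianRing R] [IsAdicComplete (maximalIdeal R) R]
    [Infinite (ResidueField R)] [CommRing S] [IsLocalRing S] [IsNoetherianRing S]
    [IsAdicComplete (maximalIdeal S) S] [IsAlgClosed (ResidueField S)]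
    (hp : (p : R) ∈ maximalIdeal R) (hp0 : (p : R) ≠ 0) {n : ℕ} {x : Fin (n + 1) → R}
    (hx : IsReduction x) (hd : ringKrullDim R = (n + 1 : ℕ)) (φ : R →+* S) [IsLocalHom φ]
    (hφ : φ.Flat) {y : Fin (n + 1) → S} (hy : IsSop S (List.ofFn y)) :
    mult R (List.ofFn x) ≤ mult S (List.ofFn y) := by
  classical
  obtain ⟨V, _, _, _, A, T₀, T, _, _, _, _, _, _, _, _, _, _, n', c₁, μ, x', ε, g, g₀, f, σ, w,
    hB, hε, hg₀, hg, hf, hσ, hσf, hw, hmax, hxl⟩ := exists_factorization p hp hp0 hx hd φ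
  have hσf' : ∀ r, σ (f r) = φ r := RingHom.congr_fun hσf
  have : IsLocalHom f := isLocalHom_of_map_le (hmax ▸ le_sup_left)
  obtain ⟨ι, _, _, deg, D, a₀, hD, hdeg, hmin, h0, hrow, -, hnull⟩ :
      ∃ (ι : Type) (_ : Fintype ι) (_ : DecidableEq ι) (deg : ι → ℤ)
        (D : Matrix ι ι T) (a₀ : ι), IsMC D deg ∧ (∀ a, 0 ≤ deg a ∧ deg a ≤ w.length) ∧
        (∀ a b, D a b ∈ maximalIdeal T) ∧ (∀ a, deg a = 0 ↔ a = a₀) ∧
        Ideal.span (Set.range (D a₀)) = RingHom.ker σ ∧ ExactPos D deg ∧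
        RingHom.ker σ ≤ nullIdeal D deg := by
    let _ := f.toAlgebra
    let _ := φ.toAlgebra
    have : Module.Flat R T := hf
    have : Module.Flat R S := hφ
    have : IsLocalHom (algebraMap R T) := ‹IsLocalHom f›
    let σₐ : T →ₐ[R] S := { σ with commutes' := hσf' }
    have : Module.Flat R (T ⧸ RingHom.ker σ) :=
      Module.Flat.of_linearEquiv
        (Ideal.quotientKerAlgEquivOfSurjective (f := σₐ) hσ).toLinearEquiv
    exact exists_resolution (R := R) (RingHom.ker σ) (RingHom.ker_ne_top σ) _ hw hmax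
  obtain ⟨yb, hyb⟩ : ∃ yb : Fin (n + 1) → T, σ ∘ yb = y :=
    ⟨fun i => Function.surjInv hσ (y i), funext fun i => Function.surjInv_eq hσ _⟩
  have hyl : (List.ofFn yb).map σ = List.ofFn y := by rw [List.map_ofFn, hyb]
  have hyb' : IsSop (T ⧸ RingHom.ker σ) (List.ofFn yb) := CoreC.isSop_quot_ker hσ (hyl ▸ hy)
  have hlen : n' = n + w.length := by simpa using congrArg List.length hxl
  have hreg : ∀ r : R, r ≠ 0 →
      ringKrullDim (T ⧸ (RingHom.ker σ ⊔ Ideal.span {f r})) < (n + 1 : ℕ) := fun r hr => by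
    rw [FM.dim_sup_eq hσ, hσf']
    refine dim_quot_lt_of_regular (by simpa using FM.dim_le hy) fun z hz => ?_
    let _ := φ.toAlgebra
    have : Module.Flat R S := hφ
    have h1 : IsSMulRegular R r := fun a b h => mul_left_cancel₀ hr h
    have h2 : IsSMulRegular S (algebraMap R S r) := h1.of_flat
    exact h2 (hz.trans (mul_zero _).symm)
  have hmain := hB.core hε hD (d := n + 1) (fun a => by
      have := hdeg a
      push_cast
      omega) h0 hmin hrow hnull hyb' (hg ▸ hreg g₀ hg₀) (map_natCast f p ▸ hreg p hp0)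
  rw [CoreC.mult_quot_ker hσ, hyl] at hmain
  obtain ⟨hw₁, hw₂⟩ := CoreC.one_le_mult hw hmax
  have hxb : IsSop (R ⧸ (⊥ : Ideal R)) (List.ofFn x) :=
    hx.isSop.of_surjective (Submodule.mkQ _) (Submodule.mkQ_surjective _)
  have h1 := (mult_quotient_map f hf ⊥ hxb hw₁).2
  rw [← hxl, ← multP_top_eq_mult, ← multP_top_eq_mult (List.ofFn x), Ideal.map_bot] at h1
  exact (le_of_le_of_eq (le_mul_of_one_le_right (mult_nonneg hx.isSop) hw₂) h1.symm).trans hmain

/-- The case of a prime quotient. -/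
theorem finMix_prime (p : ℕ) [Fact p.Prime] {R S : Type u} [CommRing R]
    [IsLocalRing R] [IsNoetherianRing R] [IsAdicComplete (maximalIdeal R) R]
    [Infinite (ResidueField R)] [CommRing S] [IsLocalRing S] [IsNoetherianRing S]
    [IsAdicComplete (maximalIdeal S) S] [IsAlgClosed (ResidueField S)]
    (hp : (p : R) ∈ maximalIdeal R) {n : ℕ} {x : Fin (n + 1) → R}
    (hx : IsReduction x) (φ : R →+* S) [IsLocalHom φ] (hφ : φ.Flat) {N : ℕ}
    (hN : maximalIdeal S ^ N ≤ (maximalIdeal R).map φ) {y : Fin (n + 1) → S}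
    (hy : IsSop S (List.ofFn y)) (P : Ideal R) [hP : P.IsPrime] :
    multP (List.ofFn x) ⊤ P ≤ multP (List.ofFn y) ⊤ (P.map φ) := by
  have hle : P.map φ ≤ maximalIdeal S :=
    (Ideal.map_mono (le_maximalIdeal hP.ne_top)).trans (map_max_le φ)
  have : Nontrivial (S ⧸ P.map φ) :=
    Ideal.Quotient.nontrivial_iff.2 (ne_top_of_le_ne_top (maximalIdeal.isMaximal _).ne_top hle)
  have hR : Function.Surjective (Ideal.Quotient.mk P) := Ideal.Quotient.mk_surjective
  have hS : Function.Surjective (Ideal.Quotient.mk (P.map φ)) := Ideal.Quotient.mk_surjective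
  have := IsLocalRing.of_surjective' _ hR
  have := IsLocalRing.of_surjective' _ hS
  have hmR := map_maximalIdeal_of_surjective _ hR
  have hmS := map_maximalIdeal_of_surjective _ hS
  have : IsLocalHom (Ideal.Quotient.mk P) := isLocalHom_of_map_le hmR.le
  have : IsLocalHom (Ideal.Quotient.mk (P.map φ)) := isLocalHom_of_map_le hmS.le
  have := isAdicComplete_of_surjective _ hR
  have := isAdicComplete_of_surjective _ hS
  have : Infinite (ResidueField (R ⧸ P)) :=
    Infinite.of_injective _ (FM.residue_bijective _ hR).1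
  have : IsAlgClosed (ResidueField (S ⧸ P.map φ)) :=
    IsAlgClosed.of_ringEquiv _ _ (RingEquiv.ofBijective _ (FM.residue_bijective _ hS))
  let φ' := Ideal.quotientMap (P.map φ) φ Ideal.le_comap_map
  have hc : φ'.comp (Ideal.Quotient.mk P) = (Ideal.Quotient.mk (P.map φ)).comp φ := rfl
  have hmm : (maximalIdeal (R ⧸ P)).map φ' =
      ((maximalIdeal R).map φ).map (Ideal.Quotient.mk (P.map φ)) := by
    rw [← hmR, Ideal.map_map, hc, Ideal.map_map]
  have : IsLocalHom φ' :=
    isLocalHom_of_map_le (by rw [hmm, ← hmS]; exact Ideal.map_mono (map_max_le φ))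
  have hφ' : φ'.Flat := cA_flat_quotientMap φ hφ P
  have hx' := FM.isReduction_map hR hx
  have hy' := FM.isSop_map hS hy
  have e1 := CoreC.multP_comap hR (List.ofFn x) ⊥
  have e2 := CoreC.multP_comap hS (List.ofFn y) ⊥
  rw [← RingHom.ker_eq_comap_bot, Ideal.mk_ker, List.map_ofFn] at e1 e2
  rw [List.map_ofFn] at hy'
  rw [← e1, ← e2]
  change mult (R ⧸ P) (List.ofFn fun j => Ideal.Quotient.mk P (x j)) ≤ mult (S ⧸ P.map φ) _
  have hdim := FM.dim_le hx'.isSop
  rcases hdim.lt_or_eq with hlt | heq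
  · rw [mult_eq_zero_of_dim_lt hx'.isSop ⊥ (fun r hr z => by rw [hr, zero_smul])
      (by rwa [ringKrullDim_eq_of_ringEquiv (RingEquiv.quotientBot _)])]
    exact mult_nonneg hy'
  · rw [List.length_ofFn] at heq
    by_cases h0 : (p : R ⧸ P) = 0
    · have : CharP (R ⧸ P) p := (CharP.charP_iff_prime_eq_zero Fact.out).2 h0
      obtain ⟨e, he⟩ := exists_tendsto_of_isReduction hx'
      have h1 := finLech_of_charP p (R ⧸ P) (S ⧸ P.map φ) φ' hφ' ⟨N, by
        rw [hmm, ← hmS, ← Ideal.map_pow]; exact Ideal.map_mono hN⟩ n _ hx' e he _ hy'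
      exact_mod_cast (mult_le_of_tendsto_gen hx' he).trans h1
    · exact finMix p (by rw [← hmR]; simpa using Ideal.mem_map_of_mem (Ideal.Quotient.mk P) hp)
        h0 hx' heq φ' hφ' hy'

theorem finLech_of_resCharP (p : ℕ) [Fact p.Prime] (R : Type u) [CommRing R] [IsLocalRing R]
    [IsNoetherianRing R] [IsAdicComplete (maximalIdeal R) R] [Infinite (ResidueField R)]
    (hp : (p : R) ∈ maximalIdeal R) : FinLech.{u, u} R := by
  intro S₀ _ _ _ _ φ₀ _ hφ₀ ⟨N, hN₀⟩ n x hx e he y₀ hy₀
  obtain ⟨S, _, _, _, j, hj, _, _⟩ := exists_unram_algClosed p S₀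
    (by simpa using map_max_le φ₀ (Ideal.mem_map_of_mem φ₀ hp))
  have := hj.isLocalHom
  obtain ⟨hy, hyy⟩ := hj.mult_eq hy₀
  rw [List.map_ofFn] at hy hyy
  have hφ : (j.comp φ₀).Flat := hφ₀.comp hj.flat
  have hN : maximalIdeal S ^ N ≤ (maximalIdeal R).map (j.comp φ₀) := by
    rw [← hj.map_max, ← Ideal.map_pow, ← Ideal.map_map]
    exact Ideal.map_mono hN₀
  have key : ∀ I : Ideal R, multP (List.ofFn x) ⊤ I ≤
      multP (List.ofFn (j ∘ y₀)) ⊤ (I.map (j.comp φ₀)) := fun I => by
    induction I using WellFoundedGT.induction with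
    | ind I ih =>
      by_cases hI : I = ⊤
      · rw [hI, Ideal.map_top, multP_self, multP_self]
      obtain ⟨g, hg, hP⟩ := afExists_colon hI
      have h1 := ih (I ⊔ Ideal.span {g}) (left_lt_sup.mpr fun h =>
        hg (h (Ideal.mem_span_singleton_self g)))
      have h2 := finMix_prime p hp hx (j.comp φ₀) hφ hN hy (I.colon {g})
      have h3 : (I.map (j.comp φ₀)).colon {j.comp φ₀ g} = (I.colon {g}).map (j.comp φ₀) := by
        let _ := (j.comp φ₀).toAlgebra
        have : Module.Flat R S := hφ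
        exact cA_colon_map I g
      rw [Ideal.map_sup, Ideal.map_span, Set.image_singleton] at h1
      rw [multP_add (le_sup_left : I ≤ I ⊔ Ideal.span {g}) le_top
          (IsSopP.mono hx.isSop le_rfl bot_le),
        multP_add (le_sup_left : _ ≤ I.map (j.comp φ₀) ⊔ Ideal.span {j.comp φ₀ g}) le_top
          (IsSopP.mono hy le_rfl bot_le), FM.multP_colon, FM.multP_colon, h3]
      exact add_le_add h1 h2
  have h1 := key ⊥
  rw [Ideal.map_bot] at h1
  rw [← hyy]
  exact (le_mult_of_tendsto hx he).trans (Int.cast_le.mpr h1)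

end Vale.Agent.P202
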