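import Vale.Agent.P202.Char0

/-! Universe lifting and the equal characteristic case of Lech's conjecture. -/

namespace Vale.Agent.P202

open IsLocalRing

universe u v w

theorem isUnram_equiv {A : Type u} {B : Type v} [CommRing A] [IsLocalRing A] [CommRing B]
    [IsLocalRing B] (e : A ≃+* B) : IsUnram (e : A →+* B) :=
  ⟨RingHom.Flat.of_bijective e.bijective, map_maximalIdeal_of_surjective _ e.surjective⟩

theorem exists_ulift {R : Type u} {S : Type v} [CommRing R] [IsLocalRing R] [IsNoetherianRing R]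
    [CommRing S] [IsLocalRing S] [IsNoetherianRing S] (φ : R →+* S) [IsLocalHom φ] (hφ : φ.Flat) :
    ∃ (R' S' : Type (max u v)) (_ : CommRing R') (_ : IsLocalRing R') (_ : IsNoetherianRing R')
      (_ : CommRing S') (_ : IsLocalRing S') (_ : IsNoetherianRing S') (i : R →+* R')
      (j : S →+* S') (φ' : R' →+* S'), IsUnram i ∧ IsUnram j ∧ IsLocalHom φ' ∧ φ'.Flat := by
  let e : R ≃+* ULift.{v} R := ULift.ringEquiv.symm
  let e' : S ≃+* ULift.{u} S := ULift.ringEquiv.symm
  have := e.isLocalRing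
  have := e'.isLocalRing
  have := isNoetherianRing_of_ringEquiv R e
  have := isNoetherianRing_of_ringEquiv S e'
  refine ⟨ULift.{v} R, ULift.{u} S, inferInstance, inferInstance, inferInstance, inferInstance,
    inferInstance, inferInstance, e, e', (e' : S →+* _).comp (φ.comp (e.symm : _ →+* R)),
    isUnram_equiv e, isUnram_equiv e', ?_, ?_⟩
  · have := (isUnram_equiv e.symm).isLocalHom
    have := (isUnram_equiv e').isLocalHom
    infer_instance
  · exact ((isUnram_equiv e.symm).flat.comp hφ).comp (isUnram_equiv e').flat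

theorem lech_eqChar {R : Type u} {S : Type v} [CommRing R] [IsLocalRing R] [IsNoetherianRing R]
    [CommRing S] [IsLocalRing S] [IsNoetherianRing S] (hR : EqChar R) (φ : R →+* S) [IsLocalHom φ]
    (hφ : φ.Flat) : ∃ eR eS : ℝ, IsMultiplicity R eR ∧ IsMultiplicity S eS ∧ eR ≤ eS := by
  obtain ⟨R', S', _, _, _, _, _, _, i, j, φ', hi, hj, _, hφ'⟩ := exists_ulift φ hφ
  have key : ∃ eR eS : ℝ, IsMultiplicity R' eR ∧ IsMultiplicity S' eS ∧ eR ≤ eS := by
    rcases (hR.map i).charP_or_rat with ⟨p, hp, _⟩ | ⟨⟨_⟩⟩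
    · have : Fact p.Prime := ⟨hp⟩
      exact lech_charP p φ' hφ'
    · exact lech_rat φ' hφ'
  obtain ⟨eR, eS, h1, h2, h3⟩ := key
  exact ⟨eR, eS, (hi.isMultiplicity_iff eR).2 h1, (hj.isMultiplicity_iff eS).2 h2, h3⟩

end Vale.Agent.P202
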