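import Vale.Agent.P202.LocMixAux

/-! Module H2: the localisation inequality in residue characteristic `p`. -/

namespace Vale.Agent.P202

open IsLocalRing RingTheory.Sequence

universe u

section
variable {p : ℕ} [Fact p.Prime] {V : Type u} [CommRing V] [IsDomain V] [IsDiscreteValuationRing V]

/-- The localisation of `V[[Y]]` at a prime containing `p` is regular and `p` is a regular
parameter. -/
theorem IsCohen.exists_params (hV : IsCohen p V) {D : ℕ} (𝔭 : Ideal (MvPowerSeries (Fin D) V))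
    [𝔭.IsPrime] (hp : (p : MvPowerSeries (Fin D) V) ∈ 𝔭) :
    ∃ (d : ℕ) (w : Fin (d + 1) → MvPowerSeries (Fin D) V), w 0 = p ∧ (∀ i, w i ∈ 𝔭) ∧
      Ideal.span (Set.range fun i => algebraMap _ (Localization.AtPrime 𝔭) (w i)) =
        maximalIdeal (Localization.AtPrime 𝔭) ∧
      IsWeaklyRegular (Localization.AtPrime 𝔭)
        (List.ofFn fun i => algebraMap _ (Localization.AtPrime 𝔭) (w i)) ∧
      (d : WithBot ℕ∞) + ringKrullDim (MvPowerSeries (Fin D) V ⧸ 𝔭) ≤ D :=
  LM.exists_params hV 𝔭 hp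

/-- (ORD) the order at a prime containing `p` is at most the valuation of the constant term. -/
theorem IsCohen.constantCoeff_mem (hV : IsCohen p V) {D : ℕ}
    (𝔭 : Ideal (MvPowerSeries (Fin D) V)) [𝔭.IsPrime] (hp : (p : MvPowerSeries (Fin D) V) ∈ 𝔭)
    (n : ℕ) (f : MvPowerSeries (Fin D) V)
    (hf : algebraMap _ (Localization.AtPrime 𝔭) f ∈ maximalIdeal (Localization.AtPrime 𝔭) ^ n) :
    MvPowerSeries.constantCoeff f ∈ Ideal.span {(p : V) ^ n} :=
  LM.constantCoeff_mem hV 𝔭 hp n f hf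

/-- Generic parameters: modulo them every member of a finite set has colength at most the
valuation of its constant term. -/
theorem IsCohen.exists_generic (hV : IsCohen p V) [Infinite (ResidueField V)] {D : ℕ}
    (𝔭 : Ideal (MvPowerSeries (Fin D) V)) [𝔭.IsPrime] (hp : (p : MvPowerSeries (Fin D) V) ∈ 𝔭)
    (s : Finset (MvPowerSeries (Fin D) V)) (hs : ∀ f ∈ s, f ≠ 0) :
    ∃ (d : ℕ) (y : Fin d → MvPowerSeries (Fin D) V), (∀ i, y i ∈ 𝔭) ∧
      (d : WithBot ℕ∞) + ringKrullDim (MvPowerSeries (Fin D) V ⧸ 𝔭) ≤ D ∧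
      ringKrullDim (Localization.AtPrime 𝔭) ≤ (d + 1 : ℕ) ∧
      ∀ f ∈ s, ∃ n : ℕ, MvPowerSeries.constantCoeff f ∈ Ideal.span {(p : V) ^ n} ∧
        maximalIdeal (Localization.AtPrime 𝔭) ^ n ≤
          (Ideal.span {f} ⊔ Ideal.span (Set.range y)).map (algebraMap _ (Localization.AtPrime 𝔭)) ∧
        Module.length (Localization.AtPrime 𝔭) (Localization.AtPrime 𝔭 ⧸
          (Ideal.span {f} ⊔ Ideal.span (Set.range y)).map
            (algebraMap _ (Localization.AtPrime 𝔭))) ≤ n :=
  LM.exists_generic hV 𝔭 hp s hs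
end

/-- (LOC) the localisation inequality in residue characteristic `p`. -/
theorem exists_mult_localization_le_mix (p : ℕ) [Fact p.Prime] {S : Type u} [CommRing S]
    [IsLocalRing S] [IsNoetherianRing S] [IsAdicComplete (maximalIdeal S) S]
    [Infinite (ResidueField S)] {D : ℕ} {y : Fin D → S} (hy : IsReduction y) (P : Ideal S)
    [P.IsPrime] (hp : (p : S) ∈ P) (d : ℕ) (hd : (D : WithBot ℕ∞) ≤ d + ringKrullDim (S ⧸ P)) :
    ∃ y' : Fin d → S,
      IsSop (Localization.AtPrime P)
        (List.ofFn fun i => algebraMap S (Localization.AtPrime P) (y' i)) ∧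
      mult (Localization.AtPrime P) (List.ofFn fun i => algebraMap S (Localization.AtPrime P) (y' i))
        ≤ mult S (List.ofFn y) :=
  LM.exists_mult_localization_le_mix p hy P hp d hd

end Vale.Agent.P202
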