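import Vale.Agent.P202.FinMix
import Vale.Agent.P202.LocMix
import Vale.Agent.P202.Lift

/-! Module G2: Lech's conjecture. -/

namespace Vale.Agent.P202

open IsLocalRing

universe u v

/-- Reduction to a finite fibre in residue characteristic `p`. -/
theorem lech_of_finLech_mix (p : ℕ) [Fact p.Prime] {R S : Type u} [CommRing R] [IsLocalRing R]
    [IsNoetherianRing R] [CommRing S] [IsLocalRing S] [IsNoetherianRing S]
    [IsAdicComplete (maximalIdeal S) S] [Infinite (ResidueField R)] [Infinite (ResidueField S)]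
    (hp : (p : R) ∈ maximalIdeal R) (hfin : FinLech.{u, u} R) (φ : R →+* S) [IsLocalHom φ]
    (hφ : φ.Flat) {eR eS : ℝ} (hR : IsMultiplicity R eR) (hS' : IsMultiplicity S eS) :
    eR ≤ eS := by
  obtain ⟨d, x, hd, hx⟩ := exists_isReduction (T := R)
  obtain ⟨D, y, hD, hy⟩ := exists_isReduction (T := S)
  obtain ⟨d', hd', hR⟩ := hR
  obtain ⟨D', hD', hS'⟩ := hS'
  obtain rfl : d = d' := by exact_mod_cast hd.symm.trans hd'
  obtain rfl : D = D' := by exact_mod_cast hD.symm.trans hD'
  obtain ⟨P, _, hP, hPd⟩ := exists_prime_fibre φ hd hD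
  have hpP : (p : S) ∈ P := hP.1.2 (by simpa using Ideal.mem_map_of_mem φ hp)
  obtain ⟨y', hy1, hy2⟩ := exists_mult_localization_le_mix p hy P hpP d hPd
  refine le_trans ?_ (le_trans (Int.cast_le.2 hy2) (mult_le_of_tendsto_gen hy hS'))
  let φP : R →+* Localization.AtPrime P := (algebraMap S (Localization.AtPrime P)).comp φ
  have hφP : φP.Flat := hφ.comp (RingHom.flat_algebraMap_iff.2 inferInstance)
  have hle : (maximalIdeal R).map φP ≤ maximalIdeal (Localization.AtPrime P) := by
    rw [← Ideal.map_map, ← Localization.AtPrime.map_eq_maximalIdeal]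
    exact Ideal.map_mono hP.1.2
  have hloc : IsLocalHom φP := isLocalHom_of_map_le hle
  cases d with
  | zero =>
    have h1 := tendsto_nhds_unique hR (tendsto_hsSeq_zero hd).2
    rw [List.ofFn_zero] at hy1 ⊢
    rw [mult_nil, h1]
    have h2 : Module.length (Localization.AtPrime P) (Localization.AtPrime P) ≠ ⊤ := by
      obtain ⟨-, N, hN⟩ := hy1
      refine length_ne_top_of_pow_smul (n := N) fun r hr z => ?_
      obtain ⟨a, ha, h⟩ := hN r hr
      rw [Ideal.ofList_nil, Ideal.mem_bot] at ha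
      simpa [ha] using h z Submodule.mem_top
    let _ := φP.toAlgebra
    have _ : Module.Flat R (Localization.AtPrime P) := hφP
    have _ : IsLocalHom (algebraMap R (Localization.AtPrime P)) := hloc
    have h3 := IsLocalRing.length_baseChange R (Localization.AtPrime P) R
    rw [(TensorProduct.AlgebraTensorModule.rid R (Localization.AtPrime P)
      (Localization.AtPrime P)).length_eq] at h3
    have : Nontrivial (Localization.AtPrime P ⧸
        (maximalIdeal R).map (algebraMap R (Localization.AtPrime P))) :=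
      Ideal.Quotient.nontrivial_iff.2 (ne_top_of_le_ne_top (maximalIdeal.isMaximal _).ne_top hle)
    have h4 : Module.length R R ≤
        Module.length (Localization.AtPrime P) (Localization.AtPrime P) := by
      rw [h3]
      exact le_mul_of_one_le_right zero_le (Order.one_le_iff_pos.2 Module.length_pos)
    exact_mod_cast ENat.toNat_le_toNat h4 h2
  | succ n =>
    have := isNoetherianRing_adicCompletion (Localization.AtPrime P)
    have hc := isUnram_completion (Localization.AtPrime P)
    obtain ⟨h1, h2⟩ := hc.mult_eq hy1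
    rw [List.map_ofFn] at h1 h2
    rw [← h2]
    refine hfin _ ((algebraMap (Localization.AtPrime P) _).comp φP) (hφP.comp hc.flat) ?_ n x hx
      eR hR _ h1
    have h3 := IsLocalization.AtPrime.radical_map_of_mem_minimalPrimes (Localization.AtPrime P) P
      ((maximalIdeal R).map φ) hP
    obtain ⟨N, hN⟩ := Ideal.exists_radical_pow_le_of_fg
      (((maximalIdeal R).map φ).map (algebraMap S (Localization.AtPrime P)))
      (Ideal.fg_of_isNoetherianRing _)
    rw [h3, Localization.AtPrime.map_eq_maximalIdeal, Ideal.map_map] at hN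
    refine ⟨N, ?_⟩
    rw [← hc.map_max, ← Ideal.map_pow, ← Ideal.map_map]
    exact Ideal.map_mono hN

theorem lech_resCharP (p : ℕ) [Fact p.Prime] {R S : Type u} [CommRing R] [IsLocalRing R]
    [IsNoetherianRing R] [CommRing S] [IsLocalRing S] [IsNoetherianRing S]
    (hp : (p : R) ∈ maximalIdeal R) (φ : R →+* S) [IsLocalHom φ] (hφ : φ.Flat) :
    ∃ eR eS : ℝ, IsMultiplicity R eR ∧ IsMultiplicity S eS ∧ eR ≤ eS := by
  obtain ⟨eR, hR⟩ := exists_isMultiplicity R
  obtain ⟨eS, hS⟩ := exists_isMultiplicity S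
  obtain ⟨R', _, _, _, S', _, _, _, i, j, φ', hi, hj, _, hφ', _, _, _, _⟩ :=
    exists_complete_infinite φ hφ
  have hp' : (p : R') ∈ maximalIdeal R' := by
    rw [← hi.map_max]
    simpa using Ideal.mem_map_of_mem i hp
  exact ⟨eR, eS, hR, hS, lech_of_finLech_mix p hp' (finLech_of_resCharP p R' hp') φ' hφ'
    ((hi.isMultiplicity_iff eR).1 hR) ((hj.isMultiplicity_iff eS).1 hS)⟩

theorem lech_same {R S : Type u} [CommRing R] [IsLocalRing R] [IsNoetherianRing R] [CommRing S]
    [IsLocalRing S] [IsNoetherianRing S] (φ : R →+* S) [IsLocalHom φ] (hφ : φ.Flat) :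
    ∃ eR eS : ℝ, IsMultiplicity R eR ∧ IsMultiplicity S eS ∧ eR ≤ eS := by
  by_cases h : ∃ p : ℕ, p.Prime ∧ (p : R) ∈ maximalIdeal R
  · obtain ⟨p, hp, hm⟩ := h
    have : Fact p.Prime := ⟨hp⟩
    exact lech_resCharP p hm φ hφ
  · refine lech_eqChar (fun p hp => Or.inr ?_) φ hφ
    by_contra hu
    exact h ⟨p, hp, hu⟩

theorem lech {R : Type u} {S : Type v} [CommRing R] [IsLocalRing R] [IsNoetherianRing R]
    [CommRing S] [IsLocalRing S] [IsNoetherianRing S] (φ : R →+* S) [IsLocalHom φ] (hφ : φ.Flat) :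
    ∃ eR eS : ℝ, IsMultiplicity R eR ∧ IsMultiplicity S eS ∧ eR ≤ eS := by
  obtain ⟨R', S', _, _, _, _, _, _, i, j, φ', hi, hj, _, hφ'⟩ := exists_ulift φ hφ
  obtain ⟨eR, eS, h1, h2, h3⟩ := lech_same φ' hφ'
  exact ⟨eR, eS, (hi.isMultiplicity_iff eR).2 h1, (hj.isMultiplicity_iff eS).2 h2, h3⟩

end Vale.Agent.P202
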