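import Mathlib

/-! Module M2d: elementary counting and analysis (no algebra). -/

namespace Vale.Agent.P202

open Filter Topology

variable {n : ℕ}

/-- The number of nonnegative coordinates. -/
def posCnt (c : Fin n → ℤ) : ℕ := (Finset.univ.filter fun l => 0 ≤ c l).card

/-- `∏ |c l + 1|`, the dimension of the only nonzero cohomology group of `O(c)` on `(P^1)^n`. -/
def box (c : Fin n → ℤ) : ℕ := ∏ l, (c l + 1).natAbs

/-- The dimension of the homology of `O(c)` in homological degree `i`. -/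
def boxAt (c : Fin n → ℤ) (i : ℤ) : ℕ := if i = posCnt c then box c else 0

/-- The exponents spanning the cohomology of `O(c)`. -/
noncomputable def boxSet (c : Fin n → ℤ) : Finset (Fin n → ℤ) :=
  Fintype.piFinset fun l => if 0 ≤ c l then Finset.Icc 0 (c l) else Finset.Ioo (c l) 0

/-- The exponents `a` such that `a + [0, δ]^n` lies in `boxSet c`
and `a` lies in `boxSet (c - δ)`. -/
noncomputable def innerSet (c : Fin n → ℤ) (δ : ℕ) : Finset (Fin n → ℤ) :=
  Fintype.piFinset fun l => if 0 ≤ c l then Finset.Icc 0 (c l - δ) else Finset.Ioo (c l) (-δ)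

theorem card_boxSet (c : Fin n → ℤ) : (boxSet c).card = box c := by
  unfold boxSet box
  rw [Fintype.card_piFinset]
  refine Finset.prod_congr rfl fun l _ => ?_
  split_ifs with h
  · rw [Int.card_Icc]; omega
  · rw [Int.card_Ioo]; omega

theorem sgn_mul_box (c : Fin n → ℤ) :
    (-1 : ℤ) ^ posCnt c * (box c : ℤ) = (-1) ^ n * ∏ l, (c l + 1) := by
  have h1 : (-1 : ℤ) ^ posCnt c = ∏ l, (if 0 ≤ c l then (-1 : ℤ) else 1) := by
    rw [Finset.prod_ite, Finset.prod_const, Finset.prod_const_one, mul_one]; rfl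
  have h2 : (-1 : ℤ) ^ n = ∏ _l : Fin n, (-1 : ℤ) := by simp
  rw [h1, h2, box, Nat.cast_prod, ← Finset.prod_mul_distrib, ← Finset.prod_mul_distrib]
  refine Finset.prod_congr rfl fun l _ => ?_
  split_ifs with h <;> omega

/-- Perturbation of a product. -/
theorem mul_abs_prod_sub_prod_le {R : Type*} [CommRing R] [LinearOrder R] [IsStrictOrderedRing R]
    {ι : Type*} (s : Finset ι) (x y : ι → R) (B D : R) (hB : 0 ≤ B) (hD : 0 ≤ D)
    (hx : ∀ i ∈ s, |x i| ≤ B) (hy : ∀ i ∈ s, |y i| ≤ B) (hxy : ∀ i ∈ s, |x i - y i| ≤ D) :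
    B * |∏ i ∈ s, x i - ∏ i ∈ s, y i| ≤ s.card * D * B ^ s.card := by
  classical
  induction s using Finset.induction_on with
  | empty => simp
  | insert a s ha ih =>
    rw [Finset.prod_insert ha, Finset.prod_insert ha, Finset.card_insert_of_notMem ha]
    have ih' := ih (fun i hi => hx i (Finset.mem_insert_of_mem hi))
      (fun i hi => hy i (Finset.mem_insert_of_mem hi))
      (fun i hi => hxy i (Finset.mem_insert_of_mem hi))
    have hY : |∏ i ∈ s, y i| ≤ B ^ s.card := by
      rw [Finset.abs_prod, ← Finset.prod_const]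
      exact Finset.prod_le_prod (fun i _ => abs_nonneg _)
        (fun i hi => hy i (Finset.mem_insert_of_mem hi))
    have hxa := hx a (Finset.mem_insert_self a s)
    have hxya := hxy a (Finset.mem_insert_self a s)
    have e : x a * ∏ i ∈ s, x i - y a * ∏ i ∈ s, y i =
        x a * (∏ i ∈ s, x i - ∏ i ∈ s, y i) + (x a - y a) * ∏ i ∈ s, y i := by ring
    have h1 : |x a * ∏ i ∈ s, x i - y a * ∏ i ∈ s, y i| ≤
        B * |∏ i ∈ s, x i - ∏ i ∈ s, y i| + D * B ^ s.card := by
      rw [e]
      refine (abs_add_le _ _).trans (add_le_add ?_ ?_)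
      · rw [abs_mul]; exact mul_le_mul_of_nonneg_right hxa (abs_nonneg _)
      · rw [abs_mul]; exact mul_le_mul hxya hY (abs_nonneg _) hD
    calc B * |x a * ∏ i ∈ s, x i - y a * ∏ i ∈ s, y i|
        ≤ B * (s.card * D * B ^ s.card + D * B ^ s.card) :=
          mul_le_mul_of_nonneg_left (h1.trans (add_le_add ih' le_rfl)) hB
      _ = ((s.card + 1 : ℕ) : R) * D * B ^ (s.card + 1) := by push_cast; ring

/-- The integer form used below. -/
theorem mul_abs_prod_sub_le_int (x y : Fin n → ℤ) (R D : ℕ)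
    (hR : ∀ _l : Fin n, 1 ≤ R) (hx : ∀ l, |x l| ≤ R + D) (hy : ∀ l, |y l| ≤ R + D)
    (hxy : ∀ l, |x l - y l| ≤ D) :
    (R : ℤ) * |∏ l, x l - ∏ l, y l| ≤ ((n * D * (1 + D) ^ n : ℕ) : ℤ) * (R : ℤ) ^ n := by
  have hB : ∀ _l : Fin n, (R : ℤ) + D ≤ (1 + D) * R := by
    intro l
    have h1 : (1 : ℤ) ≤ R := by exact_mod_cast hR l
    have h2 : (0 : ℤ) ≤ D := Int.natCast_nonneg D
    nlinarith
  have h := mul_abs_prod_sub_prod_le Finset.univ x y ((1 + D) * R) D (by positivity)
    (by positivity) (fun l _ => (hx l).trans (hB l)) (fun l _ => (hy l).trans (hB l))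
    (fun l _ => hxy l)
  rw [Finset.card_univ, Fintype.card_fin] at h
  calc (R : ℤ) * |∏ l, x l - ∏ l, y l| ≤ ((1 + D) * R) * |∏ l, x l - ∏ l, y l| := by
        refine mul_le_mul_of_nonneg_right ?_ (abs_nonneg _)
        have h2 : (0 : ℤ) ≤ D * R := by positivity
        linarith
    _ ≤ _ := h
    _ = _ := by push_cast; rw [mul_pow]; ring

theorem mul_prod_le_nat (x y : Fin n → ℕ) (R D : ℕ)
    (hR : ∀ _l : Fin n, 1 ≤ R) (hx : ∀ l, x l ≤ R + D) (hy : ∀ l, y l ≤ R + D)
    (hxy : ∀ l, x l ≤ y l + D) (hyx : ∀ l, y l ≤ x l + D) :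
    R * ∏ l, x l ≤ R * ∏ l, y l + (n * D * (1 + D) ^ n) * R ^ n := by
  have h := mul_abs_prod_sub_le_int (fun l => (x l : ℤ)) (fun l => (y l : ℤ)) R D hR
    (fun l => by have := hx l; rw [abs_le]; constructor <;> omega)
    (fun l => by have := hy l; rw [abs_le]; constructor <;> omega)
    (fun l => by have := hxy l; have := hyx l; rw [abs_le]; constructor <;> omega)
  have h2 : (R : ℤ) * (∏ l, (x l : ℤ) - ∏ l, (y l : ℤ)) ≤
      (R : ℤ) * |∏ l, (x l : ℤ) - ∏ l, (y l : ℤ)| :=
    mul_le_mul_of_nonneg_left (le_abs_self _) (Int.natCast_nonneg R)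
  have h3 : (R : ℤ) * ∏ l, (x l : ℤ) ≤
      (R : ℤ) * ∏ l, (y l : ℤ) + ((n * D * (1 + D) ^ n : ℕ) : ℤ) * (R : ℤ) ^ n := by linarith
  exact_mod_cast h3

theorem card_innerSet (c : Fin n → ℤ) (δ : ℕ) : (innerSet c δ).card =
    ∏ l, (if 0 ≤ c l then (c l - δ + 1).toNat else (-δ - c l - 1).toNat) := by
  unfold innerSet
  rw [Fintype.card_piFinset]
  refine Finset.prod_congr rfl fun l _ => ?_
  split_ifs with h
  · rw [Int.card_Icc]; simp
  · rw [Int.card_Ioo]

/-- The three error terms of the torsion estimate. -/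
theorem exists_box_sub_inner_le (n δ : ℕ) : ∃ K : ℕ, ∀ (c : Fin n → ℤ) (R : ℕ),
    (∀ l, (c l).natAbs + 1 ≤ R) →
    R * box c ≤ R * (innerSet c δ).card + K * R ^ n ∧
    R * box (fun l => c l - δ) ≤ R * (innerSet c δ).card + K * R ^ n := by
  refine ⟨n * (2 * δ) * (1 + 2 * δ) ^ n, fun c R hR => ⟨?_, ?_⟩⟩
  · rw [card_innerSet, box]
    refine mul_prod_le_nat _ _ R (2 * δ) (fun l => by have := hR l; omega) (fun l => ?_)
      (fun l => ?_) (fun l => ?_) (fun l => ?_) <;> have := hR l
    · omega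
    all_goals split_ifs <;> omega
  · rw [card_innerSet, box]
    refine mul_prod_le_nat _ _ R (2 * δ) (fun l => by have := hR l; omega) (fun l => ?_)
      (fun l => ?_) (fun l => ?_) (fun l => ?_) <;> have := hR l
    · omega
    all_goals split_ifs <;> omega

theorem exists_sign_ne_of_posCnt_ne {c c' : Fin n → ℤ} (h : posCnt c ≠ posCnt c') :
    ∃ l, ¬ (0 ≤ c l ↔ 0 ≤ c' l) := by
  by_contra hc
  apply h
  unfold posCnt
  congr 1
  refine Finset.filter_congr fun l _ => ?_
  by_contra hl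
  exact hc ⟨l, hl⟩

theorem innerSet_eq_empty {c : Fin n → ℤ} {δ : ℕ}
    (h : posCnt c ≠ posCnt (fun l => c l - δ)) : innerSet c δ = ∅ := by
  obtain ⟨l, hl⟩ := exists_sign_ne_of_posCnt_ne h
  unfold innerSet
  refine Fintype.piFinset_eq_empty.mpr ⟨l, ?_⟩
  have h0 : 0 ≤ c l := by omega
  rw [if_pos h0]
  exact Finset.Icc_eq_empty (by omega)

theorem exists_boxAt_shift_le (n : ℕ) (a : ℤ) : ∃ K : ℕ, ∀ (c : Fin n → ℤ) (R : ℕ) (i : ℤ),
    (∀ l, (c l).natAbs + 1 ≤ R) → R * boxAt (fun l => c l - a) i ≤ R * boxAt c i + K * R ^ n := by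
  refine ⟨n * (a.natAbs + 1) * (1 + (a.natAbs + 1)) ^ n, fun c R i hR => ?_⟩
  unfold boxAt
  by_cases h1 : i = posCnt (fun l => c l - a)
  · rw [if_pos h1]
    by_cases h2 : i = posCnt c
    · rw [if_pos h2, box, box]
      refine mul_prod_le_nat _ _ R _ (fun l => by have := hR l; omega) (fun l => ?_)
        (fun l => ?_) (fun l => ?_) (fun l => ?_) <;> have := hR l <;> omega
    · rw [if_neg h2]
      have h3 : posCnt (fun l => c l - a) ≠ posCnt c := by
        intro h; apply h2; rw [h1, h]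
      obtain ⟨l0, hl0⟩ := exists_sign_ne_of_posCnt_ne h3
      have h := mul_prod_le_nat (fun l => (c l - a + 1).natAbs)
        (fun l => if l = l0 then 0 else (c l - a + 1).natAbs) R (a.natAbs + 1)
        (fun l => by have := hR l; omega) (fun l => by have := hR l; omega)
        (fun l => by have := hR l; split_ifs <;> omega)
        (fun l => by
          split_ifs with h
          · subst h; omega
          · omega)
        (fun l => by split_ifs <;> omega)
      have h0 : ∏ l, (if l = l0 then 0 else (c l - a + 1).natAbs) = 0 :=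
        Finset.prod_eq_zero (Finset.mem_univ l0) (by simp)
      rw [h0] at h
      exact h
  · rw [if_neg h1]; omega

theorem exists_prod_shift_le (n : ℕ) (a : ℤ) : ∃ K : ℕ, ∀ (c : Fin n → ℤ) (R : ℕ),
    (∀ l, (c l).natAbs + 1 ≤ R) →
    (R : ℤ) * |∏ l, (c l - a + 1) - ∏ l, (c l + 1)| ≤ K * (R : ℤ) ^ n := by
  refine ⟨n * a.natAbs * (1 + a.natAbs) ^ n, fun c R hR => ?_⟩
  refine mul_abs_prod_sub_le_int _ _ R a.natAbs (fun l => by have := hR l; omega) (fun l => ?_)
    (fun l => ?_) (fun l => ?_) <;> have := hR l <;> rw [abs_le] <;> constructor <;> omega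

theorem affine_eq_const (h : ℤ → ℤ) (haff : ∀ t, h (t + 2) - h (t + 1) = h (t + 1) - h t)
    {t1 t2 v : ℤ} (hne : t1 ≠ t2) (h1 : h t1 = v) (h2 : h t2 = v) (t : ℤ) : h t = v := by
  have hstep : ∀ t, h (t + 1) - h t = h 1 - h 0 := by
    intro t
    induction t using Int.induction_on with
    | zero => simp
    | succ k ih => have := haff k; rw [add_assoc, one_add_one_eq_two]; omega
    | pred k ih =>
      have := haff (-(k : ℤ) - 1)
      rw [show -(k : ℤ) - 1 + 2 = -k + 1 by ring, show -(k : ℤ) - 1 + 1 = -k by ring] at this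
      rw [show -(k : ℤ) - 1 + 1 = -k by ring]
      omega
  have hlin : ∀ t, h t = h 0 + t * (h 1 - h 0) := by
    intro t
    induction t using Int.induction_on with
    | zero => simp
    | succ k ih => have := hstep k; rw [add_mul]; omega
    | pred k ih =>
      have := hstep (-(k : ℤ) - 1)
      rw [show -(k : ℤ) - 1 + 1 = -k by ring] at this
      rw [sub_mul]; omega
  have hs : (t1 - t2) * (h 1 - h 0) = 0 := by
    have a1 := hlin t1
    have a2 := hlin t2
    rw [sub_mul]; omega
  have hs0 : h 1 - h 0 = 0 := by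
    rcases mul_eq_zero.mp hs with h0 | h0
    · exact absurd (sub_eq_zero.mp h0) hne
    · exact h0
  have a1 := hlin t1
  have a2 := hlin t
  rw [hs0, mul_zero] at a1 a2
  omega

theorem eq_const_of_multiAffine' : ∀ (n : ℕ) (f : (Fin n → ℤ) → ℤ) (v : ℤ)
    (_haff : ∀ (c : Fin n → ℤ) (l : Fin n), f (c + Pi.single l 2) - f (c + Pi.single l 1) =
      f (c + Pi.single l 1) - f c)
    (_hval : ∀ (g : Fin n → ℤ) (s : ℤ), Function.Injective g → (∀ l, s ≤ g l ∧ g l < s + n) →
      f g = v) (c : Fin n → ℤ), f c = v := by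
  intro n
  induction n with
  | zero =>
    intro f v _ hval c
    exact hval c 0 (fun a => a.elim0) (fun l => l.elim0)
  | succ n ih =>
    intro f v haff hval c
    have e0 : ∀ (t k : ℤ) (g : Fin n → ℤ), (Fin.cons t g : Fin (n + 1) → ℤ) + Pi.single 0 k =
        Fin.cons (t + k) g := by
      intro t k g
      funext l
      refine Fin.cases ?_ (fun l => ?_) l <;> simp
    have e1 : ∀ (t k : ℤ) (g : Fin n → ℤ) (l : Fin n),
        (Fin.cons t g : Fin (n + 1) → ℤ) + Pi.single l.succ k =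
        Fin.cons t (g + Pi.single l k) := by
      intro t k g l
      funext j
      refine Fin.cases ?_ (fun j => ?_) j
      · simp
      · simp [Pi.single_apply]
    rw [← Fin.cons_self_tail c]
    refine ih (fun g => f (Fin.cons (c 0) g)) v (fun g l => ?_) (fun g s hg hs => ?_) _
    · have := haff (Fin.cons (c 0) g) l.succ
      rw [e1, e1] at this
      exact this
    · refine affine_eq_const (fun t => f (Fin.cons t g)) (fun t => ?_) (t1 := s - 1) (t2 := s + n)
        (by omega) ?_ ?_ _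
      · have := haff (Fin.cons t g) 0
        rw [e0, e0] at this
        exact this
      · refine hval _ (s - 1) (Fin.cons_injective_iff.mpr ⟨?_, hg⟩) (fun l => ?_)
        · rintro ⟨l, hl⟩; have := hs l; omega
        · refine Fin.cases ?_ (fun l => ?_) l
          · simp only [Fin.cons_zero]; push_cast; omega
          · have := hs l
            simp only [Fin.cons_succ]; push_cast; omega
      · refine hval _ s (Fin.cons_injective_iff.mpr ⟨?_, hg⟩) (fun l => ?_)
        · rintro ⟨l, hl⟩; have := hs l; omega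
        · refine Fin.cases ?_ (fun l => ?_) l
          · simp only [Fin.cons_zero]; push_cast; omega
          · have := hs l
            simp only [Fin.cons_succ]; push_cast; omega

/-- A function on `ℤ^n` that is affine in each coordinate and takes the value `v` at all
arrangements of `n` consecutive integers is constant. -/
theorem eq_const_of_multiAffine (f : (Fin n → ℤ) → ℤ) (v : ℤ)
    (haff : ∀ (c : Fin n → ℤ) (l : Fin n), f (c + Pi.single l 2) - f (c + Pi.single l 1) =
      f (c + Pi.single l 1) - f c)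
    (hval : ∀ (σ : Equiv.Perm (Fin n)) (s : ℤ), f (fun l => ((σ l : ℕ) : ℤ) + s) = v)
    (c : Fin n → ℤ) : f c = v := by
  refine eq_const_of_multiAffine' n f v haff (fun g s hg hs => ?_) c
  let σ0 : Fin n → Fin n := fun l => ⟨(g l - s).toNat, by have := hs l; omega⟩
  have hinj : Function.Injective σ0 := by
    intro a b hab
    have h1 : (g a - s).toNat = (g b - s).toNat := congrArg Fin.val hab
    have := hs a
    have := hs b
    exact hg (by omega)
  have h := hval (Equiv.ofBijective σ0 (Finite.injective_iff_bijective.mp hinj)) s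
  have e : (fun l => (((Equiv.ofBijective σ0 (Finite.injective_iff_bijective.mp hinj)) l : ℕ) : ℤ)
      + s) = g := by
    funext l
    have := hs l
    show (((g l - s).toNat : ℕ) : ℤ) + s = g l
    omega
  rw [e] at h
  exact h

open Polynomial in
/-- The critical points of `∏_{j=1}^{n+1} (t - j)`. -/
theorem exists_crit (n : ℕ) : ∃ γ : Fin n → ℝ,
    (∀ l : Fin n, ((l : ℕ) : ℝ) + 1 < γ l ∧ γ l < ((l : ℕ) : ℝ) + 2) ∧
    ∃ F : ℝ → ℝ, (∀ t, HasDerivAt F (∏ l, (γ l - t)) t) ∧ F 0 = -(n.factorial : ℝ) ∧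
      ∀ a : ℕ, 1 ≤ a → a ≤ n + 1 → F a = 0 := by
  obtain ⟨P, hP⟩ : ∃ P : ℝ[X], P = ∏ j ∈ Finset.range (n + 1), (X - C ((j : ℝ) + 1)) := ⟨_, rfl⟩
  have hroot : ∀ a : ℕ, 1 ≤ a → a ≤ n + 1 → P.eval (a : ℝ) = 0 := by
    intro a h1 h2
    rw [hP, eval_prod]
    refine Finset.prod_eq_zero (i := a - 1) (Finset.mem_range.mpr (by omega)) ?_
    rw [Nat.cast_sub h1]; simp
  have hmon : P.Monic := by
    rw [hP]; exact monic_prod_of_monic _ _ fun j _ => monic_X_sub_C _
  have hdeg : P.natDegree = n + 1 := by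
    rw [hP, natDegree_prod_of_monic _ _ fun j _ => monic_X_sub_C _]
    simp only [natDegree_X_sub_C]
    simp
  have hex : ∀ l : Fin n, ∃ g : ℝ, ((l : ℕ) : ℝ) + 1 < g ∧ g < ((l : ℕ) : ℝ) + 2 ∧
      (derivative P).eval g = 0 := by
    intro l
    have h1 := hroot (l + 1) (by omega) (by omega)
    have h2 := hroot (l + 2) (by omega) (by have := l.2; omega)
    push_cast at h1 h2
    obtain ⟨g, hg, hg0⟩ := exists_hasDerivAt_eq_zero (f := fun t => P.eval t)
      (f' := fun t => (derivative P).eval t) (a := ((l : ℕ) : ℝ) + 1) (b := ((l : ℕ) : ℝ) + 2)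
      (by linarith) P.continuous.continuousOn (by rw [h1, h2]) (fun t _ => P.hasDerivAt t)
    exact ⟨g, hg.1, hg.2, hg0⟩
  choose γ hγ1 hγ2 hγ0 using hex
  have hinj : Function.Injective γ := by
    intro a b hab
    have a1 := hγ1 a
    have a2 := hγ2 a
    have b1 := hγ1 b
    have b2 := hγ2 b
    have c1 : ((a : ℕ) : ℝ) < ((b : ℕ) : ℝ) + 1 := by linarith
    have c2 : ((b : ℕ) : ℝ) < ((a : ℕ) : ℝ) + 1 := by linarith
    have d1 : (a : ℕ) < (b : ℕ) + 1 := by exact_mod_cast c1
    have d2 : (b : ℕ) < (a : ℕ) + 1 := by exact_mod_cast c2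
    exact Fin.ext (by omega)
  obtain ⟨Q, hQ⟩ : ∃ Q : ℝ[X], Q = ∏ l : Fin n, (X - C (γ l)) := ⟨_, rfl⟩
  have hQmon : Q.Monic := by
    rw [hQ]; exact monic_prod_of_monic _ _ fun j _ => monic_X_sub_C _
  have hQdeg : Q.natDegree = n := by
    rw [hQ, natDegree_prod_of_monic _ _ fun j _ => monic_X_sub_C _]
    simp only [natDegree_X_sub_C]
    simp
  have hzero : derivative P - C ((n : ℝ) + 1) * Q = 0 := by
    refine eq_zero_of_degree_lt_of_eval_index_eq_zero (Finset.univ : Finset (Fin n)) (v := γ)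
      hinj.injOn ?_ (fun l _ => ?_)
    · rw [Finset.card_univ, Fintype.card_fin, degree_lt_iff_coeff_zero]
      intro m hm
      rw [coeff_sub, coeff_derivative, coeff_C_mul]
      rcases Nat.eq_or_lt_of_le hm with h | h
      · subst h
        have a1 : P.coeff (n + 1) = 1 := by rw [← hdeg]; exact hmon
        have a2 : Q.coeff n = 1 := by
          have := hQmon.coeff_natDegree
          rwa [hQdeg] at this
        rw [a1, a2]; ring
      · rw [coeff_eq_zero_of_natDegree_lt (by omega : P.natDegree < m + 1),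
          coeff_eq_zero_of_natDegree_lt (by omega : Q.natDegree < m)]
        ring
    · rw [eval_sub, hγ0, eval_mul, hQ, eval_prod,
        Finset.prod_eq_zero (Finset.mem_univ l) (by simp)]
      simp
  have hder : ∀ t, (derivative P).eval t = ((n : ℝ) + 1) * ∏ l, (t - γ l) := by
    intro t
    rw [sub_eq_zero.mp hzero, eval_mul, hQ, eval_prod]
    simp
  have hn : (n : ℝ) + 1 ≠ 0 := by positivity
  refine ⟨γ, fun l => ⟨hγ1 l, hγ2 l⟩, fun t => (-1) ^ n / ((n : ℝ) + 1) * P.eval t, fun t => ?_,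
    ?_, fun a h1 h2 => ?_⟩
  · have h := (P.hasDerivAt t).const_mul ((-1) ^ n / ((n : ℝ) + 1))
    have e : (-1) ^ n / ((n : ℝ) + 1) * (derivative P).eval t = ∏ l, (γ l - t) := by
      rw [hder]
      have e2 : ∏ l, (γ l - t) = (-1) ^ n * ∏ l, (t - γ l) := by
        rw [show (-1 : ℝ) ^ n = ∏ _l : Fin n, (-1 : ℝ) by simp, ← Finset.prod_mul_distrib]
        exact Finset.prod_congr rfl fun l _ => by ring
      rw [e2]; field_simp
    rw [e] at h
    exact h
  · have e : P.eval 0 = (-1) ^ (n + 1) * ((n + 1).factorial : ℝ) := by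
      rw [hP, eval_prod, ← Finset.prod_range_add_one_eq_factorial]
      rw [show (-1 : ℝ) ^ (n + 1) = ∏ _j ∈ Finset.range (n + 1), (-1 : ℝ) by simp]
      push_cast
      rw [← Finset.prod_mul_distrib]
      exact Finset.prod_congr rfl fun j _ => by simp
    show (-1) ^ n / ((n : ℝ) + 1) * P.eval 0 = _
    rw [e, Nat.factorial_succ]
    push_cast
    have e2 : (-1 : ℝ) ^ n * (-1) ^ n = 1 := by rw [← mul_pow]; simp
    field_simp
    rw [pow_succ]
    linear_combination (-1 : ℝ) * e2
  · show (-1) ^ n / ((n : ℝ) + 1) * P.eval (a : ℝ) = 0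
    rw [hroot a h1 h2, mul_zero]

/-- The twists given by the critical points of `∏_{j=1}^{n+1} (j - t)`. -/
theorem exists_twists (n : ℕ) : ∃ c : ℕ → Fin n → ℤ,
    (∀ (q : ℕ) (l : Fin n), (((l : ℕ) : ℤ) + 1) * q ≤ c q l ∧ c q l ≤ (((l : ℕ) : ℤ) + 2) * q) ∧
    ∀ a : ℕ, 1 ≤ a → a ≤ n + 1 →
      Tendsto (fun q : ℕ => ((∑ s ∈ Finset.range (a * q), ∏ l, (c q l - s) : ℤ) : ℝ) /
        (q : ℝ) ^ (n + 1)) atTop (𝓝 (n.factorial : ℝ)) := by
  obtain ⟨γ, hγ, F, hF, hF0, hFa⟩ := exists_crit n
  refine ⟨fun q l => ⌊γ l * q⌋, fun q l => ⟨?_, ?_⟩, fun a ha1 ha2 => ?_⟩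
  · rw [Int.le_floor]
    push_cast
    exact mul_le_mul_of_nonneg_right (hγ l).1.le (Nat.cast_nonneg q)
  · have h1 : (⌊γ l * q⌋ : ℝ) ≤ (((l : ℕ) : ℝ) + 2) * q :=
      (Int.floor_le _).trans (mul_le_mul_of_nonneg_right (hγ l).2.le (Nat.cast_nonneg q))
    exact_mod_cast h1
  · obtain ⟨B, hB⟩ : ∃ B : ℝ, B = 2 * n + 4 := ⟨_, rfl⟩
    have hB1 : 1 ≤ B := by rw [hB]; have : (0 : ℝ) ≤ n := Nat.cast_nonneg n; linarith
    have hmain : ∀ q : ℕ, 1 ≤ q →
        |((∑ s ∈ Finset.range (a * q), ∏ l, (⌊γ l * q⌋ - s) : ℤ) : ℝ) / (q : ℝ) ^ (n + 1)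
          - n.factorial| ≤ (a * (n * 2 * B ^ n)) / q := by
      intro q hq
      have hq1 : (1 : ℝ) ≤ q := by exact_mod_cast hq
      have hq0 : (0 : ℝ) < q := by linarith
      have htel : ∑ s ∈ Finset.range (a * q), (F (((s + 1 : ℕ) : ℝ) / q) - F ((s : ℝ) / q)) =
          n.factorial := by
        rw [Finset.sum_range_sub (fun s : ℕ => F ((s : ℝ) / q))]
        have e1 : ((a * q : ℕ) : ℝ) / q = a := by push_cast; field_simp
        rw [e1, hFa a ha1 ha2]
        simp [hF0]
      have hterm : ∀ s ∈ Finset.range (a * q),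
          |(∏ l, ((⌊γ l * q⌋ : ℝ) - s)) / (q : ℝ) ^ (n + 1)
            - (F (((s + 1 : ℕ) : ℝ) / q) - F ((s : ℝ) / q))| ≤ (n * 2 * B ^ n) / q / q := by
        intro s hs
        have hs1 : s + 1 ≤ (n + 1) * q := by
          have := Finset.mem_range.mp hs
          have h2 : a * q ≤ (n + 1) * q := Nat.mul_le_mul_right q ha2
          omega
        have hs2 : (s : ℝ) + 1 ≤ (n + 1) * q := by exact_mod_cast hs1
        have hs0 : (0 : ℝ) ≤ s := Nat.cast_nonneg s
        have hlt : (s : ℝ) / q < ((s + 1 : ℕ) : ℝ) / q := by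
          push_cast; exact div_lt_div_of_pos_right (by linarith) hq0
        obtain ⟨ξ, hξ, hξe⟩ := exists_hasDerivAt_eq_slope F (fun t => ∏ l, (γ l - t)) hlt
          (fun t _ => (hF t).continuousAt.continuousWithinAt) (fun t _ => hF t)
        have e1 : ((s + 1 : ℕ) : ℝ) / q - (s : ℝ) / q = 1 / q := by push_cast; ring
        have e2 : F (((s + 1 : ℕ) : ℝ) / q) - F ((s : ℝ) / q) = (∏ l, (γ l - ξ)) / q := by
          rw [hξe, e1]; field_simp
        have e3 : (∏ l, ((⌊γ l * q⌋ : ℝ) - s)) / (q : ℝ) ^ (n + 1) =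
            (∏ l, (((⌊γ l * q⌋ : ℝ) - s) / q)) / q := by
          rw [Finset.prod_div_distrib, Finset.prod_const, Finset.card_univ, Fintype.card_fin,
            pow_succ, div_div]
        rw [e2, e3, ← sub_div, abs_div, abs_of_pos hq0]
        refine div_le_div_of_nonneg_right ?_ hq0.le
        have hξ1 : (s : ℝ) < ξ * q := by
          have := hξ.1; rwa [div_lt_iff₀ hq0] at this
        have hξ2 : ξ * q < (s : ℝ) + 1 := by
          have := hξ.2; push_cast at this; rwa [lt_div_iff₀ hq0] at this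
        have hξ0 : 0 ≤ ξ := ((div_nonneg hs0 hq0.le).trans hξ.1.le)
        have hξn : ξ ≤ n + 1 := by
          have : ξ * q ≤ (n + 1) * q := by linarith
          exact le_of_mul_le_mul_right this hq0
        have hγb : ∀ l : Fin n, 0 ≤ γ l ∧ γ l ≤ n + 1 := by
          intro l
          have h1 := (hγ l).1
          have h2 := (hγ l).2
          have h3 : ((l : ℕ) : ℝ) + 1 ≤ n := by exact_mod_cast l.2
          have h4 : (0 : ℝ) ≤ (l : ℕ) := Nat.cast_nonneg _
          constructor <;> linarith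
        have hdiff : ∀ l : Fin n, |((⌊γ l * q⌋ : ℝ) - s) / q - (γ l - ξ)| ≤ 2 / q := by
          intro l
          have f1 := Int.floor_le (γ l * q)
          have f2 := Int.lt_floor_add_one (γ l * q)
          have e4 : ((⌊γ l * q⌋ : ℝ) - s) / q - (γ l - ξ) =
              ((⌊γ l * q⌋ : ℝ) - s - (γ l * q - ξ * q)) / q := by field_simp
          rw [e4, abs_div, abs_of_pos hq0]
          refine div_le_div_of_nonneg_right ?_ hq0.le
          rw [abs_le]; constructor <;> linarith
        have hy : ∀ l : Fin n, |γ l - ξ| ≤ n + 1 := by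
          intro l
          have := hγb l
          rw [abs_le]; constructor <;> linarith
        have h2q : 2 / (q : ℝ) ≤ 2 := by rw [div_le_iff₀ hq0]; linarith
        have hn0 : (0 : ℝ) ≤ n := Nat.cast_nonneg n
        have hpert := mul_abs_prod_sub_prod_le Finset.univ
          (fun l => ((⌊γ l * q⌋ : ℝ) - s) / q) (fun l => γ l - ξ) B (2 / q) (by linarith)
          (by positivity)
          (fun l _ => by
            have h1 := hdiff l
            have h2 := hy l
            have h3 := abs_add_le (((⌊γ l * q⌋ : ℝ) - s) / q - (γ l - ξ)) (γ l - ξ)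
            rw [sub_add_cancel] at h3
            linarith)
          (fun l _ => by have := hy l; linarith) (fun l _ => hdiff l)
        rw [Finset.card_univ, Fintype.card_fin] at hpert
        calc _ ≤ B * |∏ l, (((⌊γ l * q⌋ : ℝ) - s) / q) - ∏ l, (γ l - ξ)| :=
              le_mul_of_one_le_left (abs_nonneg _) hB1
          _ ≤ _ := hpert
          _ = _ := by ring
      push_cast
      rw [← htel, Finset.sum_div, ← Finset.sum_sub_distrib]
      refine (Finset.abs_sum_le_sum_abs _ _).trans ((Finset.sum_le_sum hterm).trans ?_)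
      rw [Finset.sum_const, Finset.card_range, nsmul_eq_mul]
      push_cast
      apply le_of_eq
      field_simp
    rw [tendsto_iff_norm_sub_tendsto_zero]
    refine squeeze_zero' (Eventually.of_forall fun q => norm_nonneg _) ?_
      (tendsto_const_div_atTop_nhds_zero_nat (a * (n * 2 * B ^ n)))
    filter_upwards [eventually_ge_atTop 1] with q hq
    exact hmain q hq

end Vale.Agent.P202
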