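import Vale.Agent.P202.GeoFree

/-! Module M2c: devissage. -/

namespace Vale.Agent.P202

open Submodule IsLocalRing

namespace Dev

variable {n : ℕ}

/-- Functions of the twist and the level that are `O(R ^ (n - 1))`. -/
def Small (u : (Fin n → ℤ) → ℤ → ℕ∞) : Prop :=
  ∃ K : ℕ, ∀ (c : Fin n → ℤ) (m : ℤ) (R : ℕ), (∀ l, (c l + m).natAbs + 1 ≤ R) →
    R * u c m ≤ (K * R ^ n : ℕ)

theorem Small.mono {u v : (Fin n → ℤ) → ℤ → ℕ∞} (h : Small v) (hle : ∀ c m, u c m ≤ v c m) :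
    Small u := by
  obtain ⟨K, hK⟩ := h
  exact ⟨K, fun c m R hR => (mul_le_mul_right (hle c m) _).trans (hK c m R hR)⟩

theorem small_zero : Small (n := n) fun _ _ => 0 := ⟨0, fun _ _ _ _ => by simp⟩

theorem Small.add {u v : (Fin n → ℤ) → ℤ → ℕ∞} (h : Small u) (h' : Small v) :
    Small fun c m => u c m + v c m := by
  obtain ⟨K, hK⟩ := h
  obtain ⟨K', hK'⟩ := h'
  refine ⟨K + K', fun c m R hR => ?_⟩
  rw [mul_add, add_mul, Nat.cast_add]
  exact add_le_add (hK c m R hR) (hK' c m R hR)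

theorem Small.shift {u : (Fin n → ℤ) → ℤ → ℕ∞} (h : Small u) (a : ℤ) :
    Small fun c m => u c (m - a) := by
  obtain ⟨K, hK⟩ := h
  refine ⟨K * (1 + a.natAbs) ^ n, fun c m R hR => ?_⟩
  rcases Nat.eq_zero_or_pos R with rfl | hpos
  · simp
  have h1 := hK c (m - a) ((1 + a.natAbs) * R) fun l => by
    have h2 := hR l
    have h3 : a.natAbs * 1 ≤ a.natAbs * R := Nat.mul_le_mul_left _ hpos
    rw [add_mul]
    omega
  rw [mul_pow, ← mul_assoc] at h1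
  refine le_trans (mul_le_mul_left ?_ _) h1
  exact_mod_cast Nat.le_mul_of_pos_left R (by omega)

theorem Small.unif {u : ℤ → (Fin n → ℤ) → ℤ → ℕ∞} (s : Finset ℤ) (h : ∀ i, Small (u i))
    (h0 : ∀ i, i ∉ s → ∀ c m, u i c m = 0) :
    ∃ K : ℕ, ∀ (c : Fin n → ℤ) (m i : ℤ) (R : ℕ), (∀ l, (c l + m).natAbs + 1 ≤ R) →
      R * u i c m ≤ (K * R ^ n : ℕ) := by
  choose K hK using h
  refine ⟨∑ i ∈ s, K i, fun c m i R hR => ?_⟩
  by_cases hi : i ∈ s
  · refine (hK i c m R hR).trans ?_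
    exact_mod_cast Nat.mul_le_mul_right _
      (Finset.single_le_sum (f := K) (fun _ _ => Nat.zero_le _) hi)
  · simp [h0 i hi]

variable {T : Type*} [CommRing T] {H : Type*} [CommRing H] [Algebra T H]

theorem hl_out {ξ : Fin (n + 1) → H} {c : Fin n → ℤ} {E : Set (Γ n)} {P Q : ℤ → Submodule T H}
    {m i : ℤ} (h : i ∉ Finset.Icc (0 : ℤ) (2 * n + 1)) :
    hl (DM ξ) (famM c E P m) (famM c E Q m) i = 0 := by
  refine le_antisymm ((hl_le_rl _ _ _ _).trans (rl_eq_zero_iff.2 ?_).le) zero_le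
  rw [famM_eq_bot_of_lt_or_gt (by rw [Finset.mem_Icc] at h; omega)]
  exact bot_le

theorem pair {ξ : Fin (n + 1) → H} {c : Fin n → ℤ} {E : Set (Γ n)} {P Q : ℤ → Submodule T H}
    (hE : IsH0 c E) (hP : IsGr ξ P) (hQ : IsGr ξ Q) (hle : ∀ a, Q a ≤ P a) (m : ℤ) :
    IsPair (DM ξ) (famM c E P m) (famM c E Q m) :=
  isPair_famM hE hP hQ fun _ => hle _

theorem hl_cyc {ξ : Fin (n + 1) → H} {c : Fin n → ℤ} {E : Set (Γ n)} {P P' : ℤ → Submodule T H}
    {g : H} {a : ℤ} (hE : IsH0 c E) (hP' : IsGr ξ P') (h : CycExt ξ P' P g a) (m i : ℤ) :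
    hl (DM ξ) (famM c E P m) (famM c E P' m) i =
      hl (DM MvPolynomial.X) (famM c E (homog T (n + 1)) (m - a))
        (famM c E (cycAnn ξ P' g a) (m - a)) i := by
  obtain ⟨φ, hφ⟩ := pairIso_cyc (c := c) (E := E) hP' h m
  have := hφ.hl_eq (pair hE isGr_homog (isGr_cycAnn hP' g a) (fun _ => inf_le_left) _)
    (pair hE (h.isGr hP') hP' h.le m) i
  rw [add_zero] at this
  exact this.symm

theorem cyc_ind {ξ : Fin (n + 1) → H} {Q : ℤ → Submodule T H} {𝔞 : Ideal T}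
    {C : (ℤ → Submodule T H) → Prop} (h0 : C Q)
    (hs : ∀ P' P g a e, Cyc 𝔞 ξ Q P' e → CycExt ξ P' P g a → C P' → C P)
    {P : ℤ → Submodule T H} {e : ℕ} (h : Cyc 𝔞 ξ Q P e) : C P := by
  induction h with
  | refl => exact h0
  | free h1 h2 _ ih => exact hs _ _ _ _ _ h1 h2 ih
  | tors h1 h2 _ ih => exact hs _ _ _ _ _ h1 h2 ih

theorem mem_of_cycExt {ξ : Fin (n + 1) → H} {P' P : ℤ → Submodule T H} {g : H} {a : ℤ}
    (h : CycExt ξ P' P g a) : g ∈ P a := by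
  rw [h a]
  refine Submodule.mem_sup_right ⟨1, ?_, by simp [evMul_apply]⟩
  refine mem_homog.2 fun m hm => ?_
  rw [MvPolynomial.coeff_one] at hm
  split_ifs at hm with h0
  · simp [← h0]
  · exact absurd rfl hm

variable [IsLocalRing T]

/-- The hypotheses of the torsion estimate. -/
def Tors (𝔞 : ℤ → Submodule T (MvPolynomial (Fin (n + 1)) T)) : Prop :=
  IsGr MvPolynomial.X 𝔞 ∧ (∀ b, 𝔞 b ≤ homog T (n + 1) b) ∧
    (∀ b, homogIn (n + 1) (maximalIdeal T) b ≤ 𝔞 b) ∧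
    ∃ b, ∃ f ∈ 𝔞 b, f ∉ homogIn (n + 1) (maximalIdeal T) b

theorem small_of_cyc {i : ℤ}
    (hA : ∀ 𝔞 : ℤ → Submodule T (MvPolynomial (Fin (n + 1)) T), Tors 𝔞 → Small fun c m =>
      hl (DM MvPolynomial.X) (famM c ∅ (homog T (n + 1)) m) (famM c ∅ 𝔞 m) i)
    {ξ : Fin (n + 1) → H} {Q P : ℤ → Submodule T H} {e : ℕ}
    (h : Cyc (maximalIdeal T) ξ Q P e) (hQ : IsGr ξ Q)
    {f : MvPolynomial (Fin (n + 1)) T} {δ : ℤ} (hf : f ∈ homog T (n + 1) δ)
    (hf' : f ∉ homogIn (n + 1) (maximalIdeal T) δ) :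
    (∀ a, ∀ r ∈ maximalIdeal T, ∀ x ∈ P a, r • x ∈ Q a) →
    (∀ a, ∀ x ∈ P a, MvPolynomial.aeval ξ f * x ∈ Q (δ + a)) →
    Small fun c m => hl (DM ξ) (famM c ∅ P m) (famM c ∅ Q m) i := by
  refine cyc_ind (C := fun P => (∀ a, ∀ r ∈ maximalIdeal T, ∀ x ∈ P a, r • x ∈ Q a) →
    (∀ a, ∀ x ∈ P a, MvPolynomial.aeval ξ f * x ∈ Q (δ + a)) →
    Small fun c m => hl (DM ξ) (famM c ∅ P m) (famM c ∅ Q m) i) ?_ ?_ h
  · exact fun _ _ => small_zero.mono fun c m => (hl_self _ _ _).le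
  · intro P' P g a e h1 h2 ih hm hk
    have hP' := h1.isGr hQ
    have h3 := ih (fun a r hr x hx => hm a r hr x (h2.le a hx)) fun a x hx => hk a x (h2.le a hx)
    have h4 := (hA (cycAnn ξ P' g a) ⟨isGr_cycAnn hP' g a, fun _ => inf_le_left,
      homogIn_le_cycAnn h2 fun a r hr x hx => h1.le a (hm a r hr x hx), δ, f,
      ⟨hf, h1.le _ (hk a g (mem_of_cycExt h2))⟩, hf'⟩).shift a
    refine (h4.add h3).mono fun c m => ?_
    rw [← hl_cyc isH0_empty hP' h2]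
    exact hl_le_add (pair isH0_empty (h2.isGr hP') hP' h2.le m) (pair isH0_empty hP' hQ h1.le m) i

theorem small_of_tors [IsNoetherianRing T] (k : ℕ) : ∀ i : ℤ, i < k →
    ∀ 𝔞 : ℤ → Submodule T (MvPolynomial (Fin (n + 1)) T), Tors 𝔞 → Small fun c m =>
      hl (DM MvPolynomial.X) (famM c ∅ (homog T (n + 1)) m) (famM c ∅ 𝔞 m) i := by
  induction k with
  | zero =>
    intro i hi 𝔞 _
    exact small_zero.mono fun c m => (hl_out (by rw [Finset.mem_Icc]; omega)).le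
  | succ k ih =>
    rintro i hi 𝔞 ⟨h𝔞, hle, hm, δ, f, hf, hf'⟩
    have hce : CycExt MvPolynomial.X (homogIn (n + 1) (maximalIdeal T)) (hyp f δ) f δ :=
      fun _ => rfl
    have hgr : IsGr MvPolynomial.X (hyp f δ) := hce.isGr (isGr_homogIn _)
    have hsub : ∀ b, hyp f δ b ≤ 𝔞 b := by
      intro b
      refine sup_le (hm b) ?_
      rintro _ ⟨g, hg, rfl⟩
      have := h𝔞.aeval_mul hg hf
      rwa [show δ + (b - δ) = b by ring] at this
    obtain ⟨e, he⟩ := exists_cyc (maximalIdeal T) (isFG_of_le_homog h𝔞 hle hsub)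
    have h1 := small_of_cyc (ih (i - 1) (by push_cast at hi; omega)) he hgr (hle δ hf) hf'
      (fun a r hr x hx => Submodule.mem_sup_left (Submodule.smul_mem_smul hr (hle a hx)))
      (fun a x hx => Submodule.mem_sup_right ⟨x, by
        rw [show δ + a - δ = a by ring]; exact hle a hx, by simp [evMul_apply, mul_comm]⟩)
    obtain ⟨K, hK⟩ := hl_famM_hyp (hle δ hf) hf'
    have h2 : Small fun c m =>
        hl (DM MvPolynomial.X) (famM c ∅ (homog T (n + 1)) m) (famM c ∅ (hyp f δ) m) i :=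
      ⟨K, fun c m R hR => hK c m i R hR⟩
    refine (h2.add h1).mono fun c m => ?_
    exact hl_quot_le (pair isH0_empty isGr_homog h𝔞 hle m) (pair isH0_empty h𝔞 hgr hsub m) i

/-- The asymptotic estimate for the pair `P / Q` of rank `e`. -/
def Est (ξ : Fin (n + 1) → H) (P Q : ℤ → Submodule T H) (e : ℕ) : Prop :=
  ∃ K : ℕ, ∀ (c : Fin n → ℤ) (m : ℤ) (R : ℕ), (∀ l, (c l + m).natAbs + 1 ≤ R) →
      FinH (DM ξ) (famM c ∅ P m) (famM c ∅ Q m) ∧
      (∀ i, R * hl (DM ξ) (famM c ∅ P m) (famM c ∅ Q m) i ≤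
        (R * (e * boxAt (fun l => c l + m) i) + K * R ^ n : ℕ)) ∧
      (R : ℤ) * |eul (DM ξ) (famM c ∅ P m) (famM c ∅ Q m) -
        e * ((-1) ^ n * ∏ l, (c l + m + 1))| ≤ K * (R : ℤ) ^ n

omit [IsLocalRing T] in
theorem Est.add {ξ : Fin (n + 1) → H} {P P' Q : ℤ → Submodule T H} {e e' : ℕ} (hP : IsGr ξ P)
    (hP' : IsGr ξ P') (hQ : IsGr ξ Q) (h1 : ∀ a, P' a ≤ P a) (h2 : ∀ a, Q a ≤ P' a)
    (h : Est ξ P P' e) (h' : Est ξ P' Q e') : Est ξ P Q (e' + e) := by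
  obtain ⟨K, hK⟩ := h
  obtain ⟨K', hK'⟩ := h'
  refine ⟨K + K', fun c m R hR => ?_⟩
  obtain ⟨a1, a2, a3⟩ := hK c m R hR
  obtain ⟨b1, b2, b3⟩ := hK' c m R hR
  have p1 := pair (c := c) isH0_empty hP hP' h1 m
  have p2 := pair (c := c) isH0_empty hP' hQ h2 m
  refine ⟨FinH.mid p1 p2 a1 b1, fun i => ?_, ?_⟩
  · refine (mul_le_mul_right (hl_le_add p1 p2 i) _).trans ?_
    rw [mul_add]
    refine (add_le_add (a2 i) (b2 i)).trans (le_of_eq ?_)
    rw [← Nat.cast_add]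
    congr 1
    ring
  · rw [eul_add p1 p2 a1 b1]
    refine le_trans (mul_le_mul_of_nonneg_left (le_trans (le_of_eq ?_) (abs_add_le
      (eul (DM ξ) (famM c ∅ P m) (famM c ∅ P' m) - e * ((-1) ^ n * ∏ l, (c l + m + 1)))
      (eul (DM ξ) (famM c ∅ P' m) (famM c ∅ Q m) - e' * ((-1) ^ n * ∏ l, (c l + m + 1)))))
      (Nat.cast_nonneg R)) ?_
    · congr 1; push_cast; ring
    · rw [mul_add]
      refine (add_le_add a3 b3).trans (le_of_eq ?_)
      push_cast; ring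

omit [IsLocalRing T] in
theorem est_of_small {ξ : Fin (n + 1) → H} {P Q : ℤ → Submodule T H}
    (h : ∀ i, Small fun c m => hl (DM ξ) (famM c ∅ P m) (famM c ∅ Q m) i) : Est ξ P Q 0 := by
  obtain ⟨K, hK⟩ := Small.unif (Finset.Icc (0 : ℤ) (2 * n + 1)) h fun i hi c m => hl_out hi
  have hne : ∀ c m i, hl (DM ξ) (famM c ∅ P m) (famM c ∅ Q m) i ≠ ⊤ := by
    intro c m i htop
    have h1 := hK c m i (∑ l, (c l + m).natAbs + 1) fun l => Nat.succ_le_succ
      (Finset.single_le_sum (f := fun l => (c l + m).natAbs) (fun _ _ => Nat.zero_le _)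
        (Finset.mem_univ l))
    rw [htop, ENat.mul_top (Nat.cast_ne_zero.2 (Nat.succ_ne_zero _))] at h1
    exact ENat.natCast_ne_top _ (top_le_iff.1 h1)
  refine ⟨(Finset.Icc (0 : ℤ) (2 * n + 1)).card * K, fun c m R hR => ⟨⟨hne c m, ?_⟩, fun i => ?_, ?_⟩⟩
  · refine (Finset.Icc (0 : ℤ) (2 * n + 1)).finite_toSet.subset fun i hi => ?_
    by_contra hn
    exact hi (hl_out hn)
  · refine (hK c m i R hR).trans ?_
    have h1 : 0 < (Finset.Icc (0 : ℤ) (2 * n + 1)).card :=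
      Finset.card_pos.2 ⟨0, by rw [Finset.mem_Icc]; omega⟩
    exact_mod_cast le_add_left (Nat.mul_le_mul_right _ (Nat.le_mul_of_pos_left K h1))
  · rw [eul_eq_sum (Finset.Icc (0 : ℤ) (2 * n + 1)) fun i hi => hl_out hi]
    simp only [Nat.cast_zero, zero_mul, sub_zero]
    refine (mul_le_mul_of_nonneg_left (Finset.abs_sum_le_sum_abs _ _) (Nat.cast_nonneg R)).trans ?_
    rw [Finset.mul_sum]
    refine (Finset.sum_le_card_nsmul _ _ ((K : ℤ) * (R : ℤ) ^ n) fun i _ => ?_).trans (le_of_eq ?_)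
    · have h1 := hK c m i R hR
      have h2 : |sgn i| = 1 := by
        have := congrArg abs (sgn_mul_self i)
        rw [abs_mul, abs_one] at this
        nlinarith [abs_nonneg (sgn i)]
      rw [abs_mul, h2, one_mul, Nat.abs_cast]
      rw [← ENat.natCast_toNat (hne c m i)] at h1
      exact_mod_cast h1
    · simp only [nsmul_eq_mul, Nat.cast_mul]; ring

omit [IsLocalRing T] in
theorem est_of_box {ξ : Fin (n + 1) → H} {P Q : ℤ → Submodule T H} (a : ℤ)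
    (h : ∀ c m i, hl (DM ξ) (famM c ∅ P m) (famM c ∅ Q m) i = boxAt (fun l => c l + (m - a)) i) :
    Est ξ P Q 1 := by
  obtain ⟨K, hK⟩ := exists_boxAt_shift_le n a
  obtain ⟨K', hK'⟩ := exists_prod_shift_le n a
  refine ⟨K + K', fun c m R hR => ⟨⟨fun i => by rw [h]; exact ENat.natCast_ne_top _, ?_⟩,
    fun i => ?_, ?_⟩⟩
  · refine (Finset.Icc (0 : ℤ) (2 * n + 1)).finite_toSet.subset fun i hi => ?_
    by_contra hn
    exact hi (hl_out hn)
  · have h1 := hK (fun l => c l + m) R i hR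
    simp only [add_sub_assoc] at h1
    rw [h, one_mul, add_mul, ← add_assoc]
    exact_mod_cast le_add_right h1
  · have h1 := hK' (fun l => c l + m) R hR
    rw [eul_eq_sum {(posCnt (fun l => c l + (m - a)) : ℤ)} fun i hi => by
      rw [h, boxAt, if_neg (by simpa using hi)]; rfl]
    rw [Finset.sum_singleton, h, boxAt, if_pos rfl, ENat.toNat_natCast, sgn_natCast, sgn_mul_box,
      Nat.cast_one, one_mul, ← mul_sub, abs_mul, abs_neg_one_pow, one_mul]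
    simp only [add_sub_assoc] at h1
    refine h1.trans ?_
    push_cast
    rw [add_mul]
    exact le_add_of_nonneg_left (by positivity)

omit [IsLocalRing T] in
theorem van_of_cyc {c : Fin n → ℤ} {E : Set (Γ n)} (hE : IsH0 c E) {i : ℤ}
    (hA : ∀ 𝔞 : ℤ → Submodule T (MvPolynomial (Fin (n + 1)) T), IsGr MvPolynomial.X 𝔞 →
      (∀ b, 𝔞 b ≤ homog T (n + 1) b) → ∀ᶠ m in Filter.atTop,
      hl (DM MvPolynomial.X) (famM c E (homog T (n + 1)) m) (famM c E 𝔞 m) i = 0)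
    {ξ : Fin (n + 1) → H} {Q P : ℤ → Submodule T H} (h : IsFG ξ P Q) (hQ : IsGr ξ Q) :
    ∀ᶠ m in Filter.atTop, hl (DM ξ) (famM c E P m) (famM c E Q m) i = 0 := by
  obtain ⟨e, he⟩ := exists_cyc ⊤ h
  refine cyc_ind (C := fun P =>
    ∀ᶠ m in Filter.atTop, hl (DM ξ) (famM c E P m) (famM c E Q m) i = 0) ?_ ?_ he
  · exact Filter.Eventually.of_forall fun m => hl_self _ _ _
  · intro P' P g a e h1 h2 ih
    have hP' := h1.isGr hQ
    have h4 := (Filter.tendsto_atTop_add_const_right _ (-a) Filter.tendsto_id).eventually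
      (hA (cycAnn ξ P' g a) (isGr_cycAnn hP' g a) fun _ => inf_le_left)
    filter_upwards [ih, h4] with m h5 h6
    refine le_antisymm ?_ zero_le
    refine (hl_le_add (pair hE (h2.isGr hP') hP' h2.le m) (pair hE hP' hQ h1.le m) i).trans ?_
    rw [h5, hl_cyc hE hP' h2, add_zero]
    exact h6.le

omit [IsLocalRing T] in
theorem van_of_le [IsNoetherianRing T] {c : Fin n → ℤ} {E : Set (Γ n)} (hE : IsH0 c E)
    (hfree : ∀ᶠ m in Filter.atTop, ∀ i,
      hl (DM MvPolynomial.X) (famM c E (homog T (n + 1)) m) (famM c E (fun _ => ⊥) m) i = 0)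
    (k : ℕ) : ∀ i : ℤ, i < k →
    ∀ 𝔞 : ℤ → Submodule T (MvPolynomial (Fin (n + 1)) T), IsGr MvPolynomial.X 𝔞 →
      (∀ b, 𝔞 b ≤ homog T (n + 1) b) → ∀ᶠ m in Filter.atTop,
      hl (DM MvPolynomial.X) (famM c E (homog T (n + 1)) m) (famM c E 𝔞 m) i = 0 := by
  induction k with
  | zero =>
    intro i hi 𝔞 _ _
    exact Filter.Eventually.of_forall fun m => hl_out (by rw [Finset.mem_Icc]; omega)
  | succ k ih =>
    intro i hi 𝔞 h𝔞 hle
    have h1 := van_of_cyc hE (ih (i - 1) (by push_cast at hi; omega))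
      (isFG_of_le_homog (Q := fun _ => ⊥) h𝔞 hle fun _ => bot_le) (isGr_bot _)
    filter_upwards [h1, hfree] with m h2 h3
    refine le_antisymm ?_ zero_le
    refine (hl_quot_le (pair hE isGr_homog h𝔞 hle m)
      (pair hE h𝔞 (isGr_bot _) (fun _ => bot_le) m) i).trans ?_
    rw [h2, h3, add_zero]

end Dev

variable {T : Type*} [CommRing T] [IsLocalRing T] [IsNoetherianRing T]
  {H : Type*} [CommRing H] [Algebra T H] {n : ℕ}

/-- (E2) cyclic torsion modules: descending through syzygies by induction on the degree `i`. -/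
theorem hl_famM_tors {𝔞 : ℤ → Submodule T (MvPolynomial (Fin (n + 1)) T)}
    (h𝔞 : IsGr MvPolynomial.X 𝔞) (hle : ∀ b, 𝔞 b ≤ homog T (n + 1) b)
    (hm : ∀ b, homogIn (n + 1) (maximalIdeal T) b ≤ 𝔞 b)
    (hf : ∃ b, ∃ f ∈ 𝔞 b, f ∉ homogIn (n + 1) (maximalIdeal T) b) :
    ∃ K : ℕ, ∀ (c : Fin n → ℤ) (m i : ℤ) (R : ℕ), (∀ l, (c l + m).natAbs + 1 ≤ R) →
      R * hl (DM MvPolynomial.X) (famM c ∅ (homog T (n + 1)) m) (famM c ∅ 𝔞 m) i ≤
        (K * R ^ n : ℕ) :=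
  Dev.Small.unif (u := fun i c m =>
      hl (DM MvPolynomial.X) (famM c ∅ (homog T (n + 1)) m) (famM c ∅ 𝔞 m) i)
    (Finset.Icc (0 : ℤ) (2 * n + 1))
    (fun i => Dev.small_of_tors (i.toNat + 1) i (by omega) 𝔞 ⟨h𝔞, hle, hm, hf⟩)
    fun _ hi _ _ => Dev.hl_out hi

/-- (E3) asymptotic cohomology of a graded module killed by the maximal ideal. -/
theorem Cyc.estimate {ξ : Fin (n + 1) → H} {Q P : ℤ → Submodule T H} {e : ℕ}
    (h : Cyc (maximalIdeal T) ξ Q P e) (hQ : IsGr ξ Q)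
    (hm : ∀ a, ∀ r ∈ maximalIdeal T, ∀ x ∈ P a, r • x ∈ Q a) :
    ∃ K : ℕ, ∀ (c : Fin n → ℤ) (m : ℤ) (R : ℕ), (∀ l, (c l + m).natAbs + 1 ≤ R) →
      FinH (DM ξ) (famM c ∅ P m) (famM c ∅ Q m) ∧
      (∀ i, R * hl (DM ξ) (famM c ∅ P m) (famM c ∅ Q m) i ≤
        (R * (e * boxAt (fun l => c l + m) i) + K * R ^ n : ℕ)) ∧
      (R : ℤ) * |eul (DM ξ) (famM c ∅ P m) (famM c ∅ Q m) -
        e * ((-1) ^ n * ∏ l, (c l + m + 1))| ≤ K * (R : ℤ) ^ n := by
  change Dev.Est ξ P Q e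
  induction h with
  | refl => exact Dev.est_of_small fun i => Dev.small_zero.mono fun c m => (hl_self _ _ _).le
  | @free P' P e g a h1 h2 h3 ih =>
    have hP' := h1.isGr hQ
    have h4 : cycAnn ξ P' g a = homogIn (n + 1) (maximalIdeal T) := funext fun b =>
      le_antisymm (h3 b) (homogIn_le_cycAnn h2 (fun a r hr x hx => h1.le a (hm a r hr x hx)) b)
    refine Dev.Est.add (h2.isGr hP') hP' hQ h2.le h1.le (Dev.est_of_box a fun c m i => ?_)
      (ih fun a r hr x hx => hm a r hr x (h2.le a hx))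
    rw [Dev.hl_cyc isH0_empty hP' h2, h4, hl_famM_free]
  | @tors P' P e g a h1 h2 h3 ih =>
    have hP' := h1.isGr hQ
    refine Dev.Est.add (e := 0) (h2.isGr hP') hP' hQ h2.le h1.le (Dev.est_of_small fun i => ?_)
      (ih fun a r hr x hx => hm a r hr x (h2.le a hx))
    refine ((Dev.small_of_tors (i.toNat + 1) i (by omega) (cycAnn ξ P' g a)
      ⟨isGr_cycAnn hP' g a, fun _ => inf_le_left,
        homogIn_le_cycAnn h2 fun a r hr x hx => h1.le a (hm a r hr x hx), h3⟩).shift a).mono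
      fun c m => (Dev.hl_cyc isH0_empty hP' h2 m i).le

omit [IsLocalRing T] in
theorem IsFG.serre' {ξ : Fin (n + 1) → H} {Q P : ℤ → Submodule T H} (h : IsFG ξ P Q)
    (hQ : IsGr ξ Q) (σ : Equiv.Perm (Fin n)) (s : ℤ) : ∃ m₀ : ℤ, ∀ m, m₀ ≤ m → ∀ i,
    hl (DM ξ)
      (famM (fun l => ((σ l : ℕ) : ℤ) + s) (h0Set (fun l => ((σ l : ℕ) : ℤ) + s) (-s)) P m)
      (famM (fun l => ((σ l : ℕ) : ℤ) + s) (h0Set (fun l => ((σ l : ℕ) : ℤ) + s) (-s)) Q m) i = 0 := by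
  rw [← Filter.eventually_atTop]
  have hE := isH0_h0Set (c := fun l => ((σ l : ℕ) : ℤ) + s) (-s)
  have h1 := fun i : ℤ => Dev.van_of_cyc hE (Dev.van_of_le (T := T) hE
    (Filter.eventually_atTop.2 ⟨-s, fun m hm i => hl_famM_h0_free σ s m (by omega) i⟩)
    (i.toNat + 1) i (by omega)) h hQ
  have h2 := (Filter.eventually_all_finset (Finset.Icc (0 : ℤ) (2 * n + 1))).2 fun i _ => h1 i
  filter_upwards [h2] with m hm i
  by_cases hi : i ∈ Finset.Icc (0 : ℤ) (2 * n + 1)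
  · exact hm i hi
  · exact Dev.hl_out hi

/-- (SV) Serre vanishing for a finitely generated graded module. -/
theorem IsFG.serre {ξ : Fin (n + 1) → H} {Q P : ℤ → Submodule T H} (h : IsFG ξ P Q) (hQ : IsGr ξ Q)
    (σ : Equiv.Perm (Fin n)) (s : ℤ) : ∃ m₀ : ℤ, ∀ m, m₀ ≤ m → ∀ i,
    hl (DM ξ)
      (famM (fun l => ((σ l : ℕ) : ℤ) + s) (h0Set (fun l => ((σ l : ℕ) : ℤ) + s) (-s)) P m)
      (famM (fun l => ((σ l : ℕ) : ℤ) + s) (h0Set (fun l => ((σ l : ℕ) : ℤ) + s) (-s)) Q m) i = 0 :=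
  h.serre' hQ σ s

end Vale.Agent.P202
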