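import Vale.Agent.P202.GeoSymm

/-! Auxiliary file for part A of `GeoFree`: substitutions in the Laurent ring. -/

namespace Vale.Agent.P202

namespace GFA

open Submodule IsLocalRing

variable {T : Type*} [CommRing T] {n : ℕ}

/-- The polynomial ring. -/
abbrev PX (T : Type*) [CommRing T] (n : ℕ) := MvPolynomial (Fin (n + 1)) T

section Lab
variable {H : Type*} [CommRing H] [Algebra T H] {c : Fin n → ℤ} {ε : Finset (Fin n)}
  {E : Set (Γ n)} {P : ℤ → Submodule T H} {m : ℤ}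
  {M' : Type*} [AddCommGroup M'] [Module T M']

theorem single_mem_lab {γ : Γ n} {p : H} (h0 : ¬ IsZeroAt ε γ)
    (h1 : ¬ IsDeadAt c ε γ → γ ∉ E → p ∈ P (m - γ.2)) :
    (AddMonoidAlgebra.single γ p : LR H n) ∈ lab c ε E P m := by
  intro γ'
  by_cases h : γ = γ'
  · subst h
    simpa using ⟨fun h => absurd h h0, h1⟩
  · simp [Finsupp.single_eq_of_ne' h]

theorem lab_induction (φ : LR H n →ₗ[T] M') (N : Submodule T M')
    (h : ∀ γ p, ¬ IsZeroAt ε γ → (¬ IsDeadAt c ε γ → γ ∉ E → p ∈ P (m - γ.2)) →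
      φ (AddMonoidAlgebra.single γ p) ∈ N) {f : LR H n} (hf : f ∈ lab c ε E P m) : φ f ∈ N := by
  rw [← f.sum_coeff_single, Finsupp.sum, map_sum]
  exact N.sum_mem fun γ hγ =>
    h γ _ (fun h0 => Finsupp.mem_support_iff.1 hγ ((hf γ).1 h0)) (hf γ).2

theorem lab_anti {ε' : Finset (Fin n)} (h : ε ⊆ ε') : lab c ε' ∅ P m ≤ lab c ε ∅ P m := by
  intro f hf γ
  refine ⟨fun ⟨l, hl, h'⟩ => (hf γ).1 ⟨l, h hl, h'⟩, fun hd hE => (hf γ).2 ?_ hE⟩
  rintro ⟨l, hl, h'⟩
  exact hd ⟨l, fun h'' => hl (h h''), h'⟩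

theorem conc_mono {L L' : Submodule T M'} (h : L ≤ L') (i : ℤ) : conc L i ≤ conc L' i := by
  unfold conc
  split_ifs
  · exact h
  · exact le_rfl

theorem conc_map {M'' : Type*} [AddCommGroup M''] [Module T M''] (φ : M' →ₗ[T] M'')
    {L : Submodule T M'} {L' : Submodule T M''} (h : ∀ x ∈ L, φ x ∈ L') {i : ℤ} {x : M'}
    (hx : x ∈ conc L i) : φ x ∈ conc L' i := by
  unfold conc at hx ⊢
  split_ifs at hx ⊢
  · exact h x hx
  · rw [(Submodule.mem_bot T).1 hx, map_zero]
    exact zero_mem _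

theorem lab_mon_induction {𝔞 : Ideal T} (φ : LR (PX T n) n →ₗ[T] M') (N : Submodule T M')
    (h : ∀ (γ : Γ n) (α : Fin (n + 1) →₀ ℕ) (r : T), ¬ IsZeroAt ε γ →
      (¬ IsDeadAt c ε γ → (α.degree : ℤ) = m - γ.2 ∧ r ∈ 𝔞) →
      φ (AddMonoidAlgebra.single γ (MvPolynomial.monomial α r)) ∈ N)
    {f : LR (PX T n) n} (hf : f ∈ lab c ε ∅ (homogIn (n + 1) 𝔞) m) : φ f ∈ N := by
  refine lab_induction φ N (fun γ p h0 h1 => ?_) hf
  have e : (AddMonoidAlgebra.single γ p : LR (PX T n) n) =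
      ∑ α ∈ p.support, AddMonoidAlgebra.single γ (MvPolynomial.monomial α (p.coeff α)) := by
    conv_lhs => rw [p.as_sum]
    exact map_sum (AddMonoidAlgebra.singleAddHom γ) _ _
  rw [e, map_sum]
  refine N.sum_mem fun α hα => h γ α _ h0 fun hd => ?_
  have := mem_homogIn.1 (h1 hd (Set.notMem_empty _))
  exact ⟨mem_homog.1 this.1 α (MvPolynomial.mem_support_iff.1 hα), this.2 α⟩

/-- Substitution of the variables `X_j`, fixing the Laurent monomials. -/
noncomputable def subs (y : Fin (n + 1) → LR H n) : LR (PX T n) n →ₐ[T] LR H n :=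
  AddMonoidAlgebra.liftNCAlgHom (MvPolynomial.aeval y) (AddMonoidAlgebra.of H (Γ n))
    fun _ _ => Commute.all _ _

theorem subs_single (y : Fin (n + 1) → LR H n) (γ : Γ n) (p : PX T n) :
    subs y (AddMonoidAlgebra.single γ p) =
      MvPolynomial.aeval y p * AddMonoidAlgebra.single γ 1 := by
  simp [subs]

theorem subs_single_one (y : Fin (n + 1) → LR H n) (γ : Γ n) :
    subs (T := T) y (AddMonoidAlgebra.single γ 1) = AddMonoidAlgebra.single γ 1 := by
  rw [subs_single, map_one, one_mul]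

theorem subs_X (y : Fin (n + 1) → LR H n) (j : Fin (n + 1)) :
    subs (T := T) y (algebraMap (PX T n) _ (MvPolynomial.X j)) = y j := by
  change subs y (AddMonoidAlgebra.single 0 (MvPolynomial.X j)) = _
  rw [subs_single, MvPolynomial.aeval_X]
  exact mul_one _

theorem subs_eTau (y : Fin (n + 1) → LR H n) (j : Fin (n + 1)) :
    subs (T := T) y (eTau (PX T n) n j) = eTau H n j := by
  simp only [eTau, map_sum, mon, subs_single_one]

theorem subs_del (y : Fin (n + 1) → LR H n) (j : Fin (n + 1)) :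
    subs (T := T) y (del MvPolynomial.X j) = y j - eTau H n j := by
  rw [del, map_sub, subs_X, subs_eTau]

theorem hom_ext {B : Type*} [CommRing B] [Algebra T B] {φ ψ : LR (PX T n) n →ₐ[T] B}
    (h1 : ∀ γ, φ (AddMonoidAlgebra.single γ 1) = ψ (AddMonoidAlgebra.single γ 1))
    (h2 : ∀ j, φ (algebraMap (PX T n) _ (MvPolynomial.X j)) =
      ψ (algebraMap (PX T n) _ (MvPolynomial.X j))) : φ = ψ :=
  AddMonoidAlgebra.algHom_ext h1 (MvPolynomial.algHom_ext h2)

theorem isWt_prod {y : Fin (n + 1) → LR H n} (hy : ∀ j, IsWt c ε P 1 (y j))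
    (α : Fin (n + 1) →₀ ℕ) : IsWt c ε P (α.degree : ℤ) (α.prod fun j k => y j ^ k) := by
  rw [Finsupp.degree_apply, Finsupp.prod]
  induction α.support using Finset.induction_on with
  | empty => intro m f hf; simpa using hf
  | insert j s hj ih =>
    rw [Finset.sum_insert hj, Finset.prod_insert hj]
    simpa using ((hy j).pow (α j)).mul ih

theorem subs_mem {y : Fin (n + 1) → LR H n} (hy : ∀ j, IsWt c ε P 1 (y j)) {𝔞 : Ideal T}
    (h𝔞 : ∀ r ∈ 𝔞, algebraMap T H r ∈ P 0) {f : LR (PX T n) n}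
    (hf : f ∈ lab c ε ∅ (homogIn (n + 1) 𝔞) m) : subs y f ∈ lab c ε ∅ P m := by
  refine lab_mon_induction (subs y).toLinearMap _ (fun γ α r h0 h1 => ?_) hf
  have e : (subs y).toLinearMap (AddMonoidAlgebra.single γ (MvPolynomial.monomial α r)) =
      (α.prod fun j k => y j ^ k) * AddMonoidAlgebra.single γ (algebraMap T H r) := by
    rw [AlgHom.toLinearMap_apply, subs_single, MvPolynomial.aeval_monomial,
      mul_comm (algebraMap T _ r), mul_assoc]
    congr 1
    change AddMonoidAlgebra.single 0 _ * _ = _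
    rw [AddMonoidAlgebra.single_mul_single, zero_add, mul_one]
  have := isWt_prod hy α (m - α.degree) _ (single_mem_lab (p := algebraMap T H r) h0
    fun hd _ => by
      rw [(h1 hd).1, sub_sub_cancel, sub_self]
      exact h𝔞 r (h1 hd).2)
  rwa [sub_add_cancel, ← e] at this

end Lab

theorem homogIn_top : homogIn (n + 1) (⊤ : Ideal T) = homog T (n + 1) := by
  funext a
  exact Submodule.top_smul _

theorem homogIn_bot : homogIn (n + 1) (⊥ : Ideal T) = fun _ => ⊥ := by
  funext a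
  exact Submodule.bot_smul _

theorem homogIn_le (𝔞 : Ideal T) (a : ℤ) : homogIn (n + 1) 𝔞 a ≤ homog T (n + 1) a :=
  fun _ h => (mem_homogIn.1 h).1

theorem monomial_mem {𝔞 : Ideal T} {α : Fin (n + 1) →₀ ℕ} {r : T} (hr : r ∈ 𝔞) {a : ℤ}
    (h : (α.degree : ℤ) = a) : MvPolynomial.monomial α r ∈ homogIn (n + 1) 𝔞 a := by
  classical
  refine mem_homogIn.2 ⟨mem_homog.2 fun β hβ => ?_, fun β => ?_⟩
  · rw [MvPolynomial.coeff_monomial] at hβ
    split_ifs at hβ with e
    · rw [← e, h]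
    · exact absurd rfl hβ
  · rw [MvPolynomial.coeff_monomial]
    split_ifs
    · exact hr
    · exact zero_mem _

theorem C_mem {𝔞 : Ideal T} {r : T} (hr : r ∈ 𝔞) :
    algebraMap T (PX T n) r ∈ homogIn (n + 1) 𝔞 0 := monomial_mem hr (by simp)

/-- The variables in the Laurent ring. -/
noncomputable abbrev XX (T : Type*) [CommRing T] (n : ℕ) (j : Fin (n + 1)) : LR (PX T n) n :=
  algebraMap (PX T n) _ (MvPolynomial.X j)

/-- The automorphism `X_j ↦ X_j + e_j τ`. -/
noncomputable def th (T : Type*) [CommRing T] (n : ℕ) : LR (PX T n) n →ₐ[T] LR (PX T n) n :=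
  subs fun j => XX T n j + eTau (PX T n) n j

/-- Its inverse. -/
noncomputable def th' (T : Type*) [CommRing T] (n : ℕ) : LR (PX T n) n →ₐ[T] LR (PX T n) n :=
  subs (del MvPolynomial.X)

/-- Killing the variables in `U`. -/
noncomputable def kil (T : Type*) [CommRing T] (U : Finset (Fin (n + 1))) :
    LR (PX T n) n →ₐ[T] LR (PX T n) n :=
  subs fun k => if k ∈ U then 0 else XX T n k

/-- The inclusion of constants. -/
noncomputable def inc (T : Type*) [CommRing T] (n : ℕ) : LR T n →ₐ[T] LR (PX T n) n :=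
  AddMonoidAlgebra.mapAlgHom (Γ n) (Algebra.ofId T (PX T n))

/-- The augmentation. -/
noncomputable def rho (T : Type*) [CommRing T] (n : ℕ) : LR (PX T n) n →ₐ[T] LR T n :=
  subs (eTau T n)

theorem th_del (j : Fin (n + 1)) : th T n (del MvPolynomial.X j) = XX T n j := by
  rw [th, subs_del, add_sub_cancel_right]

theorem th'_th (w : LR (PX T n) n) : th' T n (th T n w) = w := by
  have : (th' T n).comp (th T n) = AlgHom.id T _ := by
    refine hom_ext (fun γ => ?_) fun j => ?_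
    · simp only [th, th', AlgHom.comp_apply, subs_single_one, AlgHom.id_apply]
    · simp only [th, th', AlgHom.comp_apply, subs_X, map_add, subs_eTau, AlgHom.id_apply, del,
        sub_add_cancel]
  exact DFunLike.congr_fun this w

theorem inc_single (γ : Γ n) (r : T) : inc T n (AddMonoidAlgebra.single γ r) =
    AddMonoidAlgebra.single γ (algebraMap T (PX T n) r) :=
  AddMonoidAlgebra.mapAlgHom_single _ _ _

theorem kil_th (w : LR (PX T n) n) : kil T Finset.univ (th T n w) = inc T n (rho T n w) := by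
  have : (kil T Finset.univ).comp (th T n) = (inc T n).comp (rho T n) := by
    refine hom_ext (fun γ => ?_) fun j => ?_
    · simp only [th, kil, rho, AlgHom.comp_apply, subs_single_one, inc_single, map_one]
    · simp only [th, kil, rho, AlgHom.comp_apply, subs_X, map_add, subs_eTau, Finset.mem_univ,
        if_true, zero_add]
      simp only [eTau, map_sum, mon, inc_single, map_one]
  exact DFunLike.congr_fun this w

theorem rho_inc (w : LR T n) : rho T n (inc T n w) = w := by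
  have : (rho T n).comp (inc T n) = AlgHom.id T _ := by
    refine AddMonoidAlgebra.algHom_ext (fun γ => ?_) (Subsingleton.elim _ _)
    simp only [rho, AlgHom.comp_apply, inc_single, map_one, subs_single_one, AlgHom.id_apply]
  exact DFunLike.congr_fun this w

theorem rho_del (j : Fin (n + 1)) : rho T n (del MvPolynomial.X j) = 0 := by
  rw [rho, subs_del, sub_self]

section Mem
variable {c : Fin n → ℤ} {ε : Finset (Fin n)} {𝔞 : Ideal T} {m : ℤ}

theorem isWt_XX (j : Fin (n + 1)) : IsWt c ε (homogIn (n + 1) 𝔞) 1 (XX T n j) :=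
  isWt_algebraMap fun a x hx => isGr_homogIn 𝔞 a j x hx

theorem th_mem {f : LR (PX T n) n} (hf : f ∈ lab c ε ∅ (homogIn (n + 1) 𝔞) m) :
    th T n f ∈ lab c ε ∅ (homogIn (n + 1) 𝔞) m :=
  subs_mem (fun j => (isWt_XX j).add (isWt_eTau j)) (fun _ => C_mem) hf

theorem th'_mem {f : LR (PX T n) n} (hf : f ∈ lab c ε ∅ (homogIn (n + 1) 𝔞) m) :
    th' T n f ∈ lab c ε ∅ (homogIn (n + 1) 𝔞) m :=
  subs_mem (fun j => isWt_del (isGr_homogIn 𝔞) j) (fun _ => C_mem) hf

theorem kil_mem (U : Finset (Fin (n + 1))) {f : LR (PX T n) n}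
    (hf : f ∈ lab c ε ∅ (homogIn (n + 1) 𝔞) m) : kil T U f ∈ lab c ε ∅ (homogIn (n + 1) 𝔞) m := by
  refine subs_mem (fun j => ?_) (fun _ => C_mem) hf
  split_ifs
  · intro m f _
    rw [zero_mul]
    exact zero_mem _
  · exact isWt_XX j

theorem reg_XX (j : Fin (n + 1)) {m' : ℤ} {v : LR (PX T n) n}
    (hv : v ∈ lab c ε ∅ (homogIn (n + 1) ⊤) m)
    (h : XX T n j * v ∈ lab c ε ∅ (homogIn (n + 1) 𝔞) m') :
    v ∈ lab c ε ∅ (homogIn (n + 1) 𝔞) m := by
  intro γ
  refine ⟨(hv γ).1, fun hd hE => mem_homogIn.2 ⟨(mem_homogIn.1 ((hv γ).2 hd hE)).1, fun α => ?_⟩⟩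
  have h1 := (mem_homogIn.1 ((h γ).2 hd hE)).2 (Finsupp.single j 1 + α)
  have e : (XX T n j * v).coeff γ = MvPolynomial.X j * v.coeff γ :=
    AddMonoidAlgebra.coeff_single_zero_mul _ _ _
  rwa [e, MvPolynomial.coeff_X_mul] at h1

theorem sub_kil_mem (U : Finset (Fin (n + 1))) (N : Submodule T (LR (PX T n) n))
    (hN : ∀ k ∈ U, ∀ x ∈ lab c ε ∅ (homogIn (n + 1) (⊤ : Ideal T)) (m - 1),
      del MvPolynomial.X k * x ∈ N)
    {v : LR (PX T n) n} (hv : v ∈ lab c ε ∅ (homogIn (n + 1) ⊤) m) :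
    th' T n v - th' T n (kil T U v) ∈ N := by
  refine lab_mon_induction ((th' T n).toLinearMap - ((th' T n).comp (kil T U)).toLinearMap) N
    (fun γ α r h0 h1 => ?_) hv
  simp only [LinearMap.sub_apply, AlgHom.toLinearMap_apply, AlgHom.comp_apply]
  by_cases hα : ∃ k ∈ U, α k ≠ 0
  · obtain ⟨k, hk, hα⟩ := hα
    obtain ⟨β, rfl⟩ : ∃ β, α = Finsupp.single k 1 + β :=
      ⟨α - Finsupp.single k 1, (add_tsub_cancel_of_le
        (Finsupp.single_le_iff.2 (Nat.one_le_iff_ne_zero.2 hα))).symm⟩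
    have e : (AddMonoidAlgebra.single γ (MvPolynomial.monomial (Finsupp.single k 1 + β) r) :
        LR (PX T n) n) = XX T n k * AddMonoidAlgebra.single γ (MvPolynomial.monomial β r) := by
      change _ = AddMonoidAlgebra.single 0 _ * _
      rw [AddMonoidAlgebra.single_mul_single, zero_add, MvPolynomial.monomial_single_add, pow_one]
      rfl
    rw [e, map_mul, map_mul, kil, subs_X, if_pos hk, zero_mul, map_zero, sub_zero, th', subs_X]
    refine hN k hk _ (th'_mem (single_mem_lab h0 fun hd _ => monomial_mem Submodule.mem_top ?_))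
    have := (h1 hd).1
    rw [map_add, Finsupp.degree_single] at this
    push_cast at this
    omega
  · push Not at hα
    have e : kil T U (AddMonoidAlgebra.single γ (MvPolynomial.monomial α r)) =
        subs (XX T n) (AddMonoidAlgebra.single γ (MvPolynomial.monomial α r)) := by
      rw [kil, subs_single, subs_single, MvPolynomial.aeval_monomial, MvPolynomial.aeval_monomial]
      congr 2
      refine Finsupp.prod_congr fun k hk => ?_
      rw [if_neg fun h => Finsupp.mem_support_iff.1 hk (hα k h)]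
    have e' : subs (XX T n) = AlgHom.id T _ :=
      hom_ext (fun γ => subs_single_one _ γ) fun j => subs_X _ j
    rw [e, e', AlgHom.id_apply, sub_self]
    exact zero_mem _

end Mem

/-- The elements `X_j - e_j τ`. -/
noncomputable abbrev DD (T : Type*) [CommRing T] (n : ℕ) : Fin (n + 1) → LR (PX T n) n :=
  del MvPolynomial.X

/-- The labels of the Koszul complex at one Cech vertex. -/
noncomputable abbrev LL (c : Fin n → ℤ) (P : ℤ → Submodule T (PX T n)) (m : ℤ)
    (ε : Finset (Fin n)) : Finset (Fin (n + 1)) → ℤ → Submodule T (LR (PX T n) n) :=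
  fun S => conc (lab c ε ∅ P (m - S.card))

section Bot
variable {c : Fin n → ℤ} {ε : Finset (Fin n)} {𝔞 : Ideal T} {m : ℤ}

theorem kil_th_mem {U S : Finset (Fin (n + 1))} {i : ℤ} {w : LR (PX T n) n}
    (h : w ∈ kosBot (DD T n) (LL c (homog T (n + 1)) m ε)
      (LL c (homogIn (n + 1) 𝔞) m ε) U S i) :
    kil T U (th T n w) ∈ LL c (homogIn (n + 1) 𝔞) m ε S i := by
  have : kosBot (DD T n) (LL c (homog T (n + 1)) m ε)
      (LL c (homogIn (n + 1) 𝔞) m ε) U S i ≤ (LL c (homogIn (n + 1) 𝔞) m ε S i).comap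
        ((kil T U).comp (th T n)).toLinearMap := by
    refine sup_le (fun x hx => conc_map _ (fun x hx => kil_mem U (th_mem hx)) hx)
      (iSup₂_le fun k hk => ?_)
    rintro _ ⟨x, -, rfl⟩
    have e : kil T U (th T n (del MvPolynomial.X k * x)) = 0 := by
      rw [map_mul, map_mul, th_del, kil, subs_X, if_pos hk, zero_mul]
    rw [Submodule.mem_comap, AlgHom.toLinearMap_apply, AlgHom.comp_apply,
      LinearMap.restrictScalars_apply, LinearMap.lsmul_apply, smul_eq_mul, e]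
    exact zero_mem _
  exact this h

theorem mem_kosBot {U S : Finset (Fin (n + 1))} (hUS : Disjoint S U) {i : ℤ} {w : LR (PX T n) n}
    (hw : w ∈ LL c (homog T (n + 1)) m ε S i)
    (h : kil T U (th T n w) ∈ LL c (homogIn (n + 1) 𝔞) m ε S i) :
    w ∈ kosBot (DD T n) (LL c (homog T (n + 1)) m ε)
      (LL c (homogIn (n + 1) 𝔞) m ε) U S i := by
  by_cases hi : i = 0
  · subst hi
    rw [← homogIn_top] at hw
    have e : w = th' T n (kil T U (th T n w)) +
        (th' T n (th T n w) - th' T n (kil T U (th T n w))) := by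
      rw [add_sub_cancel, th'_th]
    rw [e]
    refine Submodule.add_mem_sup (th'_mem h) (sub_kil_mem U _ (fun k hk x hx => ?_) (th_mem hw))
    refine Submodule.mem_iSup_of_mem k (Submodule.mem_iSup_of_mem hk ⟨x, ?_, rfl⟩)
    rw [homogIn_top, sub_sub] at hx
    have hkS : k ∉ S := fun h => Finset.disjoint_left.1 hUS h hk
    change x ∈ lab c ε ∅ _ _
    rw [Finset.card_insert_of_notMem hkS]
    exact hx
  · have : w = 0 := by simpa [conc, hi] using hw
    rw [this]
    exact zero_mem _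

theorem hreg (U : Finset (Fin (n + 1))) (j : Fin (n + 1)) (S : Finset (Fin (n + 1))) (i : ℤ)
    (hjU : j ∉ U) (_hjS : j ∉ S) (hSU : Disjoint S U) (w : LR (PX T n) n)
    (hw : w ∈ LL c (homog T (n + 1)) m ε (insert j S) i)
    (h : DD T n j • w ∈ kosBot (DD T n) (LL c (homog T (n + 1)) m ε)
      (LL c (homogIn (n + 1) 𝔞) m ε) U S i) :
    w ∈ kosBot (DD T n) (LL c (homog T (n + 1)) m ε)
      (LL c (homogIn (n + 1) 𝔞) m ε) U (insert j S) i := by
  refine mem_kosBot (Finset.disjoint_insert_left.2 ⟨hjU, hSU⟩) hw ?_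
  have h1 := kil_th_mem h
  rw [smul_eq_mul, map_mul, map_mul, th_del, kil, subs_X, if_neg hjU] at h1
  by_cases hi : i = 0
  · subst hi
    rw [← homogIn_top] at hw
    exact reg_XX j (kil_mem U (th_mem hw)) h1
  · have : w = 0 := by simpa [conc, hi] using hw
    rw [this, map_zero, map_zero]
    exact zero_mem _

theorem isPair_conc {B M : Type*} [CommRing B] [Algebra T B] [AddCommGroup M] [Module B M]
    [Module T M] [IsScalarTower T B M] {L L' : Submodule T M} (h : L' ≤ L) :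
    IsPair (0 : M →ₗ[B] M) (conc L) (conc L') :=
  ⟨fun _ => rfl, isFam_conc L, isFam_conc L', conc_mono h⟩

theorem del_smul_mem {P : ℤ → Submodule T (PX T n)} (hP : IsGr MvPolynomial.X P)
    (j : Fin (n + 1)) (S : Finset (Fin (n + 1))) (i : ℤ) (hj : j ∉ S) :
    ∀ x ∈ LL c P m ε (insert j S) i, DD T n j • x ∈ LL c P m ε S i := by
  intro x hx
  refine conc_map (LinearMap.mulLeft T (del MvPolynomial.X j)) (fun x hx => ?_) hx
  have := isWt_del hP j _ x hx
  rw [Finset.card_insert_of_notMem hj] at this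
  push_cast at this
  rwa [sub_add_eq_sub_sub, sub_add_cancel] at this

theorem kc (c : Fin n → ℤ) (𝔞 : Ideal T) (m : ℤ) (ε : Finset (Fin n)) :
    IsTotPair (kos (DD T n)) kdeg (0 : LR (PX T n) n →ₗ[LR (PX T n) n] _)
      (LL c (homog T (n + 1)) m ε) (kosKer (DD T n) (LL c (homog T (n + 1)) m ε)
        (LL c (homogIn (n + 1) 𝔞) m ε)) ∧
    IsTotPair (kos (DD T n)) kdeg (0 : LR (PX T n) n →ₗ[LR (PX T n) n] _)
      (kosKer (DD T n) (LL c (homog T (n + 1)) m ε) (LL c (homogIn (n + 1) 𝔞) m ε))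
      (LL c (homogIn (n + 1) 𝔞) m ε) ∧
    ∀ i, hl (tot (kos (DD T n)) kdeg (0 : LR (PX T n) n →ₗ[LR (PX T n) n] _))
      (totFam kdeg (kosKer (DD T n) (LL c (homog T (n + 1)) m ε)
        (LL c (homogIn (n + 1) 𝔞) m ε))) (totFam kdeg (LL c (homogIn (n + 1) 𝔞) m ε)) i = 0 :=
  hl_kosKer_eq_zero (isTotPair_kos (fun _ => rfl)
    (fun _ => isPair_conc (lab_mono fun _ => homogIn_le 𝔞 _))
    (del_smul_mem isGr_homog) (del_smul_mem (isGr_homogIn 𝔞))) hreg

end Bot

theorem famK_empty (c : Fin n → ℤ) (P : ℤ → Submodule T (PX T n)) (m : ℤ) :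
    famK c ∅ P m = fun ε => totFam kdeg (LL c P m ε) := by
  funext ε
  simp only [famK, extra, ite_self]

/-- The labels of the kernel of the augmentation, at the Cech vertex `ε`. -/
noncomputable def famKer (c : Fin n → ℤ) (𝔞 : Ideal T) (m : ℤ) (ε : Finset (Fin n)) :
    ℤ → Submodule T (Finset (Fin (n + 1)) → LR (PX T n) n) :=
  totFam kdeg (kosKer (DD T n) (LL c (homog T (n + 1)) m ε)
    (LL c (homogIn (n + 1) 𝔞) m ε))

theorem totFam_LL_anti (c : Fin n → ℤ) (P : ℤ → Submodule T (PX T n)) (m : ℤ) (j : Fin n)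
    (ε : Finset (Fin n)) (i : ℤ) (_ : j ∉ ε) : ∀ x ∈ totFam kdeg (LL c P m (insert j ε)) i,
      (1 : LR (PX T n) n) • x ∈ totFam kdeg (LL c P m ε) i := by
  intro x hx
  rw [one_smul]
  exact mem_totFam.2 fun S =>
    conc_mono (lab_anti (Finset.subset_insert j ε)) _ (mem_totFam.1 hx S)

theorem famKer_anti (c : Fin n → ℤ) (𝔞 : Ideal T) (m : ℤ) (j : Fin n)
    (ε : Finset (Fin n)) (i : ℤ) (_ : j ∉ ε) : ∀ x ∈ famKer c 𝔞 m (insert j ε) i,
      (1 : LR (PX T n) n) • x ∈ famKer c 𝔞 m ε i := by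
  intro x hx
  rw [one_smul]
  unfold famKer at hx ⊢
  refine mem_totFam.2 fun S => ?_
  have h := mem_totFam.1 hx S
  unfold kosKer at h ⊢
  split_ifs at h ⊢
  · refine (sup_le_sup (conc_mono (lab_anti (Finset.subset_insert j ε)) _)
      (iSup₂_mono fun k _ => Submodule.map_mono
        (conc_mono (lab_anti (Finset.subset_insert j ε)) _))) h
  · exact conc_mono (lab_anti (Finset.subset_insert j ε)) _ h

theorem isTotPair_famKer (c : Fin n → ℤ) (𝔞 : Ideal T) (m : ℤ) :
    IsTotPair (kos fun _ : Fin n => (1 : LR (PX T n) n)) kdeg (DK MvPolynomial.X)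
      (famK c ∅ (homog T (n + 1)) m) (famKer c 𝔞 m) ∧
    IsTotPair (kos fun _ : Fin n => (1 : LR (PX T n) n)) kdeg (DK MvPolynomial.X)
      (famKer c 𝔞 m) (famK c ∅ (homogIn (n + 1) 𝔞) m) := by
  rw [famK_empty, famK_empty]
  exact ⟨isTotPair_kos DK_sq (fun ε => (kc c 𝔞 m ε).1.isPair) (totFam_LL_anti c _ m)
    (famKer_anti c 𝔞 m), isTotPair_kos DK_sq (fun ε => (kc c 𝔞 m ε).2.1.isPair)
    (famKer_anti c 𝔞 m) (totFam_LL_anti c _ m)⟩

theorem isPair_famKer (c : Fin n → ℤ) (𝔞 : Ideal T) (m : ℤ) :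
    IsPair (DM MvPolynomial.X) (famM c ∅ (homog T (n + 1)) m) (totFam kdeg (famKer c 𝔞 m)) ∧
    IsPair (DM MvPolynomial.X) (totFam kdeg (famKer c 𝔞 m)) (famM c ∅ (homogIn (n + 1) 𝔞) m) :=
  ⟨(isTotPair_famKer c 𝔞 m).1.isPair, (isTotPair_famKer c 𝔞 m).2.isPair⟩

theorem hl_famKer_eq_zero (c : Fin n → ℤ) (𝔞 : Ideal T) (m i : ℤ) :
    hl (DM MvPolynomial.X) (totFam kdeg (famKer c 𝔞 m)) (famM c ∅ (homogIn (n + 1) 𝔞) m) i = 0 := by
  refine le_antisymm ((hl_tot_le (isTotPair_famKer c 𝔞 m).2 i).trans (le_of_eq ?_)) zero_le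
  refine Finset.sum_eq_zero fun ε _ => ?_
  rw [famK_empty]
  exact (kc c 𝔞 m ε).2.2 _

/-- The family `I` in degree `0`, zero elsewhere. -/
def deg0 (I : Ideal T) : ℤ → Submodule T T := fun a => if a = 0 then I else ⊥

/-- The Cech complex with coefficients in `I`. -/
noncomputable def famW (c : Fin n → ℤ) (I : Ideal T) (m : ℤ) :
    ℤ → Submodule T (Finset (Fin n) → LR T n) :=
  totFam kdeg fun ε => conc (lab c ε ∅ (deg0 I) m)

/-- The Cech differential. -/
noncomputable def DW (T : Type*) [CommRing T] (n : ℕ) :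
    (Finset (Fin n) → LR T n) →ₗ[LR T n] (Finset (Fin n) → LR T n) :=
  tot (kos fun _ : Fin n => (1 : LR T n)) kdeg 0

/-- The map induced by the augmentation. -/
noncomputable def rhoM (T : Type*) [CommRing T] (n : ℕ) :
    VM (PX T n) n →ₗ[T] (Finset (Fin n) → LR T n) where
  toFun v := fun ε => rho T n (v ε ∅)
  map_add' v w := by ext1 ε; simp
  map_smul' r v := by ext1 ε; simp

theorem isPair_famW (c : Fin n → ℤ) {I I' : Ideal T} (h : I' ≤ I) (m : ℤ) :
    IsPair (DW T n) (famW c I m) (famW c I' m) := by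
  have key : ∀ (J : Ideal T) (j : Fin n) (ε : Finset (Fin n)) (i : ℤ), j ∉ ε →
      ∀ x ∈ conc (lab c (insert j ε) ∅ (deg0 J) m) i,
        (1 : LR T n) • x ∈ conc (lab c ε ∅ (deg0 J) m) i := fun J j ε i _ x hx => by
    rw [one_smul]
    exact conc_mono (lab_anti (Finset.subset_insert j ε)) _ hx
  refine (isTotPair_kos (fun _ => rfl) (fun ε => isPair_conc (lab_mono fun s => ?_))
    (key I) (key I')).isPair
  exact conc_mono h _

theorem rho_mem {c : Fin n → ℤ} {ε : Finset (Fin n)} {𝔞 : Ideal T} {m : ℤ} {f : LR (PX T n) n}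
    (hf : f ∈ lab c ε ∅ (homogIn (n + 1) 𝔞) m) : rho T n f ∈ lab c ε ∅ (deg0 𝔞) m :=
  subs_mem (fun j => isWt_eTau j) (fun _ hr => hr) hf

theorem inc_mem {c : Fin n → ℤ} {ε : Finset (Fin n)} {𝔞 : Ideal T} {m : ℤ} {f : LR T n}
    (hf : f ∈ lab c ε ∅ (deg0 𝔞) m) : inc T n f ∈ lab c ε ∅ (homogIn (n + 1) 𝔞) m := by
  refine lab_induction (inc T n).toLinearMap _ (fun γ r h0 h1 => ?_) hf
  rw [AlgHom.toLinearMap_apply, inc_single]
  refine single_mem_lab h0 fun hd hE => ?_
  have := h1 hd hE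
  unfold deg0 at this
  split_ifs at this with h
  · rw [h]
    exact C_mem this
  · rw [(Submodule.mem_bot T).1 this, map_zero]
    exact zero_mem _

theorem rho_DK (v : Finset (Fin (n + 1)) → LR (PX T n) n) :
    rho T n (DK MvPolynomial.X v ∅) = 0 := by
  rw [DK, HT.tot_eq, Pi.add_apply, matAct_kos_apply, parAct_apply, LinearMap.zero_apply,
    smul_zero, add_zero, map_sum]
  refine Finset.sum_eq_zero fun j _ => ?_
  rw [if_pos (Finset.notMem_empty j), map_zsmul, smul_eq_mul, map_mul, rho_del, zero_mul,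
    smul_zero]

theorem pairIso_vertex (c : Fin n → ℤ) (𝔞 : Ideal T) (m : ℤ) (ε : Finset (Fin n)) :
    PairIso (DK MvPolynomial.X) (totFam kdeg (LL c (homog T (n + 1)) m ε)) (famKer c 𝔞 m ε)
      (0 : LR T n →ₗ[LR T n] LR T n) (conc (lab c ε ∅ (deg0 ⊤) m)) (conc (lab c ε ∅ (deg0 𝔞) m))
      ((rho T n).toLinearMap ∘ₗ LinearMap.proj ∅) 1 0 := by
  have hk : ∀ i : ℤ, i - kdeg (∅ : Finset (Fin (n + 1))) = i + 0 := fun i => by simp [kdeg]
  have hm : m - ((∅ : Finset (Fin (n + 1))).card : ℤ) = m := by simp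
  refine ⟨fun i x hx => ?_, fun i x hx => ?_, fun i y hy => ?_, fun i x hx h => ?_,
    fun i x _ => ?_⟩
  · have h := mem_totFam.1 hx ∅
    rw [hk, ← homogIn_top] at h
    exact conc_map (rho T n).toLinearMap (fun x hx => rho_mem (hm ▸ hx)) h
  · have h := kil_th_mem (mem_totFam.1 hx ∅)
    rw [hk, kil_th] at h
    have := conc_map (rho T n).toLinearMap (fun x hx => rho_mem (hm ▸ hx)) h
    rwa [AlgHom.toLinearMap_apply, rho_inc] at this
  · refine ⟨Pi.single ∅ (inc T n y), mem_totFam.2 fun S => ?_, ?_⟩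
    · by_cases hS : S = ∅
      · subst hS
        rw [Pi.single_eq_same, hk, ← homogIn_top]
        exact conc_map (inc T n).toLinearMap (fun x hx => hm.symm ▸ inc_mem hx) hy
      · rw [Pi.single_eq_of_ne hS]
        exact zero_mem _
    · simp [rho_inc]
  · unfold famKer
    refine mem_totFam.2 fun S => ?_
    unfold kosKer
    split_ifs with hS
    · subst hS
      refine mem_kosBot (Finset.disjoint_empty_left _) (mem_totFam.1 hx ∅) ?_
      rw [hk, kil_th]
      exact conc_map (inc T n).toLinearMap (fun x hx => hm.symm ▸ inc_mem hx) h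
    · exact mem_totFam.1 hx S
  · simp [rho_DK]

theorem pairIso_rhoM (c : Fin n → ℤ) (𝔞 : Ideal T) (m : ℤ) :
    PairIso (DM MvPolynomial.X) (famM c ∅ (homog T (n + 1)) m) (totFam kdeg (famKer c 𝔞 m))
      (DW T n) (famW c ⊤ m) (famW c 𝔞 m) (rhoM T n) 1 0 := by
  have h := PairIso.tot (isMC_kos fun _ : Fin n => (1 : LR (PX T n) n)).homog
    (isMC_kos fun _ : Fin n => (1 : LR T n)).homog (pairIso_vertex c 𝔞 m) fun a b j _ x _ => by
      rw [kos_semilinear (fun _ : Fin n => (1 : LR (PX T n) n)) (fun _ : Fin n => (1 : LR T n)) _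
        (fun _ x => by rw [one_smul, one_smul]), sub_self]
      exact zero_mem _
  have e : totMap kdeg ((rho T n).toLinearMap ∘ₗ LinearMap.proj (∅ : Finset (Fin (n + 1)))) 1 =
      rhoM T n := by
    refine LinearMap.ext fun v => funext fun ε => ?_
    simp [totMap, rhoM]
  rw [e, ← famK_empty] at h
  exact h

section H0
variable {c : Fin n → ℤ} {E : Set (Γ n)} {P : ℤ → Submodule T (PX T n)} {m i : ℤ}

/-- An element placed at the special vertex. -/
noncomputable def sp (e : LR (PX T n) n) : VM (PX T n) n :=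
  Pi.single Finset.univ (Pi.single ∅ e)

theorem sp_same (e : LR (PX T n) n) : sp e Finset.univ ∅ = e := by simp [sp]

theorem sp_ne (e : LR (PX T n) n) {ε : Finset (Fin n)} {S : Finset (Fin (n + 1))}
    (h : ¬ (ε = Finset.univ ∧ S = ∅)) : sp e ε S = 0 := by
  by_cases h1 : ε = Finset.univ
  · have h2 : S ≠ ∅ := fun h2 => h ⟨h1, h2⟩
    simp [sp, h1, h2]
  · simp [sp, h1]

theorem rhoM_sp (e : LR (PX T n) n) : rhoM T n (sp e) = Pi.single Finset.univ (rho T n e) := by
  funext ε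
  change rho T n (sp e ε ∅) = _
  by_cases h : ε = Finset.univ
  · rw [h, sp_same, Pi.single_eq_same]
  · rw [sp_ne e fun h' => h h'.1, map_zero, Pi.single_eq_of_ne h]

theorem famM_special {v : VM (PX T n) n} (hv : v ∈ famM c E P m i) :
    (i = n → v Finset.univ ∅ ∈ lab c Finset.univ E P m) ∧ (i ≠ n → v Finset.univ ∅ = 0) := by
  have := mem_famM.1 hv Finset.univ ∅
  simp only [Finset.card_univ, Fintype.card_fin, Finset.card_empty, Nat.cast_zero, add_zero,
    sub_zero, extra, and_self, if_true] at this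
  exact ⟨fun h => by rwa [if_pos h] at this, fun h => by rwa [if_neg h] at this⟩

theorem mem_famM_change {E' : Set (Γ n)} {v : VM (PX T n) n} (hv : v ∈ famM c E P m i)
    (h : i = n → v Finset.univ ∅ ∈ lab c Finset.univ E' P m) : v ∈ famM c E' P m i := by
  refine mem_famM.2 fun ε S => ?_
  have := mem_famM.1 hv ε S
  by_cases hs : ε = Finset.univ ∧ S = ∅
  · obtain ⟨rfl, rfl⟩ := hs
    split_ifs at this ⊢ with hi
    · simpa [extra] using h (by simpa using hi)
    · exact this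
  · simpa only [extra, if_neg hs] using this

theorem sp_mem {e : LR (PX T n) n} (h1 : i = n → e ∈ lab c Finset.univ E P m)
    (h2 : i ≠ n → e = 0) : sp e ∈ famM c E P m i := by
  refine mem_famM.2 fun ε S => ?_
  by_cases hs : ε = Finset.univ ∧ S = ∅
  · obtain ⟨rfl, rfl⟩ := hs
    rw [sp_same]
    split_ifs with hi
    · simpa [extra] using h1 (by simpa using hi)
    · exact h2 (by simpa using hi)
  · rw [sp_ne e hs]
    split_ifs
    · exact zero_mem _
    · rfl

theorem famM_empty_le {v : VM (PX T n) n} (hv : v ∈ famM c ∅ P m i) : v ∈ famM c E P m i :=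
  mem_famM_change hv fun h γ => ⟨((famM_special hv).1 h γ).1,
    fun hd _ => ((famM_special hv).1 h γ).2 hd (Set.notMem_empty γ)⟩

theorem exists_split {v : VM (PX T n) n} (hv : v ∈ famM c E P m i) :
    ∃ e, sp e ∈ famM c E (fun _ => (⊥ : Submodule T (PX T n))) m i ∧
      v - sp e ∈ famM c ∅ P m i := by
  classical
  have h1 : sp (AddMonoidAlgebra.ofCoeff ((v Finset.univ ∅).coeff.filter (· ∈ E))) ∈
      famM c E (fun _ => (⊥ : Submodule T (PX T n))) m i := by
    refine sp_mem (fun h γ => ⟨fun h0 => ?_, fun _ hE => ?_⟩) fun h => ?_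
    · simp [Finsupp.filter_apply, ((famM_special hv).1 h γ).1 h0]
    · simp [Finsupp.filter_apply, hE]
    · simp [(famM_special hv).2 h, Finsupp.filter_zero]
  refine ⟨_, h1, mem_famM_change (sub_mem hv (famM_mono (fun _ => bot_le) i h1)) fun h γ => ?_⟩
  rw [Pi.sub_apply, Pi.sub_apply, sp_same]
  refine ⟨fun h0 => ?_, fun hd _ => ?_⟩
  · simp [Finsupp.filter_apply, ((famM_special hv).1 h γ).1 h0]
  · by_cases hE : γ ∈ E
    · simp [Finsupp.filter_apply, hE]
    · simpa [Finsupp.filter_apply, hE] using ((famM_special hv).1 h γ).2 hd hE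

theorem rho_DM (v : VM (PX T n) n) : rho T n (DM MvPolynomial.X v Finset.univ ∅) = 0 := by
  rw [DM, HT.tot_eq, Pi.add_apply, matAct_kos_apply, parAct_apply,
    Finset.sum_eq_zero fun j _ => if_neg (not_not.2 (Finset.mem_univ j)), zero_add,
    Pi.smul_apply, map_zsmul, rho_DK, smul_zero]

theorem mem_boxSet_iff {c a : Fin n → ℤ} (hc : ∀ l, 0 ≤ c l) :
    a ∈ boxSet c ↔ ∀ l, 0 ≤ a l ∧ a l ≤ c l := by
  simp [boxSet, hc]

theorem not_dead (γ : Γ n) : ¬ IsDeadAt c Finset.univ γ :=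
  fun ⟨l, hl, _⟩ => hl (Finset.mem_univ l)

theorem rho_sum (s : ℤ) (B : Finset (Fin n → ℤ)) (f : (Fin n → ℤ) → PX T n) :
    rho T n (∑ b ∈ B, AddMonoidAlgebra.single (b, -s) (f b)) =
      (∑ b ∈ B, evTau T n (f b) * mon T b 0) * mon T 0 (-s) := by
  rw [map_sum, Finset.sum_mul]
  refine Finset.sum_congr rfl fun b _ => ?_
  rw [rho, subs_single, mul_assoc, mon, mon, AddMonoidAlgebra.single_mul_single]
  simp [evTau]

variable (σ : Equiv.Perm (Fin n)) (s : ℤ)

theorem eq_zero_of_rho (hm : 0 ≤ m + s) {w : LR (PX T n) n}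
    (h1 : w ∈ lab (fun l => ((σ l : ℕ) : ℤ) + s) Finset.univ
      (h0Set (fun l => ((σ l : ℕ) : ℤ) + s) (-s)) (fun _ => (⊥ : Submodule T (PX T n))) m)
    (h2 : w ∈ lab (fun l => ((σ l : ℕ) : ℤ) + s) Finset.univ ∅ (homog T (n + 1)) m)
    (h3 : rho T n w = 0) : w = 0 := by
  classical
  have e : w = ∑ b ∈ boxSet (fun l => ((σ l : ℕ) : ℤ)),
      AddMonoidAlgebra.single (b, -s) (w.coeff (b, -s)) := by
    ext1
    ext1 γ
    rw [AddMonoidAlgebra.coeff_sum, Finsupp.finsetSum_apply]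
    simp only [AddMonoidAlgebra.coeff_single, Finsupp.single_apply]
    by_cases hE : γ ∈ h0Set (fun l => ((σ l : ℕ) : ℤ) + s) (-s)
    · obtain ⟨a, t⟩ := γ
      obtain ⟨rfl, hE⟩ : t = -s ∧ _ := hE
      simp only [Prod.mk.injEq, and_true, Finset.sum_ite_eq']
      rw [if_pos ((mem_boxSet_iff fun l => Int.natCast_nonneg _).2 fun l => by simpa using hE l)]
    · rw [(Submodule.mem_bot T).1 ((h1 γ).2 (not_dead γ) hE)]
      refine (Finset.sum_eq_zero fun b hb => if_neg ?_).symm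
      rintro rfl
      exact hE ⟨rfl, fun l => by
        simpa using (mem_boxSet_iff fun l => Int.natCast_nonneg _).1 hb l⟩
  rw [e, rho_sum] at h3
  have h4 := congrArg (· * mon T 0 s) h3
  have h5 : mon T (0 : Fin n → ℤ) (-s) * mon T 0 s = 1 := by
    rw [mon, mon, AddMonoidAlgebra.single_mul_single]
    simp only [Prod.mk_add_mk, add_zero, neg_add_cancel, mul_one]
    rfl
  simp only [mul_assoc, h5, mul_one, zero_mul] at h4
  have h6 := free_inj σ (m + s).toNat (fun b => w.coeff (b, -s)) (fun b => by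
    rw [Int.toNat_of_nonneg hm, ← sub_neg_eq_add]
    exact (h2 (b, -s)).2 (not_dead _) (Set.notMem_empty _)) h4
  rw [e]
  exact Finset.sum_eq_zero fun b hb => by rw [h6 b hb, AddMonoidAlgebra.single_zero]

theorem DM_mem_empty (hm : 0 ≤ m + s) {x : VM (PX T n) n}
    (hx : x ∈ famM (fun l => ((σ l : ℕ) : ℤ) + s) ∅ (homog T (n + 1)) m i)
    (hd : DM MvPolynomial.X x ∈ famM (fun l => ((σ l : ℕ) : ℤ) + s)
      (h0Set (fun l => ((σ l : ℕ) : ℤ) + s) (-s)) (fun _ => (⊥ : Submodule T (PX T n))) m (i - 1)) :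
    DM MvPolynomial.X x ∈ famM (fun l => ((σ l : ℕ) : ℤ) + s) ∅
      (fun _ => (⊥ : Submodule T (PX T n))) m (i - 1) := by
  refine mem_famM_change hd fun h => ?_
  rw [eq_zero_of_rho σ s hm ((famM_special hd).1 h)
    ((famM_special (isFam_famM isH0_empty isGr_homog m i x hx)).1 h) (rho_DM x)]
  exact zero_mem _

theorem mon_mem_map (hm : 0 ≤ m + s) {a : Fin n → ℤ}
    (ha : a ∈ boxSet fun l => ((σ l : ℕ) : ℤ) + s + m) :
    mon T a m ∈ (lab (fun l => ((σ l : ℕ) : ℤ) + s) Finset.univ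
      (h0Set (fun l => ((σ l : ℕ) : ℤ) + s) (-s)) (fun _ => (⊥ : Submodule T (PX T n))) m ⊓
      lab (fun l => ((σ l : ℕ) : ℤ) + s) Finset.univ ∅ (homog T (n + 1)) m).map
        (rho T n).toLinearMap := by
  obtain ⟨f, hf, e⟩ := free_surj (T := T) σ (m + s).toNat a fun l => by
    have := (mem_boxSet_iff fun l => by have := Int.natCast_nonneg (σ l : ℕ); omega).1 ha l
    rw [Int.toNat_of_nonneg hm]
    omega
  rw [Int.toNat_of_nonneg hm] at hf e
  refine ⟨∑ b ∈ boxSet (fun l => ((σ l : ℕ) : ℤ)), AddMonoidAlgebra.single (b, -s) (f b),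
    Submodule.sum_mem _ fun b hb => ?_, ?_⟩
  · have hb' := (mem_boxSet_iff fun l => Int.natCast_nonneg _).1 hb
    have h0 : ¬ IsZeroAt Finset.univ (b, -s) := fun ⟨l, _, h⟩ => (hb' l).1.not_gt h
    exact ⟨single_mem_lab h0 fun _ hE => absurd ⟨rfl, fun l => by simpa using hb' l⟩ hE,
      single_mem_lab h0 fun _ _ => by simpa using hf b⟩
  · rw [AlgHom.toLinearMap_apply, rho_sum, ← e, mon, mon, mon, AddMonoidAlgebra.single_mul_single]
    simp

theorem hl_famM_h0_free
    (hc : ∀ (c : Fin n → ℤ) (I : Ideal T) (m i : ℤ) (v : Finset (Fin n) → LR T n),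
      v ∈ cyc (DW T n) (famW c ⊤ m) (famW c I m) i →
      ∃ r : (Fin n → ℤ) → T, v - (if i = posCnt (fun l => c l + m) then
        Pi.single (Finset.univ.filter fun l => 0 ≤ c l + m)
          (∑ a ∈ boxSet (fun l => c l + m), r a • mon T a m) else 0) ∈
        bdy (DW T n) (famW c ⊤ m) (famW c I m) i)
    (m : ℤ) (hm : 0 ≤ m + s) (i : ℤ) :
    hl (DM MvPolynomial.X)
      (famM (fun l => ((σ l : ℕ) : ℤ) + s) (h0Set (fun l => ((σ l : ℕ) : ℤ) + s) (-s))
        (homog T (n + 1)) m)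
      (famM (fun l => ((σ l : ℕ) : ℤ) + s) (h0Set (fun l => ((σ l : ℕ) : ℤ) + s) (-s))
        (fun _ => ⊥) m) i = 0 := by
  have hK := isPair_famKer (T := T) (fun l => ((σ l : ℕ) : ℤ) + s) ⊥ m
  have hK0 := hl_famKer_eq_zero (T := T) (fun l => ((σ l : ℕ) : ℤ) + s) ⊥ m i
  have hI := pairIso_rhoM (T := T) (fun l => ((σ l : ℕ) : ℤ) + s) ⊥ m
  have hW := isPair_famW (T := T) (fun l => ((σ l : ℕ) : ℤ) + s) (bot_le : ⊥ ≤ ⊤) m
  have hA' := isFam_famM (ξ := MvPolynomial.X) (isH0_h0Set (c := fun l => ((σ l : ℕ) : ℤ) + s)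
    (-s)) (isGr_bot (T := T) (MvPolynomial.X : Fin (n + 1) → PX T n)) m
  rw [homogIn_bot] at hK hK0
  have hcomm : ∀ j, ∀ x ∈ famM (fun l => ((σ l : ℕ) : ℤ) + s) ∅ (homog T (n + 1)) m j,
      rhoM T n (DM MvPolynomial.X x) - DW T n (rhoM T n x) ∈
        famW (fun l => ((σ l : ℕ) : ℤ) + s) ⊥ m (j - 1) := fun j x hx => by
    simpa only [one_smul, add_zero] using hI.comm j x hx
  rw [hl_eq_zero_iff] at hK0 ⊢
  intro x hx hdx
  obtain ⟨e0, he0, hx0⟩ := exists_split hx
  have hd0 := DM_mem_empty σ s hm hx0 (by rw [map_sub]; exact sub_mem hdx (hA' i _ he0))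
  generalize hx0' : x - sp e0 = x0 at hx0 hd0
  have hcyc : rhoM T n x0 ∈ cyc (DW T n) (famW (fun l => ((σ l : ℕ) : ℤ) + s) ⊤ m)
      (famW (fun l => ((σ l : ℕ) : ℤ) + s) ⊥ m) i := by
    refine mem_cyc.2 ⟨by simpa only [add_zero] using hI.map_top i x0 hx0, ?_⟩
    have h1 := hI.map_bot _ _ (hK.2.le _ hd0)
    rw [add_zero] at h1
    simpa only [sub_sub_cancel] using sub_mem h1 (hcomm i x0 hx0)
  obtain ⟨r, hr⟩ := hc _ _ _ _ _ hcyc
  have hu : (Finset.univ.filter fun l => 0 ≤ ((σ l : ℕ) : ℤ) + s + m) = Finset.univ :=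
    Finset.filter_true_of_mem fun l _ => by have := Int.natCast_nonneg (σ l : ℕ); omega
  obtain ⟨e1, ⟨he1, he2⟩, he3⟩ := Submodule.sum_mem _ fun a ha =>
    Submodule.smul_mem _ (r a) (mon_mem_map (T := T) σ s hm ha)
  obtain ⟨e, he, he', her⟩ : ∃ e, sp e ∈ famM (fun l => ((σ l : ℕ) : ℤ) + s)
      (h0Set (fun l => ((σ l : ℕ) : ℤ) + s) (-s)) (fun _ => (⊥ : Submodule T (PX T n))) m i ∧
      sp e ∈ famM (fun l => ((σ l : ℕ) : ℤ) + s) ∅ (homog T (n + 1)) m i ∧
      rhoM T n (x0 - sp e) ∈ bdy (DW T n) (famW (fun l => ((σ l : ℕ) : ℤ) + s) ⊤ m)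
        (famW (fun l => ((σ l : ℕ) : ℤ) + s) ⊥ m) i := by
    rw [posCnt, hu, Finset.card_univ, Fintype.card_fin] at hr
    split_ifs at hr with hi
    · refine ⟨e1, sp_mem (fun _ => he1) fun h => absurd hi h,
        sp_mem (fun _ => he2) fun h => absurd hi h, ?_⟩
      rw [map_sub, rhoM_sp]
      rwa [← he3] at hr
    · refine ⟨0, sp_mem (fun _ => zero_mem _) fun _ => rfl,
        sp_mem (fun _ => zero_mem _) fun _ => rfl, ?_⟩
      rw [map_sub, rhoM_sp, map_zero, Pi.single_zero]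
      exact hr
  obtain ⟨w, hw, hw'⟩ := mem_bdy.1 her
  obtain ⟨y0, hy0, hy0'⟩ := hI.surj (i + 1) w (by rwa [add_zero])
  rw [add_zero] at hy0'
  have hx1 : x0 - sp e - DM MvPolynomial.X y0 ∈
      famM (fun l => ((σ l : ℕ) : ℤ) + s) ∅ (homog T (n + 1)) m i :=
    sub_mem (sub_mem hx0 he') (by simpa only [add_sub_cancel_right] using hK.1.top _ _ hy0)
  have hx1K := hI.inj i _ hx1 (by
    have h1 := hW.bot _ _ hy0'
    have h2 := hcomm _ _ hy0
    rw [add_sub_cancel_right] at h1 h2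
    have h3 := sub_mem (add_mem hw' h1) h2
    rw [add_zero, map_sub (rhoM T n) (x0 - sp e)]
    rw [map_sub (DW T n)] at h3
    have e4 : ∀ a b c d : Finset (Fin n) → LR T n, a - b + (b - c) - (d - c) = a - d :=
      fun a b c d => by abel
    rwa [e4] at h3)
  obtain ⟨y1, hy1, hy1'⟩ := hK0 _ hx1K (DM_mem_empty σ s hm hx1 (by
    rw [map_sub, map_sub, DM_sq, sub_zero]
    exact sub_mem (famM_empty_le hd0) (hA' i _ he)))
  refine ⟨y0 + y1, famM_empty_le (add_mem hy0 (hK.1.le _ hy1)), ?_⟩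
  have h5 := add_mem (add_mem he0 he) (famM_empty_le hy1')
  rw [← hx0'] at h5
  rw [map_add]
  have e5 : ∀ a b c d f : VM (PX T n) n, b + c + (a - b - c - d - f) = a - (d + f) :=
    fun a b c d f => by abel
  rwa [e5] at h5

end H0

end GFA

end Vale.Agent.P202
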