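import Vale.Agent.P202.GeoSymm
import Vale.Agent.P202.GeoFreeAuxA

/-! Module M2b: the complexes of free and of hypersurface modules. -/

namespace Vale.Agent.P202

open Submodule IsLocalRing

variable {T : Type*} [CommRing T] {n : ℕ}

/-- The labels of the kernel of the augmentation, at the Cech vertex `ε`. -/
noncomputable def famKer (c : Fin n → ℤ) (𝔞 : Ideal T) (m : ℤ) (ε : Finset (Fin n)) :
    ℤ → Submodule T (Finset (Fin (n + 1)) → LR (MvPolynomial (Fin (n + 1)) T) n) :=
  totFam kdeg (kosKer (del (MvPolynomial.X : Fin (n + 1) → MvPolynomial (Fin (n + 1)) T))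
    (fun S => conc (lab c ε ∅ (homog T (n + 1)) (m - S.card)))
    (fun S => conc (lab c ε ∅ (homogIn (n + 1) 𝔞) (m - S.card))))

/-- The augmentation `f(X) z^a τ^s ↦ f(e τ) z^a τ^s`. -/
noncomputable def rho (T : Type*) [CommRing T] (n : ℕ) :
    LR (MvPolynomial (Fin (n + 1)) T) n →ₐ[T] LR T n :=
  AddMonoidAlgebra.liftNCAlgHom (evTau T n) (AddMonoidAlgebra.of T (Γ n))
    fun _ _ => Commute.all _ _

/-- The family `I` in degree `0`, zero elsewhere: the graded module `T[X] / (X)`. -/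
def deg0 (I : Ideal T) : ℤ → Submodule T T := fun a => if a = 0 then I else ⊥

/-- The Cech complex of `O(c + m)` with coefficients in the ideal `I`. -/
noncomputable def famW (c : Fin n → ℤ) (I : Ideal T) (m : ℤ) :
    ℤ → Submodule T (Finset (Fin n) → LR T n) :=
  totFam kdeg fun ε => conc (lab c ε ∅ (deg0 I) m)

/-- The Cech differential. -/
noncomputable def DW (T : Type*) [CommRing T] (n : ℕ) :
    (Finset (Fin n) → LR T n) →ₗ[LR T n] (Finset (Fin n) → LR T n) :=
  tot (kos fun _ : Fin n => (1 : LR T n)) kdeg 0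

/-- The map induced by the augmentation. -/
noncomputable def rhoM (T : Type*) [CommRing T] (n : ℕ) :
    VM (MvPolynomial (Fin (n + 1)) T) n →ₗ[T] (Finset (Fin n) → LR T n) where
  toFun v := fun ε => rho T n (v ε ∅)
  map_add' v w := by ext1 ε; simp
  map_smul' r v := by ext1 ε; simp

/-! ### Part A: reduction to the Cech complex (uses the automorphism `X_j ↦ X_j + e_j τ` and KC) -/

theorem isPair_famKer (c : Fin n → ℤ) (𝔞 : Ideal T) (m : ℤ) :
    IsPair (DM MvPolynomial.X) (famM c ∅ (homog T (n + 1)) m) (totFam kdeg (famKer c 𝔞 m)) ∧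
    IsPair (DM MvPolynomial.X) (totFam kdeg (famKer c 𝔞 m)) (famM c ∅ (homogIn (n + 1) 𝔞) m) :=
  GFA.isPair_famKer c 𝔞 m
theorem hl_famKer_eq_zero (c : Fin n → ℤ) (𝔞 : Ideal T) (m i : ℤ) :
    hl (DM MvPolynomial.X) (totFam kdeg (famKer c 𝔞 m)) (famM c ∅ (homogIn (n + 1) 𝔞) m) i = 0 :=
  GFA.hl_famKer_eq_zero c 𝔞 m i
theorem isPair_famW (c : Fin n → ℤ) {I I' : Ideal T} (h : I' ≤ I) (m : ℤ) :
    IsPair (DW T n) (famW c I m) (famW c I' m) := GFA.isPair_famW c h m
theorem pairIso_rhoM (c : Fin n → ℤ) (𝔞 : Ideal T) (m : ℤ) :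
    PairIso (DM MvPolynomial.X) (famM c ∅ (homog T (n + 1)) m) (totFam kdeg (famKer c 𝔞 m))
      (DW T n) (famW c ⊤ m) (famW c 𝔞 m) (rhoM T n) 1 0 := GFA.pairIso_rhoM c 𝔞 m

/-! ### Part B: the Cech complex -/

theorem pb_mem_famW {c : Fin n → ℤ} {I : Ideal T} {m i : ℤ} {v : Finset (Fin n) → LR T n} :
    v ∈ famW c I m i ↔ ∀ ε, if i = ε.card then v ε ∈ lab c ε ∅ (deg0 I) m else v ε = 0 := by
  rw [famW, mem_totFam]
  refine forall_congr' fun ε => ?_
  by_cases h : i = ε.card
  · simp [conc, kdeg, h]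
  · simp [conc, kdeg, h, sub_eq_zero]

theorem pb_DW_apply (v : Finset (Fin n) → LR T n) (ε : Finset (Fin n)) :
    DW T n v ε = ∑ j, if j ∉ ε then ksgn j ε • v (insert j ε) else 0 := by
  have := matAct_kos_apply (fun _ : Fin n => (1 : LR T n)) v ε
  simp only [one_smul] at this
  rw [← this, DW, tot_apply, matAct_apply]
  simp

open Classical in
/-- The part of a Laurent polynomial supported on the monomials with property `p`. -/
noncomputable def pbFilt (p : Γ n → Prop) : LR T n →ₗ[T] LR T n where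
  toFun f := AddMonoidAlgebra.ofCoeff (f.coeff.filter p)
  map_add' f g := by ext; simp [Finsupp.filter_add]
  map_smul' r f := by ext; simp [Finsupp.filter_smul]

open Classical in
theorem pb_coeff_filt (p : Γ n → Prop) (f : LR T n) (γ : Γ n) :
    (pbFilt p f).coeff γ = if p γ then f.coeff γ else 0 := by
  simp [pbFilt, Finsupp.filter_apply]

/-- The coordinate `l` of the monomial is allowed both inside and outside of the vertex. -/
def pbFree (c : Fin n → ℤ) (γ : Γ n) (l : Fin n) : Prop := 0 ≤ γ.1 l ∧ c l + γ.2 < γ.1 l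

/-- `l` is the least free coordinate. -/
def pbLeast (c : Fin n → ℤ) (l : Fin n) (γ : Γ n) : Prop :=
  pbFree c γ l ∧ ∀ k, k < l → ¬ pbFree c γ k

theorem pb_sum_filt (c : Fin n → ℤ) (f : LR T n) :
    f - ∑ l, pbFilt (pbLeast c l) f = pbFilt (fun γ => ∀ l, ¬ pbFree c γ l) f := by
  classical
  ext γ
  simp only [AddMonoidAlgebra.coeff_sub, AddMonoidAlgebra.coeff_sum, Finsupp.sub_apply,
    Finsupp.finsetSum_apply, pb_coeff_filt]
  by_cases h : ∀ l, ¬ pbFree c γ l
  · rw [if_pos h, Finset.sum_eq_zero fun l _ => if_neg fun h' => h l h'.1, sub_zero]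
  · rw [if_neg h]
    push Not at h
    obtain ⟨l, hl, hmin⟩ := (wellFounded_lt (α := Fin n)).has_min {l | pbFree c γ l} h
    rw [Finset.sum_eq_single l, if_pos ⟨hl, fun k hk h' => hmin k h' hk⟩, sub_self]
    · intro k _ hk
      refine if_neg fun h' => ?_
      rcases lt_or_gt_of_ne hk with h1 | h1
      · exact hmin k h'.1 h1
      · exact h'.2 l h1 hl
    · simp

theorem pb_filt_mem_insert {c : Fin n → ℤ} {ε : Finset (Fin n)} {P : ℤ → Submodule T T} {m : ℤ}
    {f : LR T n} (hf : f ∈ lab c ε ∅ P m) (l : Fin n) :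
    pbFilt (pbLeast c l) f ∈ lab c (insert l ε) ∅ P m := by
  classical
  intro γ
  rw [pb_coeff_filt]
  by_cases h : pbLeast c l γ
  · rw [if_pos h]
    refine ⟨fun ⟨k, hk, hk'⟩ => (hf γ).1 ⟨k, ?_, hk'⟩, fun h1 h2 => (hf γ).2 ?_ h2⟩
    · rcases Finset.mem_insert.1 hk with rfl | hk
      · exact absurd h.1.1 (not_le.2 hk')
      · exact hk
    · rintro ⟨k, hk, hk'⟩
      refine h1 ⟨k, fun h3 => ?_, hk'⟩
      rcases Finset.mem_insert.1 h3 with rfl | h3
      · exact absurd h.1.2 (not_lt.2 hk')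
      · exact hk h3
  · rw [if_neg h]
    exact ⟨fun _ => rfl, fun _ _ => zero_mem _⟩

/-- The monomial-wise contracting homotopy of the Cech complex. -/
noncomputable def pbH (c : Fin n → ℤ) (v : Finset (Fin n) → LR T n) : Finset (Fin n) → LR T n :=
  ∑ l, matAct (creMat l (1 : LR T n)) fun ε => pbFilt (pbLeast c l) (v ε)

theorem pb_H_mem {c : Fin n → ℤ} {I : Ideal T} {m i : ℤ} {v : Finset (Fin n) → LR T n}
    (hv : v ∈ famW c I m i) : pbH c v ∈ famW c I m (i + 1) := by
  refine sum_mem fun l _ => mem_totFam.2 fun ε => ?_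
  rw [matAct_apply]
  refine sum_mem fun ε' _ => ?_
  unfold creMat
  split_ifs with h
  · obtain ⟨h1, rfl⟩ := h
    rw [smul_one_smul]
    refine Submodule.smul_of_tower_mem _ _ ?_
    have h2 := pb_mem_famW.1 hv ε'
    have h3 : kdeg (insert l ε') = ε'.card + 1 := by
      rw [kdeg, Finset.card_insert_of_notMem h1]; push_cast; rfl
    rw [h3]
    by_cases hi : i = ε'.card
    · rw [if_pos hi] at h2
      rw [conc, if_pos (by omega)]
      exact pb_filt_mem_insert h2 l
    · rw [if_neg hi] at h2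
      rw [h2, map_zero]
      exact zero_mem _
  · rw [zero_smul]; exact zero_mem _

theorem pb_H_homotopy (c : Fin n → ℤ) (v : Finset (Fin n) → LR T n) :
    DW T n (pbH c v) + pbH c (DW T n v) = ∑ l, fun ε => pbFilt (pbLeast c l) (v ε) := by
  rw [pbH, pbH, map_sum, ← Finset.sum_add_distrib]
  refine Finset.sum_congr rfl fun l _ => ?_
  have h1 : (fun ε => pbFilt (pbLeast c l) (DW T n v ε)) =
      DW T n fun ε => pbFilt (pbLeast c l) (v ε) := by
    funext ε
    rw [pb_DW_apply, pb_DW_apply, map_sum]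
    refine Finset.sum_congr rfl fun j _ => ?_
    split_ifs
    · exact map_zero _
    · exact map_zsmul _ _ _
  rw [h1, DW, tot_matAct_homotopy (isHomog_creMat l 1), kos_mul_creMat, matAct_smul_one, one_mul,
    one_smul]

theorem pb_coeff_box (s : Finset (Fin n → ℤ)) (r : (Fin n → ℤ) → T) (m : ℤ) (γ : Γ n) :
    (∑ a ∈ s, r a • mon T a m).coeff γ = if γ.2 = m ∧ γ.1 ∈ s then r γ.1 else 0 := by
  classical
  obtain ⟨b, t⟩ := γ
  simp only [AddMonoidAlgebra.coeff_sum, Finsupp.finsetSum_apply, mon,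
    AddMonoidAlgebra.coeff_smul_apply, AddMonoidAlgebra.coeff_single, Finsupp.single_apply,
    Prod.mk.injEq,
    smul_eq_mul, mul_ite, mul_one, mul_zero]
  by_cases h : t = m
  · subst h; simp
  · simp [h, Ne.symm h]

theorem pb_mem_boxSet {c a : Fin n → ℤ} :
    a ∈ boxSet c ↔ ∀ l, (0 ≤ c l → 0 ≤ a l ∧ a l ≤ c l) ∧ (c l < 0 → c l < a l ∧ a l < 0) := by
  rw [boxSet, Fintype.mem_piFinset]
  refine forall_congr' fun l => ?_
  split_ifs with h
  · simp [h]
  · simp [h, not_le.1 h]

/-- Every Cech cycle is homologous to one supported on the box at the vertex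
`{l | 0 ≤ c l + m}`. -/
theorem cech_cycle (c : Fin n → ℤ) (I : Ideal T) (m i : ℤ) (v : Finset (Fin n) → LR T n)
    (hv : v ∈ cyc (DW T n) (famW c ⊤ m) (famW c I m) i) :
    ∃ r : (Fin n → ℤ) → T, v - (if i = posCnt (fun l => c l + m) then
      Pi.single (Finset.univ.filter fun l => 0 ≤ c l + m)
        (∑ a ∈ boxSet (fun l => c l + m), r a • mon T a m) else 0) ∈
      bdy (DW T n) (famW c ⊤ m) (famW c I m) i := by
  classical
  obtain ⟨h1, h2⟩ := mem_cyc.1 hv
  set ε₀ : Finset (Fin n) := Finset.univ.filter fun l => 0 ≤ c l + m with hε₀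
  refine ⟨fun a => (v ε₀).coeff (a, m), mem_bdy.2 ⟨pbH c v, pb_H_mem h1, ?_⟩⟩
  have h3 := pb_H_mem h2
  rw [sub_add_cancel] at h3
  rw [eq_sub_of_add_eq (pb_H_homotopy c v), sub_right_comm, ← sub_add, add_sub_right_comm]
  refine add_mem (pb_mem_famW.2 fun ε => ?_) h3
  have h4 := pb_mem_famW.1 h1 ε
  have h5 : (v - ∑ l, fun ε => pbFilt (pbLeast c l) (v ε)) ε =
      pbFilt (fun γ => ∀ l, ¬ pbFree c γ l) (v ε) := by
    rw [← pb_sum_filt, Pi.sub_apply, Finset.sum_apply]
  have h6 : posCnt (fun l => c l + m) = ε₀.card := rfl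
  rw [Pi.sub_apply, h5, h6]
  by_cases hi : i = ε.card
  · rw [if_pos hi] at h4 ⊢
    intro γ
    rw [AddMonoidAlgebra.coeff_sub, Finsupp.sub_apply, pb_coeff_filt]
    by_cases hγ : (v ε).coeff γ = 0
    · have : ((if i = ε₀.card then Pi.single ε₀ (∑ a ∈ boxSet (fun l => c l + m),
          (v ε₀).coeff (a, m) • mon T a m) else 0 : Finset (Fin n) → LR T n) ε).coeff γ = 0 := by
        split_ifs
        · by_cases he : ε = ε₀
          · subst he
            rw [Pi.single_eq_same, pb_coeff_box]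
            split_ifs with h
            · rw [← h.1]; exact hγ
            · rfl
          · rw [Pi.single_eq_of_ne he]; rfl
        · rfl
      rw [this, hγ]
      simp
    refine ⟨fun h => absurd ((h4 γ).1 h) hγ, fun h _ => ?_⟩
    have k1 : ∀ l ∈ ε, 0 ≤ γ.1 l := fun l hl => not_lt.1 fun h' => hγ ((h4 γ).1 ⟨l, hl, h'⟩)
    have k2 : ∀ l, l ∉ ε → c l + γ.2 < γ.1 l := fun l hl => not_le.1 fun h' => h ⟨l, hl, h'⟩
    have k3 : γ.2 = m := by
      have := (h4 γ).2 h (Set.notMem_empty _)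
      by_contra h'
      rw [deg0, if_neg (fun e => h' (by omega))] at this
      exact hγ this
    by_cases hf : ∀ l, ¬ pbFree c γ l
    · have k4 : ∀ l, (l ∈ ε → γ.1 l ≤ c l + m) ∧ (l ∉ ε → γ.1 l < 0) := fun l =>
        ⟨fun hl => k3 ▸ not_lt.1 fun h' => hf l ⟨k1 l hl, h'⟩,
          fun hl => not_le.1 fun h' => hf l ⟨h', k2 l hl⟩⟩
      have he : ε = ε₀ := by
        ext l
        simp only [hε₀, Finset.mem_filter, Finset.mem_univ, true_and]
        refine ⟨fun hl => (k1 l hl).trans ((k4 l).1 hl), fun hl => by_contra fun h' => ?_⟩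
        have := k2 l h'
        have := (k4 l).2 h'
        omega
      subst he
      have k5 : γ.1 ∈ boxSet fun l => c l + m := pb_mem_boxSet.2 fun l =>
        ⟨fun hl => ⟨k1 l (by simpa [hε₀] using hl), (k4 l).1 (by simpa [hε₀] using hl)⟩,
          fun hl => ⟨k3 ▸ k2 l (by simpa [hε₀] using hl), (k4 l).2 (by simpa [hε₀] using hl)⟩⟩
      rw [if_pos hf, if_pos hi, Pi.single_eq_same, pb_coeff_box, if_pos ⟨k3, k5⟩,
        show (γ.1, m) = γ from Prod.ext rfl k3.symm, sub_self]
      exact zero_mem _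
    · have : ((if i = ε₀.card then Pi.single ε₀ (∑ a ∈ boxSet (fun l => c l + m),
          (v ε₀).coeff (a, m) • mon T a m) else 0 : Finset (Fin n) → LR T n) ε).coeff γ = 0 := by
        split_ifs
        · by_cases he : ε = ε₀
          · subst he
            rw [Pi.single_eq_same, pb_coeff_box, if_neg]
            rintro ⟨-, h'⟩
            refine hf fun l hl => ?_
            have := pb_mem_boxSet.1 h' l
            have := hl.1
            have := hl.2
            omega
          · rw [Pi.single_eq_of_ne he]; rfl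
        · rfl
      rw [this, if_neg hf, sub_zero]
      exact zero_mem _
  · rw [if_neg hi] at h4 ⊢
    rw [h4, map_zero, zero_sub, neg_eq_zero]
    split_ifs with h
    · exact Pi.single_eq_of_ne (fun e => hi (by rw [h, e])) _
    · rfl

theorem pb_box_cyc {c : Fin n → ℤ} {I : Ideal T} {m : ℤ} (r : (Fin n → ℤ) → T) :
    Pi.single (Finset.univ.filter fun l => 0 ≤ c l + m)
      (∑ a ∈ boxSet (fun l => c l + m), r a • mon T a m) ∈
      cyc (DW T n) (famW c ⊤ m) (famW c I m) (posCnt fun l => c l + m) := by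
  classical
  set ε₀ : Finset (Fin n) := Finset.univ.filter fun l => 0 ≤ c l + m with hε₀
  have h6 : posCnt (fun l => c l + m) = ε₀.card := rfl
  have hz : ∀ ε ⊆ ε₀, ∀ γ, IsZeroAt ε γ →
      (∑ a ∈ boxSet (fun l => c l + m), r a • mon T a m).coeff γ = 0 := by
    rintro ε hε γ ⟨l, hl, hl'⟩
    rw [pb_coeff_box, if_neg]
    rintro ⟨-, h⟩
    exact absurd ((pb_mem_boxSet.1 h l).1 (by simpa [hε₀] using hε hl)).1 (not_le.2 hl')
  refine mem_cyc.2 ⟨pb_mem_famW.2 fun ε => ?_, mem_totFam.2 fun ε => ?_⟩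
  · by_cases he : ε = ε₀
    · subst he
      rw [if_pos (by rw [h6]), Pi.single_eq_same]
      refine fun γ => ⟨hz _ subset_rfl γ, fun _ _ => ?_⟩
      rw [pb_coeff_box]
      split_ifs with h
      · rw [h.1, sub_self, deg0, if_pos rfl]; trivial
      · exact zero_mem _
    · rw [Pi.single_eq_of_ne he]
      split_ifs
      · exact zero_mem _
      · rfl
  · rw [pb_DW_apply]
    refine sum_mem fun j _ => ?_
    split_ifs with hj
    · exact zero_mem _
    refine Submodule.smul_of_tower_mem _ _ ?_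
    by_cases he : insert j ε = ε₀
    · have h7 : ε₀.card = ε.card + 1 := by rw [← he, Finset.card_insert_of_notMem hj]
      rw [he, Pi.single_eq_same, conc, if_pos (by rw [h6, h7, kdeg]; push_cast; ring)]
      refine fun γ => ⟨hz _ (he ▸ Finset.subset_insert _ _) γ, fun h _ => ?_⟩
      rw [pb_coeff_box]
      split_ifs with h'
      · refine absurd ⟨j, hj, ?_⟩ h
        have hj0 : j ∈ ε₀ := he ▸ Finset.mem_insert_self _ _
        rw [h'.1]
        exact ((pb_mem_boxSet.1 h'.2 j).1 (by simpa [hε₀] using hj0)).2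
      · exact zero_mem _
    · rw [Pi.single_eq_of_ne he]; exact zero_mem _

/-- The detector kills boundaries. -/
theorem pb_detect {c : Fin n → ℤ} {I : Ideal T} {m : ℤ} {v : Finset (Fin n) → LR T n}
    (hv : v ∈ bdy (DW T n) (famW c ⊤ m) (famW c I m) (posCnt fun l => c l + m))
    {a : Fin n → ℤ} (ha : a ∈ boxSet fun l => c l + m) :
    (v (Finset.univ.filter fun l => 0 ≤ c l + m)).coeff (a, m) ∈ I := by
  classical
  set ε₀ : Finset (Fin n) := Finset.univ.filter fun l => 0 ≤ c l + m with hε₀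
  have h6 : posCnt (fun l => c l + m) = ε₀.card := rfl
  obtain ⟨y, hy, h⟩ := mem_bdy.1 hv
  have h1 := pb_mem_famW.1 h ε₀
  rw [if_pos (by rw [h6])] at h1
  have h2 := (h1 (a, m)).2 (by
    rintro ⟨l, hl, hl'⟩
    exact absurd ((pb_mem_boxSet.1 ha l).2 (by simpa [hε₀] using hl)).1 (not_lt.2 hl'))
    (Set.notMem_empty _)
  have h3 : (DW T n y ε₀).coeff (a, m) = 0 := by
    rw [pb_DW_apply, AddMonoidAlgebra.coeff_sum, Finsupp.finsetSum_apply]
    refine Finset.sum_eq_zero fun j _ => ?_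
    split_ifs with hj
    · rfl
    have h4 := pb_mem_famW.1 hy (insert j ε₀)
    rw [if_pos (by rw [h6, Finset.card_insert_of_notMem hj]; push_cast; rfl)] at h4
    rw [AddMonoidAlgebra.coeff_smul_apply, (h4 (a, m)).1 ⟨j, Finset.mem_insert_self _ _,
      ((pb_mem_boxSet.1 ha j).2 (by simpa [hε₀] using hj)).2⟩, smul_zero]
  rw [Pi.sub_apply, AddMonoidAlgebra.coeff_sub, Finsupp.sub_apply, h3, sub_zero, sub_self, deg0,
    if_pos rfl] at h2
  exact h2

theorem pb_rl_pi [IsLocalRing T] {ι : Type*} [Fintype ι] :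
    rl (Submodule.pi Set.univ fun _ : ι => (⊤ : Submodule T T))
      (Submodule.pi Set.univ fun _ : ι => maximalIdeal T) = Fintype.card ι := by
  have : IsSimpleModule T (T ⧸ maximalIdeal T) :=
    isSimpleModule_iff_isCoatom.2 (Ideal.isMaximal_def.1 inferInstance)
  rw [rl_pi, rl_top, Module.length_eq_one]
  simp

/-- The element of the Cech complex given by coefficients on a finite set of exponents. -/
noncomputable def pbBox (T : Type*) [CommRing T] (s : Finset (Fin n → ℤ)) (m : ℤ) :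
    (s → T) →ₗ[T] LR T n := Fintype.linearCombination T fun a : s => mon T a.1 m

theorem pb_box_eq (s : Finset (Fin n → ℤ)) (m : ℤ) (r : s → T) :
    pbBox T s m r = ∑ a ∈ s, (if h : a ∈ s then r ⟨a, h⟩ else 0) • mon T a m := by
  rw [pbBox, Fintype.linearCombination_apply, ← Finset.sum_coe_sort s]
  exact Finset.sum_congr rfl fun a _ => by rw [dif_pos a.2]

theorem pb_coeff_pbBox (s : Finset (Fin n → ℤ)) (m : ℤ) (r : s → T) (a : s) :
    (pbBox T s m r).coeff (a.1, m) = r a := by
  rw [pb_box_eq, pb_coeff_box, if_pos ⟨rfl, a.2⟩, dif_pos a.2]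

theorem pb_hl_famW [IsLocalRing T] (c : Fin n → ℤ) (m i : ℤ) :
    hl (DW T n) (famW c ⊤ m) (famW c (maximalIdeal T) m) i = boxAt (fun l => c l + m) i := by
  classical
  rw [boxAt]
  split_ifs with hi
  · subst hi
    rw [← card_boxSet, ← Fintype.card_coe, ← pb_rl_pi (T := T), hl]
    symm
    refine rl_eq_of_map (LinearMap.single T (fun _ => LR T n)
      (Finset.univ.filter fun l => 0 ≤ c l + m) ∘ₗ pbBox T (boxSet fun l => c l + m) m)
      (fun r _ => ?_) (fun r hr => les_bot_le_bdy (pb_mem_famW.2 fun ε => ?_)) (fun v hv => ?_)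
      fun r _ hr a _ => ?_
    · rw [LinearMap.comp_apply, pb_box_eq]
      exact pb_box_cyc _
    · have h1 := pb_mem_famW.1 (pb_box_cyc (c := c) (m := m) (I := ⊤)
        fun a => if h : a ∈ boxSet fun l => c l + m then r ⟨a, h⟩ else 0).1 ε
      rw [LinearMap.comp_apply, pb_box_eq, LinearMap.single_apply]
      split_ifs at h1 ⊢
      · refine fun γ => ⟨(h1 γ).1, fun _ _ => ?_⟩
        by_cases he : ε = Finset.univ.filter fun l => 0 ≤ c l + m
        · subst he
          rw [Pi.single_eq_same, pb_coeff_box]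
          split_ifs with h h'
          · rw [h.1, sub_self, deg0, if_pos rfl]; exact hr _ trivial
          · exact zero_mem _
          · exact zero_mem _
        · rw [Pi.single_eq_of_ne he]; exact zero_mem _
      · exact h1
    · obtain ⟨r, hr⟩ := cech_cycle c _ m _ v hv
      refine ⟨fun a => r a.1, fun _ _ => trivial, ?_⟩
      rw [if_pos rfl] at hr
      rwa [LinearMap.comp_apply, pb_box_eq, LinearMap.single_apply,
        Finset.sum_congr (g := fun a => r a • mon T a m) rfl fun a ha => by rw [dif_pos ha]]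
    · have := pb_detect hr a.2
      rwa [LinearMap.comp_apply, LinearMap.single_apply, Pi.single_eq_same, pb_coeff_pbBox] at this
  · refine rl_eq_zero_iff.2 fun v hv => ?_
    obtain ⟨r, hr⟩ := cech_cycle c _ m _ v hv
    rwa [if_neg hi, sub_zero] at hr

/-- (E1) the free module over the residue field. -/
theorem hl_famM_free [IsLocalRing T] (c : Fin n → ℤ) (m i : ℤ) :
    hl (DM MvPolynomial.X) (famM c ∅ (homog T (n + 1)) m)
      (famM c ∅ (homogIn (n + 1) (maximalIdeal T)) m) i = boxAt (fun l => c l + m) i := by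
  obtain ⟨p1, p2⟩ := isPair_famKer c (maximalIdeal T) m
  obtain ⟨α, β, γ, h1, h2, h3, -⟩ := exists_les p1 p2
  have h4 := fun j => add_eq_zero.1 ((h3 j).symm.trans (hl_famKer_eq_zero c (maximalIdeal T) m j))
  have h5 := (h4 (i - 1)).1
  rw [sub_add_cancel] at h5
  have h6 := (pairIso_rhoM c (maximalIdeal T) m).hl_eq p1 (isPair_famW c le_top m) i
  rw [h2, h5, add_zero, add_zero, pb_hl_famW] at h6
  rw [h1, (h4 i).2, zero_add, h6]

/-- The graded module `𝔪 T[X] + f T[X]`. -/
noncomputable def hyp [IsLocalRing T] (f : MvPolynomial (Fin (n + 1)) T) (δ : ℤ) :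
    ℤ → Submodule T (MvPolynomial (Fin (n + 1)) T) := fun b =>
  homogIn (n + 1) (maximalIdeal T) b ⊔ (homog T (n + 1) (b - δ)).map (evMul MvPolynomial.X f)

theorem pb_mem_homogIn_iff [IsLocalRing T] {a : ℤ} {f : MvPolynomial (Fin (n + 1)) T}
    (hf : f ∈ homog T (n + 1) a) : f ∈ homogIn (n + 1) (maximalIdeal T) a ↔
      MvPolynomial.map (residue T) f = 0 := by
  rw [mem_homogIn, and_iff_right hf, MvPolynomial.ext_iff]
  simp [MvPolynomial.coeff_map]

theorem pb_cycAnn [IsLocalRing T] {f : MvPolynomial (Fin (n + 1)) T} {δ : ℤ}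
    (hf : f ∈ homog T (n + 1) δ) (hf' : f ∉ homogIn (n + 1) (maximalIdeal T) δ) :
    cycAnn MvPolynomial.X (homogIn (n + 1) (maximalIdeal T)) f δ =
      homogIn (n + 1) (maximalIdeal T) := by
  funext b
  ext g
  rw [pb_mem_homogIn_iff hf] at hf'
  simp only [cycAnn, mem_inf, mem_comap, evMul_apply, MvPolynomial.aeval_X_left_apply]
  constructor
  · rintro ⟨h1, h2⟩
    rw [pb_mem_homogIn_iff (mul_mem_homog h1 hf), map_mul] at h2
    exact (pb_mem_homogIn_iff h1).2 ((mul_eq_zero.1 h2).resolve_right hf')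
  · intro h
    have h1 := (mem_homogIn.1 h).1
    refine ⟨h1, (pb_mem_homogIn_iff (mul_mem_homog h1 hf)).2 ?_⟩
    rw [map_mul, (pb_mem_homogIn_iff h1).1 h, zero_mul]

theorem pb_mem_innerSet {c a : Fin n → ℤ} {δ : ℕ} : a ∈ innerSet c δ ↔
    ∀ l, (0 ≤ c l → 0 ≤ a l ∧ a l ≤ c l - δ) ∧ (c l < 0 → c l < a l ∧ a l < -δ) := by
  rw [innerSet, Fintype.mem_piFinset]
  refine forall_congr' fun l => ?_
  split_ifs with h
  · simp [h]
  · simp [h, not_le.1 h]

theorem pb_DM_apply {H : Type*} [CommRing H] (ξ : Fin (n + 1) → H) (v : VM H n)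
    (ε : Finset (Fin n)) (S : Finset (Fin (n + 1))) : DM ξ v ε S =
      (∑ j, if j ∉ ε then ksgn j ε • v (insert j ε) S else 0) +
      sgn (kdeg ε) • ∑ j, if j ∉ S then ksgn j S • del ξ j • v ε (insert j S) else 0 := by
  have h1 := matAct_kos_apply (fun _ : Fin n => (1 : LR H n)) v ε
  have h2 := matAct_kos_apply (del ξ) (v ε) S
  rw [matAct_apply] at h1 h2
  rw [DM, tot_apply, h1, Pi.add_apply, Pi.smul_apply, DK, tot_apply, h2, Finset.sum_apply]
  simp only [one_smul, LinearMap.zero_apply, smul_zero, add_zero]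
  congr 1
  refine Finset.sum_congr rfl fun j _ => ?_
  split_ifs <;> rfl

theorem pb_map_evTau {k : Type*} [CommRing k] (φ : T →+* k) (f : MvPolynomial (Fin (n + 1)) T) :
    AddMonoidAlgebra.mapRingHom (Γ n) φ (evTau T n f) = evTau k n (MvPolynomial.map φ f) := by
  induction f using MvPolynomial.induction_on with
  | C a => simp [evTau, AddMonoidAlgebra.coe_algebraMap]
  | add p q hp hq => simp only [map_add, hp, hq]
  | mul_X p j hp =>
    simp only [map_mul, hp, MvPolynomial.map_X]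
    simp [evTau, eTau, mon]

/-- The cycles `f z^a τ^(m - δ)`. -/
noncomputable def pbHyp (c : Fin n → ℤ) (f : MvPolynomial (Fin (n + 1)) T) (δ : ℕ) (m : ℤ) :
    (innerSet (fun l => c l + m) δ → T) →ₗ[T] VM (MvPolynomial (Fin (n + 1)) T) n :=
  LinearMap.single T _ (Finset.univ.filter fun l => 0 ≤ c l + m) ∘ₗ LinearMap.single T _ ∅ ∘ₗ
    Fintype.linearCombination T fun a => AddMonoidAlgebra.single (a.1, m - δ) f

theorem pb_coeff_hyp (s : Finset (Fin n → ℤ)) (r : s → T) (t : ℤ)
    (f : MvPolynomial (Fin (n + 1)) T) (γ : Γ n) :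
    ∃ x : T, (Fintype.linearCombination T (fun a : s => (AddMonoidAlgebra.single (a.1, t) f :
      LR (MvPolynomial (Fin (n + 1)) T) n)) r).coeff γ = x • f ∧ (x = 0 ∨ γ.2 = t ∧ γ.1 ∈ s) := by
  classical
  refine ⟨∑ a : s, if (a.1, t) = γ then r a else 0, ?_, ?_⟩
  · rw [Fintype.linearCombination_apply, AddMonoidAlgebra.coeff_sum, Finsupp.finsetSum_apply,
      Finset.sum_smul]
    refine Finset.sum_congr rfl fun a _ => ?_
    rw [AddMonoidAlgebra.coeff_smul_apply, AddMonoidAlgebra.coeff_single, Finsupp.single_apply]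
    split_ifs <;> simp
  · refine or_iff_not_imp_right.2 fun h => Finset.sum_eq_zero fun a _ => if_neg ?_
    rintro rfl
    exact h ⟨rfl, a.2⟩

theorem pb_hyp_cyc [IsLocalRing T] (c : Fin n → ℤ) (f : MvPolynomial (Fin (n + 1)) T) (δ : ℕ)
    (m : ℤ) (r : innerSet (fun l => c l + m) δ → T) :
    pbHyp c f δ m r ∈ cyc (DM MvPolynomial.X) (famM c ∅ (hyp f δ) m)
      (famM c ∅ (homogIn (n + 1) (maximalIdeal T)) m) (posCnt fun l => c l + m) := by
  classical
  set ε₀ : Finset (Fin n) := Finset.univ.filter fun l => 0 ≤ c l + m with hε₀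
  have h6 : posCnt (fun l => c l + m) = ε₀.card := rfl
  set F := Fintype.linearCombination T (fun a : innerSet (fun l => c l + m) δ =>
    (AddMonoidAlgebra.single (a.1, m - δ) f : LR (MvPolynomial (Fin (n + 1)) T) n)) r with hF
  have hv : pbHyp c f δ m r = Pi.single ε₀ (Pi.single ∅ F) := rfl
  have hv0 : ∀ ε S, ε ≠ ε₀ ∨ S ≠ ∅ → pbHyp c f δ m r ε S = 0 := by
    intro ε S h
    rw [hv]
    by_cases he : ε = ε₀
    · subst he
      rw [Pi.single_eq_same, Pi.single_eq_of_ne (h.resolve_left fun h => h rfl)]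
    · rw [Pi.single_eq_of_ne he]; rfl
  have hv1 : pbHyp c f δ m r ε₀ ∅ = F := by rw [hv, Pi.single_eq_same, Pi.single_eq_same]
  have hz : ∀ ε ⊆ ε₀, ∀ γ, IsZeroAt ε γ → F.coeff γ = 0 := by
    rintro ε hε γ ⟨l, hl, hl'⟩
    obtain ⟨x, hx, hx'⟩ := pb_coeff_hyp _ r (m - δ) f γ
    rw [hx]
    rcases hx' with rfl | ⟨-, h⟩
    · exact zero_smul _ _
    · exact absurd ((pb_mem_innerSet.1 h l).1 (by simpa [hε₀] using hε hl)).1 (not_le.2 hl')
  refine mem_cyc.2 ⟨mem_famM.2 fun ε S => ?_, mem_famM.2 fun ε S => ?_⟩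
  · by_cases he : ε ≠ ε₀ ∨ S ≠ ∅
    · rw [hv0 ε S he]
      split_ifs
      · exact zero_mem _
      · rfl
    · push Not at he
      obtain ⟨rfl, rfl⟩ := he
      rw [if_pos (by rw [h6]; simp), hv1]
      refine fun γ => ⟨hz _ subset_rfl γ, fun _ _ => ?_⟩
      obtain ⟨x, hx, hx'⟩ := pb_coeff_hyp _ r (m - δ) f γ
      rw [hx]
      rcases hx' with rfl | ⟨h, -⟩
      · rw [zero_smul]; exact zero_mem _
      · refine Submodule.smul_mem _ _ (mem_sup_right ⟨1, mem_homog.2 fun u hu => ?_, ?_⟩)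
        · rw [MvPolynomial.coeff_one] at hu
          have : 0 = u := by by_contra h'; exact hu (if_neg h')
          subst this
          rw [h]; simp
        · rw [evMul_apply, map_one, one_mul]
  · rw [pb_DM_apply, Finset.sum_eq_zero (s := Finset.univ)
      (f := fun j => if j ∉ S then ksgn j S • del MvPolynomial.X j • pbHyp c f δ m r ε (insert j S)
        else 0) fun j _ => by rw [hv0 _ _ (Or.inr (Finset.insert_ne_empty _ _))]; simp,
      smul_zero, add_zero]
    split_ifs with hi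
    · refine sum_mem fun j _ => ?_
      split_ifs with hj
      · exact zero_mem _
      refine Submodule.smul_of_tower_mem _ _ ?_
      by_cases he : insert j ε ≠ ε₀ ∨ S ≠ ∅
      · rw [hv0 _ S he]; exact zero_mem _
      push Not at he
      obtain ⟨he, rfl⟩ := he
      rw [he, hv1]
      refine fun γ => ⟨hz _ (he ▸ Finset.subset_insert _ _) γ, fun h _ => ?_⟩
      obtain ⟨x, hx, hx'⟩ := pb_coeff_hyp _ r (m - δ) f γ
      rw [hx]
      rcases hx' with rfl | ⟨h1, h2⟩
      · rw [zero_smul]; exact zero_mem _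
      · refine absurd ⟨j, hj, ?_⟩ h
        have hj0 : j ∈ ε₀ := he ▸ Finset.mem_insert_self _ _
        have := ((pb_mem_innerSet.1 h2 j).1 (by simpa [hε₀] using hj0)).2
        omega
    · refine Finset.sum_eq_zero fun j _ => ?_
      split_ifs with hj
      · rfl
      rw [hv0, smul_zero]
      by_contra he
      push Not at he
      obtain ⟨he, rfl⟩ := he
      refine hi ?_
      rw [h6, ← he, Finset.card_insert_of_notMem hj]
      simp


theorem pb_rho_single (γ : Γ n) (f : MvPolynomial (Fin (n + 1)) T) :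
    rho T n (AddMonoidAlgebra.single γ f) = evTau T n f * AddMonoidAlgebra.single γ 1 := by
  simp [rho]

theorem pb_hyp_inj [IsLocalRing T] (c : Fin n → ℤ) {f : MvPolynomial (Fin (n + 1)) T} {δ : ℕ}
    (hf : f ∈ homog T (n + 1) δ) (hf' : f ∉ homogIn (n + 1) (maximalIdeal T) δ) (m : ℤ)
    (r : innerSet (fun l => c l + m) δ → T)
    (h : pbHyp c f δ m r ∈ bdy (DM MvPolynomial.X) (famM c ∅ (homog T (n + 1)) m)
      (famM c ∅ (homogIn (n + 1) (maximalIdeal T)) m) (posCnt fun l => c l + m)) (a) :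
    r a ∈ maximalIdeal T := by
  classical
  obtain ⟨y, hy, hb⟩ := mem_bdy.1 h
  have iso := pairIso_rhoM c (maximalIdeal T) m
  have h1 : rhoM T n (pbHyp c f δ m r) ∈ bdy (DW T n) (famW c ⊤ m) (famW c (maximalIdeal T) m)
      (posCnt fun l => c l + m) := by
    refine mem_bdy.2 ⟨rhoM T n y, by simpa using iso.map_top _ y hy, ?_⟩
    have e1 := iso.map_bot _ _ ((isPair_famKer c (maximalIdeal T) m).2.le _ hb)
    have e2 := iso.comm _ y hy
    rw [add_zero] at e1
    rw [add_zero, add_sub_cancel_right, one_smul] at e2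
    have := add_mem e1 e2
    rwa [map_sub, sub_add_sub_cancel] at this
  have h2 : rhoM T n (pbHyp c f δ m r) (Finset.univ.filter fun l => 0 ≤ c l + m) =
      evTau T n f * pbBox T _ (m - δ) r := by
    change rho T n (pbHyp c f δ m r _ ∅) = _
    rw [pbHyp, LinearMap.comp_apply, LinearMap.comp_apply, LinearMap.single_apply,
      LinearMap.single_apply, Pi.single_eq_same, Pi.single_eq_same]
    simp only [pbBox, Fintype.linearCombination_apply, map_sum, map_smul, pb_rho_single, Finset.mul_sum,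
      mul_smul_comm, mon]
  have h3 : ∀ γ, (evTau T n f * pbBox T _ (m - δ) r).coeff γ ∈ maximalIdeal T := by
    intro γ
    by_cases hγ : (evTau T n f * pbBox T _ (m - δ) r).coeff γ = 0
    · rw [hγ]; exact zero_mem _
    obtain ⟨u, hu, w, hw, rfl⟩ := Finset.mem_add.1
      (AddMonoidAlgebra.support_coeff_mul_subset _ _ (Finsupp.mem_support_iff.2 hγ))
    obtain ⟨k1, k2⟩ := coeff_evTau_ne_zero hf (Finsupp.mem_support_iff.1 hu)
    have k3 : w.2 = m - δ ∧ w.1 ∈ innerSet (fun l => c l + m) δ := by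
      have := Finsupp.mem_support_iff.1 hw
      rw [pb_box_eq, pb_coeff_box] at this
      by_contra h'
      exact this (if_neg h')
    have k4 : u + w = ((u + w).1, m) := Prod.ext rfl (by rw [Prod.snd_add, k1, k3.1]; ring)
    rw [k4, ← h2]
    refine pb_detect h1 (pb_mem_boxSet.2 fun l => ?_)
    have := k2 l
    have := pb_mem_innerSet.1 k3.2 l
    rw [Prod.fst_add, Pi.add_apply]
    omega
  have h4 : AddMonoidAlgebra.mapRingHom (Γ n) (residue T)
      (evTau T n f * pbBox T _ (m - δ) r) = 0 := by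
    ext γ
    rw [AddMonoidAlgebra.coeff_mapRingHom]
    exact (residue_eq_zero_iff _).2 (h3 γ)
  rw [map_mul, pb_map_evTau] at h4
  have h5 := (mul_eq_zero.1 h4).resolve_left fun e =>
    hf' ((pb_mem_homogIn_iff hf).2 (evTau_injective (e.trans (map_zero _).symm)))
  have h6 := congrArg (fun g => g.coeff (a.1, m - δ)) h5
  simp only [AddMonoidAlgebra.coeff_mapRingHom, pb_coeff_pbBox] at h6
  exact (residue_eq_zero_iff _).1 h6

/-- (E2, hypersurface case). -/
theorem hl_famM_hyp [IsLocalRing T] {f : MvPolynomial (Fin (n + 1)) T} {δ : ℤ}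
    (hf : f ∈ homog T (n + 1) δ) (hf' : f ∉ homogIn (n + 1) (maximalIdeal T) δ) :
    ∃ K : ℕ, ∀ (c : Fin n → ℤ) (m i : ℤ) (R : ℕ), (∀ l, (c l + m).natAbs + 1 ≤ R) →
      R * hl (DM MvPolynomial.X) (famM c ∅ (homog T (n + 1)) m) (famM c ∅ (hyp f δ) m) i ≤
        (K * R ^ n : ℕ) := by
  have hδ : 0 ≤ δ := by
    by_contra h
    rw [homog, if_neg h, mem_bot] at hf
    exact hf' (hf ▸ zero_mem _)
  lift δ to ℕ using hδ
  obtain ⟨K, hK⟩ := exists_box_sub_inner_le n δ
  refine ⟨2 * K, fun c m i R hR => ?_⟩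
  obtain ⟨k1, k2⟩ := hK (fun l => c l + m) R hR
  have hc : CycExt MvPolynomial.X (homogIn (n + 1) (maximalIdeal T)) (hyp f δ) f δ := fun _ => rfl
  have g1 := isGr_homogIn (d := n + 1) (maximalIdeal T)
  have g2 := hc.isGr g1
  have p1 : IsPair (DM MvPolynomial.X) (famM c ∅ (homog T (n + 1)) m) (famM c ∅ (hyp f δ) m) := by
    refine isPair_famM isH0_empty isGr_homog g2 fun s => sup_le (fun x hx => (mem_homogIn.1 hx).1) ?_
    rintro _ ⟨g, hg, rfl⟩
    have := mul_mem_homog hg hf
    rwa [evMul_apply, MvPolynomial.aeval_X_left_apply, ← sub_add_cancel (m - s) δ]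
  have p2 : IsPair (DM MvPolynomial.X) (famM c ∅ (hyp f δ) m)
      (famM c ∅ (homogIn (n + 1) (maximalIdeal T)) m) :=
    isPair_famM isH0_empty g2 g1 fun s => hc.le _
  obtain ⟨α, β, γ, h1, h2, h3, h4⟩ := exists_les p1 p2
  obtain ⟨φ, iso⟩ := pairIso_cyc (c := c) (E := ∅) g1 hc m
  rw [pb_cycAnn hf hf'] at iso
  have h5 : ∀ j, γ (j + 1) + α j = boxAt (fun l => c l + m - δ) j := fun j => by
    have := iso.hl_eq (isPair_famM isH0_empty isGr_homog g1
      fun s x hx => (mem_homogIn.1 hx).1) p2 j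
    rw [add_zero, h3, hl_famM_free] at this
    simp only [← this, add_sub_assoc]
  have h6 : ∀ j, α j + β j = boxAt (fun l => c l + m) j := fun j => by rw [← h1, hl_famM_free]
  have h7 : ((innerSet (fun l => c l + m) δ).card : ℕ∞) ≤ α (posCnt fun l => c l + m) := by
    rw [h4, ← Fintype.card_coe, ← pb_rl_pi (T := T)]
    exact rl_le_of_map_inj (pbHyp c f δ m) (fun r _ => pb_hyp_cyc c f δ m r)
      fun r _ hr a _ => pb_hyp_inj c hf hf' m r hr a
  have key : ∀ (x y : ℕ∞) (u b : ℕ), x + y = b → u ≤ y → R * b ≤ R * u + K * R ^ n →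
      R * x ≤ (K * R ^ n : ℕ) := by
    intro x y u b e1 e2 e3
    have hx : x ≠ ⊤ := by rintro rfl; simp at e1
    have hy : y ≠ ⊤ := by rintro rfl; simp at e1
    lift x to ℕ using hx
    lift y to ℕ using hy
    norm_cast at *
    subst e1
    nlinarith [Nat.mul_le_mul_left R e2]
  have b1 : R * β i ≤ (K * R ^ n : ℕ) := by
    have e := (add_comm _ _).trans (h6 i)
    by_cases hi : i = posCnt fun l => c l + m
    · rw [boxAt, if_pos hi] at e
      exact key _ _ _ _ e (hi ▸ h7) k1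
    · rw [boxAt, if_neg hi] at e
      exact key _ _ 0 _ e (by simp) (by simp)
  have b2 : R * γ i ≤ (K * R ^ n : ℕ) := by
    have e := h5 (i - 1)
    rw [sub_add_cancel] at e
    by_cases hi : i - 1 = posCnt fun l => c l + m - δ
    · rw [boxAt, if_pos hi] at e
      by_cases hp : (posCnt fun l => c l + m) = posCnt fun l => c l + m - δ
      · exact key _ _ _ _ e (by rw [hi, ← hp]; exact h7) k2
      · exact key _ _ _ _ e (by rw [innerSet_eq_empty hp]; simp) k2
    · rw [boxAt, if_neg hi] at e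
      exact key _ _ 0 _ e (by simp) (by simp)
  rw [h2, mul_add, mul_assoc, two_mul, Nat.cast_add]
  exact add_le_add b1 b2

/-- (Serre vanishing, free case). -/
theorem hl_famM_h0_free (σ : Equiv.Perm (Fin n)) (s m : ℤ) (hm : 0 ≤ m + s) (i : ℤ) :
    hl (DM MvPolynomial.X)
      (famM (fun l => ((σ l : ℕ) : ℤ) + s) (h0Set (fun l => ((σ l : ℕ) : ℤ) + s) (-s))
        (homog T (n + 1)) m)
      (famM (fun l => ((σ l : ℕ) : ℤ) + s) (h0Set (fun l => ((σ l : ℕ) : ℤ) + s) (-s))
        (fun _ => ⊥) m) i = 0 :=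
  GFA.hl_famM_h0_free σ s (fun c I m i v hv => cech_cycle c I m i v hv) m hm i

end Vale.Agent.P202
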