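import Vale.Agent.P202.LenCore

/-! Module A2: total complexes and Koszul complexes for an abstract length function. -/

namespace Vale.Agent.P202

open Submodule
open scoped ENNReal

universe u

namespace LenFn

variable {T : Type u} [CommRing T] (L : LenFn T) {B : Type*} [CommRing B] [Algebra T B]
  {M : Type u} [AddCommGroup M] [Module B M] [Module T M] [IsScalarTower T B M]

section Tot
variable {ι : Type} [Fintype ι] {κ : Type} [Fintype κ]
variable {D : Matrix ι ι B} {deg : ι → ℤ} {d : M →ₗ[B] M} {K K' : ι → ℤ → Submodule T M}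

theorem lt1_single (h : IsTotPair D deg d K K') (a₀ : ι) (h0 : ∀ a, a ≠ a₀ → K a = K' a)
    (i : ℤ) : L.hl (tot D deg d) (totFam deg K) (totFam deg K') i =
      L.hl d (K a₀) (K' a₀) (i + -deg a₀) := by
  classical
  have iso : PairIso (tot D deg d) (totFam deg K) (totFam deg K') d (K a₀) (K' a₀)
      (LinearMap.proj a₀ : (ι → M) →ₗ[T] M) (deg a₀).negOnePow (-deg a₀) := by
    refine ⟨fun i x hx => ?_, fun i x hx => ?_, fun i y hy => ⟨Pi.single a₀ y, ?_, ?_⟩,
      fun i x hx hx' => ?_, fun i x hx => ?_⟩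
    · rw [← sub_eq_add_neg]; exact mem_totFam.1 hx a₀
    · rw [← sub_eq_add_neg]; exact mem_totFam.1 hx a₀
    · refine mem_totFam.2 fun a => ?_
      by_cases ha : a = a₀
      · subst ha
        rwa [Pi.single_eq_same, sub_eq_add_neg]
      · rw [Pi.single_eq_of_ne ha]
        exact zero_mem _
    · rw [LinearMap.proj_apply, Pi.single_eq_same, sub_self]
      exact zero_mem _
    · refine mem_totFam.2 fun a => ?_
      by_cases ha : a = a₀
      · subst ha
        rwa [sub_eq_add_neg]
      · rw [← h0 a ha]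
        exact mem_totFam.1 hx a
    · have e : (deg a₀).negOnePow • d (x a₀) = sgn (deg a₀) • d (x a₀) := rfl
      rw [LinearMap.proj_apply, LinearMap.proj_apply, tot_apply, e, add_sub_cancel_right]
      refine sum_mem fun b _ => ?_
      by_cases hb : D a₀ b = 0
      · rw [hb, zero_smul]
        exact zero_mem _
      · have hdeg := h.homog a₀ b hb
        have hne : b ≠ a₀ := fun e => by rw [e] at hdeg; omega
        have := mem_totFam.1 hx b
        rw [h0 b hne, hdeg, show i - (deg a₀ + 1) = i + -deg a₀ - 1 by ring] at this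
        exact h.bot a₀ b _ _ this
  exact L.hl_eq_of_pairIso iso h.isPair (h.pair a₀) i

theorem lt1_main (h : IsTotPair D deg d K K') (U : Finset ι)
    (hU : ∀ a b, deg b = deg a + 1 → b ∈ U → a ∈ U) :
    (∀ i, L.hl (tot D deg d) (totFam deg (t1Mix K K' U)) (totFam deg (t1Mix K K' ∅)) i ≤
      ∑ a ∈ U, L.hl d (K a) (K' a) (i - deg a)) ∧
    ((∀ a, L.FinH d (K a) (K' a)) →
      L.FinH (tot D deg d) (totFam deg (t1Mix K K' U)) (totFam deg (t1Mix K K' ∅)) ∧
      L.eul (tot D deg d) (totFam deg (t1Mix K K' U)) (totFam deg (t1Mix K K' ∅)) =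
        ∑ a ∈ U, (sgn (deg a) : ℝ) * L.eul d (K a) (K' a)) := by
  classical
  induction U using Finset.induction_on_max_value deg with
  | empty =>
    exact ⟨fun i => by simp [L.hl_self], fun _ =>
      ⟨L.finH_of_hl_eq_zero (L.hl_self _ _), by
        rw [Finset.sum_empty]; exact L.eul_of_hl_eq_zero (L.hl_self _ _)⟩⟩
  | insert a s ha hmax ih =>
    have hs : ∀ a b, deg b = deg a + 1 → b ∈ s → a ∈ s := fun a' b e hb => by
      rcases Finset.mem_insert.1 (hU a' b e (Finset.mem_insert_of_mem hb)) with rfl | h'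
      · have := hmax b hb
        omega
      · exact h'
    obtain ⟨i1, i2⟩ := ih hs
    have p1 := t1_pair h hU hs (Finset.subset_insert _ _)
    have p2 := t1_pair h hs (U' := ∅) (fun _ _ _ h => absurd h (Finset.notMem_empty _))
      (Finset.empty_subset _)
    have e : ∀ i, L.hl (tot D deg d) (totFam deg (t1Mix K K' (insert a s)))
        (totFam deg (t1Mix K K' s)) i = L.hl d (K a) (K' a) (i + -deg a) := fun i => by
      rw [L.lt1_single p1 a (fun b hb => by simp [t1Mix, hb]) i]
      simp [t1Mix, ha]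
    refine ⟨fun i => ?_, fun f => ?_⟩
    · rw [Finset.sum_insert ha]
      refine (L.hl_le_add p1.isPair p2.isPair i).trans (add_le_add ?_ (i1 i))
      rw [e, sub_eq_add_neg]
    · obtain ⟨j1, j2⟩ := i2 f
      obtain ⟨k1, k2⟩ := L.finH_eul_of_hl_eq _ e
      refine ⟨FinH.mid p1.isPair p2.isPair (k1.2 (f a)) j1, ?_⟩
      have s1 : (sgn (deg a) : ℝ) * (sgn (-deg a) : ℝ) = 1 := by
        rw [← Int.cast_mul, ← sgn_add, add_neg_cancel, sgn_zero, Int.cast_one]
      rw [eul_add p1.isPair p2.isPair (k1.2 (f a)) j1, j2, Finset.sum_insert ha, k2, ← mul_assoc,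
        s1, one_mul]

/-- (T1) filtration by the vertices of the matrix complex. -/
theorem hl_tot_le (h : IsTotPair D deg d K K') (i : ℤ) :
    L.hl (tot D deg d) (totFam deg K) (totFam deg K') i ≤
      ∑ a, L.hl d (K a) (K' a) (i - deg a) := by
  have := (L.lt1_main h Finset.univ fun _ _ _ _ => Finset.mem_univ _).1 i
  rwa [t1Mix_univ, t1Mix_empty] at this
theorem finH_tot (h : IsTotPair D deg d K K') (f : ∀ a, L.FinH d (K a) (K' a)) :
    L.FinH (tot D deg d) (totFam deg K) (totFam deg K') := by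
  have := ((L.lt1_main h Finset.univ fun _ _ _ _ => Finset.mem_univ _).2 f).1
  rwa [t1Mix_univ, t1Mix_empty] at this
theorem eul_tot (h : IsTotPair D deg d K K') (f : ∀ a, L.FinH d (K a) (K' a)) :
    L.eul (tot D deg d) (totFam deg K) (totFam deg K') =
      ∑ a, (sgn (deg a) : ℝ) * L.eul d (K a) (K' a) := by
  have := ((L.lt1_main h Finset.univ fun _ _ _ _ => Finset.mem_univ _).2 f).2
  rwa [t1Mix_univ, t1Mix_empty] at this
theorem hl_tot_single (h : IsTotPair D deg d K K') (a₀ : ι) (h0 : ∀ a, a ≠ a₀ → K a = K' a)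
    (i : ℤ) : L.hl (tot D deg d) (totFam deg K) (totFam deg K') i =
      L.hl d (K a₀) (K' a₀) (i - deg a₀) := by
  rw [L.lt1_single h a₀ h0 i, sub_eq_add_neg]
/-- (T2) interchange of two matrix complexes. -/
theorem hl_tot_swap {E : Matrix κ κ B} {deg' : κ → ℤ} {N N' : ι → κ → ℤ → Submodule T M}
    (hD : IsHomog D deg 1) (hE : IsHomog E deg' 1)
    (h : IsPair (tot D deg (tot E deg' d)) (totFam deg fun a => totFam deg' (N a))
      (totFam deg fun a => totFam deg' (N' a))) (i : ℤ) :
    L.hl (tot D deg (tot E deg' d)) (totFam deg fun a => totFam deg' (N a))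
      (totFam deg fun a => totFam deg' (N' a)) i =
    L.hl (tot E deg' (tot D deg d)) (totFam deg' fun b => totFam deg fun a => N a b)
      (totFam deg' fun b => totFam deg fun a => N' a b) i := by
  let φ : (ι → κ → M) →ₗ[T] (κ → ι → M) :=
    { toFun := fun v b a => sgn (deg a * deg' b) • v a b
      map_add' := fun v w => by ext b a; simp
      map_smul' := fun c v => by ext b a; simp [smul_comm c] }
  have hφ : ∀ v b a, φ v b a = sgn (deg a * deg' b) • v a b := fun _ _ _ => rfl
  have mem : ∀ (N : ι → κ → ℤ → Submodule T M) i v,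
      φ v ∈ (totFam deg' fun b => totFam deg fun a => N a b) i ↔
        v ∈ (totFam deg fun a => totFam deg' (N a)) i := by
    intro N i v
    simp only [mem_totFam, hφ, HT.sgn_smul_mem]
    rw [forall_comm]
    simp only [sub_right_comm i (deg' _)]
  refine L.hl_transfer (d := tot D deg (tot E deg' d)) (d' := tot E deg' (tot D deg d)) φ
    (fun w => ⟨fun a b => sgn (deg a * deg' b) • w b a, by
      ext b a
      rw [hφ, HT.sgn_smul_smul]⟩) (fun v => ?_) (mem N) (mem N') i
  ext b a
  simp only [hφ, tot_apply, Pi.add_apply, Finset.sum_apply, Pi.smul_apply, smul_add,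
    Finset.smul_sum, map_zsmul]
  rw [add_left_comm]
  congr 1
  · refine Finset.sum_congr rfl fun b' _ => ?_
    by_cases e : E b b' = 0
    · simp [e]
    · rw [hE b b' e, mul_add, mul_one, sgn_add, smul_comm (E b b'), mul_smul]
  congr 1
  · refine Finset.sum_congr rfl fun a' _ => ?_
    by_cases e : D a a' = 0
    · simp [e]
    · rw [hD a a' e, add_mul, one_mul, sgn_add, smul_comm (D a a'), mul_comm (sgn _), mul_smul,
        HT.sgn_smul_smul]
  · simp only [smul_smul]
    congr 1
    ring
theorem hl_tot_tensMat [DecidableEq ι] [DecidableEq κ] {E : Matrix κ κ B} {deg' : κ → ℤ}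
    (N N' : ι → κ → ℤ → Submodule T M) (i : ℤ) :
    L.hl (tot (tensMat D deg E) (tensDeg deg deg') d)
      (totFam (tensDeg deg deg') fun x => N x.1 x.2)
      (totFam (tensDeg deg deg') fun x => N' x.1 x.2) i =
    L.hl (tot D deg (tot E deg' d)) (totFam deg fun a => totFam deg' (N a))
      (totFam deg fun a => totFam deg' (N' a)) i := by
  let φ : (ι × κ → M) →ₗ[T] (ι → κ → M) :=
    { toFun := fun v a b => v (a, b)
      map_add' := fun _ _ => rfl
      map_smul' := fun _ _ => rfl }
  have hφ : ∀ v a b, φ v a b = v (a, b) := fun _ _ _ => rfl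
  have mem : ∀ (N : ι → κ → ℤ → Submodule T M) i v,
      φ v ∈ (totFam deg fun a => totFam deg' (N a)) i ↔
        v ∈ (totFam (tensDeg deg deg') fun x => N x.1 x.2) i := by
    intro N i v
    simp only [mem_totFam, hφ, Prod.forall, tensDeg, sub_sub]
  refine L.hl_transfer (d := tot (tensMat D deg E) (tensDeg deg deg') d)
    (d' := tot D deg (tot E deg' d)) φ (fun w => ⟨fun x => w x.1 x.2, rfl⟩) (fun v => ?_)
    (mem N) (mem N') i
  ext a b
  simp only [hφ, tot_apply, Pi.add_apply, Finset.sum_apply, Pi.smul_apply, smul_add,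
    Finset.smul_sum, tensMat, tensDeg, add_smul, Finset.sum_add_distrib, ite_smul, zero_smul,
    Fintype.sum_prod_type, Finset.sum_ite_eq, Finset.mem_univ, if_true, sgn_add, mul_smul,
    add_assoc]
  congr 2
  rw [Finset.sum_comm]
  simp only [Finset.sum_ite_eq, Finset.mem_univ, if_true, smul_assoc]
end Tot

section KA
variable {J : Type} [Fintype J] [LinearOrder J] {b : J → B} {d : M →ₗ[B] M}
  {A A' : ℤ → Submodule T M}

theorem lka_low_step (hA : IsPair d A A')
    (H : M →ₗ[B] M) (h1 : ∀ i, ∀ x ∈ A i, H x ∈ A (i + 1))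
    (h2 : ∀ i, ∀ x ∈ A' i, H x ∈ A' (i + 1)) {j : J}
    (h3 : ∀ x, d (H x) + H (d x) = b j • x) {U : Finset J} (hj : j ∉ U) (i : ℤ) :
    L.hl (tot (kos b) kdeg d) (totFam kdeg (kaLab A A' (· ⊆ U)))
      (totFam kdeg (kaLab A A' fun _ : Finset J => False)) i ≤
    L.hl (tot (kos b) kdeg d) (totFam kdeg (kaLab A A' (· ⊆ insert j U)))
      (totFam kdeg (kaLab A A' fun _ : Finset J => False)) i := by
  refine L.rl_le_of_map_inj LinearMap.id (fun x hx => ?_) fun x hx hx' => ?_
  · refine mem_cyc.2 ⟨mem_totFam.2 fun S => ?_, (mem_cyc.1 hx).2⟩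
    have := mem_totFam.1 (mem_cyc.1 hx).1 S
    by_cases h : S ⊆ U
    · rw [kaLab_pos (p := (· ⊆ U)) h] at this
      rwa [kaLab_pos (p := (· ⊆ insert j U)) (h.trans (Finset.subset_insert _ _))]
    · rw [kaLab_neg (p := (· ⊆ U)) h] at this
      by_cases h' : S ⊆ insert j U
      · rw [kaLab_pos (p := (· ⊆ insert j U)) h']; exact hA.le _ this
      · rwa [kaLab_neg (p := (· ⊆ insert j U)) h']
  obtain ⟨y, hy, hxy⟩ := mem_bdy.1 hx'
  rw [LinearMap.id_apply] at hxy
  have hx1 := mem_totFam.1 (mem_cyc.1 hx).1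
  rw [mem_totFam] at hy hxy
  simp only [kaLab_false] at hxy
  have sub : ∀ S : Finset J, j ∉ S → (S ⊆ insert j U ↔ S ⊆ U) := fun S hS =>
    Finset.subset_insert_iff_of_notMem hS
  have w0 : kaRes j y ∈ totFam kdeg (kaLab A A' (· ⊆ U)) (i + 1) := mem_totFam.2 fun S => by
    unfold kaRes
    split_ifs with h
    · exact zero_mem _
    · have := hy S
      rwa [kaLab_congr (p := (· ⊆ insert j U)) (q := (· ⊆ U)) (sub S h)] at this
  have w1 : kaLow j y ∈ totFam kdeg (kaLab A A' (· ⊆ U)) i := mem_totFam.2 fun S => by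
    unfold kaLow
    split_ifs with h
    · exact zero_mem _
    · refine zsmul_mem ?_ _
      have := hy (insert j S)
      rwa [kdeg_insert h, add_sub_add_right_eq_sub,
        kaLab_congr (p := (· ⊆ insert j U)) (q := (· ⊆ U)) (R := S) (by
          simp only [Finset.insert_subset_iff, Finset.mem_insert_self, true_and, sub S h])] at this
  have f0 : ∀ S, j ∈ S → kaRes j y S = 0 := fun S h => if_pos h
  have f1 : ∀ S, j ∈ S → kaLow j y S = 0 := fun S h => if_pos h
  have e : tot (kos b) kdeg d y = tot (kos b) kdeg d (kaRes j y) + (b j • kaLow j y -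
      matAct (creMat j (1 : B)) (tot (kos b) kdeg d (kaLow j y))) := by
    rw [← ka_tot_cre, ← map_add, ← ka_decomp]
  have c1 : ∀ S, matAct (creMat j (1 : B)) (tot (kos b) kdeg d (kaLow j y)) S ∈ A' (i - kdeg S) := by
    intro S
    by_cases h : j ∈ S
    · have a1 := hxy S
      have a2 := hx1 S
      rw [kaLab_neg fun h' => hj (h' h)] at a2
      rw [e, Pi.sub_apply, Pi.add_apply, Pi.sub_apply, ka_tot_free f0 S h, Pi.smul_apply, f1 S h,
        smul_zero, zero_add, zero_sub, sub_neg_eq_add] at a1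
      simpa using sub_mem a1 a2
    · rw [matAct_creMat_of_notMem _ _ _ h]
      exact zero_mem _
  have c2 : tot (kos b) kdeg d (kaLow j y) ∈
      totFam kdeg (kaLab A A' fun _ : Finset J => False) (i - 1) := mem_totFam.2 fun S => by
    rw [kaLab_false]
    by_cases h : j ∈ S
    · rw [ka_tot_free f1 S h]
      exact zero_mem _
    · have := zsmul_mem (c1 (insert j S)) (ksgn j S)
      rwa [matAct_creMat_insert _ _ _ h, ksgn_smul_smul, one_smul, kdeg_insert h,
        show i - (kdeg S + 1) = i - 1 - kdeg S by ring] at this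
  have c3 := ka_par_mem h1 h2 _ _ _ c2
  rw [sub_add_cancel, mem_totFam] at c3
  simp only [kaLab_false] at c3
  refine mem_bdy.2 ⟨kaRes j y + parAct kdeg H (kaLow j y), add_mem w0 (ka_par_mem h1 h2 _ _ _ w1),
    mem_totFam.2 fun S => ?_⟩
  rw [kaLab_false]
  have := sub_mem (add_mem (hxy S) (c3 S)) (c1 S)
  rw [e] at this
  rw [map_add, ka_tot_par h3]
  refine (congrArg (· ∈ A' (i - kdeg S)) ?_).mp this
  simp only [Pi.sub_apply, Pi.add_apply]
  abel

theorem lka_high_step (hA : IsPair d A A') (hb : ∀ j i, ∀ x ∈ A i, b j • x ∈ A i)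
    (hb' : ∀ j i, ∀ x ∈ A' i, b j • x ∈ A' i)
    (H : M →ₗ[B] M) (h1 : ∀ i, ∀ x ∈ A i, H x ∈ A (i + 1))
    (h2 : ∀ i, ∀ x ∈ A' i, H x ∈ A' (i + 1)) {j : J}
    (h3 : ∀ x, d (H x) + H (d x) = b j • x) {U : Finset J} (hj : j ∉ U) (i : ℤ) :
    L.hl (tot (kos b) kdeg d) (totFam kdeg (kaLab A A' fun _ : Finset J => True))
      (totFam kdeg (kaLab A A' fun S => ¬ insert j U ⊆ S)) i ≤
    L.hl (tot (kos b) kdeg d) (totFam kdeg (kaLab A A' fun _ : Finset J => True))
      (totFam kdeg (kaLab A A' fun S => ¬ U ⊆ S)) i := by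
  have mono : ∀ k, ∀ x ∈ totFam kdeg (kaLab A A' fun S => ¬ U ⊆ S) k,
      x ∈ totFam kdeg (kaLab A A' fun S => ¬ insert j U ⊆ S) k := fun k x hx =>
    mem_totFam.2 fun S => by
      have := mem_totFam.1 hx S
      by_cases h : U ⊆ S
      · rw [kaLab_neg (not_not.2 h)] at this
        by_cases h' : insert j U ⊆ S
        · rwa [kaLab_neg (not_not.2 h')]
        · rw [kaLab_pos (p := fun S => ¬ insert j U ⊆ S) h']; exact hA.le _ this
      · rw [kaLab_pos (p := fun S => ¬ U ⊆ S) h] at this
        rwa [kaLab_pos (p := fun S => ¬ insert j U ⊆ S)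
          fun h' => h ((Finset.subset_insert _ _).trans h')]
  have top := (ka_pair hA hb hb' (p := fun _ => True) (q := fun _ => True) (fun _ _ h => h)
    (fun _ _ h => h) fun _ h => h).isPair.top
  refine L.rl_le_of_map_surj LinearMap.id (fun x hx => ?_) fun y hy => ?_
  · obtain ⟨y, hy, hxy⟩ := mem_bdy.1 hx.2
    exact mem_bdy.2 ⟨y, hy, mono _ _ hxy⟩
  obtain ⟨hy1, hy2⟩ := mem_cyc.1 hy
  rw [mem_totFam] at hy1 hy2
  simp only [kaLab_true] at hy1
  have w1 : kaLow j y ∈ totFam kdeg (kaLab A A' fun _ : Finset J => True) (i - 1) :=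
    mem_totFam.2 fun S => by
      rw [kaLab_true]
      unfold kaLow
      split_ifs with h
      · exact zero_mem _
      · refine zsmul_mem ?_ _
        have := hy1 (insert j S)
        rwa [kdeg_insert h, show i - (kdeg S + 1) = i - 1 - kdeg S by ring] at this
  have f0 : ∀ S, j ∈ S → kaRes j y S = 0 := fun S h => if_pos h
  have f1 : ∀ S, j ∈ S → kaLow j y S = 0 := fun S h => if_pos h
  have e : tot (kos b) kdeg d y = tot (kos b) kdeg d (kaRes j y) + (b j • kaLow j y -
      matAct (creMat j (1 : B)) (tot (kos b) kdeg d (kaLow j y))) := by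
    rw [← ka_tot_cre, ← map_add, ← ka_decomp]
  have t1 := mem_totFam.1 (top _ _ w1)
  simp only [kaLab_true] at t1
  have c0 : ∀ S, j ∉ S → U ⊆ S → tot (kos b) kdeg d (kaLow j y) S ∈ A' (i - 1 - 1 - kdeg S) := by
    intro S h hU
    have a1 := hy2 (insert j S)
    have hj' := Finset.mem_insert_self j S
    rw [kaLab_neg (not_not.2 (Finset.insert_subset_insert j hU)), e, Pi.add_apply, Pi.sub_apply,
      ka_tot_free f0 _ hj', Pi.smul_apply, f1 _ hj', smul_zero, zero_add, zero_sub, neg_mem_iff,
      matAct_creMat_insert _ _ _ h, one_smul, kdeg_insert h,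
      show i - 1 - (kdeg S + 1) = i - 1 - 1 - kdeg S by ring] at a1
    have := zsmul_mem a1 (ksgn j S)
    rwa [ksgn_smul_smul] at this
  have c2 : tot (kos b) kdeg d (kaLow j y) ∈
      totFam kdeg (kaLab A A' fun S => ¬ U ⊆ S) (i - 1 - 1) := mem_totFam.2 fun S => by
    by_cases h : j ∈ S
    · rw [ka_tot_free f1 S h]
      exact zero_mem _
    · by_cases hU : U ⊆ S
      · rw [kaLab_neg (not_not.2 hU)]
        exact c0 S h hU
      · rw [kaLab_pos (p := fun S => ¬ U ⊆ S) hU]
        exact t1 S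
  have c1 : matAct (creMat j (1 : B)) (tot (kos b) kdeg d (kaLow j y)) ∈
      totFam kdeg (kaLab A A' fun S => ¬ U ⊆ S) (i - 1) := mem_totFam.2 fun S => by
    rcases ka_cases j S with h | ⟨R, h, rfl⟩
    · rw [matAct_creMat_of_notMem _ _ _ h]
      exact zero_mem _
    · rw [matAct_creMat_insert _ _ _ h, one_smul, kdeg_insert h,
        show i - 1 - (kdeg R + 1) = i - 1 - 1 - kdeg R by ring]
      refine zsmul_mem ?_ _
      by_cases hU : U ⊆ insert j R
      · rw [kaLab_neg (not_not.2 hU)]
        exact c0 R h ((Finset.subset_insert_iff_of_notMem hj).1 hU)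
      · rw [kaLab_pos (p := fun S => ¬ U ⊆ S) hU]
        exact t1 R
  have c3 := ka_par_mem h1 h2 _ _ _ c2
  rw [sub_add_cancel] at c3
  have c4 := ka_par_mem h1 h2 _ _ _ w1
  rw [sub_add_cancel] at c4
  have c5 : matAct (creMat j (1 : B)) (kaLow j y) ∈
      totFam kdeg (kaLab A A' fun _ : Finset J => True) i := mem_totFam.2 fun S => by
    rw [kaLab_true]
    rcases ka_cases j S with h | ⟨R, h, rfl⟩
    · rw [matAct_creMat_of_notMem _ _ _ h]
      exact zero_mem _
    · rw [matAct_creMat_insert _ _ _ h, one_smul, kaLow, if_neg h, ksgn_smul_smul]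
      exact hy1 _
  refine ⟨matAct (creMat j (1 : B)) (kaLow j y) - parAct kdeg H (kaLow j y),
    mem_cyc.2 ⟨sub_mem c5 c4, ?_⟩, les_bot_le_bdy (mem_totFam.2 fun S => ?_)⟩
  · rw [map_sub, ka_tot_cre, ka_tot_par h3, sub_sub_sub_cancel_left]
    exact sub_mem c3 c1
  · have e2 : (y - LinearMap.id (R := T) (matAct (creMat j (1 : B)) (kaLow j y) -
        parAct kdeg H (kaLow j y))) S = kaRes j y S + parAct kdeg H (kaLow j y) S := by
      have := congrFun (ka_decomp (B := B) j y) S
      simp only [LinearMap.id_apply, Pi.sub_apply, Pi.add_apply] at this ⊢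
      rw [this]
      abel
    rw [e2]
    by_cases h : j ∈ S
    · rw [f0 S h, parAct_apply, f1 S h, map_zero, smul_zero, add_zero]
      exact zero_mem _
    · rw [kaLab_pos (p := fun S => ¬ insert j U ⊆ S) fun h' => h (h' (Finset.mem_insert_self _ _))]
      have := mem_totFam.1 c4 S
      rw [kaLab_true] at this
      refine add_mem ?_ this
      rw [kaRes, if_neg h]
      exact hy1 S

end KA

/-- (KA) the analogue of `hl_le_hl_kos`. -/
theorem hl_le_hl_kos {J : Type} [Fintype J] [LinearOrder J] {b : J → B} {d : M →ₗ[B] M}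
    {A A' : ℤ → Submodule T M} (hA : IsPair d A A')
    (hb : ∀ j i, ∀ x ∈ A i, b j • x ∈ A i) (hb' : ∀ j i, ∀ x ∈ A' i, b j • x ∈ A' i)
    (H : J → M →ₗ[B] M) (h1 : ∀ j i, ∀ x ∈ A i, H j x ∈ A (i + 1))
    (h2 : ∀ j i, ∀ x ∈ A' i, H j x ∈ A' (i + 1))
    (h3 : ∀ j x, d (H j x) + H j (d x) = b j • x) (i : ℤ) :
    L.hl d A A' i ≤
      L.hl (tot (kos b) kdeg d) (totFam kdeg fun _ => A) (totFam kdeg fun _ => A') i ∧
    L.hl d A A' i ≤ L.hl (tot (kos b) kdeg d) (totFam kdeg fun _ => A) (totFam kdeg fun _ => A')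
      (i + Fintype.card J) := by
  have eT : kaLab A A' (fun _ : Finset J => True) = fun _ => A := funext kaLab_true
  have eF : kaLab A A' (fun _ : Finset J => False) = fun _ => A' :=
    funext kaLab_false
  constructor
  · have key : ∀ U : Finset J, L.hl d A A' i ≤ L.hl (tot (kos b) kdeg d)
        (totFam kdeg (kaLab A A' (· ⊆ U))) (totFam kdeg (kaLab A A' fun _ : Finset J => False)) i := by
      intro U
      induction U using Finset.induction_on with
      | empty =>
        rw [L.hl_tot_single (ka_pair hA hb hb' (fun j S h => (Finset.subset_insert _ _).trans h)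
          (fun _ _ h => h) fun _ h => h.elim) ∅ fun S hS => by
            rw [kaLab_false, kaLab_neg (p := (· ⊆ ∅)) fun h => hS (Finset.subset_empty.1 h)],
          kaLab_false, kaLab_pos (p := (· ⊆ ∅)) subset_rfl]
        simp [kdeg]
      | insert j U hj ih =>
        exact ih.trans (L.lka_low_step hA (H j) (h1 j) (h2 j) (h3 j) hj i)
    have := key Finset.univ
    rwa [eF, show kaLab A A' (· ⊆ (Finset.univ : Finset J)) = fun _ => A from
      funext fun S => kaLab_pos (Finset.subset_univ S)] at this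
  · have key : ∀ U : Finset J, L.hl (tot (kos b) kdeg d)
        (totFam kdeg (kaLab A A' fun _ : Finset J => True))
        (totFam kdeg (kaLab A A' fun S => ¬ U ⊆ S)) (i + Fintype.card J) ≤
        L.hl (tot (kos b) kdeg d) (totFam kdeg fun _ => A) (totFam kdeg fun _ => A')
          (i + Fintype.card J) := by
      intro U
      induction U using Finset.induction_on with
      | empty =>
        rw [eT, show kaLab A A' (fun S => ¬ (∅ : Finset J) ⊆ S) = fun _ => A' from
          funext fun S => kaLab_neg (not_not.2 (Finset.empty_subset S))]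
      | insert j U hj ih =>
        exact (L.lka_high_step hA hb hb' (H j) (h1 j) (h2 j) (h3 j) hj _).trans ih
    have := key Finset.univ
    rw [L.hl_tot_single (ka_pair hA hb hb' (fun _ _ h => h)
      (fun j S h h' => h (h'.trans (Finset.subset_insert _ _))) fun _ _ => trivial) Finset.univ
      fun S hS => by
        rw [kaLab_true, kaLab_pos (p := fun S => ¬ Finset.univ ⊆ S)
          fun h => hS (Finset.univ_subset_iff.1 h)],
      kaLab_true, kaLab_neg (not_not.2 subset_rfl)] at this
    simpa [kdeg] using this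

end LenFn

end Vale.Agent.P202
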