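import Vale.Agent.P202.GeoMain
import Vale.Agent.P202.LenTot

/-! Module B1: steps 1 and 3 of `GeoMain` for an abstract length `L` and a filtration `P` of an
algebra `H`. -/

namespace Vale.Agent.P202

open Submodule
open scoped ENNReal NNReal

universe u

variable {T : Type u} [CommRing T] {H : Type u} [CommRing H] [Algebra T H] {n : ℕ}
  {ι : Type} [Fintype ι] [DecidableEq ι]

/-- The Koszul complex on the `ξ_j ^ N` of the geometric complex. -/
noncomputable def DKPH (ξ : Fin (n + 1) → H) (N : ℕ) :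
    (Finset (Fin (n + 1)) → VM H n) →ₗ[LR H n] (Finset (Fin (n + 1)) → VM H n) :=
  tot (kos fun j => algebraMap H (LR H n) (ξ j ^ N)) kdeg (DM ξ)

/-- The axioms on the filtration `P`. -/
structure LData (L : LenFn T) (ξ : Fin (n + 1) → H) (P : ℤ → Submodule T H) (N : ℕ) (Λ : ℝ≥0) :
    Prop where
  gr : IsGr ξ P
  anti : Antitone P
  layer : ∀ (c : Fin n → ℤ) (m i : ℤ), L.hl (DM ξ) (famM c ∅ P m) (famM c ∅ P (m + 1)) i =
    Λ * (boxAt (fun l => c l + m) i : ℝ≥0∞)
  serre : ∀ (σ : Equiv.Perm (Fin n)) (s i : ℤ), L.hl (DKPH ξ N)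
    (totFam kdeg fun _ => famM (fun l => ((σ l : ℕ) : ℤ) + s)
      (h0Set (fun l => ((σ l : ℕ) : ℤ) + s) (-s)) P (-s))
    (totFam kdeg fun _ => famM (fun l => ((σ l : ℕ) : ℤ) + s)
      (h0Set (fun l => ((σ l : ℕ) : ℤ) + s) (-s)) (fun _ => (⊥ : Submodule T H)) 0) i = 0
  kosfin : ∀ i, L.hl (tot (kos fun j => ξ j ^ N) kdeg (0 : H →ₗ[H] H))
    (totFam kdeg fun _ => conc (P 0)) (totFam kdeg fun _ => conc (⊥ : Submodule T H)) i ≠ ⊤
  koszero : ∀ i, 1 ≤ i → L.hl (tot (kos fun j => ξ j ^ N) kdeg (0 : H →ₗ[H] H))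
    (totFam kdeg fun _ => conc (P 0)) (totFam kdeg fun _ => conc (⊥ : Submodule T H)) i = 0

/-- The hypotheses on the matrix complex. -/
structure IsShortL (ξ : Fin (n + 1) → H) (P : ℤ → Submodule T H) (D : Matrix ι ι H) (deg : ι → ℤ)
    (N q : ℕ) : Prop where
  mc : IsMC D deg
  beta : ∑ a, sgn (deg a) = 0
  bound : ∀ a, 0 ≤ deg a ∧ deg a ≤ n + 1
  raise : ∀ a b k, ∀ y ∈ P k, D a b * y ∈ P (k + q)
  null : ∀ j, ∃ G : Matrix ι ι H, IsHomog G deg (-1) ∧
    D * G + G * D = ξ j ^ N • (1 : Matrix ι ι H) ∧ ∀ a b k, ∀ y ∈ P k, G a b * y ∈ P k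

/-- The differential of `D` tensor the geometric complex. -/
noncomputable def DGH (ξ : Fin (n + 1) → H) (D : Matrix ι ι H) (deg : ι → ℤ) :
    (ι → VM H n) →ₗ[LR H n] (ι → VM H n) :=
  tot (D.map (algebraMap H (LR H n))) deg (DM ξ)

/-- The family with level `m a` at the vertex `a`. -/
noncomputable def famGH (c : Fin n → ℤ) (E : Set (Γ n)) (deg : ι → ℤ) (P : ℤ → Submodule T H)
    (m : ι → ℤ) : ℤ → Submodule T (ι → VM H n) :=
  totFam deg fun a => famM c E P (m a)

/-- `ψ(c, m)`. -/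
noncomputable def psiL (L : LenFn T) (ξ : Fin (n + 1) → H) (P : ℤ → Submodule T H)
    (D : Matrix ι ι H) (deg : ι → ℤ) (c : Fin n → ℤ) (m : ℤ) : ℝ :=
  L.eul (DGH ξ D deg) (famGH c ∅ deg P fun _ => m)
    (famGH c ∅ deg (fun _ => (⊥ : Submodule T H)) fun _ => 0)

variable {L : LenFn T} {ξ : Fin (n + 1) → H} {P : ℤ → Submodule T H} {N q : ℕ} {Λ : ℝ≥0}
  {D : Matrix ι ι H} {deg : ι → ℤ}

section Aux
omit [DecidableEq ι]

omit [Fintype ι] in
theorem gl1_compat_famM {c : Fin n → ℤ} {E : Set (Γ n)} {m : ι → ℤ}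
    (hc : ∀ a b, D a b ≠ 0 → ∀ k, ∀ y ∈ P k, D a b * y ∈ P (k + (m a - m b))) :
    Compat (D.map (algebraMap H (LR H n))) fun a => famM c E P (m a) := by
  intro a b j v hv
  by_cases h0 : D a b = 0
  · simp [h0]
  · simpa using smul_mem_famM (hc a b h0) (m b) j v hv

theorem gl1_smul_zero {c : Fin n → ℤ} {E : Set (Γ n)} {g : H} (hg : ∀ k, ∀ y ∈ P k, g * y ∈ P k)
    {m i : ℤ} {v : VM H n} (hv : v ∈ famM c E P m i) :
    algebraMap H (LR H n) g • v ∈ famM c E P m i := by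
  simpa using smul_mem_famM (g := g) (w := 0) (P := P)
    (fun k y hy => by simpa using hg k y hy) m i v hv

theorem gl1_mul_bot (g : H) (y : H) (hy : y ∈ (⊥ : Submodule T H)) :
    g * y ∈ (⊥ : Submodule T H) := by
  rw [(Submodule.mem_bot T).mp hy, mul_zero]
  exact zero_mem _

theorem gl1_smul_bot {c : Fin n → ℤ} {E : Set (Γ n)} (g : H) {m i : ℤ} {v : VM H n}
    (hv : v ∈ famM c E (fun _ => (⊥ : Submodule T H)) m i) :
    algebraMap H (LR H n) g • v ∈ famM c E (fun _ => (⊥ : Submodule T H)) m i :=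
  gl1_smul_zero (fun _ y hy => gl1_mul_bot g y hy) hv

omit [Fintype ι] in
theorem gl1_compat_bot (D : Matrix ι ι H) (c : Fin n → ℤ) (E : Set (Γ n)) (m : ℤ) :
    Compat (D.map (algebraMap H (LR H n))) fun _ => famM c E (fun _ => (⊥ : Submodule T H)) m :=
  fun a b _ _ hv => gl1_smul_bot (D a b) hv

theorem gl1_isTotPair_map (hD : IsMC D deg) {M : Type*}
    [AddCommGroup M] [Module (LR H n) M] [Module T M] [IsScalarTower T (LR H n) M]
    {d : M →ₗ[LR H n] M} (hd : ∀ v, d (d v) = 0) {K K' : ι → ℤ → Submodule T M}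
    (hp : ∀ a, IsPair d (K a) (K' a)) (h1 : Compat (D.map (algebraMap H (LR H n))) K)
    (h2 : Compat (D.map (algebraMap H (LR H n))) K') :
    IsTotPair (D.map (algebraMap H (LR H n))) deg d K K' :=
  ⟨isHomog_map _ hD.homog, fun a b v => by rw [← Matrix.map_mul, hD.sq]; simp, hd, hp, h1, h2⟩

theorem gl1_pow_mul (hP : IsGr ξ P) (ha : Antitone P) (j : Fin (n + 1)) (N : ℕ) (k : ℤ) :
    ∀ y ∈ P k, ξ j ^ N * y ∈ P k := fun _ hy =>
  ha (by omega : k ≤ k + N) (hP.pow_mul j N hy)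

theorem gl1_isPair_famM (hP : IsGr ξ P) (ha : Antitone P) {c : Fin n → ℤ} {E : Set (Γ n)}
    (hE : IsH0 c E) {m m' : ℤ} (h : m ≤ m') : IsPair (DM ξ) (famM c E P m) (famM c E P m') :=
  isPair_famM hE hP hP fun _ => ha (by omega)

theorem gl1_isPair_bot (hP : IsGr ξ P) {c : Fin n → ℤ} {E : Set (Γ n)} (hE : IsH0 c E) (m : ℤ) :
    IsPair (DM ξ) (famM c E P m) (famM c E (fun _ => (⊥ : Submodule T H)) 0) :=
  isPair_famM hE hP (isGr_bot ξ) fun _ => bot_le

theorem gl1_key (hP : IsGr ξ P) (ha : Antitone P) (N : ℕ) {c : Fin n → ℤ} {E : Set (Γ n)}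
    (j : Fin (n + 1)) (a b i : ℤ) (hab : a ≤ b + N) : ∀ v ∈ famM c E P b i,
      algebraMap H (LR H n) (ξ j ^ N) • v ∈ famM c E P a i := fun v hv =>
  famM_mono (fun _ => ha (by omega)) i (smul_mem_famM (w := N)
    (fun _ _ hy => hP.pow_mul j N hy) b i v hv)

theorem gl1_isTotPair_DKP (hP : IsGr ξ P) (ha : Antitone P) (N : ℕ) {c : Fin n → ℤ}
    {E : Set (Γ n)} (hE : IsH0 c E) {m m' : Finset (Fin (n + 1)) → ℤ} (hle : ∀ S, m S ≤ m' S)
    (h1 : ∀ j S, j ∉ S → m S ≤ m (insert j S) + N)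
    (h2 : ∀ j S, j ∉ S → m' S ≤ m' (insert j S) + N) :
    IsTotPair (kos fun j => algebraMap H (LR H n) (ξ j ^ N)) kdeg (DM ξ)
      (fun S => famM c E P (m S)) (fun S => famM c E P (m' S)) :=
  isTotPair_kos DM_sq (fun S => gl1_isPair_famM hP ha hE (hle S))
    (fun j S i hj => gl1_key hP ha N j _ _ i (h1 j S hj))
    (fun j S i hj => gl1_key hP ha N j _ _ i (h2 j S hj))

theorem gl1_isTotPair_DKP_bot (hP : IsGr ξ P) (ha : Antitone P) (N : ℕ) {c : Fin n → ℤ}
    {E : Set (Γ n)} (hE : IsH0 c E) {m : Finset (Fin (n + 1)) → ℤ}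
    (h1 : ∀ j S, j ∉ S → m S ≤ m (insert j S) + N) :
    IsTotPair (kos fun j => algebraMap H (LR H n) (ξ j ^ N)) kdeg (DM ξ)
      (fun S => famM c E P (m S)) (fun _ => famM c E (fun _ => (⊥ : Submodule T H)) 0) :=
  isTotPair_kos DM_sq (fun _ => gl1_isPair_bot hP hE _)
    (fun j S i hj => gl1_key hP ha N j _ _ i (h1 j S hj))
    (fun _ _ _ _ _ hv => gl1_smul_bot _ hv)

/-- The graded pieces. -/
noncomputable def gl1E (L : LenFn T) (ξ : Fin (n + 1) → H) (P : ℤ → Submodule T H)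
    (c : Fin n → ℤ) (m i : ℤ) : ℝ≥0∞ :=
  L.hl (DM ξ) (famM c ∅ P m) (famM c ∅ P (m + 1)) i

theorem gl1_chain_le (hP : IsGr ξ P) (ha : Antitone P) (c : Fin n → ℤ) (m : ℤ) (k : ℕ) (i : ℤ) :
    L.hl (DM ξ) (famM c ∅ P m) (famM c ∅ P (m + k)) i ≤
      ∑ t ∈ Finset.range k, gl1E L ξ P c (m + t) i := by
  have := L.hl_chain_le (d := DM ξ) (fun t : ℕ => famM c ∅ P (m + t)) k
    (fun t _ => gl1_isPair_famM hP ha isH0_empty (by omega)) i
  simpa only [gl1E, Nat.cast_zero, add_zero, Nat.cast_add, Nat.cast_one, add_assoc] using this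

theorem gl1_DKP_low (hP : IsGr ξ P) (ha : Antitone P) (N : ℕ) (c : Fin n → ℤ) (m i : ℤ) :
    L.hl (DKPH ξ N) (totFam kdeg fun _ => famM c ∅ P m)
      (totFam kdeg fun _ => famM c ∅ (fun _ => (⊥ : Submodule T H)) 0) i ≤
    ∑ S : Finset (Fin (n + 1)), ∑ t ∈ Finset.range (N * (n + 1 - S.card)),
      gl1E L ξ P c (m + t) (i - S.card) := by
  have hc : ∀ S : Finset (Fin (n + 1)), S.card ≤ n + 1 := fun S => by
    simpa using S.card_le_univ
  have hg : ∀ j (S : Finset (Fin (n + 1))), j ∉ S → m + N * (n + 1) - N * (S.card : ℤ) ≤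
      m + N * (n + 1) - N * ((insert j S).card : ℤ) + N := fun j S hj => by
    rw [Finset.card_insert_of_notMem hj]; push_cast; linarith
  have h1 := gl1_isTotPair_DKP hP ha N (isH0_empty (c := c)) (m := fun _ => m)
    (m' := fun S => m + N * (n + 1) - N * S.card) (fun S => by
      have : (S.card : ℤ) ≤ n + 1 := by exact_mod_cast hc S
      nlinarith [Int.natCast_nonneg N]) (fun _ _ _ => by omega) hg
  have h2 := gl1_isTotPair_DKP_bot hP ha N (isH0_empty (c := c))
    (m := fun S => m + N * (n + 1) - N * S.card) hg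
  refine (L.hl_le_add h1.isPair h2.isPair i).trans ?_
  rw [L.hl_eq_zero_of_hl (hl_kosPow_eq_zero hP _ _ _), add_zero]
  refine (L.hl_tot_le h1 i).trans (Finset.sum_le_sum fun S _ => ?_)
  have := gl1_chain_le (L := L) hP ha c m (N * (n + 1 - S.card)) (i - S.card)
  rwa [Nat.cast_mul, Nat.cast_sub (hc S), mul_sub, ← add_sub_assoc] at this

theorem gl1_DKP_high (hP : IsGr ξ P) (ha : Antitone P) (N : ℕ) (c : Fin n → ℤ) (m i : ℤ) :
    L.hl (DKPH ξ N) (totFam kdeg fun _ => famM c ∅ P m)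
      (totFam kdeg fun _ => famM c ∅ (fun _ => (⊥ : Submodule T H)) 0) i ≤
    ∑ S : Finset (Fin (n + 1)), ∑ t ∈ Finset.range (N * S.card),
      gl1E L ξ P c (m - N * S.card + t) (i + 1 - S.card) := by
  have hg : ∀ j (S : Finset (Fin (n + 1))), j ∉ S → m - N * (S.card : ℤ) ≤
      m - N * ((insert j S).card : ℤ) + N := fun j S hj => by
    rw [Finset.card_insert_of_notMem hj]; push_cast; linarith
  have h1 := gl1_isTotPair_DKP hP ha N (isH0_empty (c := c)) (m := fun S => m - N * S.card)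
    (m' := fun _ => m)
    (fun S => by nlinarith [Int.natCast_nonneg N, Int.natCast_nonneg S.card]) hg
    (fun _ _ _ => by omega)
  have h2 := gl1_isTotPair_DKP_bot hP ha N (isH0_empty (c := c)) (m := fun _ => m)
    (fun _ _ _ => by omega)
  refine (L.hl_sub_le h1.isPair h2.isPair i).trans ?_
  rw [L.hl_eq_zero_of_hl (hl_kosPow_eq_zero hP _ _ _), zero_add]
  refine (L.hl_tot_le h1 (i + 1)).trans (Finset.sum_le_sum fun S _ => ?_)
  have := gl1_chain_le (L := L) hP ha c (m - N * S.card) (N * S.card) (i + 1 - S.card)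
  rwa [Nat.cast_mul, sub_add_cancel] at this

theorem LData.gl1_finH_layer (h : LData L ξ P N Λ) (c : Fin n → ℤ) (m : ℤ) :
    L.FinH (DM ξ) (famM c ∅ P m) (famM c ∅ P (m + 1)) := by
  refine ⟨fun i => ?_, (Set.finite_singleton (posCnt (fun l => c l + m) : ℤ)).subset fun i hi => ?_⟩
  · rw [h.layer]
    exact ENNReal.mul_ne_top ENNReal.coe_ne_top (ENNReal.natCast_ne_top _)
  · by_contra hi'
    refine hi ?_
    rw [h.layer, boxAt, if_neg (by simpa using hi'), Nat.cast_zero, mul_zero]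

theorem LData.gl1_eul_layer (h : LData L ξ P N Λ) (c : Fin n → ℤ) (m : ℤ) :
    L.eul (DM ξ) (famM c ∅ P m) (famM c ∅ P (m + 1)) =
      Λ * (((-1) ^ n * ∏ l, (c l + m + 1) : ℤ) : ℝ) := by
  rw [L.eul_eq_sum {(posCnt (fun l => c l + m) : ℤ)} fun i hi => by
    rw [h.layer, boxAt, if_neg (by simpa using hi), Nat.cast_zero, mul_zero]]
  rw [Finset.sum_singleton, h.layer, boxAt, if_pos rfl, sgn_natCast, ← sgn_mul_box,
    ENNReal.toReal_mul, ENNReal.toReal_natCast, ENNReal.coe_toReal]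
  push_cast
  ring

theorem LData.gl1_eul_chain (h : LData L ξ P N Λ) (c : Fin n → ℤ) (q a : ℕ) :
    L.FinH (DM ξ) (famM c ∅ P (0 - q * (a : ℤ))) (famM c ∅ P 0) ∧
    L.eul (DM ξ) (famM c ∅ P (0 - q * (a : ℤ))) (famM c ∅ P 0) =
      Λ * (((-1) ^ n * ∑ s ∈ Finset.range (a * q), ∏ l, (c l - s) : ℤ) : ℝ) := by
  obtain ⟨h1, h2⟩ := L.finH_eul_chain (d := DM ξ)
    (fun k : ℕ => famM c ∅ P (0 - q * (a : ℤ) + k)) (a * q)
    (fun k _ => gl1_isPair_famM h.gr h.anti isH0_empty (by omega))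
    (fun k _ => by
      have := h.gl1_finH_layer c (0 - q * (a : ℤ) + k)
      simpa only [Nat.cast_add, Nat.cast_one, add_assoc] using this)
  have e0 : (0 - q * (a : ℤ) + ((a * q : ℕ) : ℤ)) = 0 := by push_cast; ring
  simp only [Nat.cast_zero, add_zero, e0] at h1 h2
  refine ⟨h1, ?_⟩
  rw [h2, ← Finset.sum_range_reflect (fun s => ∏ l, (c l - (s : ℕ))), Finset.mul_sum,
    Int.cast_sum, Finset.mul_sum]
  refine Finset.sum_congr rfl fun k hk => ?_
  have hk' := Finset.mem_range.1 hk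
  have e1 : ∀ l, c l - ((a * q - 1 - k : ℕ) : ℤ) = c l + (0 - q * (a : ℤ) + k) + 1 := by
    intro l
    rw [Nat.cast_sub (by omega), Nat.cast_sub (by omega)]
    push_cast; ring
  have h3 := h.gl1_eul_layer c (0 - q * (a : ℤ) + k)
  simp only [e1, Nat.cast_add, Nat.cast_one, ← add_assoc] at h3 ⊢
  exact h3

end Aux

theorem IsShortL.zero (hD : IsShortL ξ P D deg N q) (hP : Antitone P) :
    IsShortL ξ P D deg N 0 :=
  ⟨hD.mc, hD.beta, hD.bound, fun a b k y hy => hP (by omega) (hD.raise a b k y hy), hD.null⟩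

theorem IsShortL.gl1_compat (hD : IsShortL ξ P D deg N q) (c : Fin n → ℤ) (E : Set (Γ n)) (m : ℤ) :
    Compat (D.map (algebraMap H (LR H n))) fun a => famM c E P (m - q * deg a) :=
  gl1_compat_famM (m := fun a => m - q * deg a) fun a b h0 k y hy => by
    have h1 := hD.raise a b k y hy
    rwa [hD.mc.homog a b h0, show m - q * deg a - (m - q * (deg a + 1)) = q by ring]

theorem IsShortL.gl1_compat_const (hD : IsShortL ξ P D deg N q) (ha : Antitone P) (c : Fin n → ℤ)
    (E : Set (Γ n)) (m : ℤ) : Compat (D.map (algebraMap H (LR H n))) fun _ => famM c E P m :=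
  fun a b _ _ hv => gl1_smul_zero (fun k y hy => ha (by omega) (hD.raise a b k y hy)) hv

theorem IsShortL.isTotPair (hD : IsShortL ξ P D deg N q) (hP : IsGr ξ P) (ha : Antitone P)
    {c : Fin n → ℤ} {E : Set (Γ n)} (hE : IsH0 c E) (m : ℤ) :
    IsTotPair (D.map (algebraMap H (LR H n))) deg (DM ξ) (fun _ => famM c E P m)
      (fun _ => famM c E (fun _ => (⊥ : Submodule T H)) 0) :=
  gl1_isTotPair_map hD.mc DM_sq (fun _ => gl1_isPair_bot hP hE m) (hD.gl1_compat_const ha c E m)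
    (gl1_compat_bot D c E 0)

theorem IsShortL.gl1_isPair (hD : IsShortL ξ P D deg N q) (hP : IsGr ξ P) {c : Fin n → ℤ}
    {E : Set (Γ n)} (hE : IsH0 c E) (m : ℤ) :
    IsPair (DGH ξ D deg) (famGH c E deg P fun a => m - q * deg a)
      (famGH c E deg (fun _ => (⊥ : Submodule T H)) fun _ => 0) :=
  (gl1_isTotPair_map hD.mc DM_sq (fun _ => gl1_isPair_bot hP hE _) (hD.gl1_compat c E m)
    (gl1_compat_bot D c E 0)).isPair

theorem LData.isPair_twist (h : LData L ξ P N Λ) (hD : IsShortL ξ P D deg N q) (c : Fin n → ℤ)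
    (m : ℤ) : IsPair (DGH ξ D deg) (famGH c ∅ deg P fun a => m - q * deg a)
      (famGH c ∅ deg (fun _ => (⊥ : Submodule T H)) fun _ => 0) :=
  hD.gl1_isPair h.gr isH0_empty m

theorem IsShortL.gl1_le_DKP (hD : IsShortL ξ P D deg N q) (L : LenFn T) (hP : IsGr ξ P)
    (ha : Antitone P) {c : Fin n → ℤ} {E : Set (Γ n)} (hE : IsH0 c E) (m i : ℤ) :
    ∀ j ∈ ({i, i + (n + 1)} : Set ℤ),
    L.hl (DGH ξ D deg) (famGH c E deg P fun a => m - q * deg a)
      (famGH c E deg (fun _ => (⊥ : Submodule T H)) fun _ => 0) i ≤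
    ∑ a, L.hl (DKPH ξ N) (totFam kdeg fun _ => famM c E P (m - q * deg a))
      (totFam kdeg fun _ => famM c E (fun _ => (⊥ : Submodule T H)) 0) (j - deg a) := by
  choose G hG hG' hG'' using hD.null
  have hA := hD.gl1_isPair hP hE m
  have hb : ∀ (j : Fin (n + 1)) i, ∀ v ∈ famGH c E deg P (fun a => m - q * deg a) i,
      algebraMap H (LR H n) (ξ j ^ N) • v ∈ famGH c E deg P (fun a => m - q * deg a) i :=
    fun j i v hv => mem_totFam.mpr fun a =>
      gl1_smul_zero (gl1_pow_mul hP ha j N) (mem_totFam.mp hv a)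
  have hb' : ∀ (j : Fin (n + 1)) i,
      ∀ v ∈ famGH c E deg (fun _ => (⊥ : Submodule T H)) (fun _ => 0) i,
      algebraMap H (LR H n) (ξ j ^ N) • v ∈
        famGH c E deg (fun _ => (⊥ : Submodule T H)) (fun _ => 0) i :=
    fun j i v hv => mem_totFam.mpr fun a => gl1_smul_bot _ (mem_totFam.mp hv a)
  have h1 := L.hl_le_hl_kos (b := fun j => algebraMap H (LR H n) (ξ j ^ N)) hA hb hb'
    (fun j => matAct ((G j).map (algebraMap H (LR H n))))
    (fun j i v hv => by
      have := matAct_mem_totFam (isHomog_map (algebraMap H (LR H n)) (hG j))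
        (gl1_compat_famM (c := c) (E := E) (P := P) (m := fun a => m - q * deg a)
          fun a b h0 k y hy => by
            rw [hG j a b h0]
            exact ha (by nlinarith [Int.natCast_nonneg q]) (hG'' j a b k y hy)) i v hv
      rwa [sub_neg_eq_add] at this)
    (fun j i v hv => by
      have := matAct_mem_totFam (isHomog_map (algebraMap H (LR H n)) (hG j))
        (gl1_compat_bot (T := T) _ c E 0) i v hv
      rwa [sub_neg_eq_add] at this)
    (fun j v => by
      rw [DGH, tot_matAct_homotopy (isHomog_map _ (hG j)), ← Matrix.map_mul, ← Matrix.map_mul,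
        ← Matrix.map_add _ (map_add _), hG', ← matAct_smul_one]
      congr 2
      ext a b : 2
      by_cases hab : a = b <;> simp [hab]) i
  have h2 := L.hl_tot_swap (isMC_kos fun j => algebraMap H (LR H n) (ξ j ^ N)).homog
    (isHomog_map (algebraMap H (LR H n)) hD.mc.homog) (d := DM ξ)
    (N := fun _ a => famM c E P (m - q * deg a))
    (N' := fun _ _ => famM c E (fun _ => (⊥ : Submodule T H)) 0)
    (isTotPair_kos hA.dd (fun _ => hA) (fun j _ i _ => hb j i)
      (fun j _ i _ => hb' j i)).isPair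
  have h3 := L.hl_tot_le (gl1_isTotPair_map (d := DKPH ξ N) hD.mc (tot_sq (isMC_kos _) DM_sq)
    (K := fun a => totFam kdeg fun _ => famM c E P (m - q * deg a))
    (K' := fun _ => totFam kdeg fun _ => famM c E (fun _ => (⊥ : Submodule T H)) 0)
    (fun a => (gl1_isTotPair_DKP_bot hP ha N hE (m := fun _ => m - q * deg a)
      (fun _ _ _ => by omega)).isPair)
    (fun a b j v hv => mem_totFam.mpr fun S =>
      hD.gl1_compat c E m a b _ _ (mem_totFam.mp hv S))
    (fun a b j v hv => mem_totFam.mpr fun S =>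
      gl1_compat_bot D c E 0 a b _ _ (mem_totFam.mp hv S)))
  rintro j (rfl | rfl)
  · exact (h1.1.trans (h2 _).le).trans (h3 _)
  · rw [Fintype.card_fin] at h1
    exact (h1.2.trans (h2 _).le).trans (h3 _)

theorem LData.gl1_le_low (h : LData L ξ P N Λ) (hD : IsShortL ξ P D deg N q) (c : Fin n → ℤ)
    (m i : ℤ) : L.hl (DGH ξ D deg) (famGH c ∅ deg P fun a => m - q * deg a)
      (famGH c ∅ deg (fun _ => (⊥ : Submodule T H)) fun _ => 0) i ≤
    ∑ a, ∑ S : Finset (Fin (n + 1)), ∑ t ∈ Finset.range (N * (n + 1 - S.card)),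
      gl1E L ξ P c (m - q * deg a + t) (i - deg a - S.card) :=
  (hD.gl1_le_DKP L h.gr h.anti isH0_empty m i i (by simp)).trans
    (Finset.sum_le_sum fun _ _ => gl1_DKP_low h.gr h.anti N c _ _)

theorem LData.gl1_le_high (h : LData L ξ P N Λ) (hD : IsShortL ξ P D deg N q) (c : Fin n → ℤ)
    (m i : ℤ) : L.hl (DGH ξ D deg) (famGH c ∅ deg P fun a => m - q * deg a)
      (famGH c ∅ deg (fun _ => (⊥ : Submodule T H)) fun _ => 0) i ≤
    ∑ a, ∑ S : Finset (Fin (n + 1)), ∑ t ∈ Finset.range (N * S.card),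
      gl1E L ξ P c (m - q * deg a - N * S.card + t) (i + (n + 1) - deg a + 1 - S.card) :=
  (hD.gl1_le_DKP L h.gr h.anti isH0_empty m i (i + (n + 1)) (by simp)).trans
    (Finset.sum_le_sum fun _ _ => gl1_DKP_high h.gr h.anti N c _ _)

theorem LData.finH_twist (h : LData L ξ P N Λ) (hD : IsShortL ξ P D deg N q) (c : Fin n → ℤ)
    (m : ℤ) : L.FinH (DGH ξ D deg) (famGH c ∅ deg P fun a => m - q * deg a)
      (famGH c ∅ deg (fun _ => (⊥ : Submodule T H)) fun _ => 0) := by
  refine ⟨fun i => ne_top_of_le_ne_top ?_ (h.gl1_le_low hD c m i), ?_⟩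
  · refine ENNReal.sum_ne_top.mpr fun a _ => ENNReal.sum_ne_top.mpr fun S _ =>
      ENNReal.sum_ne_top.mpr fun t _ => (h.gl1_finH_layer c _).ne_top _
  · refine (Set.finite_iUnion fun a => Set.finite_Icc (deg a) (deg a + (2 * n + 1))).subset
      fun i hi => ?_
    by_contra hi'
    refine hi (le_antisymm ((L.hl_le_rl _ _ _ _).trans (L.rl_of_le fun v hv => ?_).le)
      zero_le)
    have : v = 0 := funext fun a => by
      have h1 := mem_totFam.mp hv a
      rwa [famM_eq_bot_of_lt_or_gt, Submodule.mem_bot] at h1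
      simp only [Set.mem_iUnion, Set.mem_Icc, not_exists, not_and_or, not_le] at hi'
      have := hi' a
      omega
    rw [this]
    exact zero_mem _

theorem LData.finH_psi (h : LData L ξ P N Λ) (hD : IsShortL ξ P D deg N q) (c : Fin n → ℤ)
    (m : ℤ) : L.FinH (DGH ξ D deg) (famGH c ∅ deg P fun _ => m)
      (famGH c ∅ deg (fun _ => (⊥ : Submodule T H)) fun _ => 0) := by
  simpa using h.finH_twist (hD.zero h.anti) c m

/-- The homology of the twisted complex is concentrated in degree `n`. -/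
theorem LData.hl_twist_off (h : LData L ξ P N Λ) (hD : IsShortL ξ P D deg N q) {c : Fin n → ℤ}
    (hc : ∀ l : Fin n, (((l : ℕ) : ℤ) + 1) * q ≤ c l ∧ c l ≤ (((l : ℕ) : ℤ) + 2) * q)
    {i : ℤ} (hi : i ≠ n) : L.hl (DGH ξ D deg) (famGH c ∅ deg P fun a => 0 - q * deg a)
      (famGH c ∅ deg (fun _ => (⊥ : Submodule T H)) fun _ => 0) i = 0 := by
  have hq0 := Int.natCast_nonneg q
  have hS : ∀ S : Finset (Fin (n + 1)), S.card ≤ n + 1 := fun S => by
    simpa using S.card_le_univ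
  refine le_antisymm ?_ zero_le
  rcases lt_or_gt_of_ne hi with hi | hi
  · refine (h.gl1_le_low hD c 0 i).trans (Finset.sum_eq_zero fun a _ =>
      Finset.sum_eq_zero fun S _ => Finset.sum_eq_zero fun t _ => ?_).le
    have h2 := hD.bound a
    have h4 := posCnt_ge (c := fun l => c l + (0 - q * deg a + t)) (a := deg a) fun l hl => by
      nlinarith [(hc l).1, Int.natCast_nonneg t]
    rw [gl1E, h.layer, boxAt, if_neg (by omega), Nat.cast_zero, mul_zero]
  · refine (h.gl1_le_high hD c 0 i).trans (Finset.sum_eq_zero fun a _ =>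
      Finset.sum_eq_zero fun S _ => Finset.sum_eq_zero fun t ht => ?_).le
    have h1 : (t : ℤ) < (N : ℤ) * S.card := by exact_mod_cast Finset.mem_range.1 ht
    have h2 := hD.bound a
    have h4 := posCnt_le (c := fun l => c l + (0 - q * deg a - (N : ℤ) * S.card + t))
      h2.2 fun l hl => by
        by_contra hlt
        have h5 : ((l : ℕ) : ℤ) + 2 ≤ deg a := by omega
        nlinarith [(hc l).2]
    have h6 := hS S
    rw [gl1E, h.layer, boxAt, if_neg (by omega), Nat.cast_zero, mul_zero]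

theorem LData.gl1_psi_succ (h : LData L ξ P N Λ) (hD : IsShortL ξ P D deg N q) (c : Fin n → ℤ)
    (m : ℤ) : psiL L ξ P D deg c (m + 1) = psiL L ξ P D deg c m := by
  have h1 : IsTotPair (D.map (algebraMap H (LR H n))) deg (DM ξ) (fun _ => famM c ∅ P m)
      (fun _ => famM c ∅ P (m + 1)) :=
    gl1_isTotPair_map hD.mc DM_sq (fun _ => gl1_isPair_famM h.gr h.anti isH0_empty (by omega))
      (hD.gl1_compat_const h.anti c ∅ m) (hD.gl1_compat_const h.anti c ∅ (m + 1))
  have h2 := LenFn.eul_add h1.isPair (hD.isTotPair h.gr h.anti isH0_empty (m + 1)).isPair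
    (L.finH_tot h1 fun _ => h.gl1_finH_layer c m) (h.finH_psi hD c (m + 1))
  have h3 : (∑ a, (sgn (deg a) : ℝ)) = 0 := by exact_mod_cast hD.beta
  rw [L.eul_tot h1 fun _ => h.gl1_finH_layer c m, ← Finset.sum_mul, h3, zero_mul, zero_add] at h2
  exact h2.symm

theorem LData.psi_level (h : LData L ξ P N Λ) (hD : IsShortL ξ P D deg N q) (c : Fin n → ℤ)
    (m m' : ℤ) : psiL L ξ P D deg c m = psiL L ξ P D deg c m' := by
  have key : ∀ k : ℤ, psiL L ξ P D deg c k = psiL L ξ P D deg c 0 := fun k => by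
    induction k using Int.induction_on with
    | zero => rfl
    | succ i ih => rw [h.gl1_psi_succ hD, ih]
    | pred i ih => rw [← ih, ← h.gl1_psi_succ hD, sub_add_cancel]
  rw [key m, key m']

theorem LData.eul_twist (h : LData L ξ P N Λ) (hD : IsShortL ξ P D deg N q) (c : Fin n → ℤ) :
    L.eul (DGH ξ D deg) (famGH c ∅ deg P fun a => 0 - q * deg a)
      (famGH c ∅ deg (fun _ => (⊥ : Submodule T H)) fun _ => 0) =
    (-1) ^ n * (Λ * ((∑ a, sgn (deg a) *
      ∑ s ∈ Finset.range ((deg a).toNat * q), ∏ l, (c l - s) : ℤ) : ℝ)) +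
      psiL L ξ P D deg c 0 := by
  have h2 := fun a => h.gl1_eul_chain c q (deg a).toNat
  simp only [Int.toNat_of_nonneg (hD.bound _).1] at h2
  have t1 : IsTotPair (D.map (algebraMap H (LR H n))) deg (DM ξ)
      (fun a => famM c ∅ P (0 - q * deg a)) (fun _ => famM c ∅ P 0) :=
    gl1_isTotPair_map hD.mc DM_sq (fun a => gl1_isPair_famM h.gr h.anti isH0_empty (by
      nlinarith [(hD.bound a).1, Int.natCast_nonneg q])) (hD.gl1_compat c ∅ 0)
      (hD.gl1_compat_const h.anti c ∅ 0)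
  have h3 := LenFn.eul_add t1.isPair (hD.isTotPair h.gr h.anti isH0_empty 0).isPair
    (L.finH_tot t1 fun a => (h2 a).1) (h.finH_psi hD c 0)
  rw [L.eul_tot t1 fun a => (h2 a).1] at h3
  refine h3.trans (congrArg₂ (· + ·) ?_ rfl)
  rw [Int.cast_sum, Finset.mul_sum, Finset.mul_sum]
  refine Finset.sum_congr rfl fun a _ => ?_
  rw [(h2 a).2, Int.cast_mul, Int.cast_mul, Int.cast_pow, Int.cast_neg, Int.cast_one]
  ring

/-- The complex with the global sections killed is acyclic. -/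
theorem LData.hl_h0_eq_zero (h : LData L ξ P N Λ) (hD : IsShortL ξ P D deg N q)
    (σ : Equiv.Perm (Fin n)) (s i : ℤ) : L.hl (DGH ξ D deg)
      (famGH (fun l => ((σ l : ℕ) : ℤ) + s) (h0Set (fun l => ((σ l : ℕ) : ℤ) + s) (-s)) deg P
        fun _ => -s)
      (famGH (fun l => ((σ l : ℕ) : ℤ) + s) (h0Set (fun l => ((σ l : ℕ) : ℤ) + s) (-s)) deg
        (fun _ => (⊥ : Submodule T H)) fun _ => 0) i = 0 := by
  have h1 := (hD.zero h.anti).gl1_le_DKP L h.gr h.anti
    (isH0_h0Set (c := fun l => ((σ l : ℕ) : ℤ) + s) (-s)) (-s) i i (by simp)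
  simp only [Nat.cast_zero, zero_mul, sub_zero, h.serre, Finset.sum_const_zero] at h1
  exact le_antisymm h1 zero_le

omit [Fintype ι] [DecidableEq ι] in
theorem gl1_compat_conc {G : Matrix ι ι H} {Q : Submodule T H} (hG : ∀ a b, ∀ y ∈ Q, G a b * y ∈ Q) :
    Compat G fun _ => conc Q := fun a b j =>
  Lb.conc_map (φ := fun y => G a b • y) (smul_zero _) (hG a b) j

theorem gl1_isPair_conc (Q : Submodule T H) :
    IsPair (0 : H →ₗ[H] H) (conc Q) (conc (⊥ : Submodule T H)) :=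
  ⟨fun _ => rfl, isFam_conc _, isFam_conc _,
    fun i => Lb.conc_map (φ := id) rfl (fun _ hx => bot_le (a := Q) hx) i⟩

theorem LData.isPair_conc (h : LData L ξ P N Λ) (hD : IsShortL ξ P D deg N q) :
    IsPair (tot D deg (0 : H →ₗ[H] H)) (totFam deg fun _ => conc (P 0))
      (totFam deg fun _ => conc (⊥ : Submodule T H)) :=
  IsTotPair.isPair ⟨hD.mc.homog, fun a b v => by rw [hD.mc.sq]; simp, fun _ => rfl,
    fun _ => gl1_isPair_conc _,
    gl1_compat_conc fun a b y hy => h.anti (by omega) (hD.raise a b 0 y hy),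
    gl1_compat_conc fun a b y hy => gl1_mul_bot _ y hy⟩

theorem LData.gl1_conc_le (h : LData L ξ P N Λ) (hD : IsShortL ξ P D deg N q) (i : ℤ) :
    ∀ j ∈ ({i, i + (n + 1)} : Set ℤ),
    L.hl (tot D deg (0 : H →ₗ[H] H)) (totFam deg fun _ => conc (P 0))
      (totFam deg fun _ => conc (⊥ : Submodule T H)) i ≤
    ∑ a, L.hl (tot (kos fun j => ξ j ^ N) kdeg (0 : H →ₗ[H] H))
      (totFam kdeg fun _ => conc (P 0)) (totFam kdeg fun _ => conc (⊥ : Submodule T H))
      (j - deg a) := by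
  choose G hG hG' hG'' using hD.null
  have hA := h.isPair_conc hD
  have c1 : ∀ (j : Fin (n + 1)) i, ∀ y ∈ conc (P 0) i, ξ j ^ N • y ∈ conc (P 0) i := fun j i =>
    Lb.conc_map (φ := fun y => ξ j ^ N • y) (smul_zero _) (gl1_pow_mul h.gr h.anti j N 0) i
  have c2 : ∀ (j : Fin (n + 1)) i, ∀ y ∈ conc (⊥ : Submodule T H) i,
      ξ j ^ N • y ∈ conc (⊥ : Submodule T H) i := fun j i =>
    Lb.conc_map (φ := fun y => ξ j ^ N • y) (smul_zero _) (gl1_mul_bot _) i
  have hb : ∀ (j : Fin (n + 1)) i, ∀ v ∈ (totFam deg fun _ => conc (P 0)) i,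
      ξ j ^ N • v ∈ (totFam deg fun _ => conc (P 0)) i :=
    fun j i v hv => mem_totFam.mpr fun a => c1 j _ _ (mem_totFam.mp hv a)
  have hb' : ∀ (j : Fin (n + 1)) i, ∀ v ∈ (totFam deg fun _ => conc (⊥ : Submodule T H)) i,
      ξ j ^ N • v ∈ (totFam deg fun _ => conc (⊥ : Submodule T H)) i :=
    fun j i v hv => mem_totFam.mpr fun a => c2 j _ _ (mem_totFam.mp hv a)
  have h1 := L.hl_le_hl_kos (b := fun j => ξ j ^ N) hA hb hb' (fun j => matAct (G j))
    (fun j i v hv => by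
      have := matAct_mem_totFam (hG j) (gl1_compat_conc fun a b => hG'' j a b 0) i v hv
      rwa [sub_neg_eq_add] at this)
    (fun j i v hv => by
      have := matAct_mem_totFam (hG j)
        (gl1_compat_conc (T := T) fun a b y hy => gl1_mul_bot _ y hy) i v hv
      rwa [sub_neg_eq_add] at this)
    (fun j v => by rw [tot_matAct_homotopy (hG j), hG', matAct_smul_one]) i
  have h2 := L.hl_tot_swap (isMC_kos fun j => ξ j ^ N).homog hD.mc.homog (d := (0 : H →ₗ[H] H))
    (N := fun _ _ => conc (P 0)) (N' := fun _ _ => conc (⊥ : Submodule T H))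
    (isTotPair_kos hA.dd (fun _ => hA) (fun j _ i _ => hb j i) (fun j _ i _ => hb' j i)).isPair
  have h3 := L.hl_tot_le (D := D) (deg := deg)
    (d := tot (kos fun j => ξ j ^ N) kdeg (0 : H →ₗ[H] H))
    (K := fun _ => totFam kdeg fun _ => conc (P 0))
    (K' := fun _ => totFam kdeg fun _ => conc (⊥ : Submodule T H))
    ⟨hD.mc.homog, fun a b v => by rw [hD.mc.sq]; simp, tot_sq (isMC_kos _) fun _ => rfl,
      fun _ => (isTotPair_kos (fun _ => rfl) (fun _ => gl1_isPair_conc _)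
        (fun j _ i _ => c1 j i) fun j _ i _ => c2 j i).isPair,
      fun a b j v hv => mem_totFam.mpr fun S =>
        gl1_compat_conc (G := D) (fun a b y hy => h.anti (by omega) (hD.raise a b 0 y hy)) a b _ _
          (mem_totFam.mp hv S),
      fun a b j v hv => mem_totFam.mpr fun S =>
        gl1_compat_conc (G := D) (fun a b y hy => gl1_mul_bot _ y hy) a b _ _
          (mem_totFam.mp hv S)⟩
  rintro j (rfl | rfl)
  · exact (h1.1.trans (h2 _).le).trans (h3 _)
  · rw [Fintype.card_fin] at h1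
    exact (h1.2.trans (h2 _).le).trans (h3 _)

theorem LData.gl1_conc_zero (h : LData L ξ P N Λ) (hD : IsShortL ξ P D deg N q) {i : ℤ}
    (hi : i ≠ 0) : L.hl (tot D deg (0 : H →ₗ[H] H)) (totFam deg fun _ => conc (P 0))
      (totFam deg fun _ => conc (⊥ : Submodule T H)) i = 0 := by
  refine le_antisymm ?_ zero_le
  rcases lt_or_gt_of_ne hi with hi | hi
  · refine (L.hl_le_rl _ _ _ _).trans (L.rl_of_le fun v hv => ?_).le
    have : v = 0 := funext fun a => (mem_conc.mp (mem_totFam.mp hv a)).2 (by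
      have := hD.bound a
      omega)
    rw [this]
    exact zero_mem _
  · refine (h.gl1_conc_le hD i (i + (n + 1)) (by simp)).trans
      (Finset.sum_eq_zero fun a _ => h.koszero _ ?_).le
    have := hD.bound a
    omega

theorem LData.finH_conc (h : LData L ξ P N Λ) (hD : IsShortL ξ P D deg N q) :
    L.FinH (tot D deg (0 : H →ₗ[H] H)) (totFam deg fun _ => conc (P 0))
      (totFam deg fun _ => conc (⊥ : Submodule T H)) := by
  refine ⟨fun i => ne_top_of_le_ne_top (ENNReal.sum_ne_top.mpr fun a _ => h.kosfin _)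
    (h.gl1_conc_le hD i i (by simp)), (Set.finite_singleton (0 : ℤ)).subset fun i hi => ?_⟩
  by_contra hi'
  exact hi (h.gl1_conc_zero hD hi')

/-- (MT2) the complex `D ⊗ P 0` has homology only in degree zero. -/
theorem LData.hl_conc_eq_zero (h : LData L ξ P N Λ) (hD : IsShortL ξ P D deg N q) {i : ℤ}
    (hi : i ≠ 0) : L.hl (tot D deg (0 : H →ₗ[H] H)) (totFam deg fun _ => conc (P 0))
      (totFam deg fun _ => conc (⊥ : Submodule T H)) i = 0 :=
  h.gl1_conc_zero hD hi

end Vale.Agent.P202
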