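import Vale.Agent.P202.GeoL1

/-! Module B2: step 2 of `GeoMain` and the main estimate for an abstract length. -/

namespace Vale.Agent.P202

open Submodule
open scoped ENNReal NNReal

universe u

variable {T : Type u} [CommRing T] {H : Type u} [CommRing H] [Algebra T H] {n : ℕ}
  {ι : Type} [Fintype ι] [DecidableEq ι]
  {L : LenFn T} {ξ : Fin (n + 1) → H} {P : ℤ → Submodule T H} {N q : ℕ} {Λ : ℝ≥0}
  {D : Matrix ι ι H} {deg : ι → ℤ}

namespace GL2

theorem affine_eq_const (h : ℤ → ℝ) (haff : ∀ t, h (t + 2) - h (t + 1) = h (t + 1) - h t)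
    {t1 t2 : ℤ} {v : ℝ} (hne : t1 ≠ t2) (h1 : h t1 = v) (h2 : h t2 = v) (t : ℤ) : h t = v := by
  have hstep : ∀ t, h (t + 1) - h t = h 1 - h 0 := by
    intro t
    induction t using Int.induction_on with
    | zero => simp
    | succ k ih => have := haff k; rw [add_assoc, one_add_one_eq_two]; linarith
    | pred k ih =>
      have := haff (-(k : ℤ) - 1)
      rw [show -(k : ℤ) - 1 + 2 = -k + 1 by ring, show -(k : ℤ) - 1 + 1 = -k by ring] at this
      rw [show -(k : ℤ) - 1 + 1 = -k by ring]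
      linarith
  have hlin : ∀ t, h t = h 0 + t * (h 1 - h 0) := by
    intro t
    induction t using Int.induction_on with
    | zero => simp
    | succ k ih => have := hstep k; push_cast at ih ⊢; linarith
    | pred k ih =>
      have := hstep (-(k : ℤ) - 1)
      rw [show -(k : ℤ) - 1 + 1 = -k by ring] at this
      push_cast at ih ⊢; linarith
  have hs : ((t1 : ℝ) - t2) * (h 1 - h 0) = 0 := by
    have a1 := hlin t1
    have a2 := hlin t2
    linarith
  have hs0 : h 1 - h 0 = 0 := by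
    rcases mul_eq_zero.mp hs with h0 | h0
    · exact absurd (by exact_mod_cast sub_eq_zero.mp h0) hne
    · exact h0
  have a1 := hlin t1
  have a2 := hlin t
  rw [hs0, mul_zero] at a1 a2
  linarith

theorem eq_const_of_multiAffine' : ∀ (n : ℕ) (f : (Fin n → ℤ) → ℝ) (v : ℝ)
    (_haff : ∀ (c : Fin n → ℤ) (l : Fin n), f (c + Pi.single l 2) - f (c + Pi.single l 1) =
      f (c + Pi.single l 1) - f c)
    (_hval : ∀ (g : Fin n → ℤ) (s : ℤ), Function.Injective g → (∀ l, s ≤ g l ∧ g l < s + n) →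
      f g = v) (c : Fin n → ℤ), f c = v := by
  intro n
  induction n with
  | zero =>
    intro f v _ hval c
    exact hval c 0 (fun a => a.elim0) (fun l => l.elim0)
  | succ n ih =>
    intro f v haff hval c
    have e0 : ∀ (t k : ℤ) (g : Fin n → ℤ), (Fin.cons t g : Fin (n + 1) → ℤ) + Pi.single 0 k =
        Fin.cons (t + k) g := by
      intro t k g
      funext l
      refine Fin.cases ?_ (fun l => ?_) l <;> simp
    have e1 : ∀ (t k : ℤ) (g : Fin n → ℤ) (l : Fin n),
        (Fin.cons t g : Fin (n + 1) → ℤ) + Pi.single l.succ k =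
        Fin.cons t (g + Pi.single l k) := by
      intro t k g l
      funext j
      refine Fin.cases ?_ (fun j => ?_) j
      · simp
      · simp [Pi.single_apply]
    rw [← Fin.cons_self_tail c]
    refine ih (fun g => f (Fin.cons (c 0) g)) v (fun g l => ?_) (fun g s hg hs => ?_) _
    · have := haff (Fin.cons (c 0) g) l.succ
      rw [e1, e1] at this
      exact this
    · refine affine_eq_const (fun t => f (Fin.cons t g)) (fun t => ?_) (t1 := s - 1) (t2 := s + n)
        (by omega) ?_ ?_ _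
      · have := haff (Fin.cons t g) 0
        rw [e0, e0] at this
        exact this
      · refine hval _ (s - 1) (Fin.cons_injective_iff.mpr ⟨?_, hg⟩) (fun l => ?_)
        · rintro ⟨l, hl⟩; have := hs l; omega
        · refine Fin.cases ?_ (fun l => ?_) l
          · simp only [Fin.cons_zero]; push_cast; omega
          · have := hs l
            simp only [Fin.cons_succ]; push_cast; omega
      · refine hval _ s (Fin.cons_injective_iff.mpr ⟨?_, hg⟩) (fun l => ?_)
        · rintro ⟨l, hl⟩; have := hs l; omega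
        · refine Fin.cases ?_ (fun l => ?_) l
          · simp only [Fin.cons_zero]; push_cast; omega
          · have := hs l
            simp only [Fin.cons_succ]; push_cast; omega

section FamL
omit [DecidableEq ι]

/-- The family with the same labels `L ε S` at every vertex of the matrix complex. -/
noncomputable def famL (deg : ι → ℤ)
    (L : Finset (Fin n) → Finset (Fin (n + 1)) → Submodule T (LR H n)) :
    ℤ → Submodule T (ι → VM H n) :=
  totFam deg fun _ => totFam kdeg fun ε => totFam kdeg fun S => conc (L ε S)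

theorem mem_famL {deg : ι → ℤ} {L : Finset (Fin n) → Finset (Fin (n + 1)) → Submodule T (LR H n)}
    {i : ℤ} {v : ι → VM H n} : v ∈ famL deg L i ↔ ∀ a ε S, v a ε S ∈ L ε S ∧
      (i - deg a - ε.card - S.card ≠ 0 → v a ε S = 0) := by
  simp only [famL, mem_totFam, mem_conc, kdeg]

theorem famL_inf (deg : ι → ℤ)
    (L L' : Finset (Fin n) → Finset (Fin (n + 1)) → Submodule T (LR H n)) :
    (famL deg fun ε S => L ε S ⊓ L' ε S) = fun i => famL deg L i ⊓ famL deg L' i := by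
  funext i
  ext v
  simp only [mem_famL, mem_inf]
  exact ⟨fun h => ⟨fun a ε S => ⟨(h a ε S).1.1, (h a ε S).2⟩, fun a ε S =>
    ⟨(h a ε S).1.2, (h a ε S).2⟩⟩, fun h a ε S =>
      ⟨⟨(h.1 a ε S).1, (h.2 a ε S).1⟩, (h.1 a ε S).2⟩⟩

theorem famL_mono {deg : ι → ℤ}
    {L L' : Finset (Fin n) → Finset (Fin (n + 1)) → Submodule T (LR H n)}
    (h : ∀ ε S, L ε S ≤ L' ε S) (i : ℤ) : famL deg L i ≤ famL deg L' i := fun _ hv =>
  mem_famL.mpr fun a ε S => ⟨h ε S (mem_famL.mp hv a ε S).1, (mem_famL.mp hv a ε S).2⟩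

theorem pairIso_famL {deg : ι → ℤ} (d : (ι → VM H n) →ₗ[LR H n] (ι → VM H n))
    {L L' C C' : Finset (Fin n) → Finset (Fin (n + 1)) → Submodule T (LR H n)}
    (φ : (ι → VM H n) →ₗ[T] (ι → VM H n)) (hφ : ∀ v, φ (d v) = d (φ v))
    (b : Finset (Fin n) → LR H n → LR H n) (hb : ∀ v a ε S, φ v a ε S = b ε (v a ε S))
    (h0 : ∀ ε, b ε 0 = 0) (h1 : ∀ ε S, ∀ y ∈ L ε S, b ε y ∈ C ε S)
    (h2 : ∀ ε S, ∀ y ∈ L' ε S, b ε y ∈ C' ε S)
    (h3 : ∀ ε S, ∀ y ∈ C ε S, ∃ z ∈ L ε S, y - b ε z ∈ C' ε S)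
    (h4 : ∀ ε S, ∀ y ∈ L ε S, b ε y ∈ C' ε S → y ∈ L' ε S) :
    PairIso d (famL deg L) (famL deg L') d (famL deg C) (famL deg C') φ 1 0 := by
  refine ⟨fun i v hv => ?_, fun i v hv => ?_, fun i y hy => ?_, fun i v hv hv' => ?_,
    fun i v _ => ?_⟩
  · rw [add_zero, mem_famL]
    intro a ε S
    have := mem_famL.mp hv a ε S
    rw [hb]
    exact ⟨h1 _ _ _ this.1, fun h => by rw [this.2 h, h0]⟩
  · rw [add_zero, mem_famL]
    intro a ε S
    have := mem_famL.mp hv a ε S
    rw [hb]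
    exact ⟨h2 _ _ _ this.1, fun h => by rw [this.2 h, h0]⟩
  · rw [add_zero] at hy ⊢
    have key : ∀ a ε S, ∃ z, (z ∈ L ε S ∧ (i - deg a - ε.card - S.card ≠ 0 → z = 0)) ∧
        y a ε S - b ε z ∈ C' ε S := fun a ε S => by
      have := mem_famL.mp hy a ε S
      by_cases h : i - deg a - ε.card - S.card = 0
      · obtain ⟨z, hz, hz'⟩ := h3 _ _ _ this.1
        exact ⟨z, ⟨hz, fun h' => absurd h h'⟩, hz'⟩
      · exact ⟨0, ⟨zero_mem _, fun _ => rfl⟩, by rw [this.2 h, h0, sub_zero]; exact zero_mem _⟩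
    choose z hz hz' using key
    refine ⟨z, mem_famL.mpr hz, mem_famL.mpr fun a ε S => ?_⟩
    simp only [Pi.sub_apply, hb]
    exact ⟨hz' a ε S, fun h => by
      rw [(mem_famL.mp hy a ε S).2 h, (hz a ε S).2 h, h0, sub_zero]⟩
  · rw [add_zero] at hv'
    refine mem_famL.mpr fun a ε S => ?_
    have := mem_famL.mp hv a ε S
    exact ⟨h4 _ _ _ this.1 (hb v a ε S ▸ (mem_famL.mp hv' a ε S).1), this.2⟩
  · rw [hφ, one_smul, sub_self]
    exact zero_mem _

/-- The labels of `famM`. -/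
noncomputable def labs (c : Fin n → ℤ) (E : Set (Γ n)) (P : ℤ → Submodule T H) (m : ℤ)
    (ε : Finset (Fin n)) (S : Finset (Fin (n + 1))) : Submodule T (LR H n) :=
  lab c ε (extra E ε S) P (m - S.card)

omit [Fintype ι] in
theorem famL_labs (deg : ι → ℤ) (c : Fin n → ℤ) (E : Set (Γ n)) (P : ℤ → Submodule T H) (m : ℤ) :
    famL deg (labs c E P m) = totFam deg fun _ => famM c E P m := rfl

theorem labs_empty (c : Fin n → ℤ) (P : ℤ → Submodule T H) (m : ℤ) (ε : Finset (Fin n))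
    (S : Finset (Fin (n + 1))) : labs c ∅ P m ε S = lab c ε ∅ P (m - S.card) := by
  simp [labs, extra]

theorem lab_le_lab {c c' : Fin n → ℤ} {ε : Finset (Fin n)} {E E' : Set (Γ n)}
    {P : ℤ → Submodule T H} {m : ℤ} (hc : ∀ l, c l ≤ c' l) (hE : E ⊆ E') :
    lab c ε E P m ≤ lab c' ε E' P m := fun _ hf γ =>
  ⟨(hf γ).1, fun h h' => (hf γ).2 (fun ⟨l, h1, h2⟩ => h ⟨l, h1, by linarith [hc l]⟩)
    fun h'' => h' (hE h'')⟩

theorem lab_split (c c' : Fin n → ℤ) (ε : Finset (Fin n)) (E E' : Set (Γ n))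
    (P : ℤ → Submodule T H) (m m' : ℤ) : ∀ y ∈ lab c' ε E' P m, ∃ z ∈ lab c ε E P m,
      y - z ∈ lab c' ε E' (fun _ => (⊥ : Submodule T H)) m' := by
  classical
  intro y hy
  refine ⟨.ofCoeff (y.coeff.filter fun γ => ¬ IsDeadAt c' ε γ ∧ γ ∉ E'), fun γ => ⟨fun h => ?_,
    fun _ _ => ?_⟩, fun γ => ⟨fun h => ?_, fun h h' => ?_⟩⟩
  · simp [Finsupp.filter_apply, (hy γ).1 h]
  · simp only [Finsupp.filter_apply]
    split_ifs with h
    · exact (hy γ).2 h.1 h.2
    · exact zero_mem _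
  · simp [Finsupp.filter_apply, (hy γ).1 h]
  · simp [h, h']

/-- Enlarging the set of dead monomials. -/
theorem eul_enlarge (L : LenFn T) {d : (ι → VM H n) →ₗ[LR H n] (ι → VM H n)} {deg : ι → ℤ}
    {c c' : Fin n → ℤ} {E E' : Set (Γ n)}
    {P : ℤ → Submodule T H} {m : ℤ} (hc : ∀ l, c l ≤ c' l) (hEE : E ⊆ E')
    (p : IsPair d (famL deg (labs c E P m))
      (famL deg (labs c E (fun _ => (⊥ : Submodule T H)) 0)))
    (p' : IsPair d (famL deg (labs c' E' P m))
      (famL deg (labs c' E' (fun _ => (⊥ : Submodule T H)) 0)))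
    (f : L.FinH d (famL deg (labs c E P m)) (famL deg (labs c E (fun _ => ⊥) 0)))
    (f' : L.FinH d (famL deg (labs c' E' P m)) (famL deg (labs c' E' (fun _ => ⊥) 0))) :
    IsPair d (famL deg fun ε S => labs c E P m ε S ⊓ labs c' E' (fun _ => ⊥) 0 ε S)
      (famL deg (labs c E (fun _ => ⊥) 0)) ∧
    L.eul d (famL deg (labs c E P m)) (famL deg (labs c E (fun _ => ⊥) 0)) =
      L.eul d (famL deg (labs c' E' P m)) (famL deg (labs c' E' (fun _ => ⊥) 0)) +
      L.eul d (famL deg fun ε S => labs c E P m ε S ⊓ labs c' E' (fun _ => ⊥) 0 ε S)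
        (famL deg (labs c E (fun _ => ⊥) 0)) := by
  have hf : IsFam d
      (famL deg fun ε S => labs c E P m ε S ⊓ labs c' E' (fun _ => ⊥) 0 ε S) := by
    rw [famL_inf]
    exact p.top.inf p'.bot
  have p1 : IsPair d (famL deg (labs c E P m))
      (famL deg fun ε S => labs c E P m ε S ⊓ labs c' E' (fun _ => ⊥) 0 ε S) :=
    ⟨p.dd, p.top, hf, famL_mono fun _ _ => inf_le_left⟩
  have p2 : IsPair d
      (famL deg fun ε S => labs c E P m ε S ⊓ labs c' E' (fun _ => ⊥) 0 ε S)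
      (famL deg (labs c E (fun _ => ⊥) 0)) :=
    ⟨p.dd, hf, p.bot, famL_mono fun ε S => le_inf (lab_mono fun _ => bot_le)
      (lab_le_lab hc (extra_mono hEE ε S))⟩
  have iso := pairIso_famL (deg := deg) d (L := labs c E P m)
    (L' := fun ε S => labs c E P m ε S ⊓ labs c' E' (fun _ => ⊥) 0 ε S) (C := labs c' E' P m)
    (C' := labs c' E' (fun _ => ⊥) 0) LinearMap.id (fun _ => rfl) (fun _ y => y)
    (fun _ _ _ _ => rfl) (fun _ => rfl)
    (fun ε S _ hy => lab_le_lab hc (extra_mono hEE ε S) hy) (fun _ _ _ hy => hy.2)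
    (fun ε S => lab_split _ _ _ _ _ _ _ _) (fun _ _ _ hy hy' => ⟨hy, hy'⟩)
  have e := L.finH_eul_of_hl_eq 0 (L.hl_eq_of_pairIso iso p1 p')
  have f1 := e.1.mpr f'
  refine ⟨p2, ?_⟩
  rw [LenFn.eul_add p1 p2 f1 (LenFn.FinH.sub p1 p2 f f1), e.2, sgn_zero, Int.cast_one, one_mul]

theorem mon_mul_mem_lab {c : Fin n → ℤ} {ε : Finset (Fin n)} {P : ℤ → Submodule T H} {m : ℤ}
    {u : Fin n → ℤ} (hu : ∀ l ∈ ε, u l = 0) {y : LR H n} (hy : y ∈ lab c ε ∅ P m) :
    mon H u 0 * y ∈ lab (c + u) ε ∅ P m := by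
  intro γ
  rw [mon, AddMonoidAlgebra.coeff_single_mul_apply, one_mul]
  refine ⟨fun ⟨l, h1, h2⟩ => (hy _).1 ⟨l, h1, by simpa [hu l h1] using h2⟩, fun h _ => ?_⟩
  have := (hy (-(u, 0) + γ)).2 (fun ⟨l, h1, h2⟩ => h ⟨l, h1, by
    simp only [Prod.neg_mk, Prod.fst_add, Pi.add_apply, Pi.neg_apply, neg_zero, Prod.snd_add,
      zero_add] at h2 ⊢
    linarith⟩) (by simp)
  simpa using this

theorem mon_neg_mul (u : Fin n → ℤ) (y : LR H n) : mon H (-u) 0 * (mon H u 0 * y) = y := by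
  rw [← mul_assoc, mon, mon, AddMonoidAlgebra.single_mul_single]
  simp only [Prod.mk_add_mk, neg_add_cancel, add_zero, mul_one]
  exact one_mul y

theorem lab_add_single {c : Fin n → ℤ} {ε : Finset (Fin n)} {P : ℤ → Submodule T H} {m : ℤ}
    {l : Fin n} (hl : l ∈ ε) (k : ℤ) : lab (c + Pi.single l k) ε ∅ P m = lab c ε ∅ P m := by
  have : ∀ γ, IsDeadAt (c + Pi.single l k) ε γ ↔ IsDeadAt c ε γ := fun γ =>
    exists_congr fun l' => and_congr_right fun h => by
      rw [Pi.add_apply, Pi.single_eq_of_ne (fun (e : l' = l) => h (e ▸ hl)), add_zero]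
  ext y
  simp only [mem_lab, this]

omit [Fintype ι] in
theorem DM_special {ξ : Fin (n + 1) → H} {w : VM H n}
    (hw : ∀ S, S ≠ ∅ → w Finset.univ S = 0) : DM ξ w Finset.univ ∅ = 0 := by
  have h1 : DK ξ (w Finset.univ) ∅ = 0 := by
    rw [DK, tot_apply, ← matAct_apply, matAct_kos_apply]
    simp only [LinearMap.zero_apply, smul_zero, add_zero]
    exact Finset.sum_eq_zero fun j _ => by rw [hw _ (Finset.insert_ne_empty _ _)]; simp
  rw [DM, tot_apply, ← matAct_apply, matAct_kos_apply]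
  simp [h1]

theorem pairIso_h0 {ξ : Fin (n + 1) → H} (D : Matrix ι ι H) (deg : ι → ℤ) (c₀ : Fin n → ℤ)
    (hc₀ : ∀ l, 0 ≤ c₀ l) (s m : ℤ) (P : ℤ → Submodule T H) :
    ∃ φ : (ι → VM H n) →ₗ[T] (boxSet c₀ → ι → H), PairIso (DGH ξ D deg)
      (famL deg fun ε S => labs (fun l => c₀ l + s) ∅ P m ε S ⊓
        labs (fun l => c₀ l + s) (h0Set (fun l => c₀ l + s) (-s)) (fun _ => ⊥) 0 ε S)
      (famL deg (labs (fun l => c₀ l + s) ∅ (fun _ => ⊥) 0))
      (tot (0 : Matrix (boxSet c₀) (boxSet c₀) H) (fun _ => 0) (tot D deg (0 : H →ₗ[H] H)))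
      (totFam (fun _ => 0) fun _ => totFam deg fun _ => conc (P (m + s)))
      (totFam (fun _ => 0) fun _ => totFam deg fun _ => conc (⊥ : Submodule T H)) φ 1 (-n) := by
  classical
  have hE : ∀ γ : Γ n, γ ∈ h0Set (fun l => c₀ l + s) (-s) ↔ γ.1 ∈ boxSet c₀ ∧ γ.2 = -s := by
    intro γ
    simp [h0Set, boxSet, hc₀, and_comm]
  have hnd : ∀ γ : Γ n, ¬ IsDeadAt (fun l => c₀ l + s) Finset.univ γ :=
    fun γ ⟨l, h, _⟩ => h (Finset.mem_univ l)
  have hz : ∀ (μ : ℤ) (y : LR H n),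
      y ∈ lab (fun l => c₀ l + s) Finset.univ ∅ (fun _ => (⊥ : Submodule T H)) μ → y = 0 :=
    fun μ y hy => by
      ext γ
      simpa using (hy γ).2 (hnd γ) (by simp)
  let φ : (ι → VM H n) →ₗ[T] (boxSet c₀ → ι → H) :=
    { toFun := fun v b a => (v a Finset.univ ∅).coeff (b.1, -s)
      map_add' := fun v w => by ext b a; simp
      map_smul' := fun r v => by ext b a; simp }
  have hφ : ∀ v b a, φ v b a = (v a Finset.univ ∅).coeff (b.1, -s) := fun _ _ _ => rfl
  have hdeg : ∀ (i : ℤ) a, i + -n - 0 - deg a ≠ 0 ↔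
      i - deg a - (Finset.univ : Finset (Fin n)).card - (∅ : Finset (Fin (n + 1))).card ≠ 0 := by
    intro i a
    simp only [Finset.card_univ, Fintype.card_fin, Finset.card_empty, Nat.cast_zero]
    omega
  refine ⟨φ, fun i v hv => ?_, fun i v hv => ?_, fun i y hy => ?_, fun i v hv hv' => ?_,
    fun i v hv => ?_⟩
  · simp only [mem_totFam, mem_conc, hφ, hdeg]
    intro b a
    have := mem_famL.mp hv a Finset.univ ∅
    refine ⟨?_, fun h => by simp [this.2 h]⟩
    have h1 := this.1.1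
    rw [labs_empty] at h1
    simpa using (h1 (b.1, -s)).2 (hnd _) (by simp)
  · simp only [mem_totFam, mem_conc, hφ]
    intro b a
    have h1 := (mem_famL.mp hv a Finset.univ ∅).1
    rw [labs_empty] at h1
    simp [hz _ _ h1]
  · simp only [mem_totFam, mem_conc, hdeg] at hy
    let z : ι → LR H n := fun a => ∑ b : boxSet c₀, AddMonoidAlgebra.single (b.1, -s) (y b a)
    have hz1 : ∀ a (b : boxSet c₀), (z a).coeff (b.1, -s) = y b a := by
      intro a b
      simp only [z, AddMonoidAlgebra.coeff_sum, AddMonoidAlgebra.coeff_single,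
        Finsupp.finsetSum_apply]
      rw [Finset.sum_eq_single b]
      · simp
      · intro b' _ hb'
        exact Finsupp.single_eq_of_ne fun e => hb' (Subtype.ext (Prod.ext_iff.mp e).1).symm
      · simp
    have hz2 : ∀ a γ, γ ∉ h0Set (fun l => c₀ l + s) (-s) → (z a).coeff γ = 0 := by
      intro a γ hγ
      simp only [z, AddMonoidAlgebra.coeff_sum, AddMonoidAlgebra.coeff_single,
        Finsupp.finsetSum_apply]
      exact Finset.sum_eq_zero fun b _ => Finsupp.single_eq_of_ne fun e =>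
        hγ ((hE γ).mpr (by rw [e]; exact ⟨b.2, rfl⟩))
    have hz3 : ∀ a γ, IsZeroAt Finset.univ γ → (z a).coeff γ = 0 := fun a γ ⟨l, _, h⟩ =>
      hz2 a γ fun h' => absurd (h'.2 l).1 (not_le.mpr h)
    refine ⟨fun a ε S => if ε = Finset.univ ∧ S = ∅ then z a else 0,
      mem_famL.mpr fun a ε S => ?_, ?_⟩
    · split_ifs with h
      · obtain ⟨rfl, rfl⟩ := h
        refine ⟨⟨fun γ => ⟨hz3 a γ, fun _ _ => ?_⟩, fun γ => ⟨hz3 a γ, fun _ h => ?_⟩⟩,
          fun h => ?_⟩
        · by_cases hγ : γ ∈ h0Set (fun l => c₀ l + s) (-s)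
          · obtain ⟨h1, h2⟩ := (hE γ).mp hγ
            have h3 := hz1 a ⟨γ.1, h1⟩
            rw [← h2] at h3
            rw [h3, h2]
            simpa using (hy ⟨γ.1, h1⟩ a).1
          · rw [hz2 a γ hγ]
            exact zero_mem _
        · rw [hz2 a γ (by simpa [extra] using h)]
          exact zero_mem _
        · exact Finset.sum_eq_zero fun b _ => by rw [(hy b a).2 h]; simp
      · exact ⟨zero_mem _, fun _ => rfl⟩
    · simp only [mem_totFam, mem_conc]
      intro b a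
      simp [hφ, hz1]
  · simp only [mem_totFam, mem_conc, hφ] at hv'
    refine mem_famL.mpr fun a ε S => ?_
    have := mem_famL.mp hv a ε S
    refine ⟨fun γ => ⟨(this.1.2 γ).1, fun h _ => ?_⟩, this.2⟩
    by_cases hγ : γ ∈ extra (h0Set (fun l => c₀ l + s) (-s)) ε S
    · unfold extra at hγ
      split_ifs at hγ with h'
      · obtain ⟨rfl, rfl⟩ := h'
        obtain ⟨h1, h2⟩ := (hE γ).mp hγ
        have h3 := (hv' ⟨γ.1, h1⟩ a).1
        rwa [← h2] at h3
      · simp at hγ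
    · exact (this.1.2 γ).2 h hγ
  · have h1 : ∀ a, DM ξ (v a) Finset.univ ∅ = 0 := fun a => DM_special fun S hS => by
      have := (mem_famL.mp hv a Finset.univ S).1.2
      rw [labs, extra, if_neg fun h => hS h.2] at this
      exact hz _ _ this
    have h2 : φ (DGH ξ D deg v) = tot (0 : Matrix (boxSet c₀) (boxSet c₀) H) (fun _ => 0)
        (tot D deg (0 : H →ₗ[H] H)) (φ v) := by
      funext b a
      simp [hφ, DGH, tot_apply, h1, sgn_zero, AddMonoidAlgebra.coeff_single_mul_apply]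
    rw [h2, one_smul, sub_self]
    exact zero_mem _

end FamL

end GL2

theorem eq_const_of_multiAffine_real (f : (Fin n → ℤ) → ℝ) (v : ℝ)
    (haff : ∀ (c : Fin n → ℤ) (l : Fin n), f (c + Pi.single l 2) - f (c + Pi.single l 1) =
      f (c + Pi.single l 1) - f c)
    (hval : ∀ (σ : Equiv.Perm (Fin n)) (s : ℤ), f (fun l => ((σ l : ℕ) : ℤ) + s) = v)
    (c : Fin n → ℤ) : f c = v := by
  refine GL2.eq_const_of_multiAffine' n f v haff (fun g s hg hs => ?_) c
  let σ0 : Fin n → Fin n := fun l => ⟨(g l - s).toNat, by have := hs l; omega⟩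
  have hinj : Function.Injective σ0 := by
    intro a b hab
    have h1 : (g a - s).toNat = (g b - s).toNat := congrArg Fin.val hab
    have := hs a
    have := hs b
    exact hg (by omega)
  have h := hval (Equiv.ofBijective σ0 (Finite.injective_iff_bijective.mp hinj)) s
  have e : (fun l => (((Equiv.ofBijective σ0 (Finite.injective_iff_bijective.mp hinj)) l : ℕ) : ℤ)
      + s) = g := by
    funext l
    have := hs l
    show (((g l - s).toNat : ℕ) : ℤ) + s = g l
    omega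
  rw [e] at h
  exact h

theorem LData.psi_affine (h : LData L ξ P N Λ) (hD : IsShortL ξ P D deg N q) (c : Fin n → ℤ)
    (m : ℤ) (l : Fin n) :
    psiL L ξ P D deg (c + Pi.single l 2) m - psiL L ξ P D deg (c + Pi.single l 1) m =
      psiL L ξ P D deg (c + Pi.single l 1) m - psiL L ξ P D deg c m := by
  have hc : ∀ (c : Fin n → ℤ) l', c l' ≤ (c + Pi.single l 1 : Fin n → ℤ) l' := fun c l' => by
    rw [Pi.add_apply, Pi.single_apply]
    split_ifs <;> omega
  have e2 : c + Pi.single l 2 = c + Pi.single l 1 + Pi.single l 1 := by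
    rw [add_assoc, ← Pi.single_add]; rfl
  have key := fun c : Fin n → ℤ => GL2.eul_enlarge L (d := DGH ξ D deg) (hc c) le_rfl
    (hD.isTotPair h.gr h.anti (c := c) isH0_empty m).isPair
    (hD.isTotPair h.gr h.anti isH0_empty m).isPair (h.finH_psi hD c m) (h.finH_psi hD _ m)
  have k1 := key c
  have k2 := key (c + Pi.single l 1)
  have hu : ∀ ε : Finset (Fin n), l ∉ ε → ∀ l' ∈ ε, (Pi.single l 1 : Fin n → ℤ) l' = 0 :=
    fun ε hl l' hl' => Pi.single_eq_of_ne (fun (e : l' = l) => hl (e ▸ hl')) _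
  have hu' : ∀ ε : Finset (Fin n), l ∉ ε → ∀ l' ∈ ε, (-Pi.single l 1 : Fin n → ℤ) l' = 0 :=
    fun ε hl l' hl' => by rw [Pi.neg_apply, hu ε hl l' hl', neg_zero]
  have hw : ∀ (c : Fin n → ℤ) (ε : Finset (Fin n)) (P : ℤ → Submodule T H) (m : ℤ),
      ∀ y ∈ lab c ε ∅ P m, mon H (Pi.single l 1) 0 * y ∈ lab (c + Pi.single l 1) ε ∅ P m := by
    intro c ε P m y hy
    by_cases hl : l ∈ ε
    · rw [GL2.lab_add_single hl]
      have := isWt_mon (H := H) (c := c) (ε := ε) (P := P) (a := Pi.single l 1) (s := 0)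
        (fun l' _ => by rw [Pi.single_apply]; split_ifs <;> omega)
        (fun l' h' => by rw [Pi.single_eq_of_ne (fun (e : l' = l) => h' (e ▸ hl))]) m y hy
      rwa [add_zero] at this
    · exact GL2.mon_mul_mem_lab (hu ε hl) hy
  have hw' : ∀ (c : Fin n → ℤ) (ε : Finset (Fin n)) (P : ℤ → Submodule T H) (m : ℤ), l ∉ ε →
      ∀ y ∈ lab (c + Pi.single l 1) ε ∅ P m, mon H (-Pi.single l 1) 0 * y ∈ lab c ε ∅ P m := by
    intro c ε P m hl y hy
    simpa using GL2.mon_mul_mem_lab (hu' ε hl) hy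
  have iso := GL2.pairIso_famL (deg := deg) (DGH ξ D deg)
    (L := fun ε S => GL2.labs c ∅ P m ε S ⊓ GL2.labs (c + Pi.single l 1) ∅ (fun _ => ⊥) 0 ε S)
    (L' := GL2.labs c ∅ (fun _ => ⊥) 0)
    (C := fun ε S => GL2.labs (c + Pi.single l 1) ∅ P m ε S ⊓
      GL2.labs (c + Pi.single l 1 + Pi.single l 1) ∅ (fun _ => ⊥) 0 ε S)
    (C' := GL2.labs (c + Pi.single l 1) ∅ (fun _ => ⊥) 0)
    ((LinearMap.lsmul (LR H n) _ (mon H (Pi.single l 1) 0)).restrictScalars T)
    (fun v => by simp) (fun _ y => mon H (Pi.single l 1) 0 * y) (fun _ _ _ _ => rfl)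
    (fun _ => mul_zero _)
    (fun ε S y hy => by
      simp only [GL2.labs_empty] at hy ⊢
      exact ⟨hw _ _ _ _ _ hy.1, hw _ _ _ _ _ hy.2⟩)
    (fun ε S y hy => by
      simp only [GL2.labs_empty] at hy ⊢
      exact hw _ _ _ _ _ hy)
    (fun ε S y hy => by
      simp only [GL2.labs_empty] at hy ⊢
      by_cases hl : l ∈ ε
      · refine ⟨0, zero_mem _, ?_⟩
        have := hy.2
        rw [GL2.lab_add_single hl] at this
        simpa using this
      · refine ⟨_, ⟨hw' _ _ _ _ hl _ hy.1, hw' _ _ _ _ hl _ hy.2⟩, ?_⟩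
        have := GL2.mon_neg_mul (-Pi.single l 1) y
        rw [neg_neg] at this
        rw [this, sub_self]
        exact zero_mem _)
    (fun ε S y hy hy' => by
      simp only [GL2.labs_empty] at hy hy' ⊢
      by_cases hl : l ∈ ε
      · have := hy.2
        rwa [GL2.lab_add_single hl] at this
      · have := hw' _ _ _ _ hl _ hy'
        rwa [GL2.mon_neg_mul] at this)
  have k3 := (L.finH_eul_of_hl_eq 0 (L.hl_eq_of_pairIso iso k1.1 k2.1)).2
  rw [sgn_zero, Int.cast_one, one_mul] at k3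
  have k4 := k1.2
  have k5 := k2.2
  rw [e2]
  change psiL L ξ P D deg c m = psiL L ξ P D deg (c + Pi.single l 1) m + _ at k4
  change psiL L ξ P D deg (c + Pi.single l 1) m =
    psiL L ξ P D deg (c + Pi.single l 1 + Pi.single l 1) m + _ at k5
  linarith

theorem LData.psi_perm (h : LData L ξ P N Λ) (hD : IsShortL ξ P D deg N q)
    (σ : Equiv.Perm (Fin n)) (s m : ℤ) :
    psiL L ξ P D deg (fun l => ((σ l : ℕ) : ℤ) + s) m = (-1) ^ n * n.factorial *
      L.eul (tot D deg (0 : H →ₗ[H] H)) (totFam deg fun _ => conc (P 0))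
        (totFam deg fun _ => conc (⊥ : Submodule T H)) := by
  rw [h.psi_level hD _ m (-s)]
  have z3 := h.hl_h0_eq_zero hD σ s
  obtain ⟨p, e2⟩ := GL2.eul_enlarge L (d := DGH ξ D deg) (c := fun l => ((σ l : ℕ) : ℤ) + s)
    (fun _ => le_rfl) (Set.empty_subset _) (hD.isTotPair h.gr h.anti isH0_empty (-s)).isPair
    (hD.isTotPair h.gr h.anti (isH0_h0Set (-s)) (-s)).isPair (h.finH_psi hD _ (-s))
    (L.finH_of_hl_eq_zero z3)
  obtain ⟨φ, iso⟩ := GL2.pairIso_h0 (ξ := ξ) D deg (fun l => ((σ l : ℕ) : ℤ))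
    (fun _ => Int.natCast_nonneg _) s (-s) P
  rw [neg_add_cancel] at iso
  have t5 := h.isPair_conc hD
  have t4 : IsTotPair (0 : Matrix (boxSet fun l => ((σ l : ℕ) : ℤ))
      (boxSet fun l => ((σ l : ℕ) : ℤ)) H) (fun _ => 0) _ _ _ :=
    ⟨fun _ _ h0 => absurd rfl h0, by simp, t5.dd, fun _ => t5, fun _ _ _ _ _ => by simp,
      fun _ _ _ _ _ => by simp⟩
  have e3 := (L.finH_eul_of_hl_eq _ (L.hl_eq_of_pairIso iso p t4.isPair)).2
  rw [L.eul_tot t4 fun _ => h.finH_conc hD, Finset.sum_const, Finset.card_univ, Fintype.card_coe,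
    card_boxSet_perm, sgn_zero, Int.cast_one, one_mul, nsmul_eq_mul] at e3
  have e5 : (sgn (-(n : ℤ)) : ℝ) = (-1) ^ n := by
    have : sgn (-(n : ℤ)) = (-1) ^ n := by rw [← sgn_natCast, sgn, sgn, Int.negOnePow_neg]
    rw [this]
    push_cast
    rfl
  have e6 := L.eul_of_hl_eq_zero z3
  have e7 : ((-1 : ℝ) ^ n) * (-1) ^ n = 1 := by rw [← mul_pow]; simp
  rw [mul_assoc, e3, e5, ← mul_assoc, e7, one_mul]
  refine e2.trans ?_
  rw [add_eq_right]
  exact e6

/-- The main estimate. -/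
theorem LData.main_est (h : LData L ξ P N Λ) (hD : IsShortL ξ P D deg N q) {c : Fin n → ℤ}
    (hc : ∀ l : Fin n, (((l : ℕ) : ℤ) + 1) * q ≤ c l ∧ c l ≤ (((l : ℕ) : ℤ) + 2) * q) :
    -(Λ * ((∑ a, sgn (deg a) *
      ∑ s ∈ Finset.range ((deg a).toNat * q), ∏ l, (c l - s) : ℤ) : ℝ)) ≤
    n.factorial * (L.hl (tot D deg (0 : H →ₗ[H] H)) (totFam deg fun _ => conc (P 0))
      (totFam deg fun _ => conc (⊥ : Submodule T H)) 0).toReal := by
  have e7 : ((-1 : ℝ) ^ n) * (-1) ^ n = 1 := by rw [← mul_pow]; simp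
  have h1 := L.eul_eq_sum {(n : ℤ)} fun i hi =>
    h.hl_twist_off hD hc (i := i) (by simpa using hi)
  have h2 := L.eul_eq_sum {(0 : ℤ)} fun i hi => h.hl_conc_eq_zero hD (i := i) (by simpa using hi)
  have h3 := eq_const_of_multiAffine_real (fun c => psiL L ξ P D deg c 0) _
    (fun c l => h.psi_affine hD c 0 l) (fun σ s => h.psi_perm hD σ s 0) c
  rw [Finset.sum_singleton, h.eul_twist hD c, h3, h2, Finset.sum_singleton, sgn_zero,
    sgn_natCast, Int.cast_one, one_mul, Int.cast_pow, Int.cast_neg, Int.cast_one, mul_assoc,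
    ← mul_add] at h1
  have h4 := mul_left_cancel₀ (pow_ne_zero n (by norm_num : (-1 : ℝ) ≠ 0)) h1
  have h5 := h4.symm ▸ ENNReal.toReal_nonneg
  linarith

end Vale.Agent.P202
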