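import Mathlib

/-! P202, part D of module M3: additive functionals on cyclic subquotients. -/

namespace Vale.Agent.P202

open Submodule

theorem afLength_colon {A : Type*} [CommRing A] (J : Ideal A) (g : A) :
    Module.length A (A ⧸ J) =
      Module.length A (A ⧸ J.colon {g}) + Module.length A (A ⧸ (J ⊔ Ideal.span {g})) := by
  have h1 : J.colon {g} ≤ Submodule.comap (LinearMap.toSpanSingleton A A g) J := by
    intro r hr
    exact mem_colon_singleton.mp hr
  refine Module.length_eq_add_of_exact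
    ((J.colon {g}).mapQ J (LinearMap.toSpanSingleton A A g) h1)
    (Submodule.factor (le_sup_left : J ≤ J ⊔ Ideal.span {g})) ?_ (Submodule.factor_surjective _) ?_
  · rw [← LinearMap.ker_eq_bot, eq_bot_iff]
    intro x hx
    obtain ⟨r, rfl⟩ := Submodule.Quotient.mk_surjective _ x
    rw [LinearMap.mem_ker, Submodule.mapQ_apply, Submodule.Quotient.mk_eq_zero] at hx
    rw [Submodule.mem_bot, Submodule.Quotient.mk_eq_zero]
    exact mem_colon_singleton.mpr hx
  · intro x
    obtain ⟨r, rfl⟩ := Submodule.Quotient.mk_surjective _ x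
    have h2 : Submodule.factor (le_sup_left : J ≤ J ⊔ Ideal.span {g})
        (Submodule.Quotient.mk r) = Submodule.Quotient.mk r := rfl
    rw [h2, Submodule.Quotient.mk_eq_zero]
    constructor
    · intro hr
      obtain ⟨y, hy, z, hz, rfl⟩ := Submodule.mem_sup.mp hr
      obtain ⟨s, rfl⟩ := Ideal.mem_span_singleton'.mp hz
      refine ⟨Submodule.Quotient.mk s, ?_⟩
      rw [Submodule.mapQ_apply, Submodule.Quotient.eq]
      simpa using hy
    · rintro ⟨y, hy⟩
      obtain ⟨s, rfl⟩ := Submodule.Quotient.mk_surjective _ y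
      rw [Submodule.mapQ_apply, Submodule.Quotient.eq] at hy
      have h3 : r = s * g - (s * g - r) := by ring
      rw [h3]
      refine Submodule.sub_mem _ (Submodule.mem_sup_right ?_) (Submodule.mem_sup_left ?_)
      · exact Ideal.mem_span_singleton'.mpr ⟨s, rfl⟩
      · simpa using hy

theorem afMap_colon {R : Type*} [CommRing R] (M : Submonoid R) (S : Type*) [CommRing S]
    [Algebra R S] [IsLocalization M S] (C : Ideal R) (g : R) :
    (C.map (algebraMap R S)).colon {algebraMap R S g} = Ideal.map (algebraMap R S) (C.colon {g}) := by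
  apply le_antisymm
  · intro x hx
    obtain ⟨⟨a, s⟩, rfl⟩ := IsLocalization.mk'_surjective M x
    rw [mem_colon_singleton, smul_eq_mul, mul_comm, IsLocalization.mul_mk'_eq_mk'_of_mul,
      IsLocalization.mk'_mem_map_algebraMap_iff] at hx
    obtain ⟨t, ht, hx⟩ := hx
    rw [IsLocalization.mk'_mem_map_algebraMap_iff]
    refine ⟨t, ht, mem_colon_singleton.mpr ?_⟩
    rw [smul_eq_mul, mul_assoc, mul_comm a]
    exact hx
  · rw [Ideal.map_le_iff_le_comap]
    intro r hr
    rw [Ideal.mem_comap, mem_colon_singleton, smul_eq_mul, ← map_mul]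
    exact Ideal.mem_map_of_mem _ (mem_colon_singleton.mp hr)

theorem afExists_colon {R : Type*} [CommRing R] [IsNoetherianRing R] {C : Ideal R} (hC : C ≠ ⊤) :
    ∃ g : R, g ∉ C ∧ (C.colon {g}).IsPrime := by
  have h1 : (Ideal.Quotient.mk C 1) ≠ 0 := by
    rw [Ne, Ideal.Quotient.eq_zero_iff_mem]
    exact fun h => hC ((Ideal.eq_top_iff_one C).mpr h)
  obtain ⟨P, hP, -⟩ := exists_le_isAssociatedPrime_of_isNoetherianRing R _ h1
  obtain ⟨hP, x, hx⟩ := isAssociatedPrime_iff.mp hP
  obtain ⟨g, rfl⟩ := Ideal.Quotient.mk_surjective x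
  have h2 : P = C.colon {g} := by
    rw [hx]
    ext r
    rw [mem_colon_singleton, mem_colon_singleton, Submodule.mem_bot, smul_eq_mul,
      ← Ideal.Quotient.eq_zero_iff_mem]
    rfl
  refine ⟨g, fun hg => hP.ne_top ?_, h2 ▸ hP⟩
  rw [h2, eq_top_iff]
  intro r _
  exact mem_colon_singleton.mpr (C.mul_mem_left r hg)

theorem afDim_succ_le {R : Type*} [CommRing R] {p q : Ideal R} [q.IsPrime] (h : q < p) :
    ringKrullDim (R ⧸ p) + 1 ≤ ringKrullDim (R ⧸ q) := by
  obtain ⟨r, hr, hr'⟩ := SetLike.exists_of_lt h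
  refine ringKrullDim_succ_le_of_surjective (Ideal.Quotient.factor h.le)
    (Ideal.Quotient.factor_surjective h.le) (r := Ideal.Quotient.mk q r) ?_ ?_
  · apply mem_nonZeroDivisors_of_ne_zero
    rw [Ne, Ideal.Quotient.eq_zero_iff_mem]
    exact hr'
  · rw [Ideal.Quotient.factor_mk, Ideal.Quotient.eq_zero_iff_mem]
    exact hr

theorem afDim_le {R : Type*} [CommRing R] {p q : Ideal R} (h : q ≤ p) :
    ringKrullDim (R ⧸ p) ≤ ringKrullDim (R ⧸ q) :=
  ringKrullDim_le_of_surjective (Ideal.Quotient.factor h) (Ideal.Quotient.factor_surjective h)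

theorem afEq_of_le {R : Type*} [CommRing R] {I p q : Ideal R} [q.IsPrime] {d : ℕ}
    (hd : ringKrullDim (R ⧸ I) ≤ d) (hq : I ≤ q) (hp : ringKrullDim (R ⧸ p) = d) (h : q ≤ p) :
    q = p := by
  by_contra hne
  have h1 := afDim_succ_le (lt_of_le_of_ne h hne)
  have h2 := (h1.trans (afDim_le hq)).trans hd
  rw [hp] at h2
  have h3 : ((d + 1 : ℕ) : WithBot ℕ∞) ≤ (d : ℕ) := by exact_mod_cast h2
  have h4 : d + 1 ≤ d := by exact_mod_cast h3
  omega

/-- the length of `R / C` at the prime `p` -/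
noncomputable def afLen {R : Type*} [CommRing R] (p : PrimeSpectrum R) (C : Ideal R) : ℕ∞ :=
  Module.length (Localization.AtPrime p.asIdeal) (Localization.AtPrime p.asIdeal ⧸
    C.map (algebraMap R (Localization.AtPrime p.asIdeal)))

theorem afLen_colon {R : Type*} [CommRing R] (p : PrimeSpectrum R) (C : Ideal R) (g : R) :
    afLen p C = afLen p (C.colon {g}) + afLen p (C ⊔ Ideal.span {g}) := by
  unfold afLen
  rw [afLength_colon _ (algebraMap R (Localization.AtPrime p.asIdeal) g),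
    afMap_colon p.asIdeal.primeCompl, Ideal.map_sup, Ideal.map_span, Set.image_singleton]

theorem afLen_self {R : Type*} [CommRing R] (p : PrimeSpectrum R) : afLen p p.asIdeal = 1 := by
  unfold afLen
  rw [Localization.AtPrime.map_eq_maximalIdeal, Module.length_eq_one_iff,
    isSimpleModule_iff_isCoatom]
  exact Ideal.isMaximal_def.mp inferInstance

theorem afLen_of_not_le {R : Type*} [CommRing R] (p : PrimeSpectrum R) {C : Ideal R}
    (h : ¬ C ≤ p.asIdeal) : afLen p C = 0 := by
  unfold afLen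
  rw [IsLocalization.AtPrime.map_eq_top_of_not_le _ h, Module.length_eq_zero_iff]
  infer_instance

theorem additive_eq_mul' {Λ : Type*} [CommRing Λ] [IsNoetherianRing Λ]
    (I I₀ : Ideal Λ) (hI : I₀ ≤ I) (hrad : I ≤ I₀.radical) (d : ℕ)
    (hd : ringKrullDim (Λ ⧸ I) ≤ d) (μ : Ideal Λ → Ideal Λ → ℤ)
    (hadd : ∀ A B C : Ideal Λ, I₀ ≤ C → C ≤ B → B ≤ A → μ A C = μ A B + μ B C)
    (hcyc : ∀ (A : Ideal Λ) (g : Λ), I₀ ≤ A →
      μ (A ⊔ Ideal.span {g}) A = μ ⊤ (A.colon {g}))
    (hvan : ∀ p : Ideal Λ, p.IsPrime → I ≤ p → ringKrullDim (Λ ⧸ p) < d → μ ⊤ p = 0)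
    (a b : ℤ)
    (hlen : ∀ (p : Ideal Λ) [p.IsPrime], I ≤ p → ringKrullDim (Λ ⧸ p) = d →
      a * ((Module.length (Localization.AtPrime p) (Localization.AtPrime p ⧸
        I₀.map (algebraMap Λ (Localization.AtPrime p)))).toNat : ℤ) =
      b * ((Module.length (Localization.AtPrime p) (Localization.AtPrime p ⧸
        I.map (algebraMap Λ (Localization.AtPrime p)))).toNat : ℤ)) :
    a * μ ⊤ I₀ = b * μ ⊤ I := by
  classical
  have hfin : {p : PrimeSpectrum Λ | I ≤ p.asIdeal ∧
      ringKrullDim (Λ ⧸ p.asIdeal) = d}.Finite := by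
    refine Set.Finite.subset (Set.Finite.preimage (f := PrimeSpectrum.asIdeal)
      (fun _ _ _ _ h => PrimeSpectrum.ext h)
      (Ideal.finite_minimalPrimes_of_isNoetherianRing Λ I)) ?_
    rintro p ⟨h1, h2⟩
    obtain ⟨q, hq, hqp⟩ := Ideal.exists_minimalPrimes_le h1
    have : q.IsPrime := hq.1.1
    rw [Set.mem_preimage, ← afEq_of_le hd hq.1.2 h2 hqp]
    exact hq
  have key : ∀ C : Ideal Λ, I₀ ≤ C → (∀ p ∈ hfin.toFinset, afLen p C ≠ ⊤) ∧
      μ ⊤ C = ∑ p ∈ hfin.toFinset, ((afLen p C).toNat : ℤ) * μ ⊤ p.asIdeal := by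
    intro C
    induction C using IsNoetherian.induction with
    | hgt C ih =>
    intro hC
    by_cases hT : C = ⊤
    · subst hT
      have h0 : ∀ p : PrimeSpectrum Λ, afLen p ⊤ = 0 := fun p =>
        afLen_of_not_le p fun h => p.2.ne_top (top_le_iff.mp h)
      refine ⟨fun p _ => by rw [h0]; exact ENat.zero_ne_top, ?_⟩
      have := hadd ⊤ ⊤ ⊤ le_top le_rfl le_rfl
      simp only [h0, ENat.toNat_zero, Nat.cast_zero, zero_mul, Finset.sum_const_zero]
      omega
    obtain ⟨g, hg, hq⟩ := afExists_colon hT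
    have hlt : C < C ⊔ Ideal.span {g} := by
      refine lt_of_le_of_ne le_sup_left fun h => hg ?_
      rw [h]
      exact Submodule.mem_sup_right (Ideal.mem_span_singleton_self g)
    obtain ⟨ih1, ih2⟩ := ih _ hlt (hC.trans le_sup_left)
    set q : PrimeSpectrum Λ := ⟨C.colon {g}, hq⟩ with hqdef
    have hCq : C ≤ q.asIdeal := fun r hr => mem_colon_singleton.mpr (Ideal.mul_mem_right g C hr)
    have hIq : I ≤ q.asIdeal := hrad.trans (hq.radical_le_iff.mpr (hC.trans hCq))
    have hql : ∀ p ∈ hfin.toFinset, afLen p q.asIdeal = if p = q then 1 else 0 := by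
      intro p hp
      rw [Set.Finite.mem_toFinset] at hp
      split_ifs with h
      · rw [h]
        exact afLen_self q
      · exact afLen_of_not_le p fun h' => h (PrimeSpectrum.ext (afEq_of_le hd hIq hp.2 h').symm)
    have hql' : ∀ p ∈ hfin.toFinset, afLen p q.asIdeal ≠ ⊤ := by
      intro p hp
      rw [hql p hp]
      split_ifs
      · exact ENat.one_ne_top
      · exact ENat.zero_ne_top
    have hsum : ∑ p ∈ hfin.toFinset, ((afLen p q.asIdeal).toNat : ℤ) * μ ⊤ p.asIdeal =
        μ ⊤ q.asIdeal := by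
      have h1 : ∀ p ∈ hfin.toFinset, ((afLen p q.asIdeal).toNat : ℤ) * μ ⊤ p.asIdeal =
          if p = q then μ ⊤ p.asIdeal else 0 := by
        intro p hp
        rw [hql p hp]
        split_ifs <;> simp
      rw [Finset.sum_congr rfl h1, Finset.sum_ite_eq']
      split_ifs with h
      · rfl
      · rw [Set.Finite.mem_toFinset] at h
        refine (hvan _ hq hIq (lt_of_le_of_ne ((afDim_le hIq).trans hd) fun h' => h ⟨hIq, h'⟩)).symm
    refine ⟨fun p hp => ?_, ?_⟩
    · rw [afLen_colon p C g]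
      exact WithTop.add_ne_top.mpr ⟨hql' p hp, ih1 p hp⟩
    · rw [hadd ⊤ (C ⊔ Ideal.span {g}) C hC le_sup_left le_top, hcyc C g hC, ih2]
      change _ + μ ⊤ q.asIdeal = _
      rw [← hsum, ← Finset.sum_add_distrib]
      refine Finset.sum_congr rfl fun p hp => ?_
      rw [afLen_colon p C g, ENat.toNat_add (hql' p hp) (ih1 p hp)]
      push_cast
      ring
  rw [(key I₀ le_rfl).2, (key I hI).2, Finset.mul_sum, Finset.mul_sum]
  refine Finset.sum_congr rfl fun p hp => ?_
  rw [Set.Finite.mem_toFinset] at hp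
  rw [← mul_assoc, ← mul_assoc]
  congr 1
  exact hlen p.asIdeal hp.1 hp.2

end Vale.Agent.P202
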