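import Vale.Agent.P202.MultB
import Vale.Agent.P202.MultAuxD

/-! Module M3, part D (definitions and part A: MultA, parts B and C: MultB). -/

namespace Vale.Agent.P202

open Submodule IsLocalRing TensorProduct

universe u v w

variable {Λ : Type u} [CommRing Λ] [IsLocalRing Λ] [IsNoetherianRing Λ]
  {M : Type v} [AddCommGroup M] [Module Λ M] [Module.Finite Λ M]
  {M' : Type w} [AddCommGroup M'] [Module Λ M']

/-! ### Part D: additive functionals -/

/-- (AF) An additive functional on the subquotients `P / Q` of `Λ / I₀` that vanishes on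
`Λ / p` for `dim (Λ / p) < d` is determined by lengths at the primes of dimension `d`.
It is phrased for ideals: `μ P Q` is the value on `P / Q`. -/
theorem additive_eq_mul (I I₀ : Ideal Λ) (hI : I₀ ≤ I) (hrad : I ≤ I₀.radical) (d : ℕ)
    (hd : ringKrullDim (Λ ⧸ I) ≤ d) (μ : Ideal Λ → Ideal Λ → ℤ)
    (hadd : ∀ A B C : Ideal Λ, I₀ ≤ C → C ≤ B → B ≤ A → μ A C = μ A B + μ B C)
    (hcyc : ∀ (A : Ideal Λ) (g : Λ), I₀ ≤ A →
      μ (A ⊔ Ideal.span {g}) A = μ ⊤ (A.colon {g}))
    (hvan : ∀ p : Ideal Λ, p.IsPrime → I ≤ p → ringKrullDim (Λ ⧸ p) < d → μ ⊤ p = 0)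
    (a b : ℤ)
    (hlen : ∀ (p : Ideal Λ) [p.IsPrime], I ≤ p → ringKrullDim (Λ ⧸ p) = d →
      a * ((Module.length (Localization.AtPrime p) (Localization.AtPrime p ⧸
        I₀.map (algebraMap Λ (Localization.AtPrime p)))).toNat : ℤ) =
      b * ((Module.length (Localization.AtPrime p) (Localization.AtPrime p ⧸
        I.map (algebraMap Λ (Localization.AtPrime p)))).toNat : ℤ)) :
    a * μ ⊤ I₀ = b * μ ⊤ I :=
  additive_eq_mul' I I₀ hI hrad d hd μ hadd hcyc hvan a b hlen

end Vale.Agent.P202
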