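import Vale.Agent.P202.Defs
import Vale.Agent.P202.Mult

/-! Module M1: graded modules over `T[X_1, …, X_d]` presented as pairs of families of
`T`-submodules of a `T`-algebra `H` with distinguished elements `ξ j`. -/

namespace Vale.Agent.P202

open Submodule IsLocalRing Filter Topology

variable {T : Type*} [CommRing T] {H : Type*} [CommRing H] [Algebra T H] {d : ℕ}

variable (T d) in
/-- Homogeneous polynomials of degree `a` (zero for negative `a`). -/
noncomputable def homog (a : ℤ) : Submodule T (MvPolynomial (Fin d) T) :=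
  if 0 ≤ a then MvPolynomial.homogeneousSubmodule (Fin d) T a.toNat else ⊥

variable (d) in
/-- Homogeneous polynomials of degree `a` with coefficients in the ideal `𝔞`. -/
noncomputable def homogIn (𝔞 : Ideal T) (a : ℤ) : Submodule T (MvPolynomial (Fin d) T) :=
  𝔞 • homog T d a

theorem mem_homog {a : ℤ} {f : MvPolynomial (Fin d) T} :
    f ∈ homog T d a ↔ ∀ m : Fin d →₀ ℕ, f.coeff m ≠ 0 → (m.degree : ℤ) = a := by
  unfold homog
  split_ifs with h
  · rw [MvPolynomial.mem_homogeneousSubmodule]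
    unfold MvPolynomial.IsHomogeneous MvPolynomial.IsWeightedHomogeneous
    have e : ∀ m : Fin d →₀ ℕ, Finsupp.weight (1 : Fin d → ℕ) m = m.degree := fun m => by
      rw [Finsupp.degree_eq_weight_one]
      rfl
    refine ⟨fun H m hm => ?_, fun H m hm => ?_⟩
    · have := H hm
      rw [e] at this
      omega
    · have := H m hm
      rw [e]
      omega
  · rw [Submodule.mem_bot]
    refine ⟨fun H m hm => ?_, fun H => ?_⟩
    · rw [H] at hm
      exact absurd (MvPolynomial.coeff_zero m) hm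
    · ext m
      by_contra hm
      have := H m hm
      omega
theorem monomial_mem_homog (m : Fin d →₀ ℕ) (c : T) :
    MvPolynomial.monomial m c ∈ homog T d (m.degree : ℤ) := by
  classical
  rw [mem_homog]
  intro m' hm'
  rw [MvPolynomial.coeff_monomial] at hm'
  split_ifs at hm' with h
  · rw [h]
  · exact absurd rfl hm'
theorem mem_homog_of_isHomogeneous {n : ℕ} {f : MvPolynomial (Fin d) T} (h : f.IsHomogeneous n) :
    f ∈ homog T d (n : ℤ) := by
  unfold homog
  rw [if_pos (Int.natCast_nonneg n), Int.toNat_natCast]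
  exact h
theorem X_mem_homog (j : Fin d) : (MvPolynomial.X j : MvPolynomial (Fin d) T) ∈ homog T d 1 :=
  mem_homog_of_isHomogeneous (n := 1) (MvPolynomial.isHomogeneous_X T j)
theorem mem_homogIn {𝔞 : Ideal T} {a : ℤ} {f : MvPolynomial (Fin d) T} :
    f ∈ homogIn d 𝔞 a ↔ f ∈ homog T d a ∧ ∀ m, f.coeff m ∈ 𝔞 := by
  unfold homogIn
  constructor
  · intro h
    refine Submodule.smul_induction_on h (fun r hr g hg => ⟨Submodule.smul_mem _ r hg, ?_⟩)
      (fun x y hx hy => ⟨Submodule.add_mem _ hx.1 hy.1, ?_⟩)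
    · intro m
      rw [MvPolynomial.coeff_smul, smul_eq_mul]
      exact 𝔞.mul_mem_right _ hr
    · intro m
      rw [MvPolynomial.coeff_add]
      exact 𝔞.add_mem (hx.2 m) (hy.2 m)
  · rintro ⟨h1, h2⟩
    rw [f.as_sum]
    refine Submodule.sum_mem _ fun m hm => ?_
    have e : MvPolynomial.monomial m (f.coeff m) =
        f.coeff m • (MvPolynomial.monomial m 1 : MvPolynomial (Fin d) T) := by
      rw [MvPolynomial.smul_monomial, smul_eq_mul, mul_one]
    rw [e]
    refine Submodule.smul_mem_smul (h2 m) ?_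
    rw [← mem_homog.mp h1 m (MvPolynomial.mem_support_iff.mp hm)]
    exact monomial_mem_homog m 1
theorem mul_mem_homog {a b : ℤ} {f g : MvPolynomial (Fin d) T} (hf : f ∈ homog T d a)
    (hg : g ∈ homog T d b) : f * g ∈ homog T d (a + b) := by
  classical
  rw [mem_homog] at hf hg ⊢
  intro m hm
  obtain ⟨u, hu, v, hv, rfl⟩ := Finset.mem_add.mp
    (MvPolynomial.support_mul f g (MvPolynomial.mem_support_iff.mpr hm))
  rw [map_add, Nat.cast_add, hf u (MvPolynomial.mem_support_iff.mp hu),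
    hg v (MvPolynomial.mem_support_iff.mp hv)]

/-- A family of submodules forming a graded module over the polynomial ring. -/
def IsGr (ξ : Fin d → H) (P : ℤ → Submodule T H) : Prop :=
  ∀ a j, ∀ x ∈ P a, ξ j * x ∈ P (a + 1)

theorem IsGr.pow_mul {ξ : Fin d → H} {P : ℤ → Submodule T H} (h : IsGr ξ P) (j : Fin d) (n : ℕ)
    {a : ℤ} {x : H} (hx : x ∈ P a) : ξ j ^ n * x ∈ P (a + n) := by
  induction n with
  | zero => simpa using hx
  | succ n ih =>
    rw [pow_succ', mul_assoc, Nat.cast_succ, ← add_assoc]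
    exact h _ j _ ih
theorem IsGr.monomial_mul {ξ : Fin d → H} {P : ℤ → Submodule T H} (h : IsGr ξ P)
    (m : Fin d →₀ ℕ) : ∀ (a : ℤ) (x : H), x ∈ P a →
      MvPolynomial.aeval ξ (MvPolynomial.monomial m (1 : T)) * x ∈ P (a + m.degree) := by
  induction m using Finsupp.induction_linear with
  | zero =>
    intro a x hx
    simpa using hx
  | add u v hu hv =>
    intro a x hx
    have e : (MvPolynomial.monomial (u + v) (1 : T) : MvPolynomial (Fin d) T) =
        MvPolynomial.monomial v 1 * MvPolynomial.monomial u 1 := by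
      rw [MvPolynomial.monomial_mul, add_comm v u, mul_one]
    rw [e, map_mul, mul_assoc, map_add, Nat.cast_add, ← add_assoc]
    exact hv _ _ (hu a x hx)
  | single j n =>
    intro a x hx
    rw [← MvPolynomial.X_pow_eq_monomial, map_pow, MvPolynomial.aeval_X, Finsupp.degree_single]
    exact h.pow_mul j n hx
theorem IsGr.aeval_mul {ξ : Fin d → H} {P : ℤ → Submodule T H} (h : IsGr ξ P) {a b : ℤ}
    {f : MvPolynomial (Fin d) T} (hf : f ∈ homog T d b) {x : H} (hx : x ∈ P a) :
    MvPolynomial.aeval ξ f * x ∈ P (a + b) := by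
  rw [f.as_sum, map_sum, Finset.sum_mul]
  refine Submodule.sum_mem _ fun m hm => ?_
  have e : MvPolynomial.monomial m (f.coeff m) =
      f.coeff m • (MvPolynomial.monomial m 1 : MvPolynomial (Fin d) T) := by
    rw [MvPolynomial.smul_monomial, smul_eq_mul, mul_one]
  rw [e, map_smul, smul_mul_assoc, ← mem_homog.mp hf m (MvPolynomial.mem_support_iff.mp hm)]
  exact Submodule.smul_mem _ _ (h.monomial_mul m a x hx)
theorem isGr_homog : IsGr (MvPolynomial.X : Fin d → MvPolynomial (Fin d) T) (homog T d) := by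
  intro a j x hx
  rw [add_comm]
  exact mul_mem_homog (X_mem_homog j) hx
theorem isGr_homogIn (𝔞 : Ideal T) :
    IsGr (MvPolynomial.X : Fin d → MvPolynomial (Fin d) T) (homogIn d 𝔞) := by
  classical
  intro a j x hx
  rw [mem_homogIn] at hx ⊢
  refine ⟨isGr_homog a j x hx.1, fun m => ?_⟩
  rw [MvPolynomial.coeff_X_mul']
  split_ifs
  · exact hx.2 _
  · exact 𝔞.zero_mem
theorem isGr_bot (ξ : Fin d → H) : IsGr ξ (fun _ => (⊥ : Submodule T H)) := by
  intro a j x hx
  rw [Submodule.mem_bot] at hx ⊢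
  rw [hx, mul_zero]

/-- The `T`-linear map `f ↦ f(ξ) g`. -/
noncomputable def evMul (ξ : Fin d → H) (g : H) : MvPolynomial (Fin d) T →ₗ[T] H :=
  (LinearMap.mulRight T g).comp (MvPolynomial.aeval ξ).toLinearMap

theorem evMul_apply (ξ : Fin d → H) (g : H) (f : MvPolynomial (Fin d) T) :
    evMul ξ g f = MvPolynomial.aeval ξ f * g := rfl

/-- `P = P' + T[X] g` with `g` in degree `a`. -/
def CycExt (ξ : Fin d → H) (P' P : ℤ → Submodule T H) (g : H) (a : ℤ) : Prop :=
  ∀ b, P b = P' b ⊔ (homog T d (b - a)).map (evMul ξ g)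

/-- The annihilator of the class of `g` (in degree `a`) modulo `P'`. -/
noncomputable def cycAnn (ξ : Fin d → H) (P' : ℤ → Submodule T H) (g : H) (a : ℤ) :
    ℤ → Submodule T (MvPolynomial (Fin d) T) :=
  fun b => homog T d b ⊓ (P' (b + a)).comap (evMul ξ g)

theorem evMul_X_mul (ξ : Fin d → H) (g : H) (j : Fin d) (f : MvPolynomial (Fin d) T) :
    evMul ξ g (MvPolynomial.X j * f) = ξ j * evMul ξ g f := by
  rw [evMul_apply, evMul_apply, map_mul, MvPolynomial.aeval_X, mul_assoc]
theorem isGr_cycAnn {ξ : Fin d → H} {P' : ℤ → Submodule T H} (h : IsGr ξ P') (g : H) (a : ℤ) :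
    IsGr (MvPolynomial.X : Fin d → MvPolynomial (Fin d) T) (cycAnn ξ P' g a) := by
  intro b j f hf
  refine ⟨isGr_homog b j f hf.1, ?_⟩
  have h1 := h (b + a) j _ hf.2
  rw [← evMul_X_mul, add_right_comm] at h1
  exact h1
theorem CycExt.isGr {ξ : Fin d → H} {P' P : ℤ → Submodule T H} {g : H} {a : ℤ}
    (h : CycExt ξ P' P g a) (h' : IsGr ξ P') : IsGr ξ P := by
  intro b j x hx
  rw [h b] at hx
  rw [h (b + 1)]
  obtain ⟨y, hy, z, ⟨f, hf, rfl⟩, rfl⟩ := Submodule.mem_sup.mp hx
  rw [mul_add, ← evMul_X_mul]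
  refine Submodule.add_mem_sup (h' b j y hy) ⟨_, ?_, rfl⟩
  rw [add_sub_right_comm]
  exact isGr_homog _ j f hf
theorem CycExt.le {ξ : Fin d → H} {P' P : ℤ → Submodule T H} {g : H} {a : ℤ}
    (h : CycExt ξ P' P g a) (b : ℤ) : P' b ≤ P b := by
  rw [h b]
  exact le_sup_left

/-- A finite filtration from `Q` to `P` with cyclic quotients, `e` of which have their annihilator
inside `𝔞 T[X]`. -/
inductive Cyc (𝔞 : Ideal T) (ξ : Fin d → H) (Q : ℤ → Submodule T H) :
    (ℤ → Submodule T H) → ℕ → Prop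
  | refl : Cyc 𝔞 ξ Q Q 0
  | free {P' P : ℤ → Submodule T H} {e : ℕ} {g : H} {a : ℤ} : Cyc 𝔞 ξ Q P' e →
      CycExt ξ P' P g a → (∀ b, cycAnn ξ P' g a b ≤ homogIn d 𝔞 b) → Cyc 𝔞 ξ Q P (e + 1)
  | tors {P' P : ℤ → Submodule T H} {e : ℕ} {g : H} {a : ℤ} : Cyc 𝔞 ξ Q P' e →
      CycExt ξ P' P g a → (∃ b, ∃ f ∈ cycAnn ξ P' g a b, f ∉ homogIn d 𝔞 b) → Cyc 𝔞 ξ Q P e

theorem Cyc.isGr {𝔞 : Ideal T} {ξ : Fin d → H} {Q P : ℤ → Submodule T H} {e : ℕ}
    (h : Cyc 𝔞 ξ Q P e) (hQ : IsGr ξ Q) : IsGr ξ P := by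
  induction h with
  | refl => exact hQ
  | free _ h2 _ ih => exact h2.isGr ih
  | tors _ h2 _ ih => exact h2.isGr ih
theorem Cyc.le {𝔞 : Ideal T} {ξ : Fin d → H} {Q P : ℤ → Submodule T H} {e : ℕ}
    (h : Cyc 𝔞 ξ Q P e) (b : ℤ) : Q b ≤ P b := by
  induction h with
  | refl => exact le_rfl
  | free _ h2 _ ih => exact ih.trans (h2.le b)
  | tors _ h2 _ ih => exact ih.trans (h2.le b)

/-- `P / Q` is finitely generated. -/
def IsFG (ξ : Fin d → H) (P Q : ℤ → Submodule T H) : Prop :=
  ∃ s : Finset (H × ℤ), ∀ b, P b = Q b ⊔ ⨆ t ∈ s, (homog T d (b - t.2)).map (evMul ξ t.1)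

theorem exists_cyc (𝔞 : Ideal T) {ξ : Fin d → H} {P Q : ℤ → Submodule T H} (h : IsFG ξ P Q) :
    ∃ e, Cyc 𝔞 ξ Q P e := by
  classical
  obtain ⟨s, hs⟩ := h
  induction s using Finset.induction_on generalizing P with
  | empty =>
    have : P = Q := by
      funext b
      rw [hs b]
      simp
    exact ⟨0, this ▸ Cyc.refl⟩
  | insert t s _ ih =>
    obtain ⟨e, he⟩ := ih (P := fun b => Q b ⊔ ⨆ t ∈ s, (homog T d (b - t.2)).map (evMul ξ t.1))
      (fun b => rfl)
    have hc : CycExt ξ (fun b => Q b ⊔ ⨆ t ∈ s, (homog T d (b - t.2)).map (evMul ξ t.1)) P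
        t.1 t.2 := by
      intro b
      rw [hs b, Finset.iSup_insert, sup_assoc, sup_comm (Submodule.map _ _)]
    by_cases h1 : ∀ b, cycAnn ξ (fun b => Q b ⊔ ⨆ t ∈ s, (homog T d (b - t.2)).map (evMul ξ t.1))
        t.1 t.2 b ≤ homogIn d 𝔞 b
    · exact ⟨e + 1, Cyc.free he hc h1⟩
    · refine ⟨e, Cyc.tors he hc ?_⟩
      obtain ⟨b, hb⟩ := not_forall.mp h1
      exact ⟨b, SetLike.not_le_iff_exists.mp hb⟩

variable (T d) in
/-- The homogeneous component of degree `b`. -/
noncomputable def grComp (b : ℤ) : MvPolynomial (Fin d) T →ₗ[T] MvPolynomial (Fin d) T :=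
  if 0 ≤ b then MvPolynomial.homogeneousComponent b.toNat else 0

theorem coeff_grComp (b : ℤ) (f : MvPolynomial (Fin d) T) (m : Fin d →₀ ℕ) :
    (grComp T d b f).coeff m = if (m.degree : ℤ) = b then f.coeff m else 0 := by
  unfold grComp
  by_cases h : 0 ≤ b
  · rw [if_pos h, MvPolynomial.coeff_homogeneousComponent]
    exact if_congr (by omega) rfl rfl
  · rw [if_neg h, if_neg (by omega), LinearMap.zero_apply, MvPolynomial.coeff_zero]

theorem grComp_of_mem {a : ℤ} (b : ℤ) {f : MvPolynomial (Fin d) T} (hf : f ∈ homog T d a) :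
    grComp T d b f = if a = b then f else 0 := by
  rw [mem_homog] at hf
  ext m
  rw [coeff_grComp]
  by_cases hm : f.coeff m = 0
  · split_ifs <;> simp [hm]
  · rw [hf m hm]
    split_ifs <;> simp

theorem grComp_mul_mem {a : ℤ} (b : ℤ) (c : MvPolynomial (Fin d) T) {g : MvPolynomial (Fin d) T}
    (hg : g ∈ homog T d a) :
    grComp T d b (c * g) ∈ (homog T d (b - a)).map (evMul MvPolynomial.X g) := by
  rw [← c.sum_homogeneousComponent, Finset.sum_mul, map_sum]
  refine Submodule.sum_mem _ fun i _ => ?_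
  have h1 := mem_homog_of_isHomogeneous (c.homogeneousComponent_isHomogeneous i)
  rw [grComp_of_mem b (mul_mem_homog h1 hg)]
  split_ifs with h
  · refine ⟨MvPolynomial.homogeneousComponent i c, ?_, ?_⟩
    · rw [← h, add_sub_cancel_right]
      exact h1
    · rw [evMul_apply, MvPolynomial.aeval_X_left_apply]
  · exact Submodule.zero_mem _

theorem IsGr.map_evMul_le {ξ : Fin d → H} {P : ℤ → Submodule T H} (h : IsGr ξ P) {a : ℤ} {g : H}
    (hg : g ∈ P a) (b : ℤ) : (homog T d (b - a)).map (evMul ξ g) ≤ P b := by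
  rintro _ ⟨f, hf, rfl⟩
  have := h.aeval_mul hf hg
  rwa [add_sub_cancel] at this

/-- Graded submodules of the polynomial ring are finitely generated. -/
theorem isFG_of_le_homog [IsNoetherianRing T] {P Q : ℤ → Submodule T (MvPolynomial (Fin d) T)}
    (hP : IsGr MvPolynomial.X P) (hle : ∀ b, P b ≤ homog T d b) (hQP : ∀ b, Q b ≤ P b) :
    IsFG MvPolynomial.X P Q := by
  classical
  obtain ⟨t, ht, ht'⟩ := (Submodule.fg_span_iff_fg_span_finset_subset
    (R := MvPolynomial (Fin d) T) (⋃ b, (P b : Set (MvPolynomial (Fin d) T)))).mp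
      (IsNoetherian.noetherian _)
  have h1 : ∀ g ∈ t, ∃ a, g ∈ P a := fun g hg => Set.mem_iUnion.mp (ht hg)
  choose! dg hdg using h1
  refine ⟨t.image fun g => (g, dg g), fun b => le_antisymm ?_ ?_⟩
  · intro x hx
    have h2 : x ∈ Submodule.span (MvPolynomial (Fin d) T) (t : Set (MvPolynomial (Fin d) T)) := by
      rw [← ht']
      exact Submodule.subset_span (Set.mem_iUnion.mpr ⟨b, hx⟩)
    obtain ⟨c, -, hc⟩ := Submodule.mem_span_finset.mp h2
    have h3 : x = grComp T d b x := by rw [grComp_of_mem b (hle b hx), if_pos rfl]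
    rw [h3, ← hc, map_sum]
    refine Submodule.mem_sup_right (Submodule.sum_mem _ fun g hg => ?_)
    refine Submodule.mem_iSup_of_mem (g, dg g) (Submodule.mem_iSup_of_mem
      (Finset.mem_image_of_mem _ hg) ?_)
    exact grComp_mul_mem b (c g) (hle _ (hdg g hg))
  · refine sup_le (hQP b) (iSup₂_le fun u hu => ?_)
    obtain ⟨g, hg, rfl⟩ := Finset.mem_image.mp hu
    exact hP.map_evMul_le (hdg g hg) b

section Local
variable [IsLocalRing T]

variable (T) in
/-- The powers of the maximal ideal (the whole ring in degrees `≤ 0`). -/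
def mPow (a : ℤ) : Submodule T T := maximalIdeal T ^ a.toNat

variable (T) in
/-- The powers of the maximal ideal (zero in negative degrees). -/
def mPowPos (a : ℤ) : Submodule T T := if 0 ≤ a then maximalIdeal T ^ a.toNat else ⊥

/-- `x` generates a reduction of the maximal ideal. -/
def IsReduction (x : Fin d → T) : Prop :=
  (∀ j, x j ∈ maximalIdeal T) ∧
    ∃ r : ℕ, maximalIdeal T ^ (r + 1) ≤ Ideal.span (Set.range x) * maximalIdeal T ^ r

theorem mPow_anti {a b : ℤ} (h : a ≤ b) : mPow T b ≤ mPow T a :=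
  Ideal.pow_le_pow_right (Int.toNat_le_toNat h)
theorem mul_mem_mPow {k : ℕ} {r : T} (hr : r ∈ maximalIdeal T ^ k) {a : ℤ} {x : T}
    (hx : x ∈ mPow T a) : r * x ∈ mPow T (a + k) := by
  have h1 : r * x ∈ maximalIdeal T ^ (k + a.toNat) := by
    rw [pow_add]
    exact Ideal.mul_mem_mul hr hx
  exact Ideal.pow_le_pow_right (by omega) h1
theorem isGr_mPow {x : Fin d → T} (hx : ∀ j, x j ∈ maximalIdeal T) (k : ℤ) :
    IsGr x (fun a => mPow T (a + k)) := by
  intro a j y hy
  have h1 := mul_mem_mPow (k := 1) (by rw [pow_one]; exact hx j) hy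
  rw [Nat.cast_one, add_right_comm] at h1
  exact h1
theorem isGr_mPowPos {x : Fin d → T} (hx : ∀ j, x j ∈ maximalIdeal T) :
    IsGr x (mPowPos T) := by
  intro a j y hy
  unfold mPowPos at hy ⊢
  by_cases h : 0 ≤ a
  · rw [if_pos h] at hy
    rw [if_pos (by omega)]
    exact mul_mem_mPow (k := 1) (by rw [pow_one]; exact hx j) hy
  · rw [if_neg h, Submodule.mem_bot] at hy
    rw [hy, mul_zero]
    exact Submodule.zero_mem _
theorem reduction_pow_le {x : Fin d → T} {r : ℕ}
    (hr : maximalIdeal T ^ (r + 1) ≤ Ideal.span (Set.range x) * maximalIdeal T ^ r) (N : ℕ) :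
    maximalIdeal T ^ (N + r) ≤ Ideal.span (Set.range x) ^ N * maximalIdeal T ^ r := by
  induction N with
  | zero => simp
  | succ N ih =>
    calc maximalIdeal T ^ (N + 1 + r) = maximalIdeal T ^ N * maximalIdeal T ^ (r + 1) := by ring
      _ ≤ maximalIdeal T ^ N * (Ideal.span (Set.range x) * maximalIdeal T ^ r) :=
          Ideal.mul_mono_right hr
      _ = Ideal.span (Set.range x) * maximalIdeal T ^ (N + r) := by ring
      _ ≤ Ideal.span (Set.range x) * (Ideal.span (Set.range x) ^ N * maximalIdeal T ^ r) :=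
          Ideal.mul_mono_right ih
      _ = Ideal.span (Set.range x) ^ (N + 1) * maximalIdeal T ^ r := by ring
theorem IsReduction.pow_le {x : Fin d → T} (hx : IsReduction x) : ∃ r : ℕ, ∀ N : ℕ,
    maximalIdeal T ^ (N + r) ≤ Ideal.span (Set.range x) ^ N := by
  obtain ⟨-, r, hr⟩ := hx
  exact ⟨r, fun N => (reduction_pow_le hr N).trans Ideal.mul_le_left⟩
theorem IsReduction.isSop {x : Fin d → T} (hx : IsReduction x) : IsSop T (List.ofFn x) := by
  obtain ⟨r, hr⟩ := hx.pow_le
  refine ⟨fun a ha => ?_, 1 + r, fun y hy => ⟨y, ?_, fun z _ => ?_⟩⟩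
  · obtain ⟨j, rfl⟩ := List.mem_ofFn.mp ha
    exact hx.1 j
  · have h1 := hr 1 hy
    rw [pow_one] at h1
    refine Ideal.span_mono ?_ h1
    rintro _ ⟨j, rfl⟩
    exact List.mem_ofFn.mpr ⟨j, rfl⟩
  · rw [sub_self, zero_smul]
    exact Submodule.zero_mem _

variable [IsNoetherianRing T]

theorem IsReduction.exists_gens {x : Fin d → T} (hx : IsReduction x) :
    ∃ s : Finset (T × ℤ), (∀ t ∈ s, 0 ≤ t.2 ∧ t.1 ∈ maximalIdeal T ^ t.2.toNat) ∧
      ∀ n : ℕ, maximalIdeal T ^ n ≤ ⨆ t ∈ s, (homog T d (n - t.2)).map (evMul x t.1) := by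
  classical
  obtain ⟨-, r, hr⟩ := hx
  have h1 : ∀ i : ℕ, ∃ G : Finset T, Submodule.span T (G : Set T) = maximalIdeal T ^ i :=
    fun i => IsNoetherian.noetherian (maximalIdeal T ^ i)
  choose G hG using h1
  refine ⟨(Finset.range (r + 1)).biUnion fun i => (G i).image fun g => (g, (i : ℤ)), ?_, ?_⟩
  · intro t ht
    obtain ⟨i, -, hi⟩ := Finset.mem_biUnion.mp ht
    obtain ⟨g, hg, rfl⟩ := Finset.mem_image.mp hi
    refine ⟨Int.natCast_nonneg i, ?_⟩
    rw [Int.toNat_natCast, ← hG i]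
    exact Submodule.subset_span hg
  · have key : ∀ k i : ℕ, i ≤ r → Ideal.span (Set.range x) ^ k * maximalIdeal T ^ i ≤
        ⨆ t ∈ (Finset.range (r + 1)).biUnion fun i => (G i).image fun g => (g, (i : ℤ)),
          (homog T d (((k + i : ℕ) : ℤ) - t.2)).map (evMul x t.1) := by
      intro k i hi
      refine Submodule.mul_le.mpr fun a ha b hb => ?_
      obtain ⟨f, hf, rfl⟩ := (Ideal.mem_span_pow_iff_exists_isHomogeneous x a).mp ha
      rw [← hG i] at hb
      induction hb using Submodule.span_induction with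
      | mem g hg =>
        refine Submodule.mem_iSup_of_mem (g, (i : ℤ)) (Submodule.mem_iSup_of_mem
          (Finset.mem_biUnion.mpr ⟨i, Finset.mem_range.mpr (by omega),
            Finset.mem_image_of_mem _ hg⟩) ⟨f, ?_, rfl⟩)
        rw [Nat.cast_add, add_sub_cancel_right]
        exact mem_homog_of_isHomogeneous hf
      | zero =>
        rw [mul_zero]
        exact Submodule.zero_mem _
      | add u v _ _ hu hv =>
        rw [mul_add]
        exact Submodule.add_mem _ hu hv
      | smul c u _ hu =>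
        rw [mul_smul_comm]
        exact Submodule.smul_mem _ c hu
    intro n
    rcases le_total n r with h | h
    · have h2 := key 0 n h
      rwa [pow_zero, one_mul, zero_add] at h2
    · obtain ⟨k, rfl⟩ := Nat.exists_eq_add_of_le' h
      exact (reduction_pow_le hr k).trans (key k r le_rfl)

theorem isFG_gr {x : Fin d → T} (hx : IsReduction x) :
    IsFG x (mPow T) (fun a => mPow T (a + 1)) := by
  obtain ⟨s, h1, h2⟩ := hx.exists_gens
  have hg : IsGr x (mPow T) := by simpa using isGr_mPow hx.1 0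
  refine ⟨s, fun b => le_antisymm ?_ ?_⟩
  · by_cases hb : 0 ≤ b
    · obtain ⟨n, rfl⟩ := Int.eq_ofNat_of_zero_le hb
      exact le_sup_of_le_right (h2 n)
    · refine le_sup_of_le_left (Ideal.pow_le_pow_right ?_)
      omega
  · exact sup_le (mPow_anti (by omega)) (iSup₂_le fun t ht => hg.map_evMul_le (h1 t ht).2 b)
theorem isFG_rees {x : Fin d → T} (hx : IsReduction x) :
    IsFG x (mPowPos T) (fun _ => ⊥) := by
  obtain ⟨s, h1, h2⟩ := hx.exists_gens
  refine ⟨s, fun b => le_antisymm ?_ ?_⟩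
  · unfold mPowPos
    split_ifs with hb
    · obtain ⟨n, rfl⟩ := Int.eq_ofNat_of_zero_le hb
      exact le_sup_of_le_right (h2 n)
    · exact bot_le
  · refine sup_le bot_le (iSup₂_le fun t ht => (isGr_mPowPos hx.1).map_evMul_le ?_ b)
    unfold mPowPos
    rw [if_pos (h1 t ht).1]
    exact (h1 t ht).2

section HilbAux
omit [IsNoetherianRing T]

/-- The number of monomials of degree `c` in `n + 1` variables. -/
def hilbB (n : ℕ) (c : ℤ) : ℕ := if 0 ≤ c then (c.toNat + n).choose n else 0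

theorem hilbB_natCast (n a : ℕ) : hilbB n a = (a + n).choose n := by simp [hilbB]

theorem length_residueField : Module.length T (ResidueField T) = 1 := by
  have : IsSimpleModule T (ResidueField T) :=
    isSimpleModule_iff_isCoatom.mpr (Ideal.isMaximal_def.mp (maximalIdeal.isMaximal T))
  exact Module.length_eq_one T _

theorem rl_homog (n : ℕ) (c : ℤ) :
    rl (homog T (n + 1) c) (homogIn (n + 1) (maximalIdeal T) c) = hilbB n c := by
  classical
  by_cases hc : 0 ≤ c
  · obtain ⟨a, rfl⟩ := Int.eq_ofNat_of_zero_le hc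
    let S := (Finset.univ : Finset (Fin (n + 1))).finsuppAntidiag a
    have hS : ∀ m : Fin (n + 1) →₀ ℕ, m ∈ S ↔ m.degree = a := by
      intro m
      simp [S, Finset.mem_finsuppAntidiag, Finsupp.degree_eq_sum]
    let φ : MvPolynomial (Fin (n + 1)) T →ₗ[T] (S → ResidueField T) :=
      LinearMap.pi fun m => (Algebra.linearMap T (ResidueField T)).comp (MvPolynomial.lcoeff T m.1)
    have hφ : ∀ f (m : S), φ f m = residue T (f.coeff m.1) := fun _ _ => rfl
    rw [rl_eq_of_map φ (P' := ⊤) (Q' := ⊥) (fun _ _ => trivial), rl_bot, Module.length_top,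
      Module.length_pi_of_fintype, hilbB_natCast]
    · simp only [length_residueField, Finset.sum_const, Finset.card_univ, Fintype.card_coe,
        nsmul_eq_mul, mul_one, S, Finset.card_finsuppAntidiag_nat_eq_choose, Fintype.card_fin]
      rw [show n + 1 + a - 1 = a + n by omega, Nat.choose_symm_add]
    · intro f hf
      rw [Submodule.mem_bot]
      funext m
      rw [hφ, Pi.zero_apply, residue_eq_zero_iff]
      exact (mem_homogIn.mp hf).2 _
    · intro y _
      choose c hc using fun m : S => residue_surjective (y m)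
      have hco : ∀ m : Fin (n + 1) →₀ ℕ,
          (∑ m' : S, MvPolynomial.monomial m'.1 (c m')).coeff m =
            if h : m ∈ S then c ⟨m, h⟩ else 0 := by
        intro m
        rw [MvPolynomial.coeff_sum]
        split_ifs with h
        · rw [Finset.sum_eq_single ⟨m, h⟩]
          · simp
          · intro b _ hb'
            rw [MvPolynomial.coeff_monomial, if_neg fun e => hb' (Subtype.ext e)]
          · simp
        · refine Finset.sum_eq_zero fun b _ => ?_
          rw [MvPolynomial.coeff_monomial, if_neg fun (e : b.1 = m) => h (e ▸ b.2)]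
      refine ⟨∑ m' : S, MvPolynomial.monomial m'.1 (c m'), mem_homog.mpr fun m hm => ?_, ?_⟩
      · rw [hco] at hm
        split_ifs at hm with h
        · exact_mod_cast (hS m).mp h
        · exact absurd rfl hm
      · rw [Submodule.mem_bot, sub_eq_zero]
        funext m
        rw [hφ, hco, dif_pos m.2, hc]
    · intro f hf h0
      refine mem_homogIn.mpr ⟨hf, fun m => ?_⟩
      by_cases hm : f.coeff m = 0
      · rw [hm]; exact zero_mem _
      · have h1 : m ∈ S := (hS m).mpr (by exact_mod_cast mem_homog.mp hf m hm)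
        have := congrFun ((Submodule.mem_bot _).mp h0) ⟨m, h1⟩
        rwa [hφ, Pi.zero_apply, residue_eq_zero_iff] at this
  · rw [hilbB, if_neg hc, Nat.cast_zero, rl_eq_zero_iff, homog, if_neg hc]
    exact bot_le

/-- Functions bounded by `K (a + 1) ^ (n - 1)`. -/
def HSmall (n : ℕ) (u : ℕ → ℝ) : Prop :=
  ∃ K : ℝ, ∀ a : ℕ, ((a : ℝ) + 1) * |u a| ≤ K * ((a : ℝ) + 1) ^ n

theorem HSmall.of_le_add {n : ℕ} {u v w : ℕ → ℝ} (hv : HSmall n v) (hw : HSmall n w)
    (h : ∀ a, |u a| ≤ |v a| + |w a|) : HSmall n u := by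
  obtain ⟨K, hK⟩ := hv
  obtain ⟨L, hL⟩ := hw
  refine ⟨K + L, fun a => ?_⟩
  have h1 : ((a : ℝ) + 1) * |u a| ≤ ((a : ℝ) + 1) * (|v a| + |w a|) :=
    mul_le_mul_of_nonneg_left (h a) (by positivity)
  linarith [hK a, hL a]

theorem hsmall_zero (n : ℕ) : HSmall n fun _ => 0 := ⟨0, fun a => by simp⟩

theorem hilbB_le (n : ℕ) (s : ℤ) (a : ℕ) :
    (hilbB n (a + s) : ℝ) ≤ ((s.natAbs : ℝ) + n + 1) ^ n * ((a : ℝ) + 1) ^ n := by
  rw [hilbB]
  split_ifs with h
  · rw [← mul_pow]
    have h1 : ((a + s).toNat + n).choose n ≤ ((s.natAbs + n + 1) * (a + 1)) ^ n :=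
      (Nat.choose_le_pow _ _).trans (Nat.pow_le_pow_left (by
        have : (a + s).toNat ≤ a + s.natAbs := by omega
        nlinarith [Nat.zero_le ((s.natAbs + n) * a)]) _)
    exact_mod_cast h1
  · simp only [Nat.cast_zero]; positivity

theorem hilbB_succ (n : ℕ) (c : ℤ) : hilbB (n + 1) (c + 1) = hilbB (n + 1) c + hilbB n (c + 1) := by
  unfold hilbB
  by_cases h : 0 ≤ c
  · obtain ⟨a, rfl⟩ := Int.eq_ofNat_of_zero_le h
    have h1 : (0 : ℤ) ≤ a + 1 := by omega
    have h2 : ((a : ℤ) + 1).toNat = a + 1 := by omega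
    rw [if_pos h1, if_pos h, if_pos h1, h2, Int.toNat_natCast,
      show a + 1 + (n + 1) = (a + (n + 1)) + 1 by ring, Nat.choose_succ_succ,
      show a + 1 + n = a + (n + 1) by ring, add_comm]
  · by_cases h' : c = -1
    · subst h'; simp
    · have h1 : ¬ (0 : ℤ) ≤ c + 1 := by omega
      rw [if_neg h1, if_neg h, if_neg h1]

theorem hsmall_hilbB_step (n : ℕ) (s : ℤ) :
    HSmall n fun a => (hilbB n (a + s + 1) : ℝ) - hilbB n (a + s) := by
  cases n with
  | zero =>
    refine ⟨s.natAbs, fun a => ?_⟩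
    simp only [hilbB, add_zero, Nat.choose_zero_right, pow_zero, mul_one]
    by_cases h : (a : ℤ) + s = -1
    · have h1 : a + 1 = s.natAbs := by omega
      rw [h, ← h1]; simp
    · by_cases h' : 0 ≤ (a : ℤ) + s
      · rw [if_pos h', if_pos (by omega)]; simp
      · rw [if_neg h', if_neg (by omega)]; simp
  | succ m =>
    refine ⟨(((s + 1).natAbs : ℝ) + m + 1) ^ m, fun a => ?_⟩
    have h1 := hilbB_le m (s + 1) a
    rw [← add_assoc] at h1
    simp only [hilbB_succ, Nat.cast_add, add_sub_cancel_left, Nat.abs_cast]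
    rw [pow_succ, ← mul_assoc, mul_comm]
    exact mul_le_mul_of_nonneg_right h1 (by positivity)

theorem hsmall_hilbB (n : ℕ) (s : ℤ) : HSmall n fun a => (hilbB n (a + s) : ℝ) - hilbB n a := by
  induction s using Int.induction_on with
  | zero => simpa using hsmall_zero n
  | succ i ih =>
    refine ih.of_le_add (hsmall_hilbB_step n i) fun a => ?_
    refine le_trans (le_of_eq ?_) (abs_add_le _ _)
    rw [add_assoc]; congr 1; ring
  | pred i ih =>
    refine ih.of_le_add (hsmall_hilbB_step n (-i - 1)) fun a => ?_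
    refine le_trans (le_of_eq ?_) (abs_sub _ _)
    rw [show (a : ℤ) + (-i - 1) + 1 = a + -i by ring]; congr 1; ring

omit [IsLocalRing T] in
theorem rl_cycExt {ξ : Fin d → H} {P' P : ℤ → Submodule T H} {g : H} {a : ℤ}
    (h : CycExt ξ P' P g a) (b : ℤ) :
    rl (P b) (P' b) = rl (homog T d (b - a)) (cycAnn ξ P' g a (b - a)) := by
  symm
  refine rl_eq_of_map (evMul ξ g) ?_ ?_ ?_ ?_
  · intro x hx
    rw [h b]
    exact mem_sup_right (mem_map_of_mem hx)
  · intro x hx
    have := hx.2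
    rwa [sub_add_cancel] at this
  · intro y hy
    rw [h b] at hy
    obtain ⟨u, hu, _, ⟨x, hx, rfl⟩, rfl⟩ := mem_sup.mp hy
    exact ⟨x, hx, by simpa using hu⟩
  · intro x hx h1
    exact ⟨hx, by rwa [sub_add_cancel]⟩

omit [IsLocalRing T] in
theorem homogIn_le_cycAnn {𝔞 : Ideal T} {ξ : Fin d → H} {P' P : ℤ → Submodule T H} {g : H} {a : ℤ}
    (h : CycExt ξ P' P g a) (hm : ∀ a, ∀ r ∈ 𝔞, ∀ x ∈ P a, r • x ∈ P' a) (b : ℤ) :
    homogIn d 𝔞 b ≤ cycAnn ξ P' g a b := by
  refine smul_le.mpr fun r hr f hf => ⟨smul_mem _ _ hf, ?_⟩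
  change evMul ξ g (r • f) ∈ P' (b + a)
  rw [map_smul]
  refine hm _ r hr _ ?_
  rw [h (b + a), add_sub_cancel_right]
  exact mem_sup_right (mem_map_of_mem hf)

theorem mem_homogIn_iff_map {a : ℤ} {f : MvPolynomial (Fin d) T} :
    f ∈ homogIn d (maximalIdeal T) a ↔
      f ∈ homog T d a ∧ MvPolynomial.map (residue T) f = 0 := by
  rw [mem_homogIn]
  refine and_congr_right fun _ => ⟨fun h => ?_, fun h m => ?_⟩
  · ext m
    rw [MvPolynomial.coeff_map, MvPolynomial.coeff_zero, residue_eq_zero_iff]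
    exact h m
  · rw [← residue_eq_zero_iff, ← MvPolynomial.coeff_map, h, MvPolynomial.coeff_zero]

theorem rl_add_le_of_tors {n : ℕ} {I : ℤ → Submodule T (MvPolynomial (Fin (n + 1)) T)}
    (hI : IsGr MvPolynomial.X I) (h1 : ∀ b, I b ≤ homog T (n + 1) b)
    (h2 : ∀ b, homogIn (n + 1) (maximalIdeal T) b ≤ I b) {b : ℤ} {f : MvPolynomial (Fin (n + 1)) T}
    (hf : f ∈ I b) (hf' : f ∉ homogIn (n + 1) (maximalIdeal T) b) (c : ℤ) :
    rl (homog T (n + 1) c) (I c) + hilbB n (c - b) ≤ hilbB n c := by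
  rw [← rl_homog (T := T) n c, rl_add (h2 c) (h1 c), ← rl_homog (T := T) n (c - b)]
  refine add_le_add_right (rl_le_of_map_inj (LinearMap.mulRight T f) ?_ ?_) _
  · intro x hx
    have := hI.aeval_mul hx hf
    rwa [MvPolynomial.aeval_X_left_apply, add_sub_cancel] at this
  · intro x hx h3
    have h4 := (mem_homogIn_iff_map.mp h3).2
    rw [LinearMap.mulRight_apply, map_mul, mul_eq_zero] at h4
    exact mem_homogIn_iff_map.mpr ⟨hx, h4.resolve_right fun h5 =>
      hf' (mem_homogIn_iff_map.mpr ⟨h1 b hf, h5⟩)⟩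

theorem Cyc.hilbert_aux {n : ℕ} {ξ : Fin (n + 1) → H} {Q P : ℤ → Submodule T H} {e : ℕ}
    (h : Cyc (maximalIdeal T) ξ Q P e) (hQ : IsGr ξ Q)
    (hm : ∀ a, ∀ r ∈ maximalIdeal T, ∀ x ∈ P a, r • x ∈ Q a) :
    (∀ a, rl (P a) (Q a) ≠ ⊤) ∧
      HSmall n fun a => ((rl (P a) (Q a)).toNat : ℝ) - e * (hilbB n a : ℝ) := by
  induction h with
  | refl => exact ⟨fun a => by simp [rl_self], by simpa [rl_self] using hsmall_zero n⟩
  | @free P' P e g a h hext hann ih =>
    obtain ⟨ih1, ih2⟩ := ih fun b r hr x hx => hm b r hr x (hext.le b hx)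
    have hle := homogIn_le_cycAnn hext fun b r hr x hx => h.le b (hm b r hr x hx)
    have key : ∀ b, rl (P b) (Q b) = hilbB n (b - a) + rl (P' b) (Q b) := fun b => by
      rw [rl_add (h.le b) (hext.le b), rl_cycExt hext, le_antisymm (hann _) (hle _), rl_homog]
    refine ⟨fun b => ?_, ih2.of_le_add (hsmall_hilbB n (-a)) fun b => ?_⟩
    · rw [key]
      exact WithTop.add_ne_top.mpr ⟨ENat.natCast_ne_top _, ih1 b⟩
    · refine le_trans (le_of_eq ?_) (abs_add_le _ _)
      rw [key, ENat.toNat_add (ENat.natCast_ne_top _) (ih1 b), ENat.toNat_natCast, sub_eq_add_neg (b : ℤ)]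
      congr 1
      push_cast; ring
  | @tors P' P e g a h hext hann ih =>
    obtain ⟨ih1, ih2⟩ := ih fun b r hr x hx => hm b r hr x (hext.le b hx)
    have hle := homogIn_le_cycAnn hext fun b r hr x hx => h.le b (hm b r hr x hx)
    obtain ⟨b₀, f, hf, hf'⟩ := hann
    have key : ∀ b, ∃ k : ℕ, rl (P b) (Q b) = k + rl (P' b) (Q b) ∧
        k + hilbB n (b + (-a - b₀)) ≤ hilbB n (b + -a) := fun b => by
      have h1 := rl_add_le_of_tors (isGr_cycAnn (h.isGr hQ) g a) (fun _ => inf_le_left) hle hf hf'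
        (b - a)
      rw [← rl_cycExt hext] at h1
      obtain ⟨k, hk⟩ := ENat.ne_top_iff_exists.mp
        (ne_top_of_le_ne_top (ENat.natCast_ne_top _) (le_self_add.trans h1))
      refine ⟨k, by rw [rl_add (h.le b) (hext.le b), hk], ?_⟩
      rw [← hk] at h1
      rw [← add_sub_assoc, ← sub_eq_add_neg]
      exact_mod_cast h1
    refine ⟨fun b => ?_, ih2.of_le_add ((hsmall_hilbB n (-a)).of_le_add (hsmall_hilbB n (-a - b₀))
      (u := fun b => (hilbB n (b + -a) : ℝ) - hilbB n (b + (-a - b₀))) fun b => ?_) fun b => ?_⟩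
    · obtain ⟨k, hk, -⟩ := key b
      rw [hk]
      exact WithTop.add_ne_top.mpr ⟨ENat.natCast_ne_top _, ih1 b⟩
    · refine le_trans (le_of_eq ?_) (abs_sub _ _)
      congr 1; ring
    · obtain ⟨k, hk, hk'⟩ := key b
      have h2 : (k : ℝ) + hilbB n (b + (-a - b₀)) ≤ hilbB n (b + -a) := by exact_mod_cast hk'
      have h3 : (0 : ℝ) ≤ k := Nat.cast_nonneg k
      rw [hk, ENat.toNat_add (ENat.natCast_ne_top _) (ih1 b), ENat.toNat_natCast, Nat.cast_add,
        add_sub_assoc, add_comm]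
      refine (abs_add_le _ _).trans (add_le_add_right ?_ _)
      rw [abs_of_nonneg h3]
      exact le_trans (by linarith) (le_abs_self _)

end HilbAux

/-- (HILB) the Hilbert function of a graded module killed by the maximal ideal. -/
theorem Cyc.hilbert {n : ℕ} {ξ : Fin (n + 1) → H} {Q P : ℤ → Submodule T H} {e : ℕ}
    (h : Cyc (maximalIdeal T) ξ Q P e) (hQ : IsGr ξ Q)
    (hm : ∀ a, ∀ r ∈ maximalIdeal T, ∀ x ∈ P a, r • x ∈ Q a) :
    (∀ a, rl (P a) (Q a) ≠ ⊤) ∧ ∃ K : ℝ, ∀ a : ℕ,
      ((a : ℝ) + 1) * |((rl (P a) (Q a)).toNat : ℝ) - e * ((a + n).choose n : ℝ)| ≤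
        K * ((a : ℝ) + 1) ^ n := by
  obtain ⟨h1, K, hK⟩ := h.hilbert_aux hQ hm
  exact ⟨h1, K, fun a => by simpa only [hilbB_natCast] using hK a⟩

omit [IsNoetherianRing T] in
theorem rl_top_pow (N : ℕ) : rl (⊤ : Submodule T T) (maximalIdeal T ^ N) =
    ∑ a ∈ Finset.range N, rl (mPow T a) (mPow T (a + 1)) := by
  induction N with
  | zero => simp [rl_self]
  | succ N ih =>
    rw [rl_add (B := maximalIdeal T ^ N) (Ideal.pow_le_pow_right N.le_succ) le_top, ih,
      Finset.sum_range_succ]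
    rfl

theorem tendsto_choose_div (n : ℕ) : Tendsto (fun N : ℕ =>
    ((n + 1).factorial : ℝ) * ((N + n).choose (n + 1) : ℝ) / (N : ℝ) ^ (n + 1)) atTop (𝓝 1) := by
  have h1 : Tendsto (fun N : ℕ => ∏ i ∈ Finset.range (n + 1), (1 + (i : ℝ) / N)) atTop
      (𝓝 (∏ _i ∈ Finset.range (n + 1), (1 : ℝ))) := by
    refine tendsto_finsetProd _ fun i _ => ?_
    simpa using (tendsto_const_div_atTop_nhds_zero_nat (i : ℝ)).const_add 1
  rw [Finset.prod_const_one] at h1
  refine h1.congr' ?_
  filter_upwards [eventually_gt_atTop 0] with N hN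
  have h2 := Nat.ascFactorial_eq_factorial_mul_choose' N (n + 1)
  rw [Nat.ascFactorial_eq_prod_range, show N + (n + 1) - 1 = N + n by omega] at h2
  have h3 : (N : ℝ) ≠ 0 := by positivity
  rw [← Nat.cast_mul, ← h2, Nat.cast_prod, ← Finset.card_range (n + 1), ← Finset.prod_const,
    Finset.card_range, ← Finset.prod_div_distrib]
  refine Finset.prod_congr rfl fun i _ => ?_
  push_cast
  field_simp

theorem sum_range_choose_eq (n N : ℕ) :
    ∑ a ∈ Finset.range N, (a + n).choose n = (N + n).choose (n + 1) := by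
  induction N with
  | zero => simp
  | succ N ih =>
    rw [Finset.sum_range_succ, ih, show N + 1 + n = N + n + 1 by ring, Nat.choose_succ_succ,
      add_comm]

theorem tendsto_hsSeq_of_cyc {n : ℕ} {x : Fin (n + 1) → T} (hx : IsReduction x) {e : ℕ}
    (h : Cyc (maximalIdeal T) x (fun a => mPow T (a + 1)) (mPow T) e) :
    Tendsto (hsSeq T (n + 1)) atTop (𝓝 (e : ℝ)) := by
  obtain ⟨h1, K, hK⟩ := h.hilbert (isGr_mPow hx.1 1) fun a r hr y hy => by
    simpa using mul_mem_mPow (k := 1) (by simpa using hr) hy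
  set u : ℕ → ℝ := fun a => ((rl (mPow T a) (mPow T (a + 1))).toNat : ℝ) -
    e * ((a + n).choose n : ℝ) with hu
  have h2 : ∀ N : ℕ, hsSeq T (n + 1) N =
      e * (((n + 1).factorial : ℝ) * ((N + n).choose (n + 1) : ℝ) / (N : ℝ) ^ (n + 1)) +
        ((n + 1).factorial : ℝ) * (∑ a ∈ Finset.range N, u a) / (N : ℝ) ^ (n + 1) := by
    intro N
    rw [hsSeq, ← rl_top, rl_top_pow, ENat.toNat_sum fun (a : ℕ) _ => h1 a, ← sum_range_choose_eq]
    simp only [hu, Finset.sum_sub_distrib, ← Finset.mul_sum]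
    push_cast
    ring
  have h3 : Tendsto (fun N : ℕ => ((n + 1).factorial : ℝ) * (∑ a ∈ Finset.range N, u a) /
      (N : ℝ) ^ (n + 1)) atTop (𝓝 0) := by
    have h4 := (tendsto_one_div_add_atTop_nhds_zero_nat (𝕜 := ℝ)).cesaro.const_mul
      (((n + 1).factorial : ℝ) * K)
    rw [mul_zero] at h4
    have hK0 : 0 ≤ K := by
      have := hK 0
      simp only [Nat.cast_zero, zero_add, one_mul, one_pow, mul_one] at this
      exact (abs_nonneg _).trans this
    refine squeeze_zero_norm' ?_ h4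
    filter_upwards [eventually_gt_atTop 0] with N hN
    have h5 : (0 : ℝ) < N := by exact_mod_cast hN
    have h6 : |∑ a ∈ Finset.range N, u a| ≤
        K * (N : ℝ) ^ n * ∑ a ∈ Finset.range N, 1 / ((a : ℝ) + 1) := by
      rw [Finset.mul_sum]
      refine (Finset.abs_sum_le_sum_abs _ _).trans (Finset.sum_le_sum fun a ha => ?_)
      have h7 : (a : ℝ) + 1 ≤ N := by exact_mod_cast Finset.mem_range.mp ha
      have h8 : (0 : ℝ) < a + 1 := by positivity
      rw [mul_one_div, le_div_iff₀ h8, mul_comm]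
      exact (hK a).trans (by gcongr)
    rw [Real.norm_eq_abs, abs_div, abs_mul, Nat.abs_cast, abs_of_pos (pow_pos h5 _),
      div_le_iff₀ (pow_pos h5 _)]
    refine (mul_le_mul_of_nonneg_left h6 (Nat.cast_nonneg _)).trans (le_of_eq ?_)
    field_simp
    ring
  have h4 := ((tendsto_choose_div n).const_mul (e : ℝ)).add h3
  rw [mul_one, add_zero] at h4
  exact h4.congr fun N => (h2 N).symm

theorem tendsto_hsSeq_zero (h : ringKrullDim T = 0) :
    Module.length T T ≠ ⊤ ∧ Tendsto (hsSeq T 0) atTop (𝓝 ((Module.length T T).toNat : ℝ)) := by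
  have hA : IsArtinianRing T :=
    isArtinianRing_iff_krullDimLE_zero.mpr (Ring.krullDimLE_iff.mpr (by rw [h]; rfl))
  refine ⟨Module.length_ne_top, ?_⟩
  obtain ⟨r, hr⟩ := (isArtinianRing_iff_isNilpotent_maximalIdeal T).mp hA
  refine tendsto_const_nhds.congr' ?_
  filter_upwards [eventually_ge_atTop r] with N hN
  have h1 : maximalIdeal T ^ N = ⊥ :=
    le_bot_iff.mp ((Ideal.pow_le_pow_right hN).trans hr.le)
  rw [hsSeq, ← rl_top, h1, rl_bot, Module.length_top]
  simp

omit [IsNoetherianRing T] in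
theorem mul_prod_sub_prod_mem {J : Ideal T} {x z : Fin d → T} (hx : ∀ j, x j ∈ maximalIdeal T)
    (hz : ∀ j, z j ∈ maximalIdeal T) (hxz : ∀ j, x j - z j ∈ J) (α : Fin d →₀ ℕ) :
    (α.prod fun j k => x j ^ k) ∈ maximalIdeal T ^ α.degree ∧
    (α.prod fun j k => z j ^ k) ∈ maximalIdeal T ^ α.degree ∧
    ∀ t ∈ maximalIdeal T, t * ((α.prod fun j k => x j ^ k) - α.prod fun j k => z j ^ k) ∈
      J * maximalIdeal T ^ α.degree := by
  generalize hk : α.degree = k
  induction k generalizing α with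
  | zero =>
    rw [Finsupp.degree_eq_zero_iff] at hk
    subst hk
    simp
  | succ k ih =>
    obtain ⟨j, hj⟩ : ∃ j, α j ≠ 0 := by
      by_contra! h0
      rw [show α = 0 from Finsupp.ext h0] at hk
      simp at hk
    obtain ⟨β, rfl⟩ : ∃ β, α = β + Finsupp.single j 1 :=
      ⟨α - Finsupp.single j 1, (tsub_add_cancel_of_le (Finsupp.single_le_iff.mpr (by omega))).symm⟩
    have hβ : β.degree = k := by simpa using hk
    obtain ⟨h1, h2, h3⟩ := ih β hβ
    have e : ∀ y : Fin d → T, ((β + Finsupp.single j 1).prod fun j k => y j ^ k) =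
        (β.prod fun j k => y j ^ k) * y j := fun y => by
      rw [Finsupp.prod_add_index' (fun _ => pow_zero _) (fun _ _ _ => pow_add _ _ _)]
      simp
    rw [e x, e z, pow_succ]
    refine ⟨Ideal.mul_mem_mul h1 (hx j), Ideal.mul_mem_mul h2 (hz j), fun t ht => ?_⟩
    have e2 : ∀ A B : T, t * (A * x j - B * z j) = t * (A - B) * x j + (x j - z j) * (B * t) :=
      fun A B => by ring
    rw [e2]
    refine add_mem ?_ (Ideal.mul_mem_mul (hxz j) (Ideal.mul_mem_mul h2 ht))
    rw [← mul_assoc]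
    exact Ideal.mul_mem_mul (h3 t ht) (hx j)

omit [IsNoetherianRing T] in
theorem mul_eval_sub_eval_mem {J : Ideal T} {x z : Fin d → T} (hx : ∀ j, x j ∈ maximalIdeal T)
    (hz : ∀ j, z j ∈ maximalIdeal T) (hxz : ∀ j, x j - z j ∈ J) {a : ℕ}
    {f : MvPolynomial (Fin d) T} (hf : f ∈ homog T d a) {t : T} (ht : t ∈ maximalIdeal T) :
    t * (MvPolynomial.eval x f - MvPolynomial.eval z f) ∈ J * maximalIdeal T ^ a := by
  rw [MvPolynomial.eval_eq, MvPolynomial.eval_eq, ← Finset.sum_sub_distrib, Finset.mul_sum]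
  refine sum_mem fun α hα => ?_
  have h1 : α.degree = a := by
    exact_mod_cast mem_homog.mp hf α (MvPolynomial.mem_support_iff.mp hα)
  rw [← mul_sub, mul_left_comm, ← h1]
  exact Ideal.mul_mem_left _ _ ((mul_prod_sub_prod_mem hx hz hxz α).2.2 t ht)

omit [IsLocalRing T] [IsNoetherianRing T] in
theorem eval_mul_of_homog {a : ℕ} {f : MvPolynomial (Fin d) T} (hf : f ∈ homog T d a)
    (c : Fin d → T) (u : T) :
    MvPolynomial.eval (fun j => c j * u) f = MvPolynomial.eval c f * u ^ a := by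
  rw [MvPolynomial.eval_eq', MvPolynomial.eval_eq', Finset.sum_mul]
  refine Finset.sum_congr rfl fun α hα => ?_
  have h1 : α.degree = a := by
    exact_mod_cast mem_homog.mp hf α (MvPolynomial.mem_support_iff.mp hα)
  simp only [mul_pow, Finset.prod_mul_distrib, Finset.prod_pow_eq_pow_sum]
  rw [← h1, Finsupp.degree_eq_sum, mul_assoc]

theorem IsReduction.exists_pred [Infinite (ResidueField T)] {n : ℕ} {x : Fin (n + 1) → T}
    (hx : IsReduction x) {a : ℕ} {f : MvPolynomial (Fin (n + 1)) T} (hf : f ∈ homog T (n + 1) a)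
    (hf' : f ∉ homogIn (n + 1) (maximalIdeal T) a)
    (hfx : MvPolynomial.eval x f ∈ maximalIdeal T ^ (a + 1)) :
    ∃ y : Fin n → T, IsReduction y := by
  have h0 : MvPolynomial.map (residue T) f * MvPolynomial.X 0 ≠ 0 :=
    mul_ne_zero (fun h => hf' (mem_homogIn_iff_map.mpr ⟨hf, h⟩)) (MvPolynomial.X_ne_zero _)
  obtain ⟨cb, hcb⟩ : ∃ cb : Fin (n + 1) → ResidueField T,
      MvPolynomial.eval cb (MvPolynomial.map (residue T) f * MvPolynomial.X 0) ≠ 0 := by
    by_contra! h
    exact h0 (MvPolynomial.funext fun y => by rw [h y, map_zero])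
  rw [map_mul, MvPolynomial.eval_X, mul_ne_zero_iff] at hcb
  choose c hc using fun j => residue_surjective (cb j)
  have hc0 : IsUnit (c 0) := by
    rw [← residue_ne_zero_iff_isUnit, hc]; exact hcb.2
  have hcf : IsUnit (MvPolynomial.eval c f) := by
    rw [← residue_ne_zero_iff_isUnit]
    have := hcb.1
    rw [MvPolynomial.eval_eq'] at this ⊢
    rw [MvPolynomial.eval_eq', ← MvPolynomial.eval_eq', MvPolynomial.eval_map,
      MvPolynomial.eval₂_eq'] at hcb
    simpa [hc] using hcb.1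
  obtain ⟨v, hv⟩ := hc0.exists_right_inv
  obtain ⟨w, hw⟩ := hcf.exists_left_inv
  set m := maximalIdeal T with hm
  set u := v * x 0 with hu
  have hum : u ∈ m := Ideal.mul_mem_left _ _ (hx.1 0)
  let y : Fin n → T := fun i => x i.succ - c i.succ * u
  have hy : ∀ i, y i ∈ m := fun i => sub_mem (hx.1 _) (Ideal.mul_mem_left _ _ hum)
  set J := Ideal.span (Set.range y) with hJ
  have hxz : ∀ j, x j - c j * u ∈ J := by
    intro j
    refine Fin.cases ?_ (fun i => Ideal.subset_span ⟨i, rfl⟩) j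
    rw [hu, ← mul_assoc, hv, one_mul, sub_self]
    exact zero_mem _
  set U := Ideal.span {u} with hU
  have hUm : U ≤ m := (Ideal.span_singleton_le_iff_mem _).mpr hum
  have hxJ : Ideal.span (Set.range x) ≤ J ⊔ U := by
    rw [Ideal.span_le]
    rintro _ ⟨j, rfl⟩
    have : x j = (x j - c j * u) + c j * u := by ring
    rw [this]
    exact add_mem (mem_sup_left (hxz j))
      (mem_sup_right (Ideal.mul_mem_left _ _ (Ideal.mem_span_singleton_self u)))
  have hUa : U ^ a * m ≤ J * m ^ a ⊔ m * m ^ (a + 1) := by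
    rw [hU, Ideal.span_singleton_pow, Ideal.span_singleton_mul_le_iff]
    intro t ht
    have h1 := mul_eval_sub_eval_mem hx.1 (fun j => Ideal.mul_mem_left _ (c j) hum) hxz hf ht
    rw [eval_mul_of_homog hf] at h1
    have e : u ^ a * t = -w * (t * (MvPolynomial.eval x f - MvPolynomial.eval c f * u ^ a)) +
        w * (t * MvPolynomial.eval x f) := by
      linear_combination (-(u ^ a * t)) * hw
    rw [e]
    exact add_mem (mem_sup_left (Ideal.mul_mem_left _ _ h1))
      (mem_sup_right (Ideal.mul_mem_left _ _ (Ideal.mul_mem_mul ht hfx)))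
  obtain ⟨r, hr⟩ := hx.2
  have hr' : m ^ (r + 2) ≤ J * m ^ (r + 1) ⊔ U * m ^ (r + 1) := by
    rw [← Ideal.sup_mul, pow_succ m (r + 1), pow_succ m r, ← mul_assoc (J ⊔ U), ← pow_succ]
    exact Ideal.mul_mono_left (hr.trans (Ideal.mul_mono_left hxJ))
  have hk : ∀ k : ℕ, m ^ (r + k + 1) ≤ J * m ^ (r + k) ⊔ U ^ k * m ^ (r + 1) := by
    intro k
    induction k with
    | zero => simp
    | succ k ih =>
      rw [← add_assoc, pow_succ m (r + k + 1)]
      refine (Ideal.mul_mono_left ih).trans ?_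
      rw [Ideal.sup_mul, mul_assoc, mul_assoc, ← pow_succ, ← pow_succ]
      refine sup_le le_sup_left ((Ideal.mul_mono_right hr').trans ?_)
      rw [Ideal.mul_sup, ← mul_assoc _ U, ← pow_succ, mul_left_comm]
      refine sup_le_sup_right (Ideal.mul_mono_right ?_) _
      rw [show r + k + 1 = k + (r + 1) by ring, pow_add m k]
      exact Ideal.mul_mono_left (Ideal.pow_right_mono hUm k)
  refine ⟨y, hy, r + a, ?_⟩
  refine le_of_le_smul_of_le_jacobson_bot (I := m) (IsNoetherian.noetherian _)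
    (maximalIdeal_le_jacobson _) ((hk a).trans (sup_le le_sup_left ?_))
  rw [pow_succ' m r, ← mul_assoc]
  refine (Ideal.mul_mono_left hUa).trans (le_of_eq ?_)
  rw [Ideal.sup_mul, mul_assoc, mul_assoc, ← pow_add, ← pow_add, add_comm a r,
    show a + 1 + r = r + a + 1 by ring, smul_eq_mul]

/-- (RED) minimal reductions over an infinite residue field. -/
theorem exists_isReduction [Infinite (ResidueField T)] :
    ∃ (d : ℕ) (x : Fin d → T), ringKrullDim T = d ∧ IsReduction x := by
  classical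
  have hex : ∃ s : ℕ, ∃ x : Fin s → T, IsReduction x := by
    obtain ⟨s, x, hx⟩ := fg_iff_exists_fin_generating_family.mp
      (IsNoetherian.noetherian (maximalIdeal T))
    refine ⟨s, x, fun j => hx ▸ subset_span ⟨j, rfl⟩, 0, ?_⟩
    rw [zero_add, pow_one, pow_zero, mul_one]
    exact hx.ge
  obtain ⟨x, hx⟩ := Nat.find_spec hex
  have hmin := fun k => Nat.find_min hex (m := k)
  generalize Nat.find hex = s at x hx hmin
  have hle : ringKrullDim T ≤ s := by
    have h1 := dim_le_of_isSop (I := ⊥)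
      (hx.isSop.of_surjective (Submodule.mkQ (⊥ : Ideal T)) (mkQ_surjective _))
    rwa [ringKrullDim_eq_of_ringEquiv (RingEquiv.quotientBot T), List.length_ofFn] at h1
  refine ⟨s, x, le_antisymm hle ?_, hx⟩
  cases s with
  | zero => exact ringKrullDim_nonneg_of_nontrivial
  | succ n =>
    by_contra hlt
    have hdim : ringKrullDim T ≤ n := by
      rw [not_le] at hlt
      exact ENat.WithBot.lt_add_one_iff.mp (by exact_mod_cast hlt)
    obtain ⟨C, hC⟩ := exists_length_le_of_dim_le hdim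
    have h1 : ∀ a : ℕ, (((a + n).choose n : ℕ) : ℕ∞) ≤ rl (mPow T a) (mPow T (a + 1)) := by
      intro a
      rw [← hilbB_natCast, ← rl_homog (T := T)]
      refine rl_le_of_map_inj (evMul x 1) (fun f hf => ?_) fun f hf h => ?_
      · have := (isGr_mPow hx.1 0).aeval_mul (a := 0) hf (x := 1) (by simp [mPow])
        simpa [evMul_apply] using this
      · by_contra hf'
        refine hmin n n.lt_succ_self (hx.exists_pred hf hf' ?_)
        rw [evMul_apply, mul_one] at h
        exact h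
    have h2 : ∀ N : ℕ, (N + n).choose (n + 1) ≤ C * (N + 1) ^ n := by
      intro N
      have h3 := hC N
      rw [← rl_top, rl_top_pow] at h3
      have h4 := (Finset.sum_le_sum fun a (_ : a ∈ Finset.range N) => h1 a).trans h3
      rw [← Nat.cast_sum, sum_range_choose_eq] at h4
      exact_mod_cast h4
    set N := (n + 1).factorial * C * 2 ^ n + 1 with hN
    have h3 := Nat.ascFactorial_eq_factorial_mul_choose' N (n + 1)
    rw [show N + (n + 1) - 1 = N + n by omega] at h3
    have h4 : N ^ (n + 1) ≤ N.ascFactorial (n + 1) := by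
      rw [Nat.ascFactorial_eq_prod_range, ← Finset.card_range (n + 1), ← Finset.prod_const,
        Finset.card_range]
      exact Finset.prod_le_prod' fun i _ => Nat.le_add_right _ _
    have h5 : (N + 1) ^ n ≤ 2 ^ n * N ^ n := by
      rw [← mul_pow]
      exact Nat.pow_le_pow_left (by omega) _
    have h6 : N ^ n * N ≤ N ^ n * ((n + 1).factorial * C * 2 ^ n) := by
      rw [← pow_succ]
      refine h4.trans ?_
      rw [h3]
      refine (Nat.mul_le_mul_left _ ((h2 N).trans (Nat.mul_le_mul_left _ h5))).trans (le_of_eq ?_)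
      ring
    have h7 := Nat.le_of_mul_le_mul_left h6 (by positivity)
    omega

theorem exists_isMultiplicity_of_infinite [Infinite (ResidueField T)] :
    ∃ e : ℝ, IsMultiplicity T e := by
  obtain ⟨d, x, hd, hx⟩ := exists_isReduction (T := T)
  cases d with
  | zero => exact ⟨_, 0, hd, (tendsto_hsSeq_zero hd).2⟩
  | succ n =>
    obtain ⟨e, he⟩ := exists_cyc (maximalIdeal T) (isFG_gr hx)
    exact ⟨e, n + 1, hd, tendsto_hsSeq_of_cyc hx he⟩

/-- (S2) the multiplicity is at most the symbol of a reduction. -/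
theorem le_mult_of_tendsto {x : Fin d → T} (hx : IsReduction x) {e : ℝ}
    (he : Tendsto (hsSeq T d) atTop (𝓝 e)) : e ≤ (mult T (List.ofFn x) : ℝ) := by
  obtain ⟨K, hK⟩ := exists_length_idealPow_le hx.isSop
  obtain ⟨r, hr⟩ := hx.pow_le
  have hI : Ideal.ofList (List.ofFn x) = Ideal.span (Set.range x) := by
    rw [Ideal.ofList]
    congr 1
    ext t
    simp [List.mem_ofFn]
  have hxm : Ideal.span (Set.range x) ≤ maximalIdeal T := by
    rw [Ideal.span_le]
    rintro _ ⟨j, rfl⟩
    exact hx.1 j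
  have h1 := (tendsto_const_div_atTop_nhds_zero_nat K).const_add (mult T (List.ofFn x) : ℝ)
  rw [add_zero] at h1
  refine le_of_tendsto_of_tendsto he h1 ?_
  filter_upwards [eventually_gt_atTop 0] with N hN
  have h2 := hK N hN
  rw [hI, List.length_ofFn, ← rl_top, smul_eq_mul, Ideal.mul_top] at h2
  have h3 : rl (⊤ : Submodule T T) (maximalIdeal T ^ (N + r)) ≠ ⊤ :=
    IsSopP.rl_ne_top ⟨by simp, N + r, fun t ht => ⟨0, zero_mem _, fun y _ => by
      rw [sub_zero, smul_eq_mul]; exact Ideal.mul_mem_right _ _ ht⟩⟩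
  have h4 : (rl (⊤ : Submodule T T) (maximalIdeal T ^ N)).toNat ≤
      (rl (⊤ : Submodule T T) (Ideal.span (Set.range x) ^ N)).toNat :=
    ENat.toNat_le_toNat (rl_mono le_rfl (Ideal.pow_right_mono hxm N))
      (ne_top_of_le_ne_top h3 (rl_mono le_rfl (hr N)))
  have h5 : (0 : ℝ) < N := by exact_mod_cast hN
  have h6 : ((rl (⊤ : Submodule T T) (maximalIdeal T ^ N)).toNat : ℝ) ≤
      (rl (⊤ : Submodule T T) (Ideal.span (Set.range x) ^ N)).toNat := by exact_mod_cast h4
  rw [hsSeq, ← rl_top, div_le_iff₀ (pow_pos h5 _)]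
  refine le_of_mul_le_mul_left ?_ h5
  refine le_trans ?_ (h2.trans (le_of_eq ?_))
  · rw [← mul_assoc]
    gcongr
  · field_simp
    ring
end Local

end Vale.Agent.P202
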