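import Vale.Agent.P202.HomKos
import Vale.Agent.P202.Graded

/-! Module M2a: the labelled complex computing the cohomology of the line bundle `O(c + m)` on
(blow-up) x (P^1)^n.  Monomials are `z^a τ^s`, `(a, s) ∈ Γ n`.  A Cech vertex is a finset `ε`:
`l ∈ ε` means the chart `a l ≥ 0`, and `l ∉ ε` means (all `a l`) modulo (`a l ≤ c l + s`). -/

namespace Vale.Agent.P202

open Submodule IsLocalRing

/-- Exponents of Laurent monomials `z^a τ^s`. -/
abbrev Γ (n : ℕ) := (Fin n → ℤ) × ℤ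

/-- The Laurent polynomial ring `H[z^±, τ^±]`. -/
abbrev LR (H : Type*) [CommRing H] (n : ℕ) := AddMonoidAlgebra H (Γ n)

variable {T : Type*} [CommRing T] {H : Type*} [CommRing H] [Algebra T H] {n : ℕ}

/-- The monomial `z^a τ^s`. -/
noncomputable def mon (H : Type*) [CommRing H] (a : Fin n → ℤ) (s : ℤ) : LR H n :=
  AddMonoidAlgebra.single (a, s) 1

/-- The indicator exponent of a finset. -/
def ind (U : Finset (Fin n)) : Fin n → ℤ := fun l => if l ∈ U then 1 else 0

/-- `e_j(z) τ`, with `e_j` the elementary symmetric polynomial. -/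
noncomputable def eTau (H : Type*) [CommRing H] (n : ℕ) (j : Fin (n + 1)) : LR H n :=
  ∑ U ∈ Finset.powersetCard j Finset.univ, mon H (ind U) 1

/-- `δ_j = ξ_j - e_j(z) τ`. -/
noncomputable def del (ξ : Fin (n + 1) → H) (j : Fin (n + 1)) : LR H n :=
  algebraMap H (LR H n) (ξ j) - eTau H n j

/-- The monomial `γ` vanishes at the Cech vertex `ε`. -/
def IsZeroAt (ε : Finset (Fin n)) (γ : Γ n) : Prop := ∃ l ∈ ε, γ.1 l < 0

/-- The monomial `γ` is dead (lies in the denominator) at the Cech vertex `ε`. -/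
def IsDeadAt (c : Fin n → ℤ) (ε : Finset (Fin n)) (γ : Γ n) : Prop :=
  ∃ l, l ∉ ε ∧ γ.1 l ≤ c l + γ.2

/-- The label at a vertex: coefficients vanish on the zero monomials, are free on the dead
monomials and on those of `E`, and lie in `P (m - s)` on the others. -/
def lab (c : Fin n → ℤ) (ε : Finset (Fin n)) (E : Set (Γ n)) (P : ℤ → Submodule T H) (m : ℤ) :
    Submodule T (LR H n) where
  carrier := {f | ∀ γ, (IsZeroAt ε γ → f.coeff γ = 0) ∧
    (¬ IsDeadAt c ε γ → γ ∉ E → f.coeff γ ∈ P (m - γ.2))}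
  add_mem' := by
    intro f g hf hg γ
    refine ⟨fun h => ?_, fun h h' => ?_⟩
    · simp [(hf γ).1 h, (hg γ).1 h]
    · simpa using (P _).add_mem ((hf γ).2 h h') ((hg γ).2 h h')
  zero_mem' := by intro γ; simp
  smul_mem' := by
    intro r f hf γ
    refine ⟨fun h => ?_, fun h h' => ?_⟩
    · simp [(hf γ).1 h]
    · simpa using (P _).smul_mem r ((hf γ).2 h h')

theorem mem_lab {c : Fin n → ℤ} {ε : Finset (Fin n)} {E : Set (Γ n)} {P : ℤ → Submodule T H}
    {m : ℤ} {f : LR H n} : f ∈ lab c ε E P m ↔ ∀ γ, (IsZeroAt ε γ → f.coeff γ = 0) ∧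
      (¬ IsDeadAt c ε γ → γ ∉ E → f.coeff γ ∈ P (m - γ.2)) := Iff.rfl

/-- The extra dead monomials: `E` at the special vertex `(univ, ∅)`, nothing elsewhere. -/
def extra (E : Set (Γ n)) (ε : Finset (Fin n)) (S : Finset (Fin (n + 1))) : Set (Γ n) :=
  if ε = Finset.univ ∧ S = ∅ then E else ∅

/-- The monomials `z^a τ^s` with `0 ≤ a l ≤ c l + s`, for a fixed `s`. -/
def h0Set (c : Fin n → ℤ) (s : ℤ) : Set (Γ n) := {γ | γ.2 = s ∧ ∀ l, 0 ≤ γ.1 l ∧ γ.1 l ≤ c l + s}

/-- The module underlying the complex. -/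
abbrev VM (H : Type*) [CommRing H] (n : ℕ) := Finset (Fin n) → Finset (Fin (n + 1)) → LR H n

/-- The differential of the Koszul complex on the `δ_j`. -/
noncomputable def DK (ξ : Fin (n + 1) → H) :
    (Finset (Fin (n + 1)) → LR H n) →ₗ[LR H n] (Finset (Fin (n + 1)) → LR H n) :=
  tot (kos (del ξ)) kdeg 0

/-- The differential: Cech complex tensor Koszul complex on the `δ_j`. -/
noncomputable def DM (ξ : Fin (n + 1) → H) : VM H n →ₗ[LR H n] VM H n :=
  tot (kos fun _ : Fin n => (1 : LR H n)) kdeg (DK ξ)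

/-- The family at one Cech vertex. -/
noncomputable def famK (c : Fin n → ℤ) (E : Set (Γ n)) (P : ℤ → Submodule T H) (m : ℤ)
    (ε : Finset (Fin n)) : ℤ → Submodule T (Finset (Fin (n + 1)) → LR H n) :=
  totFam kdeg fun S => conc (lab c ε (extra E ε S) P (m - S.card))

/-- The family attached to the graded module `P`, the twist `c` and the level `m`. -/
noncomputable def famM (c : Fin n → ℤ) (E : Set (Γ n)) (P : ℤ → Submodule T H) (m : ℤ) :
    ℤ → Submodule T (VM H n) :=
  totFam kdeg (famK c E P m)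

theorem mem_famM {c : Fin n → ℤ} {E : Set (Γ n)} {P : ℤ → Submodule T H} {m i : ℤ} {v : VM H n} :
    v ∈ famM c E P m i ↔ ∀ ε S, if i = ε.card + S.card then
      v ε S ∈ lab c ε (extra E ε S) P (m - S.card) else v ε S = 0 := by
  simp only [famM, famK, mem_totFam]
  refine forall_congr' fun ε => forall_congr' fun S => ?_
  unfold conc
  by_cases h : i = ε.card + S.card
  · rw [if_pos h, if_pos (by unfold kdeg; omega)]
  · rw [if_neg h, if_neg (by unfold kdeg; omega), Submodule.mem_bot]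

/-- `b` maps the label of level `m` into the label of level `m + w`. -/
def IsWt (c : Fin n → ℤ) (ε : Finset (Fin n)) (P : ℤ → Submodule T H) (w : ℤ) (b : LR H n) :
    Prop := ∀ m, ∀ f ∈ lab c ε ∅ P m, b * f ∈ lab c ε ∅ P (m + w)

theorem Lb.lab_mono' {c : Fin n → ℤ} {ε : Finset (Fin n)} {E E' : Set (Γ n)}
    {P Q : ℤ → Submodule T H} {m m' : ℤ} (hE : E' ⊆ E) (h : ∀ s, Q (m' - s) ≤ P (m - s)) :
    lab c ε E' Q m' ≤ lab c ε E P m :=
  fun _ hf γ => ⟨(hf γ).1, fun h1 h2 => h _ ((hf γ).2 h1 fun h3 => h2 (hE h3))⟩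

theorem Lb.lab_algebraMap {c : Fin n → ℤ} {ε : Finset (Fin n)} {E : Set (Γ n)}
    {P Q : ℤ → Submodule T H} {g : H} {w m : ℤ} (h : ∀ a, ∀ x ∈ P a, g * x ∈ Q (a + w))
    {f : LR H n} (hf : f ∈ lab c ε E P m) : algebraMap H (LR H n) g * f ∈ lab c ε E Q (m + w) := by
  intro γ
  rw [← Algebra.smul_def, AddMonoidAlgebra.coeff_smul_apply, smul_eq_mul]
  refine ⟨fun h1 => by rw [(hf γ).1 h1, mul_zero], fun h1 h2 => ?_⟩
  rw [add_sub_right_comm]
  exact h _ _ ((hf γ).2 h1 h2)

theorem Lb.coeff_mon_mul (a : Fin n → ℤ) (s : ℤ) (f : LR H n) (γ : Γ n) :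
    (mon H a s * f).coeff γ = f.coeff (γ - (a, s)) := by
  rw [mon, AddMonoidAlgebra.coeff_single_mul_apply, one_mul, neg_add_eq_sub]

theorem Lb.mon_mul (a a' : Fin n → ℤ) (s s' : ℤ) :
    mon H a s * mon H a' s' = mon H (a + a') (s + s') := by
  simp [mon]

theorem Lb.mon_zero : mon H (0 : Fin n → ℤ) 0 = 1 := rfl

theorem Lb.prod_mon (U : Finset (Fin n)) (a : Fin n → Fin n → ℤ) :
    ∏ l ∈ U, mon H (a l) 0 = mon H (∑ l ∈ U, a l) 0 := by
  induction U using Finset.cons_induction with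
  | empty => rfl
  | cons l U hl ih => rw [Finset.prod_cons, Finset.sum_cons, ih, Lb.mon_mul, add_zero]

theorem Lb.sum_single (U : Finset (Fin n)) : ∑ l ∈ U, Pi.single l (1 : ℤ) = ind U := by
  funext l
  simp [ind, Finset.sum_apply, Pi.single_apply]

theorem Lb.conc_map {M M' : Type*} [AddCommGroup M] [Module T M] [AddCommGroup M'] [Module T M']
    {L : Submodule T M} {L' : Submodule T M'} {φ : M → M'} (h0 : φ 0 = 0)
    (h : ∀ x ∈ L, φ x ∈ L') (i : ℤ) : ∀ x ∈ conc L i, φ x ∈ conc L' i := by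
  intro x hx
  unfold conc at hx ⊢
  split_ifs at hx ⊢
  · exact h x hx
  · rw [Submodule.mem_bot] at hx ⊢
    rw [hx, h0]

section Wt
variable {c : Fin n → ℤ} {ε : Finset (Fin n)} {P : ℤ → Submodule T H}
theorem IsWt.mul {w w' : ℤ} {b b' : LR H n} (h : IsWt c ε P w b) (h' : IsWt c ε P w' b') :
    IsWt c ε P (w + w') (b * b') := by
  intro m f hf
  rw [mul_assoc, add_comm w, ← add_assoc]
  exact h _ _ (h' _ _ hf)
theorem IsWt.add {w : ℤ} {b b' : LR H n} (h : IsWt c ε P w b) (h' : IsWt c ε P w b') :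
    IsWt c ε P w (b + b') := by
  intro m f hf
  rw [add_mul]
  exact add_mem (h _ _ hf) (h' _ _ hf)
theorem IsWt.neg {w : ℤ} {b : LR H n} (h : IsWt c ε P w b) : IsWt c ε P w (-b) := by
  intro m f hf
  rw [neg_mul]
  exact neg_mem (h _ _ hf)
theorem IsWt.pow {w : ℤ} {b : LR H n} (h : IsWt c ε P w b) (k : ℕ) :
    IsWt c ε P (k * w) (b ^ k) := by
  induction k with
  | zero =>
    intro m f hf
    simpa using hf
  | succ k ih =>
    rw [pow_succ, Nat.cast_succ, add_mul, one_mul]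
    exact ih.mul h
theorem IsWt.sum {α : Type*} (s : Finset α) {w : ℤ} {b : α → LR H n}
    (h : ∀ a ∈ s, IsWt c ε P w (b a)) : IsWt c ε P w (∑ a ∈ s, b a) := by
  intro m f hf
  rw [Finset.sum_mul]
  exact Submodule.sum_mem _ fun a ha => h a ha _ _ hf
theorem isWt_mon {a : Fin n → ℤ} {s : ℤ} (h0 : ∀ l ∈ ε, 0 ≤ a l) (h1 : ∀ l, l ∉ ε → a l ≤ s) :
    IsWt c ε P s (mon H a s) := by
  intro m f hf γ
  rw [Lb.coeff_mon_mul]
  refine ⟨fun ⟨l, h2, h3⟩ => (hf _).1 ⟨l, h2, ?_⟩, fun h2 h3 => ?_⟩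
  · have := h0 l h2
    simp only [Prod.fst_sub, Pi.sub_apply]
    omega
  · have := (hf (γ - (a, s))).2 (fun ⟨l, h4, h5⟩ => h2 ⟨l, h4, by
      have := h1 l h4
      simp only [Prod.fst_sub, Pi.sub_apply, Prod.snd_sub] at h5
      omega⟩) h3
    rwa [Prod.snd_sub, show m - (γ.2 - s) = m + s - γ.2 by ring] at this
theorem isWt_intCast (k : ℤ) : IsWt c ε P 0 (k : LR H n) := by
  intro m f hf
  rw [add_zero, ← zsmul_eq_mul]
  exact zsmul_mem hf k
theorem isWt_eTau (j : Fin (n + 1)) : IsWt c ε P 1 (eTau H n j) :=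
  IsWt.sum _ fun U _ => isWt_mon (fun l _ => by unfold ind; split_ifs <;> omega)
    fun l _ => by unfold ind; split_ifs <;> omega
theorem isWt_algebraMap {g : H} {w : ℤ} (h : ∀ a, ∀ x ∈ P a, g * x ∈ P (a + w)) :
    IsWt c ε P w (algebraMap H (LR H n) g) := fun _ _ hf => Lb.lab_algebraMap h hf
theorem isWt_del {ξ : Fin (n + 1) → H} (h : IsGr ξ P) (j : Fin (n + 1)) :
    IsWt c ε P 1 (del ξ j) := by
  rw [del, sub_eq_add_neg]
  exact (isWt_algebraMap fun a x hx => h a j x hx).add (isWt_eTau j).neg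
/-- On each chart the `(e_j τ)^N` generate the unit ideal, with coefficients of weight `-N`. -/
theorem exists_sum_eTau_pow (c : Fin n → ℤ) (ε : Finset (Fin n)) (N : ℕ) :
    ∃ g : Fin (n + 1) → LR H n, (∑ j, g j * eTau H n j ^ N = 1) ∧
      ∀ (P : ℤ → Submodule T H) j, IsWt c ε P (-N) (g j) := by
  let A : Subring (LR H n) :=
    { carrier := {b | ∀ P : ℤ → Submodule T H, IsWt c ε P 0 b}
      mul_mem' := fun ha hb P => by simpa using (ha P).mul (hb P)
      one_mem' := fun P => by simpa using isWt_intCast (c := c) (ε := ε) (P := P) 1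
      add_mem' := fun ha hb P => (ha P).add (hb P)
      zero_mem' := fun P => by simpa using isWt_intCast (c := c) (ε := ε) (P := P) 0
      neg_mem' := fun ha P => (ha P).neg }
  have hω : ∀ P : ℤ → Submodule T H, IsWt c ε P (-1) (mon H (-ind εᶜ) (-1)) := fun P =>
    isWt_mon (fun l hl => by simp [ind, hl]) fun l hl => by simp [ind, hl]
  let u : Fin (n + 1) → A := fun j => ⟨mon H (-ind εᶜ) (-1) * eTau H n j, fun P => by
    simpa using (hω P).mul (isWt_eTau j)⟩
  let w : Fin n → A := fun l => ⟨mon H (if l ∈ ε then Pi.single l 1 else -Pi.single l 1) 0,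
    fun P => isWt_mon
      (fun k hk => by
        split_ifs with h
        · rw [Pi.single_apply]
          split_ifs <;> omega
        · rw [Pi.neg_apply, Pi.single_eq_of_ne (fun e : k = l => h (e ▸ hk)), neg_zero])
      fun k hk => by
        split_ifs with h
        · rw [Pi.single_eq_of_ne (fun e : k = l => hk (e ▸ h))]
        · rw [Pi.neg_apply, Pi.single_apply]
          split_ifs <;> omega⟩
  let p : Fin n → Polynomial A := fun l =>
    if l ∈ ε then 1 + Polynomial.C (w l) * Polynomial.X else Polynomial.C (w l) + Polynomial.X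
  have hp : ∀ l, (p l).map A.subtype =
      Polynomial.C (mon H (if l ∈ ε then 0 else -Pi.single l 1) 0) *
        (1 + Polynomial.C (mon H (Pi.single l 1) 0) * Polynomial.X) := by
    intro l
    by_cases h : l ∈ ε
    · simp [p, w, h, Lb.mon_zero]
    · simp only [p, w, h, if_false, Polynomial.map_add, Polynomial.map_C, Polynomial.map_X,
        Subring.coe_subtype, mul_add, mul_one]
      rw [← mul_assoc, ← Polynomial.C_mul, Lb.mon_mul, neg_add_cancel, add_zero, Lb.mon_zero,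
        Polynomial.C_1, one_mul]
  have hco : ∀ k, (((∏ l, p l).coeff k : A) : LR H n) =
      ∑ U ∈ Finset.powersetCard k Finset.univ, mon H (-ind εᶜ) 0 * mon H (ind U) 0 := by
    intro k
    have e : ∑ l, (if l ∈ ε then 0 else -Pi.single l 1 : Fin n → ℤ) = -ind εᶜ := by
      rw [← Lb.sum_single, ← Finset.sum_neg_distrib, Finset.sum_ite, Finset.sum_const_zero,
        zero_add]
      exact Finset.sum_congr (by ext; simp) fun _ _ => rfl
    rw [← Subring.coe_subtype, ← Polynomial.coeff_map, Polynomial.map_prod,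
      Finset.prod_congr rfl fun l _ => hp l, Finset.prod_mul_distrib, ← map_prod, Lb.prod_mon, e,
      Polynomial.coeff_C_mul, Finset.prod_one_add, Polynomial.finsetSum_coeff,
      Finset.powersetCard_eq_filter, Finset.sum_filter, Finset.mul_sum]
    refine Finset.sum_congr rfl fun U _ => ?_
    rw [Finset.prod_mul_distrib, ← map_prod, Lb.prod_mon, Lb.sum_single, Finset.prod_const,
      Polynomial.coeff_C_mul_X_pow, mul_ite, mul_zero]
    simp only [eq_comm]
  have htop : Ideal.span (Set.range fun j => u j ^ N) = ⊤ := by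
    by_contra hne
    obtain ⟨𝔪, h𝔪, hle⟩ := Ideal.exists_le_maximal _ hne
    have hprime := h𝔪.isPrime
    have hu : ∀ j, u j ∈ 𝔪 := fun j =>
      hprime.mem_of_pow_mem N (hle (Ideal.subset_span ⟨j, rfl⟩))
    have h0 : (∏ l, p l).map (Ideal.Quotient.mk 𝔪) = 0 := by
      ext k
      rw [Polynomial.coeff_map, Polynomial.coeff_zero, Ideal.Quotient.eq_zero_iff_mem]
      by_cases hk : k < n + 1
      · convert hu ⟨k, hk⟩ using 1
        refine Subtype.ext ((hco k).trans ?_)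
        simp only [u, eTau, Finset.mul_sum, Lb.mon_mul]
        rfl
      · have : (∏ l, p l).coeff k = 0 := Subtype.ext ((hco k).trans (by
          rw [Finset.powersetCard_eq_empty.2 (by simpa using by omega), Finset.sum_empty]
          rfl))
        rw [this]
        exact zero_mem _
    rw [Polynomial.map_prod] at h0
    obtain ⟨l, -, hl⟩ := (Finset.prod_eq_zero_iff (s := Finset.univ)
      (f := fun i => (p i).map (Ideal.Quotient.mk 𝔪))).1 h0
    by_cases h : l ∈ ε
    · simpa [p, h] using congrArg (fun q => Polynomial.coeff q 0) hl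
    · simpa [p, h] using congrArg (fun q => Polynomial.coeff q 1) hl
  obtain ⟨a, ha⟩ := Ideal.mem_span_range_iff_exists_fun.1 (htop ▸ Submodule.mem_top (x := (1 : A)))
  refine ⟨fun j => a j * mon H (-ind εᶜ) (-1) ^ N, ?_, fun P j => ?_⟩
  · have := congrArg A.subtype ha
    simpa [u, mul_pow, mul_assoc] using this
  · simpa using ((a j).2 P).mul ((hω P).pow N)
end Wt

section Pairs
variable {ξ : Fin (n + 1) → H} {c : Fin n → ℤ} {E : Set (Γ n)} {P Q : ℤ → Submodule T H}

/-- The extra dead monomials are global sections. -/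
def IsH0 (c : Fin n → ℤ) (E : Set (Γ n)) : Prop := ∀ γ ∈ E, ∀ l, γ.1 l ≤ c l + γ.2

theorem isH0_empty : IsH0 c ∅ := fun _ h => h.elim
theorem isH0_h0Set (s : ℤ) : IsH0 c (h0Set c s) := fun _ h l => h.1 ▸ (h.2 l).2
theorem DK_sq (v : Finset (Fin (n + 1)) → LR H n) : DK ξ (DK ξ v) = 0 :=
  tot_sq (isMC_kos _) (fun _ => rfl) v
theorem DM_sq (v : VM H n) : DM ξ (DM ξ v) = 0 :=
  tot_sq (isMC_kos _) DK_sq v
theorem lab_mono {ε : Finset (Fin n)} {m m' : ℤ} (h : ∀ s, Q (m' - s) ≤ P (m - s)) :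
    lab c ε E Q m' ≤ lab c ε E P m := Lb.lab_mono' subset_rfl h

theorem Lb.famK_mono {m m' : ℤ} (h : ∀ s, Q (m' - s) ≤ P (m - s)) (ε : Finset (Fin n)) (i : ℤ) :
    famK c E Q m' ε i ≤ famK c E P m ε i := fun _ hv => mem_totFam.2 fun S =>
  Lb.conc_map (φ := id) rfl (fun _ hx => lab_mono (fun s => by
    rw [sub_sub, sub_sub]
    exact h _) hx) _ _ (mem_totFam.1 hv S)

theorem famM_mono {m m' : ℤ} (h : ∀ s, Q (m' - s) ≤ P (m - s)) (i : ℤ) :
    famM c E Q m' i ≤ famM c E P m i := fun _ hv => mem_totFam.2 fun ε =>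
  Lb.famK_mono h ε _ (mem_totFam.1 hv ε)
theorem famM_shift (k m : ℤ) : famM c E (fun a => P (a + k)) m = famM c E P (m + k) :=
  funext fun i => le_antisymm (famM_mono (fun s => by rw [add_sub_right_comm]) i)
    (famM_mono (fun s => by rw [add_sub_right_comm]) i)
theorem famM_bot (m m' : ℤ) : famM c E (fun _ => (⊥ : Submodule T H)) m =
    famM c E (fun _ => (⊥ : Submodule T H)) m' :=
  funext fun i => le_antisymm (famM_mono (fun _ => le_rfl) i) (famM_mono (fun _ => le_rfl) i)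

theorem Lb.extra_empty (ε : Finset (Fin n)) (S : Finset (Fin (n + 1))) : extra ∅ ε S = ∅ :=
  ite_self _

theorem Lb.kcompat (hP : IsGr ξ P) (m : ℤ) (ε : Finset (Fin n)) (j : Fin (n + 1))
    (S : Finset (Fin (n + 1))) (i : ℤ) (hj : j ∉ S) :
    ∀ x ∈ conc (lab c ε (extra E ε (insert j S)) P (m - (insert j S).card)) i,
      del ξ j • x ∈ conc (lab c ε (extra E ε S) P (m - S.card)) i := by
  refine Lb.conc_map (smul_zero _) (fun x hx => ?_) i
  rw [extra, if_neg (by simp), Finset.card_insert_of_notMem hj] at hx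
  have := isWt_del hP j _ _ hx
  rw [Nat.cast_succ, ← sub_sub, sub_add_cancel] at this
  exact Lb.lab_mono' (Set.empty_subset _) (fun _ => le_rfl) this

theorem Lb.famK_cech (hE : IsH0 c E) (m : ℤ) {l : Fin n} {ε : Finset (Fin n)} (hl : l ∉ ε)
    (i : ℤ) : famK c E P m (insert l ε) i ≤ famK c E P m ε i := by
  intro v hv
  refine mem_totFam.2 fun S => Lb.conc_map (φ := id) rfl (fun f hf γ => ⟨?_, fun h1 _ => ?_⟩) _ _
    (mem_totFam.1 hv S)
  · rintro ⟨k, h1, h2⟩
    exact (hf γ).1 ⟨k, Finset.mem_insert_of_mem h1, h2⟩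
  · refine (hf γ).2 (fun ⟨k, h2, h3⟩ => h1 ⟨k, fun h => h2 (Finset.mem_insert_of_mem h), h3⟩)
      fun h => h1 ⟨l, hl, hE γ ?_ l⟩
    unfold extra at h
    split_ifs at h
    · exact h
    · exact h.elim

theorem Lb.isTotPair_K (hP : IsGr ξ P) (hQ : IsGr ξ Q) {m m' : ℤ}
    (h : ∀ s, Q (m' - s) ≤ P (m - s)) (ε : Finset (Fin n)) :
    IsTotPair (kos (del ξ)) kdeg (0 : LR H n →ₗ[LR H n] LR H n)
      (fun S => conc (lab c ε (extra E ε S) P (m - S.card)))
      (fun S => conc (lab c ε (extra E ε S) Q (m' - S.card))) :=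
  isTotPair_kos (fun _ => rfl) (fun S => ⟨fun _ => rfl, isFam_conc _, isFam_conc _, fun i =>
    Lb.conc_map (φ := id) rfl (fun _ hx => lab_mono (fun s => by
      rw [sub_sub, sub_sub]
      exact h _) hx) i⟩) (Lb.kcompat hP m ε) (Lb.kcompat hQ m' ε)

theorem isFam_famK (hP : IsGr ξ P) (m : ℤ) (ε : Finset (Fin n)) :
    IsFam (DK ξ) (famK c E P m ε) :=
  (Lb.isTotPair_K hP hP (fun _ => le_rfl) ε).isPair.top
theorem isFam_famM (hE : IsH0 c E) (hP : IsGr ξ P) (m : ℤ) : IsFam (DM ξ) (famM c E P m) :=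
  isFam_tot (isMC_kos _).homog (isFam_famK hP m) (compat_kos fun _ _ i hl x hx => by
    rw [one_smul]
    exact Lb.famK_cech hE m hl i hx)
theorem isTotPair_famK (hE : IsH0 c E) (hP : IsGr ξ P) (hQ : IsGr ξ Q) {m m' : ℤ}
    (h : ∀ s, Q (m' - s) ≤ P (m - s)) :
    IsTotPair (kos fun _ : Fin n => (1 : LR H n)) kdeg (DK ξ) (famK c E P m) (famK c E Q m') :=
  isTotPair_kos DK_sq (fun ε => (Lb.isTotPair_K hP hQ h ε).isPair)
    (fun _ _ i hl x hx => by
      rw [one_smul]
      exact Lb.famK_cech hE m hl i hx)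
    fun _ _ i hl x hx => by
      rw [one_smul]
      exact Lb.famK_cech hE m' hl i hx
theorem isPair_famM (hE : IsH0 c E) (hP : IsGr ξ P) (hQ : IsGr ξ Q) {m m' : ℤ}
    (h : ∀ s, Q (m' - s) ≤ P (m - s)) : IsPair (DM ξ) (famM c E P m) (famM c E Q m') :=
  (isTotPair_famK hE hP hQ h).isPair

theorem Lb.smul_mem_famK {g : H} {w : ℤ} (h : ∀ a, ∀ x ∈ P a, g * x ∈ P (a + w)) (m : ℤ)
    (ε : Finset (Fin n)) (i : ℤ) :
    ∀ v ∈ famK c E P m ε i, algebraMap H (LR H n) g • v ∈ famK c E P (m + w) ε i :=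
  fun _ hv => mem_totFam.2 fun S => Lb.conc_map (φ := fun x => algebraMap H (LR H n) g • x)
    (smul_zero _) (fun x hx => by
      rw [add_sub_right_comm]
      exact Lb.lab_algebraMap h hx) _ _ (mem_totFam.1 hv S)

theorem smul_mem_famM {g : H} {w : ℤ} (h : ∀ a, ∀ x ∈ P a, g * x ∈ P (a + w)) (m i : ℤ) :
    ∀ v ∈ famM c E P m i, algebraMap H (LR H n) g • v ∈ famM c E P (m + w) i :=
  fun _ hv => mem_totFam.2 fun ε => Lb.smul_mem_famK h m ε _ _ (mem_totFam.1 hv ε)
theorem famM_eq_bot_of_lt_or_gt {m i : ℤ} (h : i < 0 ∨ 2 * n + 1 < i) : famM c E P m i = ⊥ := by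
  rw [eq_bot_iff]
  intro v hv
  rw [Submodule.mem_bot]
  funext ε S
  have h1 := mem_famM.1 hv ε S
  have h2 : ε.card ≤ n := by simpa using Finset.card_le_univ ε
  have h3 : S.card ≤ n + 1 := by simpa using Finset.card_le_univ S
  rwa [if_neg (by omega)] at h1

/-- A linear map of coefficients. -/
noncomputable def Lb.cmap {H' : Type*} [CommRing H'] [Algebra T H'] (φ : H' →ₗ[T] H) (n : ℕ) :
    LR H' n →ₗ[T] LR H n :=
  (AddMonoidAlgebra.coeffLinearEquiv T).symm.toLinearMap ∘ₗ Finsupp.mapRange.linearMap φ ∘ₗ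
    (AddMonoidAlgebra.coeffLinearEquiv T).toLinearMap

theorem Lb.coeff_cmap {H' : Type*} [CommRing H'] [Algebra T H'] (φ : H' →ₗ[T] H) (f : LR H' n)
    (γ : Γ n) : (Lb.cmap φ n f).coeff γ = φ (f.coeff γ) := rfl

theorem Lb.pairIso_lab {P' : ℤ → Submodule T H} {g : H} {a : ℤ} (h : CycExt ξ P' P g a) (m : ℤ)
    (ε : Finset (Fin n)) :
    PairIso (0 : LR (MvPolynomial (Fin (n + 1)) T) n →ₗ[LR (MvPolynomial (Fin (n + 1)) T) n] _)
      (conc (lab c ε E (homog T (n + 1)) (m - a))) (conc (lab c ε E (cycAnn ξ P' g a) (m - a)))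
      (0 : LR H n →ₗ[LR H n] LR H n) (conc (lab c ε E P m)) (conc (lab c ε E P' m))
      (Lb.cmap (evMul ξ g) n) 1 0 := by
  refine ⟨fun i => ?_, fun i => ?_, fun i y hy => ?_, fun i x hx hx' => ?_, fun i x _ => by simp⟩
  · rw [add_zero]
    refine Lb.conc_map (map_zero _) (fun f hf γ => ?_) i
    rw [Lb.coeff_cmap]
    refine ⟨fun h1 => by rw [(hf γ).1 h1, map_zero], fun h1 h2 => ?_⟩
    rw [h]
    exact Submodule.mem_sup_right (Submodule.mem_map_of_mem (sub_right_comm m a _ ▸ (hf γ).2 h1 h2))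
  · rw [add_zero]
    refine Lb.conc_map (map_zero _) (fun f hf γ => ?_) i
    rw [Lb.coeff_cmap]
    refine ⟨fun h1 => by rw [(hf γ).1 h1, map_zero], fun h1 h2 => ?_⟩
    have := ((hf γ).2 h1 h2).2
    rwa [sub_right_comm, sub_add_cancel] at this
  · rw [add_zero] at hy ⊢
    unfold conc at hy ⊢
    split_ifs at hy ⊢
    · have key : ∀ γ : Γ n, ∃ x, (y.coeff γ = 0 → x = 0) ∧ (¬ IsDeadAt c ε γ → γ ∉ E →
          x ∈ homog T (n + 1) (m - a - γ.2) ∧ y.coeff γ - evMul ξ g x ∈ P' (m - γ.2)) := by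
        intro γ
        by_cases h0 : y.coeff γ = 0
        · exact ⟨0, fun _ => rfl, fun _ _ => ⟨zero_mem _, by simp [h0]⟩⟩
        by_cases h1 : ¬ IsDeadAt c ε γ ∧ γ ∉ E
        · have := (hy γ).2 h1.1 h1.2
          rw [h] at this
          obtain ⟨z, hz, _, ⟨x, hx, rfl⟩, e⟩ := Submodule.mem_sup.1 this
          exact ⟨x, fun h => (h0 h).elim, fun _ _ =>
            ⟨sub_right_comm m a _ ▸ hx, by rwa [← e, add_sub_cancel_right]⟩⟩
        · exact ⟨0, fun _ => rfl, fun h2 h3 => (h1 ⟨h2, h3⟩).elim⟩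
      choose x hx hx' using key
      refine ⟨AddMonoidAlgebra.ofCoeff (Finsupp.onFinset y.coeff.support x fun γ hγ =>
        Finsupp.mem_support_iff.2 fun e => hγ (hx γ e)), fun γ => ⟨fun h1 => hx γ ((hy γ).1 h1),
          fun h1 h2 => (hx' γ h1 h2).1⟩, fun γ => ⟨fun h1 => ?_, fun h1 h2 => (hx' γ h1 h2).2⟩⟩
      change y.coeff γ - evMul ξ g (x γ) = 0
      rw [hx γ ((hy γ).1 h1), (hy γ).1 h1, map_zero, sub_zero]
    · exact ⟨0, zero_mem _, by simpa using hy⟩
  · rw [add_zero] at hx'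
    unfold conc at hx hx' ⊢
    split_ifs at hx hx' ⊢
    · refine fun γ => ⟨(hx γ).1, fun h1 h2 => ⟨(hx γ).2 h1 h2, ?_⟩⟩
      rw [sub_right_comm, sub_add_cancel]
      exact (hx' γ).2 h1 h2
    · exact hx

theorem Lb.cmap_del (g : H) (j : Fin (n + 1)) (x : LR (MvPolynomial (Fin (n + 1)) T) n) :
    Lb.cmap (T := T) (evMul ξ g) n (del (H := MvPolynomial (Fin (n + 1)) T) MvPolynomial.X j • x) =
      del ξ j • Lb.cmap (T := T) (evMul ξ g) n x := by
  simp only [del, eTau, smul_eq_mul, sub_mul, Finset.sum_mul, map_sub, map_sum]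
  congr 1
  · ext γ
    rw [Lb.coeff_cmap, ← Algebra.smul_def, ← Algebra.smul_def, AddMonoidAlgebra.coeff_smul_apply,
      AddMonoidAlgebra.coeff_smul_apply, Lb.coeff_cmap, smul_eq_mul, smul_eq_mul, evMul_apply,
      evMul_apply, map_mul, MvPolynomial.aeval_X, mul_assoc]
  · refine Finset.sum_congr rfl fun U _ => ?_
    ext γ
    rw [Lb.coeff_cmap, Lb.coeff_mon_mul, Lb.coeff_mon_mul, Lb.coeff_cmap]

/-- Transfer to the polynomial ring for one cyclic step. -/
theorem pairIso_cyc {P' : ℤ → Submodule T H} {g : H} {a : ℤ} (hP' : IsGr ξ P')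
    (h : CycExt ξ P' P g a) (m : ℤ) :
    ∃ φ : VM (MvPolynomial (Fin (n + 1)) T) n →ₗ[T] VM H n,
      PairIso (DM MvPolynomial.X) (famM c E (homog T (n + 1)) (m - a))
        (famM c E (cycAnn ξ P' g a) (m - a)) (DM ξ) (famM c E P m) (famM c E P' m) φ 1 0 := by
  refine ⟨totMap kdeg (totMap kdeg (Lb.cmap (evMul ξ g) n) 1) 1, PairIso.tot (isMC_kos _).homog
    (isMC_kos _).homog (fun ε => PairIso.tot (isMC_kos _).homog (isMC_kos _).homog (fun S => ?_)
      fun S S' j _ x _ => ?_) fun ε ε' j _ x _ => ?_⟩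
  · rw [sub_right_comm]
    exact Lb.pairIso_lab h _ ε
  · rw [kos_semilinear _ _ _ (Lb.cmap_del g), sub_self]
    exact zero_mem _
  · rw [kos_semilinear _ (fun _ => (1 : LR H n)) _ fun _ _ => by rw [one_smul, one_smul], sub_self]
    exact zero_mem _

/-- (d) the graded Koszul complex on the `ξ_j ^ N` is acyclic. -/
theorem hl_kosPow_eq_zero (hP : IsGr ξ P) (N : ℕ) (m i : ℤ) :
    hl (tot (kos fun j => algebraMap H (LR H n) (ξ j ^ N)) kdeg (DM ξ))
      (totFam kdeg fun S : Finset (Fin (n + 1)) => famM c ∅ P (m - N * S.card))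
      (totFam kdeg fun _ => famM c ∅ (fun _ => (⊥ : Submodule T H)) 0) i = 0 := by
  have hpow : ∀ {P : ℤ → Submodule T H}, IsGr ξ P → ∀ j (k : ℕ) a, ∀ x ∈ P a,
      ξ j ^ k * x ∈ P (a + k) := by
    intro P hP j k
    induction k with
    | zero => simp
    | succ k ih =>
      intro a x hx
      rw [pow_succ', mul_assoc, Nat.cast_succ, ← add_assoc]
      exact hP _ j _ (ih a x hx)
  have hb := isGr_bot (T := T) ξ
  have lev : ∀ {j : Fin (n + 1)} {S : Finset (Fin (n + 1))}, j ∉ S →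
      m - N * (insert j S).card + N = m - N * S.card := by
    intro j S hj
    rw [Finset.card_insert_of_notMem hj]
    push_cast
    ring
  have inner : ∀ ε, IsTotPair (kos fun j => algebraMap H (LR H n) (ξ j ^ N)) kdeg (DK ξ)
      (fun S : Finset (Fin (n + 1)) => famK c ∅ P (m - N * S.card) ε)
      (fun _ => famK c ∅ (fun _ => (⊥ : Submodule T H)) 0 ε) := fun ε =>
    isTotPair_kos DK_sq (fun S => (Lb.isTotPair_K hP hb (fun _ => bot_le) ε).isPair)
      (fun j S i hj x hx => lev hj ▸ Lb.smul_mem_famK (hpow hP j N) _ ε i x hx)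
      fun j S i _ x hx => Lb.famK_mono (fun _ => le_rfl) ε i
        (Lb.smul_mem_famK (w := N) (hpow hb j N) _ ε i x hx)
  have outer : IsTotPair (kos fun j => algebraMap H (LR H n) (ξ j ^ N)) kdeg (DM ξ)
      (fun S : Finset (Fin (n + 1)) => famM c ∅ P (m - N * S.card))
      (fun _ => famM c ∅ (fun _ => (⊥ : Submodule T H)) 0) :=
    isTotPair_kos DM_sq (fun S => isPair_famM isH0_empty hP hb fun _ => bot_le)
      (fun j S i hj x hx => lev hj ▸ smul_mem_famM (hpow hP j N) _ i x hx)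
      fun j S i _ x hx => famM_mono (fun _ => le_rfl) i (smul_mem_famM (w := N) (hpow hb j N) _ i x hx)
  refine ((hl_tot_swap (isMC_kos _).homog (isMC_kos _).homog outer.isPair).2 i).trans ?_
  refine nonpos_iff_eq_zero.1 ((hl_tot_le (isTotPair_kos (tot_sq (isMC_kos _) DK_sq)
    (fun ε => (inner ε).isPair) (fun l ε i hl x hx => ?_) fun l ε i hl x hx => ?_) i).trans
      (Finset.sum_eq_zero fun ε _ => ?_).le)
  · rw [one_smul]
    exact mem_totFam.2 fun S => Lb.famK_cech isH0_empty _ hl _ (mem_totFam.1 hx S)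
  · rw [one_smul]
    exact mem_totFam.2 fun S => Lb.famK_cech isH0_empty _ hl _ (mem_totFam.1 hx S)
  obtain ⟨g, hg, hw⟩ := exists_sum_eTau_pow (T := T) (H := H) c ε N
  have hw' : ∀ {P : ℤ → Submodule T H}, IsGr ξ P → ∀ j, IsWt c ε P (-1) (-(g j *
      ∑ k ∈ Finset.range N, algebraMap H (LR H n) (ξ j) ^ k * eTau H n j ^ (N - 1 - k))) := by
    intro P hP j
    have := ((hw P j).mul (IsWt.sum (w := N - 1) (Finset.range N) fun k hk => by
      have := ((isWt_algebraMap (c := c) (ε := ε) fun a x hx => hP a j x hx).pow k).mul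
        ((isWt_eTau j).pow (N - 1 - k))
      rw [Finset.mem_range] at hk
      rwa [show (k : ℤ) * 1 + (N - 1 - k : ℕ) * 1 = N - 1 by omega] at this)).neg
    rwa [show -(N : ℤ) + (N - 1) = -1 by ring] at this
  refine hl_kos_kos_eq_zero_of_sum (g := g) (g' := fun j => -(g j *
    ∑ k ∈ Finset.range N, algebraMap H (LR H n) (ξ j) ^ k * eTau H n j ^ (N - 1 - k)))
    (inner ε).isPair (fun j S S' i hj => ?_) (fun j S S' i hj => ?_) (fun j S S' i hj => ?_)
    (fun j S S' i hj => ?_) ?_ _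
  · refine Lb.conc_map (φ := fun x => g j • x) (smul_zero _) (fun x hx => ?_) i
    rw [Lb.extra_empty] at hx ⊢
    have := hw P j _ _ hx
    rwa [← lev hj, show ∀ u v : ℤ, u + N - v + -N = u - v by intros; ring] at this
  · refine Lb.conc_map (φ := fun x => g j • x) (smul_zero _) (fun x hx => ?_) i
    rw [Lb.extra_empty] at hx ⊢
    exact lab_mono (fun _ => le_rfl) (hw _ j _ _ hx)
  · refine Lb.conc_map (φ := fun x => _ • x) (smul_zero _) (fun x hx => ?_) i
    rw [Lb.extra_empty] at hx ⊢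
    rw [Finset.card_insert_of_notMem hj, Nat.cast_succ, ← sub_sub]
    exact hw' hP j _ _ hx
  · refine Lb.conc_map (φ := fun x => _ • x) (smul_zero _) (fun x hx => ?_) i
    rw [Lb.extra_empty] at hx ⊢
    exact lab_mono (fun _ => le_rfl) (hw' hb j _ _ hx)
  · rw [← hg, ← Finset.sum_add_distrib]
    refine Finset.sum_congr rfl fun j _ => ?_
    rw [del, neg_mul, mul_assoc, geom_sum₂_mul, map_pow]
    ring

/-- A graded module `P / Q` vanishing in all large degrees gives an acyclic complex. -/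
theorem hl_famM_eq_zero_of_eventually_eq (hP : IsGr ξ P) (hQ : IsGr ξ Q) (hle : ∀ a, Q a ≤ P a)
    (a₀ : ℤ) (h : ∀ a, a₀ ≤ a → P a ≤ Q a) (m i : ℤ) :
    hl (DM ξ) (famM c ∅ P m) (famM c ∅ Q m) i = 0 := by
  refine nonpos_iff_eq_zero.1 ((hl_tot_le (isTotPair_famK isH0_empty hP hQ fun _ => hle _) i).trans
    (Finset.sum_eq_zero fun ε _ => ?_).le)
  obtain ⟨g, hg, hw⟩ := exists_sum_eTau_pow (T := T) (H := H) c ε 1
  simp only [pow_one, Nat.cast_one] at hg hw
  have step : ∀ {P P' : ℤ → Submodule T H}, (∀ a j, ∀ x ∈ P a, ξ j * x ∈ P' (a + 1)) → ∀ m,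
      ∀ x ∈ lab c ε ∅ P m, (∑ j, g j * algebraMap H (LR H n) (ξ j)) * x ∈ lab c ε ∅ P' m := by
    intro P P' h m x hx
    rw [Finset.sum_mul]
    refine Submodule.sum_mem _ fun j _ => ?_
    have := hw P' j _ _ (Lb.lab_algebraMap (fun a => h a j) hx)
    rwa [← mul_assoc, add_neg_cancel_right] at this
  refine hl_kos_eq_zero_of_sum (g := fun j => -g j) (ν := ∑ j, g j * algebraMap H (LR H n) (ξ j))
    (Lb.isTotPair_K hP hQ (fun _ => hle _) ε) (fun j S i hj => ?_) (fun j S i hj => ?_) ?_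
    (fun S i x hx => ?_) (fun S i => ?_) _
  · refine Lb.conc_map (φ := fun x => _ • x) (smul_zero _) (fun x hx => ?_) i
    rw [Lb.extra_empty] at hx ⊢
    rw [Finset.card_insert_of_notMem hj, Nat.cast_succ, ← sub_sub]
    exact (hw P j).neg _ _ hx
  · refine Lb.conc_map (φ := fun x => _ • x) (smul_zero _) (fun x hx => ?_) i
    rw [Lb.extra_empty] at hx ⊢
    rw [Finset.card_insert_of_notMem hj, Nat.cast_succ, ← sub_sub]
    exact (hw Q j).neg _ _ hx
  · rw [← hg, ← Finset.sum_sub_distrib]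
    refine Finset.sum_congr rfl fun j _ => ?_
    rw [del]
    ring
  · unfold conc at hx ⊢
    split_ifs at hx ⊢
    swap
    · exact ⟨0, by simpa using hx⟩
    rw [Lb.extra_empty] at hx ⊢
    obtain ⟨t, ht⟩ := (x.coeff.support.image fun γ => m - S.card - γ.2).bddBelow
    have key : ∀ k : ℕ, (∑ j, g j * algebraMap H (LR H n) (ξ j)) ^ k * x ∈
        lab c ε ∅ (fun a => if t + k ≤ a then P a else Q a) (m - S.card) := by
      intro k
      induction k with
      | zero =>
        rw [pow_zero, one_mul]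
        refine fun γ => ⟨(hx γ).1, fun h1 h2 => ?_⟩
        by_cases h0 : x.coeff γ = 0
        · rw [h0]
          exact zero_mem _
        · have := ht (Finset.mem_coe.2 (Finset.mem_image_of_mem _ (Finsupp.mem_support_iff.2 h0)))
          beta_reduce
          rw [if_pos (by simpa using this)]
          exact (hx γ).2 h1 h2
      | succ k ih =>
        rw [pow_succ', mul_assoc]
        refine step (fun a j y hy => ?_) _ _ ih
        by_cases e : t + k ≤ a
        · rw [if_pos e] at hy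
          rw [if_pos (by push_cast; omega)]
          exact hP a j y hy
        · rw [if_neg e] at hy
          rw [if_neg (by push_cast; omega)]
          exact hQ a j y hy
    refine ⟨(a₀ - t).toNat, lab_mono (fun s => ?_) (key _)⟩
    split_ifs with e
    · exact h _ (by omega)
    · exact le_rfl
  · refine Lb.conc_map (φ := fun x => _ • x) (smul_zero _) (fun x hx => ?_) i
    rw [Lb.extra_empty] at hx ⊢
    exact step hQ _ _ hx
end Pairs

end Vale.Agent.P202
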