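import Vale.Agent.P202.GeoDev

/-! Module M2f: the main inequality for short complexes in characteristic `p`. -/

namespace Vale.Agent.P202

open Submodule IsLocalRing Filter Topology

variable {T : Type*} [CommRing T] [IsLocalRing T] [IsNoetherianRing T] {n : ℕ}
  {ι : Type*} [Fintype ι] [DecidableEq ι]

/-- The Euler characteristic of the matrix complex `D` with coefficients in the ideal `I`. -/
noncomputable def chiMat (D : Matrix ι ι T) (deg : ι → ℤ) (I : Ideal T) : ℤ :=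
  eul (tot D deg (0 : T →ₗ[T] T)) (totFam deg fun _ => conc (I : Submodule T T))
    (totFam deg fun _ => conc (⊥ : Submodule T T))

/-- The differential of `D` tensor the geometric complex. -/
noncomputable def DG (x : Fin (n + 1) → T) (D : Matrix ι ι T) (deg : ι → ℤ) :
    (ι → VM T n) →ₗ[LR T n] (ι → VM T n) :=
  tot (D.map (algebraMap T (LR T n))) deg (DM x)

/-- The family of `D` tensor the geometric complex with level `m a` at the vertex `a`. -/
noncomputable def famG (c : Fin n → ℤ) (deg : ι → ℤ) (P : ℤ → Submodule T T) (m : ι → ℤ) :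
    ℤ → Submodule T (ι → VM T n) :=
  totFam deg fun a => famM c ∅ P (m a)

/-- Standing hypotheses on the complex. -/
structure IsShort (x : Fin (n + 1) → T) (D : Matrix ι ι T) (deg : ι → ℤ) (N : ℕ) : Prop where
  red : IsReduction x
  mc : IsMC D deg
  beta : ∑ a, sgn (deg a) = 0
  null : ∀ j, ∃ H : Matrix ι ι T, IsHomog H deg (-1) ∧ D * H + H * D = x j ^ N • (1 : Matrix ι ι T)

/-! ### Step 1: bounds for the homology of the twisted complex -/

section Aux
omit [IsNoetherianRing T] [DecidableEq ι]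

omit [IsLocalRing T] [Fintype ι] in
theorem isHomog_map {B : Type*} [CommRing B] (f : T →+* B) {D : Matrix ι ι T} {deg : ι → ℤ} {k : ℤ}
    (h : IsHomog D deg k) : IsHomog (D.map f) deg k := fun a b hab =>
  h a b fun h0 => hab (by simp [h0])

omit [IsLocalRing T] [Fintype ι] in
theorem compat_famM {D : Matrix ι ι T} {c : Fin n → ℤ} {E : Set (Γ n)} {P : ℤ → Submodule T T}
    {m : ι → ℤ} (hc : ∀ a b, D a b ≠ 0 → ∀ k, ∀ y ∈ P k, D a b * y ∈ P (k + (m a - m b))) :
    Compat (D.map (algebraMap T (LR T n))) fun a => famM c E P (m a) := by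
  intro a b j v hv
  by_cases h0 : D a b = 0
  · simp [h0]
  · simpa using smul_mem_famM (hc a b h0) (m b) j v hv

omit [IsLocalRing T] [Fintype ι] in
theorem compat_famM_const (D : Matrix ι ι T) (c : Fin n → ℤ) (E : Set (Γ n))
    (P : ℤ → Submodule T T) (m : ℤ) :
    Compat (D.map (algebraMap T (LR T n))) fun _ => famM c E P m :=
  compat_famM (m := fun _ => m) fun _ _ _ k y hy => by
    simpa using Ideal.mul_mem_left (P k) _ hy

omit [IsLocalRing T] in
theorem smul_mem_famM_zero {c : Fin n → ℤ} {E : Set (Γ n)} {P : ℤ → Submodule T T} (g : T)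
    {m i : ℤ} {v : VM T n} (hv : v ∈ famM c E P m i) :
    algebraMap T (LR T n) g • v ∈ famM c E P m i := by
  simpa using smul_mem_famM (g := g) (w := 0) (P := P)
    (fun k y hy => by simpa using Ideal.mul_mem_left (P k) _ hy) m i v hv

omit [IsLocalRing T] in
theorem isTotPair_map {D : Matrix ι ι T} {deg : ι → ℤ} (hD : IsMC D deg) {M : Type*}
    [AddCommGroup M] [Module (LR T n) M] [Module T M] [IsScalarTower T (LR T n) M]
    {d : M →ₗ[LR T n] M} (hd : ∀ v, d (d v) = 0) {L L' : ι → ℤ → Submodule T M}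
    (hp : ∀ a, IsPair d (L a) (L' a)) (h1 : Compat (D.map (algebraMap T (LR T n))) L)
    (h2 : Compat (D.map (algebraMap T (LR T n))) L') :
    IsTotPair (D.map (algebraMap T (LR T n))) deg d L L' :=
  ⟨isHomog_map _ hD.homog, fun a b v => by rw [← Matrix.map_mul, hD.sq]; simp, hd, hp, h1, h2⟩

omit [IsLocalRing T] in
theorem isTotPair_const {x : Fin (n + 1) → T} {D : Matrix ι ι T} {deg : ι → ℤ} (hD : IsMC D deg)
    {c : Fin n → ℤ} {E : Set (Γ n)} (hE : IsH0 c E) {P Q : ℤ → Submodule T T} (hP : IsGr x P)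
    (hQ : IsGr x Q) {m m' : ℤ} (h : ∀ s, Q (m' - s) ≤ P (m - s)) :
    IsTotPair (D.map (algebraMap T (LR T n))) deg (DM x) (fun _ => famM c E P m)
      (fun _ => famM c E Q m') :=
  isTotPair_map hD DM_sq (fun _ => isPair_famM hE hP hQ h) (compat_famM_const _ _ _ _ _)
    (compat_famM_const _ _ _ _ _)

theorem isGr_mPow' {x : Fin (n + 1) → T} (hx : IsReduction x) : IsGr x (mPow T) := by
  simpa using isGr_mPow hx.1 0

theorem isPair_famM_mPow {x : Fin (n + 1) → T} (hx : IsReduction x) (c : Fin n → ℤ) {m m' : ℤ}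
    (h : m ≤ m') : IsPair (DM x) (famM c ∅ (mPow T) m) (famM c ∅ (mPow T) m') :=
  isPair_famM isH0_empty (isGr_mPow' hx) (isGr_mPow' hx) fun _ => mPow_anti (by omega)

theorem isPair_famM_bot {x : Fin (n + 1) → T} (hx : IsReduction x) (c : Fin n → ℤ) (m : ℤ) :
    IsPair (DM x) (famM c ∅ (mPow T) m) (famM c ∅ (fun _ => ⊥) 0) :=
  isPair_famM isH0_empty (isGr_mPow' hx) (isGr_bot x) fun _ => bot_le

theorem compat_twist {D : Matrix ι ι T} {deg : ι → ℤ} (hD : IsMC D deg) (q : ℕ)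
    (hq : ∀ a b, D a b ∈ maximalIdeal T ^ q) (c : Fin n → ℤ) (m : ℤ) :
    Compat (D.map (algebraMap T (LR T n))) fun a => famM c ∅ (mPow T) (m - q * deg a) :=
  compat_famM (m := fun a => m - q * deg a) fun a b h0 k y hy => by
    have h1 := mul_mem_mPow (hq a b) hy
    rwa [hD.homog a b h0, show m - q * deg a - (m - q * (deg a + 1)) = q by ring]

end Aux

/-- The twisted complex is a complex if the entries of `D` lie in `𝔪 ^ q`. -/
theorem isPair_famG {x : Fin (n + 1) → T} {D : Matrix ι ι T} {deg : ι → ℤ} {N : ℕ}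
    (h : IsShort x D deg N) (q : ℕ) (hq : ∀ a b, D a b ∈ maximalIdeal T ^ q) (c : Fin n → ℤ)
    (m : ℤ) : IsPair (DG x D deg) (famG c deg (mPow T) fun a => m - q * deg a)
      (famG c deg (fun _ => ⊥) fun _ => 0) :=
  (isTotPair_map h.mc DM_sq (fun _ => isPair_famM_bot h.red c _) (compat_twist h.mc q hq c m)
    (compat_famM_const _ _ _ _ _)).isPair

/-- Notation for the graded pieces. -/
noncomputable def hE (x : Fin (n + 1) → T) (c : Fin n → ℤ) (m i : ℤ) : ℕ∞ :=
  hl (DM x) (famM c ∅ (mPow T) m) (famM c ∅ (mPow T) (m + 1)) i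

omit [IsNoetherianRing T] in
theorem hl_famM_chain_le {x : Fin (n + 1) → T} (hx : IsReduction x) (c : Fin n → ℤ) (m : ℤ)
    (k : ℕ) (i : ℤ) : hl (DM x) (famM c ∅ (mPow T) m) (famM c ∅ (mPow T) (m + k)) i ≤
      ∑ t ∈ Finset.range k, hE x c (m + t) i := by
  have := hl_chain_le (d := DM x) (fun t : ℕ => famM c ∅ (mPow T) (m + t)) k
    (fun t _ => isPair_famM_mPow hx c (by omega)) i
  simpa only [hE, Nat.cast_zero, add_zero, Nat.cast_add, Nat.cast_one, add_assoc] using this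

/-- The Koszul complex on the `x_j ^ N` of the geometric complex. -/
noncomputable def DKP (x : Fin (n + 1) → T) (N : ℕ) :
    (Finset (Fin (n + 1)) → VM T n) →ₗ[LR T n] (Finset (Fin (n + 1)) → VM T n) :=
  tot (kos fun j => algebraMap T (LR T n) (x j ^ N)) kdeg (DM x)

section KP
omit [IsNoetherianRing T]

theorem isTotPair_DKP {x : Fin (n + 1) → T} (hx : IsReduction x) (N : ℕ) (c : Fin n → ℤ)
    {m m' : Finset (Fin (n + 1)) → ℤ} (hle : ∀ S, m S ≤ m' S)
    (h1 : ∀ j S, j ∉ S → m S ≤ m (insert j S) + N)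
    (h2 : ∀ j S, j ∉ S → m' S ≤ m' (insert j S) + N) :
    IsTotPair (kos fun j => algebraMap T (LR T n) (x j ^ N)) kdeg (DM x)
      (fun S => famM c ∅ (mPow T) (m S)) (fun S => famM c ∅ (mPow T) (m' S)) := by
  have key : ∀ (j : Fin (n + 1)) (a b i : ℤ), a ≤ b + N → ∀ v ∈ famM c ∅ (mPow T) b i,
      algebraMap T (LR T n) (x j ^ N) • v ∈ famM c ∅ (mPow T) a i := fun j a b i hab v hv =>
    famM_mono (fun s => mPow_anti (by omega)) i (smul_mem_famM (w := N)
      (fun k y hy => mul_mem_mPow (Ideal.pow_mem_pow (hx.1 j) N) hy) b i v hv)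
  exact isTotPair_kos DM_sq (fun S => isPair_famM_mPow hx c (hle S))
    (fun j S i hj => key j _ _ i (h1 j S hj)) (fun j S i hj => key j _ _ i (h2 j S hj))

theorem isTotPair_DKP_bot {x : Fin (n + 1) → T} (hx : IsReduction x) (N : ℕ) (c : Fin n → ℤ)
    {m : Finset (Fin (n + 1)) → ℤ} (h1 : ∀ j S, j ∉ S → m S ≤ m (insert j S) + N) :
    IsTotPair (kos fun j => algebraMap T (LR T n) (x j ^ N)) kdeg (DM x)
      (fun S => famM c ∅ (mPow T) (m S)) (fun _ => famM c ∅ (fun _ => ⊥) 0) :=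
  isTotPair_kos DM_sq (fun _ => isPair_famM_bot hx c _)
    (fun j S i hj v hv => famM_mono (fun s => mPow_anti (by have := h1 j S hj; omega)) i
      (smul_mem_famM (w := N)
        (fun k y hy => mul_mem_mPow (Ideal.pow_mem_pow (hx.1 j) N) hy) _ i v hv))
    (fun _ _ _ _ _ hv => smul_mem_famM_zero _ hv)

theorem hl_DKP_low {x : Fin (n + 1) → T} (hx : IsReduction x) (N : ℕ) (c : Fin n → ℤ) (m i : ℤ) :
    hl (DKP x N) (totFam kdeg fun _ => famM c ∅ (mPow T) m)
      (totFam kdeg fun _ => famM c ∅ (fun _ => ⊥) 0) i ≤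
    ∑ S : Finset (Fin (n + 1)), ∑ t ∈ Finset.range (N * (n + 1 - S.card)),
      hE x c (m + t) (i - S.card) := by
  have hc : ∀ S : Finset (Fin (n + 1)), S.card ≤ n + 1 := fun S => by
    simpa using S.card_le_univ
  have hg : ∀ j (S : Finset (Fin (n + 1))), j ∉ S → m + N * (n + 1) - N * (S.card : ℤ) ≤
      m + N * (n + 1) - N * ((insert j S).card : ℤ) + N := fun j S hj => by
    rw [Finset.card_insert_of_notMem hj]; push_cast; linarith
  have h1 := isTotPair_DKP hx N c (m := fun _ => m)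
    (m' := fun S => m + N * (n + 1) - N * S.card) (fun S => by
      have : (S.card : ℤ) ≤ n + 1 := by exact_mod_cast hc S
      nlinarith [Int.natCast_nonneg N]) (fun _ _ _ => by omega) hg
  have h2 := isTotPair_DKP_bot hx N c (m := fun S => m + N * (n + 1) - N * S.card) hg
  refine (hl_le_add h1.isPair h2.isPair i).trans ?_
  rw [hl_kosPow_eq_zero (isGr_mPow' hx), add_zero]
  refine (hl_tot_le h1 i).trans (Finset.sum_le_sum fun S _ => ?_)
  have := hl_famM_chain_le hx c m (N * (n + 1 - S.card)) (i - S.card)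
  rwa [Nat.cast_mul, Nat.cast_sub (hc S), mul_sub, ← add_sub_assoc] at this

theorem hl_DKP_high {x : Fin (n + 1) → T} (hx : IsReduction x) (N : ℕ) (c : Fin n → ℤ) (m i : ℤ) :
    hl (DKP x N) (totFam kdeg fun _ => famM c ∅ (mPow T) m)
      (totFam kdeg fun _ => famM c ∅ (fun _ => ⊥) 0) i ≤
    ∑ S : Finset (Fin (n + 1)), ∑ t ∈ Finset.range (N * S.card),
      hE x c (m - N * S.card + t) (i + 1 - S.card) := by
  have hg : ∀ j (S : Finset (Fin (n + 1))), j ∉ S → m - N * (S.card : ℤ) ≤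
      m - N * ((insert j S).card : ℤ) + N := fun j S hj => by
    rw [Finset.card_insert_of_notMem hj]; push_cast; linarith
  have h1 := isTotPair_DKP hx N c (m := fun S => m - N * S.card) (m' := fun _ => m)
    (fun S => by nlinarith [Int.natCast_nonneg N, Int.natCast_nonneg S.card]) hg
    (fun _ _ _ => by omega)
  have h2 := isTotPair_DKP_bot hx N c (m := fun _ => m) (fun _ _ _ => by omega)
  refine (hl_sub_le h1.isPair h2.isPair i).trans ?_
  rw [hl_kosPow_eq_zero (isGr_mPow' hx), zero_add]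
  refine (hl_tot_le h1 (i + 1)).trans (Finset.sum_le_sum fun S _ => ?_)
  have := hl_famM_chain_le hx c (m - N * S.card) (N * S.card) (i + 1 - S.card)
  rwa [Nat.cast_mul, sub_add_cancel] at this

end KP

theorem hl_famG_le_DKP {x : Fin (n + 1) → T} {D : Matrix ι ι T} {deg : ι → ℤ} {N : ℕ}
    (h : IsShort x D deg N) (q : ℕ) (hq : ∀ a b, D a b ∈ maximalIdeal T ^ q) (c : Fin n → ℤ)
    (m i : ℤ) : ∀ j ∈ ({i, i + (n + 1)} : Set ℤ),
    hl (DG x D deg) (famG c deg (mPow T) fun a => m - q * deg a)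
      (famG c deg (fun _ => ⊥) fun _ => 0) i ≤
    ∑ a, hl (DKP x N) (totFam kdeg fun _ => famM c ∅ (mPow T) (m - q * deg a))
      (totFam kdeg fun _ => famM c ∅ (fun _ => ⊥) 0) (j - deg a) := by
  choose H hH hH' using h.null
  have hA := isPair_famG h q hq c m
  have hb : ∀ (P : ℤ → Submodule T T) (μ : ι → ℤ) (j : Fin (n + 1)) i, ∀ v ∈ famG c deg P μ i,
      algebraMap T (LR T n) (x j ^ N) • v ∈ famG c deg P μ i := fun P μ j i v hv =>
    mem_totFam.mpr fun a => smul_mem_famM_zero _ (mem_totFam.mp hv a)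
  have h1 := hl_le_hl_kos (b := fun j => algebraMap T (LR T n) (x j ^ N)) hA (hb _ _) (hb _ _)
    (fun j => matAct ((H j).map (algebraMap T (LR T n))))
    (fun j i v hv => by
      have := matAct_mem_totFam (isHomog_map (algebraMap T (LR T n)) (hH j))
        (compat_famM (c := c) (E := ∅) (P := mPow T) (m := fun a => m - q * deg a)
          fun a b h0 k y hy => by
            rw [hH j a b h0]
            exact mPow_anti (by nlinarith [Int.natCast_nonneg q])
              (Ideal.mul_mem_left (mPow T k) _ hy)) i v hv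
      rwa [sub_neg_eq_add] at this)
    (fun j i v hv => by
      have := matAct_mem_totFam (isHomog_map (algebraMap T (LR T n)) (hH j))
        (compat_famM_const _ c ∅ (fun _ => ⊥) 0) i v hv
      rwa [sub_neg_eq_add] at this)
    (fun j v => by
      rw [DG, tot_matAct_homotopy (isHomog_map _ (hH j)), ← Matrix.map_mul, ← Matrix.map_mul,
        ← Matrix.map_add _ (map_add _), hH', ← matAct_smul_one]
      congr 2
      ext a b : 2
      by_cases hab : a = b <;> simp [hab]) i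
  have h2 := hl_tot_swap (isMC_kos fun j => algebraMap T (LR T n) (x j ^ N)).homog
    (isHomog_map (algebraMap T (LR T n)) h.mc.homog) (d := DM x)
    (L := fun _ a => famM c ∅ (mPow T) (m - q * deg a))
    (L' := fun _ _ => famM c ∅ (fun _ => ⊥) 0)
    (isTotPair_kos hA.dd (fun _ => hA) (fun j _ i _ => hb _ _ j i)
      (fun j _ i _ => hb _ _ j i)).isPair
  have h3 := hl_tot_le (isTotPair_map (d := DKP x N) h.mc (tot_sq (isMC_kos _) DM_sq)
    (L := fun a => totFam kdeg fun _ => famM c ∅ (mPow T) (m - q * deg a))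
    (L' := fun _ => totFam kdeg fun _ => famM c ∅ (fun _ => ⊥) 0)
    (fun a => (isTotPair_DKP_bot h.red N c (m := fun _ => m - q * deg a)
      (fun _ _ _ => by omega)).isPair)
    (fun a b j v hv => mem_totFam.mpr fun S =>
      compat_twist h.mc q hq c m a b _ _ (mem_totFam.mp hv S))
    (fun a b j v hv => mem_totFam.mpr fun S =>
      compat_famM_const D c ∅ _ 0 a b _ _ (mem_totFam.mp hv S)))
  rintro j (rfl | rfl)
  · exact (h1.1.trans (h2.2 _).le).trans (h3 _)
  · rw [Fintype.card_fin] at h1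
    exact (h1.2.trans (h2.2 _).le).trans (h3 _)

theorem hl_famG_le_low {x : Fin (n + 1) → T} {D : Matrix ι ι T} {deg : ι → ℤ} {N : ℕ}
    (h : IsShort x D deg N) (q : ℕ) (hq : ∀ a b, D a b ∈ maximalIdeal T ^ q) (c : Fin n → ℤ)
    (m i : ℤ) : hl (DG x D deg) (famG c deg (mPow T) fun a => m - q * deg a)
      (famG c deg (fun _ => ⊥) fun _ => 0) i ≤
    ∑ a, ∑ S : Finset (Fin (n + 1)), ∑ t ∈ Finset.range (N * (n + 1 - S.card)),
      hE x c (m - q * deg a + t) (i - deg a - S.card) :=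
  (hl_famG_le_DKP h q hq c m i i (by simp)).trans
    (Finset.sum_le_sum fun _ _ => hl_DKP_low h.red N c _ _)

theorem hl_famG_le_high {x : Fin (n + 1) → T} {D : Matrix ι ι T} {deg : ι → ℤ} {N : ℕ}
    (h : IsShort x D deg N) (q : ℕ) (hq : ∀ a b, D a b ∈ maximalIdeal T ^ q) (c : Fin n → ℤ)
    (m i : ℤ) : hl (DG x D deg) (famG c deg (mPow T) fun a => m - q * deg a)
      (famG c deg (fun _ => ⊥) fun _ => 0) i ≤
    ∑ a, ∑ S : Finset (Fin (n + 1)), ∑ t ∈ Finset.range (N * S.card),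
      hE x c (m - q * deg a - N * S.card + t) (i + (n + 1) - deg a + 1 - S.card) :=
  (hl_famG_le_DKP h q hq c m i (i + (n + 1)) (by simp)).trans
    (Finset.sum_le_sum fun _ _ => hl_DKP_high h.red N c _ _)

theorem finH_hE {x : Fin (n + 1) → T} (hx : IsReduction x) (c : Fin n → ℤ) (m : ℤ) :
    FinH (DM x) (famM c ∅ (mPow T) m) (famM c ∅ (mPow T) (m + 1)) := by
  obtain ⟨e, he⟩ := exists_cyc (maximalIdeal T) (isFG_gr hx)
  obtain ⟨K, hK⟩ := he.estimate (isGr_mPow hx.1 1) fun a r hr y hy => by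
    simpa using mul_mem_mPow (k := 1) (by simpa using hr) hy
  have := (hK c m (∑ l, ((c l + m).natAbs + 1)) fun l =>
    Finset.single_le_sum (f := fun l => (c l + m).natAbs + 1) (fun _ _ => Nat.zero_le _)
      (Finset.mem_univ l)).1
  rwa [famM_shift] at this

theorem finH_famG {x : Fin (n + 1) → T} {D : Matrix ι ι T} {deg : ι → ℤ} {N : ℕ}
    (h : IsShort x D deg N) (q : ℕ) (hq : ∀ a b, D a b ∈ maximalIdeal T ^ q) (c : Fin n → ℤ)
    (m : ℤ) : FinH (DG x D deg) (famG c deg (mPow T) fun a => m - q * deg a)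
      (famG c deg (fun _ => ⊥) fun _ => 0) := by
  refine ⟨fun i => ne_top_of_le_ne_top ?_ (hl_famG_le_low h q hq c m i), ?_⟩
  · refine ENat.sum_ne_top.mpr fun a _ => ENat.sum_ne_top.mpr fun S _ =>
      ENat.sum_ne_top.mpr fun t _ => (finH_hE h.red c _).ne_top _
  · refine (Set.finite_iUnion fun a => Set.finite_Icc (deg a) (deg a + (2 * n + 1))).subset
      fun i hi => ?_
    by_contra hi'
    refine hi (le_antisymm ((hl_le_rl _ _ _ _).trans (rl_eq_zero_iff.mpr fun v hv => ?_).le)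
      zero_le)
    have : v = 0 := funext fun a => by
      have h1 := mem_totFam.mp hv a
      rwa [famM_eq_bot_of_lt_or_gt, Submodule.mem_bot] at h1
      simp only [Set.mem_iUnion, Set.mem_Icc, not_exists, not_and_or, not_le] at hi'
      have := hi' a
      omega
    rw [this]
    exact zero_mem _

/-! ### Step 2: the Euler characteristic of the untwisted complex -/

/-- `ψ(c, m)`. -/
noncomputable def psi (x : Fin (n + 1) → T) (D : Matrix ι ι T) (deg : ι → ℤ) (c : Fin n → ℤ)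
    (m : ℤ) : ℤ :=
  eul (DG x D deg) (famG c deg (mPow T) fun _ => m) (famG c deg (fun _ => ⊥) fun _ => 0)

theorem isPair_psi {x : Fin (n + 1) → T} {D : Matrix ι ι T} {deg : ι → ℤ} {N : ℕ}
    (h : IsShort x D deg N) (c : Fin n → ℤ) (m : ℤ) :
    IsPair (DG x D deg) (famG c deg (mPow T) fun _ => m) (famG c deg (fun _ => ⊥) fun _ => 0) := by
  simpa using isPair_famG h 0 (by simp) c m

theorem finH_psi {x : Fin (n + 1) → T} {D : Matrix ι ι T} {deg : ι → ℤ} {N : ℕ}
    (h : IsShort x D deg N) (c : Fin n → ℤ) (m : ℤ) :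
    FinH (DG x D deg) (famG c deg (mPow T) fun _ => m) (famG c deg (fun _ => ⊥) fun _ => 0) := by
  simpa using finH_famG h 0 (by simp) c m

theorem psi_succ {x : Fin (n + 1) → T} {D : Matrix ι ι T} {deg : ι → ℤ} {N : ℕ}
    (h : IsShort x D deg N) (c : Fin n → ℤ) (m : ℤ) : psi x D deg c (m + 1) = psi x D deg c m := by
  have h1 := isTotPair_const (c := c) h.mc isH0_empty (isGr_mPow' h.red) (isGr_mPow' h.red)
    (m := m) (m' := m + 1) fun _ => mPow_anti (by omega)
  have h2 := eul_add h1.isPair (isPair_psi h c (m + 1)) (finH_tot h1 fun _ => finH_hE h.red c m)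
    (finH_psi h c (m + 1))
  rw [eul_tot h1 fun _ => finH_hE h.red c m, ← Finset.sum_mul, h.beta, zero_mul, zero_add] at h2
  exact h2.symm

theorem psi_level {x : Fin (n + 1) → T} {D : Matrix ι ι T} {deg : ι → ℤ} {N : ℕ}
    (h : IsShort x D deg N) (c : Fin n → ℤ) (m m' : ℤ) : psi x D deg c m = psi x D deg c m' := by
  have key : ∀ k : ℤ, psi x D deg c k = psi x D deg c 0 := fun k => by
    induction k using Int.induction_on with
    | zero => rfl
    | succ i ih => rw [psi_succ h, ih]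
    | pred i ih => rw [← ih, ← psi_succ h, sub_add_cancel]
  rw [key m, key m']

section FamL
omit [IsLocalRing T] [IsNoetherianRing T] [DecidableEq ι]

/-- The family with the same labels `L ε S` at every vertex of the matrix complex. -/
noncomputable def famL (deg : ι → ℤ)
    (L : Finset (Fin n) → Finset (Fin (n + 1)) → Submodule T (LR T n)) :
    ℤ → Submodule T (ι → VM T n) :=
  totFam deg fun _ => totFam kdeg fun ε => totFam kdeg fun S => conc (L ε S)

omit [Fintype ι] in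
theorem mem_conc {M : Type*} [AddCommGroup M] [Module T M] {L : Submodule T M} {i : ℤ} {v : M} :
    v ∈ conc L i ↔ v ∈ L ∧ (i ≠ 0 → v = 0) := by
  unfold conc
  split_ifs with h
  · simp [h]
  · simp only [Submodule.mem_bot, ne_eq, h, not_false_eq_true, forall_const, iff_and_self]
    rintro rfl
    exact zero_mem _

theorem mem_famL {deg : ι → ℤ} {L : Finset (Fin n) → Finset (Fin (n + 1)) → Submodule T (LR T n)}
    {i : ℤ} {v : ι → VM T n} : v ∈ famL deg L i ↔ ∀ a ε S, v a ε S ∈ L ε S ∧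
      (i - deg a - ε.card - S.card ≠ 0 → v a ε S = 0) := by
  simp only [famL, mem_totFam, mem_conc, kdeg]

theorem famL_inf (deg : ι → ℤ)
    (L L' : Finset (Fin n) → Finset (Fin (n + 1)) → Submodule T (LR T n)) :
    (famL deg fun ε S => L ε S ⊓ L' ε S) = fun i => famL deg L i ⊓ famL deg L' i := by
  funext i
  ext v
  simp only [mem_famL, mem_inf]
  exact ⟨fun h => ⟨fun a ε S => ⟨(h a ε S).1.1, (h a ε S).2⟩, fun a ε S =>
    ⟨(h a ε S).1.2, (h a ε S).2⟩⟩, fun h a ε S =>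
      ⟨⟨(h.1 a ε S).1, (h.2 a ε S).1⟩, (h.1 a ε S).2⟩⟩

theorem famL_mono {deg : ι → ℤ}
    {L L' : Finset (Fin n) → Finset (Fin (n + 1)) → Submodule T (LR T n)}
    (h : ∀ ε S, L ε S ≤ L' ε S) (i : ℤ) : famL deg L i ≤ famL deg L' i := fun _ hv =>
  mem_famL.mpr fun a ε S => ⟨h ε S (mem_famL.mp hv a ε S).1, (mem_famL.mp hv a ε S).2⟩

theorem pairIso_famL {deg : ι → ℤ} (d : (ι → VM T n) →ₗ[LR T n] (ι → VM T n))
    {L L' C C' : Finset (Fin n) → Finset (Fin (n + 1)) → Submodule T (LR T n)}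
    (φ : (ι → VM T n) →ₗ[T] (ι → VM T n)) (hφ : ∀ v, φ (d v) = d (φ v))
    (b : Finset (Fin n) → LR T n → LR T n) (hb : ∀ v a ε S, φ v a ε S = b ε (v a ε S))
    (h0 : ∀ ε, b ε 0 = 0) (h1 : ∀ ε S, ∀ y ∈ L ε S, b ε y ∈ C ε S)
    (h2 : ∀ ε S, ∀ y ∈ L' ε S, b ε y ∈ C' ε S)
    (h3 : ∀ ε S, ∀ y ∈ C ε S, ∃ z ∈ L ε S, y - b ε z ∈ C' ε S)
    (h4 : ∀ ε S, ∀ y ∈ L ε S, b ε y ∈ C' ε S → y ∈ L' ε S) :
    PairIso d (famL deg L) (famL deg L') d (famL deg C) (famL deg C') φ 1 0 := by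
  refine ⟨fun i v hv => ?_, fun i v hv => ?_, fun i y hy => ?_, fun i v hv hv' => ?_,
    fun i v _ => ?_⟩
  · rw [add_zero, mem_famL]
    intro a ε S
    have := mem_famL.mp hv a ε S
    rw [hb]
    exact ⟨h1 _ _ _ this.1, fun h => by rw [this.2 h, h0]⟩
  · rw [add_zero, mem_famL]
    intro a ε S
    have := mem_famL.mp hv a ε S
    rw [hb]
    exact ⟨h2 _ _ _ this.1, fun h => by rw [this.2 h, h0]⟩
  · rw [add_zero] at hy ⊢
    have key : ∀ a ε S, ∃ z, (z ∈ L ε S ∧ (i - deg a - ε.card - S.card ≠ 0 → z = 0)) ∧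
        y a ε S - b ε z ∈ C' ε S := fun a ε S => by
      have := mem_famL.mp hy a ε S
      by_cases h : i - deg a - ε.card - S.card = 0
      · obtain ⟨z, hz, hz'⟩ := h3 _ _ _ this.1
        exact ⟨z, ⟨hz, fun h' => absurd h h'⟩, hz'⟩
      · exact ⟨0, ⟨zero_mem _, fun _ => rfl⟩, by rw [this.2 h, h0, sub_zero]; exact zero_mem _⟩
    choose z hz hz' using key
    refine ⟨z, mem_famL.mpr hz, mem_famL.mpr fun a ε S => ?_⟩
    simp only [Pi.sub_apply, hb]
    exact ⟨hz' a ε S, fun h => by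
      rw [(mem_famL.mp hy a ε S).2 h, (hz a ε S).2 h, h0, sub_zero]⟩
  · rw [add_zero] at hv'
    refine mem_famL.mpr fun a ε S => ?_
    have := mem_famL.mp hv a ε S
    exact ⟨h4 _ _ _ this.1 (hb v a ε S ▸ (mem_famL.mp hv' a ε S).1), this.2⟩
  · rw [hφ, one_smul, sub_self]
    exact zero_mem _

omit [Fintype ι] in
theorem IsFam.inf {B M : Type*} [CommRing B] [AddCommGroup M] [Module B M] [Module T M]
    {d : M →ₗ[B] M} {A A' : ℤ → Submodule T M} (h : IsFam d A) (h' : IsFam d A') :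
    IsFam d fun i => A i ⊓ A' i := fun i v hv => ⟨h i v hv.1, h' i v hv.2⟩

/-- The labels of `famM`. -/
noncomputable def labs (c : Fin n → ℤ) (E : Set (Γ n)) (P : ℤ → Submodule T T) (m : ℤ)
    (ε : Finset (Fin n)) (S : Finset (Fin (n + 1))) : Submodule T (LR T n) :=
  lab c ε (extra E ε S) P (m - S.card)

omit [Fintype ι] in
theorem famL_labs (deg : ι → ℤ) (c : Fin n → ℤ) (E : Set (Γ n)) (P : ℤ → Submodule T T) (m : ℤ) :
    famL deg (labs c E P m) = totFam deg fun _ => famM c E P m := rfl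

theorem labs_empty (c : Fin n → ℤ) (P : ℤ → Submodule T T) (m : ℤ) (ε : Finset (Fin n))
    (S : Finset (Fin (n + 1))) : labs c ∅ P m ε S = lab c ε ∅ P (m - S.card) := by
  simp [labs, extra]

theorem lab_le_lab {c c' : Fin n → ℤ} {ε : Finset (Fin n)} {E E' : Set (Γ n)}
    {P : ℤ → Submodule T T} {m : ℤ} (hc : ∀ l, c l ≤ c' l) (hE : E ⊆ E') :
    lab c ε E P m ≤ lab c' ε E' P m := fun _ hf γ =>
  ⟨(hf γ).1, fun h h' => (hf γ).2 (fun ⟨l, h1, h2⟩ => h ⟨l, h1, by linarith [hc l]⟩)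
    fun h'' => h' (hE h'')⟩

theorem lab_split (c c' : Fin n → ℤ) (ε : Finset (Fin n)) (E E' : Set (Γ n))
    (P : ℤ → Submodule T T) (m m' : ℤ) : ∀ y ∈ lab c' ε E' P m, ∃ z ∈ lab c ε E P m,
      y - z ∈ lab c' ε E' (fun _ => (⊥ : Submodule T T)) m' := by
  classical
  intro y hy
  refine ⟨.ofCoeff (y.coeff.filter fun γ => ¬ IsDeadAt c' ε γ ∧ γ ∉ E'), fun γ => ⟨fun h => ?_,
    fun _ _ => ?_⟩, fun γ => ⟨fun h => ?_, fun h h' => ?_⟩⟩
  · simp [Finsupp.filter_apply, (hy γ).1 h]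
  · simp only [Finsupp.filter_apply]
    split_ifs with h
    · exact (hy γ).2 h.1 h.2
    · exact zero_mem _
  · simp [Finsupp.filter_apply, (hy γ).1 h]
  · simp [h, h']

theorem extra_mono {E E' : Set (Γ n)} (h : E ⊆ E') (ε : Finset (Fin n))
    (S : Finset (Fin (n + 1))) : extra E ε S ⊆ extra E' ε S := by
  unfold extra
  split_ifs
  exacts [h, le_rfl]

/-- Enlarging the set of dead monomials. -/
theorem eul_enlarge {x : Fin (n + 1) → T} {D : Matrix ι ι T} {deg : ι → ℤ} (hD : IsMC D deg)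
    {c c' : Fin n → ℤ} {E E' : Set (Γ n)} (hE : IsH0 c E) (hE' : IsH0 c' E')
    {P : ℤ → Submodule T T} (hP : IsGr x P) (m : ℤ) (hc : ∀ l, c l ≤ c' l) (hEE : E ⊆ E')
    (f : FinH (DG x D deg) (famL deg (labs c E P m)) (famL deg (labs c E (fun _ => ⊥) 0)))
    (f' : FinH (DG x D deg) (famL deg (labs c' E' P m)) (famL deg (labs c' E' (fun _ => ⊥) 0))) :
    IsPair (DG x D deg) (famL deg fun ε S => labs c E P m ε S ⊓ labs c' E' (fun _ => ⊥) 0 ε S)
      (famL deg (labs c E (fun _ => ⊥) 0)) ∧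
    eul (DG x D deg) (famL deg (labs c E P m)) (famL deg (labs c E (fun _ => ⊥) 0)) =
      eul (DG x D deg) (famL deg (labs c' E' P m)) (famL deg (labs c' E' (fun _ => ⊥) 0)) +
      eul (DG x D deg) (famL deg fun ε S => labs c E P m ε S ⊓ labs c' E' (fun _ => ⊥) 0 ε S)
        (famL deg (labs c E (fun _ => ⊥) 0)) := by
  have p : IsPair (DG x D deg) (famL deg (labs c E P m)) (famL deg (labs c E (fun _ => ⊥) 0)) :=
    (isTotPair_const hD hE hP (isGr_bot x) fun _ => bot_le).isPair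
  have p' : IsPair (DG x D deg) (famL deg (labs c' E' P m))
      (famL deg (labs c' E' (fun _ => ⊥) 0)) :=
    (isTotPair_const hD hE' hP (isGr_bot x) fun _ => bot_le).isPair
  have hf : IsFam (DG x D deg)
      (famL deg fun ε S => labs c E P m ε S ⊓ labs c' E' (fun _ => ⊥) 0 ε S) := by
    rw [famL_inf]
    exact p.top.inf p'.bot
  have p1 : IsPair (DG x D deg) (famL deg (labs c E P m))
      (famL deg fun ε S => labs c E P m ε S ⊓ labs c' E' (fun _ => ⊥) 0 ε S) :=
    ⟨p.dd, p.top, hf, famL_mono fun _ _ => inf_le_left⟩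
  have p2 : IsPair (DG x D deg)
      (famL deg fun ε S => labs c E P m ε S ⊓ labs c' E' (fun _ => ⊥) 0 ε S)
      (famL deg (labs c E (fun _ => ⊥) 0)) :=
    ⟨p.dd, hf, p.bot, famL_mono fun ε S => le_inf (lab_mono fun _ => bot_le)
      (lab_le_lab hc (extra_mono hEE ε S))⟩
  have iso := pairIso_famL (deg := deg) (DG x D deg) (L := labs c E P m)
    (L' := fun ε S => labs c E P m ε S ⊓ labs c' E' (fun _ => ⊥) 0 ε S) (C := labs c' E' P m)
    (C' := labs c' E' (fun _ => ⊥) 0) LinearMap.id (fun _ => rfl) (fun _ y => y)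
    (fun _ _ _ _ => rfl) (fun _ => rfl)
    (fun ε S _ hy => lab_le_lab hc (extra_mono hEE ε S) hy) (fun _ _ _ hy => hy.2)
    (fun ε S => lab_split _ _ _ _ _ _ _ _) (fun _ _ _ hy hy' => ⟨hy, hy'⟩)
  have f1 := (iso.finH_iff p1 p').mpr f'
  refine ⟨p2, ?_⟩
  rw [eul_add p1 p2 f1 (FinH.sub p1 p2 f f1), iso.eul_eq p1 p', sgn_zero, one_mul]

theorem mon_mul_mem_lab {c : Fin n → ℤ} {ε : Finset (Fin n)} {P : ℤ → Submodule T T} {m : ℤ}
    {u : Fin n → ℤ} (hu : ∀ l ∈ ε, u l = 0) {y : LR T n} (hy : y ∈ lab c ε ∅ P m) :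
    mon T u 0 * y ∈ lab (c + u) ε ∅ P m := by
  intro γ
  rw [mon, AddMonoidAlgebra.coeff_single_mul_apply, one_mul]
  refine ⟨fun ⟨l, h1, h2⟩ => (hy _).1 ⟨l, h1, by simpa [hu l h1] using h2⟩, fun h _ => ?_⟩
  have := (hy (-(u, 0) + γ)).2 (fun ⟨l, h1, h2⟩ => h ⟨l, h1, by
    simp only [Prod.neg_mk, Prod.fst_add, Pi.add_apply, Pi.neg_apply, neg_zero, Prod.snd_add,
      zero_add] at h2 ⊢
    linarith⟩) (by simp)
  simpa using this

theorem mon_neg_mul (u : Fin n → ℤ) (y : LR T n) : mon T (-u) 0 * (mon T u 0 * y) = y := by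
  rw [← mul_assoc, mon, mon, AddMonoidAlgebra.single_mul_single]
  simp only [Prod.mk_add_mk, neg_add_cancel, add_zero, mul_one]
  exact one_mul y

theorem lab_add_single {c : Fin n → ℤ} {ε : Finset (Fin n)} {P : ℤ → Submodule T T} {m : ℤ}
    {l : Fin n} (hl : l ∈ ε) (k : ℤ) : lab (c + Pi.single l k) ε ∅ P m = lab c ε ∅ P m := by
  have : ∀ γ, IsDeadAt (c + Pi.single l k) ε γ ↔ IsDeadAt c ε γ := fun γ =>
    exists_congr fun l' => and_congr_right fun h => by
      rw [Pi.add_apply, Pi.single_eq_of_ne (fun (e : l' = l) => h (e ▸ hl)), add_zero]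
  ext y
  simp only [mem_lab, this]

end FamL

theorem psi_affine {x : Fin (n + 1) → T} {D : Matrix ι ι T} {deg : ι → ℤ} {N : ℕ}
    (h : IsShort x D deg N) (c : Fin n → ℤ) (m : ℤ) (l : Fin n) :
    psi x D deg (c + Pi.single l 2) m - psi x D deg (c + Pi.single l 1) m =
      psi x D deg (c + Pi.single l 1) m - psi x D deg c m := by
  have hc : ∀ (c : Fin n → ℤ) l', c l' ≤ (c + Pi.single l 1 : Fin n → ℤ) l' := fun c l' => by
    rw [Pi.add_apply, Pi.single_apply]
    split_ifs <;> omega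
  have e2 : c + Pi.single l 2 = c + Pi.single l 1 + Pi.single l 1 := by
    rw [add_assoc, ← Pi.single_add]; rfl
  have key := fun c : Fin n → ℤ => eul_enlarge h.mc isH0_empty isH0_empty (isGr_mPow' h.red) m
    (hc c) le_rfl (finH_psi h c m) (finH_psi h _ m)
  have k1 := key c
  have k2 := key (c + Pi.single l 1)
  have hu : ∀ ε : Finset (Fin n), l ∉ ε → ∀ l' ∈ ε, (Pi.single l 1 : Fin n → ℤ) l' = 0 :=
    fun ε hl l' hl' => Pi.single_eq_of_ne (fun (e : l' = l) => hl (e ▸ hl')) _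
  have hu' : ∀ ε : Finset (Fin n), l ∉ ε → ∀ l' ∈ ε, (-Pi.single l 1 : Fin n → ℤ) l' = 0 :=
    fun ε hl l' hl' => by rw [Pi.neg_apply, hu ε hl l' hl', neg_zero]
  have hw : ∀ (c : Fin n → ℤ) (ε : Finset (Fin n)) (P : ℤ → Submodule T T) (m : ℤ),
      ∀ y ∈ lab c ε ∅ P m, mon T (Pi.single l 1) 0 * y ∈ lab (c + Pi.single l 1) ε ∅ P m := by
    intro c ε P m y hy
    by_cases hl : l ∈ ε
    · rw [lab_add_single hl]
      have := isWt_mon (H := T) (c := c) (ε := ε) (P := P) (a := Pi.single l 1) (s := 0)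
        (fun l' _ => by rw [Pi.single_apply]; split_ifs <;> omega)
        (fun l' h' => by rw [Pi.single_eq_of_ne (fun (e : l' = l) => h' (e ▸ hl))]) m y hy
      rwa [add_zero] at this
    · exact mon_mul_mem_lab (hu ε hl) hy
  have hw' : ∀ (c : Fin n → ℤ) (ε : Finset (Fin n)) (P : ℤ → Submodule T T) (m : ℤ), l ∉ ε →
      ∀ y ∈ lab (c + Pi.single l 1) ε ∅ P m, mon T (-Pi.single l 1) 0 * y ∈ lab c ε ∅ P m := by
    intro c ε P m hl y hy
    simpa using mon_mul_mem_lab (hu' ε hl) hy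
  have iso := pairIso_famL (deg := deg) (DG x D deg)
    (L := fun ε S => labs c ∅ (mPow T) m ε S ⊓ labs (c + Pi.single l 1) ∅ (fun _ => ⊥) 0 ε S)
    (L' := labs c ∅ (fun _ => ⊥) 0)
    (C := fun ε S => labs (c + Pi.single l 1) ∅ (mPow T) m ε S ⊓
      labs (c + Pi.single l 1 + Pi.single l 1) ∅ (fun _ => ⊥) 0 ε S)
    (C' := labs (c + Pi.single l 1) ∅ (fun _ => ⊥) 0)
    ((LinearMap.lsmul (LR T n) _ (mon T (Pi.single l 1) 0)).restrictScalars T)
    (fun v => by simp) (fun _ y => mon T (Pi.single l 1) 0 * y) (fun _ _ _ _ => rfl)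
    (fun _ => mul_zero _)
    (fun ε S y hy => by
      simp only [labs_empty] at hy ⊢
      exact ⟨hw _ _ _ _ _ hy.1, hw _ _ _ _ _ hy.2⟩)
    (fun ε S y hy => by
      simp only [labs_empty] at hy ⊢
      exact hw _ _ _ _ _ hy)
    (fun ε S y hy => by
      simp only [labs_empty] at hy ⊢
      by_cases hl : l ∈ ε
      · refine ⟨0, zero_mem _, ?_⟩
        have := hy.2
        rw [lab_add_single hl] at this
        simpa using this
      · refine ⟨_, ⟨hw' _ _ _ _ hl _ hy.1, hw' _ _ _ _ hl _ hy.2⟩, ?_⟩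
        have := mon_neg_mul (-Pi.single l 1) y
        rw [neg_neg] at this
        rw [this, sub_self]
        exact zero_mem _)
    (fun ε S y hy hy' => by
      simp only [labs_empty] at hy hy' ⊢
      by_cases hl : l ∈ ε
      · have := hy.2
        rwa [lab_add_single hl] at this
      · have := hw' _ _ _ _ hl _ hy'
        rwa [mon_neg_mul] at this)
  have k3 := iso.eul_eq k1.1 k2.1
  rw [sgn_zero, one_mul] at k3
  have k4 := k1.2
  have k5 := k2.2
  rw [e2]
  change psi x D deg c m = psi x D deg (c + Pi.single l 1) m + _ at k4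
  change psi x D deg (c + Pi.single l 1) m =
    psi x D deg (c + Pi.single l 1 + Pi.single l 1) m + _ at k5
  linarith

omit [IsLocalRing T] [IsNoetherianRing T] [DecidableEq ι] in
theorem isTotPair_conc {D : Matrix ι ι T} {deg : ι → ℤ} (hD : IsMC D deg) {I I' : Ideal T}
    (h : I' ≤ I) : IsTotPair D deg (0 : T →ₗ[T] T) (fun _ => conc (I : Submodule T T))
      (fun _ => conc (I' : Submodule T T)) :=
  ⟨hD.homog, fun a b v => by rw [hD.sq]; simp, fun _ => rfl,
    fun _ => ⟨fun _ => rfl, isFam_conc _, isFam_conc _, fun i v hv =>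
      mem_conc.mpr ⟨h (mem_conc.mp hv).1, (mem_conc.mp hv).2⟩⟩,
    fun _ _ _ _ hv => smul_mem _ _ hv, fun _ _ _ _ hv => smul_mem _ _ hv⟩

omit [DecidableEq ι] in
theorem rl_ne_top_of_pow_smul {x : Fin (n + 1) → T} (hx : IsReduction x) {N : ℕ}
    {P Q : Submodule T (ι → T)} (h : ∀ j, ∀ v ∈ P, x j ^ N • v ∈ Q) : rl P Q ≠ ⊤ := by
  obtain ⟨J, hJ⟩ : ∃ J : Ideal T, ∀ r, r ∈ J ↔ ∀ v ∈ P, r • v ∈ Q :=
    ⟨Q.colon P, fun _ => mem_colon⟩
  obtain ⟨r, hr⟩ := hx.2
  have h2 : Ideal.span (Set.range x) ≤ J.radical := Ideal.span_le.mpr (by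
    rintro _ ⟨j, rfl⟩
    exact ⟨N, (hJ _).mpr (h j)⟩)
  have h3 : maximalIdeal T ^ (r + 1) ≤ J.radical := hr.trans (Ideal.mul_le_left.trans h2)
  have h1 : maximalIdeal T ≤ J.radical := fun t ht =>
    Ideal.mem_radical_of_pow_mem (h3 (Ideal.pow_mem_pow ht (r + 1)))
  obtain ⟨M, hM⟩ := Ideal.exists_pow_le_of_le_radical_of_fg h1 (IsNoetherian.noetherian _)
  exact IsSopP.rl_ne_top ⟨by simp, M, fun t ht => ⟨0, zero_mem _, fun v hv => by
    rw [sub_zero]; exact (hJ _).mp (hM ht) v hv⟩⟩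

theorem finH_conc_bot {x : Fin (n + 1) → T} {D : Matrix ι ι T} {deg : ι → ℤ} {N : ℕ}
    (h : IsShort x D deg N) (I : Ideal T) :
    FinH (tot D deg (0 : T →ₗ[T] T)) (totFam deg fun _ => conc (I : Submodule T T))
      (totFam deg fun _ => conc (⊥ : Submodule T T)) := by
  refine ⟨fun i => rl_ne_top_of_pow_smul h.red (N := N) fun j v hv => ?_,
    (Set.finite_range deg).subset fun i hi => ?_⟩
  · obtain ⟨H, hH, hH'⟩ := h.null j
    obtain ⟨h1, h2⟩ := mem_cyc.mp hv
    have h3 : tot D deg (0 : T →ₗ[T] T) v = 0 := funext fun a =>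
      (Submodule.mem_bot T).mp (mem_conc.mp (mem_totFam.mp h2 a)).1
    have h4 := tot_matAct_homotopy (D := D) hH (0 : T →ₗ[T] T) v
    rw [h3, map_zero, add_zero, hH', matAct_smul_one] at h4
    have h5 := matAct_mem_totFam hH (L := fun _ => conc (I : Submodule T T))
      (fun _ _ _ _ hv => smul_mem _ _ hv) i v h1
    rw [sub_neg_eq_add] at h5
    exact mem_bdy.mpr ⟨_, h5, by rw [h4, sub_self]; exact zero_mem _⟩
  · by_contra hi'
    refine hi (le_antisymm ((hl_le_rl _ _ _ _).trans (rl_eq_zero_iff.mpr fun v hv => ?_).le)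
      zero_le)
    have : v = 0 := funext fun a =>
      (mem_conc.mp (mem_totFam.mp hv a)).2 fun h0 => hi' ⟨a, by omega⟩
    rw [this]
    exact zero_mem _

theorem finH_chiMat {x : Fin (n + 1) → T} {D : Matrix ι ι T} {deg : ι → ℤ} {N : ℕ}
    (h : IsShort x D deg N) (k : ℕ) :
    FinH (tot D deg (0 : T →ₗ[T] T))
      (totFam deg fun _ => conc ((maximalIdeal T ^ k : Ideal T) : Submodule T T))
      (totFam deg fun _ => conc (⊥ : Submodule T T)) ∧
    chiMat D deg (maximalIdeal T ^ k) = chiMat D deg ⊤ := by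
  refine ⟨finH_conc_bot h _, ?_⟩
  have h1 := isTotPair_conc h.mc (le_top : maximalIdeal T ^ k ≤ ⊤)
  have h2 := isTotPair_conc h.mc (bot_le : ⊥ ≤ maximalIdeal T ^ k)
  have f : FinH (0 : T →ₗ[T] T) (conc ((⊤ : Ideal T) : Submodule T T))
      (conc ((maximalIdeal T ^ k : Ideal T) : Submodule T T)) := by
    refine ⟨fun i => ?_, (Set.finite_singleton 0).subset fun i hi => ?_⟩
    · rw [hl_conc]
      split_ifs
      · exact IsSopP.rl_ne_top ⟨by simp, k, fun t ht => ⟨0, zero_mem _, fun y _ => by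
          rw [sub_zero, smul_eq_mul]; exact Ideal.mul_mem_right _ _ ht⟩⟩
      · simp
    · by_contra h0
      exact hi (by rw [hl_conc, if_neg (show ¬ i = 0 from h0)])
  have h3 := eul_add h1.isPair h2.isPair (finH_tot h1 fun _ => f) (finH_conc_bot h _)
  rw [eul_tot h1 fun _ => f, ← Finset.sum_mul, h.beta, zero_mul, zero_add] at h3
  exact h3.symm

omit [IsLocalRing T] [IsNoetherianRing T] in
theorem DM_special {x : Fin (n + 1) → T} {w : VM T n}
    (hw : ∀ S, S ≠ ∅ → w Finset.univ S = 0) : DM x w Finset.univ ∅ = 0 := by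
  have h1 : DK x (w Finset.univ) ∅ = 0 := by
    rw [DK, tot_apply, ← matAct_apply, matAct_kos_apply]
    simp only [LinearMap.zero_apply, smul_zero, add_zero]
    exact Finset.sum_eq_zero fun j _ => by rw [hw _ (Finset.insert_ne_empty _ _)]; simp
  rw [DM, tot_apply, ← matAct_apply, matAct_kos_apply]
  simp [h1]

omit [IsLocalRing T] [IsNoetherianRing T] [DecidableEq ι] in
theorem pairIso_h0 {x : Fin (n + 1) → T} (D : Matrix ι ι T) (deg : ι → ℤ) (c₀ : Fin n → ℤ)
    (hc₀ : ∀ l, 0 ≤ c₀ l) (s m : ℤ) (P : ℤ → Submodule T T) :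
    ∃ φ : (ι → VM T n) →ₗ[T] (boxSet c₀ → ι → T), PairIso (DG x D deg)
      (famL deg fun ε S => labs (fun l => c₀ l + s) ∅ P m ε S ⊓
        labs (fun l => c₀ l + s) (h0Set (fun l => c₀ l + s) (-s)) (fun _ => ⊥) 0 ε S)
      (famL deg (labs (fun l => c₀ l + s) ∅ (fun _ => ⊥) 0))
      (tot (0 : Matrix (boxSet c₀) (boxSet c₀) T) (fun _ => 0) (tot D deg (0 : T →ₗ[T] T)))
      (totFam (fun _ => 0) fun _ => totFam deg fun _ => conc (P (m + s)))
      (totFam (fun _ => 0) fun _ => totFam deg fun _ => conc (⊥ : Submodule T T)) φ 1 (-n) := by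
  classical
  have hE : ∀ γ : Γ n, γ ∈ h0Set (fun l => c₀ l + s) (-s) ↔ γ.1 ∈ boxSet c₀ ∧ γ.2 = -s := by
    intro γ
    simp [h0Set, boxSet, hc₀, and_comm]
  have hnd : ∀ γ : Γ n, ¬ IsDeadAt (fun l => c₀ l + s) Finset.univ γ :=
    fun γ ⟨l, h, _⟩ => h (Finset.mem_univ l)
  have hz : ∀ (μ : ℤ) (y : LR T n),
      y ∈ lab (fun l => c₀ l + s) Finset.univ ∅ (fun _ => (⊥ : Submodule T T)) μ → y = 0 :=
    fun μ y hy => by
      ext γ
      simpa using (hy γ).2 (hnd γ) (by simp)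
  let φ : (ι → VM T n) →ₗ[T] (boxSet c₀ → ι → T) :=
    { toFun := fun v b a => (v a Finset.univ ∅).coeff (b.1, -s)
      map_add' := fun v w => by ext b a; simp
      map_smul' := fun r v => by ext b a; simp }
  have hφ : ∀ v b a, φ v b a = (v a Finset.univ ∅).coeff (b.1, -s) := fun _ _ _ => rfl
  have hdeg : ∀ (i : ℤ) a, i + -n - 0 - deg a ≠ 0 ↔
      i - deg a - (Finset.univ : Finset (Fin n)).card - (∅ : Finset (Fin (n + 1))).card ≠ 0 := by
    intro i a
    simp only [Finset.card_univ, Fintype.card_fin, Finset.card_empty, Nat.cast_zero]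
    omega
  refine ⟨φ, fun i v hv => ?_, fun i v hv => ?_, fun i y hy => ?_, fun i v hv hv' => ?_,
    fun i v hv => ?_⟩
  · simp only [mem_totFam, mem_conc, hφ, hdeg]
    intro b a
    have := mem_famL.mp hv a Finset.univ ∅
    refine ⟨?_, fun h => by simp [this.2 h]⟩
    have h1 := this.1.1
    rw [labs_empty] at h1
    simpa using (h1 (b.1, -s)).2 (hnd _) (by simp)
  · simp only [mem_totFam, mem_conc, hφ]
    intro b a
    have h1 := (mem_famL.mp hv a Finset.univ ∅).1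
    rw [labs_empty] at h1
    simp [hz _ _ h1]
  · simp only [mem_totFam, mem_conc, hdeg] at hy
    let z : ι → LR T n := fun a => ∑ b : boxSet c₀, AddMonoidAlgebra.single (b.1, -s) (y b a)
    have hz1 : ∀ a (b : boxSet c₀), (z a).coeff (b.1, -s) = y b a := by
      intro a b
      simp only [z, AddMonoidAlgebra.coeff_sum, AddMonoidAlgebra.coeff_single,
        Finsupp.finsetSum_apply]
      rw [Finset.sum_eq_single b]
      · simp
      · intro b' _ hb'
        exact Finsupp.single_eq_of_ne fun e => hb' (Subtype.ext (Prod.ext_iff.mp e).1).symm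
      · simp
    have hz2 : ∀ a γ, γ ∉ h0Set (fun l => c₀ l + s) (-s) → (z a).coeff γ = 0 := by
      intro a γ hγ
      simp only [z, AddMonoidAlgebra.coeff_sum, AddMonoidAlgebra.coeff_single,
        Finsupp.finsetSum_apply]
      exact Finset.sum_eq_zero fun b _ => Finsupp.single_eq_of_ne fun e =>
        hγ ((hE γ).mpr (by rw [e]; exact ⟨b.2, rfl⟩))
    have hz3 : ∀ a γ, IsZeroAt Finset.univ γ → (z a).coeff γ = 0 := fun a γ ⟨l, _, h⟩ =>
      hz2 a γ fun h' => absurd (h'.2 l).1 (not_le.mpr h)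
    refine ⟨fun a ε S => if ε = Finset.univ ∧ S = ∅ then z a else 0,
      mem_famL.mpr fun a ε S => ?_, ?_⟩
    · split_ifs with h
      · obtain ⟨rfl, rfl⟩ := h
        refine ⟨⟨fun γ => ⟨hz3 a γ, fun _ _ => ?_⟩, fun γ => ⟨hz3 a γ, fun _ h => ?_⟩⟩,
          fun h => ?_⟩
        · by_cases hγ : γ ∈ h0Set (fun l => c₀ l + s) (-s)
          · obtain ⟨h1, h2⟩ := (hE γ).mp hγ
            have h3 := hz1 a ⟨γ.1, h1⟩
            rw [← h2] at h3
            rw [h3, h2]
            simpa using (hy ⟨γ.1, h1⟩ a).1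
          · rw [hz2 a γ hγ]
            exact zero_mem _
        · rw [hz2 a γ (by simpa [extra] using h)]
          exact zero_mem _
        · exact Finset.sum_eq_zero fun b _ => by rw [(hy b a).2 h]; simp
      · exact ⟨zero_mem _, fun _ => rfl⟩
    · simp only [mem_totFam, mem_conc]
      intro b a
      simp [hφ, hz1]
  · simp only [mem_totFam, mem_conc, hφ] at hv'
    refine mem_famL.mpr fun a ε S => ?_
    have := mem_famL.mp hv a ε S
    refine ⟨fun γ => ⟨(this.1.2 γ).1, fun h _ => ?_⟩, this.2⟩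
    by_cases hγ : γ ∈ extra (h0Set (fun l => c₀ l + s) (-s)) ε S
    · unfold extra at hγ
      split_ifs at hγ with h'
      · obtain ⟨rfl, rfl⟩ := h'
        obtain ⟨h1, h2⟩ := (hE γ).mp hγ
        have h3 := (hv' ⟨γ.1, h1⟩ a).1
        rwa [← h2] at h3
      · simp at hγ
    · exact (this.1.2 γ).2 h hγ
  · have h1 : ∀ a, DM x (v a) Finset.univ ∅ = 0 := fun a => DM_special fun S hS => by
      have := (mem_famL.mp hv a Finset.univ S).1.2
      rw [labs, extra, if_neg fun h => hS h.2] at this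
      exact hz _ _ this
    have h2 : φ (DG x D deg v) = tot (0 : Matrix (boxSet c₀) (boxSet c₀) T) (fun _ => 0)
        (tot D deg (0 : T →ₗ[T] T)) (φ v) := by
      funext b a
      simp [hφ, DG, tot_apply, h1, sgn_zero, AddMonoidAlgebra.coeff_single_mul_apply]
    rw [h2, one_smul, sub_self]
    exact zero_mem _

theorem psi_perm {x : Fin (n + 1) → T} {D : Matrix ι ι T} {deg : ι → ℤ} {N : ℕ}
    (h : IsShort x D deg N) (σ : Equiv.Perm (Fin n)) (s m : ℤ) :
    psi x D deg (fun l => ((σ l : ℕ) : ℤ) + s) m = (-1) ^ n * n.factorial * chiMat D deg ⊤ := by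
  obtain ⟨m₀, hm₀⟩ := (isFG_rees h.red).serre (isGr_bot x) σ s
  set c : Fin n → ℤ := fun l => ((σ l : ℕ) : ℤ) + s with hc
  obtain ⟨μ, hμ, hμ'⟩ : ∃ μ : ℤ, m₀ ≤ μ ∧ 0 ≤ μ + s := ⟨max m₀ (-s), le_max_left _ _, by omega⟩
  rw [psi_level h c m μ]
  have hP := isGr_mPowPos h.red.1
  have hle : ∀ a, mPowPos T a ≤ mPow T a := fun a => by
    unfold mPowPos
    split_ifs
    exacts [le_rfl, bot_le]
  have t1 := isTotPair_const (c := c) h.mc isH0_empty (isGr_mPow' h.red) hP (m := μ) (m' := μ)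
    fun _ => hle _
  have t2 := isTotPair_const (c := c) h.mc isH0_empty hP (isGr_bot x) (m := μ) (m' := 0)
    fun _ => bot_le
  have t3 := isTotPair_const (c := c) h.mc (isH0_h0Set (-s)) hP (isGr_bot x) (m := μ) (m' := 0)
    fun _ => bot_le
  have z1 := fun i => le_antisymm ((hl_tot_le t1 i).trans (Finset.sum_eq_zero fun a _ =>
    hl_famM_eq_zero_of_eventually_eq (isGr_mPow' h.red) hP hle 0
      (fun a ha => by rw [mPowPos, if_pos ha]; exact le_rfl) μ _).le) zero_le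
  have z3 := fun i => le_antisymm ((hl_tot_le t3 i).trans (Finset.sum_eq_zero fun a _ => by
    rw [famM_bot 0 μ]; exact hm₀ μ hμ _).le) zero_le
  have f1 := finH_of_hl_eq_zero z1
  have f2 := FinH.sub t1.isPair t2.isPair (finH_psi h c μ) f1
  have e1 := eul_add t1.isPair t2.isPair f1 f2
  rw [eul_of_hl_eq_zero z1, zero_add] at e1
  obtain ⟨p, e2⟩ := eul_enlarge h.mc isH0_empty (isH0_h0Set (c := c) (-s)) hP μ
    (fun _ => le_rfl) (Set.empty_subset _) f2 (finH_of_hl_eq_zero z3)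
  obtain ⟨φ, iso⟩ := pairIso_h0 (x := x) D deg (fun l => ((σ l : ℕ) : ℤ))
    (fun _ => Int.natCast_nonneg _) s μ (mPowPos T)
  obtain ⟨f4, e4⟩ := finH_chiMat h (μ + s).toNat
  rw [mPowPos, if_pos hμ'] at iso
  have t5 := (isTotPair_conc h.mc (bot_le : ⊥ ≤ maximalIdeal T ^ (μ + s).toNat)).isPair
  have t4 : IsTotPair (0 : Matrix (boxSet fun l => ((σ l : ℕ) : ℤ))
      (boxSet fun l => ((σ l : ℕ) : ℤ)) T) (fun _ => 0) _ _ _ :=
    ⟨fun _ _ h0 => absurd rfl h0, by simp, t5.dd, fun _ => t5, fun _ _ _ _ _ => by simp,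
      fun _ _ _ _ _ => by simp⟩
  have e3 := iso.eul_eq p t4.isPair
  rw [eul_tot t4 fun _ => f4, Finset.sum_const, Finset.card_univ, Fintype.card_coe,
    card_boxSet_perm, sgn_zero, one_mul, nsmul_eq_mul] at e3
  have e5 : sgn (-(n : ℤ)) = (-1) ^ n := by
    rw [← sgn_natCast, sgn, sgn, Int.negOnePow_neg]
  have e6 := eul_of_hl_eq_zero z3
  rw [← e4, mul_assoc, chiMat, e3, ← mul_assoc, ← e5, sgn_mul_self, one_mul]
  refine e1.trans (e2.trans ?_)
  rw [add_eq_right]
  exact e6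

theorem psi_eq {x : Fin (n + 1) → T} {D : Matrix ι ι T} {deg : ι → ℤ} {N : ℕ}
    (h : IsShort x D deg N) (c : Fin n → ℤ) (m : ℤ) :
    psi x D deg c m = (-1) ^ n * n.factorial * chiMat D deg ⊤ :=
  eq_const_of_multiAffine (fun c => psi x D deg c m) _ (fun c l => psi_affine h c m l)
    (fun σ s => psi_perm h σ s m) c

/-! ### Step 3: the theorem -/

section Step3

omit [IsLocalRing T] [IsNoetherianRing T] in
theorem IsShort.frob [IsLocalRing T] (p : ℕ) [Fact p.Prime] [CharP T p] {x : Fin (n + 1) → T}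
    {D : Matrix ι ι T} {deg : ι → ℤ} {N : ℕ} (h : IsShort x D deg N) (k : ℕ) :
    IsShort x (D.map (iterateFrobenius T p k)) deg (N * p ^ k) := by
  refine ⟨h.red, ⟨?_, isHomog_map _ h.mc.homog⟩, h.beta, fun j => ?_⟩
  · rw [← Matrix.map_mul, h.mc.sq]; simp
  · obtain ⟨H, hH, hH'⟩ := h.null j
    refine ⟨H.map (iterateFrobenius T p k), isHomog_map _ hH, ?_⟩
    rw [← Matrix.map_mul, ← Matrix.map_mul, ← Matrix.map_add _ (map_add _), hH']
    ext a b : 2
    by_cases hab : a = b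
    · simp [hab, iterateFrobenius_def, pow_mul]
    · simp [hab]

theorem posCnt_ge {c : Fin n → ℤ} {a : ℤ} (h : ∀ l : Fin n, a ≤ (l : ℕ) → 0 ≤ c l) :
    (n : ℤ) - a ≤ posCnt c ∨ a < 0 := by
  rcases lt_or_ge a 0 with ha | ha
  · exact Or.inr ha
  left
  have h1 : (Finset.univ.filter fun l : Fin n => ¬ 0 ≤ c l).card ≤ a.toNat := by
    rw [← Finset.card_range a.toNat]
    refine Finset.card_le_card_of_injOn (fun l => (l : ℕ)) (fun l hl => ?_)
      (fun _ _ _ _ h => Fin.ext h)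
    have h2 : ¬ 0 ≤ c l := by simpa using hl
    have h3 : ¬ a ≤ (l : ℕ) := fun h' => h2 (h l h')
    simp only [Finset.coe_range, Set.mem_Iio]
    omega
  have h2 := Finset.card_filter_add_card_filter_not (s := Finset.univ) fun l : Fin n => 0 ≤ c l
  rw [Finset.card_univ, Fintype.card_fin] at h2
  unfold posCnt
  omega

theorem posCnt_le {c : Fin n → ℤ} {a : ℤ} (ha : a ≤ n + 1)
    (h : ∀ l : Fin n, 0 ≤ c l → a ≤ (l : ℕ) + 1) : (posCnt c : ℤ) ≤ n + 1 - a := by
  have h1 : posCnt c ≤ (Finset.Ico (a - 1).toNat n).card := by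
    refine Finset.card_le_card_of_injOn (fun l => (l : ℕ)) (fun l hl => ?_)
      (fun _ _ _ _ h => Fin.ext h)
    have h2 := h l (by simpa using hl)
    have := l.2
    simp only [Finset.coe_Ico, Set.mem_Ico]
    omega
  rw [Nat.card_Ico] at h1
  omega

theorem toNat_le_of_mul_le {u : ℕ∞} {C q B : ℕ} (hC : 0 < C) (hq : 0 < q)
    (h : ((C * q : ℕ) : ℕ∞) * u ≤ ((q * B : ℕ) : ℕ∞)) : u.toNat ≤ B := by
  induction u using ENat.recTopCoe with
  | top => simp
  | coe u =>
    have h1 : C * q * u ≤ q * B := by exact_mod_cast h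
    have h2 : q * u ≤ q * B := le_trans (by nlinarith [Nat.zero_le (q * u)]) h1
    simpa using Nat.le_of_mul_le_mul_left h2 hq

omit [DecidableEq ι] in
theorem sum3_le {f : ι → Finset (Fin (n + 1)) → ℕ → ℕ∞} {r : Finset (Fin (n + 1)) → ℕ} {R M B : ℕ}
    (hr : ∀ S, r S ≤ M) (h : ∀ a S, ∀ t < r S, (R : ℕ∞) * f a S t ≤ B) :
    (R : ℕ∞) * ∑ a, ∑ S, ∑ t ∈ Finset.range (r S), f a S t ≤
      ((Fintype.card ι * (2 ^ (n + 1) * (M * B)) : ℕ) : ℕ∞) := by
  simp only [Finset.mul_sum]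
  have h1 : ∀ a S, ∑ t ∈ Finset.range (r S), (R : ℕ∞) * f a S t ≤ ((M * B : ℕ) : ℕ∞) := by
    intro a S
    refine (Finset.sum_le_card_nsmul _ _ (B : ℕ∞) fun t ht =>
      h a S t (Finset.mem_range.1 ht)).trans ?_
    rw [Finset.card_range, nsmul_eq_mul]
    exact_mod_cast Nat.mul_le_mul_right B (hr S)
  refine (Finset.sum_le_card_nsmul _ _ ((2 ^ (n + 1) * (M * B) : ℕ) : ℕ∞) fun a _ => ?_).trans ?_
  · refine (Finset.sum_le_card_nsmul _ _ _ fun S _ => h1 a S).trans ?_
    simp [Finset.card_univ]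
  · simp [Finset.card_univ]

/-- The estimates for the graded pieces. -/
def GrEst (x : Fin (n + 1) → T) (e K : ℕ) : Prop :=
  ∀ (c : Fin n → ℤ) (m : ℤ) (R : ℕ), (∀ l, (c l + m).natAbs + 1 ≤ R) →
    (∀ i, R * hE x c m i ≤ (R * (e * boxAt (fun l => c l + m) i) + K * R ^ n : ℕ)) ∧
    (R : ℤ) * |eul (DM x) (famM c ∅ (mPow T) m) (famM c ∅ (mPow T) (m + 1)) -
      e * ((-1) ^ n * ∏ l, (c l + m + 1))| ≤ K * (R : ℤ) ^ n

theorem exists_grEst {x : Fin (n + 1) → T} (hx : IsReduction x) :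
    ∃ e K : ℕ, Tendsto (hsSeq T (n + 1)) atTop (𝓝 (e : ℝ)) ∧ GrEst x e K := by
  obtain ⟨e, he⟩ := exists_cyc (maximalIdeal T) (isFG_gr hx)
  obtain ⟨K, hK⟩ := he.estimate (isGr_mPow hx.1 1) fun a r hr y hy => by
    simpa using mul_mem_mPow (k := 1) (by simpa using hr) hy
  refine ⟨e, K, tendsto_hsSeq_of_cyc hx he, fun c m R hR => ?_⟩
  have := (hK c m R hR).2
  rwa [famM_shift] at this

theorem level_le {c : Fin n → ℤ} {q N : ℕ} (hq : 0 < q)
    (hc : ∀ l : Fin n, (((l : ℕ) : ℤ) + 1) * q ≤ c l ∧ c l ≤ (((l : ℕ) : ℤ) + 2) * q) {m : ℤ}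
    (hm : |m| ≤ (n + 1) * (N + 1) * q) (l : Fin n) :
    (c l + m).natAbs + 1 ≤ ((n + 1) * (N + 2) + 1) * q := by
  have h1 := hc l
  have h2 : ((l : ℕ) : ℤ) + 2 ≤ n + 1 := by have := l.2; omega
  have h3 : (1 : ℤ) ≤ q := by exact_mod_cast hq
  have h4 : |c l| ≤ (n + 1) * q := by
    rw [abs_of_nonneg (le_trans (by positivity) h1.1)]
    nlinarith [h1.2]
  have h5 := abs_add_le (c l) m
  zify
  nlinarith

theorem hl_famG_off {x : Fin (n + 1) → T} {D : Matrix ι ι T} {deg : ι → ℤ} {N q e K : ℕ}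
    (h : IsShort x D deg (N * q)) (hq0 : 0 < q) (hq : ∀ a b, D a b ∈ maximalIdeal T ^ q)
    (hdeg : ∀ a, 0 ≤ deg a ∧ deg a ≤ n + 1) (hK : GrEst x e K) {c : Fin n → ℤ}
    (hc : ∀ l : Fin n, (((l : ℕ) : ℤ) + 1) * q ≤ c l ∧ c l ≤ (((l : ℕ) : ℤ) + 2) * q)
    {i : ℤ} (hi : i ≠ n) :
    (hl (DG x D deg) (famG c deg (mPow T) fun a => 0 - q * deg a)
      (famG c deg (fun _ => ⊥) fun _ => 0) i).toNat ≤
      Fintype.card ι * (2 ^ (n + 1) * (N * (n + 1) *
        (K * (((n + 1) * (N + 2) + 1) * q) ^ n))) := by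
  have hq1 : (1 : ℤ) ≤ q := by exact_mod_cast hq0
  have hS : ∀ S : Finset (Fin (n + 1)), S.card ≤ n + 1 := fun S => by
    simpa using S.card_le_univ
  refine toNat_le_of_mul_le (C := (n + 1) * (N + 2) + 1) (by positivity) hq0 ?_
  have e1 : q * (Fintype.card ι * (2 ^ (n + 1) * (N * (n + 1) *
      (K * (((n + 1) * (N + 2) + 1) * q) ^ n)))) = Fintype.card ι * (2 ^ (n + 1) *
        (N * q * (n + 1) * (K * (((n + 1) * (N + 2) + 1) * q) ^ n))) := by ring
  rw [e1]
  rcases lt_or_gt_of_ne hi with hi | hi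
  · refine (mul_le_mul_right (hl_famG_le_low h q hq c 0 i) _).trans
      (sum3_le (fun S => Nat.mul_le_mul_left _ (Nat.sub_le _ _)) fun a S t ht => ?_)
    have h1 : (t : ℤ) ≤ N * q * (n + 1) := by
      exact_mod_cast ht.le.trans (Nat.mul_le_mul_left _ (Nat.sub_le _ _))
    have h2 := hdeg a
    have h3 := (hK c (0 - q * deg a + t) _ (level_le (N := N) hq0 hc (by
      rw [abs_le]
      constructor <;> nlinarith [Int.natCast_nonneg N, Int.natCast_nonneg t,
        Int.natCast_nonneg n, mul_nonneg (Int.natCast_nonneg N) (Int.natCast_nonneg q)]))).1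
      (i - deg a - S.card)
    have h4 := posCnt_ge (c := fun l => c l + (0 - q * deg a + t)) (a := deg a) fun l hl => by
      nlinarith [(hc l).1, Int.natCast_nonneg t]
    rwa [boxAt, if_neg (by omega), mul_zero, mul_zero, zero_add] at h3
  · refine (mul_le_mul_right (hl_famG_le_high h q hq c 0 i) _).trans
      (sum3_le (fun S => Nat.mul_le_mul_left _ (hS S)) fun a S t ht => ?_)
    have h1 : (t : ℤ) < ((N * q : ℕ) : ℤ) * S.card := by exact_mod_cast ht
    have h1' : ((N * q : ℕ) : ℤ) * S.card ≤ N * q * (n + 1) := by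
      exact_mod_cast Nat.mul_le_mul_left _ (hS S)
    have h2 := hdeg a
    have h3 := (hK c (0 - q * deg a - ((N * q : ℕ) : ℤ) * S.card + t) _
      (level_le (N := N) hq0 hc (by
      rw [abs_le]
      constructor <;> nlinarith [Int.natCast_nonneg N, Int.natCast_nonneg t,
        Int.natCast_nonneg n, mul_nonneg (Int.natCast_nonneg N) (Int.natCast_nonneg q)]))).1
      (i + (n + 1) - deg a + 1 - S.card)
    have h4 := posCnt_le (c := fun l => c l + (0 - q * deg a - ((N * q : ℕ) : ℤ) * S.card + t))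
      h2.2 fun l hl => by
        by_contra hlt
        have h5 : ((l : ℕ) : ℤ) + 2 ≤ deg a := by omega
        nlinarith [(hc l).2]
    have h6 := hS S
    rwa [boxAt, if_neg (by omega), mul_zero, mul_zero, zero_add] at h3

omit [IsNoetherianRing T] [DecidableEq ι] in
theorem hl_famG_out {x : Fin (n + 1) → T} {D : Matrix ι ι T} {deg : ι → ℤ}
    (hdeg : ∀ a, 0 ≤ deg a ∧ deg a ≤ n + 1) (c : Fin n → ℤ) (m : ι → ℤ) {i : ℤ}
    (hi : i ∉ Finset.Icc (0 : ℤ) (3 * n + 2)) :
    hl (DG x D deg) (famG c deg (mPow T) m) (famG c deg (fun _ => ⊥) fun _ => 0) i = 0 := by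
  refine le_antisymm ((hl_le_rl _ _ _ _).trans (rl_eq_zero_iff.mpr fun v hv => ?_).le) zero_le
  have : v = 0 := funext fun a => by
    have h1 := mem_totFam.mp hv a
    rwa [famM_eq_bot_of_lt_or_gt, Submodule.mem_bot] at h1
    rw [Finset.mem_Icc] at hi
    have := hdeg a
    omega
  rw [this]
  exact zero_mem _

theorem eul_lower {f : ℤ → ℕ} {s : Finset ℤ} {B : ℕ} (h : ∀ i : ℤ, i ≠ n → f i ≤ B) :
    -((s.card : ℤ) * B) ≤ (-1) ^ n * ∑ i ∈ s, sgn i * (f i : ℤ) := by
  rw [Finset.mul_sum, ← nsmul_eq_mul, ← smul_neg]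
  refine Finset.card_nsmul_le_sum _ _ _ fun i _ => ?_
  by_cases hi : i = n
  · rw [hi, ← sgn_natCast, ← mul_assoc, sgn_mul_self, one_mul]
    omega
  · have h1 : (f i : ℤ) ≤ B := by exact_mod_cast h i hi
    have h2 : (-1 : ℤ) ^ n * sgn i = 1 ∨ (-1 : ℤ) ^ n * sgn i = -1 := by
      rw [← sgn_natCast, ← sgn_add, sgn]
      rcases Int.units_eq_one_or ((n : ℤ) + i).negOnePow with h | h <;> simp [h]
    rw [← mul_assoc]
    rcases h2 with h2 | h2 <;> rw [h2] <;> omega

theorem eul_chain_est {x : Fin (n + 1) → T} (hx : IsReduction x) {N q e K : ℕ} (hq0 : 0 < q)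
    (hK : GrEst x e K) {c : Fin n → ℤ}
    (hc : ∀ l : Fin n, (((l : ℕ) : ℤ) + 1) * q ≤ c l ∧ c l ≤ (((l : ℕ) : ℤ) + 2) * q)
    {a : ℕ} (ha : a ≤ n + 1) :
    FinH (DM x) (famM c ∅ (mPow T) (0 - q * (a : ℤ))) (famM c ∅ (mPow T) 0) ∧
    |eul (DM x) (famM c ∅ (mPow T) (0 - q * (a : ℤ))) (famM c ∅ (mPow T) 0) -
      e * ((-1) ^ n * ∑ s ∈ Finset.range (a * q), ∏ l, (c l - s))| ≤
      (n + 1) * (K * ((((n + 1) * (N + 2) + 1) * q : ℕ) : ℤ) ^ n) := by
  obtain ⟨h1, h2⟩ := finH_eul_chain (d := DM x)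
    (fun k : ℕ => famM c ∅ (mPow T) (0 - q * (a : ℤ) + k)) (a * q)
    (fun k _ => isPair_famM_mPow hx c (by omega))
    (fun k _ => by
      have := finH_hE hx c (0 - q * (a : ℤ) + k)
      simpa only [Nat.cast_add, Nat.cast_one, add_assoc] using this)
  have e0 : (0 - q * (a : ℤ) + ((a * q : ℕ) : ℤ)) = 0 := by push_cast; ring
  simp only [Nat.cast_zero, add_zero, e0] at h1 h2
  refine ⟨h1, ?_⟩
  have hq1 : (1 : ℤ) ≤ q := by exact_mod_cast hq0
  have ha' : (a : ℤ) ≤ n + 1 := by exact_mod_cast ha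
  rw [h2, ← Finset.sum_range_reflect (fun s => ∏ l, (c l - (s : ℕ))), Finset.mul_sum,
    Finset.mul_sum, ← Finset.sum_sub_distrib]
  refine (Finset.abs_sum_le_sum_abs _ _).trans (le_of_mul_le_mul_left ?_ (by omega : (0 : ℤ) < q))
  rw [Finset.mul_sum]
  refine (Finset.sum_le_card_nsmul _ _
    (K * ((((n + 1) * (N + 2) + 1) * q : ℕ) : ℤ) ^ n) fun k hk => ?_).trans ?_
  · have hk' := Finset.mem_range.1 hk
    have hk2 : (k : ℤ) < a * q := by exact_mod_cast hk'
    have h3 := (hK c (0 - q * (a : ℤ) + k) _ (level_le (N := N) hq0 hc (by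
      rw [abs_le]
      constructor <;> nlinarith [Int.natCast_nonneg N, Int.natCast_nonneg k,
        Int.natCast_nonneg n, mul_nonneg (Int.natCast_nonneg N) (Int.natCast_nonneg q),
        mul_nonneg (Int.natCast_nonneg n) (mul_nonneg (Int.natCast_nonneg N)
          (Int.natCast_nonneg q))]))).2
    have e1 : ∀ l, c l - ((a * q - 1 - k : ℕ) : ℤ) = c l + (0 - q * (a : ℤ) + k) + 1 := by
      intro l
      rw [Nat.cast_sub (by omega), Nat.cast_sub (by omega)]
      push_cast; ring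
    simp only [e1, Nat.cast_add, Nat.cast_one, ← add_assoc] at h3 ⊢
    refine le_trans (mul_le_mul_of_nonneg_right ?_ (abs_nonneg _)) h3
    exact_mod_cast Nat.le_mul_of_pos_left q (by positivity)
  · rw [Finset.card_range, nsmul_eq_mul, ← mul_assoc (q : ℤ)]
    refine mul_le_mul_of_nonneg_right ?_ (by positivity)
    push_cast
    nlinarith

theorem main_est {x : Fin (n + 1) → T} {deg : ι → ℤ} (hdeg : ∀ a, 0 ≤ deg a ∧ deg a ≤ n + 1)
    (N : ℕ) {e K : ℕ} (hK : GrEst x e K) : ∃ B : ℤ, ∀ (q : ℕ) (D : Matrix ι ι T),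
      IsShort x D deg (N * q) → 0 < q → (∀ a b, D a b ∈ maximalIdeal T ^ q) →
      ∀ c : Fin n → ℤ,
      (∀ l : Fin n, (((l : ℕ) : ℤ) + 1) * q ≤ c l ∧ c l ≤ (((l : ℕ) : ℤ) + 2) * q) →
      -(∑ a, sgn (deg a) * (e * ∑ s ∈ Finset.range ((deg a).toNat * q), ∏ l, (c l - s))) -
        B * (q : ℤ) ^ n ≤ n.factorial * chiMat D deg ⊤ := by
  refine ⟨(3 * n + 3) * (Fintype.card ι * (2 ^ (n + 1) * (N * (n + 1) *
      (K * ((n + 1) * (N + 2) + 1) ^ n)))) +
      Fintype.card ι * ((n + 1) * (K * ((n + 1) * (N + 2) + 1) ^ n)), fun q D h hq0 hq c hc => ?_⟩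
  have h1 := eul_lower (s := Finset.Icc (0 : ℤ) (3 * n + 2))
    fun i hi => hl_famG_off h hq0 hq hdeg hK hc (i := i) hi
  rw [← eul_eq_sum _ fun i hi => hl_famG_out hdeg c _ hi, Int.card_Icc] at h1
  have h2 := fun a => eul_chain_est h.red (N := N) hq0 hK hc (a := (deg a).toNat)
    (by have := hdeg a; omega)
  simp only [Int.toNat_of_nonneg (hdeg _).1] at h2
  have t1 : IsTotPair (D.map (algebraMap T (LR T n))) deg (DM x)
      (fun a => famM c ∅ (mPow T) (0 - q * deg a)) (fun _ => famM c ∅ (mPow T) 0) :=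
    isTotPair_map h.mc DM_sq (fun a => isPair_famM_mPow h.red c (by
      nlinarith [(hdeg a).1, Int.natCast_nonneg q])) (compat_twist h.mc q hq c 0)
      (compat_famM_const _ _ _ _ _)
  have h3 := eul_add t1.isPair (isPair_psi h c 0) (finH_tot t1 fun a => (h2 a).1) (finH_psi h c 0)
  rw [eul_tot t1 fun a => (h2 a).1] at h3
  have h4 := psi_eq h c 0
  rw [psi] at h4
  change eul (DG x D deg) (famG c deg (mPow T) fun a => 0 - q * deg a) _ =
    _ + eul (DG x D deg) (famG c deg (mPow T) fun _ => 0) _ at h3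
  rw [h3, h4, mul_add ((-1 : ℤ) ^ n), mul_assoc ((-1 : ℤ) ^ n), ← mul_assoc ((-1 : ℤ) ^ n) ((-1 : ℤ) ^ n),
    ← sgn_natCast, sgn_mul_self, one_mul, Finset.mul_sum] at h1
  have h5 : ∀ a, sgn n * (sgn (deg a) * eul (DM x) (famM c ∅ (mPow T) (0 - q * deg a))
      (famM c ∅ (mPow T) 0)) ≤
      sgn (deg a) * (e * ∑ s ∈ Finset.range ((deg a).toNat * q), ∏ l, (c l - s)) +
        (n + 1) * (K * ((((n + 1) * (N + 2) + 1) * q : ℕ) : ℤ) ^ n) := by
    intro a
    have h6 := (h2 a).2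
    rw [← sgn_natCast] at h6
    have h7 : |sgn n * sgn (deg a)| = 1 := by
      rw [← sgn_add, sgn]
      rcases Int.units_eq_one_or ((n : ℤ) + deg a).negOnePow with h | h <;> simp [h]
    rw [← one_mul |_|, ← h7, ← abs_mul] at h6
    have h8 := (le_abs_self _).trans h6
    have h9 := sgn_mul_self (n : ℤ)
    rw [mul_sub] at h8
    have h10 : sgn n * sgn (deg a) * (e * (sgn n *
        ∑ s ∈ Finset.range ((deg a).toNat * q), ∏ l, (c l - s))) =
        (sgn n * sgn n) * (sgn (deg a) * (e *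
          ∑ s ∈ Finset.range ((deg a).toNat * q), ∏ l, (c l - s))) := by ring
    rw [h10, h9, one_mul, h7] at h8
    linarith
  have h6 := Finset.sum_le_sum fun a (_ : a ∈ Finset.univ) => h5 a
  rw [Finset.sum_add_distrib, Finset.sum_const, Finset.card_univ, nsmul_eq_mul] at h6
  have e2 : ((3 * (n : ℤ) + 2 + 1 - 0).toNat : ℤ) = 3 * n + 3 := by omega
  rw [e2] at h1
  push_cast at h1 h6
  rw [mul_pow] at h1 h6
  linarith

end Step3

/-- (MT) Let `D` be a minimal complex of length at most `n + 1` on which powers of a reduction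
`x_0, …, x_n` of the maximal ideal are null-homotopic.  If the Euler characteristic of the `k`-th
Frobenius pull-back is at most `p ^ (k (n + 1)) χ₀` for all `k`, then `e(T) b_0 ≤ χ₀`. -/
theorem main_ineq (p : ℕ) [Fact p.Prime] [CharP T p] {x : Fin (n + 1) → T} {D : Matrix ι ι T}
    {deg : ι → ℤ} {N : ℕ} (h : IsShort x D deg N) (hmin : ∀ a b, D a b ∈ maximalIdeal T)
    (hdeg : ∀ a, 0 ≤ deg a ∧ deg a ≤ n + 1) {e : ℝ} (he : Tendsto (hsSeq T (n + 1)) atTop (𝓝 e))
    (χ₀ : ℤ) (hχ : ∀ k : ℕ, chiMat (D.map (iterateFrobenius T p k)) deg ⊤ ≤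
      ((p : ℤ) ^ k) ^ (n + 1) * χ₀) :
    e * ((Finset.univ.filter fun a => deg a = 0).card : ℝ) ≤ χ₀ := by
  obtain ⟨e0, K, he0, hK⟩ := exists_grEst h.red
  obtain rfl : e = e0 := tendsto_nhds_unique he he0
  obtain ⟨B, hB⟩ := main_est hdeg N hK
  obtain ⟨c, hc, hlim⟩ := exists_twists n
  have hp : 1 < p := (Fact.out : p.Prime).one_lt
  have hq : Tendsto (fun k : ℕ => p ^ k) atTop atTop := tendsto_pow_atTop_atTop_of_one_lt hp
  have h1 : ∀ a, Tendsto (fun q : ℕ => ((∑ s ∈ Finset.range ((deg a).toNat * q),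
      ∏ l, (c q l - s) : ℤ) : ℝ) / (q : ℝ) ^ (n + 1)) atTop
      (𝓝 (if deg a = 0 then 0 else (n.factorial : ℝ))) := by
    intro a
    have := hdeg a
    split_ifs with ha
    · simp [ha]
    · exact hlim _ (by omega) (by omega)
  have h2 : Tendsto (fun q : ℕ => -(∑ a, (sgn (deg a) : ℝ) * (e0 *
      (((∑ s ∈ Finset.range ((deg a).toNat * q), ∏ l, (c q l - s) : ℤ) : ℝ) /
        (q : ℝ) ^ (n + 1)))) - B / (q : ℝ)) atTop
      (𝓝 (-(∑ a, (sgn (deg a) : ℝ) * (e0 * if deg a = 0 then 0 else (n.factorial : ℝ))) - 0)) :=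
    (tendsto_finsetSum _ fun a _ => ((h1 a).const_mul _).const_mul _).neg.sub
      (tendsto_const_div_atTop_nhds_zero_nat _)
  have h3 := le_of_tendsto' (h2.comp hq) (b := (n.factorial : ℝ) * χ₀) fun k => by
    have hq0 : 0 < p ^ k := by positivity
    have h4 := hB (p ^ k) _ (h.frob p k) hq0
      (fun a b => by
        rw [Matrix.map_apply, iterateFrobenius_def]
        exact Ideal.pow_mem_pow (hmin a b) _) (c (p ^ k)) (hc _)
    have h5 := h4.trans (mul_le_mul_of_nonneg_left (hχ k) (Int.natCast_nonneg _))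
    have h6 : (0 : ℝ) < ((p ^ k : ℕ) : ℝ) := by exact_mod_cast hq0
    rw [← Nat.cast_pow p k] at h5
    have h7 := (Int.cast_le (R := ℝ)).2 h5
    simp only [Function.comp_apply]
    generalize p ^ k = q at h6 h7 ⊢
    rw [← mul_le_mul_iff_of_pos_right (pow_pos h6 (n + 1)), sub_mul, neg_mul, Finset.sum_mul]
    simp only [mul_assoc, div_mul_cancel₀ _ (pow_pos h6 (n + 1)).ne']
    have h8 : (B : ℝ) / q * (q : ℝ) ^ (n + 1) = B * (q : ℝ) ^ n := by
      field_simp
      ring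
    rw [h8]
    push_cast at h7 ⊢
    linarith
  have h4 : (∑ a, (sgn (deg a) : ℝ)) = 0 := by exact_mod_cast h.beta
  have h5 : ∀ a, (sgn (deg a) : ℝ) * (e0 * if deg a = 0 then 0 else (n.factorial : ℝ)) =
      (sgn (deg a) : ℝ) * (e0 * n.factorial) -
        (if deg a = 0 then 1 else 0) * (e0 * n.factorial) := by
    intro a
    split_ifs with ha
    · simp [ha, sgn_zero]
    · simp
  simp only [h5, Finset.sum_sub_distrib, ← Finset.sum_mul, h4, Finset.sum_boole] at h3
  have h6 : (0 : ℝ) < n.factorial := by exact_mod_cast n.factorial_pos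
  refine le_of_mul_le_mul_left ?_ h6
  linarith

end Vale.Agent.P202
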