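import Mathlib

/-! Generation of the bounded monomials by elementary symmetric polynomials. -/

namespace Vale.Agent.P202

open Submodule

section Abstract

variable (T : Type*) {A ι : Type*} [CommRing T] [CommRing A] [Algebra T A] [DecidableEq ι]
  (z : ι → A) (r : ι → ℕ)

/-- Elementary symmetric polynomial of the `z l`, `l ∈ s`. -/
def symE (s : Finset ι) (j : ℕ) : A := ∑ U ∈ s.powersetCard j, ∏ l ∈ U, z l

/-- The span of the monomials with exponents bounded by `r + m`. -/
def symV (s : Finset ι) (m : ℕ) : Submodule T A :=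
  span T {x | ∃ a : ι → ℕ, (∀ l ∈ s, a l ≤ r l + m) ∧ x = ∏ l ∈ s, z l ^ a l}

/-- `∑ j, e_j V_m`. -/
def symN (s : Finset ι) (m : ℕ) : Submodule T A :=
  ⨆ j : ℕ, (symV T z r s m).map (LinearMap.mulLeft T (symE z s j))

omit [DecidableEq ι] in
theorem symE_zero (s : Finset ι) : symE z s 0 = 1 := by simp [symE]

omit [DecidableEq ι] in
theorem symE_eq_zero {s : Finset ι} {j : ℕ} (h : s.card < j) : symE z s j = 0 := by
  rw [symE, Finset.powersetCard_eq_empty.mpr h, Finset.sum_empty]

theorem symE_insert_succ {s : Finset ι} {i : ι} (hi : i ∉ s) (j : ℕ) :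
    symE z (insert i s) (j + 1) = symE z s (j + 1) + z i * symE z s j := by
  unfold symE
  rw [Finset.powersetCard_succ_insert hi, Finset.sum_union, Finset.sum_image, Finset.mul_sum]
  · congr 1
    refine Finset.sum_congr rfl fun U hU => ?_
    exact Finset.prod_insert fun h => hi ((Finset.mem_powersetCard.mp hU).1 h)
  · intro U hU V hV h
    have h1 : i ∉ U := fun h => hi ((Finset.mem_powersetCard.mp hU).1 h)
    have h2 : i ∉ V := fun h => hi ((Finset.mem_powersetCard.mp hV).1 h)
    rw [← Finset.erase_insert h1, ← Finset.erase_insert h2]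
    exact congrArg (fun W => Finset.erase W i) h
  · rw [Finset.disjoint_left]
    intro U hU hU'
    obtain ⟨V, _, rfl⟩ := Finset.mem_image.mp hU'
    exact hi ((Finset.mem_powersetCard.mp hU).1 (Finset.mem_insert_self i V))

theorem mul_mem_symV_insert {s : Finset ι} {i : ι} (hi : i ∉ s) {m : ℕ} {v : A}
    (hv : v ∈ symV T z r s m) {u : ℕ} (hu : u ≤ r i + m) :
    v * z i ^ u ∈ symV T z r (insert i s) m := by
  induction hv using Submodule.span_induction with
  | mem x hx =>
    obtain ⟨a, ha, rfl⟩ := hx
    refine subset_span ⟨Function.update a i u, fun l hl => ?_, ?_⟩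
    · by_cases h : l = i
      · subst h; simpa using hu
      · rw [Function.update_of_ne h]
        exact ha l ((Finset.mem_insert.mp hl).resolve_left h)
    · rw [Finset.prod_insert hi, Function.update_self, mul_comm]
      congr 1
      refine Finset.prod_congr rfl fun l hl => ?_
      rw [Function.update_of_ne (fun h : l = i => hi (h ▸ hl))]
  | zero => simp
  | add x y _ _ hx hy => rw [add_mul]; exact add_mem hx hy
  | smul c x _ hx => rw [smul_mul_assoc]; exact smul_mem _ c hx

omit [DecidableEq ι] in
theorem symE_mul_mem_symN {s : Finset ι} {m : ℕ} {v : A} (hv : v ∈ symV T z r s m) (j : ℕ) :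
    symE z s j * v ∈ symN T z r s m :=
  mem_iSup_of_mem j (mem_map_of_mem (f := LinearMap.mulLeft T (symE z s j)) hv)

theorem symV_insert_le {s : Finset ι} {i : ι} (hi : i ∉ s) (hr : r i = s.card) {m : ℕ}
    (h : symV T z r s (m + 1) ≤ symN T z r s m) :
    symV T z r (insert i s) (m + 1) ≤ symN T z r (insert i s) m := by
  have key : ∀ v ∈ symV T z r s m, ∀ j t : ℕ, t ≤ s.card + m + 1 →
      symE z s j * v * z i ^ t ∈ symN T z r (insert i s) m := by
    intro v hv
    have rel : ∀ j u : ℕ, u ≤ s.card + m →
        symE z s (j + 1) * v * z i ^ u + symE z s j * v * z i ^ (u + 1) ∈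
          symN T z r (insert i s) m := by
      intro j u hu
      have h1 := symE_mul_mem_symN T z r (mul_mem_symV_insert T z r hi hv (hr ▸ hu)) (j + 1)
      rw [symE_insert_succ z hi] at h1
      have e : symE z s (j + 1) * v * z i ^ u + symE z s j * v * z i ^ (u + 1) =
          (symE z s (j + 1) + z i * symE z s j) * (v * z i ^ u) := by ring
      rw [e]; exact h1
    have lower : ∀ j u : ℕ, j + u ≤ s.card + m →
        symE z s j * v * z i ^ u ∈ symN T z r (insert i s) m := by
      intro j
      induction j with
      | zero =>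
        intro u hu
        have h1 := symE_mul_mem_symN T z r
          (mul_mem_symV_insert T z r hi hv (u := u) (by omega)) 0
        rw [symE_zero] at h1
        rw [symE_zero, mul_assoc]
        exact h1
      | succ j ih =>
        intro u hu
        have h1 := sub_mem (rel j u (by omega)) (ih (u + 1) (by omega))
        rwa [add_sub_cancel_right] at h1
    have raise : ∀ t j : ℕ, s.card + 1 ≤ j + t → t ≤ s.card + m + 1 →
        symE z s j * v * z i ^ t ∈ symN T z r (insert i s) m := by
      intro t
      induction t with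
      | zero =>
        intro j hj _
        rw [symE_eq_zero z (by omega : s.card < j)]
        simp
      | succ t ih =>
        intro j hj ht
        have h1 := sub_mem (rel j t (by omega)) (ih (j + 1) (by omega) (by omega))
        rwa [add_sub_cancel_left] at h1
    intro j t ht
    by_cases hc : j + t ≤ s.card + m
    · exact lower j t hc
    · exact raise t j (by omega) ht
  refine span_le.mpr ?_
  rintro x ⟨a, ha, rfl⟩
  have hw : ∏ l ∈ s, z l ^ a l ∈ symN T z r s m :=
    h (subset_span ⟨a, fun l hl => ha l (Finset.mem_insert_of_mem hl), rfl⟩)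
  have hai : a i ≤ s.card + m + 1 := by
    have := ha i (Finset.mem_insert_self i s); omega
  rw [Finset.prod_insert hi, mul_comm]
  show _ ∈ symN T z r (insert i s) m
  generalize ∏ l ∈ s, z l ^ a l = w at hw
  induction hw using Submodule.iSup_induction' with
  | mem j x hx =>
    obtain ⟨v, hv, rfl⟩ := hx
    exact key v hv j _ hai
  | zero => simp
  | add x y _ _ hx hy => rw [add_mul]; exact add_mem hx hy

end Abstract

theorem symV_univ_le (T : Type*) {A : Type*} [CommRing T] [CommRing A] [Algebra T A] {n : ℕ}
    (z : Fin n → A) (σ : Equiv.Perm (Fin n)) (m : ℕ) :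
    symV T z (fun l => (σ l : ℕ)) Finset.univ (m + 1) ≤
      symN T z (fun l => (σ l : ℕ)) Finset.univ m := by
  have main : ∀ k : ℕ, k ≤ n → (Finset.univ.filter fun l => (σ l : ℕ) < k).card = k ∧
      symV T z (fun l => (σ l : ℕ)) (Finset.univ.filter fun l => (σ l : ℕ) < k) (m + 1) ≤
        symN T z (fun l => (σ l : ℕ)) (Finset.univ.filter fun l => (σ l : ℕ) < k) m := by
    intro k
    induction k with
    | zero =>
      intro _
      have e : (Finset.univ.filter fun l => (σ l : ℕ) < 0) = ∅ := by simp
      rw [e]
      refine ⟨rfl, span_le.mpr ?_⟩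
      rintro x ⟨a, _, rfl⟩
      have h1 := symE_mul_mem_symN T z (fun l => (σ l : ℕ)) (s := ∅) (m := m)
        (v := ∏ l ∈ (∅ : Finset (Fin n)), z l ^ a l) (subset_span ⟨a, by simp, rfl⟩) 0
      rw [symE_zero, one_mul] at h1
      exact h1
    | succ k ih =>
      intro hk
      obtain ⟨h1, h2⟩ := ih (by omega)
      have e : (Finset.univ.filter fun l => (σ l : ℕ) < k + 1) =
          insert (σ.symm ⟨k, hk⟩) (Finset.univ.filter fun l => (σ l : ℕ) < k) := by
        ext l
        simp only [Finset.mem_filter, Finset.mem_univ, true_and, Finset.mem_insert,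
          Equiv.eq_symm_apply, Fin.ext_iff]
        omega
      have hi : σ.symm ⟨k, hk⟩ ∉ (Finset.univ.filter fun l => (σ l : ℕ) < k) := by simp
      rw [e]
      refine ⟨by rw [Finset.card_insert_of_notMem hi, h1], symV_insert_le T z _ hi ?_ h2⟩
      rw [h1]; simp
  have e : (Finset.univ.filter fun l => (σ l : ℕ) < n) = Finset.univ :=
    Finset.filter_true_of_mem fun l _ => (σ l).2
  have h := (main n le_rfl).2
  rwa [e] at h

end Vale.Agent.P202
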