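import Vale.Agent.P202.GeoLab
import Vale.Agent.P202.GeoAna
import Vale.Agent.P202.GeoSymmAux

/-! Module M2e: symmetric function facts. -/

namespace Vale.Agent.P202

open Submodule

variable {T : Type*} [CommRing T] {n : ℕ}

/-- Substitution `X_j ↦ e_j(z) τ`. -/
noncomputable def evTau (T : Type*) [CommRing T] (n : ℕ) :
    MvPolynomial (Fin (n + 1)) T →ₐ[T] LR T n := MvPolynomial.aeval (eTau T n)

theorem symm_mon_mul (a b : Fin n → ℤ) (s t : ℤ) :
    mon T a s * mon T b t = mon T (a + b) (s + t) := by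
  unfold mon
  rw [AddMonoidAlgebra.single_mul_single, one_mul, Prod.mk_add_mk]

theorem symm_mon_zero : mon T (0 : Fin n → ℤ) 0 = 1 := rfl

theorem symm_mon_pow (a : Fin n → ℤ) (s : ℤ) (k : ℕ) :
    mon T a s ^ k = mon T (k • a) (k * s) := by
  induction k with
  | zero => simp [symm_mon_zero]
  | succ k ih =>
    rw [pow_succ, ih, symm_mon_mul, succ_nsmul]
    congr 1
    push_cast; ring

theorem symm_mon_prod {ι : Type*} (U : Finset ι) (a : ι → Fin n → ℤ) :
    ∏ i ∈ U, mon T (a i) 0 = mon T (∑ i ∈ U, a i) 0 := by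
  classical
  induction U using Finset.induction_on with
  | empty => simp [symm_mon_zero]
  | insert i U hi ih => rw [Finset.prod_insert hi, Finset.sum_insert hi, ih, symm_mon_mul, add_zero]

/-- The coordinate `z_l`. -/
noncomputable def zVar (T : Type*) [CommRing T] (l : Fin n) : LR T n := mon T (Pi.single l 1) 0

theorem prod_zVar_pow (a : Fin n → ℕ) :
    ∏ l, zVar T l ^ a l = mon T (fun l => (a l : ℤ)) 0 := by
  have e : ∀ l, zVar T l ^ a l = mon T (Pi.single l (a l : ℤ)) 0 := by
    intro l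
    rw [zVar, symm_mon_pow, mul_zero]
    congr 1
    funext j
    simp [Pi.single_apply]
  rw [Finset.prod_congr rfl fun l _ => e l, symm_mon_prod]
  congr 1
  funext j
  simp [Finset.sum_apply, Pi.single_apply]

theorem eTau_eq_symE (j : Fin (n + 1)) :
    eTau T n j = symE (zVar T) Finset.univ j * mon T 0 1 := by
  unfold eTau symE
  rw [Finset.sum_mul]
  refine Finset.sum_congr rfl fun U _ => ?_
  unfold zVar
  rw [symm_mon_prod, symm_mon_mul, add_zero, zero_add]
  congr 1
  funext l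
  simp [ind, Finset.sum_apply, Pi.single_apply]

/-- Elements supported on `τ^δ z^a`, `0 ≤ a ≤ δ`. -/
def wtSub (T : Type*) [CommRing T] (n : ℕ) (δ : ℤ) : Submodule T (LR T n) where
  carrier := {g | ∀ γ, g.coeff γ ≠ 0 → γ.2 = δ ∧ ∀ l, 0 ≤ γ.1 l ∧ γ.1 l ≤ δ}
  add_mem' := by
    intro f g hf hg γ h
    by_cases h1 : f.coeff γ = 0
    · refine hg γ fun h2 => h ?_
      simp [h1, h2]
    · exact hf γ h1
  zero_mem' := by intro γ h; simp at h
  smul_mem' := by
    intro r f hf γ h
    refine hf γ fun h2 => h ?_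
    simp [h2]

theorem mul_mem_wtSub {δ δ' : ℤ} {f g : LR T n} (hf : f ∈ wtSub T n δ) (hg : g ∈ wtSub T n δ') :
    f * g ∈ wtSub T n (δ + δ') := by
  classical
  intro γ h
  have h1 := AddMonoidAlgebra.support_coeff_mul_subset f g (Finsupp.mem_support_iff.mpr h)
  obtain ⟨x, hx, y, hy, rfl⟩ := Finset.mem_add.mp h1
  obtain ⟨a1, a2⟩ := hf x (Finsupp.mem_support_iff.mp hx)
  obtain ⟨b1, b2⟩ := hg y (Finsupp.mem_support_iff.mp hy)
  refine ⟨by rw [Prod.snd_add, a1, b1], fun l => ?_⟩
  have := a2 l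
  have := b2 l
  rw [Prod.fst_add, Pi.add_apply]
  omega

theorem mon_mem_wtSub {δ : ℤ} {a : Fin n → ℤ} (ha : ∀ l, 0 ≤ a l ∧ a l ≤ δ) :
    mon T a δ ∈ wtSub T n δ := by
  classical
  intro γ h
  have : (a, δ) = γ := by
    by_contra hne
    apply h
    simp [mon, hne]
  subst this
  exact ⟨rfl, ha⟩

theorem eTau_mem_wtSub (j : Fin (n + 1)) : eTau T n j ∈ wtSub T n 1 := by
  refine sum_mem fun U _ => mon_mem_wtSub fun l => ?_
  unfold ind
  split_ifs <;> omega

theorem one_mem_wtSub : (1 : LR T n) ∈ wtSub T n 0 :=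
  mon_mem_wtSub (a := 0) fun l => by simp

theorem pow_mem_wtSub {f : LR T n} (hf : f ∈ wtSub T n 1) (k : ℕ) : f ^ k ∈ wtSub T n k := by
  induction k with
  | zero => simpa using one_mem_wtSub
  | succ k ih => rw [pow_succ]; push_cast; exact mul_mem_wtSub ih hf

theorem prod_pow_mem_wtSub {ι : Type*} (U : Finset ι) (f : ι → LR T n)
    (hf : ∀ i, f i ∈ wtSub T n 1) (k : ι → ℕ) :
    ∏ i ∈ U, f i ^ k i ∈ wtSub T n ((∑ i ∈ U, k i : ℕ) : ℤ) := by
  classical
  induction U using Finset.induction_on with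
  | empty => simpa using one_mem_wtSub
  | insert i U hi ih =>
    rw [Finset.prod_insert hi, Finset.sum_insert hi, Nat.cast_add]
    exact mul_mem_wtSub (pow_mem_wtSub (hf i) _) ih

theorem evTau_mem_wtSub {δ : ℤ} {f : MvPolynomial (Fin (n + 1)) T}
    (hf : f ∈ homog T (n + 1) δ) : evTau T n f ∈ wtSub T n δ := by
  rw [f.as_sum, map_sum]
  refine sum_mem fun α hα => ?_
  have h1 := mem_homog.mp hf α (MvPolynomial.mem_support_iff.mp hα)
  rw [evTau, MvPolynomial.aeval_monomial, ← Algebra.smul_def, ← h1]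
  exact smul_mem _ _ (prod_pow_mem_wtSub _ _ eTau_mem_wtSub _)

/-- The support of `f(e τ)` for `f` homogeneous of degree `δ`. -/
theorem coeff_evTau_ne_zero {δ : ℤ} {f : MvPolynomial (Fin (n + 1)) T} (hf : f ∈ homog T (n + 1) δ)
    {γ : Γ n} (h : (evTau T n f).coeff γ ≠ 0) : γ.2 = δ ∧ ∀ l, 0 ≤ γ.1 l ∧ γ.1 l ≤ δ :=
  evTau_mem_wtSub hf γ h

theorem mem_boxSet_of_nonneg {c : Fin n → ℤ} (hc : ∀ l, 0 ≤ c l) {a : Fin n → ℤ} :
    a ∈ boxSet c ↔ ∀ l, 0 ≤ a l ∧ a l ≤ c l := by
  unfold boxSet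
  rw [Fintype.mem_piFinset]
  refine forall_congr' fun l => ?_
  rw [if_pos (hc l), Finset.mem_Icc]

/-- The image of the free module in degree `m`. -/
def freeIm (T : Type*) [CommRing T] (B : Finset (Fin n → ℤ)) (m : ℤ) : Submodule T (LR T n) where
  carrier := {g | ∃ f : (Fin n → ℤ) → MvPolynomial (Fin (n + 1)) T,
    (∀ b, f b ∈ homog T (n + 1) m) ∧ g = ∑ b ∈ B, evTau T n (f b) * mon T b 0}
  add_mem' := by
    rintro _ _ ⟨f, hf, rfl⟩ ⟨g, hg, rfl⟩
    refine ⟨fun b => f b + g b, fun b => add_mem (hf b) (hg b), ?_⟩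
    rw [← Finset.sum_add_distrib]
    exact Finset.sum_congr rfl fun b _ => by rw [map_add, add_mul]
  zero_mem' := ⟨fun _ => 0, fun _ => zero_mem _, by simp⟩
  smul_mem' := by
    rintro r _ ⟨f, hf, rfl⟩
    refine ⟨fun b => r • f b, fun b => smul_mem _ r (hf b), ?_⟩
    rw [Finset.smul_sum]
    exact Finset.sum_congr rfl fun b _ => by rw [map_smul, smul_mul_assoc]

theorem X_mem_homog_one (j : Fin (n + 1)) :
    (MvPolynomial.X j : MvPolynomial (Fin (n + 1)) T) ∈ homog T (n + 1) 1 := by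
  unfold homog
  rw [if_pos zero_le_one]
  exact MvPolynomial.isHomogeneous_X T j

theorem eTau_mul_mem_freeIm {B : Finset (Fin n → ℤ)} {m : ℤ} {g : LR T n}
    (hg : g ∈ freeIm T B m) (j : Fin (n + 1)) : eTau T n j * g ∈ freeIm T B (m + 1) := by
  obtain ⟨f, hf, rfl⟩ := hg
  refine ⟨fun b => f b * MvPolynomial.X j, fun b => mul_mem_homog (hf b) (X_mem_homog_one j), ?_⟩
  rw [Finset.mul_sum]
  refine Finset.sum_congr rfl fun b _ => ?_
  rw [map_mul, evTau, MvPolynomial.aeval_X]
  ring

theorem symV_mul_mem_freeIm (σ : Equiv.Perm (Fin n)) (m : ℕ) :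
    ∀ x ∈ symV T (zVar T) (fun l => (σ l : ℕ)) Finset.univ m,
      x * mon T 0 m ∈ freeIm T (boxSet (fun l => ((σ l : ℕ) : ℤ))) m := by
  classical
  induction m with
  | zero =>
    intro x hx
    induction hx using Submodule.span_induction with
    | mem x hx =>
      obtain ⟨a, ha, rfl⟩ := hx
      have hmem : (fun l => (a l : ℤ)) ∈ boxSet (fun l => ((σ l : ℕ) : ℤ)) := by
        rw [mem_boxSet_of_nonneg fun l => Int.natCast_nonneg _]
        intro l
        have : a l ≤ (σ l : ℕ) + 0 := ha l (Finset.mem_univ l)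
        omega
      refine ⟨fun b => if b = (fun l => (a l : ℤ)) then 1 else 0, fun b => ?_, ?_⟩
      · show (if b = (fun l => (a l : ℤ)) then 1 else 0) ∈ _
        split_ifs
        · unfold homog
          rw [if_pos (Int.natCast_nonneg _)]
          exact MvPolynomial.isHomogeneous_one _ _
        · exact zero_mem _
      · rw [Finset.sum_eq_single_of_mem _ hmem (fun b _ hb => by simp [hb]), prod_zVar_pow]
        simp [symm_mon_zero]
    | zero => simp
    | add x y _ _ hx hy => rw [add_mul]; exact add_mem hx hy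
    | smul c x _ hx => rw [smul_mul_assoc]; exact smul_mem _ c hx
  | succ m ih =>
    intro x hx
    have hx' := symV_univ_le T (zVar T) σ m hx
    clear hx
    induction hx' using Submodule.iSup_induction' with
    | mem j x hx =>
      obtain ⟨v, hv, rfl⟩ := hx
      by_cases hj : j < n + 1
      · have h1 := eTau_mul_mem_freeIm (ih v hv) ⟨j, hj⟩
        have e : LinearMap.mulLeft T (symE (zVar T) Finset.univ j) v * mon T 0 ((m + 1 : ℕ) : ℤ) =
            eTau T n ⟨j, hj⟩ * (v * mon T 0 m) := by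
          have e1 : mon T (0 : Fin n → ℤ) ((m + 1 : ℕ) : ℤ) = mon T 0 1 * mon T 0 m := by
            rw [symm_mon_mul, add_zero, Nat.cast_add, add_comm]; rfl
          rw [eTau_eq_symE, e1, LinearMap.mulLeft_apply]
          ring
        rw [e, Nat.cast_add]
        exact h1
      · rw [symE_eq_zero _ (by rw [Finset.card_univ, Fintype.card_fin]; omega)]
        simp
    | zero => simp
    | add x y _ _ hx hy => rw [add_mul]; exact add_mem hx hy

/-- (FREE) For an arrangement `c` of `0, …, n-1`, the sections of `O(c + m)`, `m ≥ 0`, form a free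
module over `T[e_0 τ, …, e_n τ]` with basis the sections of `O(c)`. -/
theorem free_surj (σ : Equiv.Perm (Fin n)) (m : ℕ) (a : Fin n → ℤ)
    (ha : ∀ l, 0 ≤ a l ∧ a l ≤ ((σ l : ℕ) : ℤ) + m) :
    ∃ f : (Fin n → ℤ) → MvPolynomial (Fin (n + 1)) T, (∀ b, f b ∈ homog T (n + 1) m) ∧
      mon T a m = ∑ b ∈ boxSet (fun l => ((σ l : ℕ) : ℤ)), evTau T n (f b) * mon T b 0 := by
  have h := symV_mul_mem_freeIm (T := T) σ m (∏ l, zVar T l ^ (a l).toNat)
    (subset_span ⟨fun l => (a l).toNat, fun l _ => by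
      have := ha l
      show (a l).toNat ≤ (σ l : ℕ) + m
      omega, rfl⟩)
  have e : (fun l => (((a l).toNat : ℕ) : ℤ)) = a := by
    funext l; have := ha l; omega
  rw [prod_zVar_pow, e, symm_mon_mul, add_zero, zero_add] at h
  exact h

theorem card_boxSet_perm_add (σ : Equiv.Perm (Fin n)) (m : ℕ) :
    (boxSet (fun l => ((σ l : ℕ) : ℤ) + m)).card = (m + 1).ascFactorial n := by
  rw [card_boxSet, box, Nat.ascFactorial_eq_prod_range,
    ← Fin.prod_univ_eq_prod_range (fun i => m + 1 + i) n,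
    ← Equiv.prod_comp σ (fun i : Fin n => m + 1 + (i : ℕ))]
  refine Finset.prod_congr rfl fun l _ => ?_
  omega

theorem card_boxSet_perm (σ : Equiv.Perm (Fin n)) :
    (boxSet (fun l => ((σ l : ℕ) : ℤ))).card = n.factorial := by
  have h := card_boxSet_perm_add σ 0
  simpa [Nat.one_ascFactorial] using h

theorem eq_sum_antidiag {m : ℕ} {f : MvPolynomial (Fin (n + 1)) T} (hf : f ∈ homog T (n + 1) m) :
    f = ∑ α ∈ Finset.finsuppAntidiag Finset.univ m, f.coeff α • MvPolynomial.monomial α 1 := by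
  classical
  conv_lhs => rw [f.as_sum]
  simp only [MvPolynomial.smul_monomial, smul_eq_mul, mul_one]
  refine Finset.sum_subset (fun α hα => ?_) (fun α _ hα => ?_)
  · have h1 := mem_homog.mp hf α (MvPolynomial.mem_support_iff.mp hα)
    rw [Finset.mem_finsuppAntidiag]
    refine ⟨?_, Finset.subset_univ _⟩
    rw [Finsupp.degree_eq_sum] at h1
    exact_mod_cast h1
  · rw [MvPolynomial.notMem_support_iff.mp hα, map_zero]

theorem free_inj (σ : Equiv.Perm (Fin n)) (m : ℕ)
    (f : (Fin n → ℤ) → MvPolynomial (Fin (n + 1)) T) (hf : ∀ b, f b ∈ homog T (n + 1) m)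
    (h : ∑ b ∈ boxSet (fun l => ((σ l : ℕ) : ℤ)), evTau T n (f b) * mon T b 0 = 0) :
    ∀ b ∈ boxSet (fun l => ((σ l : ℕ) : ℤ)), f b = 0 := by
  classical
  obtain ⟨A, hA⟩ : ∃ A : Finset (Fin (n + 1) →₀ ℕ), A = Finset.finsuppAntidiag Finset.univ m :=
    ⟨_, rfl⟩
  obtain ⟨B, hB⟩ : ∃ B, B = boxSet (fun l => ((σ l : ℕ) : ℤ)) := ⟨_, rfl⟩
  obtain ⟨K, hK⟩ : ∃ K, K = boxSet (fun l => ((σ l : ℕ) : ℤ) + m) := ⟨_, rfl⟩
  rw [← hB] at h ⊢
  let w : B × A → LR T n := fun p => evTau T n (MvPolynomial.monomial p.2.1 1) * mon T p.1.1 0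
  let Φ : (B × A → T) →ₗ[T] (K → T) :=
    { toFun := fun x a => (∑ p, x p • w p).coeff (a.1, (m : ℤ))
      map_add' := by
        intro x y
        funext a
        simp only [Pi.add_apply, add_smul, Finset.sum_add_distrib, AddMonoidAlgebra.coeff_add,
          Finsupp.add_apply]
      map_smul' := by
        intro r x
        funext a
        simp only [Pi.smul_apply, smul_eq_mul, mul_smul, ← Finset.smul_sum, RingHom.id_apply,
          AddMonoidAlgebra.coeff_smul, Finsupp.smul_apply] }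
  have hexp : ∀ g : (Fin n → ℤ) → MvPolynomial (Fin (n + 1)) T, (∀ b, g b ∈ homog T (n + 1) m) →
      ∑ p : B × A, (g p.1.1).coeff p.2.1 • w p = ∑ b ∈ B, evTau T n (g b) * mon T b 0 := by
    intro g hg
    rw [Fintype.sum_prod_type, ← Finset.sum_coe_sort B]
    refine Finset.sum_congr rfl fun b _ => ?_
    conv_rhs => rw [eq_sum_antidiag (hg b.1), ← hA, ← Finset.sum_coe_sort A, map_sum,
      Finset.sum_mul]
    refine Finset.sum_congr rfl fun α _ => ?_
    rw [map_smul, smul_mul_assoc]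
  have hsurj : Function.Surjective Φ := by
    rw [← LinearMap.range_eq_top, eq_top_iff, ← (Pi.basisFun T K).span_eq, span_le]
    rintro _ ⟨a, rfl⟩
    have ha : a.1 ∈ boxSet (fun l => ((σ l : ℕ) : ℤ) + m) := hK ▸ a.2
    rw [mem_boxSet_of_nonneg fun l => by positivity] at ha
    obtain ⟨g, hg, e⟩ := free_surj (T := T) σ m a.1 ha
    refine ⟨fun p => (g p.1.1).coeff p.2.1, ?_⟩
    funext a'
    show (∑ p : B × A, (g p.1.1).coeff p.2.1 • w p).coeff (a'.1, (m : ℤ)) = _
    rw [hexp g hg, hB, ← e, Pi.basisFun_apply, mon, AddMonoidAlgebra.coeff_single,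
      Finsupp.single_apply, Pi.single_apply]
    simp only [Prod.mk.injEq, and_true, Subtype.ext_iff, eq_comm]
  have hcard : Fintype.card (B × A) = Fintype.card K := by
    rw [Fintype.card_prod, Fintype.card_coe, Fintype.card_coe, Fintype.card_coe, hA, hB, hK,
      card_boxSet_perm, card_boxSet_perm_add, Finset.card_finsuppAntidiag_nat_eq_choose,
      Finset.card_univ, Fintype.card_fin, Nat.ascFactorial_eq_factorial_mul_choose,
      show n + 1 + m - 1 = m + n by omega, Nat.choose_symm_add]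
  have hinj : Function.Injective Φ :=
    OrzechProperty.injective_of_surjective_of_injective
      (LinearEquiv.funCongrLeft T T (Fintype.equivOfCardEq hcard).symm).toLinearMap Φ
      (LinearEquiv.injective _) hsurj
  have h0 : Φ (fun p => (f p.1.1).coeff p.2.1) = 0 := by
    funext a'
    show (∑ p : B × A, (f p.1.1).coeff p.2.1 • w p).coeff (a'.1, (m : ℤ)) = _
    rw [hexp f hf, h]
    rfl
  have h1 := (injective_iff_map_eq_zero Φ).mp hinj _ h0
  intro b hb
  rw [eq_sum_antidiag (hf b), ← hA]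
  refine Finset.sum_eq_zero fun α hα => ?_
  have h2 : (f b).coeff α = 0 := congrFun h1 (⟨b, hb⟩, ⟨α, hα⟩)
  rw [h2, zero_smul]

theorem homogeneousComponent_mem_homog (k : ℕ) (f : MvPolynomial (Fin (n + 1)) T) :
    MvPolynomial.homogeneousComponent k f ∈ homog T (n + 1) k := by
  unfold homog
  rw [if_pos (Int.natCast_nonneg _)]
  exact MvPolynomial.homogeneousComponent_mem k f

/-- Algebraic independence. -/
theorem evTau_injective : Function.Injective (evTau T n) := by
  classical
  rw [injective_iff_map_eq_zero]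
  intro f hf
  have hk : ∀ k : ℕ, evTau T n (MvPolynomial.homogeneousComponent k f) = 0 := by
    intro k
    refine AddMonoidAlgebra.ext (Finsupp.ext fun γ => ?_)
    by_contra hne
    have h1 := (coeff_evTau_ne_zero (homogeneousComponent_mem_homog k f) hne).1
    have hk : k ∈ Finset.range (f.totalDegree + 1) := by
      by_contra hk
      rw [MvPolynomial.homogeneousComponent_eq_zero k f
        (by rw [Finset.mem_range] at hk; omega), map_zero] at hne
      exact hne rfl
    have h2 : (evTau T n f).coeff γ = (evTau T n (MvPolynomial.homogeneousComponent k f)).coeff γ := by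
      conv_lhs => rw [← MvPolynomial.sum_homogeneousComponent f, map_sum,
        AddMonoidAlgebra.coeff_sum, Finsupp.finsetSum_apply]
      refine Finset.sum_eq_single_of_mem k hk fun j _ hj => ?_
      by_contra hne'
      have h3 := (coeff_evTau_ne_zero (homogeneousComponent_mem_homog j f) hne').1
      omega
    rw [hf] at h2
    exact hne h2.symm
  rw [← MvPolynomial.sum_homogeneousComponent f]
  refine Finset.sum_eq_zero fun k _ => ?_
  have h0 : (0 : Fin n → ℤ) ∈ boxSet (fun l => ((((1 : Equiv.Perm (Fin n)) l : Fin n) : ℕ) : ℤ)) := by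
    rw [mem_boxSet_of_nonneg fun l => Int.natCast_nonneg _]
    intro l
    exact ⟨le_rfl, Int.natCast_nonneg _⟩
  exact free_inj 1 k (fun _ => MvPolynomial.homogeneousComponent k f)
    (fun _ => homogeneousComponent_mem_homog k f) (by simp [hk]) 0 h0

end Vale.Agent.P202
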