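import Vale.Agent.P202.Reduce

/-! Auxiliary results for HSMult: restriction of scalars and the lower bound (E^-). -/

namespace Vale.Agent.P202.HS

open IsLocalRing Filter Topology

universe u v

section Restrict

variable {A : Type u} {B : Type v} [CommRing A] [IsLocalRing A] [CommRing B] [IsLocalRing B]
  [Algebra A B] [IsLocalHom (algebraMap A B)]

theorem length_eq_of_residue_surj
    (h : ∀ b : B, ∃ a : A, b - algebraMap A B a ∈ maximalIdeal B) (M : Type*) [AddCommGroup M]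
    [Module A M] [Module B M] [IsScalarTower A B M] : Module.length A M = Module.length B M := by
  have h1 : Function.Surjective (algebraMap (ResidueField A) (ResidueField B)) := by
    intro z
    obtain ⟨b, rfl⟩ := residue_surjective z
    obtain ⟨a, ha⟩ := h b
    refine ⟨residue A a, ?_⟩
    rw [ResidueField.algebraMap_residue, eq_comm, ← sub_eq_zero, ← map_sub, residue_eq_zero_iff]
    exact ha
  have h2 : Module.length (ResidueField A) (ResidueField B) = 1 := by
    rw [Module.length_eq_of_surjective (R := ResidueField B) h1]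
    exact Module.length_eq_one _ _
  rw [IsLocalRing.length_restrictScalars A B M, h2, mul_one]

theorem rl_restrict (h : ∀ b : B, ∃ a : A, b - algebraMap A B a ∈ maximalIdeal B) {M : Type*}
    [AddCommGroup M] [Module A M] [Module B M] [IsScalarTower A B M] (P Q : Submodule B M) :
    rl (P.restrictScalars A) (Q.restrictScalars A) = rl P Q := by
  rw [rl.eq_1 P Q, ← length_eq_of_residue_surj h (P.map Q.mkQ)]
  refine rl_eq_of_surj (LinearMap.codRestrict ((P.map Q.mkQ).restrictScalars A)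
    (Q.mkQ.restrictScalars A ∘ₗ (P.restrictScalars A).subtype) fun x => ⟨x.1, x.2, rfl⟩) ?_ ?_
  · rintro ⟨_, x, hx, rfl⟩
    exact ⟨⟨x, hx⟩, rfl⟩
  · intro x
    exact ⟨fun h => (Submodule.Quotient.mk_eq_zero _).mp (congrArg Subtype.val h),
      fun h => Subtype.ext ((Submodule.Quotient.mk_eq_zero _).mpr h)⟩

theorem multP_restrict (h : ∀ b : B, ∃ a : A, b - algebraMap A B a ∈ maximalIdeal B) {M : Type*}
    [AddCommGroup M] [Module A M] [Module B M] [IsScalarTower A B M] (y : List A)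
    (P Q : Submodule B M) :
    multP y (P.restrictScalars A) (Q.restrictScalars A) = multP (y.map (algebraMap A B)) P Q := by
  induction y generalizing P Q with
  | nil => simp only [List.map_nil, multP, rl_restrict h]
  | cons a l ih =>
    have e1 : Q.restrictScalars A ⊔ (P.restrictScalars A).map (LinearMap.lsmul A M a) =
        (Q ⊔ P.map (LinearMap.lsmul B M (algebraMap A B a))).restrictScalars A := by
      ext x
      simp only [Submodule.restrictScalars_mem, Submodule.mem_sup, Submodule.mem_map,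
        LinearMap.lsmul_apply, algebraMap_smul]
    have e2 : P.restrictScalars A ⊓ (Q.restrictScalars A).comap (LinearMap.lsmul A M a) =
        (P ⊓ Q.comap (LinearMap.lsmul B M (algebraMap A B a))).restrictScalars A := by
      ext x
      simp only [Submodule.restrictScalars_mem, Submodule.mem_inf, Submodule.mem_comap,
        LinearMap.lsmul_apply, algebraMap_smul]
    rw [List.map_cons, multP, multP, e1, e2, ih, ih]

theorem mult_restrict (h : ∀ b : B, ∃ a : A, b - algebraMap A B a ∈ maximalIdeal B) (M : Type*)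
    [AddCommGroup M] [Module A M] [Module B M] [IsScalarTower A B M] (y : List A) :
    mult M y = mult M (y.map (algebraMap A B)) :=
  multP_restrict h y (⊤ : Submodule B M) ⊥

end Restrict

section General

variable {Λ : Type u} [CommRing Λ] [IsLocalRing Λ] [IsNoetherianRing Λ]

omit [IsNoetherianRing Λ] in
theorem isSop_of_le {y : List Λ} (h1 : ∀ a ∈ y, a ∈ maximalIdeal Λ) {N : ℕ}
    (h2 : maximalIdeal Λ ^ N ≤ Ideal.ofList y) (M : Type*) [AddCommGroup M] [Module Λ M] :
    IsSop M y :=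
  ⟨h1, N, fun r hr => ⟨r, h2 hr, fun x _ => by simp⟩⟩

theorem length_quot_pow_ne_top (M : Type*) [AddCommGroup M] [Module Λ M] [Module.Finite Λ M]
    (N : ℕ) : Module.length Λ (M ⧸ (maximalIdeal Λ ^ N • ⊤ : Submodule Λ M)) ≠ ⊤ := by
  refine length_ne_top_of_pow_smul (n := N) fun r hr x => ?_
  obtain ⟨x, rfl⟩ := Submodule.Quotient.mk_surjective _ x
  rw [← Submodule.Quotient.mk_smul, Submodule.Quotient.mk_eq_zero]
  exact Submodule.smul_mem_smul hr Submodule.mem_top

omit [IsLocalRing Λ] in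
theorem exists_length_exact (I : Ideal Λ) {M₁ M₂ M₃ : Type*} [AddCommGroup M₁] [Module Λ M₁]
    [AddCommGroup M₂] [Module Λ M₂] [Module.Finite Λ M₂] [AddCommGroup M₃] [Module Λ M₃]
    (f : M₁ →ₗ[Λ] M₂) (g : M₂ →ₗ[Λ] M₃) (hf : Function.Injective f) (hg : Function.Surjective g)
    (hfg : Function.Exact f g) : ∃ k : ℕ, ∀ N ≥ k,
      Module.length Λ (M₃ ⧸ (I ^ N • ⊤ : Submodule Λ M₃)) +
        Module.length Λ (M₁ ⧸ (I ^ (N - k) • ⊤ : Submodule Λ M₁)) ≤
      Module.length Λ (M₂ ⧸ (I ^ N • ⊤ : Submodule Λ M₂)) := by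
  obtain ⟨k, hk⟩ := Ideal.exists_pow_inf_eq_pow_smul I (LinearMap.range f)
  refine ⟨k, fun N hN => ?_⟩
  rw [← rl_top, ← rl_top, ← rl_top,
    rl_add (B := LinearMap.range f ⊔ I ^ N • ⊤) (C := (I ^ N • ⊤ : Submodule Λ M₂))
      le_sup_right le_top, rl_sup]
  refine add_le_add ?_ ?_
  · refine rl_le_of_map_surj' g (fun x hx => ?_) fun y _ => ?_
    · obtain ⟨_, ⟨a, rfl⟩, b, hb, rfl⟩ := Submodule.mem_sup.mp hx.2
      rw [map_add, hfg.apply_apply_eq_zero, zero_add]
      have h1 : g b ∈ (I ^ N • ⊤ : Submodule Λ M₂).map g := ⟨b, hb, rfl⟩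
      rw [Submodule.map_smul''] at h1
      exact Submodule.smul_mono le_rfl le_top h1
    · obtain ⟨x, rfl⟩ := hg y
      exact ⟨x, Submodule.mem_top, by simp⟩
  · refine rl_le_of_map_inj' f (fun x _ => ⟨x, rfl⟩) fun x _ hx => ?_
    have h1 : f x ∈ I ^ N • (⊤ : Submodule Λ M₂) ⊓ LinearMap.range f := ⟨hx, x, rfl⟩
    rw [hk N hN] at h1
    have h2 : f x ∈ I ^ (N - k) • LinearMap.range f :=
      Submodule.smul_mono le_rfl inf_le_right h1
    rw [LinearMap.range_eq_map, ← Submodule.map_smul''] at h2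
    obtain ⟨x', hx', e⟩ := h2
    rwa [← hf e]

end General

theorem pow_sub_pow_le (D : ℕ) {n N : ℝ} (h0 : 0 ≤ n) (h : n ≤ N) :
    N * (N ^ D - n ^ D) ≤ D * (N - n) * N ^ D := by
  have hN : 0 ≤ N := h0.trans h
  induction D with
  | zero => simp
  | succ D ih =>
    have h1 : n ^ D ≤ N ^ D := pow_le_pow_left₀ h0 h D
    have h2 : N * (N * (N ^ D - n ^ D)) ≤ N * (D * (N - n) * N ^ D) :=
      mul_le_mul_of_nonneg_left ih hN
    have h3 : N * (N - n) * n ^ D ≤ N * (N - n) * N ^ D :=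
      mul_le_mul_of_nonneg_left h1 (mul_nonneg hN (sub_nonneg.2 h))
    push_cast
    rw [pow_succ, pow_succ]
    nlinarith

/-- The lower bound for a Hilbert-Samuel function `l`. -/
def LB (D : ℕ) (e : ℝ) (l : ℕ → ℝ) : Prop :=
  ∃ C : ℝ, 0 ≤ C ∧ ∀ N : ℕ, 0 < N →
    (N : ℝ) ^ (D + 1) * e ≤ (N : ℝ) * (D.factorial : ℝ) * l N + C * (N : ℝ) ^ D

theorem LB.shift {D : ℕ} {e : ℝ} {l : ℕ → ℝ} (h : LB D e l) (he : 0 ≤ e) (hl : ∀ N, 0 ≤ l N)
    (k : ℕ) : LB D e fun N => l (N - k) := by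
  obtain ⟨C, hC, h⟩ := h
  refine ⟨(k + 1) * C + D * k * e + k * e, by positivity, fun N hN => ?_⟩
  beta_reduce
  have hF : (0 : ℝ) ≤ D.factorial := Nat.cast_nonneg _
  have hND : (0 : ℝ) ≤ (N : ℝ) ^ D := by positivity
  have hN0 : (0 : ℝ) ≤ N := Nat.cast_nonneg _
  have hl0 : 0 ≤ (N : ℝ) * (D.factorial : ℝ) * l (N - k) := mul_nonneg (mul_nonneg hN0 hF) (hl _)
  have hA : 0 ≤ ((k + 1) * C) * (N : ℝ) ^ D := by positivity
  have hB : 0 ≤ (D * k * e) * (N : ℝ) ^ D := by positivity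
  have hE : 0 ≤ (k * e) * (N : ℝ) ^ D := by positivity
  by_cases hk : N ≤ k
  · have h1 : (N : ℝ) ≤ k := by exact_mod_cast hk
    have h2 : (N : ℝ) * (e * (N : ℝ) ^ D) ≤ k * (e * (N : ℝ) ^ D) :=
      mul_le_mul_of_nonneg_right h1 (mul_nonneg he hND)
    rw [pow_succ]
    nlinarith
  · obtain ⟨n, rfl⟩ : ∃ n, N = n + k := ⟨N - k, by omega⟩
    have hn : 0 < n := by omega
    have h1 := h n hn
    rw [Nat.add_sub_cancel] at hl0 ⊢
    have hn1 : (1 : ℝ) ≤ n := by exact_mod_cast hn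
    have hn0 : (0 : ℝ) < n := by linarith
    have hk0 : (0 : ℝ) ≤ k := Nat.cast_nonneg _
    set M : ℝ := ((n + k : ℕ) : ℝ) with hM
    have hM' : M = n + k := by rw [hM]; push_cast; ring
    have hnM : (n : ℝ) ≤ M := by linarith
    have h2 := pow_sub_pow_le D hn0.le hnM
    have h3 : (n : ℝ) ^ D ≤ M ^ D := pow_le_pow_left₀ hn0.le hnM D
    have hMn : M ≤ (k + 1) * n := by nlinarith
    have h4 : (n : ℝ) * (M * ((n : ℝ) ^ D * e)) ≤
        n * (M * D.factorial * l n + (k + 1) * C * M ^ D) := by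
      have h5 : M * ((n : ℝ) ^ (D + 1) * e) ≤ M * (n * D.factorial * l n + C * (n : ℝ) ^ D) :=
        mul_le_mul_of_nonneg_left h1 hN0
      have h6 : M * (C * (n : ℝ) ^ D) ≤ (k + 1) * n * (C * M ^ D) :=
        mul_le_mul hMn (mul_le_mul_of_nonneg_left h3 hC) (by positivity) (by positivity)
      rw [pow_succ] at h5
      nlinarith
    have h7 := le_of_mul_le_mul_left h4 hn0
    have h8 : M * (M ^ D - (n : ℝ) ^ D) * e ≤ D * (M - n) * M ^ D * e :=
      mul_le_mul_of_nonneg_right h2 he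
    have h9 : M - n = k := by linarith
    rw [h9] at h8
    rw [pow_succ]
    nlinarith

theorem LB.add {D : ℕ} {e e' : ℝ} {l l' L : ℕ → ℝ} (h : LB D e l) (h' : LB D e' l') (k : ℕ)
    (he : 0 ≤ e) (he' : 0 ≤ e') (hL0 : ∀ N, 0 ≤ L N) (hL : ∀ N ≥ k, l N + l' N ≤ L N) :
    LB D (e + e') L := by
  obtain ⟨C, hC, h⟩ := h
  obtain ⟨C', hC', h'⟩ := h'
  refine ⟨C + C' + k * (e + e'), by positivity, fun N hN => ?_⟩
  have hF : (0 : ℝ) ≤ D.factorial := Nat.cast_nonneg _
  have hND : (0 : ℝ) ≤ (N : ℝ) ^ D := by positivity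
  have hN0 : (0 : ℝ) ≤ N := Nat.cast_nonneg _
  have hE : 0 ≤ (k * (e + e')) * (N : ℝ) ^ D := by positivity
  by_cases hk : k ≤ N
  · have h1 : (N : ℝ) * D.factorial * (l N + l' N) ≤ (N : ℝ) * D.factorial * L N :=
      mul_le_mul_of_nonneg_left (hL N hk) (mul_nonneg hN0 hF)
    have h2 := h N hN
    have h3 := h' N hN
    nlinarith
  · have h1 : (N : ℝ) ≤ k := by exact_mod_cast (by omega : N ≤ k)
    have h2 : (N : ℝ) * ((e + e') * (N : ℝ) ^ D) ≤ k * ((e + e') * (N : ℝ) ^ D) :=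
      mul_le_mul_of_nonneg_right h1 (mul_nonneg (add_nonneg he he') hND)
    have h3 : 0 ≤ (N : ℝ) * D.factorial * L N := mul_nonneg (mul_nonneg hN0 hF) (hL0 N)
    have h4 : 0 ≤ (C + C') * (N : ℝ) ^ D := by positivity
    rw [pow_succ]
    nlinarith

theorem LB.zero (D : ℕ) {l : ℕ → ℝ} (hl : ∀ N, 0 ≤ l N) : LB D 0 l := by
  refine ⟨0, le_rfl, fun N _ => ?_⟩
  have := hl N
  rw [mul_zero, zero_mul, add_zero]
  positivity

section PS

variable (K : Type u) [Field K] (D : ℕ)

/-- The list of the variables. -/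
noncomputable abbrev XL : List (MvPowerSeries (Fin D) K) :=
  List.ofFn (MvPowerSeries.X : Fin D → MvPowerSeries (Fin D) K)

theorem ofList_ofFn {R : Type*} [CommRing R] {d : ℕ} (x : Fin d → R) :
    Ideal.ofList (List.ofFn x) = Ideal.span (Set.range x) := by
  unfold Ideal.ofList
  congr 1
  ext a
  simp [List.mem_ofFn]

theorem max_eq_span : maximalIdeal (MvPowerSeries (Fin D) K) =
    Ideal.span (Set.range (MvPowerSeries.X : Fin D → MvPowerSeries (Fin D) K)) := by
  rw [maximalIdeal_mvPowerSeries, maximalIdeal_eq_bot, Ideal.map_bot, bot_sup_eq]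

theorem ofList_XL : Ideal.ofList (XL K D) = maximalIdeal (MvPowerSeries (Fin D) K) := by
  rw [ofList_ofFn, max_eq_span]

theorem isSop_XL (M : Type*) [AddCommGroup M] [Module (MvPowerSeries (Fin D) K) M] :
    IsSop M (XL K D) := by
  refine isSop_of_le (N := 1) (fun a ha => ?_) (by rw [pow_one, ofList_XL]) M
  rw [← ofList_XL]
  exact Ideal.subset_span ha

theorem isDomain_ps : IsDomain (MvPowerSeries (Fin D) K) := NoZeroDivisors.to_isDomain _

theorem dim_quot_lt {R : Type*} [CommRing R] [IsDomain R] {d : ℕ} (hd : ringKrullDim R ≤ d)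
    {I : Ideal R} (hI : I ≠ ⊥) : ringKrullDim (R ⧸ I) < d := by
  obtain ⟨r, hr, hr0⟩ := Submodule.exists_mem_ne_zero_of_ne_bot hI
  have h1 := ringKrullDim_succ_le_of_surjective (Ideal.Quotient.mk I) Ideal.Quotient.mk_surjective
    (mem_nonZeroDivisors_of_ne_zero hr0) (Ideal.Quotient.eq_zero_iff_mem.mpr hr)
  have h2 := h1.trans hd
  generalize ringKrullDim (R ⧸ I) = a at h2
  induction a using WithBot.recBotCoe with
  | bot => exact WithBot.bot_lt_coe _
  | coe a =>
    induction a using ENat.recTopCoe with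
    | top =>
      have h3 : ((⊤ : ℕ∞) : WithBot ℕ∞) + 1 = ((⊤ : ℕ∞) : WithBot ℕ∞) := rfl
      rw [h3] at h2
      exact absurd (WithBot.coe_le_coe.mp h2) (by simp)
    | coe a =>
      have h3 : a + 1 ≤ d := by exact_mod_cast h2
      exact_mod_cast (by omega : a < d)

theorem mult_le_one_of_le {Λ : Type*} [CommRing Λ] [IsLocalRing Λ] [IsNoetherianRing Λ]
    {y : List Λ} (h1 : ∀ a ∈ y, a ∈ maximalIdeal Λ) (h2 : maximalIdeal Λ ≤ Ideal.ofList y) :
    mult Λ y ≤ 1 := by
  have h3 := mult_le_length (isSop_of_le (N := 1) h1 (by rwa [pow_one]) Λ)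
  have h4 : Module.length Λ (Λ ⧸ (Ideal.ofList y • ⊤ : Submodule Λ Λ)) ≤ 1 := by
    rw [← length_residueField (T := Λ)]
    refine length_quot_anti (K := maximalIdeal Λ) ?_
    rw [smul_eq_mul, Ideal.mul_top]
    exact h2
  have h5 : (Module.length Λ (Λ ⧸ (Ideal.ofList y • ⊤ : Submodule Λ Λ))).toNat ≤ 1 :=
    ENat.toNat_le_of_le_natCast h4
  omega

/-- The Hilbert-Samuel function. -/
noncomputable abbrev hsF (Λ : Type*) [CommRing Λ] [IsLocalRing Λ] (M : Type*) [AddCommGroup M]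
    [Module Λ M] (N : ℕ) : ℝ :=
  ((Module.length Λ (M ⧸ (maximalIdeal Λ ^ N • ⊤ : Submodule Λ M))).toNat : ℝ)

theorem length_quot_equiv {Λ : Type*} [CommRing Λ] {M M' : Type*} [AddCommGroup M] [Module Λ M]
    [AddCommGroup M'] [Module Λ M'] (e : M ≃ₗ[Λ] M') (I : Ideal Λ) :
    Module.length Λ (M ⧸ (I • ⊤ : Submodule Λ M)) =
      Module.length Λ (M' ⧸ (I • ⊤ : Submodule Λ M')) := by
  refine (Submodule.Quotient.equiv _ _ e ?_).length_eq
  rw [Submodule.map_smul'', Submodule.map_top, LinearEquiv.range]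

theorem lb_self : LB D (mult (MvPowerSeries (Fin D) K) (XL K D))
    (hsF (MvPowerSeries (Fin D) K) (MvPowerSeries (Fin D) K)) := by
  refine ⟨0, le_rfl, fun N hN => ?_⟩
  obtain ⟨N, rfl⟩ : ∃ n, N = n + 1 := ⟨N - 1, by omega⟩
  have h1 : mult (MvPowerSeries (Fin D) K) (XL K D) ≤ 1 :=
    mult_le_one_of_le (isSop_XL K D (MvPowerSeries (Fin D) K)).1 (ofList_XL K D).ge
  have h1' : ((mult (MvPowerSeries (Fin D) K) (XL K D) : ℤ) : ℝ) ≤ 1 := by exact_mod_cast h1
  have h2 : hsF (MvPowerSeries (Fin D) K) (MvPowerSeries (Fin D) K) (N + 1) =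
      ((N + D).choose D : ℕ) := by
    unfold hsF
    rw [smul_eq_mul, Ideal.mul_top, length_mvPowerSeries_quot_pow, ENat.toNat_natCast]
  have h3 : (N + 1) ^ D ≤ D.factorial * (N + D).choose D := by
    rw [← Nat.ascFactorial_eq_factorial_mul_choose]
    exact Nat.pow_succ_le_ascFactorial _ _
  have h4 : ((N + 1 : ℕ) : ℝ) ^ D ≤ D.factorial * ((N + D).choose D : ℕ) := by exact_mod_cast h3
  rw [h2, zero_mul, add_zero, pow_succ', mul_assoc, mul_assoc]
  refine mul_le_mul_of_nonneg_left ?_ (Nat.cast_nonneg _)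
  refine le_trans ?_ h4
  exact mul_le_of_le_one_right (by positivity) h1'

theorem lb_module (M : Type v) [AddCommGroup M] [Module (MvPowerSeries (Fin D) K) M]
    [hM : Module.Finite (MvPowerSeries (Fin D) K) M] :
    LB D (mult M (XL K D)) (hsF (MvPowerSeries (Fin D) K) M) := by
  induction hM using IsNoetherianRing.induction_on_isQuotientEquivQuotientPrime
    (MvPowerSeries (Fin D) K) with
  | subsingleton N =>
    rw [mult_of_subsingleton, Int.cast_zero]
    exact LB.zero D fun _ => Nat.cast_nonneg _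
  | quotient N p f =>
    by_cases hp : p.1 = ⊥
    · have e : N ≃ₗ[MvPowerSeries (Fin D) K] MvPowerSeries (Fin D) K :=
        f.trans (Submodule.quotEquivOfEqBot _ hp)
      have h1 : hsF (MvPowerSeries (Fin D) K) N =
          hsF (MvPowerSeries (Fin D) K) (MvPowerSeries (Fin D) K) := by
        funext n
        unfold hsF
        rw [length_quot_equiv e]
      rw [mult_eq_of_equiv _ e, h1]
      exact lb_self K D
    · have h1 : mult N (XL K D) = 0 := by
        refine mult_eq_zero_of_dim_lt (isSop_XL K D N) p.1 (fun r hr x => ?_) ?_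
        · apply f.injective
          obtain ⟨z, hz⟩ := Ideal.Quotient.mk_surjective (f x)
          rw [map_smul, map_zero, ← hz, Algebra.smul_def, Ideal.Quotient.algebraMap_eq,
            Ideal.Quotient.eq_zero_iff_mem.mpr hr, zero_mul]
        · rw [List.length_ofFn]
          have := isDomain_ps K D
          exact dim_quot_lt (ringKrullDim_mvPowerSeries_field K D).le hp
      rw [h1, Int.cast_zero]
      exact LB.zero D fun _ => Nat.cast_nonneg _
  | exact N₁ N₂ N₃ f g hf hg hfg h₁ h₃ =>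
    obtain ⟨k, hk⟩ := exists_length_exact (maximalIdeal (MvPowerSeries (Fin D) K)) f g hf hg hfg
    have e1 : (0 : ℝ) ≤ (mult N₁ (XL K D) : ℤ) := by exact_mod_cast mult_nonneg (isSop_XL K D N₁)
    have e3 : (0 : ℝ) ≤ (mult N₃ (XL K D) : ℤ) := by exact_mod_cast mult_nonneg (isSop_XL K D N₃)
    rw [mult_add_of_exact (isSop_XL K D N₂) f g hf hg hfg, Int.cast_add]
    refine (h₁.shift e1 (fun _ => Nat.cast_nonneg _) k).add h₃ k e1 e3
      (fun _ => Nat.cast_nonneg _) fun N hN => ?_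
    have h1 := ENat.toNat_le_toNat (hk N hN) (length_quot_pow_ne_top N₂ N)
    rw [ENat.toNat_add (length_quot_pow_ne_top N₃ N) (length_quot_pow_ne_top N₁ _)] at h1
    rw [add_comm]
    unfold hsF
    exact_mod_cast h1

end PS

end Vale.Agent.P202.HS
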