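import Vale.Agent.P202.HSMultAuxA

/-! Auxiliary results for HSMult: power series presentation and (S1). -/

namespace Vale.Agent.P202.HS

open IsLocalRing Filter Topology

universe u v

theorem exists_pres {S : Type u} [CommRing S] [IsLocalRing S] [IsNoetherianRing S]
    [IsAdicComplete (maximalIdeal S) S] (hS : EqChar S) {D : ℕ} {y : Fin D → S}
    (hy : IsReduction y) : ∃ Φ : MvPowerSeries (Fin D) (ResidueField S) →+* S,
      (∀ i, Φ (MvPowerSeries.X i) = y i) ∧ Φ.Finite ∧ IsLocalHom Φ ∧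
        ∀ b : S, ∃ a, b - Φ a ∈ maximalIdeal S := by
  obtain ⟨f, hf⟩ := exists_coeffField S hS
  obtain ⟨Φ, h1, h2⟩ := exists_evalHom (σ := Fin D) f y hy.1
  have hK : ∀ s : S, ∃ v : ResidueField S, s - Φ (MvPowerSeries.C v) ∈ maximalIdeal S := by
    intro s
    refine ⟨residue S s, ?_⟩
    have e1 : Φ (MvPowerSeries.C (residue S s)) = f (residue S s) := RingHom.congr_fun h1 _
    have e2 : residue S (f (residue S s)) = residue S s := RingHom.congr_fun hf _
    rw [e1, ← residue_eq_zero_iff, map_sub, e2, sub_self]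
  have hm : ∀ i, Φ (MvPowerSeries.X i) ∈ maximalIdeal S := fun i => (h2 i).symm ▸ hy.1 i
  obtain ⟨r, hr⟩ := hy.pow_le
  refine ⟨Φ, h2, evalHom_finite Φ hm hK (1 + r) ?_, ?_, fun b => ?_⟩
  · have h3 := hr 1
    rw [pow_one] at h3
    have h4 : (fun i => Φ (MvPowerSeries.X i)) = y := funext h2
    rwa [h4]
  · refine ⟨fun a ha => ?_⟩
    by_contra hna
    have h3 : a ∈ maximalIdeal (MvPowerSeries (Fin D) (ResidueField S)) := hna
    have h4 : maximalIdeal (MvPowerSeries (Fin D) (ResidueField S)) ≤ (maximalIdeal S).comap Φ := by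
      rw [max_eq_span, Ideal.span_le]
      rintro _ ⟨i, rfl⟩
      exact hm i
    exact h4 h3 ha
  · obtain ⟨v, hv⟩ := hK b
    exact ⟨_, hv⟩

theorem le_of_lb {D r : ℕ} {m e C : ℝ} {l : ℕ → ℝ}
    (he : Tendsto (fun N : ℕ => (D.factorial : ℝ) * l N / (N : ℝ) ^ D) atTop (𝓝 e))
    (h : ∀ N : ℕ, 0 < N →
      (N : ℝ) ^ (D + 1) * m ≤ (N : ℝ) * (D.factorial : ℝ) * l (N + r) + C * (N : ℝ) ^ D) :
    m ≤ e := by
  have h1 : Tendsto (fun N : ℕ => (D.factorial : ℝ) * l (N + r) / ((N + r : ℕ) : ℝ) ^ D) atTop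
      (𝓝 e) := he.comp (tendsto_add_atTop_nat r)
  have h2 : Tendsto (fun N : ℕ => (1 + (r : ℝ) / N) ^ D) atTop (𝓝 ((1 + 0) ^ D)) :=
    ((tendsto_const_div_atTop_nhds_zero_nat (r : ℝ)).const_add 1).pow D
  have h3 : Tendsto (fun N : ℕ => (D.factorial : ℝ) * l (N + r) / ((N + r : ℕ) : ℝ) ^ D *
      (1 + (r : ℝ) / N) ^ D + C / N) atTop (𝓝 (e * (1 + 0) ^ D + 0)) :=
    (h1.mul h2).add (tendsto_const_div_atTop_nhds_zero_nat C)
  rw [add_zero, add_zero, one_pow, mul_one] at h3
  refine ge_of_tendsto h3 ?_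
  filter_upwards [eventually_gt_atTop 0] with N hN
  have hN' : (0 : ℝ) < N := by exact_mod_cast hN
  have hNr : (0 : ℝ) < ((N + r : ℕ) : ℝ) := by exact_mod_cast (by omega : 0 < N + r)
  have e1 : (1 + (r : ℝ) / N) = ((N + r : ℕ) : ℝ) / N := by
    push_cast
    field_simp
  have e2 : (D.factorial : ℝ) * l (N + r) / ((N + r : ℕ) : ℝ) ^ D * (1 + (r : ℝ) / N) ^ D + C / N =
      ((N : ℝ) * (D.factorial : ℝ) * l (N + r) + C * (N : ℝ) ^ D) / (N : ℝ) ^ (D + 1) := by
    rw [e1, div_pow]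
    field_simp
    ring
  rw [e2, le_div_iff₀ (by positivity), mul_comm]
  exact h N hN

theorem mult_le_of_tendsto_complete {T : Type u} [CommRing T] [IsLocalRing T] [IsNoetherianRing T]
    [IsAdicComplete (maximalIdeal T) T] (hT : EqChar T) {d : ℕ} {x : Fin d → T}
    (hx : IsReduction x) {e : ℝ} (he : Tendsto (hsSeq T d) atTop (𝓝 e)) :
    (mult T (List.ofFn x) : ℝ) ≤ e := by
  obtain ⟨Φ, h1, h2, h3, h4⟩ := exists_pres hT hx
  let _ : Algebra (MvPowerSeries (Fin d) (ResidueField T)) T := Φ.toAlgebra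
  have : Module.Finite (MvPowerSeries (Fin d) (ResidueField T)) T := h2
  have : IsLocalHom (algebraMap (MvPowerSeries (Fin d) (ResidueField T)) T) := h3
  have e1 : (XL (ResidueField T) d).map (algebraMap (MvPowerSeries (Fin d) (ResidueField T)) T) =
      List.ofFn x := by
    rw [List.map_ofFn]
    exact congrArg List.ofFn (funext h1)
  have e2 := mult_restrict (A := MvPowerSeries (Fin d) (ResidueField T)) h4 T
    (XL (ResidueField T) d)
  rw [e1] at e2
  obtain ⟨C, -, hC⟩ := lb_module (ResidueField T) d T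
  obtain ⟨r, hr⟩ := hx.pow_le
  have e3 : (maximalIdeal (MvPowerSeries (Fin d) (ResidueField T))).map
      (algebraMap (MvPowerSeries (Fin d) (ResidueField T)) T) = Ideal.span (Set.range x) := by
    rw [max_eq_span, Ideal.map_span, ← Set.range_comp]
    exact congrArg (fun z => Ideal.span (Set.range z)) (funext h1)
  refine le_of_lb (D := d) (r := r) (C := C)
    (l := fun N => ((Module.length T (T ⧸ maximalIdeal T ^ N)).toNat : ℝ)) he fun N hN => ?_
  rw [← e2]
  refine (hC N hN).trans (add_le_add_left (mul_le_mul_of_nonneg_left ?_ (by positivity)) _)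
  have h5 : Module.length (MvPowerSeries (Fin d) (ResidueField T))
      (T ⧸ (maximalIdeal (MvPowerSeries (Fin d) (ResidueField T)) ^ N • ⊤ :
        Submodule (MvPowerSeries (Fin d) (ResidueField T)) T)) ≤
      Module.length T (T ⧸ maximalIdeal T ^ (N + r)) := by
    rw [← rl_top, ← rl_top, ← rl_restrict (A := MvPowerSeries (Fin d) (ResidueField T)) h4]
    refine rl_mono le_rfl ?_
    rw [Ideal.smul_top_eq_map, Ideal.map_pow, e3]
    exact hr N
  have h6 : Module.length T (T ⧸ maximalIdeal T ^ (N + r)) ≠ ⊤ := by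
    have h7 := length_quot_pow_ne_top (Λ := T) T (N + r)
    rwa [smul_eq_mul, Ideal.mul_top] at h7
  exact_mod_cast ENat.toNat_le_toNat h5 h6

theorem mult_le_of_tendsto' {T : Type u} [CommRing T] [IsLocalRing T] [IsNoetherianRing T]
    (hT : EqChar T) {d : ℕ} {x : Fin d → T} (hx : IsReduction x) {e : ℝ}
    (he : Tendsto (hsSeq T d) atTop (𝓝 e)) : (mult T (List.ofFn x) : ℝ) ≤ e := by
  have := isNoetherianRing_adicCompletion T
  have hu := isUnram_completion T
  have h1 := (hu.mult_eq hx.isSop).2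
  rw [List.map_ofFn] at h1
  rw [← h1]
  rw [hu.hsSeq_eq d] at he
  exact mult_le_of_tendsto_complete (hT.map (algebraMap T _)) (hu.isReduction hx) he

end Vale.Agent.P202.HS
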