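import Mathlib

/-! Module M0a: homology lengths of subquotient complexes inside one differential module.
A complex is a pair of families `A' i ≤ A i` of `T`-submodules of a `B`-module `M`, stable under a
`B`-linear `d` with `d ∘ d = 0`; the grading is homological (`d` lowers the degree by one). -/

namespace Vale.Agent.P202

open Submodule

section RL
variable {T : Type*} [CommRing T] {M : Type*} [AddCommGroup M] [Module T M]
  {M' : Type*} [AddCommGroup M'] [Module T M']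

/-- Relative length: the length of `(P ⊔ Q) / Q`. -/
noncomputable def rl (P Q : Submodule T M) : ℕ∞ := Module.length T (P.map Q.mkQ)

theorem rl_eq_of_surj {P Q : Submodule T M} (g : P →ₗ[T] M') (hs : Function.Surjective g)
    (hk : ∀ x : P, g x = 0 ↔ (x : M) ∈ Q) : rl P Q = Module.length T M' := by
  have h1 : LinearMap.ker g = LinearMap.ker (Q.mkQ ∘ₗ P.subtype) := by
    ext x; simp [hk]
  have h2 : LinearMap.range (Q.mkQ ∘ₗ P.subtype) = P.map Q.mkQ := by
    rw [LinearMap.range_comp, Submodule.range_subtype]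
  rw [rl, ← h2, ← (LinearMap.quotKerEquivRange _).length_eq, ← h1,
    (g.quotKerEquivOfSurjective hs).length_eq]
theorem rl_eq_quot (P Q : Submodule T M) :
    rl P Q = Module.length T (P ⧸ Q.comap P.subtype) :=
  rl_eq_of_surj (Q.comap P.subtype).mkQ (Submodule.mkQ_surjective _) fun x => by simp
theorem length_sub_mono {P P' : Submodule T M} (h : P ≤ P') :
    Module.length T P ≤ Module.length T P' :=
  Module.length_le_of_injective (Submodule.inclusion h) (Submodule.inclusion_injective h)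
theorem length_quot_anti {K K' : Submodule T M} (h : K ≤ K') :
    Module.length T (M ⧸ K') ≤ Module.length T (M ⧸ K) :=
  Module.length_le_of_surjective (Submodule.factor h) (Submodule.factor_surjective h)
theorem rl_le_of_map_inj' (φ : M →ₗ[T] M') {P Q : Submodule T M} {P' Q' : Submodule T M'}
    (h1 : ∀ x ∈ P, φ x ∈ P') (h4 : ∀ x ∈ P, φ x ∈ Q' → x ∈ Q) :
    rl P Q ≤ rl P' Q' := by
  rw [rl_eq_quot]
  have a1 : LinearMap.ker (Q'.mkQ ∘ₗ φ ∘ₗ P.subtype) ≤ Q.comap P.subtype := by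
    intro x hx
    exact h4 x x.2 (by simpa using hx)
  refine (length_quot_anti a1).trans ?_
  rw [(LinearMap.quotKerEquivRange _).length_eq]
  refine length_sub_mono ?_
  rintro _ ⟨x, rfl⟩
  exact ⟨φ x, h1 x x.2, rfl⟩
theorem rl_le_of_map_surj' (φ : M →ₗ[T] M') {P Q : Submodule T M} {P' Q' : Submodule T M'}
    (h2 : ∀ x ∈ P ⊓ Q, φ x ∈ Q') (h3 : ∀ y ∈ P', ∃ x ∈ P, y - φ x ∈ Q') :
    rl P' Q' ≤ rl P Q := by
  rw [rl_eq_quot P Q]
  have a1 : Q.comap P.subtype ≤ LinearMap.ker (Q'.mkQ ∘ₗ φ ∘ₗ P.subtype) := by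
    intro x hx
    simpa using h2 x ⟨x.2, hx⟩
  refine le_trans ?_ (length_quot_anti a1)
  rw [(LinearMap.quotKerEquivRange _).length_eq]
  refine length_sub_mono ?_
  rintro _ ⟨y, hy, rfl⟩
  obtain ⟨x, hx, hxy⟩ := h3 y hy
  exact ⟨⟨x, hx⟩, ((Submodule.Quotient.eq _).mpr hxy).symm⟩

theorem rl_eq_zero_iff {P Q : Submodule T M} : rl P Q = 0 ↔ P ≤ Q := by
  rw [rl, Module.length_eq_zero_iff, Submodule.subsingleton_iff_eq_bot, ← le_bot_iff,
    Submodule.map_le_iff_le_comap, Submodule.comap_bot, Submodule.ker_mkQ]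
theorem rl_self (P : Submodule T M) : rl P P = 0 := rl_eq_zero_iff.mpr le_rfl
theorem rl_sup (P Q : Submodule T M) : rl (P ⊔ Q) Q = rl P Q := by
  rw [rl, rl, Submodule.map_sup, Submodule.mkQ_map_self, sup_bot_eq]
theorem rl_inf (P Q : Submodule T M) : rl P (P ⊓ Q) = rl P Q := by
  rw [rl_eq_quot, rl_eq_quot, Submodule.comap_inf, Submodule.comap_subtype_self, top_inf_eq]
theorem rl_add {A B C : Submodule T M} (hCB : C ≤ B) (hBA : B ≤ A) :
    rl A C = rl A B + rl B C := by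
  have hm : ∀ x ∈ A.map C.mkQ, Submodule.factor hCB x ∈ A.map B.mkQ := by
    rintro _ ⟨x, hx, rfl⟩
    exact ⟨x, hx, rfl⟩
  rw [add_comm]
  refine Module.length_eq_add_of_exact (Submodule.inclusion (Submodule.map_mono hBA))
    ((Submodule.factor hCB).restrict hm) (Submodule.inclusion_injective _) ?_ ?_
  · rintro ⟨_, x, hx, rfl⟩
    exact ⟨⟨C.mkQ x, x, hx, rfl⟩, rfl⟩
  · rintro ⟨_, x, hx, rfl⟩
    constructor
    · intro h
      have h1 : B.mkQ x = 0 := congrArg Subtype.val h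
      exact ⟨⟨C.mkQ x, x, (Submodule.Quotient.mk_eq_zero B).mp h1, rfl⟩, rfl⟩
    · rintro ⟨⟨_, y, hy, rfl⟩, h⟩
      rw [← h]
      exact Subtype.ext ((Submodule.Quotient.mk_eq_zero B).mpr hy)
theorem rl_mono {P P' Q Q' : Submodule T M} (hP : P ≤ P') (hQ : Q' ≤ Q) : rl P Q ≤ rl P' Q' :=
  rl_le_of_map_inj' LinearMap.id (fun _ hx => hP hx) fun _ _ hx => hQ hx
theorem rl_le_add (A B C : Submodule T M) : rl A C ≤ rl A B + rl B C := by
  have h1 : rl A C ≤ rl (A ⊔ (B ⊔ C)) C := rl_mono le_sup_left le_rfl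
  rw [rl_add (le_sup_right : C ≤ B ⊔ C) le_sup_right, rl_sup, rl_sup] at h1
  exact h1.trans (add_le_add (rl_mono le_rfl le_sup_left) le_rfl)
theorem rl_bot (P : Submodule T M) : rl P ⊥ = Module.length T P :=
  rl_eq_of_surj LinearMap.id Function.surjective_id fun x => by simp
theorem rl_top (Q : Submodule T M) : rl ⊤ Q = Module.length T (M ⧸ Q) := by
  rw [rl, Submodule.map_top, Submodule.range_mkQ, Module.length_top]
/-- Invariance under a linear map inducing an isomorphism of subquotients. -/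
theorem rl_eq_of_map (φ : M →ₗ[T] M') {P Q : Submodule T M} {P' Q' : Submodule T M'}
    (h1 : ∀ x ∈ P, φ x ∈ P') (h2 : ∀ x ∈ Q, φ x ∈ Q')
    (h3 : ∀ y ∈ P', ∃ x ∈ P, y - φ x ∈ Q') (h4 : ∀ x ∈ P, φ x ∈ Q' → x ∈ Q) :
    rl P Q = rl P' Q' :=
  le_antisymm (rl_le_of_map_inj' φ h1 h4) (rl_le_of_map_surj' φ (fun x hx => h2 x hx.2) h3)
/-- A subquotient that injects has smaller length. -/
theorem rl_le_of_map_inj (φ : M →ₗ[T] M') {P Q : Submodule T M} {P' Q' : Submodule T M'}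
    (h1 : ∀ x ∈ P, φ x ∈ P') (h4 : ∀ x ∈ P, φ x ∈ Q' → x ∈ Q) :
    rl P Q ≤ rl P' Q' := rl_le_of_map_inj' φ h1 h4
/-- A subquotient that is the image of another has smaller length. -/
theorem rl_le_of_map_surj (φ : M →ₗ[T] M') {P Q : Submodule T M} {P' Q' : Submodule T M'}
    (h2 : ∀ x ∈ P ⊓ Q, φ x ∈ Q') (h3 : ∀ y ∈ P', ∃ x ∈ P, y - φ x ∈ Q') :
    rl P' Q' ≤ rl P Q := rl_le_of_map_surj' φ h2 h3
theorem rl_pi {ι : Type*} [Fintype ι] (P Q : ι → Submodule T M) :
    rl (Submodule.pi Set.univ P) (Submodule.pi Set.univ Q) = ∑ a, rl (P a) (Q a) := by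
  simp only [rl, ← Module.length_pi_of_fintype]
  refine rl_eq_of_surj (LinearMap.pi fun a => LinearMap.codRestrict ((P a).map (Q a).mkQ)
    ((Q a).mkQ ∘ₗ LinearMap.proj a ∘ₗ (Submodule.pi Set.univ P).subtype)
    fun x => ⟨x.1 a, x.2 a (Set.mem_univ a), rfl⟩) ?_ ?_
  · intro y
    choose x hx hxy using fun a => (y a).2
    exact ⟨⟨x, fun a _ => hx a⟩, funext fun a => Subtype.ext (hxy a)⟩
  · intro x
    rw [funext_iff, Submodule.mem_pi]
    refine forall_congr' fun a => ?_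
    exact ⟨fun h _ => (Submodule.Quotient.mk_eq_zero _).mp (congrArg Subtype.val h),
      fun h => Subtype.ext ((Submodule.Quotient.mk_eq_zero _).mpr (h (Set.mem_univ a)))⟩
/-- Lengths over a ring and over a quotient ring agree. -/
theorem rl_restrictScalars {T₀ : Type*} [CommRing T₀] [Algebra T₀ T] [Module T₀ M]
    [IsScalarTower T₀ T M] (h : Function.Surjective (algebraMap T₀ T)) (P Q : Submodule T M) :
    rl (P.restrictScalars T₀) (Q.restrictScalars T₀) = rl P Q := by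
  rw [rl.eq_1 P Q, ← Module.length_eq_of_surjective (M := P.map Q.mkQ) h]
  refine rl_eq_of_surj (LinearMap.codRestrict ((P.map Q.mkQ).restrictScalars T₀)
    (Q.mkQ.restrictScalars T₀ ∘ₗ (P.restrictScalars T₀).subtype) fun x => ⟨x.1, x.2, rfl⟩) ?_ ?_
  · rintro ⟨_, x, hx, rfl⟩
    exact ⟨⟨x, hx⟩, rfl⟩
  · intro x
    exact ⟨fun h => (Submodule.Quotient.mk_eq_zero _).mp (congrArg Subtype.val h),
      fun h => Subtype.ext ((Submodule.Quotient.mk_eq_zero _).mpr h)⟩
end RL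

/-- The sign `(-1)^i`. -/
def sgn (i : ℤ) : ℤ := (i.negOnePow : ℤˣ)

theorem sgn_add (i j : ℤ) : sgn (i + j) = sgn i * sgn j := by
  simp [sgn, Int.negOnePow_add]
theorem sgn_succ (i : ℤ) : sgn (i + 1) = - sgn i := by
  simp [sgn, Int.negOnePow_succ]
theorem sgn_mul_self (i : ℤ) : sgn i * sgn i = 1 := by
  rw [sgn, ← Units.val_mul, Int.units_mul_self, Units.val_one]
theorem sgn_zero : sgn 0 = 1 := by simp [sgn]
theorem sgn_natCast (n : ℕ) : sgn n = (-1) ^ n := by
  induction n with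
  | zero => simp [sgn]
  | succ n ih => rw [Nat.cast_succ, sgn_succ, ih, pow_succ]; ring

section Cx
variable {T : Type*} [CommRing T] {B : Type*} [CommRing B] [Algebra T B]
  {M : Type*} [AddCommGroup M] [Module B M] [Module T M] [IsScalarTower T B M]
  {B' : Type*} [CommRing B'] [Algebra T B']
  {M' : Type*} [AddCommGroup M'] [Module B' M'] [Module T M'] [IsScalarTower T B' M']

/-- A family of submodules stable under `d`. -/
def IsFam (d : M →ₗ[B] M) (A : ℤ → Submodule T M) : Prop := ∀ i, ∀ x ∈ A i, d x ∈ A (i - 1)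

/-- The family equal to `L` in degree `0` and zero elsewhere. -/
def conc (L : Submodule T M) : ℤ → Submodule T M := fun i => if i = 0 then L else ⊥

/-- Cycles of `A / A'` in degree `i`. -/
def cyc (d : M →ₗ[B] M) (A A' : ℤ → Submodule T M) (i : ℤ) : Submodule T M :=
  A i ⊓ (A' (i - 1)).comap (d.restrictScalars T)

/-- Boundaries of `A / A'` in degree `i`. -/
def bdy (d : M →ₗ[B] M) (A A' : ℤ → Submodule T M) (i : ℤ) : Submodule T M :=
  (A (i + 1)).map (d.restrictScalars T) ⊔ A' i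

/-- Length of the `i`-th homology of `A / A'`. -/
noncomputable def hl (d : M →ₗ[B] M) (A A' : ℤ → Submodule T M) (i : ℤ) : ℕ∞ :=
  rl (cyc d A A' i) (bdy d A A' i)

/-- `A / A'` is a complex. -/
structure IsPair (d : M →ₗ[B] M) (A A' : ℤ → Submodule T M) : Prop where
  dd : ∀ x, d (d x) = 0
  top : IsFam d A
  bot : IsFam d A'
  le : ∀ i, A' i ≤ A i

/-- Total homology of finite length. -/
structure FinH (d : M →ₗ[B] M) (A A' : ℤ → Submodule T M) : Prop where
  ne_top : ∀ i, hl d A A' i ≠ ⊤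
  fin : (Function.support (hl d A A')).Finite

/-- Euler characteristic of the homology of `A / A'`. -/
noncomputable def eul (d : M →ₗ[B] M) (A A' : ℤ → Submodule T M) : ℤ :=
  ∑ᶠ i, sgn i * ((hl d A A' i).toNat : ℤ)

theorem mem_cyc {d : M →ₗ[B] M} {A A' : ℤ → Submodule T M} {i : ℤ} {x : M} :
    x ∈ cyc d A A' i ↔ x ∈ A i ∧ d x ∈ A' (i - 1) := Iff.rfl
theorem mem_bdy {d : M →ₗ[B] M} {A A' : ℤ → Submodule T M} {i : ℤ} {x : M} :
    x ∈ bdy d A A' i ↔ ∃ y ∈ A (i + 1), x - d y ∈ A' i := by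
  rw [bdy, Submodule.mem_sup]
  constructor
  · rintro ⟨_, ⟨y, hy, rfl⟩, z, hz, rfl⟩
    exact ⟨y, hy, by simpa using hz⟩
  · rintro ⟨y, hy, h⟩
    exact ⟨d y, ⟨y, hy, rfl⟩, x - d y, h, by abel⟩
theorem hl_eq_zero_iff {d : M →ₗ[B] M} {A A' : ℤ → Submodule T M} {i : ℤ} :
    hl d A A' i = 0 ↔ ∀ x ∈ A i, d x ∈ A' (i - 1) → ∃ y ∈ A (i + 1), x - d y ∈ A' i := by
  rw [hl, rl_eq_zero_iff]
  exact ⟨fun h x h1 h2 => mem_bdy.mp (h (mem_cyc.mpr ⟨h1, h2⟩)),
    fun h x hx => mem_bdy.mpr (h x (mem_cyc.mp hx).1 (mem_cyc.mp hx).2)⟩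
theorem hl_self (d : M →ₗ[B] M) (A : ℤ → Submodule T M) (i : ℤ) : hl d A A i = 0 :=
  rl_eq_zero_iff.mpr (inf_le_left.trans le_sup_right)
theorem hl_le_rl (d : M →ₗ[B] M) (A A' : ℤ → Submodule T M) (i : ℤ) :
    hl d A A' i ≤ rl (A i) (A' i) := rl_mono inf_le_left le_sup_right
theorem hl_conc (L L' : Submodule T M) (i : ℤ) :
    hl (0 : M →ₗ[B] M) (conc L) (conc L') i = if i = 0 then rl L L' else 0 := by
  have h1 : cyc (0 : M →ₗ[B] M) (conc L) (conc L') i = conc L i := by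
    ext x; simp [mem_cyc]
  have h2 : bdy (0 : M →ₗ[B] M) (conc L) (conc L') i = conc L' i := by
    ext x
    rw [mem_bdy]
    exact ⟨fun ⟨_, _, h⟩ => by simpa using h, fun h => ⟨0, zero_mem _, by simpa using h⟩⟩
  rw [hl, h1, h2]
  unfold conc
  split_ifs
  · rfl
  · exact rl_self _
theorem isFam_conc (L : Submodule T M) : IsFam (0 : M →ₗ[B] M) (conc L) :=
  fun _ _ _ => zero_mem _

theorem finH_of_hl_eq_zero {d : M →ₗ[B] M} {A A' : ℤ → Submodule T M}
    (h : ∀ i, hl d A A' i = 0) : FinH d A A' :=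
  ⟨fun i => by rw [h i]; exact ENat.zero_ne_top,
    Set.finite_empty.subset fun i hi => absurd (h i) hi⟩
theorem eul_of_hl_eq_zero {d : M →ₗ[B] M} {A A' : ℤ → Submodule T M}
    (h : ∀ i, hl d A A' i = 0) : eul d A A' = 0 := by
  simp [eul, h]
theorem eul_eq_sum {d : M →ₗ[B] M} {A A' : ℤ → Submodule T M} (s : Finset ℤ)
    (h : ∀ i, i ∉ s → hl d A A' i = 0) :
    eul d A A' = ∑ i ∈ s, sgn i * ((hl d A A' i).toNat : ℤ) := by
  refine finsum_eq_sum_of_support_subset _ fun i hi => ?_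
  by_contra hn
  exact hi (by simp [h i hn])

section LES
variable {d : M →ₗ[B] M} {A A' A'' : ℤ → Submodule T M}

theorem IsPair.les_d (h : IsPair d A A') {i : ℤ} {y : M} (hy : y ∈ A (i + 1)) : d y ∈ A i := by
  have := h.top _ _ hy
  rwa [add_sub_cancel_right] at this

theorem les_dy_mem_bdy {i : ℤ} {y : M} (hy : y ∈ A (i + 1)) : d y ∈ bdy d A A' i :=
  mem_bdy.2 ⟨y, hy, by rw [sub_self]; exact zero_mem _⟩

theorem les_bot_le_bdy {i : ℤ} {x : M} (hx : x ∈ A' i) : x ∈ bdy d A A' i :=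
  mem_bdy.2 ⟨0, zero_mem _, by rwa [map_zero, sub_zero]⟩

theorem IsPair.bdy_le_cyc (h : IsPair d A A') (i : ℤ) : bdy d A A' i ≤ cyc d A A' i := by
  intro x hx
  obtain ⟨y, hy, hxy⟩ := mem_bdy.1 hx
  refine mem_cyc.2 ⟨?_, ?_⟩
  · have := add_mem (h.le _ hxy) (h.les_d hy)
    rwa [sub_add_cancel] at this
  · have := h.bot _ _ hxy
    rwa [map_sub, h.dd, sub_zero] at this

/-- The long exact homology sequence of `A ≥ A' ≥ A''`, in terms of lengths. -/
theorem exists_les (h : IsPair d A A') (h' : IsPair d A' A'') :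
    ∃ α β γ : ℤ → ℕ∞, (∀ i, hl d A A'' i = α i + β i) ∧ (∀ i, hl d A A' i = β i + γ i) ∧
      (∀ i, hl d A' A'' i = γ (i + 1) + α i) ∧
      (∀ i, α i = rl (cyc d A' A'' i) (bdy d A A'' i)) := by
  have h'' : IsPair d A A'' := ⟨h.dd, h.top, h'.bot, fun i => (h'.le i).trans (h.le i)⟩
  refine ⟨fun i => rl (cyc d A' A'' i) (bdy d A A'' i),
    fun i => rl (cyc d A A'' i ⊔ A' i) (bdy d A A' i),
    fun i => rl (cyc d A A' i) (cyc d A A'' i ⊔ A' i), fun i => ?_, fun i => ?_, fun i => ?_,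
    fun i => rfl⟩
  · have l1 : cyc d A' A'' i ⊔ bdy d A A'' i ≤ cyc d A A'' i :=
      sup_le (fun x hx => mem_cyc.2 ⟨h.le _ (mem_cyc.1 hx).1, (mem_cyc.1 hx).2⟩) (h''.bdy_le_cyc i)
    rw [hl, rl_add le_sup_right l1, rl_sup, add_comm]
    congr 1
    refine rl_eq_of_map LinearMap.id (fun x hx => mem_sup_left hx) (fun x hx => ?_)
      (fun y hy => ?_) fun x hx hx' => ?_
    · obtain ⟨a, ha, b, hb, rfl⟩ := mem_sup.1 hx
      obtain ⟨y, hy, hby⟩ := mem_bdy.1 hb
      exact add_mem (les_bot_le_bdy (mem_cyc.1 ha).1) (mem_bdy.2 ⟨y, hy, h'.le _ hby⟩)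
    · obtain ⟨a, ha, b, hb, rfl⟩ := mem_sup.1 hy
      exact ⟨a, ha, by rw [LinearMap.id_apply, add_sub_cancel_left]; exact les_bot_le_bdy hb⟩
    · obtain ⟨y, hy, hxy⟩ := mem_bdy.1 hx'
      rw [LinearMap.id_apply] at hxy
      refine mem_sup.2 ⟨x - d y, mem_cyc.2 ⟨hxy, ?_⟩, d y, les_dy_mem_bdy hy, sub_add_cancel _ _⟩
      rw [map_sub, h.dd, sub_zero]
      exact (mem_cyc.1 hx).2
  · have l1 : bdy d A A' i ≤ cyc d A A'' i ⊔ A' i := fun x hx => by
      obtain ⟨y, hy, hxy⟩ := mem_bdy.1 hx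
      refine mem_sup.2 ⟨d y, mem_cyc.2 ⟨h.les_d hy, ?_⟩, x - d y, hxy, add_sub_cancel _ _⟩
      rw [h.dd]
      exact zero_mem _
    have l2 : cyc d A A'' i ⊔ A' i ≤ cyc d A A' i :=
      sup_le (fun x hx => mem_cyc.2 ⟨(mem_cyc.1 hx).1, h'.le _ (mem_cyc.1 hx).2⟩)
        fun x hx => mem_cyc.2 ⟨h.le _ hx, h.bot _ _ hx⟩
    rw [hl, rl_add l1 l2, add_comm]
  · have l1 : bdy d A' A'' i ≤ cyc d A' A'' i ⊓ bdy d A A'' i := le_inf (h'.bdy_le_cyc i) fun x hx => by
      obtain ⟨y, hy, hxy⟩ := mem_bdy.1 hx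
      exact mem_bdy.2 ⟨y, h.le _ hy, hxy⟩
    rw [hl, rl_add l1 inf_le_left, rl_inf, add_comm]
    congr 1
    refine (rl_eq_of_map (d.restrictScalars T) (fun x hx => ?_) (fun x hx => ?_)
      (fun y hy => ?_) fun x hx hx' => ?_).symm
    · have hx1 := mem_cyc.1 hx
      rw [add_sub_cancel_right] at hx1
      refine ⟨mem_cyc.2 ⟨hx1.2, ?_⟩, les_dy_mem_bdy hx1.1⟩
      rw [LinearMap.restrictScalars_apply, h.dd]
      exact zero_mem _
    · obtain ⟨a, ha, b, hb, rfl⟩ := mem_sup.1 hx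
      have ha1 := (mem_cyc.1 ha).2
      rw [add_sub_cancel_right] at ha1
      rw [LinearMap.restrictScalars_apply, map_add]
      exact add_mem (les_bot_le_bdy ha1) (les_dy_mem_bdy hb)
    · obtain ⟨x, hx, hxy⟩ := mem_bdy.1 hy.2
      refine ⟨x, mem_cyc.2 ⟨hx, ?_⟩, les_bot_le_bdy hxy⟩
      have := sub_mem (mem_cyc.1 hy.1).1 (h'.le _ hxy)
      rwa [sub_sub_cancel, ← add_sub_cancel_right i 1] at this
    · obtain ⟨y, hy, hxy⟩ := mem_bdy.1 hx'
      refine mem_sup.2 ⟨x - y, mem_cyc.2 ⟨sub_mem (mem_cyc.1 hx).1 (h.le _ hy), ?_⟩, y, hy,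
        sub_add_cancel _ _⟩
      rw [add_sub_cancel_right, map_sub]
      exact hxy
theorem IsPair.trans (h : IsPair d A A') (h' : IsPair d A' A'') : IsPair d A A'' :=
  ⟨h.dd, h.top, h'.bot, fun i => (h'.le i).trans (h.le i)⟩
theorem hl_le_add (h : IsPair d A A') (h' : IsPair d A' A'') (i : ℤ) :
    hl d A A'' i ≤ hl d A A' i + hl d A' A'' i := by
  obtain ⟨α, β, γ, h1, h2, h3, -⟩ := exists_les h h'
  rw [h1, h2, h3, add_comm]
  exact add_le_add le_self_add le_add_self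
theorem hl_quot_le (h : IsPair d A A') (h' : IsPair d A' A'') (i : ℤ) :
    hl d A A' i ≤ hl d A A'' i + hl d A' A'' (i - 1) := by
  obtain ⟨α, β, γ, h1, h2, h3, -⟩ := exists_les h h'
  rw [h1, h2, h3, sub_add_cancel]
  exact add_le_add le_add_self le_self_add
theorem hl_sub_le (h : IsPair d A A') (h' : IsPair d A' A'') (i : ℤ) :
    hl d A' A'' i ≤ hl d A A'' i + hl d A A' (i + 1) := by
  obtain ⟨α, β, γ, h1, h2, h3, -⟩ := exists_les h h'
  rw [h1, h2, h3, add_comm]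
  exact add_le_add le_self_add le_add_self

theorem les_fin_of_le {f g g' : ℤ → ℕ∞} (k k' : ℤ) (hle : ∀ i, f i ≤ g (i + k) + g' (i + k'))
    (h1 : ∀ i, g i ≠ ⊤) (h2 : (Function.support g).Finite) (h1' : ∀ i, g' i ≠ ⊤)
    (h2' : (Function.support g').Finite) : (∀ i, f i ≠ ⊤) ∧ (Function.support f).Finite := by
  refine ⟨fun i => ne_top_of_le_ne_top (WithTop.add_ne_top.2 ⟨h1 _, h1' _⟩) (hle i), ?_⟩
  refine ((h2.preimage (f := fun i => i + k) (add_left_injective k).injOn).union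
    (h2'.preimage (f := fun i => i + k') (add_left_injective k').injOn)).subset fun i hi => ?_
  by_contra hcon
  simp only [Set.mem_union, Set.mem_preimage, Function.mem_support, not_or, not_not] at hcon
  have := hle i
  rw [hcon.1, hcon.2, add_zero] at this
  exact hi (nonpos_iff_eq_zero.1 this)

theorem FinH.mid (h : IsPair d A A') (h' : IsPair d A' A'') (f : FinH d A A') (f' : FinH d A' A'') :
    FinH d A A'' := by
  have := les_fin_of_le (f := hl d A A'') 0 0 (fun i => by simpa using hl_le_add h h' i)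
    f.ne_top f.fin f'.ne_top f'.fin
  exact ⟨this.1, this.2⟩
theorem FinH.quot (h : IsPair d A A') (h' : IsPair d A' A'') (f : FinH d A A'')
    (f' : FinH d A' A'') : FinH d A A' := by
  have := les_fin_of_le (f := hl d A A') 0 (-1)
    (fun i => by rw [add_zero, ← sub_eq_add_neg]; exact hl_quot_le h h' i)
    f.ne_top f.fin f'.ne_top f'.fin
  exact ⟨this.1, this.2⟩
theorem FinH.sub (h : IsPair d A A') (h' : IsPair d A' A'') (f : FinH d A A'')
    (f' : FinH d A A') : FinH d A' A'' := by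
  have := les_fin_of_le (f := hl d A' A'') 0 1
    (fun i => by rw [add_zero]; exact hl_sub_le h h' i) f.ne_top f.fin f'.ne_top f'.fin
  exact ⟨this.1, this.2⟩

theorem les_finsum_add {f g g' : ℤ → ℕ∞} (he : ∀ i, f i = g i + g' i) (h1 : ∀ i, f i ≠ ⊤)
    (h2 : (Function.support f).Finite) :
    ∑ᶠ i, sgn i * ((f i).toNat : ℤ) =
      ∑ᶠ i, sgn i * ((g i).toNat : ℤ) + ∑ᶠ i, sgn i * ((g' i).toNat : ℤ) := by
  have key : ∀ u : ℤ → ℕ∞, (∀ i, u i ≤ f i) →
      (Function.support fun i => sgn i * ((u i).toNat : ℤ)).Finite := fun u hu =>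
    h2.subset fun i hi hf => hi (by
      have := hu i
      rw [hf] at this
      simp [nonpos_iff_eq_zero.1 this])
  rw [← finsum_add_distrib (key g fun i => by rw [he]; exact le_self_add)
    (key g' fun i => by rw [he]; exact le_add_self)]
  refine finsum_congr fun i => ?_
  have := h1 i
  rw [he] at this ⊢
  obtain ⟨a1, a2⟩ := WithTop.add_ne_top.1 this
  rw [ENat.toNat_add a1 a2]
  push_cast
  ring

theorem eul_add (h : IsPair d A A') (h' : IsPair d A' A'') (f : FinH d A A') (f' : FinH d A' A'') :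
    eul d A A'' = eul d A A' + eul d A' A'' := by
  have f'' := FinH.mid h h' f f'
  obtain ⟨α, β, γ, h1, h2, h3, -⟩ := exists_les h h'
  have e : ∑ᶠ i, sgn i * ((γ (i + 1)).toNat : ℤ) = -∑ᶠ i, sgn i * ((γ i).toNat : ℤ) := by
    rw [← finsum_neg_distrib,
      ← finsum_comp_equiv (Equiv.addRight (1 : ℤ)) (f := fun i => -(sgn i * ((γ i).toNat : ℤ)))]
    refine finsum_congr fun i => ?_
    rw [Equiv.coe_addRight, sgn_succ]
    ring
  unfold eul
  rw [les_finsum_add h1 f''.ne_top f''.fin, les_finsum_add h2 f.ne_top f.fin,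
    les_finsum_add (g := fun i => γ (i + 1)) h3 f'.ne_top f'.fin, e]
  ring

theorem les_chain_pair (F : ℕ → ℤ → Submodule T M) (N : ℕ)
    (h : ∀ k < N + 1, IsPair d (F k) (F (k + 1))) : IsPair d (F 0) (F N) := by
  induction N with
  | zero => exact ⟨(h 0 one_pos).dd, (h 0 one_pos).top, (h 0 one_pos).top, fun _ => le_rfl⟩
  | succ N ih => exact (ih fun k hk => h k (by omega)).trans (h N (by omega))

/-- A chain of families. -/
theorem hl_chain_le (F : ℕ → ℤ → Submodule T M) (N : ℕ)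
    (h : ∀ k < N, IsPair d (F k) (F (k + 1))) (i : ℤ) :
    hl d (F 0) (F N) i ≤ ∑ k ∈ Finset.range N, hl d (F k) (F (k + 1)) i := by
  induction N with
  | zero => simp [hl_self]
  | succ N ih =>
    rw [Finset.sum_range_succ]
    exact (hl_le_add (les_chain_pair F N h) (h N (by omega)) i).trans
      (add_le_add (ih fun k hk => h k (by omega)) le_rfl)
theorem finH_eul_chain (F : ℕ → ℤ → Submodule T M) (N : ℕ)
    (h : ∀ k < N, IsPair d (F k) (F (k + 1))) (f : ∀ k < N, FinH d (F k) (F (k + 1))) :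
    FinH d (F 0) (F N) ∧
      eul d (F 0) (F N) = ∑ k ∈ Finset.range N, eul d (F k) (F (k + 1)) := by
  induction N with
  | zero => exact ⟨finH_of_hl_eq_zero (hl_self d _), eul_of_hl_eq_zero (hl_self d _)⟩
  | succ N ih =>
    obtain ⟨a1, a2⟩ := ih (fun k hk => h k (by omega)) fun k hk => f k (by omega)
    have p := les_chain_pair F N h
    refine ⟨FinH.mid p (h N (by omega)) a1 (f N (by omega)), ?_⟩
    rw [Finset.sum_range_succ, eul_add p (h N (by omega)) a1 (f N (by omega)), a2]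
end LES

/-- `φ` induces an isomorphism of complexes `A / A' ≅ C / C'`, shifting degrees by `k` and
commuting with the differentials up to the sign `ε`. -/
structure PairIso (d : M →ₗ[B] M) (A A' : ℤ → Submodule T M) (d' : M' →ₗ[B'] M')
    (C C' : ℤ → Submodule T M') (φ : M →ₗ[T] M') (ε : ℤˣ) (k : ℤ) : Prop where
  map_top : ∀ i, ∀ x ∈ A i, φ x ∈ C (i + k)
  map_bot : ∀ i, ∀ x ∈ A' i, φ x ∈ C' (i + k)
  surj : ∀ i, ∀ y ∈ C (i + k), ∃ x ∈ A i, y - φ x ∈ C' (i + k)
  inj : ∀ i, ∀ x ∈ A i, φ x ∈ C' (i + k) → x ∈ A' i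
  comm : ∀ i, ∀ x ∈ A i, φ (d x) - ε • d' (φ x) ∈ C' (i + k - 1)

section Iso
variable {d : M →ₗ[B] M} {A A' : ℤ → Submodule T M} {d' : M' →ₗ[B'] M'}
  {C C' : ℤ → Submodule T M'} {φ : M →ₗ[T] M'} {ε : ℤˣ} {k : ℤ}

theorem units_smul_mem_iff (S : Submodule T M') (e : ℤˣ) (y : M') : e • y ∈ S ↔ y ∈ S := by
  rcases Int.units_eq_one_or e with rfl | rfl <;> simp

theorem PairIso.hl_eq (h : PairIso d A A' d' C C' φ ε k) (hA : IsPair d A A') (hC : IsPair d' C C')
    (i : ℤ) : hl d A A' i = hl d' C C' (i + k) := by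
  have e1 : i - 1 + k = i + k - 1 := by ring
  have e2 : i + 1 + k = i + k + 1 := by ring
  have e3 : i + 1 + k - 1 = i + k := by ring
  have e4 : i + 1 - 1 = i := by ring
  have hεε : ∀ y : M', ε • ε • y = y := fun y => by
    rw [smul_smul, Int.units_mul_self, one_smul]
  have key : ∀ x ∈ A i, (d x ∈ A' (i - 1) ↔ d' (φ x) ∈ C' (i + k - 1)) := by
    intro x hx
    have c := h.comm i x hx
    constructor
    · intro h1
      have a1 := h.map_bot _ _ h1
      rw [e1] at a1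
      have a2 := sub_mem a1 c
      rw [sub_sub_cancel] at a2
      exact (units_smul_mem_iff _ _ _).mp a2
    · intro h1
      have a2 := add_mem c ((units_smul_mem_iff _ ε _).mpr h1)
      rw [sub_add_cancel, ← e1] at a2
      exact h.inj _ _ (hA.top i x hx) a2
  refine rl_eq_of_map φ ?_ ?_ ?_ ?_
  · intro x hx
    obtain ⟨h1, h2⟩ := mem_cyc.mp hx
    exact mem_cyc.mpr ⟨h.map_top i x h1, (key x h1).mp h2⟩
  · intro x hx
    obtain ⟨y, hy, hxy⟩ := mem_bdy.mp hx
    have c := h.comm _ y hy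
    rw [e3] at c
    refine mem_bdy.mpr ⟨ε • φ y, (units_smul_mem_iff _ _ _).mpr (e2 ▸ h.map_top _ y hy), ?_⟩
    have a1 := add_mem (h.map_bot _ _ hxy) c
    rw [map_sub, sub_add_sub_cancel] at a1
    rcases Int.units_eq_one_or ε with rfl | rfl <;> simpa using a1
  · intro y hy
    obtain ⟨h1, h2⟩ := mem_cyc.mp hy
    obtain ⟨x, hx, hxy⟩ := h.surj i y h1
    refine ⟨x, mem_cyc.mpr ⟨hx, (key x hx).mpr ?_⟩, Submodule.mem_sup_right hxy⟩
    have a1 := sub_mem h2 (hC.bot _ _ hxy)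
    rwa [map_sub, sub_sub_cancel] at a1
  · intro x hx hφ
    obtain ⟨h1, _⟩ := mem_cyc.mp hx
    obtain ⟨z, hz, hxz⟩ := mem_bdy.mp hφ
    obtain ⟨y, hy, hzy⟩ := h.surj (i + 1) z (e2 ▸ hz)
    have c := h.comm _ y hy
    rw [e3] at c
    have a1 := hC.bot _ _ hzy
    rw [e3, map_sub] at a1
    have hy' : ε • y ∈ A (i + 1) := by
      rcases Int.units_eq_one_or ε with rfl | rfl <;> simpa using hy
    refine mem_bdy.mpr ⟨ε • y, hy', h.inj i _ (sub_mem h1 (e4 ▸ hA.top _ _ hy')) ?_⟩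
    have a2 := sub_mem (add_mem hxz a1) ((units_smul_mem_iff _ ε _).mpr c)
    rw [smul_sub, hεε, sub_add_sub_cancel, sub_sub_sub_cancel_right] at a2
    rcases Int.units_eq_one_or ε with rfl | rfl <;> simpa using a2
/-- Transfer of `FinH` and `eul` along an equality of homology lengths. -/
theorem finH_eul_of_hl_eq (k : ℤ) (h : ∀ i, hl d A A' i = hl d' C C' (i + k)) :
    (FinH d A A' ↔ FinH d' C C') ∧ eul d' C C' = sgn k * eul d A A' := by
  have h' : ∀ i, hl d' C C' i = hl d A A' (i - k) := fun i => by rw [h, sub_add_cancel]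
  refine ⟨⟨fun f => ⟨fun i => h' i ▸ f.ne_top _, ?_⟩, fun f => ⟨fun i => h i ▸ f.ne_top _, ?_⟩⟩, ?_⟩
  · exact (f.fin.image (· + k)).subset fun i hi =>
      ⟨i - k, by rwa [Function.mem_support, ← h'], sub_add_cancel _ _⟩
  · exact (f.fin.image (· - k)).subset fun i hi =>
      ⟨i + k, by rwa [Function.mem_support, ← h], add_sub_cancel_right _ _⟩
  · rw [eul, eul, ← finsum_comp_equiv (Equiv.addRight k)]
    have hk : sgn k ≠ 0 := fun h0 => by
      have := sgn_mul_self k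
      rw [h0] at this; simp at this
    rw [mul_finsum]
    refine finsum_congr fun i => ?_
    rw [Equiv.coe_addRight, ← h, sgn_add]; ring
theorem PairIso.finH_iff (h : PairIso d A A' d' C C' φ ε k) (hA : IsPair d A A')
    (hC : IsPair d' C C') : FinH d A A' ↔ FinH d' C C' :=
  (finH_eul_of_hl_eq k (h.hl_eq hA hC)).1
theorem PairIso.eul_eq (h : PairIso d A A' d' C C' φ ε k) (hA : IsPair d A A')
    (hC : IsPair d' C C') : eul d' C C' = sgn k * eul d A A' :=
  (finH_eul_of_hl_eq k (h.hl_eq hA hC)).2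
end Iso

section Homotopy
variable {d : M →ₗ[B] M} {A A' : ℤ → Submodule T M}

/-- A contracting homotopy kills homology. -/
theorem hl_eq_zero_of_homotopy (hA : IsPair d A A') (h : M →ₗ[T] M)
    (h1 : ∀ i, ∀ x ∈ A i, h x ∈ A (i + 1)) (h2 : ∀ i, ∀ x ∈ A' i, h x ∈ A' (i + 1))
    (h3 : ∀ i, ∀ x ∈ A i, d (h x) + h (d x) - x ∈ A' i) (i : ℤ) : hl d A A' i = 0 := by
  refine hl_eq_zero_iff.mpr fun x hx hdx => ⟨h x, h1 i x hx, ?_⟩
  have a1 := h2 _ _ hdx
  rw [sub_add_cancel] at a1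
  have a2 := sub_mem a1 (h3 i x hx)
  have e : h (d x) - (d (h x) + h (d x) - x) = x - d (h x) := by abel
  rwa [e] at a2
/-- A homotopy from the identity to a locally nilpotent map kills homology. -/
theorem hl_eq_zero_of_homotopy_nilp (hA : IsPair d A A') (h ν : M →ₗ[T] M)
    (h1 : ∀ i, ∀ x ∈ A i, h x ∈ A (i + 1)) (h2 : ∀ i, ∀ x ∈ A' i, h x ∈ A' (i + 1))
    (h3 : ∀ i, ∀ x ∈ A i, d (h x) + h (d x) - x + ν x ∈ A' i)
    (h4 : ∀ i, ∀ x ∈ A i, ∃ n : ℕ, (ν ^ n) x ∈ A' i) (i : ℤ) : hl d A A' i = 0 := by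
  have step : ∀ x ∈ cyc d A A' i, ν x ∈ cyc d A A' i ∧ x - ν x ∈ bdy d A A' i := by
    intro x hx
    obtain ⟨hx1, hx2⟩ := mem_cyc.mp hx
    have a1 := h2 _ _ hx2
    rw [sub_add_cancel] at a1
    have a2 := sub_mem (h3 i x hx1) a1
    have e : d (h x) + h (d x) - x + ν x - h (d x) = d (h x) - x + ν x := by abel
    rw [e] at a2
    have a3 := hA.top _ _ (h1 i x hx1)
    rw [add_sub_cancel_right] at a3
    refine ⟨mem_cyc.mpr ⟨?_, ?_⟩, mem_bdy.mpr ⟨h x, h1 i x hx1, ?_⟩⟩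
    · have a4 := add_mem (sub_mem (hA.le _ a2) a3) hx1
      have e2 : d (h x) - x + ν x - d (h x) + x = ν x := by abel
      rwa [e2] at a4
    · have a4 := add_mem (hA.bot _ _ a2) hx2
      rw [map_add, map_sub, hA.dd] at a4
      have e2 : 0 - d x + d (ν x) + d x = d (ν x) := by abel
      rwa [e2] at a4
    · have a4 := neg_mem a2
      have e2 : -(d (h x) - x + ν x) = x - ν x - d (h x) := by abel
      rwa [e2] at a4
  have iter : ∀ n : ℕ, ∀ x ∈ cyc d A A' i, x - (ν ^ n) x ∈ bdy d A A' i := by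
    intro n
    induction n with
    | zero => intro x _; simp
    | succ n ih =>
      intro x hx
      have a1 := add_mem (step x hx).2 (ih _ (step x hx).1)
      rwa [sub_add_sub_cancel, ← Module.End.mul_apply, ← pow_succ] at a1
  refine rl_eq_zero_iff.mpr fun x hx => ?_
  obtain ⟨n, hn⟩ := h4 i x (mem_cyc.mp hx).1
  have a1 := add_mem (iter n x hx) (Submodule.mem_sup_right hn)
  rwa [sub_add_cancel] at a1
end Homotopy

end Cx

end Vale.Agent.P202
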