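import Vale.Agent.P202.HomTot
import Vale.Agent.P202.Mult

/-! Module M0c: Koszul matrices. -/

namespace Vale.Agent.P202

open Submodule IsLocalRing

variable {T : Type*} [CommRing T] {B : Type*} [CommRing B] [Algebra T B]
  {M : Type*} [AddCommGroup M] [Module B M] [Module T M] [IsScalarTower T B M]
  {J : Type*} [Fintype J] [LinearOrder J]

/-- The Koszul sign. -/
def ksgn (j : J) (S : Finset J) : ℤ := sgn ((S.filter (· < j)).card : ℤ)

/-- The degree of a vertex of the Koszul complex. -/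
def kdeg (S : Finset J) : ℤ := (S.card : ℤ)

/-- The Koszul matrix of the family `b`. -/
def kos (b : J → B) : Matrix (Finset J) (Finset J) B := fun S S' =>
  ∑ j, if j ∉ S ∧ S' = insert j S then ksgn j S • b j else 0

/-- The matrix of the exterior multiplication by `g` times the `j`-th basis vector. -/
def creMat (j : J) (g : B) : Matrix (Finset J) (Finset J) B := fun S S' =>
  if j ∉ S' ∧ S = insert j S' then ksgn j S' • g else 0

theorem ksgn_mul_self (j : J) (S : Finset J) : ksgn j S * ksgn j S = 1 := sgn_mul_self _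

theorem ksgn_insert {i j : J} {S : Finset J} (hj : j ∉ S) :
    ksgn i (insert j S) = if j < i then -ksgn i S else ksgn i S := by
  unfold ksgn
  rw [Finset.filter_insert]
  split_ifs with h
  · rw [Finset.card_insert_of_notMem fun h' => hj (Finset.mem_filter.1 h').1]
    push_cast
    exact sgn_succ _
  · rfl

theorem ksgn_anti {i j : J} {S : Finset J} (hij : i ≠ j) (hi : i ∉ S) (hj : j ∉ S) :
    ksgn i (insert j S) * ksgn j S = -(ksgn j (insert i S) * ksgn i S) := by
  rw [ksgn_insert hj, ksgn_insert hi]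
  rcases lt_or_gt_of_ne hij with h | h
  · rw [if_neg h.not_gt, if_pos h]; ring
  · rw [if_pos h, if_neg h.not_gt]; ring

theorem ksgn_anti' {i j : J} {S : Finset J} (hij : i ≠ j) (hi : i ∉ S) (hj : j ∉ S) :
    ksgn i (insert j S) * ksgn j (insert i S) = -(ksgn j S * ksgn i S) := by
  rw [ksgn_insert hj, ksgn_insert hi]
  rcases lt_or_gt_of_ne hij with h | h
  · rw [if_neg h.not_gt, if_pos h]; ring
  · rw [if_pos h, if_neg h.not_gt]; ring

theorem ksgn_smul_smul {N : Type*} [AddCommGroup N] (j : J) (S : Finset J) (x : N) :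
    ksgn j S • ksgn j S • x = x := by
  rw [smul_smul, ksgn_mul_self, one_smul]

theorem kdeg_insert {j : J} {S : Finset J} (hj : j ∉ S) : kdeg (insert j S) = kdeg S + 1 := by
  unfold kdeg
  rw [Finset.card_insert_of_notMem hj]
  push_cast
  rfl

theorem matAct_kos_apply (b : J → B) (v : Finset J → M) (S : Finset J) :
    matAct (kos b) v S = ∑ j, if j ∉ S then ksgn j S • b j • v (insert j S) else 0 := by
  rw [matAct_apply]
  simp only [kos, Finset.sum_smul]
  rw [Finset.sum_comm]
  refine Finset.sum_congr rfl fun j _ => ?_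
  by_cases h : j ∉ S
  · rw [if_pos h, Finset.sum_eq_single (insert j S)]
    · rw [if_pos ⟨h, rfl⟩, smul_assoc]
    · intro S' _ h'
      rw [if_neg fun h'' => h' h''.2, zero_smul]
    · simp
  · rw [if_neg h]
    exact Finset.sum_eq_zero fun S' _ => by rw [if_neg fun h'' => h h''.1, zero_smul]

theorem matAct_creMat_insert (j : J) (g : B) (v : Finset J → M) {S : Finset J} (h : j ∉ S) :
    matAct (creMat j g) v (insert j S) = ksgn j S • g • v S := by
  rw [matAct_apply, Finset.sum_eq_single S]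
  · rw [creMat, if_pos ⟨h, rfl⟩, smul_assoc]
  · intro S' _ h'
    rw [creMat, if_neg, zero_smul]
    rintro ⟨h1, h2⟩
    exact h' (by rw [← Finset.erase_insert h, h2, Finset.erase_insert h1])
  · simp

theorem matAct_creMat_of_notMem (j : J) (g : B) (v : Finset J → M) {S : Finset J} (h : j ∉ S) :
    matAct (creMat j g) v S = 0 := by
  rw [matAct_apply]
  refine Finset.sum_eq_zero fun S' _ => ?_
  rw [creMat, if_neg, zero_smul]
  rintro ⟨-, h2⟩
  exact h (h2 ▸ Finset.mem_insert_self _ _)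

theorem kos_matAct_mul {ι : Type*} [Fintype ι] (D E : Matrix ι ι B) (v : ι → M) :
    matAct (D * E) v = matAct D (matAct E v) := by
  funext a
  simp only [matAct_apply, Matrix.mul_apply, Finset.sum_smul, Finset.smul_sum, mul_smul]
  exact Finset.sum_comm

theorem kos_matAct_add {ι : Type*} [Fintype ι] (D E : Matrix ι ι B) (v : ι → M) :
    matAct (D + E) v = matAct D v + matAct E v := by
  funext a
  simp only [matAct_apply, Matrix.add_apply, add_smul, Finset.sum_add_distrib, Pi.add_apply]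

theorem kos_matAct_ext {ι : Type*} [Fintype ι] {D E : Matrix ι ι B}
    (h : ∀ (v : ι → B) a, matAct D v a = matAct E v a) : D = E := by
  classical
  ext a c
  simpa [matAct_apply, Pi.single_apply] using h (Pi.single c 1) a

theorem kos_isHomog (b : J → B) : IsHomog (kos b) kdeg 1 := by
  intro S S' h
  obtain ⟨j, -, hj⟩ := Finset.exists_ne_zero_of_sum_ne_zero h
  by_cases h' : j ∉ S ∧ S' = insert j S
  · rw [h'.2, kdeg_insert h'.1]
  · exact absurd (if_neg h') hj

theorem isMC_kos (b : J → B) : IsMC (kos b) kdeg := by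
  refine ⟨kos_matAct_ext fun v S => ?_, kos_isHomog b⟩
  have e : matAct (kos b * kos b) v S = ∑ p : J × J,
      if p.1 ∉ S ∧ p.2 ∉ S ∧ p.2 ≠ p.1 then (ksgn p.2 (insert p.1 S) * ksgn p.1 S) •
        (b p.1 * b p.2 * v (insert p.2 (insert p.1 S))) else 0 := by
    rw [kos_matAct_mul, matAct_kos_apply, Fintype.sum_prod_type]
    refine Finset.sum_congr rfl fun j _ => ?_
    by_cases h : j ∉ S
    · rw [if_pos h, matAct_kos_apply, Finset.smul_sum, Finset.smul_sum]
      refine Finset.sum_congr rfl fun i _ => ?_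
      by_cases h' : i ∉ insert j S
      · have h'' := h'
        rw [Finset.mem_insert, not_or] at h''
        rw [if_pos h', if_pos ⟨h, h''.2, h''.1⟩]
        simp only [smul_eq_mul, zsmul_eq_mul]
        push_cast
        ring
      · rw [if_neg h', if_neg, smul_zero, smul_zero]
        rintro ⟨-, h1, h2⟩
        exact h' (by simp [h1, h2])
    · simp [h]
  rw [e, matAct_apply]
  simp only [Matrix.zero_apply, zero_smul, Finset.sum_const_zero]
  refine Finset.sum_involution (fun p _ => p.swap) (fun p _ => ?_) (fun p _ h h' => h ?_)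
    (fun _ _ => Finset.mem_univ _) fun _ _ => rfl
  · by_cases h : p.1 ∉ S ∧ p.2 ∉ S ∧ p.2 ≠ p.1
    · rw [if_pos h, if_pos ⟨h.2.1, h.1, h.2.2.symm⟩, Prod.fst_swap, Prod.snd_swap,
        ksgn_anti h.2.2 h.2.1 h.1, Finset.insert_comm p.1 p.2, mul_comm (b p.2), neg_smul,
        neg_add_cancel]
    · rw [if_neg h, if_neg fun h' => h ⟨h'.2.1, h'.1, h'.2.2.symm⟩, add_zero]
  · exact if_neg fun h'' => h''.2.2 (congrArg Prod.fst h')
theorem isHomog_creMat (j : J) (g : B) : IsHomog (creMat j g) kdeg (-1) := by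
  intro S S' h
  by_cases h' : j ∉ S' ∧ S = insert j S'
  · rw [h'.2, kdeg_insert h'.1]
    ring
  · exact absurd (if_neg h') h
theorem isHomog_sum_creMat (g : J → B) : IsHomog (∑ j, creMat j (g j)) kdeg (-1) := by
  intro S S' h
  rw [Matrix.sum_apply] at h
  obtain ⟨j, -, hj⟩ := Finset.exists_ne_zero_of_sum_ne_zero h
  exact isHomog_creMat j (g j) S S' hj
theorem kos_mul_creMat (b : J → B) (j : J) (g : B) :
    kos b * creMat j g + creMat j g * kos b = (g * b j) • (1 : Matrix (Finset J) (Finset J) B) := by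
  refine kos_matAct_ext fun v S => ?_
  rw [kos_matAct_add, kos_matAct_mul, kos_matAct_mul, matAct_smul_one, Pi.add_apply,
    matAct_kos_apply, Pi.smul_apply]
  by_cases hj : j ∈ S
  · obtain ⟨R, hR, rfl⟩ : ∃ R, j ∉ R ∧ S = insert j R :=
      ⟨S.erase j, Finset.notMem_erase _ _, (Finset.insert_erase hj).symm⟩
    rw [matAct_creMat_insert _ _ _ hR, matAct_kos_apply, Finset.smul_sum, Finset.smul_sum,
      ← Finset.sum_add_distrib, Finset.sum_eq_single j]
    · rw [if_neg (not_not.2 hj), if_pos hR, zero_add, smul_comm g, ksgn_smul_smul, mul_smul]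
    · intro i _ hij
      by_cases hi : i ∈ R
      · rw [if_neg (not_not.2 (Finset.mem_insert_of_mem hi)), if_neg (not_not.2 hi)]
        simp
      · have h1 : i ∉ insert j R := by simp [hij, hi]
        have h2 : j ∉ insert i R := by simp [hij.symm, hR]
        rw [if_pos h1, if_pos hi, Finset.insert_comm, matAct_creMat_insert _ _ _ h2]
        have := ksgn_anti' hij hi hR
        simp only [smul_eq_mul, zsmul_eq_mul]
        have h3 : ((ksgn i (insert j R) : ℤ) : B) * (ksgn j (insert i R) : ℤ) =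
            -((ksgn j R : ℤ) * (ksgn i R : ℤ)) := by exact_mod_cast congrArg (Int.cast : ℤ → B) this
        linear_combination (b i * g * v (insert i R)) * h3
    · simp
  · rw [matAct_creMat_of_notMem _ _ _ hj, add_zero, Finset.sum_eq_single j]
    · rw [if_pos hj, matAct_creMat_insert _ _ _ hj, smul_comm (b j), ksgn_smul_smul, mul_comm,
        mul_smul]
    · intro i _ hij
      rw [matAct_creMat_of_notMem _ _ _ (by simp [hij.symm, hj])]
      simp
    · simp
theorem kos_map {B' : Type*} [CommRing B'] (f : B →+* B') (b : J → B) :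
    (kos b).map f = kos (fun j => f (b j)) := by
  ext S S'
  simp only [Matrix.map_apply, kos, map_sum]
  refine Finset.sum_congr rfl fun j _ => ?_
  split_ifs
  · rw [map_zsmul]
  · rw [map_zero]
theorem compat_kos {b : J → B} {L : Finset J → ℤ → Submodule T M}
    (h : ∀ j S i, j ∉ S → ∀ x ∈ L (insert j S) i, b j • x ∈ L S i) : Compat (kos b) L := by
  intro S S' i x hx
  rw [kos, Finset.sum_smul]
  refine sum_mem fun j _ => ?_
  split_ifs with h'
  · rw [smul_assoc]
    exact zsmul_mem (h j S i h'.1 x (h'.2 ▸ hx)) _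
  · rw [zero_smul]
    exact zero_mem _

theorem kos_apply_insert (b : J → B) {j : J} {S : Finset J} (hj : j ∉ S) :
    kos b S (insert j S) = ksgn j S • b j := by
  rw [kos, Finset.sum_eq_single j]
  · rw [if_pos ⟨hj, rfl⟩]
  · intro i _ hij
    refine if_neg ?_
    rintro ⟨h1, h2⟩
    have : i ∈ insert j S := h2 ▸ Finset.mem_insert_self _ _
    simp [hij, h1] at this
  · simp

theorem of_compat_kos {b : J → B} {L : Finset J → ℤ → Submodule T M} (h : Compat (kos b) L) :
    ∀ j S i, j ∉ S → ∀ x ∈ L (insert j S) i, b j • x ∈ L S i := by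
  intro j S i hj x hx
  have := zsmul_mem (h S _ i x hx) (ksgn j S)
  rwa [kos_apply_insert b hj, smul_assoc, ksgn_smul_smul] at this

theorem compat_creMat {j : J} {g : B} {L : Finset J → ℤ → Submodule T M}
    (h : ∀ S i, j ∉ S → ∀ x ∈ L S i, g • x ∈ L (insert j S) i) : Compat (creMat j g) L := by
  intro S S' i x hx
  rw [creMat]
  split_ifs with h'
  · rw [smul_assoc, h'.2]
    exact zsmul_mem (h S' i h'.1 x hx) _
  · rw [zero_smul]
    exact zero_mem _

theorem compat_sum_creMat {g : J → B} {L : Finset J → ℤ → Submodule T M}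
    (h : ∀ j S i, j ∉ S → ∀ x ∈ L S i, g j • x ∈ L (insert j S) i) :
    Compat (∑ j, creMat j (g j)) L := by
  intro S S' i x hx
  rw [Matrix.sum_apply, Finset.sum_smul]
  exact sum_mem fun j _ => compat_creMat (h j) S S' i x hx
theorem isTotPair_kos {b : J → B} {d : M →ₗ[B] M} {L L' : Finset J → ℤ → Submodule T M}
    (hd : ∀ x, d (d x) = 0) (hp : ∀ S, IsPair d (L S) (L' S))
    (h : ∀ j S i, j ∉ S → ∀ x ∈ L (insert j S) i, b j • x ∈ L S i)
    (h' : ∀ j S i, j ∉ S → ∀ x ∈ L' (insert j S) i, b j • x ∈ L' S i) :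
    IsTotPair (kos b) kdeg d L L' :=
  ⟨kos_isHomog b, fun a c x => by rw [(isMC_kos b).sq, Matrix.zero_apply, zero_smul], hd, hp,
    compat_kos h, compat_kos h'⟩
/-- The condition of `PairIso.tot` for two Koszul matrices. -/
theorem kos_semilinear {B' : Type*} [CommRing B'] [Algebra T B'] {M' : Type*} [AddCommGroup M']
    [Module B' M'] [Module T M'] [IsScalarTower T B' M'] (b : J → B) (b' : J → B')
    (φ : M →ₗ[T] M') (h : ∀ j x, φ (b j • x) = b' j • φ x) (S S' : Finset J) (x : M) :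
    φ (kos b S S' • x) = kos b' S S' • φ x := by
  simp only [kos, Finset.sum_smul, map_sum]
  refine Finset.sum_congr rfl fun j _ => ?_
  split_ifs
  · rw [smul_assoc, smul_assoc, map_zsmul, h]
  · rw [zero_smul, zero_smul, map_zero]
theorem sum_sgn_kdeg [Nonempty J] : ∑ S : Finset J, sgn (kdeg S) = 0 := by
  simp only [kdeg, sgn_natCast]
  rw [← Finset.powerset_univ]
  exact Finset.sum_powerset_neg_one_pow_card_of_nonempty Finset.univ_nonempty

/-- The part of a vector supported on the vertices not containing `j`. -/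
def kaRes (j : J) (y : Finset J → M) : Finset J → M := fun S => if j ∈ S then 0 else y S

/-- The contraction of a vector with the `j`-th basis vector. -/
def kaLow (j : J) (y : Finset J → M) : Finset J → M :=
  fun S => if j ∈ S then 0 else ksgn j S • y (insert j S)

theorem ka_cases (j : J) (S : Finset J) : j ∉ S ∨ ∃ R, j ∉ R ∧ S = insert j R := by
  by_cases h : j ∈ S
  · exact Or.inr ⟨S.erase j, Finset.notMem_erase _ _, (Finset.insert_erase h).symm⟩
  · exact Or.inl h

theorem ka_decomp (j : J) (y : Finset J → M) :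
    y = kaRes j y + matAct (creMat j (1 : B)) (kaLow j y) := by
  funext S
  rcases ka_cases j S with h | ⟨R, h, rfl⟩
  · rw [Pi.add_apply, matAct_creMat_of_notMem _ _ _ h, kaRes, if_neg h, add_zero]
  · rw [Pi.add_apply, matAct_creMat_insert _ _ _ h, kaRes, kaLow, if_pos (Finset.mem_insert_self _ _),
      if_neg h, one_smul, ksgn_smul_smul, zero_add]

theorem ka_tot_free {b : J → B} {d : M →ₗ[B] M} {j : J} {w : Finset J → M}
    (h : ∀ S, j ∈ S → w S = 0) (S : Finset J) (hS : j ∈ S) : tot (kos b) kdeg d w S = 0 := by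
  rw [tot_apply, ← matAct_apply, matAct_kos_apply, h S hS, map_zero, smul_zero, add_zero]
  refine Finset.sum_eq_zero fun i _ => ?_
  rw [h _ (Finset.mem_insert_of_mem hS)]
  simp

theorem ka_tot_cre (b : J → B) (d : M →ₗ[B] M) (j : J) (w : Finset J → M) :
    tot (kos b) kdeg d (matAct (creMat j (1 : B)) w) =
      b j • w - matAct (creMat j (1 : B)) (tot (kos b) kdeg d w) := by
  have := tot_matAct_homotopy (D := kos b) (isHomog_creMat j (1 : B)) d w
  rw [kos_mul_creMat, matAct_smul_one, one_mul] at this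
  rw [← this, add_sub_cancel_right]

theorem ka_tot_par {b : J → B} {d H : M →ₗ[B] M} {z : B} (h3 : ∀ x, d (H x) + H (d x) = z • x)
    (w : Finset J → M) :
    tot (kos b) kdeg d (parAct kdeg H w) = z • w - parAct kdeg H (tot (kos b) kdeg d w) := by
  rw [eq_sub_iff_add_eq]
  funext S
  rw [tot_parAct_homotopy (kos_isHomog b), h3, Pi.smul_apply]

open Classical in
/-- Labels `A` where `p` holds and `A'` elsewhere. -/
noncomputable def kaLab (A A' : ℤ → Submodule T M) (p : Finset J → Prop) :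
    Finset J → ℤ → Submodule T M := fun S => if p S then A else A'

theorem kaLab_pos {A A' : ℤ → Submodule T M} {p : Finset J → Prop} {S : Finset J} (h : p S) :
    kaLab A A' p S = A := if_pos h

theorem kaLab_neg {A A' : ℤ → Submodule T M} {p : Finset J → Prop} {S : Finset J} (h : ¬ p S) :
    kaLab A A' p S = A' := if_neg h

theorem kaLab_true {A A' : ℤ → Submodule T M} (S : Finset J) :
    kaLab A A' (fun _ => True) S = A := if_pos trivial

theorem kaLab_false {A A' : ℤ → Submodule T M} (S : Finset J) :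
    kaLab A A' (fun _ => False) S = A' := if_neg not_false

theorem kaLab_congr {A A' : ℤ → Submodule T M} {p q : Finset J → Prop} {S R : Finset J}
    (h : p S ↔ q R) : kaLab A A' p S = kaLab A A' q R := by
  by_cases h' : p S
  · rw [kaLab_pos h', kaLab_pos (h.1 h')]
  · rw [kaLab_neg h', kaLab_neg fun h'' => h' (h.2 h'')]

section KA
variable {b : J → B} {d : M →ₗ[B] M} {A A' : ℤ → Submodule T M}

theorem ka_pair (hA : IsPair d A A')
    (hb : ∀ j i, ∀ x ∈ A i, b j • x ∈ A i) (hb' : ∀ j i, ∀ x ∈ A' i, b j • x ∈ A' i)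
    {p q : Finset J → Prop} (hp : ∀ j S, p (insert j S) → p S) (hq : ∀ j S, q (insert j S) → q S)
    (hqp : ∀ S, q S → p S) : IsTotPair (kos b) kdeg d (kaLab A A' p) (kaLab A A' q) := by
  have key : ∀ r : Finset J → Prop, (∀ j S, r (insert j S) → r S) →
      ∀ j S i, j ∉ S → ∀ x ∈ kaLab A A' r (insert j S) i, b j • x ∈ kaLab A A' r S i := by
    intro r hr j S i _ x hx
    by_cases h1 : r (insert j S)
    · rw [kaLab_pos h1] at hx
      rw [kaLab_pos (hr j S h1)]
      exact hb j i x hx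
    · rw [kaLab_neg h1] at hx
      by_cases h2 : r S
      · rw [kaLab_pos h2]; exact hA.le i (hb' j i x hx)
      · rw [kaLab_neg h2]; exact hb' j i x hx
  refine isTotPair_kos hA.dd (fun S => ?_) (key p hp) (key q hq)
  by_cases h1 : q S
  · rw [kaLab_pos h1, kaLab_pos (hqp S h1)]
    exact ⟨hA.dd, hA.top, hA.top, fun _ => le_rfl⟩
  · rw [kaLab_neg h1]
    by_cases h2 : p S
    · rw [kaLab_pos h2]; exact hA
    · rw [kaLab_neg h2]; exact ⟨hA.dd, hA.bot, hA.bot, fun _ => le_rfl⟩

theorem ka_par_mem {H : M →ₗ[B] M} (h1 : ∀ i, ∀ x ∈ A i, H x ∈ A (i + 1))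
    (h2 : ∀ i, ∀ x ∈ A' i, H x ∈ A' (i + 1)) (p : Finset J → Prop) (i : ℤ) (v : Finset J → M)
    (hv : v ∈ totFam kdeg (kaLab A A' p) i) :
    parAct kdeg H v ∈ totFam kdeg (kaLab A A' p) (i + 1) := by
  refine parAct_mem_totFam (fun S j x hx => ?_) i v hv
  by_cases h : p S
  · rw [kaLab_pos h] at hx ⊢; exact h1 j x hx
  · rw [kaLab_neg h] at hx ⊢; exact h2 j x hx

theorem ka_low_step (hA : IsPair d A A')
    (H : M →ₗ[B] M) (h1 : ∀ i, ∀ x ∈ A i, H x ∈ A (i + 1))
    (h2 : ∀ i, ∀ x ∈ A' i, H x ∈ A' (i + 1)) {j : J}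
    (h3 : ∀ x, d (H x) + H (d x) = b j • x) {U : Finset J} (hj : j ∉ U) (i : ℤ) :
    hl (tot (kos b) kdeg d) (totFam kdeg (kaLab A A' (· ⊆ U)))
      (totFam kdeg (kaLab A A' fun _ : Finset J => False)) i ≤
    hl (tot (kos b) kdeg d) (totFam kdeg (kaLab A A' (· ⊆ insert j U)))
      (totFam kdeg (kaLab A A' fun _ : Finset J => False)) i := by
  refine rl_le_of_map_inj LinearMap.id (fun x hx => ?_) fun x hx hx' => ?_
  · refine mem_cyc.2 ⟨mem_totFam.2 fun S => ?_, (mem_cyc.1 hx).2⟩
    have := mem_totFam.1 (mem_cyc.1 hx).1 S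
    by_cases h : S ⊆ U
    · rw [kaLab_pos (p := (· ⊆ U)) h] at this
      rwa [kaLab_pos (p := (· ⊆ insert j U)) (h.trans (Finset.subset_insert _ _))]
    · rw [kaLab_neg (p := (· ⊆ U)) h] at this
      by_cases h' : S ⊆ insert j U
      · rw [kaLab_pos (p := (· ⊆ insert j U)) h']; exact hA.le _ this
      · rwa [kaLab_neg (p := (· ⊆ insert j U)) h']
  obtain ⟨y, hy, hxy⟩ := mem_bdy.1 hx'
  rw [LinearMap.id_apply] at hxy
  have hx1 := mem_totFam.1 (mem_cyc.1 hx).1
  rw [mem_totFam] at hy hxy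
  simp only [kaLab_false] at hxy
  have sub : ∀ S : Finset J, j ∉ S → (S ⊆ insert j U ↔ S ⊆ U) := fun S hS =>
    Finset.subset_insert_iff_of_notMem hS
  have w0 : kaRes j y ∈ totFam kdeg (kaLab A A' (· ⊆ U)) (i + 1) := mem_totFam.2 fun S => by
    unfold kaRes
    split_ifs with h
    · exact zero_mem _
    · have := hy S
      rwa [kaLab_congr (p := (· ⊆ insert j U)) (q := (· ⊆ U)) (sub S h)] at this
  have w1 : kaLow j y ∈ totFam kdeg (kaLab A A' (· ⊆ U)) i := mem_totFam.2 fun S => by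
    unfold kaLow
    split_ifs with h
    · exact zero_mem _
    · refine zsmul_mem ?_ _
      have := hy (insert j S)
      rwa [kdeg_insert h, add_sub_add_right_eq_sub,
        kaLab_congr (p := (· ⊆ insert j U)) (q := (· ⊆ U)) (R := S) (by
          simp only [Finset.insert_subset_iff, Finset.mem_insert_self, true_and, sub S h])] at this
  have f0 : ∀ S, j ∈ S → kaRes j y S = 0 := fun S h => if_pos h
  have f1 : ∀ S, j ∈ S → kaLow j y S = 0 := fun S h => if_pos h
  have e : tot (kos b) kdeg d y = tot (kos b) kdeg d (kaRes j y) + (b j • kaLow j y -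
      matAct (creMat j (1 : B)) (tot (kos b) kdeg d (kaLow j y))) := by
    rw [← ka_tot_cre, ← map_add, ← ka_decomp]
  have c1 : ∀ S, matAct (creMat j (1 : B)) (tot (kos b) kdeg d (kaLow j y)) S ∈ A' (i - kdeg S) := by
    intro S
    by_cases h : j ∈ S
    · have a1 := hxy S
      have a2 := hx1 S
      rw [kaLab_neg fun h' => hj (h' h)] at a2
      rw [e, Pi.sub_apply, Pi.add_apply, Pi.sub_apply, ka_tot_free f0 S h, Pi.smul_apply, f1 S h,
        smul_zero, zero_add, zero_sub, sub_neg_eq_add] at a1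
      simpa using sub_mem a1 a2
    · rw [matAct_creMat_of_notMem _ _ _ h]
      exact zero_mem _
  have c2 : tot (kos b) kdeg d (kaLow j y) ∈
      totFam kdeg (kaLab A A' fun _ : Finset J => False) (i - 1) := mem_totFam.2 fun S => by
    rw [kaLab_false]
    by_cases h : j ∈ S
    · rw [ka_tot_free f1 S h]
      exact zero_mem _
    · have := zsmul_mem (c1 (insert j S)) (ksgn j S)
      rwa [matAct_creMat_insert _ _ _ h, ksgn_smul_smul, one_smul, kdeg_insert h,
        show i - (kdeg S + 1) = i - 1 - kdeg S by ring] at this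
  have c3 := ka_par_mem h1 h2 _ _ _ c2
  rw [sub_add_cancel, mem_totFam] at c3
  simp only [kaLab_false] at c3
  refine mem_bdy.2 ⟨kaRes j y + parAct kdeg H (kaLow j y), add_mem w0 (ka_par_mem h1 h2 _ _ _ w1),
    mem_totFam.2 fun S => ?_⟩
  rw [kaLab_false]
  have := sub_mem (add_mem (hxy S) (c3 S)) (c1 S)
  rw [e] at this
  rw [map_add, ka_tot_par h3]
  convert this using 1
  simp only [Pi.sub_apply, Pi.add_apply]
  abel

theorem ka_high_step (hA : IsPair d A A') (hb : ∀ j i, ∀ x ∈ A i, b j • x ∈ A i)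
    (hb' : ∀ j i, ∀ x ∈ A' i, b j • x ∈ A' i)
    (H : M →ₗ[B] M) (h1 : ∀ i, ∀ x ∈ A i, H x ∈ A (i + 1))
    (h2 : ∀ i, ∀ x ∈ A' i, H x ∈ A' (i + 1)) {j : J}
    (h3 : ∀ x, d (H x) + H (d x) = b j • x) {U : Finset J} (hj : j ∉ U) (i : ℤ) :
    hl (tot (kos b) kdeg d) (totFam kdeg (kaLab A A' fun _ : Finset J => True))
      (totFam kdeg (kaLab A A' fun S => ¬ insert j U ⊆ S)) i ≤
    hl (tot (kos b) kdeg d) (totFam kdeg (kaLab A A' fun _ : Finset J => True))
      (totFam kdeg (kaLab A A' fun S => ¬ U ⊆ S)) i := by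
  have mono : ∀ k, ∀ x ∈ totFam kdeg (kaLab A A' fun S => ¬ U ⊆ S) k,
      x ∈ totFam kdeg (kaLab A A' fun S => ¬ insert j U ⊆ S) k := fun k x hx =>
    mem_totFam.2 fun S => by
      have := mem_totFam.1 hx S
      by_cases h : U ⊆ S
      · rw [kaLab_neg (not_not.2 h)] at this
        by_cases h' : insert j U ⊆ S
        · rwa [kaLab_neg (not_not.2 h')]
        · rw [kaLab_pos (p := fun S => ¬ insert j U ⊆ S) h']; exact hA.le _ this
      · rw [kaLab_pos (p := fun S => ¬ U ⊆ S) h] at this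
        rwa [kaLab_pos (p := fun S => ¬ insert j U ⊆ S)
          fun h' => h ((Finset.subset_insert _ _).trans h')]
  have top := (ka_pair hA hb hb' (p := fun _ => True) (q := fun _ => True) (fun _ _ h => h)
    (fun _ _ h => h) fun _ h => h).isPair.top
  refine rl_le_of_map_surj LinearMap.id (fun x hx => ?_) fun y hy => ?_
  · obtain ⟨y, hy, hxy⟩ := mem_bdy.1 hx.2
    exact mem_bdy.2 ⟨y, hy, mono _ _ hxy⟩
  obtain ⟨hy1, hy2⟩ := mem_cyc.1 hy
  rw [mem_totFam] at hy1 hy2
  simp only [kaLab_true] at hy1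
  have w1 : kaLow j y ∈ totFam kdeg (kaLab A A' fun _ : Finset J => True) (i - 1) :=
    mem_totFam.2 fun S => by
      rw [kaLab_true]
      unfold kaLow
      split_ifs with h
      · exact zero_mem _
      · refine zsmul_mem ?_ _
        have := hy1 (insert j S)
        rwa [kdeg_insert h, show i - (kdeg S + 1) = i - 1 - kdeg S by ring] at this
  have f0 : ∀ S, j ∈ S → kaRes j y S = 0 := fun S h => if_pos h
  have f1 : ∀ S, j ∈ S → kaLow j y S = 0 := fun S h => if_pos h
  have e : tot (kos b) kdeg d y = tot (kos b) kdeg d (kaRes j y) + (b j • kaLow j y -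
      matAct (creMat j (1 : B)) (tot (kos b) kdeg d (kaLow j y))) := by
    rw [← ka_tot_cre, ← map_add, ← ka_decomp]
  have t1 := mem_totFam.1 (top _ _ w1)
  simp only [kaLab_true] at t1
  have c0 : ∀ S, j ∉ S → U ⊆ S → tot (kos b) kdeg d (kaLow j y) S ∈ A' (i - 1 - 1 - kdeg S) := by
    intro S h hU
    have a1 := hy2 (insert j S)
    have hj' := Finset.mem_insert_self j S
    rw [kaLab_neg (not_not.2 (Finset.insert_subset_insert j hU)), e, Pi.add_apply, Pi.sub_apply,
      ka_tot_free f0 _ hj', Pi.smul_apply, f1 _ hj', smul_zero, zero_add, zero_sub, neg_mem_iff,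
      matAct_creMat_insert _ _ _ h, one_smul, kdeg_insert h,
      show i - 1 - (kdeg S + 1) = i - 1 - 1 - kdeg S by ring] at a1
    have := zsmul_mem a1 (ksgn j S)
    rwa [ksgn_smul_smul] at this
  have c2 : tot (kos b) kdeg d (kaLow j y) ∈
      totFam kdeg (kaLab A A' fun S => ¬ U ⊆ S) (i - 1 - 1) := mem_totFam.2 fun S => by
    by_cases h : j ∈ S
    · rw [ka_tot_free f1 S h]
      exact zero_mem _
    · by_cases hU : U ⊆ S
      · rw [kaLab_neg (not_not.2 hU)]
        exact c0 S h hU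
      · rw [kaLab_pos (p := fun S => ¬ U ⊆ S) hU]
        exact t1 S
  have c1 : matAct (creMat j (1 : B)) (tot (kos b) kdeg d (kaLow j y)) ∈
      totFam kdeg (kaLab A A' fun S => ¬ U ⊆ S) (i - 1) := mem_totFam.2 fun S => by
    rcases ka_cases j S with h | ⟨R, h, rfl⟩
    · rw [matAct_creMat_of_notMem _ _ _ h]
      exact zero_mem _
    · rw [matAct_creMat_insert _ _ _ h, one_smul, kdeg_insert h,
        show i - 1 - (kdeg R + 1) = i - 1 - 1 - kdeg R by ring]
      refine zsmul_mem ?_ _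
      by_cases hU : U ⊆ insert j R
      · rw [kaLab_neg (not_not.2 hU)]
        exact c0 R h ((Finset.subset_insert_iff_of_notMem hj).1 hU)
      · rw [kaLab_pos (p := fun S => ¬ U ⊆ S) hU]
        exact t1 R
  have c3 := ka_par_mem h1 h2 _ _ _ c2
  rw [sub_add_cancel] at c3
  have c4 := ka_par_mem h1 h2 _ _ _ w1
  rw [sub_add_cancel] at c4
  have c5 : matAct (creMat j (1 : B)) (kaLow j y) ∈
      totFam kdeg (kaLab A A' fun _ : Finset J => True) i := mem_totFam.2 fun S => by
    rw [kaLab_true]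
    rcases ka_cases j S with h | ⟨R, h, rfl⟩
    · rw [matAct_creMat_of_notMem _ _ _ h]
      exact zero_mem _
    · rw [matAct_creMat_insert _ _ _ h, one_smul, kaLow, if_neg h, ksgn_smul_smul]
      exact hy1 _
  refine ⟨matAct (creMat j (1 : B)) (kaLow j y) - parAct kdeg H (kaLow j y),
    mem_cyc.2 ⟨sub_mem c5 c4, ?_⟩, les_bot_le_bdy (mem_totFam.2 fun S => ?_)⟩
  · rw [map_sub, ka_tot_cre, ka_tot_par h3, sub_sub_sub_cancel_left]
    exact sub_mem c3 c1
  · have e2 : (y - LinearMap.id (R := T) (matAct (creMat j (1 : B)) (kaLow j y) -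
        parAct kdeg H (kaLow j y))) S = kaRes j y S + parAct kdeg H (kaLow j y) S := by
      have := congrFun (ka_decomp (B := B) j y) S
      simp only [LinearMap.id_apply, Pi.sub_apply, Pi.add_apply] at this ⊢
      rw [this]
      abel
    rw [e2]
    by_cases h : j ∈ S
    · rw [f0 S h, parAct_apply, f1 S h, map_zero, smul_zero, add_zero]
      exact zero_mem _
    · rw [kaLab_pos (p := fun S => ¬ insert j U ⊆ S) fun h' => h (h' (Finset.mem_insert_self _ _))]
      have := mem_totFam.1 c4 S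
      rw [kaLab_true] at this
      refine add_mem ?_ this
      rw [kaRes, if_neg h]
      exact hy1 S

end KA

/-- (KA) If every `b j` is null-homotopic on `A / A'`, the homology of `A / A'` is bounded by that
of its Koszul complex, in the lowest and in the highest position. -/
theorem hl_le_hl_kos {b : J → B} {d : M →ₗ[B] M} {A A' : ℤ → Submodule T M} (hA : IsPair d A A')
    (hb : ∀ j i, ∀ x ∈ A i, b j • x ∈ A i) (hb' : ∀ j i, ∀ x ∈ A' i, b j • x ∈ A' i)
    (H : J → M →ₗ[B] M) (h1 : ∀ j i, ∀ x ∈ A i, H j x ∈ A (i + 1))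
    (h2 : ∀ j i, ∀ x ∈ A' i, H j x ∈ A' (i + 1))
    (h3 : ∀ j x, d (H j x) + H j (d x) = b j • x) (i : ℤ) :
    hl d A A' i ≤ hl (tot (kos b) kdeg d) (totFam kdeg fun _ => A) (totFam kdeg fun _ => A') i ∧
    hl d A A' i ≤ hl (tot (kos b) kdeg d) (totFam kdeg fun _ => A) (totFam kdeg fun _ => A')
      (i + Fintype.card J) := by
  have eT : kaLab A A' (fun _ : Finset J => True) = fun _ => A := funext kaLab_true
  have eF : kaLab A A' (fun _ : Finset J => False) = fun _ => A' :=
    funext kaLab_false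
  constructor
  · have key : ∀ U : Finset J, hl d A A' i ≤ hl (tot (kos b) kdeg d)
        (totFam kdeg (kaLab A A' (· ⊆ U))) (totFam kdeg (kaLab A A' fun _ : Finset J => False)) i := by
      intro U
      induction U using Finset.induction_on with
      | empty =>
        rw [hl_tot_single (ka_pair hA hb hb' (fun j S h => (Finset.subset_insert _ _).trans h)
          (fun _ _ h => h) fun _ h => h.elim) ∅ fun S hS => by
            rw [kaLab_false, kaLab_neg (p := (· ⊆ ∅)) fun h => hS (Finset.subset_empty.1 h)],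
          kaLab_false, kaLab_pos (p := (· ⊆ ∅)) subset_rfl]
        simp [kdeg]
      | insert j U hj ih =>
        exact ih.trans (ka_low_step hA (H j) (h1 j) (h2 j) (h3 j) hj i)
    have := key Finset.univ
    rwa [eF, show kaLab A A' (· ⊆ (Finset.univ : Finset J)) = fun _ => A from
      funext fun S => kaLab_pos (Finset.subset_univ S)] at this
  · have key : ∀ U : Finset J, hl (tot (kos b) kdeg d)
        (totFam kdeg (kaLab A A' fun _ : Finset J => True))
        (totFam kdeg (kaLab A A' fun S => ¬ U ⊆ S)) (i + Fintype.card J) ≤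
        hl (tot (kos b) kdeg d) (totFam kdeg fun _ => A) (totFam kdeg fun _ => A')
          (i + Fintype.card J) := by
      intro U
      induction U using Finset.induction_on with
      | empty =>
        rw [eT, show kaLab A A' (fun S => ¬ (∅ : Finset J) ⊆ S) = fun _ => A' from
          funext fun S => kaLab_neg (not_not.2 (Finset.empty_subset S))]
      | insert j U hj ih =>
        exact (ka_high_step hA hb hb' (H j) (h1 j) (h2 j) (h3 j) hj _).trans ih
    have := key Finset.univ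
    rw [hl_tot_single (ka_pair hA hb hb' (fun _ _ h => h)
      (fun j S h h' => h (h'.trans (Finset.subset_insert _ _))) fun _ _ => trivial) Finset.univ
      fun S hS => by
        rw [kaLab_true, kaLab_pos (p := fun S => ¬ Finset.univ ⊆ S)
          fun h => hS (Finset.univ_subset_iff.1 h)],
      kaLab_true, kaLab_neg (not_not.2 subset_rfl)] at this
    simpa [kdeg] using this

theorem kb_homotopy (b g : J → B) (d : M →ₗ[B] M) (v : Finset J → M) :
    tot (kos b) kdeg d (matAct (∑ j, creMat j (g j)) v) +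
      matAct (∑ j, creMat j (g j)) (tot (kos b) kdeg d v) = (∑ j, g j * b j) • v := by
  rw [tot_matAct_homotopy (isHomog_sum_creMat g), Finset.mul_sum, Finset.sum_mul,
    ← Finset.sum_add_distrib, Finset.sum_congr rfl fun j _ => kos_mul_creMat b j (g j),
    ← Finset.sum_smul, matAct_smul_one]

theorem kb_mem {g : J → B} {L : Finset J → ℤ → Submodule T M}
    (hg : ∀ j S i, j ∉ S → ∀ x ∈ L S i, g j • x ∈ L (insert j S) i) (i : ℤ) :
    ∀ v ∈ totFam kdeg L i, matAct (∑ j, creMat j (g j)) v ∈ totFam kdeg L (i + 1) := by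
  intro v hv
  have := matAct_mem_totFam (isHomog_sum_creMat g) (compat_sum_creMat hg) i v hv
  rwa [sub_neg_eq_add] at this

/-- (KB) a Koszul complex on elements generating the unit ideal up to a locally nilpotent error,
compatibly with the labels, is acyclic. -/
theorem hl_kos_eq_zero_of_sum {b g : J → B} {ν : B} {d : M →ₗ[B] M}
    {L L' : Finset J → ℤ → Submodule T M} (h : IsTotPair (kos b) kdeg d L L')
    (hg : ∀ j S i, j ∉ S → ∀ x ∈ L S i, g j • x ∈ L (insert j S) i)
    (hg' : ∀ j S i, j ∉ S → ∀ x ∈ L' S i, g j • x ∈ L' (insert j S) i)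
    (hsum : ∑ j, g j * b j = 1 - ν) (hν : ∀ S i, ∀ x ∈ L S i, ∃ n : ℕ, ν ^ n • x ∈ L' S i)
    (hν' : ∀ S i, ∀ x ∈ L' S i, ν • x ∈ L' S i)
    (i : ℤ) : hl (tot (kos b) kdeg d) (totFam kdeg L) (totFam kdeg L') i = 0 := by
  refine hl_eq_zero_of_homotopy_nilp h.isPair ((matAct (∑ j, creMat j (g j))).restrictScalars T)
    ((LinearMap.lsmul B (Finset J → M) ν).restrictScalars T) (kb_mem hg) (kb_mem hg')
    (fun i x _ => ?_) (fun i x hx => ?_) i
  · simp only [LinearMap.restrictScalars_apply, LinearMap.lsmul_apply]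
    rw [kb_homotopy, hsum, sub_smul, one_smul, sub_sub_cancel_left, neg_add_cancel]
    exact zero_mem _
  · have e : ∀ n : ℕ, (((LinearMap.lsmul B (Finset J → M) ν).restrictScalars T) ^ n) x =
        ν ^ n • x := fun n => by
      induction n with
      | zero => simp
      | succ n ih => rw [pow_succ', Module.End.mul_apply, ih, pow_succ', mul_smul]; rfl
    have up : ∀ S k (y : M) (m : ℕ), y ∈ L' S k → ν ^ m • y ∈ L' S k := fun S k y m hy => by
      induction m with
      | zero => simpa using hy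
      | succ m ih => rw [pow_succ', mul_smul]; exact hν' S k _ ih
    choose n hn using fun S => hν S _ _ (mem_totFam.1 hx S)
    refine ⟨∑ S, n S, ?_⟩
    rw [e]
    refine mem_totFam.2 fun S => ?_
    rw [← Finset.add_sum_erase _ _ (Finset.mem_univ S), add_comm, pow_add, Pi.smul_apply, mul_smul]
    exact up _ _ _ _ (hn S)

/-- (KB2) the same for a Koszul complex of a Koszul complex. -/
theorem hl_kos_kos_eq_zero_of_sum {J' : Type*} [Fintype J'] [LinearOrder J'] {b g : J → B}
    {b' g' : J' → B} {d : M →ₗ[B] M} {L L' : Finset J → Finset J' → ℤ → Submodule T M}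
    (h : IsPair (tot (kos b) kdeg (tot (kos b') kdeg d))
      (totFam kdeg fun S => totFam kdeg (L S)) (totFam kdeg fun S => totFam kdeg (L' S)))
    (hg : ∀ j S S' i, j ∉ S → ∀ x ∈ L S S' i, g j • x ∈ L (insert j S) S' i)
    (hg' : ∀ j S S' i, j ∉ S → ∀ x ∈ L' S S' i, g j • x ∈ L' (insert j S) S' i)
    (hk : ∀ j S S' i, j ∉ S' → ∀ x ∈ L S S' i, g' j • x ∈ L S (insert j S') i)
    (hk' : ∀ j S S' i, j ∉ S' → ∀ x ∈ L' S S' i, g' j • x ∈ L' S (insert j S') i)
    (hsum : ∑ j, g j * b j + ∑ j, g' j * b' j = 1) (i : ℤ) :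
    hl (tot (kos b) kdeg (tot (kos b') kdeg d))
      (totFam kdeg fun S => totFam kdeg (L S)) (totFam kdeg fun S => totFam kdeg (L' S)) i = 0 := by
  have key : ∀ K : Finset J → Finset J' → ℤ → Submodule T M,
      (∀ j S S' i, j ∉ S → ∀ x ∈ K S S' i, g j • x ∈ K (insert j S) S' i) →
      (∀ j S S' i, j ∉ S' → ∀ x ∈ K S S' i, g' j • x ∈ K S (insert j S') i) →
      ∀ i, ∀ x ∈ (totFam kdeg fun S => totFam kdeg (K S)) i,
        matAct (∑ j, creMat j (g j)) x + parAct kdeg (matAct (∑ j, creMat j (g' j))) x ∈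
          (totFam kdeg fun S => totFam kdeg (K S)) (i + 1) := fun K k1 k2 i x hx =>
    add_mem (kb_mem (g := g) (fun j S i hj y hy => mem_totFam.2 fun S' =>
      k1 j S S' _ hj _ (mem_totFam.1 hy S')) i x hx)
      (parAct_mem_totFam (fun S k => kb_mem (fun j S' i hj => k2 j S S' i hj) k) i x hx)
  refine hl_eq_zero_of_homotopy h ((matAct (∑ j, creMat j (g j)) +
    parAct kdeg (matAct (∑ j, creMat j (g' j)))).restrictScalars T) (key L hg hk) (key L' hg' hk')
    (fun i x _ => ?_) i
  simp only [LinearMap.restrictScalars_apply, LinearMap.add_apply, map_add]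
  rw [ka_tot_par (kb_homotopy b' g' d), add_add_add_comm, kb_homotopy, sub_add_cancel, ← add_smul,
    hsum, one_smul, sub_self]
  exact zero_mem _

/-- `L' S + ∑_{k ∈ U} b k • L (S ∪ k)`. -/
def kosBot (b : J → B) (L L' : Finset J → ℤ → Submodule T M) (U S : Finset J) :
    ℤ → Submodule T M := fun i =>
  L' S i ⊔ ⨆ k ∈ U, (L (insert k S) i).map ((LinearMap.lsmul B M (b k)).restrictScalars T)

/-- The labels of the kernel of the augmentation of the Koszul complex. -/
def kosKer (b : J → B) (L L' : Finset J → ℤ → Submodule T M) : Finset J → ℤ → Submodule T M :=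
  fun S => if S = ∅ then kosBot b L L' Finset.univ ∅ else L S

section KC
variable {b : J → B} {d : M →ₗ[B] M} {L L' : Finset J → ℤ → Submodule T M}

theorem le_kosBot (U S : Finset J) (i : ℤ) : L' S i ≤ kosBot b L L' U S i := le_sup_left

theorem smul_mem_kosBot {U S : Finset J} {i : ℤ} {k : J} (hk : k ∈ U) {y : M}
    (hy : y ∈ L (insert k S) i) : b k • y ∈ kosBot b L L' U S i :=
  mem_sup_right (le_iSup₂_of_le (f := fun k (_ : k ∈ U) =>
    (L (insert k S) i).map ((LinearMap.lsmul B M (b k)).restrictScalars T)) k hk le_rfl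
      ⟨y, hy, rfl⟩)

theorem kosBot_le {U S : Finset J} {i : ℤ} {N : Submodule T M} (h1 : L' S i ≤ N)
    (h2 : ∀ k ∈ U, ∀ y ∈ L (insert k S) i, b k • y ∈ N) : kosBot b L L' U S i ≤ N :=
  sup_le h1 (iSup₂_le fun k hk => by
    rintro _ ⟨y, hy, rfl⟩
    exact h2 k hk y hy)

theorem kosBot_insert {U S : Finset J} {i : ℤ} {j : J} {x : M}
    (hx : x ∈ kosBot b L L' (insert j U) S i) :
    ∃ w ∈ L (insert j S) i, x - b j • w ∈ kosBot b L L' U S i := by
  have : kosBot b L L' (insert j U) S i ≤ kosBot b L L' U S i ⊔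
      (L (insert j S) i).map ((LinearMap.lsmul B M (b j)).restrictScalars T) :=
    kosBot_le ((le_kosBot U S i).trans le_sup_left) fun k hk y hy => by
      rcases Finset.mem_insert.1 hk with rfl | hk
      · exact mem_sup_right ⟨y, hy, rfl⟩
      · exact mem_sup_left (smul_mem_kosBot hk hy)
  obtain ⟨u, hu, _, ⟨w, hw, rfl⟩, rfl⟩ := mem_sup.1 (this hx)
  exact ⟨w, hw, by simpa using hu⟩

/-- The intermediate labels. -/
def kcBot (b : J → B) (L L' : Finset J → ℤ → Submodule T M) (U : Finset J) :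
    Finset J → ℤ → Submodule T M := fun S => if Disjoint S U then kosBot b L L' U S else L S

theorem kcBot_pos {U S : Finset J} (h : Disjoint S U) : kcBot b L L' U S = kosBot b L L' U S :=
  if_pos h

theorem kcBot_neg {U S : Finset J} (h : ¬ Disjoint S U) : kcBot b L L' U S = L S := if_neg h

theorem kcBot_le (h : IsTotPair (kos b) kdeg d L L') (U S : Finset J) (i : ℤ) :
    kcBot b L L' U S i ≤ L S i := by
  by_cases hS : Disjoint S U
  · rw [kcBot_pos hS]
    exact kosBot_le ((h.pair S).le i) fun k hk y hy =>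
      of_compat_kos h.top k S i (Finset.disjoint_right.1 hS hk) y hy
  · rw [kcBot_neg hS]

theorem kcBot_mono (h : IsTotPair (kos b) kdeg d L L') {U U' : Finset J} (hU : U ⊆ U')
    (S : Finset J) (i : ℤ) : kcBot b L L' U S i ≤ kcBot b L L' U' S i := by
  by_cases hS : Disjoint S U'
  · rw [kcBot_pos hS, kcBot_pos (hS.mono_right hU)]
    exact kosBot_le (le_kosBot _ _ _) fun k hk y hy => smul_mem_kosBot (hU hk) hy
  · rw [kcBot_neg hS]
    exact kcBot_le h U S i

theorem kcBot_fam (h : IsTotPair (kos b) kdeg d L L') (U S : Finset J) :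
    IsFam d (kcBot b L L' U S) := by
  by_cases hS : Disjoint S U
  · rw [kcBot_pos hS]
    intro i
    refine kosBot_le (N := (kosBot b L L' U S (i - 1)).comap (d.restrictScalars T))
      (fun x hx => le_kosBot _ _ _ ((h.pair S).bot i x hx)) fun k hk y hy => ?_
    rw [mem_comap, LinearMap.restrictScalars_apply, map_smul]
    exact smul_mem_kosBot hk ((h.pair _).top i y hy)
  · rw [kcBot_neg hS]
    exact (h.pair S).top

theorem kcBot_smul (h : IsTotPair (kos b) kdeg d L L') (U : Finset J) :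
    ∀ j S i, j ∉ S → ∀ x ∈ kcBot b L L' U (insert j S) i, b j • x ∈ kcBot b L L' U S i := by
  intro j S i hj x hx
  by_cases hS : Disjoint S U
  · rw [kcBot_pos hS]
    by_cases hjU : j ∈ U
    · exact smul_mem_kosBot hjU (kcBot_le h _ _ _ hx)
    · rw [kcBot_pos (Finset.disjoint_insert_left.2 ⟨hjU, hS⟩)] at hx
      revert x
      refine kosBot_le (N := (kosBot b L L' U S i).comap
        ((LinearMap.lsmul B M (b j)).restrictScalars T))
        (fun x hx => le_kosBot _ _ _ (of_compat_kos h.bot j S i hj x hx)) fun k hk y hy => ?_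
      rw [mem_comap, LinearMap.restrictScalars_apply, LinearMap.lsmul_apply, smul_comm]
      rw [Finset.insert_comm] at hy
      refine smul_mem_kosBot hk (of_compat_kos h.top j _ i ?_ y hy)
      rw [Finset.mem_insert, not_or]
      exact ⟨fun e => hjU (e ▸ hk), hj⟩
  · rw [kcBot_neg hS]
    exact of_compat_kos h.top j S i hj x (kcBot_le h _ _ _ hx)

theorem kcBot_pair (h : IsTotPair (kos b) kdeg d L L') {U U' : Finset J} (hU : U ⊆ U') :
    IsTotPair (kos b) kdeg d (kcBot b L L' U') (kcBot b L L' U) :=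
  isTotPair_kos h.dd (fun S => ⟨h.dd, kcBot_fam h _ S, kcBot_fam h _ S, kcBot_mono h hU S⟩)
    (kcBot_smul h _) (kcBot_smul h _)

theorem kcBot_empty : kcBot b L L' ∅ = L' := by
  funext S i
  rw [kcBot_pos (Finset.disjoint_empty_right S)]
  exact le_antisymm (kosBot_le le_rfl fun k hk => absurd hk (Finset.notMem_empty _))
    (le_kosBot _ _ _)

theorem kcBot_univ : kcBot b L L' Finset.univ = kosKer b L L' := by
  funext S
  unfold kosKer
  by_cases hS : S = ∅
  · rw [if_pos hS, hS, kcBot_pos (Finset.disjoint_empty_left _)]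
  · rw [if_neg hS, kcBot_neg]
    intro h
    obtain ⟨x, hx⟩ := Finset.nonempty_iff_ne_empty.2 hS
    exact Finset.disjoint_left.1 h hx (Finset.mem_univ x)

theorem kc_step (h : IsTotPair (kos b) kdeg d L L') {U : Finset J} {j : J} (hj : j ∉ U)
    (hreg : ∀ S i, j ∉ S → Disjoint S U →
      ∀ w ∈ L (insert j S) i, b j • w ∈ kosBot b L L' U S i → w ∈ kosBot b L L' U (insert j S) i)
    (i : ℤ) : hl (tot (kos b) kdeg d) (totFam kdeg (kcBot b L L' (insert j U)))
      (totFam kdeg (kcBot b L L' U)) i = 0 := by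
  have P := (kcBot_pair h (Finset.subset_insert j U)).isPair
  refine hl_eq_zero_iff.2 fun v hv hdv => ?_
  have hv' := mem_totFam.1 hv
  have ex : ∀ S, ∃ w, j ∉ S → w ∈ L (insert j S) (i - kdeg S) ∧
      v S - b j • w ∈ kcBot b L L' U S (i - kdeg S) := fun S => by
    by_cases hS : Disjoint S (insert j U)
    · have := hv' S
      rw [kcBot_pos hS] at this
      obtain ⟨w, h1, h2⟩ := kosBot_insert this
      exact ⟨w, fun _ => ⟨h1, by
        rwa [kcBot_pos (hS.mono_right (Finset.subset_insert _ _))]⟩⟩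
    · refine ⟨0, fun hjS => ⟨zero_mem _, ?_⟩⟩
      rw [smul_zero, sub_zero, kcBot_neg fun h' => hS (Finset.disjoint_insert_right.2 ⟨hjS, h'⟩)]
      exact kcBot_le h _ _ _ (hv' S)
  choose w hw using ex
  have hy : matAct (creMat j (1 : B)) w ∈ totFam kdeg (kcBot b L L' (insert j U)) (i + 1) :=
    mem_totFam.2 fun S => by
      rcases ka_cases j S with hS | ⟨R, hR, rfl⟩
      · rw [matAct_creMat_of_notMem _ _ _ hS]
        exact zero_mem _
      · rw [matAct_creMat_insert _ _ _ hR, one_smul, kdeg_insert hR, add_sub_add_right_eq_sub,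
          kcBot_neg fun h' => Finset.disjoint_left.1 h' (Finset.mem_insert_self _ _)
            (Finset.mem_insert_self _ _)]
        exact zsmul_mem (hw R hR).1 _
  refine ⟨_, hy, ?_⟩
  set v' := v - tot (kos b) kdeg d (matAct (creMat j (1 : B)) w) with hv'def
  have a1 : v' ∈ totFam kdeg (kcBot b L L' (insert j U)) i := sub_mem hv (P.les_d hy)
  have a2 : tot (kos b) kdeg d v' = tot (kos b) kdeg d v := by
    rw [hv'def, map_sub, P.dd, sub_zero]
  have a3 : ∀ S, j ∉ S → v' S ∈ kcBot b L L' U S (i - kdeg S) := fun S hS => by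
    rw [hv'def, ka_tot_cre, Pi.sub_apply, Pi.sub_apply, matAct_creMat_of_notMem _ _ _ hS, sub_zero]
    exact (hw S hS).2
  refine mem_totFam.2 fun S => ?_
  rcases ka_cases j S with hS | ⟨R, hR, rfl⟩
  · exact a3 S hS
  have a4 := kcBot_le h _ _ _ (mem_totFam.1 a1 (insert j R))
  by_cases hRU : Disjoint R U
  swap
  · rwa [kcBot_neg fun h' => hRU (h'.mono_left (Finset.subset_insert _ _))]
  rw [kcBot_pos (Finset.disjoint_insert_left.2 ⟨hj, hRU⟩)]
  refine hreg R _ hR hRU _ a4 ?_
  rw [← kcBot_pos hRU, kdeg_insert hR]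
  have a5 := mem_totFam.1 hdv R
  rw [← a2, tot_apply, ← matAct_apply, matAct_kos_apply,
    ← Finset.add_sum_erase _ _ (Finset.mem_univ j), if_pos hR, add_assoc,
    show i - 1 - kdeg R = i - (kdeg R + 1) by ring] at a5
  have a6 := zsmul_mem ((Submodule.add_mem_iff_left _ (add_mem (sum_mem fun k hk => ?_) ?_)).1 a5) (ksgn j R)
  · rwa [ksgn_smul_smul] at a6
  · split_ifs with hkR
    · exact zero_mem _
    · refine zsmul_mem (kcBot_smul h U k R _ hkR _ ?_) _
      rw [← kdeg_insert hkR]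
      refine a3 _ ?_
      rw [Finset.mem_insert, not_or]
      exact ⟨(Finset.mem_erase.1 hk).1.symm, hR⟩
  · refine zsmul_mem ?_ _
    have := kcBot_fam h U R _ _ (a3 R hR)
    rwa [show i - kdeg R - 1 = i - (kdeg R + 1) by ring] at this

end KC

/-- (KC) the Koszul complex of a regular sequence is a resolution. -/
theorem hl_kosKer_eq_zero {b : J → B} {d : M →ₗ[B] M} {L L' : Finset J → ℤ → Submodule T M}
    (h : IsTotPair (kos b) kdeg d L L')
    (hreg : ∀ (U : Finset J) j S i, j ∉ U → j ∉ S → Disjoint S U →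
      ∀ w ∈ L (insert j S) i, b j • w ∈ kosBot b L L' U S i → w ∈ kosBot b L L' U (insert j S) i) :
    IsTotPair (kos b) kdeg d L (kosKer b L L') ∧ IsTotPair (kos b) kdeg d (kosKer b L L') L' ∧
    ∀ i, hl (tot (kos b) kdeg d) (totFam kdeg (kosKer b L L')) (totFam kdeg L') i = 0 := by
  have key : ∀ (U : Finset J) i, hl (tot (kos b) kdeg d) (totFam kdeg (kcBot b L L' U))
      (totFam kdeg (kcBot b L L' ∅)) i = 0 := by
    intro U
    induction U using Finset.induction_on with
    | empty => exact hl_self _ _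
    | insert j U hj ih =>
      intro i
      have := hl_le_add (kcBot_pair h (Finset.subset_insert j U)).isPair
        (kcBot_pair h (Finset.empty_subset U)).isPair i
      rw [kc_step h hj (fun S i => hreg U j S i hj), ih, add_zero] at this
      exact nonpos_iff_eq_zero.1 this
  rw [← kcBot_univ]
  refine ⟨isTotPair_kos h.dd (fun S => ⟨h.dd, (h.pair S).top, kcBot_fam h _ S, kcBot_le h _ S⟩)
    (of_compat_kos h.top) (kcBot_smul h _), ?_, ?_⟩
  · have := kcBot_pair h (Finset.empty_subset Finset.univ)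
    rwa [kcBot_empty] at this
  · have := key Finset.univ
    rwa [kcBot_empty] at this

section BridgeAux
variable {Λ : Type*} [CommRing Λ] {N : Type*} [AddCommGroup N] [Module Λ N]

theorem br_mem_conc {L : Submodule Λ N} {i : ℤ} {x : N} :
    x ∈ conc L i ↔ x ∈ L ∧ (i ≠ 0 → x = 0) := by
  unfold conc
  split_ifs with h
  · simp [h]
  · simp only [mem_bot, ne_eq, h, not_false_eq_true, forall_const]
    exact ⟨fun e => ⟨e ▸ L.zero_mem, e⟩, fun e => e.2⟩

/-- The family of Koszul chains with label `F S` at the vertex `S`. -/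
def brFam (F : Finset J → Submodule Λ N) : ℤ → Submodule Λ (Finset J → N) :=
  totFam kdeg fun S => conc (F S)

theorem br_mem_fam {F : Finset J → Submodule Λ N} {i : ℤ} {v : Finset J → N} :
    v ∈ brFam F i ↔ ∀ S, v S ∈ F S ∧ (i ≠ S.card → v S = 0) := by
  rw [brFam, mem_totFam]
  refine forall_congr' fun S => ?_
  rw [br_mem_conc, kdeg, ne_eq, sub_eq_zero]

theorem br_isTotPair (b : J → Λ) {F F' : Finset J → Submodule Λ N} (hle : ∀ S, F' S ≤ F S)
    (h : ∀ j S, j ∉ S → ∀ x ∈ F (insert j S), b j • x ∈ F S)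
    (h' : ∀ j S, j ∉ S → ∀ x ∈ F' (insert j S), b j • x ∈ F' S) :
    IsTotPair (kos b) kdeg (0 : N →ₗ[Λ] N) (fun S => conc (F S)) (fun S => conc (F' S)) := by
  refine isTotPair_kos (fun _ => rfl) (fun S => ⟨fun _ => rfl, isFam_conc _, isFam_conc _,
    fun i x hx => ?_⟩) (fun j S i hj x hx => ?_) (fun j S i hj x hx => ?_)
  · rw [br_mem_conc] at hx ⊢
    exact ⟨hle S hx.1, hx.2⟩
  · rw [br_mem_conc] at hx ⊢
    exact ⟨h j S hj x hx.1, fun hi => by rw [hx.2 hi, smul_zero]⟩
  · rw [br_mem_conc] at hx ⊢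
    exact ⟨h' j S hj x hx.1, fun hi => by rw [hx.2 hi, smul_zero]⟩

theorem br_isPair (b : J → Λ) {F F' : Finset J → Submodule Λ N} (hle : ∀ S, F' S ≤ F S)
    (h : ∀ j S, j ∉ S → ∀ x ∈ F (insert j S), b j • x ∈ F S)
    (h' : ∀ j S, j ∉ S → ∀ x ∈ F' (insert j S), b j • x ∈ F' S) :
    IsPair (tot (kos b) kdeg (0 : N →ₗ[Λ] N)) (brFam F) (brFam F') :=
  (br_isTotPair b hle h h').isPair

theorem br_ksgn_mem {L : Submodule Λ N} (j : J) (S : Finset J) {x : N} :
    ksgn j S • x ∈ L ↔ x ∈ L := units_smul_mem_iff L _ x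

theorem br_ksgn_ksgn (j : J) (S : Finset J) (x : N) : ksgn j S • ksgn j S • x = x := by
  rw [smul_smul, ksgn, sgn_mul_self, one_smul]

/-- Exterior multiplication by the `j`-th basis vector. -/
def brCre (j : J) : (Finset J → N) →ₗ[Λ] (Finset J → N) := matAct (creMat j (1 : Λ))

theorem brCre_of_not_mem {j : J} {S : Finset J} (h : j ∉ S) (v : Finset J → N) :
    brCre (Λ := Λ) j v S = 0 := by
  rw [brCre, matAct_apply]
  refine Finset.sum_eq_zero fun S' _ => ?_
  rw [creMat, if_neg, zero_smul]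
  rintro ⟨-, rfl⟩
  exact h (Finset.mem_insert_self _ _)

theorem brCre_insert {j : J} {S : Finset J} (h : j ∉ S) (v : Finset J → N) :
    brCre (Λ := Λ) j v (insert j S) = ksgn j S • v S := by
  rw [brCre, matAct_apply, Finset.sum_eq_single S]
  · rw [creMat, if_pos ⟨h, rfl⟩, smul_assoc, one_smul]
  · intro S' _ hne
    rw [creMat, if_neg, zero_smul]
    rintro ⟨h1, h2⟩
    apply hne
    rw [← Finset.erase_insert h1, ← h2, Finset.erase_insert h]
  · intro h'
    exact absurd (Finset.mem_univ _) h'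

theorem br_cases (j : J) {p : Finset J → Prop} (h1 : ∀ S, j ∉ S → p S)
    (h2 : ∀ S, j ∉ S → p (insert j S)) (S : Finset J) : p S := by
  by_cases h : j ∈ S
  · rw [← Finset.insert_erase h]
    exact h2 _ (Finset.notMem_erase _ _)
  · exact h1 S h

theorem brCre_mem {F G : Finset J → Submodule Λ N} {j : J} {i : ℤ} {v : Finset J → N}
    (hv0 : ∀ S, j ∉ S → i ≠ S.card → v S = 0) (hv : ∀ S, j ∉ S → v S ∈ F S)
    (h : ∀ S, j ∉ S → F S ≤ G (insert j S)) : brCre (Λ := Λ) j v ∈ brFam G (i + 1) := by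
  rw [br_mem_fam]
  refine br_cases j (fun S hS => ?_) fun S hS => ?_
  · rw [brCre_of_not_mem hS]
    exact ⟨zero_mem _, fun _ => rfl⟩
  · rw [brCre_insert hS, br_ksgn_mem, Finset.card_insert_of_notMem hS]
    refine ⟨h S hS (hv S hS), fun hi => ?_⟩
    rw [hv0 S hS (fun e => hi (by rw [e]; push_cast; ring)), smul_zero]

theorem brCre_homotopy (b : J → Λ) (j : J) (v : Finset J → N) :
    tot (kos b) kdeg (0 : N →ₗ[Λ] N) (brCre (Λ := Λ) j v) +
      brCre (Λ := Λ) j (tot (kos b) kdeg (0 : N →ₗ[Λ] N) v) = b j • v := by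
  classical
  rw [brCre, tot_matAct_homotopy (isHomog_creMat j 1), kos_mul_creMat, one_mul, matAct_smul_one]

/-- Labels supported on the subsets of `U`. -/
def brK (U : Finset J) (P : Submodule Λ N) : Finset J → Submodule Λ N :=
  fun S => if S ⊆ U then P else ⊥

/-- Labels supported on the subsets of `insert j U`. -/
def brX (U : Finset J) (j : J) (P P' : Submodule Λ N) : Finset J → Submodule Λ N :=
  fun S => if j ∈ S then brK U P (S.erase j) else brK U P' S

theorem brX_of_not_mem {U : Finset J} {j : J} {P P' : Submodule Λ N} {S : Finset J} (h : j ∉ S) :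
    brX U j P P' S = brK U P' S := if_neg h

theorem brX_insert {U : Finset J} {j : J} {P P' : Submodule Λ N} {S : Finset J} (h : j ∉ S) :
    brX U j P P' (insert j S) = brK U P S := by
  rw [brX, if_pos (Finset.mem_insert_self _ _), Finset.erase_insert h]

theorem brK_mono (U : Finset J) {P Q : Submodule Λ N} (h : Q ≤ P) (S : Finset J) :
    brK U Q S ≤ brK U P S := by
  unfold brK
  split_ifs
  · exact h
  · exact le_rfl

theorem brK_compat (b : J → Λ) (U : Finset J) (P : Submodule Λ N) (j : J) (S : Finset J) :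
    ∀ x ∈ brK U P (insert j S), b j • x ∈ brK U P S := by
  intro x hx
  unfold brK at hx ⊢
  by_cases h : insert j S ⊆ U
  · rw [if_pos h] at hx
    rw [if_pos ((Finset.subset_insert _ _).trans h)]
    exact P.smul_mem _ hx
  · rw [if_neg h, mem_bot] at hx
    rw [hx, smul_zero]
    exact zero_mem _

theorem brK_smul (U : Finset J) {P P' : Submodule Λ N} {a : Λ} (h : ∀ x ∈ P, a • x ∈ P')
    (S : Finset J) : ∀ x ∈ brK U P S, a • x ∈ brK U P' S := by
  intro x hx
  unfold brK at hx ⊢
  split_ifs at hx ⊢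
  · exact h x hx
  · exact smul_mem _ _ hx

theorem brX_mono (U : Finset J) (j : J) {P Q P' Q' : Submodule Λ N} (h : Q ≤ P) (h' : Q' ≤ P')
    (S : Finset J) : brX U j Q Q' S ≤ brX U j P P' S := by
  unfold brX
  split_ifs
  · exact brK_mono U h _
  · exact brK_mono U h' _

theorem brX_compat (b : J → Λ) (U : Finset J) (j : J) {P P' : Submodule Λ N}
    (h : ∀ x ∈ P, b j • x ∈ P') (k : J) (S : Finset J) (hk : k ∉ S) :
    ∀ x ∈ brX U j P P' (insert k S), b k • x ∈ brX U j P P' S := by
  intro x hx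
  by_cases hkj : k = j
  · subst hkj
    rw [brX_insert hk] at hx
    rw [brX_of_not_mem hk]
    exact brK_smul U h S x hx
  · by_cases hj : j ∈ S
    · rw [brX, if_pos (Finset.mem_insert_of_mem hj), Finset.erase_insert_of_ne hkj] at hx
      rw [brX, if_pos hj]
      exact brK_compat b U P k _ x hx
    · rw [brX_of_not_mem (by simp [hj, Ne.symm hkj])] at hx
      rw [brX_of_not_mem hj]
      exact brK_compat b U P' k _ x hx

theorem brX_self (U : Finset J) (j : J) (hj : j ∉ U) (P : Submodule Λ N) :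
    brX U j P P = brK (insert j U) P := by
  funext S
  induction S using br_cases j with
  | h1 S hS =>
    rw [brX_of_not_mem hS, brK, brK]
    simp only [Finset.subset_insert_iff_of_notMem hS]
  | h2 S hS =>
    rw [brX_insert hS, brK, brK]
    simp only [Finset.insert_subset_insert_iff hS]

theorem brK_eq_bot {U : Finset J} {j : J} (hj : j ∉ U) (P : Submodule Λ N) {S : Finset J}
    (hS : j ∈ S) : brK U P S = ⊥ := if_neg fun h => hj (h hS)

theorem brK_pair (b : J → Λ) (U : Finset J) {P Q : Submodule Λ N} (h : Q ≤ P) :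
    IsPair (tot (kos b) kdeg (0 : N →ₗ[Λ] N)) (brFam (brK U P)) (brFam (brK U Q)) :=
  br_isPair b (brK_mono U h) (fun j S _ => brK_compat b U P j S) fun j S _ => brK_compat b U Q j S

theorem brX_pair (b : J → Λ) (U : Finset J) (j : J) {P Q P' Q' : Submodule Λ N} (h : Q ≤ P)
    (h' : Q' ≤ P') (h1 : ∀ x ∈ P, b j • x ∈ P') (h2 : ∀ x ∈ Q, b j • x ∈ Q') :
    IsPair (tot (kos b) kdeg (0 : N →ₗ[Λ] N)) (brFam (brX U j P P')) (brFam (brX U j Q Q')) :=
  br_isPair b (brX_mono U j h h') (brX_compat b U j h1) (brX_compat b U j h2)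

theorem br_iso_top (b : J → Λ) {U : Finset J} {j : J} (hj : j ∉ U) (R P Q : Submodule Λ N) :
    PairIso (tot (kos b) kdeg (0 : N →ₗ[Λ] N)) (brFam (brK U P)) (brFam (brK U Q))
      (tot (kos b) kdeg (0 : N →ₗ[Λ] N)) (brFam (brX U j R P)) (brFam (brX U j R Q))
      LinearMap.id 1 0 := by
  have key : ∀ (P : Submodule Λ N) i, ∀ x ∈ brFam (brK U P) i, x ∈ brFam (brX U j R P) (i + 0) := by
    intro P i x hx
    rw [add_zero]
    rw [br_mem_fam] at hx ⊢
    refine fun S => ⟨?_, (hx S).2⟩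
    by_cases hS : j ∈ S
    · have := (hx S).1
      rw [brK_eq_bot hj P hS, mem_bot] at this
      rw [this]
      exact zero_mem _
    · rw [brX_of_not_mem hS]
      exact (hx S).1
  refine ⟨key P, key Q, fun i y hy => ⟨fun S => if j ∈ S then 0 else y S, ?_, ?_⟩,
    fun i x hx hx' => ?_, fun i x _ => ?_⟩
  · rw [add_zero, br_mem_fam] at hy
    rw [br_mem_fam]
    intro S
    split_ifs with hS
    · exact ⟨zero_mem _, fun _ => rfl⟩
    · rw [← brX_of_not_mem (P := R) hS]
      exact hy S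
  · rw [add_zero, br_mem_fam] at hy ⊢
    intro S
    simp only [LinearMap.id_apply, Pi.sub_apply]
    split_ifs with hS
    · rw [sub_zero]
      refine ⟨?_, (hy S).2⟩
      have := (hy S).1
      rw [brX, if_pos hS] at this ⊢
      exact this
    · rw [sub_self]
      exact ⟨zero_mem _, fun _ => rfl⟩
  · rw [add_zero, LinearMap.id_apply, br_mem_fam] at hx'
    rw [br_mem_fam] at hx ⊢
    refine fun S => ⟨?_, (hx S).2⟩
    by_cases hS : j ∈ S
    · have := (hx S).1
      rw [brK_eq_bot hj _ hS] at this ⊢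
      exact this
    · rw [← brX_of_not_mem (P := R) hS]
      exact (hx' S).1
  · simp

theorem br_iso_bot (b : J → Λ) {U : Finset J} {j : J} (hj : j ∉ U) (Z Q R : Submodule Λ N)
    (hZ : ∀ x ∈ Z, b j • x ∈ R) :
    PairIso (tot (kos b) kdeg (0 : N →ₗ[Λ] N)) (brFam (brK U Z)) (brFam (brK U Q))
      (tot (kos b) kdeg (0 : N →ₗ[Λ] N)) (brFam (brX U j Z R)) (brFam (brX U j Q R))
      (brCre (Λ := Λ) j) (-1) 1 := by
  have key : ∀ (P : Submodule Λ N) i, ∀ x ∈ brFam (brK U P) i,
      brCre (Λ := Λ) j x ∈ brFam (brX U j P R) (i + 1) := by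
    intro P i x hx
    rw [br_mem_fam] at hx
    exact brCre_mem (F := brK U P) (fun S _ => (hx S).2) (fun S _ => (hx S).1)
      fun S hS => (brX_insert hS).ge
  refine ⟨key Z, key Q,
    fun i y hy => ⟨fun S => if j ∈ S then 0 else ksgn j S • y (insert j S), ?_, ?_⟩,
    fun i x hx hx' => ?_, fun i x hx => ?_⟩
  · rw [br_mem_fam] at hy ⊢
    intro S
    split_ifs with hS
    · exact ⟨zero_mem _, fun _ => rfl⟩
    · rw [br_ksgn_mem, ← brX_insert (P' := R) hS]
      refine ⟨(hy _).1, fun hi => ?_⟩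
      rw [(hy _).2 (by
        rw [Finset.card_insert_of_notMem hS]; push_cast; exact fun e => hi (by omega)), smul_zero]
  · rw [br_mem_fam] at hy ⊢
    refine br_cases j (fun S hS => ?_) fun S hS => ?_
    · rw [Pi.sub_apply, brCre_of_not_mem hS, sub_zero]
      refine ⟨?_, (hy S).2⟩
      have := (hy S).1
      rw [brX_of_not_mem hS] at this ⊢
      exact this
    · rw [Pi.sub_apply, brCre_insert hS, if_neg hS, br_ksgn_ksgn, sub_self]
      exact ⟨zero_mem _, fun _ => rfl⟩
  · rw [br_mem_fam] at hx hx' ⊢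
    refine fun S => ⟨?_, (hx S).2⟩
    by_cases hS : j ∈ S
    · have := (hx S).1
      rw [brK_eq_bot hj _ hS] at this ⊢
      exact this
    · have := (hx' (insert j S)).1
      rwa [brCre_insert hS, br_ksgn_mem, brX_insert hS] at this
  · rw [Units.neg_smul, one_smul, sub_neg_eq_add, add_comm (brCre (Λ := Λ) j _), brCre_homotopy,
      add_sub_cancel_right]
    rw [br_mem_fam] at hx ⊢
    intro S
    rw [Pi.smul_apply]
    refine ⟨?_, fun hi => by rw [(hx S).2 hi, smul_zero]⟩
    by_cases hS : j ∈ S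
    · have := (hx S).1
      rw [brK_eq_bot hj _ hS, mem_bot] at this
      rw [this, smul_zero]
      exact zero_mem _
    · rw [brX_of_not_mem hS]
      exact brK_smul U hZ S _ (hx S).1

theorem br_mid (b : J → Λ) {U : Finset J} {j : J} (hj : j ∉ U) {P Q : Submodule Λ N} (h : Q ≤ P)
    (i : ℤ) : hl (tot (kos b) kdeg (0 : N →ₗ[Λ] N))
      (brFam (brX U j P (Q ⊔ P.map (LinearMap.lsmul Λ N (b j)))))
      (brFam (brX U j (P ⊓ Q.comap (LinearMap.lsmul Λ N (b j))) Q)) i = 0 := by
  have p2 : IsPair (tot (kos b) kdeg (0 : N →ₗ[Λ] N))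
      (brFam (brX U j P (Q ⊔ P.map (LinearMap.lsmul Λ N (b j)))))
      (brFam (brX U j (P ⊓ Q.comap (LinearMap.lsmul Λ N (b j))) Q)) :=
    brX_pair b U j inf_le_left le_sup_left (fun x hx => mem_sup_right ⟨x, hx, rfl⟩)
      fun x hx => hx.2
  have p0 : IsPair (tot (kos b) kdeg (0 : N →ₗ[Λ] N)) (brFam (brX U j Q Q))
      (brFam (brX U j Q Q)) :=
    brX_pair b U j le_rfl le_rfl (fun x hx => smul_mem _ _ hx) fun x hx => smul_mem _ _ hx
  rw [hl_eq_zero_iff]
  intro v hv hdv
  have hv' := br_mem_fam.1 hv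
  have hw : ∀ S : Finset J, ∃ w, j ∉ S → w ∈ brK U P S ∧ (i ≠ S.card → w = 0) ∧
      v S - b j • w ∈ brK U Q S := by
    intro S
    by_cases hS : j ∈ S
    · exact ⟨0, fun h => absurd hS h⟩
    by_cases hi : i = S.card
    swap
    · exact ⟨0, fun _ => ⟨zero_mem _, fun _ => rfl, by
        rw [(hv' S).2 hi, smul_zero, sub_zero]; exact zero_mem _⟩⟩
    have := (hv' S).1
    rw [brX_of_not_mem hS] at this
    unfold brK at this ⊢
    split_ifs at this ⊢
    · obtain ⟨q, hq, _, ⟨p, hp, rfl⟩, e⟩ := mem_sup.1 this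
      refine ⟨p, fun _ => ⟨hp, fun h => absurd hi h, ?_⟩⟩
      rw [← e, LinearMap.lsmul_apply, add_sub_cancel_right]
      exact hq
    · exact ⟨0, fun _ => ⟨zero_mem _, fun _ => rfl, by rwa [smul_zero, sub_zero]⟩⟩
  choose w hw using hw
  have hy : brCre (Λ := Λ) j w ∈
      brFam (brX U j P (Q ⊔ P.map (LinearMap.lsmul Λ N (b j)))) (i + 1) :=
    brCre_mem (F := brK U P) (fun S hS => (hw S hS).2.1) (fun S hS => (hw S hS).1)
      fun S hS => (brX_insert hS).ge
  refine ⟨_, hy, ?_⟩
  obtain ⟨v', hv'e⟩ : ∃ v', v' = v - tot (kos b) kdeg (0 : N →ₗ[Λ] N) (brCre (Λ := Λ) j w) :=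
    ⟨_, rfl⟩
  rw [← hv'e]
  have m1 : v' ∈ brFam (brX U j P (Q ⊔ P.map (LinearMap.lsmul Λ N (b j)))) i :=
    hv'e ▸ sub_mem hv (p2.les_d hy)
  have m2 : ∀ S, j ∉ S → v' S ∈ brK U Q S := by
    intro S hS
    have e := congrFun (brCre_homotopy b j w) S
    rw [Pi.add_apply, brCre_of_not_mem hS, add_zero, Pi.smul_apply] at e
    rw [hv'e, Pi.sub_apply, e]
    exact (hw S hS).2.2
  have m3 : tot (kos b) kdeg (0 : N →ₗ[Λ] N) v' = tot (kos b) kdeg (0 : N →ₗ[Λ] N) v := by
    rw [hv'e, map_sub, p2.dd, sub_zero]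
  have m1' := br_mem_fam.1 m1
  have hdv' := br_mem_fam.1 hdv
  have m4 : brCre (Λ := Λ) j v' ∈ brFam (brX U j Q Q) (i + 1) :=
    brCre_mem (F := brK U Q) (fun S _ => (m1' S).2) m2 fun S hS => (brX_insert hS).ge
  have m5 : brCre (Λ := Λ) j (tot (kos b) kdeg (0 : N →ₗ[Λ] N) v') ∈
      brFam (brX U j Q Q) (i - 1 + 1) := by
    rw [m3]
    refine brCre_mem (F := brK U Q) (fun S _ => (hdv' S).2) (fun S hS => ?_)
      fun S hS => (brX_insert hS).ge
    have := (hdv' S).1
    rwa [brX_of_not_mem hS] at this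
  rw [sub_add_cancel] at m5
  have m6 := add_mem (p0.les_d m4) m5
  rw [brCre_homotopy, br_mem_fam] at m6
  rw [br_mem_fam]
  refine br_cases j (fun S hS => ⟨?_, (m1' S).2⟩) fun S hS => ⟨?_, (m1' _).2⟩
  · rw [brX_of_not_mem hS]
    exact m2 S hS
  · have a1 := (m1' (insert j S)).1
    have a2 := (m6 (insert j S)).1
    rw [brX_insert hS] at a1 a2 ⊢
    unfold brK at a1 a2 ⊢
    split_ifs at a1 a2 ⊢
    · exact ⟨a1, a2⟩
    · exact a1

theorem br_main [IsLocalRing Λ] [IsNoetherianRing Λ] [Module.Finite Λ N] (b : J → Λ)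
    (l : List J) (hl' : l.Nodup) : ∀ P Q : Submodule Λ N, Q ≤ P → IsSopP (l.map b) P Q →
    FinH (tot (kos b) kdeg (0 : N →ₗ[Λ] N)) (brFam (brK l.toFinset P)) (brFam (brK l.toFinset Q)) ∧
    eul (tot (kos b) kdeg (0 : N →ₗ[Λ] N)) (brFam (brK l.toFinset P))
      (brFam (brK l.toFinset Q)) = multP (l.map b) P Q := by
  induction l with
  | nil =>
    intro P Q hQP h
    have tp := br_isTotPair b (brK_mono (∅ : Finset J) hQP)
      (fun j S _ => brK_compat b ∅ P j S) fun j S _ => brK_compat b ∅ Q j S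
    have e : ∀ i, hl (tot (kos b) kdeg (0 : N →ₗ[Λ] N)) (brFam (brK ∅ P)) (brFam (brK ∅ Q)) i =
        if i = 0 then rl P Q else 0 := by
      intro i
      have := hl_tot_single tp ∅ (fun S hS => by simp [brK, hS]) i
      rw [hl_conc] at this
      simpa [brK, kdeg, brFam] using this
    rw [List.toFinset_nil]
    refine ⟨⟨fun i => ?_, (Set.finite_singleton 0).subset fun i hi => ?_⟩, ?_⟩
    · rw [e]
      split_ifs
      · exact h.rl_ne_top
      · exact ENat.zero_ne_top
    · by_contra h0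
      exact hi (by rw [e, if_neg (by simpa using h0)])
    · rw [eul_eq_sum {0} (fun i hi => by rw [e, if_neg (by simpa using hi)])]
      simp [e, sgn_zero, multP]
  | cons j l ih =>
    intro P Q hQP h
    rw [List.nodup_cons] at hl'
    have hj : j ∉ l.toFinset := by simpa using hl'.1
    rw [List.map_cons] at h
    obtain ⟨f1, e1⟩ := ih hl'.2 P _ (sup_le hQP (by
      rintro _ ⟨x, hx, rfl⟩; exact smul_mem _ _ hx)) h.cons_left
    obtain ⟨f3, e3⟩ := ih hl'.2 _ Q (le_inf hQP fun x hx => smul_mem _ _ hx) h.cons_right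
    have hQ1 : Q ⊔ P.map (LinearMap.lsmul Λ N (b j)) ≤ P := sup_le hQP (by
      rintro _ ⟨x, hx, rfl⟩; exact smul_mem _ _ hx)
    have hZ : Q ≤ P ⊓ Q.comap (LinearMap.lsmul Λ N (b j)) :=
      le_inf hQP fun x hx => smul_mem _ _ hx
    have p1 := brX_pair b l.toFinset j (le_refl P) hQ1 (fun x hx => smul_mem _ _ hx)
      (fun x hx => mem_sup_right ⟨x, hx, rfl⟩)
    have p2 := brX_pair b l.toFinset j
      (inf_le_left : P ⊓ Q.comap (LinearMap.lsmul Λ N (b j)) ≤ P)
      (le_sup_left : Q ≤ Q ⊔ P.map (LinearMap.lsmul Λ N (b j)))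
      (fun x hx => mem_sup_right ⟨x, hx, rfl⟩) fun x hx => hx.2
    have p3 := brX_pair b l.toFinset j hZ (le_refl Q) (fun x hx => hx.2)
      fun x hx => smul_mem _ _ hx
    have i1 := br_iso_top b hj P P (Q ⊔ P.map (LinearMap.lsmul Λ N (b j)))
    have i3 := br_iso_bot b hj (P ⊓ Q.comap (LinearMap.lsmul Λ N (b j))) Q Q fun x hx => hx.2
    have g1 := (i1.finH_iff (brK_pair b _ hQ1) p1).1 f1
    have g2 := finH_of_hl_eq_zero (br_mid b hj hQP)
    have g3 := (i3.finH_iff (brK_pair b _ hZ) p3).1 f3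
    rw [List.toFinset_cons, ← brX_self _ j hj, ← brX_self _ j hj]
    refine ⟨FinH.mid p1 (p2.trans p3) g1 (FinH.mid p2 p3 g2 g3), ?_⟩
    have s1 : sgn 1 = -1 := by
      have := sgn_succ 0
      rwa [zero_add, sgn_zero] at this
    rw [eul_add p1 (p2.trans p3) g1 (FinH.mid p2 p3 g2 g3), eul_add p2 p3 g2 g3,
      eul_of_hl_eq_zero (br_mid b hj hQP), i1.eul_eq (brK_pair b _ hQ1) p1,
      i3.eul_eq (brK_pair b _ hZ) p3, e1, e3, sgn_zero, s1, List.map_cons, multP]
    ring

/-- Canonical truncation with the module `L` in degree `t`. -/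
def brTr (A A' : ℤ → Submodule Λ N) (t : ℤ) (L : Submodule Λ N) : ℤ → Submodule Λ N :=
  fun i => if t < i then A i else if i = t then L else A' i

theorem brTr_gt {A A' : ℤ → Submodule Λ N} {t i : ℤ} {L : Submodule Λ N} (h : t < i) :
    brTr A A' t L i = A i := if_pos h

theorem brTr_eq {A A' : ℤ → Submodule Λ N} {t : ℤ} {L : Submodule Λ N} :
    brTr A A' t L t = L := by simp [brTr]

theorem brTr_lt {A A' : ℤ → Submodule Λ N} {t i : ℤ} {L : Submodule Λ N} (h : i < t) :
    brTr A A' t L i = A' i := by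
  rw [brTr, if_neg (by omega), if_neg h.ne]

theorem brTr_isFam {d : N →ₗ[Λ] N} {A A' : ℤ → Submodule Λ N} (hA : IsPair d A A') (t : ℤ)
    {L : Submodule Λ N} (h1 : bdy d A A' t ≤ L) (h2 : L ≤ cyc d A A' t) :
    IsFam d (brTr A A' t L) := by
  intro i x hx
  rcases lt_trichotomy i t with h | rfl | h
  · rw [brTr_lt h] at hx
    rw [brTr_lt (by omega)]
    exact hA.bot i x hx
  · rw [brTr_eq] at hx
    rw [brTr_lt (by omega)]
    exact (mem_cyc.1 (h2 hx)).2
  · rw [brTr_gt h] at hx
    by_cases h' : i = t + 1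
    · subst h'
      rw [add_sub_cancel_right, brTr_eq]
      exact h1 (les_dy_mem_bdy hx)
    · rw [brTr_gt (by omega)]
      exact hA.top i x hx

theorem br_const_pair (b : J → Λ) {d : N →ₗ[Λ] N} {A A' : ℤ → Submodule Λ N}
    (hA : IsPair d A A') : IsTotPair (kos b) kdeg d (fun _ => A) (fun _ => A') :=
  isTotPair_kos hA.dd (fun _ => hA) (fun _ _ _ _ _ hx => smul_mem _ _ hx)
    fun _ _ _ _ _ hx => smul_mem _ _ hx

theorem br_pair_hom {d : N →ₗ[Λ] N} {A A' : ℤ → Submodule Λ N} (hA : IsPair d A A') (t : ℤ) :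
    IsPair d (brTr A A' t (cyc d A A' t)) (brTr A A' t (bdy d A A' t)) := by
  refine ⟨hA.dd, brTr_isFam hA t (hA.bdy_le_cyc t) le_rfl,
    brTr_isFam hA t le_rfl (hA.bdy_le_cyc t), fun i => ?_⟩
  unfold brTr
  split_ifs
  · exact le_rfl
  · exact hA.bdy_le_cyc t
  · exact le_rfl

theorem br_pair_acyc {d : N →ₗ[Λ] N} {A A' : ℤ → Submodule Λ N} (hA : IsPair d A A') (t : ℤ) :
    IsPair d (brTr A A' t (bdy d A A' t)) (brTr A A' (t + 1) (cyc d A A' (t + 1))) := by
  refine ⟨hA.dd, brTr_isFam hA t le_rfl (hA.bdy_le_cyc t),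
    brTr_isFam hA _ (hA.bdy_le_cyc _) le_rfl, fun i => ?_⟩
  rcases lt_trichotomy i t with h | rfl | h
  · rw [brTr_lt h, brTr_lt (by omega)]
  · rw [brTr_eq, brTr_lt (by omega)]
    exact le_sup_right
  · rw [brTr_gt h]
    by_cases h' : i = t + 1
    · subst h'
      rw [brTr_eq]
      exact inf_le_left
    · rw [brTr_gt (by omega)]

theorem br_hl_acyc {d : N →ₗ[Λ] N} {A A' : ℤ → Submodule Λ N} (t i : ℤ) :
    hl d (brTr A A' t (bdy d A A' t)) (brTr A A' (t + 1) (cyc d A A' (t + 1))) i = 0 := by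
  rw [hl_eq_zero_iff]
  intro x hx hdx
  rcases lt_trichotomy i t with h | rfl | h
  · refine ⟨0, zero_mem _, ?_⟩
    rw [brTr_lt h] at hx
    rwa [map_zero, sub_zero, brTr_lt (by omega)]
  · rw [brTr_eq] at hx
    obtain ⟨y, hy, hxy⟩ := mem_bdy.1 hx
    exact ⟨y, by rwa [brTr_gt (by omega)], by rwa [brTr_lt (by omega)]⟩
  · refine ⟨0, zero_mem _, ?_⟩
    rw [brTr_gt h] at hx
    rw [map_zero, sub_zero]
    by_cases h' : i = t + 1
    · subst h'
      rw [brTr_eq]
      rw [brTr_lt (by omega)] at hdx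
      exact mem_cyc.2 ⟨hx, hdx⟩
    · rwa [brTr_gt (by omega)]

theorem br_iso_hom {d : N →ₗ[Λ] N} {A A' : ℤ → Submodule Λ N} (t : ℤ) :
    PairIso (0 : N →ₗ[Λ] N) (conc (cyc d A A' t)) (conc (bdy d A A' t)) d
      (brTr A A' t (cyc d A A' t)) (brTr A A' t (bdy d A A' t)) LinearMap.id 1 t := by
  have key : ∀ (L : Submodule Λ N) i, ∀ x ∈ conc L i, x ∈ brTr A A' t L (i + t) := by
    intro L i x hx
    rw [br_mem_conc] at hx
    by_cases hi : i = 0
    · subst hi
      rw [zero_add, brTr_eq]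
      exact hx.1
    · rw [hx.2 hi]
      exact zero_mem _
  refine ⟨key _, key _, fun i y hy => ?_, fun i x hx hx' => ?_, fun i x hx => ?_⟩
  · by_cases hi : i = 0
    · subst hi
      rw [zero_add, brTr_eq] at hy
      exact ⟨y, br_mem_conc.2 ⟨hy, fun h => absurd rfl h⟩, by simp⟩
    · refine ⟨0, zero_mem _, ?_⟩
      rw [map_zero, sub_zero]
      rcases lt_or_gt_of_ne hi with h | h
      · rw [brTr_lt (by omega)] at hy ⊢
        exact hy
      · rw [brTr_gt (by omega)] at hy ⊢
        exact hy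
  · rw [br_mem_conc] at hx ⊢
    refine ⟨?_, hx.2⟩
    by_cases hi : i = 0
    · subst hi
      rwa [zero_add, brTr_eq] at hx'
    · rw [hx.2 hi]
      exact zero_mem _
  · rw [br_mem_conc] at hx
    by_cases hi : i = 0
    · subst hi
      rw [zero_add, brTr_lt (by omega)]
      simpa using (mem_cyc.1 hx.1).2
    · rw [hx.2 hi]
      simp

end BridgeAux

section Bridge
variable {Λ : Type*} [CommRing Λ] [IsLocalRing Λ] [IsNoetherianRing Λ]
  {N : Type*} [AddCommGroup N] [Module Λ N] [Module.Finite Λ N] {n : ℕ}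

/-- The Koszul Euler characteristic of a subquotient module is the multiplicity symbol. -/
theorem finH_eul_kos_conc (y : Fin n → Λ) {P Q : Submodule Λ N} (hQP : Q ≤ P)
    (h : IsSopP (List.ofFn y) P Q) :
    FinH (tot (kos y) kdeg (0 : N →ₗ[Λ] N)) (totFam kdeg fun _ => conc P)
      (totFam kdeg fun _ => conc Q) ∧
    eul (tot (kos y) kdeg (0 : N →ₗ[Λ] N)) (totFam kdeg fun _ => conc P)
      (totFam kdeg fun _ => conc Q) = multP (List.ofFn y) P Q := by
  rw [List.ofFn_eq_map] at h ⊢
  have := br_main y (List.finRange n) (List.nodup_finRange n) P Q hQP h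
  have e : ∀ L : Submodule Λ N, brFam (brK (List.finRange n).toFinset L) =
      totFam kdeg fun _ => conc L := fun L => by
    simp [brFam, brK]
  rwa [e, e] at this

/-- (HYP) the Koszul Euler characteristic of a bounded complex is the alternating sum of the
multiplicity symbols of its homology modules. -/
theorem finH_eul_kos_hyp (y : Fin n → Λ) {d : N →ₗ[Λ] N} {A A' : ℤ → Submodule Λ N}
    (hA : IsPair d A A') (s : Finset ℤ) (hs : ∀ i, i ∉ s → A i = A' i)
    (h : ∀ i, IsSopP (List.ofFn y) (cyc d A A' i) (bdy d A A' i)) :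
    FinH (tot (kos y) kdeg d) (totFam kdeg fun _ => A) (totFam kdeg fun _ => A') ∧
    eul (tot (kos y) kdeg d) (totFam kdeg fun _ => A) (totFam kdeg fun _ => A') =
      ∑ i ∈ s, sgn i * multP (List.ofFn y) (cyc d A A' i) (bdy d A A' i) := by
  obtain ⟨K, hK⟩ : ∃ K : ℕ, ∀ i ∈ s, -(K : ℤ) ≤ i ∧ i < K := by
    refine ⟨s.sup Int.natAbs + 1, fun i hi => ?_⟩
    have := Finset.le_sup (f := Int.natAbs) hi
    omega
  have hout : ∀ i, ¬ (-(K : ℤ) ≤ i ∧ i < K) → A i = A' i := fun i hi =>
    hs i fun h' => hi (hK i h')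
  have step : ∀ t : ℤ,
      FinH (tot (kos y) kdeg d) (totFam kdeg fun _ => brTr A A' t (cyc d A A' t))
        (totFam kdeg fun _ => brTr A A' (t + 1) (cyc d A A' (t + 1))) ∧
      eul (tot (kos y) kdeg d) (totFam kdeg fun _ => brTr A A' t (cyc d A A' t))
        (totFam kdeg fun _ => brTr A A' (t + 1) (cyc d A A' (t + 1))) =
        sgn t * multP (List.ofFn y) (cyc d A A' t) (bdy d A A' t) := by
    intro t
    have p1 := (br_const_pair y (br_pair_hom hA t)).isPair
    have q2 := br_const_pair y (br_pair_acyc hA t)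
    have z2 : ∀ i, hl (tot (kos y) kdeg d) (totFam kdeg fun _ => brTr A A' t (bdy d A A' t))
        (totFam kdeg fun _ => brTr A A' (t + 1) (cyc d A A' (t + 1))) i = 0 := fun i => by
      have := hl_tot_le q2 i
      simpa only [br_hl_acyc, Finset.sum_const_zero, nonpos_iff_eq_zero] using this
    have p0 : IsPair (0 : N →ₗ[Λ] N) (conc (cyc d A A' t)) (conc (bdy d A A' t)) :=
      ⟨fun _ => rfl, isFam_conc _, isFam_conc _, fun i x hx => by
        rw [br_mem_conc] at hx ⊢
        exact ⟨hA.bdy_le_cyc t hx.1, hx.2⟩⟩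
    have iso := PairIso.tot (D := kos y) (D' := kos y) (deg := kdeg) (isMC_kos y).homog
      (isMC_kos y).homog (fun _ => br_iso_hom (d := d) (A := A) (A' := A') t)
      (fun _ _ _ _ _ _ => by simp)
    obtain ⟨f0, e0⟩ := finH_eul_kos_conc y (hA.bdy_le_cyc t) (h t)
    have f1 := (iso.finH_iff (br_const_pair y p0).isPair p1).1 f0
    refine ⟨FinH.mid p1 q2.isPair f1 (finH_of_hl_eq_zero z2), ?_⟩
    rw [eul_add p1 q2.isPair f1 (finH_of_hl_eq_zero z2), eul_of_hl_eq_zero z2,
      iso.eul_eq (br_const_pair y p0).isPair p1, e0, add_zero]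
  have ch := finH_eul_chain (d := tot (kos y) kdeg d)
    (fun k : ℕ => totFam kdeg fun _ => brTr A A' (-(K : ℤ) + k) (cyc d A A' (-(K : ℤ) + k))) (2 * K)
    (fun k _ => by
      rw [Nat.cast_succ, ← add_assoc]
      exact (br_const_pair y ((br_pair_hom hA _).trans (br_pair_acyc hA _))).isPair)
    (fun k _ => by
      rw [Nat.cast_succ, ← add_assoc]
      exact (step _).1)
  have e0 : brTr A A' (-(K : ℤ) + (0 : ℕ)) (cyc d A A' (-(K : ℤ) + (0 : ℕ))) = A := by
    rw [Nat.cast_zero, add_zero]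
    funext i
    rcases lt_trichotomy i (-(K : ℤ)) with h' | rfl | h'
    · rw [brTr_lt h', hout i (by omega)]
    · rw [brTr_eq]
      refine le_antisymm inf_le_left fun x hx => mem_cyc.2 ⟨hx, ?_⟩
      rw [← hout _ (by omega)]
      exact hA.top _ x hx
    · exact brTr_gt h'
  have e1 : brTr A A' (-(K : ℤ) + (2 * K : ℕ)) (cyc d A A' (-(K : ℤ) + (2 * K : ℕ))) = A' := by
    have : -(K : ℤ) + (2 * K : ℕ) = K := by push_cast; ring
    rw [this]
    funext i
    rcases lt_trichotomy i (K : ℤ) with h' | rfl | h'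
    · exact brTr_lt h'
    · rw [brTr_eq]
      refine le_antisymm (inf_le_left.trans (hout _ (by omega)).le) fun x hx =>
        mem_cyc.2 ⟨hA.le _ hx, hA.bot _ x hx⟩
    · rw [brTr_gt h', hout i (by omega)]
  simp only [e0, e1] at ch
  refine ⟨ch.1, ch.2.trans ?_⟩
  have e2 : ∀ k ∈ Finset.range (2 * K),
      eul (tot (kos y) kdeg d)
        (totFam kdeg fun _ => brTr A A' (-(K : ℤ) + k) (cyc d A A' (-(K : ℤ) + k)))
        (totFam kdeg fun _ => brTr A A' (-(K : ℤ) + (k + 1 : ℕ))
          (cyc d A A' (-(K : ℤ) + (k + 1 : ℕ)))) =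
      sgn (-(K : ℤ) + k) * multP (List.ofFn y) (cyc d A A' (-(K : ℤ) + k))
        (bdy d A A' (-(K : ℤ) + k)) := fun k _ => by
    rw [Nat.cast_succ, ← add_assoc]
    exact (step _).2
  rw [Finset.sum_congr rfl e2]
  have hz : ∀ i, i ∉ s → sgn i * multP (List.ofFn y) (cyc d A A' i) (bdy d A A' i) = 0 := by
    intro i hi
    have : cyc d A A' i = bdy d A A' i :=
      le_antisymm (inf_le_left.trans ((hs i hi).le.trans le_sup_right)) (hA.bdy_le_cyc i)
    rw [this, multP_self, mul_zero]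
  symm
  refine Finset.sum_bij_ne_zero (fun i _ _ => (i + K).toNat) (fun i hi _ => ?_)
    (fun i hi _ i' hi' _ e => ?_) (fun k _ hk => ?_) fun i hi _ => ?_
  · have := hK i hi
    rw [Finset.mem_range]
    omega
  · have := hK i hi
    have := hK i' hi'
    omega
  · refine ⟨-(K : ℤ) + k, ?_, hk, by omega⟩
    by_contra hi
    exact hk (hz _ hi)
  · have := hK i hi
    have e : -(K : ℤ) + ((i + K).toNat : ℕ) = i := by omega
    rw [e]
end Bridge

end Vale.Agent.P202
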