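import Mathlib

/-! Module I0: ring homomorphisms defined on a subring, transfer of finite algebras. -/

namespace Vale.Agent.P202

universe u v

/-- `u` is a ring homomorphism on the subring `C`. -/
structure HomOn {A : Type u} {B : Type v} [CommRing A] [CommRing B] (C : Subring A) (u : A → B) :
    Prop where
  one : u 1 = 1
  add : ∀ a ∈ C, ∀ b ∈ C, u (a + b) = u a + u b
  mul : ∀ a ∈ C, ∀ b ∈ C, u (a * b) = u a * u b

section
variable {A : Type u} {B : Type v} [CommRing A] [CommRing B] {C : Subring A} {u : A → B}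

theorem HomOn.exists_ringHom (h : HomOn C u) : ∃ f : C →+* B, ∀ c : C, f c = u c := by
  have h0 : u 0 = 0 := by simpa using h.add 0 C.zero_mem 0 C.zero_mem
  exact ⟨⟨⟨⟨fun c => u c, h.one⟩, fun a b => h.mul a a.2 b b.2⟩, h0,
    fun a b => h.add a a.2 b b.2⟩, fun _ => rfl⟩
theorem exists_homOn (f : C →+* B) : ∃ u : A → B, HomOn C u ∧ ∀ c : C, u c = f c := by
  classical
  have e : ∀ a (ha : a ∈ C), (if h : a ∈ C then f ⟨a, h⟩ else 0) = f ⟨a, ha⟩ :=
    fun a ha => dif_pos ha
  refine ⟨fun a => if h : a ∈ C then f ⟨a, h⟩ else 0, ⟨?_, fun a ha b hb => ?_,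
    fun a ha b hb => ?_⟩, fun c => e c c.2⟩
  · rw [e 1 C.one_mem]; exact f.map_one
  · rw [e _ (C.add_mem ha hb), e a ha, e b hb]; exact f.map_add ⟨a, ha⟩ ⟨b, hb⟩
  · rw [e _ (C.mul_mem ha hb), e a ha, e b hb]; exact f.map_mul ⟨a, ha⟩ ⟨b, hb⟩
theorem HomOn.zero (h : HomOn C u) : u 0 = 0 := by
  simpa using h.add 0 C.zero_mem 0 C.zero_mem
theorem HomOn.neg (h : HomOn C u) {a : A} (ha : a ∈ C) : u (-a) = -u a := by
  refine eq_neg_of_add_eq_zero_left ?_
  rw [← h.add _ (C.neg_mem ha) _ ha, neg_add_cancel, h.zero]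
theorem HomOn.sub (h : HomOn C u) {a b : A} (ha : a ∈ C) (hb : b ∈ C) :
    u (a - b) = u a - u b := by
  rw [sub_eq_add_neg, h.add _ ha _ (C.neg_mem hb), h.neg hb, sub_eq_add_neg]
theorem HomOn.pow (h : HomOn C u) {a : A} (ha : a ∈ C) (n : ℕ) : u (a ^ n) = u a ^ n := by
  induction n with
  | zero => rw [pow_zero, pow_zero, h.one]
  | succ n ih => rw [pow_succ, pow_succ, h.mul _ (C.pow_mem ha n) _ ha, ih]
theorem HomOn.intCast (h : HomOn C u) (n : ℤ) : u n = n := by
  obtain ⟨f, hf⟩ := h.exists_ringHom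
  rw [← map_intCast f n, hf]
  rfl
theorem HomOn.sum (h : HomOn C u) {ι : Type*} (s : Finset ι) {a : ι → A} (ha : ∀ i ∈ s, a i ∈ C) :
    u (∑ i ∈ s, a i) = ∑ i ∈ s, u (a i) := by
  classical
  induction s using Finset.induction_on with
  | empty => simpa using h.zero
  | insert i s hi ih =>
    have h1 : ∀ j ∈ s, a j ∈ C := fun j hj => ha j (Finset.mem_insert_of_mem hj)
    rw [Finset.sum_insert hi, Finset.sum_insert hi,
      h.add _ (ha i (Finset.mem_insert_self i s)) _ (C.sum_mem h1), ih h1]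
theorem HomOn.prod (h : HomOn C u) {ι : Type*} (s : Finset ι) {a : ι → A}
    (ha : ∀ i ∈ s, a i ∈ C) : u (∏ i ∈ s, a i) = ∏ i ∈ s, u (a i) := by
  classical
  induction s using Finset.induction_on with
  | empty => simpa using h.one
  | insert i s hi ih =>
    have h1 : ∀ j ∈ s, a j ∈ C := fun j hj => ha j (Finset.mem_insert_of_mem hj)
    rw [Finset.prod_insert hi, Finset.prod_insert hi,
      h.mul _ (ha i (Finset.mem_insert_self i s)) _ (C.prod_mem h1), ih h1]
end

/-- Membership in an ideal is witnessed by finitely many elements. -/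
theorem exists_finset_mem_span {R : Type u} [CommRing R] {s : Set R} {a : R}
    (h : a ∈ Ideal.span s) : ∃ Ω : Finset R, ∀ (R' : Type v) [CommRing R'] (C : Subring R)
      (u : R → R'), HomOn C u → (Ω : Set R) ⊆ C → u a ∈ Ideal.span (u '' s) := by
  classical
  suffices ∃ Ω : Finset R, ∀ (R' : Type v) [CommRing R'] (C : Subring R)
      (u : R → R'), HomOn C u → (Ω : Set R) ⊆ C → a ∈ C ∧ u a ∈ Ideal.span (u '' s) from
    let ⟨Ω, hΩ⟩ := this
    ⟨Ω, fun R' _ C u h1 h2 => (hΩ R' C u h1 h2).2⟩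
  induction h using Submodule.span_induction with
  | mem x hx =>
    exact ⟨{x}, fun R' _ C u _ h2 => ⟨h2 (by simp), Ideal.subset_span ⟨x, hx, rfl⟩⟩⟩
  | zero => exact ⟨∅, fun R' _ C u h1 _ => ⟨C.zero_mem, h1.zero ▸ Ideal.zero_mem _⟩⟩
  | add x y _ _ hx hy =>
    obtain ⟨Ω₁, hx⟩ := hx
    obtain ⟨Ω₂, hy⟩ := hy
    refine ⟨Ω₁ ∪ Ω₂, fun R' _ C u h1 h2 => ?_⟩
    rw [Finset.coe_union, Set.union_subset_iff] at h2
    obtain ⟨h3, h4⟩ := hx R' C u h1 h2.1
    obtain ⟨h5, h6⟩ := hy R' C u h1 h2.2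
    exact ⟨C.add_mem h3 h5, h1.add _ h3 _ h5 ▸ Ideal.add_mem _ h4 h6⟩
  | smul c x _ hx =>
    obtain ⟨Ω, hx⟩ := hx
    refine ⟨insert c Ω, fun R' _ C u h1 h2 => ?_⟩
    rw [Finset.coe_insert, Set.insert_subset_iff] at h2
    obtain ⟨h3, h4⟩ := hx R' C u h1 h2.2
    rw [smul_eq_mul]
    exact ⟨C.mul_mem h2.1 h3, h1.mul _ h2.1 _ h3 ▸ Ideal.mul_mem_left _ _ h4⟩

theorem homOn_span {A M : Type*} [CommRing A] [AddCommGroup M] [Module A M] {s : Set M} {x : M}
    (h : x ∈ Submodule.span A s) :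
    ∃ F : Finset A, ∀ C : Subring A, (F : Set A) ⊆ C → x ∈ Submodule.span C s := by
  classical
  obtain ⟨n, c, g, rfl⟩ := Submodule.mem_span_set'.1 h
  refine ⟨Finset.univ.image c, fun C hC => Submodule.sum_mem _ fun i _ => ?_⟩
  exact Submodule.smul_mem _ (⟨c i, hC (by simp)⟩ : C) (Submodule.subset_span (g i).2)

theorem homOn_span' {A M ι : Type*} [CommRing A] [AddCommGroup M] [Module A M] {s : Set M}
    (hs : Submodule.span A s = ⊤) [Finite ι] (x : ι → M) :
    ∃ F : Finset A, ∀ C : Subring A, (F : Set A) ⊆ C → ∀ i, x i ∈ Submodule.span C s := by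
  classical
  have := Fintype.ofFinite ι
  choose F hF using fun i => homOn_span (show x i ∈ Submodule.span A s from hs ▸ trivial)
  refine ⟨Finset.univ.biUnion F, fun C hC i => hF i C (Set.Subset.trans ?_ hC)⟩
  exact Finset.coe_subset.2 (Finset.subset_biUnion_of_mem F (Finset.mem_univ i))

theorem homOn_coord {A M : Type*} [CommRing A] [IsDomain A] [AddCommGroup M] [Module A M]
    [Module.Finite A M] : ∃ (e : Fin (Module.finrank A M) → M) (g : A)
      (l : Fin (Module.finrank A M) → M →ₗ[A] A), g ≠ 0 ∧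
        ∀ a b, l a (e b) = if b = a then g else 0 := by
  classical
  obtain ⟨e, he⟩ := exists_linearIndependent_of_le_finrank (le_refl (Module.finrank A M))
  have h1 : ∀ x : M, ∃ c : A, c ≠ 0 ∧ c • x ∈ Submodule.span A (Set.range e) := by
    intro x
    by_contra h
    push Not at h
    have h2 := (he.finCons' x e fun c y hy h3 => by
      by_contra h4
      exact h c h4 (eq_neg_of_add_eq_zero_left h3 ▸ Submodule.neg_mem _ hy)).fintype_card_le_finrank
    simp at h2
  obtain ⟨s, hs⟩ := Module.Finite.fg_top (R := A) (M := M)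
  choose c hc hc' using h1
  have h2 : ∀ x : M, (∏ y ∈ s, c y) • x ∈ Submodule.span A (Set.range e) := by
    intro x
    have h3 : Submodule.span A (s : Set M) ≤ (Submodule.span A (Set.range e)).comap
        ((∏ y ∈ s, c y) • LinearMap.id) := by
      refine Submodule.span_le.2 fun y hy => ?_
      rw [← Finset.prod_erase_mul s c hy]
      exact Submodule.mem_comap.2 (by
        rw [LinearMap.smul_apply, LinearMap.id_apply, mul_smul]
        exact Submodule.smul_mem _ _ (hc' y))
    exact h3 (hs ▸ trivial)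
  refine ⟨e, ∏ y ∈ s, c y, fun a => Finsupp.lapply a ∘ₗ he.repr ∘ₗ
    LinearMap.codRestrict _ ((∏ y ∈ s, c y) • LinearMap.id) h2,
    Finset.prod_ne_zero_iff.2 fun y _ => hc y, fun a b => ?_⟩
  have h3 : he.repr (LinearMap.codRestrict _ ((∏ y ∈ s, c y) • LinearMap.id) h2 (e b)) =
      Finsupp.single b (∏ y ∈ s, c y) := he.repr_eq (by simp)
  rw [LinearMap.comp_apply, LinearMap.comp_apply, h3, Finsupp.lapply_apply, Finsupp.single_apply]

/-- base change of a subalgebra over the subring `C` -/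
theorem homOn_tensor {A R A' : Type u} [CommRing A] [CommRing R] [Algebra A R] [CommRing A']
    {C : Subring A} {u : A → A'} [Algebra C A'] (hf : ∀ c : C, algebraMap C A' c = u c)
    (D : Subalgebra C R) : ∃ u' : R → TensorProduct C A' D, HomOn D.toSubring u' ∧
      (∀ x : D, u' x = 1 ⊗ₜ x) ∧
      ∀ a ∈ C, algebraMap A R a ∈ D.toSubring ∧ u' (algebraMap A R a) = algebraMap A' _ (u a) := by
  obtain ⟨u', h1, h2⟩ := exists_homOn (C := D.toSubring)
    (Algebra.TensorProduct.includeRight (R := C) (A := A') (B := D)).toRingHom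
  refine ⟨u', h1, h2, fun a ha => ⟨D.algebraMap_mem ⟨a, ha⟩, ?_⟩⟩
  rw [← hf ⟨a, ha⟩, ← IsScalarTower.algebraMap_apply]
  exact (h2 (algebraMap C D ⟨a, ha⟩)).trans
    ((Algebra.TensorProduct.includeRight (R := C) (A := A') (B := D)).commutes _)

/-- (TR1) transfer of a finite algebra over a domain. -/
theorem exists_transfer_finite {A R : Type u} [CommRing A] [IsDomain A] [CommRing R] [Algebra A R]
    (Ω : Finset R) (hΩ : Submodule.span A (Ω : Set R) = ⊤) :
    ∃ (ΩA : Finset A) (g : A), g ≠ 0 ∧ ∀ (A' : Type u) [CommRing A'] [IsDomain A']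
      (C : Subring A) (u : A → A'), HomOn C u → (ΩA : Set A) ⊆ C → g ∈ C → u g ≠ 0 →
      ∃ (R' : Type u) (_ : CommRing R') (_ : Algebra A' R') (C' : Subring R) (u' : R → R'),
        HomOn C' u' ∧ (Ω : Set R) ⊆ C' ∧
        (∀ a ∈ C, algebraMap A R a ∈ C' ∧ u' (algebraMap A R a) = algebraMap A' R' (u a)) ∧
        Submodule.span A' (u' '' (Ω : Set R)) = ⊤ ∧
        Module.finrank A R ≤ Module.finrank A' R' := by
  classical
  have : Module.Finite A R := ⟨⟨Ω, hΩ⟩⟩
  obtain ⟨e, g, l, hg, hl⟩ := homOn_coord (A := A) (M := R)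
  obtain ⟨F₁, h1⟩ := homOn_span' hΩ fun _ : Unit => (1 : R)
  obtain ⟨F₂, h2⟩ := homOn_span' hΩ fun p : Ω × Ω => (p.1 * p.2 : R)
  obtain ⟨F₃, h3⟩ := homOn_span' hΩ e
  refine ⟨F₁ ∪ F₂ ∪ F₃ ∪ (Finset.univ ×ˢ Ω).image fun p => l p.1 p.2, g, hg,
    fun A' _ _ C u hu hC hgC hug => ?_⟩
  simp only [Finset.coe_union, Set.union_subset_iff] at hC
  obtain ⟨⟨⟨c1, c2⟩, c3⟩, c4⟩ := hC
  obtain ⟨f, hf⟩ := hu.exists_ringHom
  let _ := f.toAlgebra
  let D : Subalgebra C R := (Submodule.span C (Ω : Set R)).toSubalgebra (h1 C c1 ()) (by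
    intro x y hx hy
    have h4 := Submodule.mul_mem_mul hx hy
    rw [Submodule.span_mul_span] at h4
    refine Submodule.span_le.2 ?_ h4
    rintro _ ⟨a, ha, b, hb, rfl⟩
    exact h2 C c2 (⟨a, ha⟩, ⟨b, hb⟩))
  obtain ⟨u', h4, h5, h6⟩ := homOn_tensor hf D
  have h7 : Submodule.span A' (u' '' (Ω : Set R)) = ⊤ := by
    have h8 : ∀ x (hx : x ∈ Submodule.span C (Ω : Set R)), (1 : A') ⊗ₜ[C] (⟨x, hx⟩ : D) ∈
        Submodule.span A' (u' '' (Ω : Set R)) := by
      intro x hx
      induction hx using Submodule.span_induction with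
      | mem x hx => exact Submodule.subset_span ⟨x, hx, h5 ⟨x, Submodule.subset_span hx⟩⟩
      | zero => exact (TensorProduct.tmul_zero (R := C) D (1 : A')).symm ▸ Submodule.zero_mem _
      | add x y hx hy ihx ihy =>
        exact (TensorProduct.tmul_add (R := C) (1 : A') (⟨x, hx⟩ : D) ⟨y, hy⟩).symm ▸
          Submodule.add_mem _ ihx ihy
      | smul c x hx ih =>
        exact (TensorProduct.tmul_smul (R := C) c (1 : A') (⟨x, hx⟩ : D)).symm ▸
          Submodule.smul_of_tower_mem _ c ih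
    refine top_le_iff.1 fun z _ => ?_
    induction z using TensorProduct.induction_on with
    | zero => exact Submodule.zero_mem _
    | add x y hx hy => exact Submodule.add_mem _ (hx trivial) (hy trivial)
    | tmul a x =>
      have h9 := Submodule.smul_mem _ a (h8 x.1 x.2)
      rwa [TensorProduct.smul_tmul', smul_eq_mul, mul_one] at h9
  refine ⟨TensorProduct C A' D, inferInstance, inferInstance, D.toSubring, u', h4,
    Submodule.subset_span, h6, h7, ?_⟩
  have : Module.Finite A' (TensorProduct C A' D) :=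
    ⟨Submodule.fg_def.2 ⟨_, Ω.finite_toSet.image u', h7⟩⟩
  have h8 : ∀ a, ∀ x ∈ Submodule.span C (Ω : Set R), l a x ∈ C := by
    intro a x hx
    induction hx using Submodule.span_induction with
    | mem x hx => exact c4 (Finset.mem_image_of_mem _ (show (a, x) ∈ _ by simpa using hx))
    | zero => exact (map_zero (l a)).symm ▸ C.zero_mem
    | add x y _ _ hx hy => exact (map_add (l a) x y).symm ▸ C.add_mem hx hy
    | smul c x _ hx => exact (map_smul (l a) c.1 x).symm ▸ C.mul_mem c.2 hx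
  let m : Fin (Module.finrank A R) → D →ₗ[C] A' := fun a =>
    { toFun := fun x => f ⟨l a x, h8 a x x.2⟩
      map_add' := fun x y => by
        rw [← map_add]
        exact congrArg f (Subtype.ext (map_add (l a) x.1 y.1))
      map_smul' := fun c x =>
        (congrArg f (Subtype.ext (map_smul (l a) c.1 x.1))).trans (map_mul f c ⟨_, h8 a x x.2⟩) }
  have h9 : LinearIndependent A' fun b => (1 : A') ⊗ₜ[C] (⟨e b, h3 C c3 b⟩ : D) := by
    refine Fintype.linearIndependent_iff.2 fun c hc a => ?_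
    have h10 := congrArg ((m a).liftBaseChange A') hc
    have h11 : ∀ b, (m a).liftBaseChange A' ((1 : A') ⊗ₜ[C] (⟨e b, h3 C c3 b⟩ : D)) =
        if b = a then u g else 0 := by
      intro b
      rw [LinearMap.liftBaseChange_tmul, one_smul]
      refine (hf _).trans ?_
      dsimp only
      rw [hl]
      split_ifs
      exacts [rfl, hu.zero]
    simp only [map_sum, map_smul, h11, smul_eq_mul, mul_ite, mul_zero, map_zero,
      Finset.sum_ite_eq', Finset.mem_univ, if_true] at h10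
    exact (mul_eq_zero.1 h10).resolve_right hug
  simpa using h9.fintype_card_le_finrank

/-- (TR2) transfer of a finite free algebra with `1` in a basis. -/
theorem exists_transfer_free {R S : Type u} [CommRing R] [CommRing S] [Algebra R S] {ι : Type}
    [Fintype ι] (b : Module.Basis ι R S) (i₀ : ι) (hb : b i₀ = 1) (Ω : Finset S) :
    ∃ ΩR : Finset R, ∀ (R' : Type u) [CommRing R'] (C : Subring R) (u : R → R'), HomOn C u →
      (ΩR : Set R) ⊆ C →
      ∃ (S' : Type u) (_ : CommRing S') (_ : Algebra R' S') (C' : Subring S) (u' : S → S')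
        (b' : Module.Basis ι R' S'), HomOn C' u' ∧ (Ω : Set S) ⊆ C' ∧
        (∀ a ∈ C, algebraMap R S a ∈ C' ∧ u' (algebraMap R S a) = algebraMap R' S' (u a)) ∧
        ∀ i, b i ∈ C' ∧ u' (b i) = b' i := by
  classical
  refine ⟨(Finset.univ.image fun p : ι × ι × ι => b.repr (b p.1 * b p.2.1) p.2.2) ∪
    (Ω ×ˢ Finset.univ).image fun p => b.repr p.1 p.2, fun R' _ C u hu hC => ?_⟩
  simp only [Finset.coe_union, Set.union_subset_iff] at hC
  obtain ⟨f, hf⟩ := hu.exists_ringHom
  let _ := f.toAlgebra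
  have h0 : ∀ x : S, (∀ i, b.repr x i ∈ C) → x ∈ Submodule.span C (Set.range b) := by
    intro x hx
    rw [← b.sum_repr x]
    exact Submodule.sum_mem _ fun i _ =>
      Submodule.smul_mem _ (⟨_, hx i⟩ : C) (Submodule.subset_span ⟨i, rfl⟩)
  let D : Subalgebra C S := (Submodule.span C (Set.range b)).toSubalgebra
    (Submodule.subset_span ⟨i₀, hb⟩) (by
      intro x y hx hy
      have h4 := Submodule.mul_mem_mul hx hy
      rw [Submodule.span_mul_span] at h4
      refine Submodule.span_le.2 ?_ h4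
      rintro _ ⟨_, ⟨i, rfl⟩, _, ⟨j, rfl⟩, rfl⟩
      exact h0 _ fun k => hC.1 (Finset.mem_image_of_mem _ (Finset.mem_univ (i, j, k))))
  obtain ⟨u', h4, h5, h6⟩ := homOn_tensor hf D
  let bD : Module.Basis ι C D := Module.Basis.span (b.linearIndependent.restrict_scalars' C)
  refine ⟨TensorProduct C R' D, inferInstance, inferInstance, D.toSubring, u',
    Algebra.TensorProduct.basis R' bD, h4, fun x hx => h0 x fun i =>
      hC.2 (Finset.mem_image_of_mem _ (show (x, i) ∈ _ by simpa using hx)), h6,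
    fun i => ⟨Submodule.subset_span ⟨i, rfl⟩, ?_⟩⟩
  rw [Algebra.TensorProduct.basis_apply, ← h5]
  exact congrArg u' (congrArg Subtype.val (Module.Basis.span_apply _ i)).symm

end Vale.Agent.P202
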