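import Vale.Agent.P202.HomCore

/-! Module M0b: tensoring a differential module with a finite free complex given by a matrix. -/

namespace Vale.Agent.P202

open Submodule

variable {T : Type*} [CommRing T] {B : Type*} [CommRing B] [Algebra T B]
  {M : Type*} [AddCommGroup M] [Module B M] [Module T M] [IsScalarTower T B M]
  {B' : Type*} [CommRing B'] [Algebra T B']
  {M' : Type*} [AddCommGroup M'] [Module B' M'] [Module T M'] [IsScalarTower T B' M']
  {ι : Type*} [Fintype ι] {κ : Type*} [Fintype κ]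

/-- A matrix acting on `ι → M`. -/
def matAct (D : Matrix ι ι B) : (ι → M) →ₗ[B] (ι → M) where
  toFun v := fun a => ∑ b, D a b • v b
  map_add' v w := by ext a; simp [Finset.sum_add_distrib]
  map_smul' c v := by ext a; simp [Finset.smul_sum, smul_comm c]

/-- An endomorphism of `M` acting componentwise with the sign of the degree. -/
def parAct (deg : ι → ℤ) (f : M →ₗ[B] M) : (ι → M) →ₗ[B] (ι → M) where
  toFun v := fun a => sgn (deg a) • f (v a)
  map_add' v w := by ext a; simp
  map_smul' c v := by ext a; simp [smul_comm c]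

/-- The total differential of (matrix complex) tensor `(M, d)`. -/
def tot (D : Matrix ι ι B) (deg : ι → ℤ) (d : M →ₗ[B] M) : (ι → M) →ₗ[B] (ι → M) :=
  matAct D + parAct deg d

theorem matAct_apply (D : Matrix ι ι B) (v : ι → M) (a : ι) :
    matAct D v a = ∑ b, D a b • v b := rfl
theorem parAct_apply (deg : ι → ℤ) (f : M →ₗ[B] M) (v : ι → M) (a : ι) :
    parAct deg f v a = sgn (deg a) • f (v a) := rfl
theorem tot_apply (D : Matrix ι ι B) (deg : ι → ℤ) (d : M →ₗ[B] M) (v : ι → M) (a : ι) :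
    tot D deg d v a = ∑ b, D a b • v b + sgn (deg a) • d (v a) := rfl

/-- The matrix `D` has degree `-k`: it maps the basis vector `b` to degree `deg b - k`. -/
def IsHomog (D : Matrix ι ι B) (deg : ι → ℤ) (k : ℤ) : Prop :=
  ∀ a b, D a b ≠ 0 → deg b = deg a + k

/-- A matrix complex. -/
structure IsMC (D : Matrix ι ι B) (deg : ι → ℤ) : Prop where
  sq : D * D = 0
  homog : IsHomog D deg 1

/-- The family on `ι → M` with label `L a` at the vertex `a`. -/
def totFam (deg : ι → ℤ) (L : ι → ℤ → Submodule T M) : ℤ → Submodule T (ι → M) :=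
  fun i => Submodule.pi Set.univ fun a => L a (i - deg a)

theorem mem_totFam {deg : ι → ℤ} {L : ι → ℤ → Submodule T M} {i : ℤ} {v : ι → M} :
    v ∈ totFam deg L i ↔ ∀ a, v a ∈ L a (i - deg a) := by
  simp [totFam, Submodule.mem_pi]

/-- The labels are compatible with the matrix. -/
def Compat (D : Matrix ι ι B) (L : ι → ℤ → Submodule T M) : Prop :=
  ∀ a b j, ∀ x ∈ L b j, D a b • x ∈ L a j

theorem compat_const (D : Matrix ι ι B) (A : ℤ → Submodule T M)
    (h : ∀ a b j, ∀ x ∈ A j, D a b • x ∈ A j) : Compat D (fun _ => A) := h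

theorem HT.sgn_smul_smul (i : ℤ) (x : M) : sgn i • sgn i • x = x := by
  rw [smul_smul, sgn_mul_self, one_smul]

omit [Module B M] [IsScalarTower T B M] in
theorem HT.sgn_smul_mem {N : Submodule T M} {i : ℤ} {x : M} : sgn i • x ∈ N ↔ x ∈ N :=
  ⟨fun h => HT.sgn_smul_smul i x ▸ zsmul_mem h _, fun h => zsmul_mem h _⟩

theorem HT.sgn_neg_one : sgn (-1) = -1 := by
  have := sgn_succ (-1)
  rw [neg_add_cancel, sgn_zero] at this
  omega

theorem HT.sgn_one : sgn 1 = -1 := by
  have := sgn_succ 0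
  rwa [zero_add, sgn_zero] at this

theorem HT.matAct_matAct (D E : Matrix ι ι B) (v : ι → M) :
    matAct D (matAct E v) = matAct (D * E) v := by
  funext a
  simp only [matAct_apply, Matrix.mul_apply, Finset.sum_smul, Finset.smul_sum, mul_smul]
  exact Finset.sum_comm

theorem HT.matAct_add (D E : Matrix ι ι B) (v : ι → M) :
    matAct (D + E) v = matAct D v + matAct E v := by
  funext a
  simp only [matAct_apply, Matrix.add_apply, add_smul, Finset.sum_add_distrib, Pi.add_apply]

theorem HT.parAct_parAct (deg : ι → ℤ) (f g : M →ₗ[B] M) (v : ι → M) (a : ι) :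
    parAct deg f (parAct deg g v) a = f (g (v a)) := by
  rw [parAct_apply, parAct_apply, map_zsmul, HT.sgn_smul_smul]

theorem HT.anti {D : Matrix ι ι B} {deg : ι → ℤ} {k : ℤ} (hD : IsHomog D deg k)
    (hk : sgn k = -1) (f : M →ₗ[B] M) (v : ι → M) :
    matAct D (parAct deg f v) + parAct deg f (matAct D v) = 0 := by
  funext a
  simp only [Pi.add_apply, matAct_apply, parAct_apply, map_sum, map_smul, Finset.smul_sum,
    ← Finset.sum_add_distrib, Pi.zero_apply]
  refine Finset.sum_eq_zero fun b _ => ?_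
  by_cases h : D a b = 0
  · simp [h]
  · rw [hD a b h, sgn_add, hk, smul_comm (D a b), mul_neg, mul_one, neg_smul, neg_add_cancel]

theorem HT.tot_eq (D : Matrix ι ι B) (deg : ι → ℤ) (d : M →ₗ[B] M) (v : ι → M) :
    tot D deg d v = matAct D v + parAct deg d v := rfl

theorem HT.matAct_mem {H : Matrix ι ι B} {deg : ι → ℤ} {k : ℤ} (hH : IsHomog H deg k)
    {L : ι → ℤ → Submodule T M} (hc : Compat H L) (i : ℤ) :
    ∀ v ∈ totFam deg L i, matAct H v ∈ totFam deg L (i - k) := by
  intro v hv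
  rw [mem_totFam] at hv ⊢
  intro a
  refine Submodule.sum_mem _ fun b _ => ?_
  by_cases h : H a b = 0
  · rw [h, zero_smul]
    exact zero_mem _
  · have := hc a b _ _ (hv b)
    rwa [hH a b h, ← sub_sub, sub_right_comm] at this

omit [Algebra T B] [IsScalarTower T B M] in
theorem HT.parAct_mem {deg : ι → ℤ} {L : ι → ℤ → Submodule T M} {H : M →ₗ[B] M} {k : ℤ}
    (hH : ∀ a j, ∀ x ∈ L a j, H x ∈ L a (j + k)) (i : ℤ) :
    ∀ v ∈ totFam deg L i, parAct deg H v ∈ totFam deg L (i + k) := by
  intro v hv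
  rw [mem_totFam] at hv ⊢
  intro a
  rw [parAct_apply, HT.sgn_smul_mem, add_sub_right_comm]
  exact hH a _ _ (hv a)

theorem HT.transfer {d : M →ₗ[B] M} {d' : M' →ₗ[B'] M'} {A A' : ℤ → Submodule T M}
    {C C' : ℤ → Submodule T M'} (φ : M →ₗ[T] M') (hs : Function.Surjective φ)
    (hd : ∀ x, φ (d x) = d' (φ x)) (h1 : ∀ i x, φ x ∈ C i ↔ x ∈ A i)
    (h2 : ∀ i x, φ x ∈ C' i ↔ x ∈ A' i) :
    (IsPair d A A' → IsPair d' C C') ∧ ∀ i, hl d A A' i = hl d' C C' i := by
  refine ⟨fun h => ⟨fun y => ?_, fun i y hy => ?_, fun i y hy => ?_, fun i y hy => ?_⟩,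
    fun i => rl_eq_of_map φ (fun x hx => ?_) (fun x hx => ?_) (fun y hy => ?_) fun x _ hx => ?_⟩
  · obtain ⟨x, rfl⟩ := hs y
    rw [← hd, ← hd, h.dd, map_zero]
  · obtain ⟨x, rfl⟩ := hs y
    rw [← hd, h1]
    exact h.top i x ((h1 i x).1 hy)
  · obtain ⟨x, rfl⟩ := hs y
    rw [← hd, h2]
    exact h.bot i x ((h2 i x).1 hy)
  · obtain ⟨x, rfl⟩ := hs y
    exact (h1 i x).2 (h.le i ((h2 i x).1 hy))
  · rw [mem_cyc] at hx ⊢
    rwa [← hd, h1, h2]
  · rw [mem_bdy] at hx ⊢
    obtain ⟨y, hy, hxy⟩ := hx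
    exact ⟨φ y, (h1 _ _).2 hy, by rwa [← hd, ← map_sub, h2]⟩
  · obtain ⟨x, rfl⟩ := hs y
    rw [mem_cyc, ← hd, h1, h2, ← mem_cyc] at hy
    exact ⟨x, hy, by rw [sub_self]; exact zero_mem _⟩
  · rw [mem_bdy] at hx ⊢
    obtain ⟨y, hy, hxy⟩ := hx
    obtain ⟨y, rfl⟩ := hs y
    exact ⟨y, (h1 _ _).1 hy, by rwa [← hd, ← map_sub, h2] at hxy⟩

/-- Version with the square of the matrix vanishing only on the module. -/
theorem tot_sq_of_smul {D : Matrix ι ι B} {deg : ι → ℤ} (hD : IsHomog D deg 1)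
    (hsq : ∀ a b (x : M), (D * D) a b • x = 0) {d : M →ₗ[B] M} (hd : ∀ x, d (d x) = 0)
    (v : ι → M) : tot D deg d (tot D deg d v) = 0 := by
  have h1 : matAct D (matAct D v) = 0 := by
    rw [HT.matAct_matAct]
    funext a
    exact Finset.sum_eq_zero fun b _ => hsq a b _
  have h2 : parAct deg d (parAct deg d v) = 0 := by
    funext a
    rw [HT.parAct_parAct, hd, Pi.zero_apply]
  rw [HT.tot_eq, HT.tot_eq, map_add, map_add, h1, h2, zero_add, add_zero,
    HT.anti hD HT.sgn_one]
theorem tot_sq {D : Matrix ι ι B} {deg : ι → ℤ} (hD : IsMC D deg) {d : M →ₗ[B] M}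
    (hd : ∀ x, d (d x) = 0) (v : ι → M) : tot D deg d (tot D deg d v) = 0 :=
  tot_sq_of_smul hD.homog (fun a b x => by rw [hD.sq, Matrix.zero_apply, zero_smul]) hd v
theorem isFam_tot {D : Matrix ι ι B} {deg : ι → ℤ} (hD : IsHomog D deg 1) {d : M →ₗ[B] M}
    {L : ι → ℤ → Submodule T M} (hL : ∀ a, IsFam d (L a)) (hc : Compat D L) :
    IsFam (tot D deg d) (totFam deg L) := fun i v hv =>
  add_mem (HT.matAct_mem hD hc i v hv) (HT.parAct_mem (k := -1) (fun a j x hx => hL a j x hx) i v hv)

/-- Hypotheses making `totFam L / totFam L'` a complex. -/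
structure IsTotPair (D : Matrix ι ι B) (deg : ι → ℤ) (d : M →ₗ[B] M)
    (L L' : ι → ℤ → Submodule T M) : Prop where
  homog : IsHomog D deg 1
  sq : ∀ a b (x : M), (D * D) a b • x = 0
  dd : ∀ x, d (d x) = 0
  pair : ∀ a, IsPair d (L a) (L' a)
  top : Compat D L
  bot : Compat D L'

theorem IsTotPair.isPair {D : Matrix ι ι B} {deg : ι → ℤ} {d : M →ₗ[B] M}
    {L L' : ι → ℤ → Submodule T M} (h : IsTotPair D deg d L L') :
    IsPair (tot D deg d) (totFam deg L) (totFam deg L') :=
  ⟨tot_sq_of_smul h.homog h.sq h.dd, isFam_tot h.homog (fun a => (h.pair a).top) h.top,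
    isFam_tot h.homog (fun a => (h.pair a).bot) h.bot,
    fun _ _ hv => mem_totFam.2 fun a => (h.pair a).le _ (mem_totFam.1 hv a)⟩

section T1
variable {D : Matrix ι ι B} {deg : ι → ℤ} {d : M →ₗ[B] M} {L L' : ι → ℤ → Submodule T M}

theorem t1_single (h : IsTotPair D deg d L L') (a₀ : ι) (h0 : ∀ a, a ≠ a₀ → L a = L' a)
    (i : ℤ) : hl (tot D deg d) (totFam deg L) (totFam deg L') i =
      hl d (L a₀) (L' a₀) (i + -deg a₀) := by
  classical
  have iso : PairIso (tot D deg d) (totFam deg L) (totFam deg L') d (L a₀) (L' a₀)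
      (LinearMap.proj a₀ : (ι → M) →ₗ[T] M) (deg a₀).negOnePow (-deg a₀) := by
    refine ⟨fun i x hx => ?_, fun i x hx => ?_, fun i y hy => ⟨Pi.single a₀ y, ?_, ?_⟩,
      fun i x hx hx' => ?_, fun i x hx => ?_⟩
    · rw [← sub_eq_add_neg]; exact mem_totFam.1 hx a₀
    · rw [← sub_eq_add_neg]; exact mem_totFam.1 hx a₀
    · refine mem_totFam.2 fun a => ?_
      by_cases ha : a = a₀
      · subst ha
        rwa [Pi.single_eq_same, sub_eq_add_neg]
      · rw [Pi.single_eq_of_ne ha]
        exact zero_mem _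
    · rw [LinearMap.proj_apply, Pi.single_eq_same, sub_self]
      exact zero_mem _
    · refine mem_totFam.2 fun a => ?_
      by_cases ha : a = a₀
      · subst ha
        rwa [sub_eq_add_neg]
      · rw [← h0 a ha]
        exact mem_totFam.1 hx a
    · have e : (deg a₀).negOnePow • d (x a₀) = sgn (deg a₀) • d (x a₀) := rfl
      rw [LinearMap.proj_apply, LinearMap.proj_apply, tot_apply, e, add_sub_cancel_right]
      refine sum_mem fun b _ => ?_
      by_cases hb : D a₀ b = 0
      · rw [hb, zero_smul]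
        exact zero_mem _
      · have hdeg := h.homog a₀ b hb
        have hne : b ≠ a₀ := fun e => by rw [e] at hdeg; omega
        have := mem_totFam.1 hx b
        rw [h0 b hne, hdeg, show i - (deg a₀ + 1) = i + -deg a₀ - 1 by ring] at this
        exact h.bot a₀ b _ _ this
  exact iso.hl_eq h.isPair (h.pair a₀) i

open Classical in
/-- Labels `L` on `U` and `L'` off `U`. -/
noncomputable def t1Mix (L L' : ι → ℤ → Submodule T M) (U : Finset ι) : ι → ℤ → Submodule T M :=
  fun a => if a ∈ U then L a else L' a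

theorem t1_compat (h : IsTotPair D deg d L L') {U : Finset ι}
    (hU : ∀ a b, deg b = deg a + 1 → b ∈ U → a ∈ U) : Compat D (t1Mix L L' U) := by
  intro a b j x hx
  unfold t1Mix at hx ⊢
  by_cases hD : D a b = 0
  · rw [hD, zero_smul]
    exact zero_mem _
  by_cases hb : b ∈ U
  · rw [if_pos hb] at hx
    rw [if_pos (hU a b (h.homog a b hD) hb)]
    exact h.top a b j x hx
  · rw [if_neg hb] at hx
    split_ifs
    · exact (h.pair a).le j (h.bot a b j x hx)
    · exact h.bot a b j x hx

theorem t1_pair (h : IsTotPair D deg d L L') {U U' : Finset ι}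
    (hU : ∀ a b, deg b = deg a + 1 → b ∈ U → a ∈ U)
    (hU' : ∀ a b, deg b = deg a + 1 → b ∈ U' → a ∈ U') (hle : U' ⊆ U) :
    IsTotPair D deg d (t1Mix L L' U) (t1Mix L L' U') := by
  refine ⟨h.homog, h.sq, h.dd, fun a => ?_, t1_compat h hU, t1_compat h hU'⟩
  have p := h.pair a
  unfold t1Mix
  by_cases h1 : a ∈ U'
  · rw [if_pos h1, if_pos (hle h1)]
    exact ⟨p.dd, p.top, p.top, fun _ => le_rfl⟩
  · rw [if_neg h1]
    split_ifs
    · exact p
    · exact ⟨p.dd, p.bot, p.bot, fun _ => le_rfl⟩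

theorem t1_main (h : IsTotPair D deg d L L') (U : Finset ι)
    (hU : ∀ a b, deg b = deg a + 1 → b ∈ U → a ∈ U) :
    (∀ i, hl (tot D deg d) (totFam deg (t1Mix L L' U)) (totFam deg (t1Mix L L' ∅)) i ≤
      ∑ a ∈ U, hl d (L a) (L' a) (i - deg a)) ∧
    ((∀ a, FinH d (L a) (L' a)) →
      FinH (tot D deg d) (totFam deg (t1Mix L L' U)) (totFam deg (t1Mix L L' ∅)) ∧
      eul (tot D deg d) (totFam deg (t1Mix L L' U)) (totFam deg (t1Mix L L' ∅)) =
        ∑ a ∈ U, sgn (deg a) * eul d (L a) (L' a)) := by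
  classical
  induction U using Finset.induction_on_max_value deg with
  | empty =>
    exact ⟨fun i => by simp [hl_self], fun _ =>
      ⟨finH_of_hl_eq_zero (hl_self _ _), eul_of_hl_eq_zero (hl_self _ _)⟩⟩
  | insert a s ha hmax ih =>
    have hs : ∀ a b, deg b = deg a + 1 → b ∈ s → a ∈ s := fun a' b e hb => by
      rcases Finset.mem_insert.1 (hU a' b e (Finset.mem_insert_of_mem hb)) with rfl | h'
      · have := hmax b hb
        omega
      · exact h'
    obtain ⟨i1, i2⟩ := ih hs
    have p1 := t1_pair h hU hs (Finset.subset_insert _ _)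
    have p2 := t1_pair h hs (U' := ∅) (fun _ _ _ h => absurd h (Finset.notMem_empty _))
      (Finset.empty_subset _)
    have e : ∀ i, hl (tot D deg d) (totFam deg (t1Mix L L' (insert a s)))
        (totFam deg (t1Mix L L' s)) i = hl d (L a) (L' a) (i + -deg a) := fun i => by
      rw [t1_single p1 a (fun b hb => by simp [t1Mix, hb]) i]
      simp [t1Mix, ha]
    refine ⟨fun i => ?_, fun f => ?_⟩
    · rw [Finset.sum_insert ha]
      refine (hl_le_add p1.isPair p2.isPair i).trans (add_le_add ?_ (i1 i))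
      rw [e, sub_eq_add_neg]
    · obtain ⟨j1, j2⟩ := i2 f
      obtain ⟨k1, k2⟩ := finH_eul_of_hl_eq _ e
      refine ⟨FinH.mid p1.isPair p2.isPair (k1.2 (f a)) j1, ?_⟩
      have s1 : sgn (deg a) * sgn (-deg a) = 1 := by rw [← sgn_add, add_neg_cancel, sgn_zero]
      rw [eul_add p1.isPair p2.isPair (k1.2 (f a)) j1, j2, Finset.sum_insert ha, k2, ← mul_assoc,
        s1, one_mul]

theorem t1Mix_univ : t1Mix L L' Finset.univ = L := by
  funext a
  simp [t1Mix]

theorem t1Mix_empty : t1Mix L L' ∅ = L' := by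
  funext a
  simp [t1Mix]

/-- (T1) filtration by the vertices of the matrix complex. -/
theorem hl_tot_le (h : IsTotPair D deg d L L') (i : ℤ) :
    hl (tot D deg d) (totFam deg L) (totFam deg L') i ≤ ∑ a, hl d (L a) (L' a) (i - deg a) := by
  have := (t1_main h Finset.univ fun _ _ _ _ => Finset.mem_univ _).1 i
  rwa [t1Mix_univ, t1Mix_empty] at this
theorem finH_tot (h : IsTotPair D deg d L L') (f : ∀ a, FinH d (L a) (L' a)) :
    FinH (tot D deg d) (totFam deg L) (totFam deg L') := by
  have := ((t1_main h Finset.univ fun _ _ _ _ => Finset.mem_univ _).2 f).1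
  rwa [t1Mix_univ, t1Mix_empty] at this
theorem eul_tot (h : IsTotPair D deg d L L') (f : ∀ a, FinH d (L a) (L' a)) :
    eul (tot D deg d) (totFam deg L) (totFam deg L') = ∑ a, sgn (deg a) * eul d (L a) (L' a) := by
  have := ((t1_main h Finset.univ fun _ _ _ _ => Finset.mem_univ _).2 f).2
  rwa [t1Mix_univ, t1Mix_empty] at this
/-- If only the vertex `a₀` carries a nontrivial pair, the total complex is that pair. -/
theorem hl_tot_single (h : IsTotPair D deg d L L') (a₀ : ι) (h0 : ∀ a, a ≠ a₀ → L a = L' a)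
    (i : ℤ) : hl (tot D deg d) (totFam deg L) (totFam deg L') i = hl d (L a₀) (L' a₀) (i - deg a₀) :=
  by rw [t1_single h a₀ h0 i, sub_eq_add_neg]
end T1

/-- (T2) interchange of two matrix complexes. -/
theorem hl_tot_swap {D : Matrix ι ι B} {deg : ι → ℤ} {E : Matrix κ κ B} {deg' : κ → ℤ}
    {d : M →ₗ[B] M} {L L' : ι → κ → ℤ → Submodule T M}
    (hD : IsHomog D deg 1) (hE : IsHomog E deg' 1)
    (h : IsPair (tot D deg (tot E deg' d)) (totFam deg fun a => totFam deg' (L a))
      (totFam deg fun a => totFam deg' (L' a))) :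
    IsPair (tot E deg' (tot D deg d)) (totFam deg' fun b => totFam deg fun a => L a b)
      (totFam deg' fun b => totFam deg fun a => L' a b) ∧
    ∀ i, hl (tot D deg (tot E deg' d)) (totFam deg fun a => totFam deg' (L a))
      (totFam deg fun a => totFam deg' (L' a)) i =
    hl (tot E deg' (tot D deg d)) (totFam deg' fun b => totFam deg fun a => L a b)
      (totFam deg' fun b => totFam deg fun a => L' a b) i := by
  let φ : (ι → κ → M) →ₗ[T] (κ → ι → M) :=
    { toFun := fun v b a => sgn (deg a * deg' b) • v a b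
      map_add' := fun v w => by ext b a; simp
      map_smul' := fun c v => by ext b a; simp [smul_comm c] }
  have hφ : ∀ v b a, φ v b a = sgn (deg a * deg' b) • v a b := fun _ _ _ => rfl
  have mem : ∀ (L : ι → κ → ℤ → Submodule T M) i v,
      φ v ∈ (totFam deg' fun b => totFam deg fun a => L a b) i ↔
        v ∈ (totFam deg fun a => totFam deg' (L a)) i := by
    intro L i v
    simp only [mem_totFam, hφ, HT.sgn_smul_mem]
    rw [forall_comm]
    simp only [sub_right_comm i (deg' _)]
  have := HT.transfer (d := tot D deg (tot E deg' d)) (d' := tot E deg' (tot D deg d)) φ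
    (fun w => ⟨fun a b => sgn (deg a * deg' b) • w b a, by
      ext b a
      rw [hφ, HT.sgn_smul_smul]⟩) (fun v => ?_) (mem L) (mem L')
  · exact ⟨this.1 h, this.2⟩
  ext b a
  simp only [hφ, tot_apply, Pi.add_apply, Finset.sum_apply, Pi.smul_apply, smul_add,
    Finset.smul_sum, map_zsmul]
  rw [add_left_comm]
  congr 1
  · refine Finset.sum_congr rfl fun b' _ => ?_
    by_cases e : E b b' = 0
    · simp [e]
    · rw [hE b b' e, mul_add, mul_one, sgn_add, smul_comm (E b b'), mul_smul]
  congr 1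
  · refine Finset.sum_congr rfl fun a' _ => ?_
    by_cases e : D a a' = 0
    · simp [e]
    · rw [hD a a' e, add_mul, one_mul, sgn_add, smul_comm (D a a'), mul_comm (sgn _), mul_smul,
        HT.sgn_smul_smul]
  · simp only [smul_smul]
    congr 1
    ring

/-- The tensor product of two matrix complexes. -/
def tensMat [DecidableEq ι] [DecidableEq κ] (D : Matrix ι ι B) (deg : ι → ℤ) (E : Matrix κ κ B) :
    Matrix (ι × κ) (ι × κ) B := fun x y =>
  (if x.2 = y.2 then D x.1 y.1 else 0) + (if x.1 = y.1 then sgn (deg x.1) • E x.2 y.2 else 0)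

/-- The degree on the tensor product. -/
def tensDeg (deg : ι → ℤ) (deg' : κ → ℤ) : ι × κ → ℤ := fun x => deg x.1 + deg' x.2

open Kronecker in
omit [Fintype ι] [Fintype κ] in
theorem HT.tensMat_eq [DecidableEq ι] [DecidableEq κ] (D : Matrix ι ι B) (deg : ι → ℤ)
    (E : Matrix κ κ B) : tensMat D deg E =
      D ⊗ₖ (1 : Matrix κ κ B) + Matrix.diagonal (fun a => (sgn (deg a) : B)) ⊗ₖ E := by
  ext x y
  simp [tensMat, Matrix.one_apply, Matrix.diagonal_apply]

theorem HT.diag_anti [DecidableEq ι] {D : Matrix ι ι B} {deg : ι → ℤ} {k : ℤ}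
    (hD : IsHomog D deg k) (hk : sgn k = -1) :
    D * Matrix.diagonal (fun a => (sgn (deg a) : B)) +
      Matrix.diagonal (fun a => (sgn (deg a) : B)) * D = 0 := by
  ext a b
  rw [Matrix.add_apply, Matrix.mul_diagonal, Matrix.diagonal_mul, Matrix.zero_apply]
  by_cases h : D a b = 0
  · simp [h]
  · rw [hD a b h, sgn_add, hk]
    push_cast
    ring

theorem HT.diag_sq [DecidableEq ι] (deg : ι → ℤ) :
    Matrix.diagonal (fun a => (sgn (deg a) : B)) * Matrix.diagonal (fun a => (sgn (deg a) : B)) =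
      1 := by
  rw [Matrix.diagonal_mul_diagonal, ← Matrix.diagonal_one]
  congr 1
  funext a
  rw [← Int.cast_mul, sgn_mul_self, Int.cast_one]

theorem isMC_tensMat [DecidableEq ι] [DecidableEq κ] {D : Matrix ι ι B} {deg : ι → ℤ}
    {E : Matrix κ κ B} {deg' : κ → ℤ} (hD : IsMC D deg) (hE : IsMC E deg') :
    IsMC (tensMat D deg E) (tensDeg deg deg') := by
  refine ⟨?_, fun x y h => ?_⟩
  · rw [HT.tensMat_eq]
    simp only [add_mul, mul_add, ← Matrix.mul_kronecker_mul, hD.sq, hE.sq, mul_one, one_mul,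
      Matrix.zero_kronecker, Matrix.kronecker_zero, zero_add, add_zero]
    rw [← Matrix.add_kronecker, add_comm, HT.diag_anti hD.homog HT.sgn_one, Matrix.zero_kronecker]
  · unfold tensMat at h
    unfold tensDeg
    by_cases h1 : (if x.2 = y.2 then D x.1 y.1 else 0) = 0
    · rw [h1, zero_add] at h
      split_ifs at h with e
      · rw [hE.homog x.2 y.2 fun e' => h (by rw [e', smul_zero]), e, add_assoc]
      · exact absurd rfl h
    · split_ifs at h1 with e
      · rw [hD.homog x.1 y.1 h1, e, add_right_comm]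
      · exact absurd rfl h1

/-- (T2') the total complex of a tensor product is the iterated total complex. -/
theorem hl_tot_tensMat [DecidableEq ι] [DecidableEq κ] {D : Matrix ι ι B} {deg : ι → ℤ}
    {E : Matrix κ κ B} {deg' : κ → ℤ} {d : M →ₗ[B] M} (L L' : ι → κ → ℤ → Submodule T M) (i : ℤ) :
    hl (tot (tensMat D deg E) (tensDeg deg deg') d)
      (totFam (tensDeg deg deg') fun x => L x.1 x.2)
      (totFam (tensDeg deg deg') fun x => L' x.1 x.2) i =
    hl (tot D deg (tot E deg' d)) (totFam deg fun a => totFam deg' (L a))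
      (totFam deg fun a => totFam deg' (L' a)) i := by
  let φ : (ι × κ → M) →ₗ[T] (ι → κ → M) :=
    { toFun := fun v a b => v (a, b)
      map_add' := fun _ _ => rfl
      map_smul' := fun _ _ => rfl }
  have hφ : ∀ v a b, φ v a b = v (a, b) := fun _ _ _ => rfl
  have mem : ∀ (L : ι → κ → ℤ → Submodule T M) i v,
      φ v ∈ (totFam deg fun a => totFam deg' (L a)) i ↔
        v ∈ (totFam (tensDeg deg deg') fun x => L x.1 x.2) i := by
    intro L i v
    simp only [mem_totFam, hφ, Prod.forall, tensDeg, sub_sub]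
  refine (HT.transfer (d := tot (tensMat D deg E) (tensDeg deg deg') d)
    (d' := tot D deg (tot E deg' d)) φ (fun w => ⟨fun x => w x.1 x.2, rfl⟩) (fun v => ?_)
    (mem L) (mem L')).2 i
  ext a b
  simp only [hφ, tot_apply, Pi.add_apply, Finset.sum_apply, Pi.smul_apply, smul_add,
    Finset.smul_sum, tensMat, tensDeg, add_smul, Finset.sum_add_distrib, ite_smul, zero_smul,
    Fintype.sum_prod_type, Finset.sum_ite_eq, Finset.mem_univ, if_true, sgn_add, mul_smul,
    add_assoc]
  congr 2
  rw [Finset.sum_comm]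
  simp only [Finset.sum_ite_eq, Finset.mem_univ, if_true, smul_assoc]

/-- A null-homotopy of a scalar on the left factor gives one on the tensor product. -/
theorem tensMat_homotopy_left [DecidableEq ι] [DecidableEq κ] {D : Matrix ι ι B} {deg : ι → ℤ}
    {E : Matrix κ κ B} {deg' : κ → ℤ} {H : Matrix ι ι B} {z : B} (hH : IsHomog H deg (-1))
    (hz : D * H + H * D = z • (1 : Matrix ι ι B)) :
    ∃ H' : Matrix (ι × κ) (ι × κ) B, IsHomog H' (tensDeg deg deg') (-1) ∧
      tensMat D deg E * H' + H' * tensMat D deg E = z • 1 := by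
  refine ⟨Matrix.kroneckerMap (· * ·) H (1 : Matrix κ κ B), fun x y h => ?_, ?_⟩
  · rw [Matrix.kroneckerMap_apply] at h
    have e : x.2 = y.2 := by
      by_contra e
      exact h (by rw [Matrix.one_apply_ne e, mul_zero])
    unfold tensDeg
    rw [hH x.1 y.1 (left_ne_zero_of_mul h), e, add_right_comm]
  · rw [HT.tensMat_eq]
    simp only [add_mul, mul_add, ← Matrix.mul_kronecker_mul, mul_one, one_mul]
    rw [add_add_add_comm, ← Matrix.add_kronecker, ← Matrix.add_kronecker, hz, add_comm (_ * H),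
      HT.diag_anti hH HT.sgn_neg_one, Matrix.zero_kronecker, add_zero, Matrix.smul_kronecker,
      Matrix.one_kronecker_one]
/-- A null-homotopy of a scalar on the right factor gives one on the tensor product. -/
theorem tensMat_homotopy_right [DecidableEq ι] [DecidableEq κ] {D : Matrix ι ι B} {deg : ι → ℤ}
    {E : Matrix κ κ B} {deg' : κ → ℤ} (hD : IsHomog D deg 1) {H : Matrix κ κ B} {z : B}
    (hH : IsHomog H deg' (-1)) (hz : E * H + H * E = z • (1 : Matrix κ κ B)) :
    ∃ H' : Matrix (ι × κ) (ι × κ) B, IsHomog H' (tensDeg deg deg') (-1) ∧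
      tensMat D deg E * H' + H' * tensMat D deg E = z • 1 := by
  refine ⟨Matrix.kroneckerMap (· * ·) (Matrix.diagonal fun a => (sgn (deg a) : B)) H,
    fun x y h => ?_, ?_⟩
  · rw [Matrix.kroneckerMap_apply] at h
    have e : x.1 = y.1 := by
      by_contra e
      exact h (by rw [Matrix.diagonal_apply_ne _ e, zero_mul])
    unfold tensDeg
    rw [hH x.2 y.2 (right_ne_zero_of_mul h), e, add_assoc]
  · rw [HT.tensMat_eq]
    simp only [add_mul, mul_add, ← Matrix.mul_kronecker_mul, mul_one, one_mul, HT.diag_sq]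
    rw [add_add_add_comm, ← Matrix.add_kronecker, ← Matrix.kronecker_add, hz,
      HT.diag_anti hD HT.sgn_one, Matrix.zero_kronecker, zero_add, Matrix.kronecker_smul,
      Matrix.one_kronecker_one]

/-- The componentwise map twisted by `ε ^ deg`. -/
def totMap (deg : ι → ℤ) (φ : M →ₗ[T] M') (ε : ℤˣ) : (ι → M) →ₗ[T] (ι → M') where
  toFun v := fun a => (ε ^ deg a) • φ (v a)
  map_add' v w := by ext a; simp
  map_smul' c v := by ext a; simp [smul_comm c]

omit [Module B M] [IsScalarTower T B M] in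
theorem HT.units_smul_mem {N : Submodule T M} {u : ℤˣ} {x : M} : u • x ∈ N ↔ x ∈ N :=
  ⟨fun h => by
    have := zsmul_mem h (u : ℤ)
    rwa [← Units.smul_def, smul_smul, Int.units_mul_self, one_smul] at this,
    fun h => zsmul_mem h (u : ℤ)⟩

/-- (T3) functoriality of the total complex. -/
theorem PairIso.tot {D : Matrix ι ι B} {D' : Matrix ι ι B'} {deg : ι → ℤ} {d : M →ₗ[B] M}
    {d' : M' →ₗ[B'] M'} {L L' : ι → ℤ → Submodule T M} {C C' : ι → ℤ → Submodule T M'}
    {φ : M →ₗ[T] M'} {ε : ℤˣ} {k : ℤ} (hD : IsHomog D deg 1) (hD' : IsHomog D' deg 1)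
    (h : ∀ a, PairIso d (L a) (L' a) d' (C a) (C' a) φ ε k)
    (hs : ∀ a b j, deg b = deg a + 1 → ∀ x ∈ L b j, φ (D a b • x) - D' a b • φ x ∈ C' a (j + k)) :
    PairIso (tot D deg d) (totFam deg L) (totFam deg L') (tot D' deg d') (totFam deg C)
      (totFam deg C') (totMap deg φ ε) ε k := by
  have hφ : ∀ v a, totMap deg φ ε v a = (ε ^ deg a) • φ (v a) := fun _ _ => rfl
  refine ⟨fun i v hv => ?_, fun i v hv => ?_, fun i y hy => ?_, fun i v hv hv' => ?_,
    fun i v hv => ?_⟩
  · rw [mem_totFam] at hv ⊢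
    intro a
    rw [hφ, HT.units_smul_mem, add_sub_right_comm]
    exact (h a).map_top _ _ (hv a)
  · rw [mem_totFam] at hv ⊢
    intro a
    rw [hφ, HT.units_smul_mem, add_sub_right_comm]
    exact (h a).map_bot _ _ (hv a)
  · rw [mem_totFam] at hy
    choose x hx hx' using fun a => (h a).surj (i - deg a) ((ε ^ deg a) • y a) (by
      rw [HT.units_smul_mem, ← add_sub_right_comm]
      exact hy a)
    refine ⟨x, mem_totFam.2 hx, mem_totFam.2 fun a => ?_⟩
    rw [← HT.units_smul_mem (u := ε ^ deg a), Pi.sub_apply, hφ, smul_sub, smul_smul,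
      Int.units_mul_self, one_smul, add_sub_right_comm]
    exact hx' a
  · rw [mem_totFam] at hv hv' ⊢
    intro a
    refine (h a).inj _ _ (hv a) ?_
    have := hv' a
    rwa [hφ, HT.units_smul_mem, add_sub_right_comm] at this
  · rw [mem_totFam] at hv ⊢
    intro a
    have e : (totMap deg φ ε (P202.tot D deg d v) - ε • P202.tot D' deg d' (totMap deg φ ε v)) a =
        ∑ b, ((ε ^ deg a) • φ (D a b • v b) - ε • D' a b • (ε ^ deg b) • φ (v b)) +
          sgn (deg a) • (ε ^ deg a) • (φ (d (v a)) - ε • d' (φ (v a))) := by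
      simp only [Pi.sub_apply, Pi.smul_apply, hφ, tot_apply, map_add, map_sum, map_zsmul, smul_add,
        Finset.smul_sum, Finset.sum_sub_distrib, smul_sub, Units.smul_def, smul_smul]
      rw [show (ε : ℤ) * (sgn (deg a) * ((ε ^ deg a : ℤˣ) : ℤ)) =
          sgn (deg a) * (((ε ^ deg a : ℤˣ) : ℤ) * ε) by ring,
        mul_comm ((ε ^ deg a : ℤˣ) : ℤ) (sgn (deg a))]
      abel
    rw [e]
    refine add_mem (Submodule.sum_mem _ fun b _ => ?_) ?_
    · by_cases hb : deg b = deg a + 1
      · have := hs a b _ hb _ (hv b)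
        rw [smul_comm (D' a b), smul_smul, hb, zpow_add_one, mul_comm ε, mul_assoc,
          Int.units_mul_self, mul_one, ← smul_sub, HT.units_smul_mem]
        rwa [hb, show i - (deg a + 1) + k = i + k - 1 - deg a by ring] at this
      · have e1 : D a b = 0 := by_contra fun e => hb (hD a b e)
        have e2 : D' a b = 0 := by_contra fun e => hb (hD' a b e)
        simp [e1, e2]
    · rw [HT.sgn_smul_mem, HT.units_smul_mem,
        show i + k - 1 - deg a = i - deg a + k - 1 by ring]
      exact (h a).comm _ _ (hv a)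

/-- (T4) an inner homotopy lifts to the total complex. -/
theorem tot_parAct_homotopy {D : Matrix ι ι B} {deg : ι → ℤ} (hD : IsHomog D deg 1)
    (d H : M →ₗ[B] M) (v : ι → M) (a : ι) :
    (tot D deg d (parAct deg H v) + parAct deg H (tot D deg d v)) a = d (H (v a)) + H (d (v a)) := by
  rw [HT.tot_eq, HT.tot_eq, map_add, add_add_add_comm, HT.anti hD HT.sgn_one, zero_add,
    Pi.add_apply, HT.parAct_parAct, HT.parAct_parAct]
/-- (T5) a matrix homotopy acts on the total complex. -/
theorem tot_matAct_homotopy {D H : Matrix ι ι B} {deg : ι → ℤ} (hH : IsHomog H deg (-1))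
    (d : M →ₗ[B] M) (v : ι → M) :
    tot D deg d (matAct H v) + matAct H (tot D deg d v) = matAct (D * H + H * D) v := by
  rw [HT.tot_eq, HT.tot_eq, map_add, add_add_add_comm, add_comm (parAct deg d _),
    HT.anti hH HT.sgn_neg_one, add_zero, HT.matAct_matAct, HT.matAct_matAct, HT.matAct_add]
theorem matAct_smul_one [DecidableEq ι] (z : B) (v : ι → M) :
    matAct (z • (1 : Matrix ι ι B)) v = z • v := by
  funext a
  simp [matAct_apply, Matrix.one_apply]
theorem matAct_mem_totFam {H : Matrix ι ι B} {deg : ι → ℤ} {k : ℤ} (hH : IsHomog H deg k)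
    {L : ι → ℤ → Submodule T M} (hc : Compat H L) (i : ℤ) :
    ∀ v ∈ totFam deg L i, matAct H v ∈ totFam deg L (i - k) :=
  HT.matAct_mem hH hc i
theorem parAct_mem_totFam {deg : ι → ℤ} {L : ι → ℤ → Submodule T M} {H : M →ₗ[B] M} {k : ℤ}
    (hH : ∀ a j, ∀ x ∈ L a j, H x ∈ L a (j + k)) (i : ℤ) :
    ∀ v ∈ totFam deg L i, parAct deg H v ∈ totFam deg L (i + k) :=
  HT.parAct_mem hH i

end Vale.Agent.P202
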