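import Vale.Agent.P202.HomKos

/-! Module A: the homological toolkit of `HomCore`, `HomTot`, `HomKos` for an abstract additive
length function with values in `[0, ∞]`. -/

namespace Vale.Agent.P202

open Submodule
open scoped ENNReal

universe u

/-- An additive length function on `T`-modules. -/
structure LenFn (T : Type u) [CommRing T] where
  len : (M : Type u) → [AddCommGroup M] → [Module T M] → ℝ≥0∞
  len_equiv : ∀ (M N : Type u) [AddCommGroup M] [Module T M] [AddCommGroup N] [Module T N],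
    (M ≃ₗ[T] N) → len M = len N
  len_add : ∀ (M : Type u) [AddCommGroup M] [Module T M] (N : Submodule T M),
    len M = len N + len (M ⧸ N)
  len_zero : ∀ (M : Type u) [AddCommGroup M] [Module T M], Subsingleton M → len M = 0

namespace LenFn

section RL
variable {T : Type u} [CommRing T] (L : LenFn T) {M : Type u} [AddCommGroup M] [Module T M]
  {M' : Type u} [AddCommGroup M'] [Module T M']

/-- Relative length: the length of `(P ⊔ Q) / Q`. -/
noncomputable def rl (P Q : Submodule T M) : ℝ≥0∞ := L.len (P.map Q.mkQ)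

/-- The length function vanishes on the modules killed by `θ`. -/
def Kills (θ : T) : Prop := ∀ (N : Type u) [AddCommGroup N] [Module T N],
  (∀ x : N, θ • x = 0) → L.len N = 0

theorem len_le_of_injective (f : M →ₗ[T] M') (hf : Function.Injective f) : L.len M ≤ L.len M' := by
  rw [L.len_add M' (LinearMap.range f), ← L.len_equiv _ _ (LinearEquiv.ofInjective f hf)]
  exact le_self_add
theorem len_le_of_surjective (f : M →ₗ[T] M') (hf : Function.Surjective f) :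
    L.len M' ≤ L.len M := by
  rw [L.len_add M (LinearMap.ker f), L.len_equiv _ _ (f.quotKerEquivOfSurjective hf)]
  exact le_add_self
theorem lc_exact {M'' : Type u} [AddCommGroup M''] [Module T M''] (f : M →ₗ[T] M')
    (g : M' →ₗ[T] M'') (hf : Function.Injective f) (hg : Function.Surjective g)
    (h : Function.Exact f g) : L.len M' = L.len M + L.len M'' := by
  rw [L.len_add M' (LinearMap.ker g), L.len_equiv _ _ (g.quotKerEquivOfSurjective hg),
    h.linearMap_ker_eq, ← L.len_equiv _ _ (LinearEquiv.ofInjective f hf)]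
theorem lc_prod : L.len (M × M') = L.len M + L.len M' :=
  L.lc_exact (LinearMap.inl T M M') (LinearMap.snd T M M') LinearMap.inl_injective
    LinearMap.snd_surjective Function.Exact.inl_snd
theorem lc_pi (ι : Type) [Fintype ι] : ∀ (N : ι → Type u) [∀ a, AddCommGroup (N a)]
    [∀ a, Module T (N a)], L.len (∀ a, N a) = ∑ a, L.len (N a) := by
  refine Fintype.induction_empty_option (P := fun ι _ => ∀ (N : ι → Type u)
    [∀ a, AddCommGroup (N a)] [∀ a, Module T (N a)], L.len (∀ a, N a) = ∑ a, L.len (N a))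
    ?_ ?_ ?_ ι
  · intro α β _ e ih N _ _
    let : Fintype α := Fintype.ofEquiv β e.symm
    rw [← L.len_equiv _ _ (LinearEquiv.piCongrLeft T N e), ih, ← e.sum_comp]
  · intro N _ _
    rw [L.len_zero _ inferInstance]
    simp
  · intro α _ ih N _ _
    rw [L.len_equiv _ _ (LinearEquiv.piOptionEquivProd T), L.lc_prod, ih, Fintype.sum_option]
theorem lc_sub_mono {P P' : Submodule T M} (h : P ≤ P') : L.len P ≤ L.len P' :=
  L.len_le_of_injective (Submodule.inclusion h) (Submodule.inclusion_injective h)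
theorem lc_quot_anti {K K' : Submodule T M} (h : K ≤ K') : L.len (M ⧸ K') ≤ L.len (M ⧸ K) :=
  L.len_le_of_surjective (Submodule.factor h) (Submodule.factor_surjective h)
theorem len_pi {ι : Type} [Fintype ι] : L.len (ι → M) = Fintype.card ι * L.len M := by
  rw [L.lc_pi ι fun _ => M]
  simp
theorem rl_eq_of_surj {P Q : Submodule T M} (g : P →ₗ[T] M') (hs : Function.Surjective g)
    (hk : ∀ x : P, g x = 0 ↔ (x : M) ∈ Q) : L.rl P Q = L.len M' := by
  have h1 : LinearMap.ker g = LinearMap.ker (Q.mkQ ∘ₗ P.subtype) := by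
    ext x; simp [hk]
  have h2 : LinearMap.range (Q.mkQ ∘ₗ P.subtype) = P.map Q.mkQ := by
    rw [LinearMap.range_comp, Submodule.range_subtype]
  rw [rl, ← h2, ← L.len_equiv _ _ (LinearMap.quotKerEquivRange _), ← h1,
    L.len_equiv _ _ (g.quotKerEquivOfSurjective hs)]
theorem rl_eq_quot (P Q : Submodule T M) : L.rl P Q = L.len (P ⧸ Q.comap P.subtype) := by
  exact L.rl_eq_of_surj (Q.comap P.subtype).mkQ (Submodule.mkQ_surjective _) fun x => by simp
theorem rl_of_le {P Q : Submodule T M} (h : P ≤ Q) : L.rl P Q = 0 := by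
  refine L.len_zero _ ?_
  rw [Submodule.subsingleton_iff_eq_bot, ← le_bot_iff, Submodule.map_le_iff_le_comap,
    Submodule.comap_bot, Submodule.ker_mkQ]
  exact h
theorem rl_self (P : Submodule T M) : L.rl P P = 0 := by
  exact L.rl_of_le le_rfl
theorem rl_sup (P Q : Submodule T M) : L.rl (P ⊔ Q) Q = L.rl P Q := by
  rw [rl, rl, Submodule.map_sup, Submodule.mkQ_map_self, sup_bot_eq]
theorem rl_inf (P Q : Submodule T M) : L.rl P (P ⊓ Q) = L.rl P Q := by
  rw [rl_eq_quot, rl_eq_quot, Submodule.comap_inf, Submodule.comap_subtype_self, top_inf_eq]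
theorem rl_add {A B C : Submodule T M} (hCB : C ≤ B) (hBA : B ≤ A) :
    L.rl A C = L.rl A B + L.rl B C := by
  have hm : ∀ x ∈ A.map C.mkQ, Submodule.factor hCB x ∈ A.map B.mkQ := by
    rintro _ ⟨x, hx, rfl⟩
    exact ⟨x, hx, rfl⟩
  rw [add_comm]
  refine L.lc_exact (Submodule.inclusion (Submodule.map_mono hBA))
    ((Submodule.factor hCB).restrict hm) (Submodule.inclusion_injective _) ?_ ?_
  · rintro ⟨_, x, hx, rfl⟩
    exact ⟨⟨C.mkQ x, x, hx, rfl⟩, rfl⟩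
  · rintro ⟨_, x, hx, rfl⟩
    constructor
    · intro h
      have h1 : B.mkQ x = 0 := congrArg Subtype.val h
      exact ⟨⟨C.mkQ x, x, (Submodule.Quotient.mk_eq_zero B).mp h1, rfl⟩, rfl⟩
    · rintro ⟨⟨_, y, hy, rfl⟩, h⟩
      rw [← h]
      exact Subtype.ext ((Submodule.Quotient.mk_eq_zero B).mpr hy)
theorem lc_le_of_map_inj (φ : M →ₗ[T] M') {P Q : Submodule T M} {P' Q' : Submodule T M'}
    (h1 : ∀ x ∈ P, φ x ∈ P') (h4 : ∀ x ∈ P, φ x ∈ Q' → x ∈ Q) : L.rl P Q ≤ L.rl P' Q' := by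
  rw [rl_eq_quot]
  have a1 : LinearMap.ker (Q'.mkQ ∘ₗ φ ∘ₗ P.subtype) ≤ Q.comap P.subtype := by
    intro x hx
    exact h4 x x.2 (by simpa using hx)
  refine (L.lc_quot_anti a1).trans ?_
  rw [L.len_equiv _ _ (LinearMap.quotKerEquivRange _)]
  refine L.lc_sub_mono ?_
  rintro _ ⟨x, rfl⟩
  exact ⟨φ x, h1 x x.2, rfl⟩
theorem lc_le_of_map_surj (φ : M →ₗ[T] M') {P Q : Submodule T M} {P' Q' : Submodule T M'}
    (h2 : ∀ x ∈ P ⊓ Q, φ x ∈ Q') (h3 : ∀ y ∈ P', ∃ x ∈ P, y - φ x ∈ Q') :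
    L.rl P' Q' ≤ L.rl P Q := by
  rw [L.rl_eq_quot P Q]
  have a1 : Q.comap P.subtype ≤ LinearMap.ker (Q'.mkQ ∘ₗ φ ∘ₗ P.subtype) := by
    intro x hx
    simpa using h2 x ⟨x.2, hx⟩
  refine le_trans ?_ (L.lc_quot_anti a1)
  rw [L.len_equiv _ _ (LinearMap.quotKerEquivRange _)]
  refine L.lc_sub_mono ?_
  rintro _ ⟨y, hy, rfl⟩
  obtain ⟨x, hx, hxy⟩ := h3 y hy
  exact ⟨⟨x, hx⟩, ((Submodule.Quotient.eq _).mpr hxy).symm⟩
theorem rl_mono {P P' Q Q' : Submodule T M} (hP : P ≤ P') (hQ : Q' ≤ Q) :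
    L.rl P Q ≤ L.rl P' Q' := by
  exact L.lc_le_of_map_inj LinearMap.id (fun _ hx => hP hx) fun _ _ hx => hQ hx
theorem rl_le_add (A B C : Submodule T M) : L.rl A C ≤ L.rl A B + L.rl B C := by
  have h1 : L.rl A C ≤ L.rl (A ⊔ (B ⊔ C)) C := L.rl_mono le_sup_left le_rfl
  rw [L.rl_add (le_sup_right : C ≤ B ⊔ C) le_sup_right, rl_sup, rl_sup] at h1
  exact h1.trans (add_le_add (L.rl_mono le_rfl le_sup_left) le_rfl)
theorem rl_bot (P : Submodule T M) : L.rl P ⊥ = L.len P := by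
  exact L.rl_eq_of_surj LinearMap.id Function.surjective_id fun x => by simp
theorem rl_top (Q : Submodule T M) : L.rl ⊤ Q = L.len (M ⧸ Q) := by
  rw [rl, Submodule.map_top, Submodule.range_mkQ]
  exact L.len_equiv _ _ Submodule.topEquiv
theorem rl_eq_of_map (φ : M →ₗ[T] M') {P Q : Submodule T M} {P' Q' : Submodule T M'}
    (h1 : ∀ x ∈ P, φ x ∈ P') (h2 : ∀ x ∈ Q, φ x ∈ Q')
    (h3 : ∀ y ∈ P', ∃ x ∈ P, y - φ x ∈ Q') (h4 : ∀ x ∈ P, φ x ∈ Q' → x ∈ Q) :
    L.rl P Q = L.rl P' Q' := by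
  exact le_antisymm (L.lc_le_of_map_inj φ h1 h4)
    (L.lc_le_of_map_surj φ (fun x hx => h2 x hx.2) h3)
theorem rl_le_of_map_inj (φ : M →ₗ[T] M') {P Q : Submodule T M} {P' Q' : Submodule T M'}
    (h1 : ∀ x ∈ P, φ x ∈ P') (h4 : ∀ x ∈ P, φ x ∈ Q' → x ∈ Q) : L.rl P Q ≤ L.rl P' Q' := by
  exact L.lc_le_of_map_inj φ h1 h4
theorem rl_le_of_map_surj (φ : M →ₗ[T] M') {P Q : Submodule T M} {P' Q' : Submodule T M'}
    (h2 : ∀ x ∈ P ⊓ Q, φ x ∈ Q') (h3 : ∀ y ∈ P', ∃ x ∈ P, y - φ x ∈ Q') :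
    L.rl P' Q' ≤ L.rl P Q := by
  exact L.lc_le_of_map_surj φ h2 h3
theorem rl_pi {ι : Type} [Fintype ι] (P Q : ι → Submodule T M) :
    L.rl (Submodule.pi Set.univ P) (Submodule.pi Set.univ Q) = ∑ a, L.rl (P a) (Q a) := by
  have e := L.lc_pi ι fun a => (P a).map (Q a).mkQ
  refine Eq.trans ?_ e
  refine L.rl_eq_of_surj (LinearMap.pi fun a => LinearMap.codRestrict ((P a).map (Q a).mkQ)
    ((Q a).mkQ ∘ₗ LinearMap.proj a ∘ₗ (Submodule.pi Set.univ P).subtype)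
    fun x => ⟨x.1 a, x.2 a (Set.mem_univ a), rfl⟩) ?_ ?_
  · intro y
    choose x hx hxy using fun a => (y a).2
    exact ⟨⟨x, fun a _ => hx a⟩, funext fun a => Subtype.ext (hxy a)⟩
  · intro x
    rw [funext_iff, Submodule.mem_pi]
    refine forall_congr' fun a => ?_
    exact ⟨fun h _ => (Submodule.Quotient.mk_eq_zero _).mp (congrArg Subtype.val h),
      fun h => Subtype.ext ((Submodule.Quotient.mk_eq_zero _).mpr (h (Set.mem_univ a)))⟩

variable {L}
theorem Kills.pow {θ : T} (h : L.Kills θ) (c : ℕ) : L.Kills (θ ^ c) := by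
  induction c with
  | zero =>
    intro N _ _ hN
    refine L.len_zero _ ⟨fun x y => ?_⟩
    have h1 := hN x
    have h2 := hN y
    rw [pow_zero, one_smul] at h1 h2
    rw [h1, h2]
  | succ c ih =>
    intro N _ _ hN
    have e1 : L.len (LinearMap.ker (LinearMap.lsmul T N θ)) = 0 :=
      h _ fun x => Subtype.ext x.2
    have e2 : L.len (LinearMap.range (LinearMap.lsmul T N θ)) = 0 := by
      refine ih _ ?_
      rintro ⟨_, x, rfl⟩
      refine Subtype.ext ?_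
      have := hN x
      rw [pow_succ, mul_smul] at this
      exact this
    rw [L.len_add N (LinearMap.ker (LinearMap.lsmul T N θ)), e1,
      L.len_equiv _ _ (LinearMap.quotKerEquivRange _), e2, add_zero]
theorem Kills.rl_eq_zero {θ : T} (h : L.Kills θ) {P Q : Submodule T M}
    (hPQ : ∀ x ∈ P, θ • x ∈ Q) : L.rl P Q = 0 := by
  refine h _ ?_
  rintro ⟨_, x, hx, rfl⟩
  exact Subtype.ext ((Submodule.Quotient.mk_eq_zero _).mpr (hPQ x hx))
/-- A map of subquotients whose kernel is killed by `θ`. -/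
theorem Kills.rl_le_of_map_inj {θ : T} (h : L.Kills θ) (φ : M →ₗ[T] M') {P Q : Submodule T M}
    {P' Q' : Submodule T M'} (h1 : ∀ x ∈ P, φ x ∈ P')
    (h4 : ∀ x ∈ P, φ x ∈ Q' → θ • x ∈ Q) : L.rl P Q ≤ L.rl P' Q' := by
  refine (L.rl_le_add P (P ⊓ Q'.comap φ) Q).trans ?_
  rw [h.rl_eq_zero (P := P ⊓ Q'.comap φ) (Q := Q) fun x hx => h4 x hx.1 hx.2, add_zero]
  exact L.rl_le_of_map_inj φ h1 fun x hx hx' => ⟨hx, hx'⟩
/-- A map of subquotients whose cokernel is killed by `θ`. -/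
theorem Kills.rl_le_of_map_surj {θ : T} (h : L.Kills θ) (φ : M →ₗ[T] M') {P Q : Submodule T M}
    {P' Q' : Submodule T M'} (h2 : ∀ x ∈ P ⊓ Q, φ x ∈ Q')
    (h3 : ∀ y ∈ P', ∃ x ∈ P, θ • y - φ x ∈ Q') : L.rl P' Q' ≤ L.rl P Q := by
  refine (L.rl_le_add P' (P.map φ ⊔ Q') Q').trans ?_
  rw [h.rl_eq_zero (P := P') (Q := P.map φ ⊔ Q') fun y hy => ?_, zero_add]
  · refine L.rl_le_of_map_surj φ h2 fun y hy => ?_
    obtain ⟨_, ⟨x, hx, rfl⟩, z, hz, rfl⟩ := mem_sup.1 hy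
    exact ⟨x, hx, by rwa [add_sub_cancel_left]⟩
  · obtain ⟨x, hx, hxy⟩ := h3 y hy
    exact mem_sup.2 ⟨φ x, ⟨x, hx, rfl⟩, θ • y - φ x, hxy, add_sub_cancel _ _⟩
end RL

section Cx
variable {T : Type u} [CommRing T] (L : LenFn T) {B : Type*} [CommRing B] [Algebra T B]
  {M : Type u} [AddCommGroup M] [Module B M] [Module T M] [IsScalarTower T B M]
  {B' : Type*} [CommRing B'] [Algebra T B']
  {M' : Type u} [AddCommGroup M'] [Module B' M'] [Module T M'] [IsScalarTower T B' M']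

/-- Length of the `i`-th homology of `A / A'`. -/
noncomputable def hl (d : M →ₗ[B] M) (A A' : ℤ → Submodule T M) (i : ℤ) : ℝ≥0∞ :=
  L.rl (cyc d A A' i) (bdy d A A' i)

/-- Total homology of finite length. -/
structure FinH (d : M →ₗ[B] M) (A A' : ℤ → Submodule T M) : Prop where
  ne_top : ∀ i, L.hl d A A' i ≠ ⊤
  fin : (Function.support (L.hl d A A')).Finite

/-- Euler characteristic of the homology of `A / A'`. -/
noncomputable def eul (d : M →ₗ[B] M) (A A' : ℤ → Submodule T M) : ℝ :=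
  ∑ᶠ i, (sgn i : ℝ) * (L.hl d A A' i).toReal

theorem hl_eq_zero_of_hl {d : M →ₗ[B] M} {A A' : ℤ → Submodule T M} {i : ℤ}
    (h : Vale.Agent.P202.hl d A A' i = 0) : L.hl d A A' i = 0 := by
  exact L.rl_of_le (rl_eq_zero_iff.mp h)
theorem hl_self (d : M →ₗ[B] M) (A : ℤ → Submodule T M) (i : ℤ) : L.hl d A A i = 0 := by
  exact L.rl_of_le (inf_le_left.trans le_sup_right)
theorem hl_le_rl (d : M →ₗ[B] M) (A A' : ℤ → Submodule T M) (i : ℤ) :
    L.hl d A A' i ≤ L.rl (A i) (A' i) := by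
  exact L.rl_mono inf_le_left le_sup_right
theorem hl_conc (P P' : Submodule T M) (i : ℤ) :
    L.hl (0 : M →ₗ[B] M) (conc P) (conc P') i = if i = 0 then L.rl P P' else 0 := by
  have h1 : cyc (0 : M →ₗ[B] M) (conc P) (conc P') i = conc P i := by
    ext x; simp [mem_cyc]
  have h2 : bdy (0 : M →ₗ[B] M) (conc P) (conc P') i = conc P' i := by
    ext x
    rw [mem_bdy]
    exact ⟨fun ⟨_, _, h⟩ => by simpa using h, fun h => ⟨0, zero_mem _, by simpa using h⟩⟩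
  rw [hl, h1, h2]
  unfold conc
  split_ifs
  · rfl
  · exact L.rl_self _
theorem finH_of_hl_eq_zero {d : M →ₗ[B] M} {A A' : ℤ → Submodule T M}
    (h : ∀ i, L.hl d A A' i = 0) : L.FinH d A A' := by
  exact ⟨fun i => by rw [h i]; exact ENNReal.zero_ne_top,
    Set.finite_empty.subset fun i hi => absurd (h i) hi⟩
theorem eul_of_hl_eq_zero {d : M →ₗ[B] M} {A A' : ℤ → Submodule T M}
    (h : ∀ i, L.hl d A A' i = 0) : L.eul d A A' = 0 := by
  simp [eul, h]
theorem eul_eq_sum {d : M →ₗ[B] M} {A A' : ℤ → Submodule T M} (s : Finset ℤ)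
    (h : ∀ i, i ∉ s → L.hl d A A' i = 0) :
    L.eul d A A' = ∑ i ∈ s, (sgn i : ℝ) * (L.hl d A A' i).toReal := by
  refine finsum_eq_sum_of_support_subset _ fun i hi => ?_
  by_contra hn
  exact hi (by simp [h i hn])

section LES
variable {d : M →ₗ[B] M} {A A' A'' : ℤ → Submodule T M}
theorem exists_les (h : IsPair d A A') (h' : IsPair d A' A'') :
    ∃ α β γ : ℤ → ℝ≥0∞, (∀ i, L.hl d A A'' i = α i + β i) ∧ (∀ i, L.hl d A A' i = β i + γ i) ∧
      (∀ i, L.hl d A' A'' i = γ (i + 1) + α i) := by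
  have h'' : IsPair d A A'' := ⟨h.dd, h.top, h'.bot, fun i => (h'.le i).trans (h.le i)⟩
  refine ⟨fun i => L.rl (cyc d A' A'' i) (bdy d A A'' i),
    fun i => L.rl (cyc d A A'' i ⊔ A' i) (bdy d A A' i),
    fun i => L.rl (cyc d A A' i) (cyc d A A'' i ⊔ A' i), fun i => ?_, fun i => ?_, fun i => ?_⟩
  · have l1 : cyc d A' A'' i ⊔ bdy d A A'' i ≤ cyc d A A'' i :=
      sup_le (fun x hx => mem_cyc.2 ⟨h.le _ (mem_cyc.1 hx).1, (mem_cyc.1 hx).2⟩) (h''.bdy_le_cyc i)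
    rw [hl, L.rl_add le_sup_right l1, L.rl_sup, add_comm]
    congr 1
    refine L.rl_eq_of_map LinearMap.id (fun x hx => mem_sup_left hx) (fun x hx => ?_)
      (fun y hy => ?_) fun x hx hx' => ?_
    · obtain ⟨a, ha, b, hb, rfl⟩ := mem_sup.1 hx
      obtain ⟨y, hy, hby⟩ := mem_bdy.1 hb
      exact add_mem (les_bot_le_bdy (mem_cyc.1 ha).1) (mem_bdy.2 ⟨y, hy, h'.le _ hby⟩)
    · obtain ⟨a, ha, b, hb, rfl⟩ := mem_sup.1 hy
      exact ⟨a, ha, by rw [LinearMap.id_apply, add_sub_cancel_left]; exact les_bot_le_bdy hb⟩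
    · obtain ⟨y, hy, hxy⟩ := mem_bdy.1 hx'
      rw [LinearMap.id_apply] at hxy
      refine mem_sup.2 ⟨x - d y, mem_cyc.2 ⟨hxy, ?_⟩, d y, les_dy_mem_bdy hy, sub_add_cancel _ _⟩
      rw [map_sub, h.dd, sub_zero]
      exact (mem_cyc.1 hx).2
  · have l1 : bdy d A A' i ≤ cyc d A A'' i ⊔ A' i := fun x hx => by
      obtain ⟨y, hy, hxy⟩ := mem_bdy.1 hx
      refine mem_sup.2 ⟨d y, mem_cyc.2 ⟨h.les_d hy, ?_⟩, x - d y, hxy, add_sub_cancel _ _⟩
      rw [h.dd]
      exact zero_mem _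
    have l2 : cyc d A A'' i ⊔ A' i ≤ cyc d A A' i :=
      sup_le (fun x hx => mem_cyc.2 ⟨(mem_cyc.1 hx).1, h'.le _ (mem_cyc.1 hx).2⟩)
        fun x hx => mem_cyc.2 ⟨h.le _ hx, h.bot _ _ hx⟩
    rw [hl, L.rl_add l1 l2, add_comm]
  · have l1 : bdy d A' A'' i ≤ cyc d A' A'' i ⊓ bdy d A A'' i := le_inf (h'.bdy_le_cyc i) fun x hx => by
      obtain ⟨y, hy, hxy⟩ := mem_bdy.1 hx
      exact mem_bdy.2 ⟨y, h.le _ hy, hxy⟩
    rw [hl, L.rl_add l1 inf_le_left, L.rl_inf, add_comm]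
    congr 1
    refine (L.rl_eq_of_map (d.restrictScalars T) (fun x hx => ?_) (fun x hx => ?_)
      (fun y hy => ?_) fun x hx hx' => ?_).symm
    · have hx1 := mem_cyc.1 hx
      rw [add_sub_cancel_right] at hx1
      refine ⟨mem_cyc.2 ⟨hx1.2, ?_⟩, les_dy_mem_bdy hx1.1⟩
      rw [LinearMap.restrictScalars_apply, h.dd]
      exact zero_mem _
    · obtain ⟨a, ha, b, hb, rfl⟩ := mem_sup.1 hx
      have ha1 := (mem_cyc.1 ha).2
      rw [add_sub_cancel_right] at ha1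
      rw [LinearMap.restrictScalars_apply, map_add]
      exact add_mem (les_bot_le_bdy ha1) (les_dy_mem_bdy hb)
    · obtain ⟨x, hx, hxy⟩ := mem_bdy.1 hy.2
      refine ⟨x, mem_cyc.2 ⟨hx, ?_⟩, les_bot_le_bdy hxy⟩
      have := sub_mem (mem_cyc.1 hy.1).1 (h'.le _ hxy)
      rwa [sub_sub_cancel, ← add_sub_cancel_right i 1] at this
    · obtain ⟨y, hy, hxy⟩ := mem_bdy.1 hx'
      refine mem_sup.2 ⟨x - y, mem_cyc.2 ⟨sub_mem (mem_cyc.1 hx).1 (h.le _ hy), ?_⟩, y, hy,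
        sub_add_cancel _ _⟩
      rw [add_sub_cancel_right, map_sub]
      exact hxy
theorem hl_le_add (h : IsPair d A A') (h' : IsPair d A' A'') (i : ℤ) :
    L.hl d A A'' i ≤ L.hl d A A' i + L.hl d A' A'' i := by
  obtain ⟨α, β, γ, h1, h2, h3⟩ := L.exists_les h h'
  rw [h1, h2, h3, add_comm]
  exact add_le_add le_self_add le_add_self
theorem hl_quot_le (h : IsPair d A A') (h' : IsPair d A' A'') (i : ℤ) :
    L.hl d A A' i ≤ L.hl d A A'' i + L.hl d A' A'' (i - 1) := by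
  obtain ⟨α, β, γ, h1, h2, h3⟩ := L.exists_les h h'
  rw [h1, h2, h3, sub_add_cancel]
  exact add_le_add le_add_self le_self_add
theorem hl_sub_le (h : IsPair d A A') (h' : IsPair d A' A'') (i : ℤ) :
    L.hl d A' A'' i ≤ L.hl d A A'' i + L.hl d A A' (i + 1) := by
  obtain ⟨α, β, γ, h1, h2, h3⟩ := L.exists_les h h'
  rw [h1, h2, h3, add_comm]
  exact add_le_add le_self_add le_add_self
/-- The long exact sequence when the connecting maps around degree `i` have null source. -/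
theorem hl_eq_add (h : IsPair d A A') (h' : IsPair d A' A'') (i : ℤ)
    (h1 : L.hl d A A' (i + 1) = 0) (h2 : L.hl d A' A'' (i - 1) = 0) :
    L.hl d A A'' i = L.hl d A A' i + L.hl d A' A'' i := by
  obtain ⟨α, β, γ, e1, e2, e3⟩ := L.exists_les h h'
  rw [e2] at h1
  rw [e3, sub_add_cancel] at h2
  rw [e1, e2, e3, (add_eq_zero.1 h1).2, (add_eq_zero.1 h2).1, add_zero, zero_add, add_comm]
variable {L}
theorem lc_fin_of_le {f g g' : ℤ → ℝ≥0∞} (k k' : ℤ) (hle : ∀ i, f i ≤ g (i + k) + g' (i + k'))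
    (h1 : ∀ i, g i ≠ ⊤) (h2 : (Function.support g).Finite) (h1' : ∀ i, g' i ≠ ⊤)
    (h2' : (Function.support g').Finite) : (∀ i, f i ≠ ⊤) ∧ (Function.support f).Finite := by
  refine ⟨fun i => ne_top_of_le_ne_top (ENNReal.add_ne_top.2 ⟨h1 _, h1' _⟩) (hle i), ?_⟩
  refine ((h2.preimage (f := fun i => i + k) (add_left_injective k).injOn).union
    (h2'.preimage (f := fun i => i + k') (add_left_injective k').injOn)).subset fun i hi => ?_
  by_contra hcon
  simp only [Set.mem_union, Set.mem_preimage, Function.mem_support, not_or, not_not] at hcon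
  have := hle i
  rw [hcon.1, hcon.2, add_zero] at this
  exact hi (nonpos_iff_eq_zero.1 this)
theorem FinH.mid (h : IsPair d A A') (h' : IsPair d A' A'') (f : L.FinH d A A')
    (f' : L.FinH d A' A'') : L.FinH d A A'' := by
  have := lc_fin_of_le (f := L.hl d A A'') 0 0 (fun i => by simpa using L.hl_le_add h h' i)
    f.ne_top f.fin f'.ne_top f'.fin
  exact ⟨this.1, this.2⟩
theorem FinH.quot (h : IsPair d A A') (h' : IsPair d A' A'') (f : L.FinH d A A'')
    (f' : L.FinH d A' A'') : L.FinH d A A' := by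
  have := lc_fin_of_le (f := L.hl d A A') 0 (-1)
    (fun i => by rw [add_zero, ← sub_eq_add_neg]; exact L.hl_quot_le h h' i)
    f.ne_top f.fin f'.ne_top f'.fin
  exact ⟨this.1, this.2⟩
theorem FinH.sub (h : IsPair d A A') (h' : IsPair d A' A'') (f : L.FinH d A A'')
    (f' : L.FinH d A A') : L.FinH d A' A'' := by
  have := lc_fin_of_le (f := L.hl d A' A'') 0 1
    (fun i => by rw [add_zero]; exact L.hl_sub_le h h' i) f.ne_top f.fin f'.ne_top f'.fin
  exact ⟨this.1, this.2⟩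
theorem lc_finsum_add {f g g' : ℤ → ℝ≥0∞} (he : ∀ i, f i = g i + g' i) (h1 : ∀ i, f i ≠ ⊤)
    (h2 : (Function.support f).Finite) :
    ∑ᶠ i, (sgn i : ℝ) * (f i).toReal =
      ∑ᶠ i, (sgn i : ℝ) * (g i).toReal + ∑ᶠ i, (sgn i : ℝ) * (g' i).toReal := by
  have key : ∀ u : ℤ → ℝ≥0∞, (∀ i, u i ≤ f i) →
      (Function.support fun i => (sgn i : ℝ) * (u i).toReal).Finite := fun u hu =>
    h2.subset fun i hi hf => hi (by
      have := hu i
      rw [hf] at this
      simp [nonpos_iff_eq_zero.1 this])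
  rw [← finsum_add_distrib (key g fun i => by rw [he]; exact le_self_add)
    (key g' fun i => by rw [he]; exact le_add_self)]
  refine finsum_congr fun i => ?_
  have := h1 i
  rw [he] at this ⊢
  obtain ⟨a1, a2⟩ := ENNReal.add_ne_top.1 this
  rw [ENNReal.toReal_add a1 a2]
  ring
theorem eul_add (h : IsPair d A A') (h' : IsPair d A' A'') (f : L.FinH d A A')
    (f' : L.FinH d A' A'') : L.eul d A A'' = L.eul d A A' + L.eul d A' A'' := by
  have f'' := FinH.mid h h' f f'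
  obtain ⟨α, β, γ, h1, h2, h3⟩ := L.exists_les h h'
  have e : ∑ᶠ i, (sgn i : ℝ) * (γ (i + 1)).toReal = -∑ᶠ i, (sgn i : ℝ) * (γ i).toReal := by
    rw [← finsum_neg_distrib,
      ← finsum_comp_equiv (Equiv.addRight (1 : ℤ)) (f := fun i => -((sgn i : ℝ) * (γ i).toReal))]
    refine finsum_congr fun i => ?_
    rw [Equiv.coe_addRight, sgn_succ]
    push_cast
    ring
  unfold eul
  rw [lc_finsum_add h1 f''.ne_top f''.fin, lc_finsum_add h2 f.ne_top f.fin,
    lc_finsum_add (g := fun i => γ (i + 1)) h3 f'.ne_top f'.fin, e]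
  ring
variable (L)
theorem hl_chain_le (F : ℕ → ℤ → Submodule T M) (N : ℕ)
    (h : ∀ k < N, IsPair d (F k) (F (k + 1))) (i : ℤ) :
    L.hl d (F 0) (F N) i ≤ ∑ k ∈ Finset.range N, L.hl d (F k) (F (k + 1)) i := by
  induction N with
  | zero => simp [L.hl_self]
  | succ N ih =>
    rw [Finset.sum_range_succ]
    exact (L.hl_le_add (les_chain_pair F N h) (h N (by omega)) i).trans
      (add_le_add (ih fun k hk => h k (by omega)) le_rfl)
theorem finH_eul_chain (F : ℕ → ℤ → Submodule T M) (N : ℕ)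
    (h : ∀ k < N, IsPair d (F k) (F (k + 1))) (f : ∀ k < N, L.FinH d (F k) (F (k + 1))) :
    L.FinH d (F 0) (F N) ∧
      L.eul d (F 0) (F N) = ∑ k ∈ Finset.range N, L.eul d (F k) (F (k + 1)) := by
  induction N with
  | zero => exact ⟨L.finH_of_hl_eq_zero (L.hl_self d _), L.eul_of_hl_eq_zero (L.hl_self d _)⟩
  | succ N ih =>
    obtain ⟨a1, a2⟩ := ih (fun k hk => h k (by omega)) fun k hk => f k (by omega)
    have p := les_chain_pair F N h
    refine ⟨FinH.mid p (h N (by omega)) a1 (f N (by omega)), ?_⟩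
    rw [Finset.sum_range_succ, eul_add p (h N (by omega)) a1 (f N (by omega)), a2]
end LES

section Iso
variable {d : M →ₗ[B] M} {A A' : ℤ → Submodule T M} {d' : M' →ₗ[B'] M'}
  {C C' : ℤ → Submodule T M'} {φ : M →ₗ[T] M'} {ε : ℤˣ} {k : ℤ}
theorem hl_eq_of_pairIso (h : PairIso d A A' d' C C' φ ε k) (hA : IsPair d A A')
    (hC : IsPair d' C C') (i : ℤ) : L.hl d A A' i = L.hl d' C C' (i + k) := by
  have e1 : i - 1 + k = i + k - 1 := by ring
  have e2 : i + 1 + k = i + k + 1 := by ring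
  have e3 : i + 1 + k - 1 = i + k := by ring
  have e4 : i + 1 - 1 = i := by ring
  have hεε : ∀ y : M', ε • ε • y = y := fun y => by
    rw [smul_smul, Int.units_mul_self, one_smul]
  have key : ∀ x ∈ A i, (d x ∈ A' (i - 1) ↔ d' (φ x) ∈ C' (i + k - 1)) := by
    intro x hx
    have c := h.comm i x hx
    constructor
    · intro h1
      have a1 := h.map_bot _ _ h1
      rw [e1] at a1
      have a2 := sub_mem a1 c
      rw [sub_sub_cancel] at a2
      exact (units_smul_mem_iff _ _ _).mp a2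
    · intro h1
      have a2 := add_mem c ((units_smul_mem_iff _ ε _).mpr h1)
      rw [sub_add_cancel, ← e1] at a2
      exact h.inj _ _ (hA.top i x hx) a2
  refine L.rl_eq_of_map φ ?_ ?_ ?_ ?_
  · intro x hx
    obtain ⟨h1, h2⟩ := mem_cyc.mp hx
    exact mem_cyc.mpr ⟨h.map_top i x h1, (key x h1).mp h2⟩
  · intro x hx
    obtain ⟨y, hy, hxy⟩ := mem_bdy.mp hx
    have c := h.comm _ y hy
    rw [e3] at c
    refine mem_bdy.mpr ⟨ε • φ y, (units_smul_mem_iff _ _ _).mpr (e2 ▸ h.map_top _ y hy), ?_⟩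
    have a1 := add_mem (h.map_bot _ _ hxy) c
    rw [map_sub, sub_add_sub_cancel] at a1
    rcases Int.units_eq_one_or ε with rfl | rfl <;> simpa using a1
  · intro y hy
    obtain ⟨h1, h2⟩ := mem_cyc.mp hy
    obtain ⟨x, hx, hxy⟩ := h.surj i y h1
    refine ⟨x, mem_cyc.mpr ⟨hx, (key x hx).mpr ?_⟩, Submodule.mem_sup_right hxy⟩
    have a1 := sub_mem h2 (hC.bot _ _ hxy)
    rwa [map_sub, sub_sub_cancel] at a1
  · intro x hx hφ
    obtain ⟨h1, _⟩ := mem_cyc.mp hx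
    obtain ⟨z, hz, hxz⟩ := mem_bdy.mp hφ
    obtain ⟨y, hy, hzy⟩ := h.surj (i + 1) z (e2 ▸ hz)
    have c := h.comm _ y hy
    rw [e3] at c
    have a1 := hC.bot _ _ hzy
    rw [e3, map_sub] at a1
    have hy' : ε • y ∈ A (i + 1) := by
      rcases Int.units_eq_one_or ε with rfl | rfl <;> simpa using hy
    refine mem_bdy.mpr ⟨ε • y, hy', h.inj i _ (sub_mem h1 (e4 ▸ hA.top _ _ hy')) ?_⟩
    have a2 := sub_mem (add_mem hxz a1) ((units_smul_mem_iff _ ε _).mpr c)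
    rw [smul_sub, hεε, sub_add_sub_cancel, sub_sub_sub_cancel_right] at a2
    rcases Int.units_eq_one_or ε with rfl | rfl <;> simpa using a2
theorem finH_eul_of_hl_eq (k : ℤ) (h : ∀ i, L.hl d A A' i = L.hl d' C C' (i + k)) :
    (L.FinH d A A' ↔ L.FinH d' C C') ∧ L.eul d' C C' = (sgn k : ℝ) * L.eul d A A' := by
  have h' : ∀ i, L.hl d' C C' i = L.hl d A A' (i - k) := fun i => by rw [h, sub_add_cancel]
  refine ⟨⟨fun f => ⟨fun i => h' i ▸ f.ne_top _, ?_⟩, fun f => ⟨fun i => h i ▸ f.ne_top _, ?_⟩⟩, ?_⟩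
  · exact (f.fin.image (· + k)).subset fun i hi =>
      ⟨i - k, by rwa [Function.mem_support, ← h'], sub_add_cancel _ _⟩
  · exact (f.fin.image (· - k)).subset fun i hi =>
      ⟨i + k, by rwa [Function.mem_support, ← h], add_sub_cancel_right _ _⟩
  · rw [eul, eul, ← finsum_comp_equiv (Equiv.addRight k)]
    rw [mul_finsum]
    refine finsum_congr fun i => ?_
    rw [Equiv.coe_addRight, ← h, sgn_add]
    push_cast
    ring
/-- The analogue of `HT.transfer`. -/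
theorem hl_transfer (φ : M →ₗ[T] M') (hs : Function.Surjective φ)
    (hd : ∀ x, φ (d x) = d' (φ x)) (h1 : ∀ i x, φ x ∈ C i ↔ x ∈ A i)
    (h2 : ∀ i x, φ x ∈ C' i ↔ x ∈ A' i) (i : ℤ) : L.hl d A A' i = L.hl d' C C' i := by
  refine L.rl_eq_of_map φ (fun x hx => ?_) (fun x hx => ?_) (fun y hy => ?_) fun x _ hx => ?_
  · rw [mem_cyc] at hx ⊢
    rwa [← hd, h1, h2]
  · rw [mem_bdy] at hx ⊢
    obtain ⟨y, hy, hxy⟩ := hx
    exact ⟨φ y, (h1 _ _).2 hy, by rwa [← hd, ← map_sub, h2]⟩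
  · obtain ⟨x, rfl⟩ := hs y
    rw [mem_cyc, ← hd, h1, h2, ← mem_cyc] at hy
    exact ⟨x, hy, by rw [sub_self]; exact zero_mem _⟩
  · rw [mem_bdy] at hx ⊢
    obtain ⟨y, hy, hxy⟩ := hx
    obtain ⟨y, rfl⟩ := hs y
    exact ⟨y, (h1 _ _).1 hy, by rwa [← hd, ← map_sub, h2] at hxy⟩
end Iso

section Almost
variable {L} {θ : T} {d : M →ₗ[B] M} {A A' A₀ A₀' : ℤ → Submodule T M}
theorem Kills.hl_eq_zero (h : L.Kills θ) {i : ℤ}
    (hz : ∀ x ∈ cyc d A A' i, θ • x ∈ bdy d A A' i) : L.hl d A A' i = 0 := by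
  exact h.rl_eq_zero hz
/-- An inclusion of pairs which is an isomorphism up to `θ`. -/
theorem Kills.hl_eq_of_almost (h : L.Kills θ) (hA : IsPair d A A') (hA₀ : IsPair d A₀ A₀')
    (h1 : ∀ i, A₀ i ≤ A i) (h2 : ∀ i, A₀' i ≤ A' i)
    (h3 : ∀ i, ∀ x ∈ A i, θ • x ∈ A₀ i ⊔ A' i)
    (h4 : ∀ i, ∀ x ∈ A₀ i, x ∈ A' i → θ • x ∈ A₀' i) (i : ℤ) :
    L.hl d A A' i = L.hl d A₀ A₀' i := by
  have fsup : IsFam d fun i => A₀ i ⊔ A' i := fun j x hx => by
    obtain ⟨a, ha, b, hb, rfl⟩ := mem_sup.1 hx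
    rw [map_add]
    exact add_mem (mem_sup_left (hA₀.top j a ha)) (mem_sup_right (hA.bot j b hb))
  have finf : IsFam d fun i => A₀ i ⊓ A' i := fun j x hx => ⟨hA₀.top j x hx.1, hA.bot j x hx.2⟩
  have p1 : IsPair d A fun i => A₀ i ⊔ A' i := ⟨hA.dd, hA.top, fsup, fun j => sup_le (h1 j) (hA.le j)⟩
  have p2 : IsPair d (fun i => A₀ i ⊔ A' i) A' := ⟨hA.dd, fsup, hA.bot, fun j => le_sup_right⟩
  have p3 : IsPair d A₀ fun i => A₀ i ⊓ A' i := ⟨hA.dd, hA₀.top, finf, fun j => inf_le_left⟩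
  have p4 : IsPair d (fun i => A₀ i ⊓ A' i) A₀' :=
    ⟨hA.dd, finf, hA₀.bot, fun j => le_inf (hA₀.le j) (h2 j)⟩
  have z1 : ∀ j, L.hl d A (fun i => A₀ i ⊔ A' i) j = 0 := fun j =>
    nonpos_iff_eq_zero.1 ((L.hl_le_rl d _ _ j).trans (h.rl_eq_zero (h3 j)).le)
  have z4 : ∀ j, L.hl d (fun i => A₀ i ⊓ A' i) A₀' j = 0 := fun j =>
    nonpos_iff_eq_zero.1 ((L.hl_le_rl d _ _ j).trans
      (h.rl_eq_zero (P := A₀ j ⊓ A' j) fun x hx => h4 j x hx.1 hx.2).le)
  have e1 : L.hl d A A' i = L.hl d (fun i => A₀ i ⊔ A' i) A' i := by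
    refine le_antisymm ?_ ?_
    · have := L.hl_le_add p1 p2 i
      rwa [z1, zero_add] at this
    · have := L.hl_sub_le p1 p2 i
      rwa [z1, add_zero] at this
  have e2 : L.hl d A₀ A₀' i = L.hl d A₀ (fun i => A₀ i ⊓ A' i) i := by
    refine le_antisymm ?_ ?_
    · have := L.hl_le_add p3 p4 i
      rwa [z4, add_zero] at this
    · have := L.hl_quot_le p3 p4 i
      rwa [z4, add_zero] at this
  have iso : PairIso d A₀ (fun i => A₀ i ⊓ A' i) d (fun i => A₀ i ⊔ A' i) A' LinearMap.id 1 0 := by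
    refine ⟨fun j x hx => ?_, fun j x hx => ?_, fun j y hy => ?_, fun j x hx hx' => ?_,
      fun j x _ => ?_⟩
    · rw [add_zero]
      exact mem_sup_left hx
    · rw [add_zero]
      exact hx.2
    · rw [add_zero] at hy ⊢
      obtain ⟨a, ha, b, hb, rfl⟩ := mem_sup.1 hy
      exact ⟨a, ha, by rwa [LinearMap.id_apply, add_sub_cancel_left]⟩
    · rw [add_zero] at hx'
      exact ⟨hx, hx'⟩
    · simp
  rw [e1, e2, L.hl_eq_of_pairIso iso p3 p2 i, add_zero]
/-- `A / A₀` is acyclic up to `θ` when `ϖ` is null-homotopic, `θ A ⊆ A₀ + ϖ A` and `A / A₀` has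
no `ϖ`-torsion up to `θ`. -/
theorem Kills.hl_eq_zero_of_divisible (h : L.Kills θ) (hA : IsPair d A A₀) (ϖ : T)
    (H : M →ₗ[T] M) (h1 : ∀ i, ∀ x ∈ A i, H x ∈ A (i + 1))
    (h2 : ∀ i, ∀ x ∈ A₀ i, H x ∈ A₀ (i + 1)) (h3 : ∀ x, d (H x) + H (d x) = ϖ • x)
    (h4 : ∀ i, ∀ x ∈ A i, ∃ z ∈ A i, θ • x - ϖ • z ∈ A₀ i)
    (h5 : ∀ i, ∀ x ∈ A i, ϖ • x ∈ A₀ i → θ • x ∈ A₀ i) (i : ℤ) : L.hl d A A₀ i = 0 := by
  refine (h.pow 2).hl_eq_zero fun x hx => ?_
  obtain ⟨hx1, hx2⟩ := mem_cyc.1 hx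
  obtain ⟨z, hz, hxz⟩ := h4 i x hx1
  have ds : ∀ (c : T) (y : M), d (c • y) = c • d y := fun c y => d.map_smul_of_tower c y
  have a1 : ϖ • d z ∈ A₀ (i - 1) := by
    have := sub_mem (smul_mem _ θ hx2) (hA.bot _ _ hxz)
    rwa [map_sub, ds, ds, sub_sub_cancel] at this
  have a2 := h2 _ _ (h5 _ _ (hA.top _ _ hz) a1)
  rw [sub_add_cancel, ← ds] at a2
  refine mem_bdy.2 ⟨H (θ • z), h1 _ _ (smul_mem _ θ hz), ?_⟩
  have a3 := add_mem (smul_mem _ θ hxz) a2
  have e : θ ^ 2 • x - d (H (θ • z)) = θ • (θ • x - ϖ • z) + H (d (θ • z)) := by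
    rw [← sub_eq_iff_eq_add, sub_sub, h3, smul_sub, smul_comm ϖ θ, pow_two, mul_smul]
  rwa [e]
end Almost

end Cx

end LenFn

end Vale.Agent.P202
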