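import Vale.Agent.P202.Almost

/-! Module C2: the ultralimit length on a product of rings, and products of almost data. -/

namespace Vale.Agent.P202

open Submodule Filter Topology
open scoped ENNReal NNReal

universe u

variable {C : ℕ → Type u} [∀ k, CommRing (C k)]

/-- The submodule `a N`. -/
abbrev smulTop {A : Type u} [CommRing A] (a : A) (N : Type u) [AddCommGroup N] [Module A N] :
    Submodule A N := LinearMap.range (LinearMap.lsmul A N a)

section LU
variable {A : Type u} [CommRing A] {N : Type u} [AddCommGroup N] [Module A N]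
  {N' : Type u} [AddCommGroup N'] [Module A N']

theorem LU.mem {a : A} {x : N} : x ∈ smulTop a N ↔ ∃ y, a • y = x := Iff.rfl

theorem LU.len_equiv (a : A) (e : N ≃ₗ[A] N') :
    Module.length A (smulTop a N) = Module.length A (smulTop a N') := by
  rw [← rl_bot, ← rl_bot]
  refine rl_eq_of_map e.toLinearMap ?_ ?_ ?_ ?_
  · rintro _ ⟨y, rfl⟩
    exact ⟨e y, (map_smul e a y).symm⟩
  · intro x hx
    rw [Submodule.mem_bot] at hx ⊢
    rw [hx, map_zero]
  · rintro _ ⟨y, rfl⟩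
    refine ⟨a • e.symm y, ⟨_, rfl⟩, ?_⟩
    simp
  · intro x _ hx
    rw [Submodule.mem_bot] at hx ⊢
    exact e.injective (hx.trans (map_zero e).symm)

theorem LU.len_map (a : A) (P Q : Submodule A N) :
    Module.length A (smulTop a (P.map Q.mkQ)) = rl (P.map (LinearMap.lsmul A N a)) Q := by
  rw [← rl_bot, rl.eq_1 _ Q, ← rl_bot (Submodule.map Q.mkQ _)]
  refine rl_eq_of_map (P.map Q.mkQ).subtype ?_ ?_ ?_ ?_
  · rintro _ ⟨⟨_, y, hy, rfl⟩, rfl⟩
    exact ⟨a • y, ⟨y, hy, rfl⟩, rfl⟩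
  · intro x hx
    rw [Submodule.mem_bot] at hx ⊢
    rw [hx, map_zero]
  · rintro _ ⟨_, ⟨y, hy, rfl⟩, rfl⟩
    refine ⟨a • ⟨Q.mkQ y, y, hy, rfl⟩, ⟨_, rfl⟩, ?_⟩
    simp
  · intro x _ hx
    rw [Submodule.mem_bot] at hx ⊢
    exact Subtype.ext hx

theorem LU.len_quot (a : A) (Q : Submodule A N) :
    Module.length A (smulTop a (N ⧸ Q)) = rl (smulTop a N) Q := by
  have : (smulTop a N).map Q.mkQ = smulTop a (N ⧸ Q) := by
    ext x
    constructor
    · rintro ⟨_, ⟨y, rfl⟩, rfl⟩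
      exact ⟨Q.mkQ y, rfl⟩
    · rintro ⟨y, rfl⟩
      obtain ⟨y, rfl⟩ := Q.mkQ_surjective y
      exact ⟨a • y, ⟨y, rfl⟩, rfl⟩
  rw [rl, this]

theorem LU.len_sub (a : A) (Q : Submodule A N) :
    Module.length A (smulTop a Q) = rl (Q.map (LinearMap.lsmul A N a)) ⊥ := by
  rw [← rl_bot]
  refine rl_eq_of_map Q.subtype ?_ ?_ ?_ ?_
  · rintro _ ⟨y, rfl⟩
    exact ⟨y, y.2, rfl⟩
  · intro x hx
    rw [Submodule.mem_bot] at hx ⊢
    rw [hx, map_zero]
  · rintro _ ⟨y, hy, rfl⟩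
    refine ⟨a • ⟨y, hy⟩, ⟨_, rfl⟩, ?_⟩
    simp
  · intro x _ hx
    rw [Submodule.mem_bot] at hx ⊢
    exact Subtype.ext hx

theorem LU.add_le (a : A) (Q : Submodule A N) :
    Module.length A (smulTop a Q) + Module.length A (smulTop a (N ⧸ Q)) ≤
      Module.length A (smulTop a N) := by
  rw [LU.len_sub, LU.len_quot, ← rl_bot,
    rl_add (A := smulTop a N) (B := smulTop a N ⊓ Q) (C := ⊥) bot_le inf_le_left, rl_inf, add_comm]
  refine add_le_add le_rfl (rl_mono ?_ le_rfl)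
  rintro _ ⟨y, hy, rfl⟩
  exact ⟨⟨y, rfl⟩, Q.smul_mem a hy⟩

theorem LU.le_add (a b : A) (Q : Submodule A N) :
    Module.length A (smulTop (a * b) N) ≤
      Module.length A (smulTop a Q) + Module.length A (smulTop b (N ⧸ Q)) := by
  rw [LU.len_sub, LU.len_quot, ← rl_bot, add_comm]
  refine (rl_le_add _ (Q.map (LinearMap.lsmul A N a)) _).trans (add_le_add ?_ le_rfl)
  refine rl_le_of_map_surj (LinearMap.lsmul A N a) (fun x hx => ⟨x, hx.2, rfl⟩) ?_
  rintro _ ⟨y, rfl⟩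
  refine ⟨b • y, ⟨y, rfl⟩, ?_⟩
  rw [LinearMap.lsmul_apply, LinearMap.lsmul_apply, mul_smul, sub_self]
  exact zero_mem _

theorem LU.pow_le (a : A) (c : ℕ) (Q : Submodule A N) :
    rl ⊤ (Q ⊔ smulTop (a ^ c) N) ≤ (c : ℕ∞) * rl ⊤ (Q ⊔ smulTop a N) := by
  induction c with
  | zero =>
    rw [rl_eq_zero_iff.2 fun x _ => mem_sup_right (LU.mem.2 ⟨x, by simp⟩)]
    exact zero_le
  | succ c ih =>
    refine (rl_le_add ⊤ (Q ⊔ smulTop (a ^ c) N) _).trans ?_
    rw [Nat.cast_succ, add_mul, one_mul]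
    refine add_le_add ih (rl_le_of_map_surj (LinearMap.lsmul A N (a ^ c)) (fun x hx => ?_)
      fun z hz => ?_)
    · obtain ⟨q, hq, _, ⟨s, rfl⟩, rfl⟩ := Submodule.mem_sup.1 hx.2
      rw [LinearMap.lsmul_apply, LinearMap.lsmul_apply, smul_add, smul_smul, ← pow_succ]
      exact Submodule.add_mem_sup (Q.smul_mem _ hq) ⟨s, rfl⟩
    · obtain ⟨q, hq, _, ⟨s, rfl⟩, rfl⟩ := Submodule.mem_sup.1 hz
      exact ⟨s, trivial, by rw [add_sub_cancel_right]; exact Submodule.mem_sup_left hq⟩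

/-- Comparison of relative lengths along a surjective ring map. -/
theorem LU.compare {T₀ T M₀ M : Type*} [CommRing T₀] [CommRing T] [AddCommGroup M₀]
    [Module T₀ M₀] [AddCommGroup M] [Module T M] (f : T₀ →+* T) (hf : Function.Surjective f)
    (s : M →+ M₀) (hs : ∀ t x, s (f t • x) = t • s x) {P Q : Submodule T M}
    {P' Q' : Submodule T₀ M₀} :
    ((∀ x ∈ P ⊓ Q, s x ∈ Q') → (∀ y ∈ P', ∃ x ∈ P, y - s x ∈ Q') → rl P' Q' ≤ rl P Q) ∧
    ((∀ x ∈ P, s x ∈ P') → (∀ x ∈ P, s x ∈ Q' → x ∈ Q) → rl P Q ≤ rl P' Q') := by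
  let := f.toAlgebra
  let : Module T₀ M := Module.compHom M f
  have : IsScalarTower T₀ T M := ⟨fun r t x => mul_smul (f r) t x⟩
  let φ : M →ₗ[T₀] M₀ := { s with map_smul' := hs }
  rw [← rl_restrictScalars (T₀ := T₀) hf P Q]
  exact ⟨fun h2 h3 => rl_le_of_map_surj φ h2 h3, fun h1 h4 => rl_le_of_map_inj φ h1 h4⟩

/-- The limit along a free ultrafilter. -/
noncomputable def LU.ulim (f : ℕ → ℝ≥0∞) : ℝ≥0∞ := ((hyperfilter ℕ).map f).lim

theorem LU.tendsto_ulim (f : ℕ → ℝ≥0∞) : Tendsto f (hyperfilter ℕ) (𝓝 (LU.ulim f)) :=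
  ((hyperfilter ℕ).map f).le_nhds_lim

/-- The normalised length at the exponent `c + 1`. -/
noncomputable def LU.F (θ : ∀ k, C k) (ρ : ℕ → ℕ) (c : ℕ) (N : Type u) [AddCommGroup N]
    [Module (∀ k, C k) N] : ℝ≥0∞ := LU.ulim fun k => (Module.length (∀ k, C k)
      (smulTop (Pi.single k (θ k ^ (c + 1)) : ∀ k, C k) N) : ℝ≥0∞) / ρ k

end LU

/-- The normalised length: the infimum over `c ≥ 1` of the limit along a free ultrafilter of
`length (θ_k ^ c e_k N) / ρ_k`. -/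
theorem exists_lenFn (θ : ∀ k, C k) (ρ : ℕ → ℕ) (hρ : ∀ k, 0 < ρ k) :
    ∃ L : LenFn (∀ k, C k),
      (∀ (N : Type u) [AddCommGroup N] [Module (∀ k, C k) N] (U : ℝ≥0∞),
        (∀ k, (Module.length (∀ k, C k) (smulTop (Pi.single k (θ k) : ∀ k, C k) N) : ℝ≥0∞) ≤
          U * ρ k) → L.len N ≤ U) ∧
      ∀ (N : Type u) [AddCommGroup N] [Module (∀ k, C k) N] (Λ : ℝ≥0∞),
        (∀ c : ℕ, 0 < c → ∀ Λ' < Λ, ∀ᶠ k in atTop, Λ' * ρ k ≤
          (Module.length (∀ k, C k) (smulTop (Pi.single k (θ k ^ c) : ∀ k, C k) N) : ℝ≥0∞)) →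
        Λ ≤ L.len N := by
  have up : ∀ (N : Type u) [AddCommGroup N] [Module (∀ k, C k) N] (U : ℝ≥0∞),
      (∀ k, (Module.length (∀ k, C k) (smulTop (Pi.single k (θ k) : ∀ k, C k) N) : ℝ≥0∞) ≤
        U * ρ k) → ⨅ c, LU.F θ ρ c N ≤ U := by
    intro N _ _ U h
    refine (iInf_le _ 0).trans (le_of_tendsto' (LU.tendsto_ulim _) fun k => ?_)
    rw [zero_add, pow_one]
    exact ENNReal.div_le_of_le_mul (h k)
  refine ⟨⟨fun N _ _ => ⨅ c, LU.F θ ρ c N, fun M N _ _ _ _ e => ?_, fun M _ _ N => ?_,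
    fun M _ _ hM => ?_⟩, up, fun N _ _ Λ h => ?_⟩
  · simp only [LU.F, LU.len_equiv _ e]
  · refine le_antisymm (ENNReal.le_iInf_add_iInf fun i j => ?_) (le_iInf fun c => ?_)
    · refine (iInf_le _ (i + 1 + j)).trans (le_of_tendsto_of_tendsto' (LU.tendsto_ulim _)
        ((LU.tendsto_ulim _).add (LU.tendsto_ulim _)) fun k => ?_)
      rw [← ENNReal.add_div, ← ENat.toENNReal_add, add_assoc (i + 1), pow_add, Pi.single_mul]
      exact ENNReal.div_le_div_right (ENat.toENNReal_le.2 (LU.le_add _ _ N)) _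
    · refine (add_le_add (iInf_le _ c) (iInf_le _ c)).trans (le_of_tendsto_of_tendsto'
        ((LU.tendsto_ulim _).add (LU.tendsto_ulim _)) (LU.tendsto_ulim _) fun k => ?_)
      rw [← ENNReal.add_div, ← ENat.toENNReal_add]
      exact ENNReal.div_le_div_right (ENat.toENNReal_le.2 (LU.add_le _ N)) _
  · refine le_antisymm (up M 0 fun k => ?_) zero_le
    rw [Module.length_eq_zero, ENat.toENNReal_zero]
    exact zero_le
  · refine le_iInf fun c => le_of_forall_lt_imp_le_of_dense fun Λ' hΛ => ?_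
    refine ge_of_tendsto (LU.tendsto_ulim _)
      (((h (c + 1) c.succ_pos Λ' hΛ).filter_mono Nat.hyperfilter_le_atTop).mono fun k hk => ?_)
    exact (ENNReal.le_div_iff_mul_le (Or.inl (Nat.cast_ne_zero.2 (hρ k).ne'))
      (Or.inl (ENNReal.natCast_ne_top _))).2 hk

variable {H : ℕ → Type u} [∀ k, CommRing (H k)] [∀ k, Algebra (C k) (H k)] {n : ℕ}

/-- The product of a family of submodules. -/
def piSub (P : ∀ k, Submodule (C k) (H k)) : Submodule (∀ k, C k) (∀ k, H k) where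
  carrier := {x | ∀ k, x k ∈ P k}
  add_mem' hx hy k := add_mem (hx k) (hy k)
  zero_mem' _ := zero_mem _
  smul_mem' c _ hx k := smul_mem _ (c k) (hx k)

theorem mem_piSub {P : ∀ k, Submodule (C k) (H k)} {x : ∀ k, H k} :
    x ∈ piSub P ↔ ∀ k, x k ∈ P k := Iff.rfl

theorem LU.mem_mul_span {T : Type*} [CommRing T] {ι : Type*} [Fintype ι] (b : ι → T)
    (J : Ideal T) (x : T) : x ∈ J * Ideal.span (Set.range b) ↔
      ∃ y : ι → T, (∀ j, y j ∈ J) ∧ ∑ j, y j * b j = x := by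
  constructor
  · intro hx
    obtain ⟨a, ha, rfl⟩ := (Submodule.mem_ideal_smul_span_iff_exists_sum J b x).1 hx
    exact ⟨a, ha, (Finsupp.sum_fintype a (fun i c => c • b i) fun _ => zero_smul _ _).symm⟩
  · rintro ⟨y, hy, rfl⟩
    exact sum_mem fun j _ => Ideal.mul_mem_mul (hy j) (Ideal.subset_span ⟨j, rfl⟩)

theorem LU.mem_span_pow_pi {ι : Type*} [Fintype ι] (ξ : ∀ k, ι → C k) (a : ℕ) (x : ∀ k, C k) :
    x ∈ Ideal.span (Set.range fun j k => ξ k j) ^ a ↔
      ∀ k, x k ∈ Ideal.span (Set.range (ξ k)) ^ a := by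
  induction a generalizing x with
  | zero => simp
  | succ a ih =>
    simp only [pow_succ, LU.mem_mul_span, ih]
    constructor
    · rintro ⟨y, hy, rfl⟩ k
      exact ⟨fun j => y j k, fun j => hy j k, by simp⟩
    · intro h
      choose y hy hx using h
      exact ⟨fun j k => y k j, fun j k => hy k j, funext fun k => by simpa using hx k⟩

theorem LU.mem_span_pi {ι : Type*} [Fintype ι] (ξ : ∀ k, ι → C k) (x : ∀ k, C k) :
    x ∈ Ideal.span (Set.range fun j k => ξ k j) ↔ ∀ k, x k ∈ Ideal.span (Set.range (ξ k)) := by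
  simpa only [pow_one] using LU.mem_span_pow_pi ξ 1 x

theorem mem_span_pow_pi {d : ℕ} (ξ : ∀ k, Fin d → C k) (a : ℕ) (x : ∀ k, C k) :
    x ∈ Ideal.span (Set.range fun j k => ξ k j) ^ a ↔
      ∀ k, x k ∈ Ideal.span (Set.range (ξ k)) ^ a :=
  LU.mem_span_pow_pi ξ a x

theorem cF_pi {d : ℕ} (ξ : ∀ k, Fin d → C k) (j : ℤ) :
    cF (∀ k, H k) (fun i k => ξ k i) j = piSub fun k => cF (H k) (ξ k) j := by
  ext x
  simp only [mem_cF, mem_piSub, mem_span_pow_pi]
  constructor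
  · rintro ⟨a, ha, rfl⟩ k
    exact ⟨a k, ha k, rfl⟩
  · intro h
    choose a ha hx using h
    exact ⟨a, ha, funext hx⟩

theorem AData.pi {ξ : ∀ k, Fin (n + 1) → C k} {P : ∀ k, ℤ → Submodule (C k) (H k)} {N : ℕ}
    {θ ϖ : ∀ k, C k} (h : ∀ k, AData (ξ k) (P k) N (θ k) (ϖ k)) :
    AData (fun i k => ξ k i) (fun j => piSub fun k => P k j) N θ ϖ := by
  refine ⟨fun x y e => funext fun k => (h k).inj (congrFun e k), fun a f hf hev => ?_,
    fun U j hj w hw => ?_, (h 0).pos,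
    (LU.mem_span_pi (fun k j => ξ k j ^ N) ϖ).2 fun k => (h k).mem,
    fun a j x hx k => (h k).gr a j _ (hx k), fun a b hab x hx k => (h k).anti hab (hx k),
    fun j x hx k => (h k).le j ?_, fun j x hx => ?_, fun j x hx hx' => ?_, fun j x hx hx' => ?_⟩
  · refine mem_homogIn.2 ⟨hf, fun m => (LU.mem_span_pi ξ _).2 fun k => ?_⟩
    have h1 : MvPolynomial.map (Pi.evalRingHom C k) f ∈ homog (C k) (n + 1) a :=
      mem_homog.2 fun m hm => mem_homog.1 hf m fun e => hm (by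
        rw [MvPolynomial.coeff_map, e, map_zero])
    have h2 : MvPolynomial.eval (ξ k) (MvPolynomial.map (Pi.evalRingHom C k) f) =
        MvPolynomial.eval (fun i k => ξ k i) f k :=
      (MvPolynomial.map_eval (Pi.evalRingHom C k) (fun i k => ξ k i) f).symm
    have h3 := (mem_homogIn.1 ((h k).qr a _ h1 (h2 ▸ (mem_span_pow_pi ξ _ _).1 hev k))).2 m
    rwa [MvPolynomial.coeff_map] at h3
  · rw [Set.image_eq_range] at hw ⊢
    refine (LU.mem_span_pi (fun k (j : (U : Set (Fin (n + 1)))) => ξ k j ^ N) _).2 fun k => ?_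
    have h1 := (LU.mem_span_pi (fun k (j : (U : Set (Fin (n + 1)))) => ξ k j ^ N) _).1 hw k
    have h2 := (h k).reg U j hj (w k)
    rw [Set.image_eq_range] at h2
    exact h2 h1
  · rw [cF_pi] at hx
    exact hx k
  · choose z hz hz' using fun k => (h k).p1 j _ (hx k)
    exact ⟨z, hz, by rw [cF_pi]; exact hz'⟩
  · rw [cF_pi] at hx' ⊢
    exact fun k => (h k).p2 j _ (hx k) (hx' k)
  · rw [cF_pi] at hx' ⊢
    exact fun k => (h k).p3 j _ (hx k) (hx' k)

theorem LU.tot_comm {ι B B' M M' : Type*} [Fintype ι] [CommRing B] [CommRing B'] [AddCommGroup M]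
    [AddCommGroup M'] [Module B M] [Module B' M'] {D : Matrix ι ι B} {D' : Matrix ι ι B'}
    (deg : ι → ℤ) {d : M →ₗ[B] M} {d' : M' →ₗ[B'] M'} (φ : M →ₗ[ℤ] M')
    (hD : ∀ a b x, φ (D a b • x) = D' a b • φ x) (hd : ∀ x, φ (d x) = d' (φ x)) (v : ι → M) :
    φ.compLeft ι (tot D deg d v) = tot D' deg d' (φ.compLeft ι v) := by
  funext a
  simp only [LinearMap.compLeft_apply, Function.comp_apply, tot_apply, map_add, map_sum, hD,
    map_zsmul, hd]

/-- An additive map of coefficients acting on the geometric complex. -/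
noncomputable def LU.vmap {G G' : Type*} [CommRing G] [CommRing G'] (φ : G →+ G') (n : ℕ) :
    VM G n →ₗ[ℤ] VM G' n := ((Lb.cmap φ.toIntLinearMap n).compLeft _).compLeft _

theorem LU.coeff_vmap {G G' : Type*} [CommRing G] [CommRing G'] (φ : G →+ G') (v : VM G n)
    (ε : Finset (Fin n)) (S : Finset (Fin (n + 1))) (γ : Γ n) :
    (LU.vmap φ n v ε S).coeff γ = φ ((v ε S).coeff γ) := rfl

theorem LU.vmap_DM {G G' : Type*} [CommRing G] [CommRing G'] (φ : G →+ G') {ξ : Fin (n + 1) → G}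
    {ξ' : Fin (n + 1) → G'} (h : ∀ j x, φ (ξ j * x) = ξ' j * φ x) (v : VM G n) :
    LU.vmap φ n (DM ξ v) = DM ξ' (LU.vmap φ n v) := by
  refine LU.tot_comm kdeg _ (kos_semilinear _ _ _ fun _ _ => by rw [one_smul, one_smul])
    (fun w => LU.tot_comm kdeg _ (kos_semilinear _ _ _ fun j x => ?_) (fun _ => by simp) w) v
  simp only [del, eTau, smul_eq_mul, sub_mul, Finset.sum_mul, map_sub, map_sum]
  congr 1
  · ext γ
    rw [Lb.coeff_cmap, ← Algebra.smul_def, ← Algebra.smul_def, AddMonoidAlgebra.coeff_smul_apply,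
      AddMonoidAlgebra.coeff_smul_apply, Lb.coeff_cmap, smul_eq_mul, smul_eq_mul]
    exact h j _
  · refine Finset.sum_congr rfl fun U _ => ?_
    ext γ
    rw [Lb.coeff_cmap, Lb.coeff_mon_mul, Lb.coeff_mon_mul, Lb.coeff_cmap]

theorem LU.vmap_mem {T T' G G' : Type*} [CommRing T] [CommRing T'] [CommRing G] [CommRing G']
    [Algebra T G] [Algebra T' G'] (φ : G →+ G') {P : ℤ → Submodule T G}
    {P' : ℤ → Submodule T' G'} (h : ∀ j, ∀ x ∈ P j, φ x ∈ P' j) {c : Fin n → ℤ} {E : Set (Γ n)}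
    {m i : ℤ} {v : VM G n} (hv : v ∈ famM c E P m i) : LU.vmap φ n v ∈ famM c E P' m i := by
  rw [mem_famM] at hv ⊢
  intro ε S
  have h1 := hv ε S
  split_ifs at h1 ⊢
  · intro γ
    rw [LU.coeff_vmap]
    exact ⟨fun h2 => by rw [(h1 γ).1 h2, map_zero], fun h2 h3 => h _ _ ((h1 γ).2 h2 h3)⟩
  · ext γ
    rw [LU.coeff_vmap, h1]
    exact map_zero φ

/-- Vanishing at every level gives vanishing up to the idempotents. -/
theorem single_smul_mem_bdy {ξ : ∀ k, Fin (n + 1) → H k} {P Q : ∀ k, ℤ → Submodule (C k) (H k)}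
    {c : Fin n → ℤ} {E : Set (Γ n)} {m m' i : ℤ}
    (h : ∀ k, hl (DM (ξ k)) (famM c E (P k) m) (famM c E (Q k) m') i = 0) (k : ℕ) (a : C k) :
    ∀ x ∈ cyc (DM fun j k => ξ k j) (famM c E (fun j => piSub fun k => P k j) m)
      (famM c E (fun j => piSub fun k => Q k j) m') i,
      (Pi.single k a : ∀ k, C k) • x ∈ bdy (DM fun j k => ξ k j)
        (famM c E (fun j => piSub fun k => P k j) m)
        (famM c E (fun j => piSub fun k => Q k j) m') i := by
  intro x hx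
  obtain ⟨hx1, hx2⟩ := mem_cyc.1 hx
  let p : (∀ k, H k) →+ H k := Pi.evalAddMonoidHom H k
  let s : H k →+ (∀ k, H k) := (AddMonoidHom.single H k).comp (DistribSMul.toAddMonoidHom _ a)
  have hs : ∀ z, s z = Pi.single k (a • z) := fun _ => rfl
  have hp : ∀ R : ∀ k, ℤ → Submodule (C k) (H k), ∀ j, ∀ x ∈ piSub fun k => R k j,
      p x ∈ R k j := fun R j x hx => hx k
  have hsm : ∀ R : ∀ k, ℤ → Submodule (C k) (H k), ∀ j, ∀ x ∈ R k j,
      s x ∈ piSub fun k => R k j := by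
    intro R j x hx k'
    rw [hs]
    by_cases e : k' = k
    · subst e
      rw [Pi.single_eq_same]
      exact smul_mem _ _ hx
    · rw [Pi.single_eq_of_ne e]
      exact zero_mem _
  have c1 := LU.vmap_DM p (ξ := fun j k => ξ k j) (ξ' := ξ k) fun _ _ => rfl
  have c2 := LU.vmap_DM s (ξ := ξ k) (ξ' := fun j k => ξ k j) fun j z => by
    rw [hs, hs, ← mul_smul_comm]
    exact Pi.single_mul_right (f := fun k => ξ k j) _
  obtain ⟨y, hy, hxy⟩ := hl_eq_zero_iff.1 (h k) (LU.vmap p n x) (LU.vmap_mem p (hp P) hx1)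
    (c1 x ▸ LU.vmap_mem p (hp Q) hx2)
  refine mem_bdy.2 ⟨LU.vmap s n y, LU.vmap_mem s (hsm P) hy, ?_⟩
  have e : (Pi.single k a : ∀ k, C k) • x = LU.vmap s n (LU.vmap p n x) := by
    funext ε S
    ext γ k'
    rw [LU.coeff_vmap, LU.coeff_vmap, hs, Pi.smul_apply, Pi.smul_apply,
      AddMonoidAlgebra.coeff_smul_apply, Pi.smul_apply']
    by_cases e : k' = k
    · subst e
      rw [Pi.single_eq_same, Pi.single_eq_same]
      rfl
    · rw [Pi.single_eq_of_ne e, Pi.single_eq_of_ne e, zero_smul]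
  rw [e, ← c2, ← map_sub]
  exact LU.vmap_mem s (hsm Q) hxy

theorem LU.single_smul (k : ℕ) (t : ∀ k, C k) (x : H k) :
    (Pi.single k (t k • x) : ∀ k, H k) = t • (Pi.single k x : ∀ k, H k) := by
  funext k'
  rw [Pi.smul_apply']
  by_cases e : k' = k
  · subst e
    rw [Pi.single_eq_same, Pi.single_eq_same]
  · rw [Pi.single_eq_of_ne e, Pi.single_eq_of_ne e, smul_zero]

theorem LU.smul_single (k : ℕ) (t : C k) (x : ∀ k, H k) :
    (Pi.single k t : ∀ k, C k) • x = (Pi.single k (t • x k) : ∀ k, H k) := by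
  funext k'
  rw [Pi.smul_apply']
  by_cases e : k' = k
  · subst e
    rw [Pi.single_eq_same, Pi.single_eq_same]
  · rw [Pi.single_eq_of_ne e, Pi.single_eq_of_ne e, zero_smul]

/-- The length function attached to a sequence of levels. -/
theorem exists_lData [∀ k, IsNoetherianRing (C k)] {ξ : ∀ k, Fin (n + 1) → C k}
    {P : ∀ k, ℤ → Submodule (C k) (H k)} {N : ℕ} {θ ϖ : ∀ k, C k}
    (h : ∀ k, AData (ξ k) (P k) N (θ k) (ϖ k)) (ρ : ℕ → ℕ) (hρ : ∀ k, 0 < ρ k) (Λ : ℝ≥0)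
    (h1 : ∀ k, (Module.length (C k) (C k ⧸ Ideal.span (Set.range (ξ k))) : ℝ≥0∞) = Λ * ρ k)
    (K : ℕ) (h2 : ∀ k : ℕ, (k : ℕ∞) * Module.length (C k)
      (C k ⧸ (Ideal.span (Set.range (ξ k)) ⊔ Ideal.span {θ k})) ≤ (K * ρ k : ℕ)) :
    ∃ L : LenFn (∀ k, C k),
      LData L (fun j k => algebraMap (C k) (H k) (ξ k j)) (fun j => piSub fun k => P k j) N Λ ∧
      ∀ (A B : ∀ k, Submodule (C k) (H k)) (B' : Submodule (∀ k, C k) (∀ k, H k)) (U : ℝ≥0∞),
        (∀ k, ∀ x ∈ B k, (Pi.single k x : ∀ k, H k) ∈ B') →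
        (∀ k, (rl ((A k).map (LinearMap.lsmul (C k) (H k) (θ k))) (B k) : ℝ≥0∞) ≤ U * ρ k) →
        L.rl (piSub A) B' ≤ U := by
  obtain ⟨L, up, low⟩ := exists_lenFn θ ρ hρ
  have hsurj : ∀ k, Function.Surjective (Pi.evalRingHom C k) := fun k =>
    Function.surjective_eval k
  refine ⟨L, (AData.pi h).lData (fun M _ _ hM => ?_) (le_antisymm (up _ _ fun k => ?_)
    (low _ _ fun c hc Λ' hΛ => ?_)) fun σ s i => ?_, fun A B B' U hB hU => up _ _ fun k => ?_⟩
  · refine le_antisymm (up M 0 fun k => ?_) zero_le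
    rw [← rl_bot, rl_eq_zero_iff.2, ENat.toENNReal_zero]
    · exact zero_le
    · rintro _ ⟨y, rfl⟩
      have e : (Pi.single k (θ k) : ∀ k, C k) = Pi.single k 1 * θ := by
        rw [← Pi.single_mul_left, one_mul]
      rw [LinearMap.lsmul_apply, e, mul_smul, hM, smul_zero]
      exact zero_mem _
  · rw [← h1, LU.len_quot, ← rl_top]
    refine ENat.toENNReal_le.2 ((LU.compare (Pi.evalRingHom C k) (hsurj k)
      (AddMonoidHom.single C k) (LU.single_smul (H := C) k)).1 (fun x hx => ?_) ?_)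
    · refine (LU.mem_span_pi ξ _).2 fun k' => ?_
      rw [AddMonoidHom.single_apply]
      by_cases e : k' = k
      · subst e
        rw [Pi.single_eq_same]
        exact hx.2
      · rw [Pi.single_eq_of_ne e]
        exact zero_mem _
    · rintro _ ⟨y, rfl⟩
      refine ⟨θ k • y k, trivial, ?_⟩
      rw [AddMonoidHom.single_apply, ← LU.smul_single (H := C), LinearMap.lsmul_apply, sub_self]
      exact zero_mem _
  · have t1 : Tendsto (fun k : ℕ => Λ' + ((c * K : ℕ) : ℝ≥0∞) * (k : ℝ≥0∞)⁻¹) atTop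
        (𝓝 (Λ' + ((c * K : ℕ) : ℝ≥0∞) * 0)) := tendsto_const_nhds.add
      (ENNReal.Tendsto.const_mul ENNReal.tendsto_inv_nat_nhds_zero
        (Or.inr (ENNReal.natCast_ne_top _)))
    rw [mul_zero, add_zero] at t1
    filter_upwards [t1.eventually (gt_mem_nhds hΛ), eventually_gt_atTop 0] with k hk hk0
    set I := Ideal.span (Set.range (ξ k)) with hI
    have a1 : rl (smulTop (θ k ^ c) (C k)) I ≤ Module.length (∀ k, C k) (smulTop
        (Pi.single k (θ k ^ c) : ∀ k, C k)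
        ((∀ k, C k) ⧸ Ideal.span (Set.range fun j k => ξ k j))) := by
      rw [LU.len_quot]
      refine (LU.compare (Pi.evalRingHom C k) (hsurj k)
        (AddMonoidHom.single C k) (LU.single_smul (H := C) k)).2 ?_ fun x _ hx => ?_
      · rintro _ ⟨y, rfl⟩
        refine ⟨Pi.single k y, ?_⟩
        rw [AddMonoidHom.single_apply, LinearMap.lsmul_apply, LinearMap.lsmul_apply,
          LU.smul_single (H := C), Pi.single_eq_same]
      · have := (LU.mem_span_pi ξ _).1 hx k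
        rwa [AddMonoidHom.single_apply, Pi.single_eq_same] at this
    have a2 : smulTop (θ k) (C k) = Ideal.span {θ k} := by
      ext x
      rw [LU.mem, Ideal.mem_span_singleton]
      exact exists_congr fun _ => eq_comm
    have a3 : (k : ℕ∞) * rl ⊤ (I ⊔ smulTop (θ k ^ c) (C k)) ≤ (c * K * ρ k : ℕ) := by
      refine (mul_le_mul_right (LU.pow_le (θ k) c I) _).trans ?_
      rw [mul_left_comm, a2, rl_top, mul_assoc, Nat.cast_mul]
      exact mul_le_mul_right (h2 k) _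
    have a4 : Module.length (C k) (C k ⧸ I) ≤
        rl ⊤ (I ⊔ smulTop (θ k ^ c) (C k)) + rl (smulTop (θ k ^ c) (C k)) I := by
      rw [← rl_top, ← rl_sup (smulTop (θ k ^ c) (C k)) I, sup_comm (smulTop _ _)]
      exact rl_le_add _ _ _
    have b3 := ENat.toENNReal_le.2 a3
    have b4 := ENat.toENNReal_le.2 a4
    rw [ENat.toENNReal_mul, ENat.toENNReal_coe, ENat.toENNReal_coe, Nat.cast_mul] at b3
    rw [ENat.toENNReal_add, h1] at b4
    refine le_trans ?_ (ENat.toENNReal_le.2 a1)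
    generalize (rl ⊤ (I ⊔ smulTop (θ k ^ c) (C k)) : ℝ≥0∞) = y at b3 b4
    have k0 : (k : ℝ≥0∞) ≠ 0 := Nat.cast_ne_zero.2 hk0.ne'
    have b5 : y ≤ ((c * K : ℕ) : ℝ≥0∞) * (k : ℝ≥0∞)⁻¹ * ρ k := by
      rw [mul_right_comm, ← div_eq_mul_inv, ENNReal.le_div_iff_mul_le (Or.inl k0)
        (Or.inl (ENNReal.natCast_ne_top _)), mul_comm]
      exact b3
    have b6 : y ≠ ⊤ := ne_top_of_le_ne_top (ENNReal.mul_ne_top (ENNReal.mul_ne_top
      (ENNReal.natCast_ne_top _) (ENNReal.inv_ne_top.2 k0)) (ENNReal.natCast_ne_top _)) b5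
    refine (ENNReal.add_le_add_iff_left b6).1 (le_trans ?_ b4)
    refine (add_le_add b5 le_rfl).trans ?_
    rw [← add_mul, add_comm]
    exact mul_le_mul_left hk.le _
  · refine le_antisymm (up _ 0 fun k => ?_) zero_le
    rw [LU.len_map, rl_eq_zero_iff.2, ENat.toENNReal_zero]
    · exact zero_le
    · rintro _ ⟨x, hx, rfl⟩
      have e1 : cF (∀ k, H k) (fun i k => ξ k i) = fun j => piSub fun k => cF (H k) (ξ k) j :=
        funext (cF_pi ξ)
      have e2 : (fun _ : ℤ => (⊥ : Submodule (∀ k, C k) (∀ k, H k))) =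
          fun _ => piSub fun k => (⊥ : Submodule (C k) (H k)) := by
        funext _
        ext x
        simp only [mem_piSub, Submodule.mem_bot]
        exact funext_iff
      rw [e1, e2] at hx ⊢
      exact single_smul_mem_bdy (ξ := fun k j => algebraMap (C k) (H k) (ξ k j))
        (Q := fun k _ => (⊥ : Submodule (C k) (H k)))
        (fun k => hl_serre_level (h k).inj (h k).qr σ s i) k (θ k) x hx
  · refine le_trans (ENat.toENNReal_le.2 ?_) (hU k)
    rw [LU.len_map]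
    refine (LU.compare (Pi.evalRingHom C k) (hsurj k)
      (AddMonoidHom.single H k) (LU.single_smul k)).1 (fun x hx => hB k x hx.2) ?_
    rintro _ ⟨y, hy, rfl⟩
    refine ⟨θ k • y k, ⟨y k, hy k, rfl⟩, ?_⟩
    rw [AddMonoidHom.single_apply, ← LU.smul_single, LinearMap.lsmul_apply, sub_self]
    exact zero_mem _

end Vale.Agent.P202
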