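import Vale.Agent.P202.LenTot

/-! Module B3: the zeroth homology of Koszul tensor `F` and its growth under powers. -/

namespace Vale.Agent.P202

open Submodule
open scoped ENNReal

universe u

variable {T : Type u} [CommRing T] {H : Type u} [CommRing H] [Algebra T H] {d : ℕ}
  {ι : Type} [Fintype ι] [DecidableEq ι]

/-- `∑ F a₀ b * P₀ + ∑ y j ^ t * P₀`. -/
noncomputable def augL (F : Matrix ι ι H) (a₀ : ι) (y : Fin d → H) (t : ℕ) (P₀ : Submodule T H) :
    Submodule T H :=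
  (⨆ b, P₀.map (LinearMap.mulLeft T (F a₀ b))) ⊔ ⨆ j, P₀.map (LinearMap.mulLeft T (y j ^ t))

namespace MulL

theorem mem_conc {P : Submodule T H} {i : ℤ} {x : H} :
    x ∈ conc P i ↔ x ∈ P ∧ (i ≠ 0 → x = 0) := br_mem_conc

theorem single_mem {deg : ι → ℤ} {P : Submodule T H} {a : ι} {x : H} (hx : x ∈ P) :
    Pi.single a x ∈ totFam deg (fun _ => conc P) (deg a) := by
  refine mem_totFam.2 fun b => ?_
  by_cases hb : b = a
  · rw [hb, Pi.single_eq_same, sub_self]
    exact hx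
  · rw [Pi.single_eq_of_ne hb]
    exact zero_mem _

theorem tot_single (D : Matrix ι ι H) (deg : ι → ℤ) (a b : ι) (x : H) :
    tot D deg (0 : H →ₗ[H] H) (Pi.single b x) a = D a b * x := by
  rw [tot_apply, Finset.sum_eq_single b (fun c _ hc => by simp [Pi.single_eq_of_ne hc]) (by simp)]
  simp

theorem hl_zero (L : LenFn T) {D : Matrix ι ι H} {deg : ι → ℤ} {a₀ : ι} (hD : IsHomog D deg 1)
    (hdeg : ∀ a, 0 ≤ deg a) (h0 : ∀ a, deg a = 0 ↔ a = a₀) (P P' : Submodule T H) :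
    L.hl (tot D deg (0 : H →ₗ[H] H)) (totFam deg fun _ => conc P) (totFam deg fun _ => conc P') 0 =
      L.rl P (P' ⊔ ⨆ b, P.map (LinearMap.mulLeft T (D a₀ b))) := by
  have ha : deg a₀ = 0 := (h0 a₀).2 rfl
  refine L.rl_eq_of_map (LinearMap.proj a₀) (fun v hv => ?_) (fun v hv => ?_) (fun x hx => ?_)
    fun v hv hq => ?_
  · exact (mem_conc.1 (mem_totFam.1 hv.1 a₀)).1
  · obtain ⟨w, hw, hvw⟩ := mem_bdy.1 hv
    have h1 := (mem_conc.1 (mem_totFam.1 hvw a₀)).1
    rw [LinearMap.proj_apply, ← sub_add_cancel (v a₀) (tot D deg (0 : H →ₗ[H] H) w a₀)]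
    refine add_mem (mem_sup_left h1) (mem_sup_right ?_)
    rw [tot_apply, LinearMap.zero_apply, smul_zero, add_zero]
    exact sum_mem fun b _ => mem_iSup_of_mem b
      ⟨w b, (mem_conc.1 (mem_totFam.1 hw b)).1, rfl⟩
  · refine ⟨Pi.single a₀ x, ⟨ha ▸ single_mem hx, mem_totFam.2 fun a => ?_⟩, by simp⟩
    have h1 : D a a₀ = 0 := by
      by_contra h
      have := hD a a₀ h
      have := hdeg a
      omega
    change tot D deg (0 : H →ₗ[H] H) (Pi.single a₀ x) a ∈ _
    rw [tot_single, h1, zero_mul]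
    exact zero_mem _
  · have h1 : v = LinearMap.single T (fun _ => H) a₀ (v a₀) := by
      funext a
      by_cases h : a = a₀
      · simp [h]
      · rw [LinearMap.single_apply, Pi.single_eq_of_ne h]
        exact (mem_conc.1 (mem_totFam.1 hv.1 a)).2 fun h' => h ((h0 a).1 (by omega))
    rw [h1]
    refine mem_comap.1 ((?_ : _ ≤ comap (LinearMap.single T (fun _ => H) a₀) _) hq)
    refine sup_le (fun x hx => les_bot_le_bdy (ha ▸ single_mem hx)) (iSup_le fun b => ?_)
    rintro _ ⟨x, hx, rfl⟩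
    by_cases hb : D a₀ b = 0
    · simp [hb]
    have h2 : deg b = 0 + 1 := ha ▸ hD a₀ b hb
    have h3 : tot D deg (0 : H →ₗ[H] H) (Pi.single b x) =
        LinearMap.single T (fun _ => H) a₀ (LinearMap.mulLeft T (D a₀ b) x) := by
      funext a
      rw [tot_single]
      by_cases h : a = a₀
      · simp [h]
      · rw [LinearMap.single_apply, Pi.single_eq_of_ne h]
        have : D a b = 0 := by
          by_contra h'
          have := hD a b h'
          exact h ((h0 a).1 (by omega))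
        rw [this, zero_mul]
    rw [mem_comap, ← h3]
    exact les_dy_mem_bdy (h2 ▸ single_mem hx)

omit [Fintype ι] in
theorem iSup_tens (F : Matrix ι ι H) (a₀ : ι) (y : Fin d → H) (P : Submodule T H) :
    ⨆ x, P.map (LinearMap.mulLeft T (tensMat (kos y) kdeg F (∅, a₀) x)) = augL F a₀ y 1 P := by
  have hk : (kdeg (∅ : Finset (Fin d))) = 0 := by simp [kdeg]
  have hs : ∀ j : Fin d, ksgn j ∅ = 1 := fun j => by simp [ksgn, sgn_zero]
  refine le_antisymm (iSup_le fun x => ?_) (sup_le (iSup_le fun b => ?_) (iSup_le fun j => ?_))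
  · rintro _ ⟨p, hp, rfl⟩
    simp only [LinearMap.mulLeft_apply, tensMat, kos, add_mul, ite_mul, zero_mul, Finset.sum_mul,
      hk, hs, sgn_zero, one_smul]
    refine add_mem ?_ ?_
    · split_ifs
      · refine sum_mem fun j _ => ?_
        split_ifs
        · exact mem_sup_right (mem_iSup_of_mem j ⟨p, hp, by simp⟩)
        · exact zero_mem _
      · exact zero_mem _
    · split_ifs
      · exact mem_sup_left (mem_iSup_of_mem x.2 ⟨p, hp, rfl⟩)
      · exact zero_mem _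
  · refine le_iSup_of_le (∅, b) (le_of_eq ?_)
    simp [tensMat, kos, hk, sgn_zero]
  · refine le_iSup_of_le (insert j ∅, a₀) (le_of_eq ?_)
    simp only [tensMat, if_true, kos_apply_insert y (Finset.notMem_empty j), hs, one_smul,
      (Finset.insert_ne_empty j ∅).symm, if_false, add_zero, pow_one]

omit [Fintype ι] [DecidableEq ι] in
theorem tensDeg_nonneg {deg : ι → ℤ} (hdeg : ∀ a, 0 ≤ deg a) (x : Finset (Fin d) × ι) :
    0 ≤ tensDeg kdeg deg x := add_nonneg (Int.natCast_nonneg _) (hdeg _)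

theorem hl_zero_tens (L : LenFn T) {F : Matrix ι ι H} {deg : ι → ℤ} {a₀ : ι} (y : Fin d → H)
    (hF : IsMC F deg) (hdeg : ∀ a, 0 ≤ deg a) (h0 : ∀ a, deg a = 0 ↔ a = a₀)
    (P P' : Submodule T H) :
    L.hl (tot (tensMat (kos y) kdeg F) (tensDeg kdeg deg) (0 : H →ₗ[H] H))
      (totFam (tensDeg kdeg deg) fun _ => conc P) (totFam (tensDeg kdeg deg) fun _ => conc P') 0 =
      L.rl P (P' ⊔ augL F a₀ y 1 P) := by
  rw [hl_zero L (a₀ := (∅, a₀)) (isMC_tensMat (isMC_kos y) hF).homog (tensDeg_nonneg hdeg),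
    iSup_tens]
  rintro ⟨S, a⟩
  have h1 := hdeg a
  simp only [tensDeg, kdeg, Prod.mk.injEq, ← h0 a, ← Finset.card_eq_zero]
  omega

open MvPolynomial

/-- Polynomials with coefficients in `P` and no monomial in `U`. -/
def lab (P : Submodule T H) (U : Finset (Fin d →₀ ℕ)) : Submodule T (MvPolynomial (Fin d) H) where
  carrier := {p | ∀ α, coeff α p ∈ P ∧ (α ∈ U → coeff α p = 0)}
  add_mem' hp hq α := ⟨by rw [coeff_add]; exact add_mem (hp α).1 (hq α).1,
    fun h => by rw [coeff_add, (hp α).2 h, (hq α).2 h, add_zero]⟩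
  zero_mem' α := ⟨zero_mem _, fun _ => rfl⟩
  smul_mem' c p hp α := ⟨by rw [coeff_smul]; exact smul_mem _ c (hp α).1,
    fun h => by rw [coeff_smul, (hp α).2 h, smul_zero]⟩

variable {P : Submodule T H} {U : Finset (Fin d →₀ ℕ)}

theorem mem_lab {p : MvPolynomial (Fin d) H} :
    p ∈ lab P U ↔ ∀ α, coeff α p ∈ P ∧ (α ∈ U → coeff α p = 0) := Iff.rfl

theorem monomial_mem {α : Fin d →₀ ℕ} (hα : α ∉ U) {x : H} (hx : x ∈ P) :
    monomial α x ∈ lab P U := fun β => by
  rw [coeff_monomial]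
  split_ifs with h
  · exact ⟨hx, fun h' => (hα (h ▸ h')).elim⟩
  · exact ⟨zero_mem _, fun _ => rfl⟩

theorem C_mul_mem {q : H} (hq : ∀ x ∈ P, q * x ∈ P) {p : MvPolynomial (Fin d) H}
    (hp : p ∈ lab P U) : C q * p ∈ lab P U := fun α => by
  rw [coeff_C_mul]
  exact ⟨hq _ (hp α).1, fun h => by rw [(hp α).2 h, mul_zero]⟩

/-- Integer combinations of the variables move `lab P U` into `lab P U'`. -/
theorem span_mul_mem {U' : Finset (Fin d →₀ ℕ)} (hU : ∀ α ∈ U', ∀ β < α, β ∈ U)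
    {r : MvPolynomial (Fin d) H} (hr : r ∈ span ℤ (Set.range (X : Fin d → _)))
    {p : MvPolynomial (Fin d) H} (hp : p ∈ lab P U) : r * p ∈ lab P U' := by
  induction hr using span_induction with
  | mem r hr =>
    obtain ⟨j, rfl⟩ := hr
    intro α
    rw [coeff_X_mul']
    split_ifs with h
    · refine ⟨(hp _).1, fun hα => (hp _).2 (hU α hα _ ?_)⟩
      refine lt_of_le_of_ne tsub_le_self fun h' => ?_
      have h1 := DFunLike.congr_fun h' j
      have h2 := Finsupp.mem_support_iff.1 h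
      simp only [Finsupp.coe_tsub, Pi.sub_apply, Finsupp.single_eq_same] at h1
      omega
    · exact ⟨zero_mem _, fun _ => rfl⟩
  | zero => rw [zero_mul]; exact zero_mem _
  | add r s _ _ hr hs => rw [add_mul]; exact add_mem hr hs
  | smul n r _ hr => rw [smul_mul_assoc]; exact zsmul_mem hr n

omit [Fintype ι] in
theorem entry_sub (F : Matrix ι ι H) (y : Fin d → H) (a b : Finset (Fin d) × ι) :
    C (tensMat (kos y) kdeg F a b) -
      tensMat (kos fun j => C (y j) - X j) kdeg (F.map C) a b ∈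
        span ℤ (Set.range (X : Fin d → MvPolynomial (Fin d) H)) := by
  have h : C (tensMat (kos y) kdeg F a b) -
      tensMat (kos fun j => C (y j) - X j) kdeg (F.map C) a b =
      if a.2 = b.2 then kos (X : Fin d → MvPolynomial (Fin d) H) a.1 b.1 else 0 := by
    simp only [tensMat, kos, map_add, apply_ite C, map_sum, map_zsmul, map_zero, Matrix.map_apply,
      add_sub_add_right_eq_sub]
    split_ifs
    · rw [← Finset.sum_sub_distrib]
      refine Finset.sum_congr rfl fun j _ => ?_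
      split_ifs
      · rw [← smul_sub, sub_sub_cancel]
      · rw [sub_zero]
    · rw [sub_zero]
  rw [h]
  split_ifs
  · refine sum_mem fun j _ => ?_
    split_ifs
    · exact smul_mem _ _ (subset_span ⟨j, rfl⟩)
    · exact zero_mem _
  · exact zero_mem _

omit [Fintype ι] in
theorem entry_stab {F : Matrix ι ι H} {y : Fin d → H} (hFP : ∀ a b, ∀ x ∈ P, F a b * x ∈ P)
    (hyP : ∀ j, ∀ x ∈ P, y j * x ∈ P) (a b : Finset (Fin d) × ι) :
    ∀ x ∈ P, tensMat (kos y) kdeg F a b * x ∈ P := by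
  intro x hx
  simp only [tensMat, kos, add_mul, ite_mul, zero_mul, Finset.sum_mul, smul_mul_assoc]
  refine add_mem ?_ ?_
  · split_ifs
    · refine sum_mem fun j _ => ?_
      split_ifs
      · exact zsmul_mem (hyP j x hx) _
      · exact zero_mem _
    · exact zero_mem _
  · split_ifs
    · exact zsmul_mem (hFP _ _ x hx) _
    · exact zero_mem _

theorem isPair_conc {R : Type u} [CommRing R] [Algebra T R] {κ : Type} [Fintype κ]
    {D : Matrix κ κ R} {deg : κ → ℤ} (hD : IsMC D deg) {Q Q' : Submodule T R} (h : Q' ≤ Q)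
    (h1 : ∀ a b, ∀ x ∈ Q, D a b * x ∈ Q) (h2 : ∀ a b, ∀ x ∈ Q', D a b * x ∈ Q') :
    IsPair (tot D deg (0 : R →ₗ[R] R)) (totFam deg fun _ => conc Q)
      (totFam deg fun _ => conc Q') := by
  have hc : ∀ {Q : Submodule T R}, (∀ a b, ∀ x ∈ Q, D a b * x ∈ Q) →
      Compat D fun _ => conc Q := fun hQ a b j x hx =>
    mem_conc.2 ⟨hQ a b x (mem_conc.1 hx).1, fun hj => by rw [(mem_conc.1 hx).2 hj, smul_zero]⟩
  refine IsTotPair.isPair ⟨hD.homog, fun a b x => by rw [hD.sq]; simp, fun _ => rfl,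
    fun _ => ⟨fun _ => rfl, isFam_conc _, isFam_conc _, fun i x hx => ?_⟩, hc h1, hc h2⟩
  exact mem_conc.2 ⟨h (mem_conc.1 hx).1, (mem_conc.1 hx).2⟩

omit [DecidableEq ι] in
theorem isMC_map {F : Matrix ι ι H} {deg : ι → ℤ} (hF : IsMC F deg) :
    IsMC (F.map (C : H →+* MvPolynomial (Fin d) H)) deg :=
  ⟨by rw [← Matrix.map_mul, hF.sq, Matrix.map_zero _ (map_zero _)],
    fun a b h => hF.homog a b fun h' => h (by rw [Matrix.map_apply, h', map_zero])⟩

section Chain

variable {F : Matrix ι ι H} {deg : ι → ℤ} {y : Fin d → H}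

omit [Fintype ι] in
theorem entry_lab (hFP : ∀ a b, ∀ x ∈ P, F a b * x ∈ P) (hyP : ∀ j, ∀ x ∈ P, y j * x ∈ P)
    (hU : IsLowerSet (U : Set (Fin d →₀ ℕ))) (a b : Finset (Fin d) × ι) :
    ∀ p ∈ lab P U, tensMat (kos fun j => C (y j) - X j) kdeg (F.map C) a b * p ∈ lab P U := by
  intro p hp
  have h := sub_mem (C_mul_mem (entry_stab hFP hyP a b) hp)
    (span_mul_mem (fun α hα β hβ => hU hβ.le hα) (entry_sub F y a b) hp)
  rwa [← sub_mul, sub_sub_cancel] at h

theorem lab_pair (hF : IsMC F deg) (hFP : ∀ a b, ∀ x ∈ P, F a b * x ∈ P)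
    (hyP : ∀ j, ∀ x ∈ P, y j * x ∈ P) {U' : Finset (Fin d →₀ ℕ)}
    (hU : IsLowerSet (U : Set (Fin d →₀ ℕ))) (hU' : IsLowerSet (U' : Set (Fin d →₀ ℕ)))
    (h : U ⊆ U') :
    IsPair (tot (tensMat (kos fun j => C (y j) - X j) kdeg (F.map C)) (tensDeg kdeg deg)
      (0 : MvPolynomial (Fin d) H →ₗ[MvPolynomial (Fin d) H] MvPolynomial (Fin d) H))
      (totFam (tensDeg kdeg deg) fun _ => conc (lab P U))
      (totFam (tensDeg kdeg deg) fun _ => conc (lab P U')) :=
  isPair_conc (isMC_tensMat (isMC_kos _) (isMC_map hF))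
    (fun _ hp α => ⟨(hp α).1, fun hα => (hp α).2 (h hα)⟩) (entry_lab hFP hyP hU)
    (entry_lab hFP hyP hU')

theorem layer (L : LenFn T) (hF : IsMC F deg) (hFP : ∀ a b, ∀ x ∈ P, F a b * x ∈ P)
    (hyP : ∀ j, ∀ x ∈ P, y j * x ∈ P) {α : Fin d →₀ ℕ} (hα : α ∉ U)
    (hU : IsLowerSet (U : Set (Fin d →₀ ℕ)))
    (hU' : IsLowerSet ((insert α U : Finset _) : Set (Fin d →₀ ℕ))) (i : ℤ) :
    L.hl (tot (tensMat (kos fun j => C (y j) - X j) kdeg (F.map C)) (tensDeg kdeg deg)
      (0 : MvPolynomial (Fin d) H →ₗ[MvPolynomial (Fin d) H] MvPolynomial (Fin d) H))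
      (totFam (tensDeg kdeg deg) fun _ => conc (lab P U))
      (totFam (tensDeg kdeg deg) fun _ => conc (lab P (insert α U))) i =
    L.hl (tot (tensMat (kos y) kdeg F) (tensDeg kdeg deg) (0 : H →ₗ[H] H))
      (totFam (tensDeg kdeg deg) fun _ => conc P)
      (totFam (tensDeg kdeg deg) fun _ => conc (⊥ : Submodule T H)) i := by
  have hlt : ∀ β ∈ ({α} : Finset _), ∀ γ < β, γ ∈ U := fun β hβ γ hγ => by
    rw [Finset.mem_singleton.1 hβ] at hγ
    exact (Finset.mem_insert.1 (hU' hγ.le (Finset.mem_insert_self α U))).resolve_left hγ.ne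
  have h := L.hl_eq_of_pairIso (k := 0) (PairIso.tot (ε := 1)
    (φ := (lcoeff H α).restrictScalars T)
    (isMC_tensMat (isMC_kos _) (isMC_map hF)).homog (isMC_tensMat (isMC_kos y) hF).homog
    (fun _ => ⟨fun i p hp => ?_, fun i p hp => ?_, fun i x hx => ?_, fun i p hp h => ?_,
      fun i p _ => by simp⟩) fun a b j _ p hp => ?_)
    (lab_pair hF hFP hyP hU hU' (Finset.subset_insert α U))
    (isPair_conc (isMC_tensMat (isMC_kos y) hF) bot_le (entry_stab hFP hyP) (by simp)) i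
  · rwa [add_zero] at h
  · rw [add_zero]
    exact mem_conc.2 ⟨((mem_conc.1 hp).1 α).1, fun hi => by rw [(mem_conc.1 hp).2 hi, map_zero]⟩
  · have := ((mem_conc.1 hp).1 α).2 (Finset.mem_insert_self α U)
    change coeff α p ∈ _
    rw [this]
    exact zero_mem _
  · rw [add_zero] at hx
    refine ⟨monomial α x, mem_conc.2 ⟨monomial_mem hα (mem_conc.1 hx).1,
      fun hi => by rw [(mem_conc.1 hx).2 hi, map_zero]⟩, by simp⟩
  · refine mem_conc.2 ⟨fun β => ⟨((mem_conc.1 hp).1 β).1, fun hβ => ?_⟩, (mem_conc.1 hp).2⟩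
    rcases Finset.mem_insert.1 hβ with rfl | hβ
    · exact (mem_conc.1 h).1
    · exact ((mem_conc.1 hp).1 β).2 hβ
  · have h1 := (span_mul_mem hlt (entry_sub F y a b) (mem_conc.1 hp).1 α).2
      (Finset.mem_singleton_self α)
    rw [sub_mul, coeff_sub, coeff_C_mul, sub_eq_zero] at h1
    change coeff α (_ * p) - _ * coeff α p ∈ _
    rw [h1, sub_self]
    exact zero_mem _

theorem chain (L : LenFn T) (hF : IsMC F deg) (hdeg : ∀ a, 0 ≤ deg a)
    (hFP : ∀ a b, ∀ x ∈ P, F a b * x ∈ P) (hyP : ∀ j, ∀ x ∈ P, y j * x ∈ P)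
    (h1 : L.hl (tot (tensMat (kos y) kdeg F) (tensDeg kdeg deg) (0 : H →ₗ[H] H))
      (totFam (tensDeg kdeg deg) fun _ => conc P)
      (totFam (tensDeg kdeg deg) fun _ => conc (⊥ : Submodule T H)) 1 = 0) (n : ℕ) :
    ∀ U : Finset (Fin d →₀ ℕ), U.card = n → IsLowerSet (U : Set (Fin d →₀ ℕ)) →
    L.hl (tot (tensMat (kos fun j => C (y j) - X j) kdeg (F.map C)) (tensDeg kdeg deg)
      (0 : MvPolynomial (Fin d) H →ₗ[MvPolynomial (Fin d) H] MvPolynomial (Fin d) H))
      (totFam (tensDeg kdeg deg) fun _ => conc (lab P ∅))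
      (totFam (tensDeg kdeg deg) fun _ => conc (lab P U)) 1 = 0 ∧
    L.hl (tot (tensMat (kos fun j => C (y j) - X j) kdeg (F.map C)) (tensDeg kdeg deg)
      (0 : MvPolynomial (Fin d) H →ₗ[MvPolynomial (Fin d) H] MvPolynomial (Fin d) H))
      (totFam (tensDeg kdeg deg) fun _ => conc (lab P ∅))
      (totFam (tensDeg kdeg deg) fun _ => conc (lab P U)) 0 =
    n * L.hl (tot (tensMat (kos y) kdeg F) (tensDeg kdeg deg) (0 : H →ₗ[H] H))
      (totFam (tensDeg kdeg deg) fun _ => conc P)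
      (totFam (tensDeg kdeg deg) fun _ => conc (⊥ : Submodule T H)) 0 := by
  induction n with
  | zero =>
    intro U hU _
    rw [Finset.card_eq_zero.1 hU]
    simp [L.hl_self]
  | succ n ih =>
    intro U hU hl
    obtain ⟨α, hα⟩ := U.exists_maximal (Finset.card_pos.1 (by omega))
    obtain ⟨V, hV, rfl⟩ : ∃ V, α ∉ V ∧ U = insert α V :=
      ⟨U.erase α, Finset.notMem_erase _ _, (Finset.insert_erase hα.1).symm⟩
    have hVl : IsLowerSet (V : Set (Fin d →₀ ℕ)) := fun β γ hγ hβ => by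
      refine (Finset.mem_insert.1 (hl hγ (Finset.mem_insert_of_mem hβ))).resolve_left ?_
      rintro rfl
      exact hV (le_antisymm (hα.2 (Finset.mem_insert_of_mem hβ) hγ) hγ ▸ hβ)
    rw [Finset.card_insert_of_notMem hV] at hU
    obtain ⟨i1, i0⟩ := ih V (by omega) hVl
    have he : IsLowerSet ((∅ : Finset (Fin d →₀ ℕ)) : Set (Fin d →₀ ℕ)) := by simp [isLowerSet_empty]
    have p1 := lab_pair (P := P) hF hFP hyP he hVl (Finset.empty_subset V)
    have p2 := lab_pair (P := P) hF hFP hyP hVl hl (Finset.subset_insert α V)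
    constructor
    · have h := L.hl_le_add p1 p2 1
      rw [i1, layer L hF hFP hyP hV hVl hl, h1, add_zero] at h
      exact le_antisymm h zero_le
    · rw [L.hl_eq_add p1 p2 0 i1, i0, layer L hF hFP hyP hV hVl hl, Nat.cast_succ, add_mul, one_mul]
      rw [layer L hF hFP hyP hV hVl hl]
      refine le_antisymm ((L.hl_le_rl _ _ _ _).trans (L.rl_of_le fun v hv => ?_).le) zero_le
      refine mem_totFam.2 fun a => ?_
      have h2 := tensDeg_nonneg hdeg a
      rw [(mem_conc.1 (mem_totFam.1 hv a)).2 (by omega)]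
      exact zero_mem _

theorem monomial_sub (hyP : ∀ j, ∀ x ∈ P, y j * x ∈ P) (α : Fin d →₀ ℕ) :
    ∀ x ∈ P, eval y (monomial α x) ∈ P ∧ monomial α x - C (eval y (monomial α x)) ∈
      ⨆ j, (lab P ∅).map (LinearMap.mulLeft T ((C (y j) - X j) ^ 1)) := by
  obtain ⟨s, rfl⟩ := Multiset.toFinsupp.surjective α
  induction s using Multiset.induction_on with
  | empty => intro x hx; simpa using hx
  | cons j s ih =>
    intro x hx
    obtain ⟨h1, h2⟩ := ih _ (hyP j x hx)
    have h3 : monomial (Multiset.toFinsupp (j ::ₘ s)) x =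
        X j * monomial (Multiset.toFinsupp s) x := by
      rw [← Multiset.singleton_add, map_add, Multiset.toFinsupp_singleton, monomial_single_add,
        pow_one]
    have h4 : eval y (monomial (Multiset.toFinsupp (j ::ₘ s)) x) =
        eval y (monomial (Multiset.toFinsupp s) (y j * x)) := by
      rw [h3, ← C_mul_monomial, map_mul, map_mul, eval_X, eval_C]
    rw [h4]
    refine ⟨h1, ?_⟩
    have h5 := sub_mem h2 (mem_iSup_of_mem j (mem_map_of_mem
      (f := LinearMap.mulLeft T ((C (y j) - X j) ^ 1))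
      (monomial_mem (Finset.notMem_empty (Multiset.toFinsupp s)) hx)))
    rw [LinearMap.mulLeft_apply, pow_one, sub_mul, C_mul_monomial, ← h3] at h5
    rwa [show ∀ a b c : MvPolynomial (Fin d) H, a - b - (a - c) = c - b from
      fun a b c => by ring] at h5

end Chain

end MulL

variable (L : LenFn T) {F : Matrix ι ι H} {deg : ι → ℤ} {a₀ : ι} {y : Fin d → H}
  {P₀ : Submodule T H}

theorem LenFn.hl_zero_eq_rl (hF : IsMC F deg) (hdeg : ∀ a, 0 ≤ deg a)
    (h0 : ∀ a, deg a = 0 ↔ a = a₀) (hFP : ∀ a b, ∀ x ∈ P₀, F a b * x ∈ P₀)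
    (hyP : ∀ j, ∀ x ∈ P₀, y j * x ∈ P₀) :
    L.hl (tot (tensMat (kos y) kdeg F) (tensDeg kdeg deg) (0 : H →ₗ[H] H))
      (totFam (tensDeg kdeg deg) fun _ => conc P₀)
      (totFam (tensDeg kdeg deg) fun _ => conc (⊥ : Submodule T H)) 0 =
    L.rl P₀ (augL F a₀ y 1 P₀) := by
  have _ := hFP
  have _ := hyP
  rw [MulL.hl_zero_tens L y hF hdeg h0, bot_sup_eq]

open MvPolynomial MulL in
theorem LenFn.pow_mul_rl_le (hF : IsMC F deg) (hdeg : ∀ a, 0 ≤ deg a)
    (h0 : ∀ a, deg a = 0 ↔ a = a₀) (hFP : ∀ a b, ∀ x ∈ P₀, F a b * x ∈ P₀)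
    (hyP : ∀ j, ∀ x ∈ P₀, y j * x ∈ P₀)
    (h1 : L.hl (tot (tensMat (kos y) kdeg F) (tensDeg kdeg deg) (0 : H →ₗ[H] H))
      (totFam (tensDeg kdeg deg) fun _ => conc P₀)
      (totFam (tensDeg kdeg deg) fun _ => conc (⊥ : Submodule T H)) 1 = 0) (t : ℕ) :
    (t : ℝ≥0∞) ^ d * L.rl P₀ (augL F a₀ y 1 P₀) ≤ L.rl P₀ (augL F a₀ y t P₀) := by
  obtain ⟨U, hc, hU⟩ : ∃ U : Finset (Fin d →₀ ℕ), U.card = t ^ d ∧ ∀ α, α ∈ U ↔ ∀ j, α j < t := by
    refine ⟨(Fintype.piFinset fun _ => Finset.range t).map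
      Finsupp.equivFunOnFinite.symm.toEmbedding, by simp, fun α => ?_⟩
    simp [Finset.mem_map_equiv]
  have h := (chain L hF hdeg hFP hyP h1 _ U hc fun β γ hγ hβ =>
    (hU γ).2 fun j => (hγ j).trans_lt ((hU β).1 hβ j)).2
  rw [L.hl_zero_eq_rl hF hdeg h0 hFP hyP, hl_zero_tens L _ (isMC_map hF) hdeg h0, Nat.cast_pow] at h
  rw [← h]
  refine L.rl_le_of_map_surj (IsScalarTower.toAlgHom T H (MvPolynomial (Fin d) H)).toLinearMap
    (fun x hx => ?_) fun p hp => ⟨eval y p, ?_, ?_⟩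
  · refine mem_comap.1 ((?_ : augL F a₀ y t P₀ ≤ Submodule.comap _ _) hx.2)
    refine sup_le (iSup_le fun b => ?_) (iSup_le fun j => ?_)
    · rintro _ ⟨x, hx, rfl⟩
      exact mem_sup_right (mem_sup_left (mem_iSup_of_mem b
        ⟨C x, monomial_mem (Finset.notMem_empty 0) hx, by simp⟩))
    · rintro _ ⟨x, hx, rfl⟩
      have h2 := (monomial_sub hyP (Finsupp.single j t) x hx).2
      have h3 : monomial (Finsupp.single j t) x ∈ lab P₀ U :=
        monomial_mem (fun h => by simpa using (hU _).1 h j) hx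
      have h4 := sub_mem (mem_sup_left (T := augL (F.map C) a₀ (fun j => C (y j) - X j) 1
        (lab P₀ ∅)) h3) (mem_sup_right (mem_sup_right h2))
      simpa [eval_monomial, mul_comm] using h4
  · rw [p.as_sum, map_sum]
    exact sum_mem fun α _ => (monomial_sub hyP α _ (hp α).1).1
  · refine mem_sup_right (mem_sup_right ?_)
    change p - C (eval y p) ∈ _
    rw [p.as_sum, map_sum, map_sum, ← Finset.sum_sub_distrib]
    exact sum_mem fun α _ => (monomial_sub hyP α _ (hp α).1).2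

end Vale.Agent.P202
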