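import Vale.Agent.P202.LenUlt
import Vale.Agent.P202.GeoL2
import Vale.Agent.P202.MulL
import Vale.Agent.P202.Core0

/-! Module C3: levels and the inequality attached to a sequence of levels. -/

namespace Vale.Agent.P202

open Submodule
open scoped ENNReal NNReal

universe u

/-- `ψ(𝔞) P₀`. -/
noncomputable def idealMul {T C H : Type u} [CommRing T] [CommRing C] [CommRing H] [Algebra C H]
    (ψ : T →+* H) (𝔞 : Ideal T) (P₀ : Submodule C H) : Submodule C H :=
  ⨆ a ∈ 𝔞, P₀.map (LinearMap.mulLeft C (ψ a))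

/-- A level: `T` acts on an almost adic filtration, `𝔪` raising the degree by `q'`. -/
structure IsLevel {T C H : Type u} [CommRing T] [CommRing C] [CommRing H] [Algebra C H] {n : ℕ}
    (ψ : T →+* H) (𝔪 : Ideal T) (x : Fin (n + 1) → T) (ξ : Fin (n + 1) → C)
    (P : ℤ → Submodule C H) (θ ϖ : C) (q q' N₀ : ℕ) : Prop where
  data : AData ξ P (q * N₀) θ ϖ
  root : ∀ j, algebraMap C H (ξ j ^ q) = ψ (x j)
  stab : ∀ r k, ∀ y ∈ P k, ψ r * y ∈ P k
  raise : ∀ r ∈ 𝔪, ∀ k, ∀ y ∈ P k, ψ r * y ∈ P (k + q')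

theorem level_ineq {T : Type u} [CommRing T] {𝔪 : Ideal T} {n d : ℕ} {x : Fin (n + 1) → T}
    {C H : ℕ → Type u} [∀ k, CommRing (C k)] [∀ k, IsNoetherianRing (C k)] [∀ k, CommRing (H k)]
    [∀ k, Algebra (C k) (H k)] {ψ : ∀ k, T →+* H k} {ξ : ∀ k, Fin (n + 1) → C k}
    {P : ∀ k, ℤ → Submodule (C k) (H k)} {θ ϖ : ∀ k, C k} {q q' N₀ : ℕ}
    (h : ∀ k, IsLevel (ψ k) 𝔪 x (ξ k) (P k) (θ k) (ϖ k) q q' N₀)
    (ρ : ℕ → ℕ) (hρ : ∀ k, 0 < ρ k) (Λ : ℝ≥0)
    (h1 : ∀ k, (Module.length (C k) (C k ⧸ Ideal.span (Set.range (ξ k))) : ℝ≥0∞) = Λ * ρ k)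
    (K : ℕ) (h2 : ∀ k : ℕ, (k : ℕ∞) * Module.length (C k)
      (C k ⧸ (Ideal.span (Set.range (ξ k)) ⊔ Ideal.span {θ k})) ≤ (K * ρ k : ℕ))
    {ι : Type} [Fintype ι] [DecidableEq ι] {F : Matrix ι ι T} {deg : ι → ℤ} {a₀ : ι}
    (hF : IsMC F deg) (hdeg : ∀ a, 0 ≤ deg a ∧ deg a + d ≤ n + 1) (h0 : ∀ a, deg a = 0 ↔ a = a₀)
    (hFm : ∀ a b, F a b ∈ 𝔪) {y : Fin d → T} (hy : ∀ j, y j ∈ 𝔪) (hd : 0 < d)
    (hnull : ∀ j, x j ^ N₀ ∈ nullIdeal (tensMat (kos y) kdeg F) (tensDeg kdeg deg))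
    (t : ℕ) (U : ℝ≥0)
    (h3 : ∀ k, (rl ((P k 0).map (LinearMap.lsmul (C k) (H k) (θ k)))
      (idealMul (ψ k) (Ideal.span (Set.range (F a₀)) ⊔ Ideal.span (Set.range fun j => y j ^ t))
        (P k 0)) : ℝ≥0∞) ≤ U * ρ k) {c : Fin n → ℤ}
    (hc : ∀ l : Fin n, (((l : ℕ) : ℤ) + 1) * q' ≤ c l ∧ c l ≤ (((l : ℕ) : ℤ) + 2) * q') :
    (t : ℝ) ^ d * -(Λ * ((∑ a : Finset (Fin d) × ι, sgn (tensDeg kdeg deg a) *
      ∑ s ∈ Finset.range ((tensDeg kdeg deg a).toNat * q'), ∏ l, (c l - s) : ℤ) : ℝ)) ≤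
    n.factorial * U := by
  classical
  obtain ⟨L, hL, hU⟩ := exists_lData (fun k => (h k).data) ρ hρ Λ h1 K h2
  let Ψ : T →+* ∀ k, H k := Pi.ringHom ψ
  have hst : ∀ r j, ∀ z ∈ piSub fun k => P k j, Ψ r * z ∈ piSub fun k => P k j :=
    fun r j z hz k => (h k).stab r j _ (hz k)
  have e : (tensMat (kos y) kdeg F).map Ψ = tensMat (kos fun j => Ψ (y j)) kdeg (F.map Ψ) := by
    rw [tensMat_map, kos_map]
  have : Nonempty (Fin d) := ⟨⟨0, hd⟩⟩
  have hD : IsShortL (fun j k => algebraMap (C k) (H k) (ξ k j)) (fun j => piSub fun k => P k j)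
      ((tensMat (kos y) kdeg F).map Ψ) (tensDeg kdeg deg) (q * N₀) q' :=
    { mc := (isMC_tensMat (isMC_kos y) hF).map Ψ
      beta := by
        simp only [tensDeg, sgn_add, Fintype.sum_prod_type, ← Finset.mul_sum, ← Finset.sum_mul,
          sum_sgn_kdeg, zero_mul]
      bound := fun a => by
        have h1 := hdeg a.2
        have h2 : a.1.card ≤ d := by simpa using a.1.card_le_univ
        simp only [tensDeg, kdeg]
        omega
      raise := fun a b j z hz k =>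
        (h k).raise _ (CoreC.tensMat_mem kdeg (CoreC.kos_mem hy) hFm a b) j _ (hz k)
      null := fun j => by
        obtain ⟨G, hG, e⟩ := hnull j
        refine ⟨G.map Ψ, fun a b h1 => hG a b fun h0 => h1 ?_, ?_, fun a b => hst _⟩
        · rw [Matrix.map_apply, h0, map_zero]
        · have e1 : (fun k => algebraMap (C k) (H k) (ξ k j)) ^ (q * N₀) = Ψ (x j ^ N₀) := by
            funext k
            rw [Pi.pow_apply, pow_mul, ← map_pow, (h k).root, ← map_pow]
            rfl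
          rw [← Matrix.map_mul, ← Matrix.map_mul, ← Matrix.map_add _ (map_add Ψ), e, e1]
          ext a b : 2
          by_cases hab : a = b <;> simp [hab] }
  have m1 := hL.main_est hD hc
  have m2 := hL.hl_conc_eq_zero hD one_ne_zero
  have m3 := (hL.finH_conc hD).ne_top 0
  have hFP : ∀ a b, ∀ z ∈ piSub fun k => P k 0, F.map Ψ a b * z ∈ piSub fun k => P k 0 :=
    fun a b => hst _ 0
  have hyP : ∀ j, ∀ z ∈ piSub fun k => P k 0, Ψ (y j) * z ∈ piSub fun k => P k 0 :=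
    fun j => hst _ 0
  rw [e] at m1 m2 m3
  have m4 := L.pow_mul_rl_le (hF.map Ψ) (fun a => (hdeg a).1) h0 hFP hyP m2 t
  rw [L.hl_zero_eq_rl (hF.map Ψ) (fun a => (hdeg a).1) h0 hFP hyP] at m1 m3
  have key : ∀ a ∈ Ideal.span (Set.range (F a₀)) ⊔ Ideal.span (Set.range fun j => y j ^ t),
      ∀ z ∈ piSub fun k => P k 0,
        Ψ a * z ∈ augL (F.map Ψ) a₀ (fun j => Ψ (y j)) t (piSub fun k => P k 0) := by
    intro a ha
    rw [← Ideal.span_union] at ha
    induction ha using Submodule.span_induction with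
    | mem a ha =>
      intro z hz
      rcases ha with ⟨b, rfl⟩ | ⟨j, rfl⟩
      · exact mem_sup_left (mem_iSup_of_mem b ⟨z, hz, rfl⟩)
      · exact mem_sup_right (mem_iSup_of_mem j ⟨z, hz, by rw [map_pow]; rfl⟩)
    | zero => intro z _; rw [map_zero, zero_mul]; exact zero_mem _
    | add a b _ _ ha hb => intro z hz; rw [map_add, add_mul]; exact add_mem (ha z hz) (hb z hz)
    | smul r a _ ha =>
      intro z hz
      rw [smul_eq_mul, mul_comm r, map_mul, mul_assoc]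
      exact ha _ (hst r 0 z hz)
  have m5 := hU (fun k => P k 0) _ (augL (F.map Ψ) a₀ (fun j => Ψ (y j)) t (piSub fun k => P k 0))
    U (fun k z hz => by
      refine iSup_induction (motive := fun z => (Pi.single k z : ∀ k, H k) ∈ _) _ hz
        (fun a z hz => ?_) (by rw [Pi.single_zero]; exact zero_mem _)
        fun a b ha hb => by rw [Pi.single_add]; exact add_mem ha hb
      refine iSup_induction (motive := fun z => (Pi.single k z : ∀ k, H k) ∈ _) _ hz
        (fun ha z hz => ?_) (by rw [Pi.single_zero]; exact zero_mem _)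
        fun a b ha hb => by rw [Pi.single_add]; exact add_mem ha hb
      obtain ⟨z, hz, rfl⟩ := hz
      have := key a ha (Pi.single k z) fun k' => by
        by_cases hk : k' = k
        · subst hk; rwa [Pi.single_eq_same]
        · rw [Pi.single_eq_of_ne hk]; exact zero_mem _
      rwa [← Pi.single_mul_right] at this) h3
  have m6 := ENNReal.toReal_mono ENNReal.coe_ne_top (m4.trans m5)
  rw [ENNReal.toReal_mul, ENNReal.toReal_pow, ENNReal.toReal_natCast, ENNReal.coe_toReal] at m6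
  refine (mul_le_mul_of_nonneg_left m1 (by positivity)).trans ?_
  rw [mul_left_comm]
  exact mul_le_mul_of_nonneg_left m6 (by positivity)

end Vale.Agent.P202
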