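import Vale.Agent.P202.CohenRing
import Vale.Agent.P202.PSer
import Vale.Agent.P202.Isog

/-! Auxiliary results for the localisation inequality in residue characteristic `p`. -/

namespace Vale.Agent.P202.LM

open IsLocalRing RingTheory.Sequence TensorProduct
open scoped Pointwise

universe u

theorem localRingHom_surjective {A A' : Type*} [CommRing A] [CommRing A'] (π : A →+* A')
    (hπ : Function.Surjective π) (𝔭 : Ideal A) [𝔭.IsPrime] (𝔮 : Ideal A') [𝔮.IsPrime]
    (h : 𝔭 = 𝔮.comap π) : Function.Surjective (Localization.localRingHom 𝔭 𝔮 π h) := by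
  intro z
  obtain ⟨⟨a, s⟩, rfl⟩ := IsLocalization.mk'_surjective 𝔮.primeCompl z
  obtain ⟨a, rfl⟩ := hπ a
  obtain ⟨s, hs⟩ := s
  obtain ⟨s, rfl⟩ := hπ s
  refine ⟨IsLocalization.mk' _ a (⟨s, fun h' => hs ?_⟩ : 𝔭.primeCompl), ?_⟩
  · rw [h] at h'
    exact h'
  · rw [Localization.localRingHom_mk']

theorem ker_localRingHom {A A' : Type*} [CommRing A] [CommRing A'] (π : A →+* A')
    (hπ : Function.Surjective π) (𝔭 : Ideal A) [𝔭.IsPrime] (𝔮 : Ideal A') [𝔮.IsPrime]
    (h : 𝔭 = 𝔮.comap π) : RingHom.ker (Localization.localRingHom 𝔭 𝔮 π h) =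
      (RingHom.ker π).map (algebraMap A (Localization.AtPrime 𝔭)) := by
  refine le_antisymm (fun z hz => ?_) ?_
  · obtain ⟨⟨a, s⟩, rfl⟩ := IsLocalization.mk'_surjective 𝔭.primeCompl z
    rw [RingHom.mem_ker, Localization.localRingHom_mk', IsLocalization.mk'_eq_zero_iff] at hz
    obtain ⟨⟨m, hm⟩, hz⟩ := hz
    obtain ⟨m, rfl⟩ := hπ m
    rw [IsLocalization.mk'_mem_map_algebraMap_iff]
    refine ⟨m, fun h' => hm ?_, ?_⟩
    · rw [h] at h'
      exact h'
    · rw [RingHom.mem_ker, map_mul]
      exact hz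
  · rw [Ideal.map_le_iff_le_comap]
    intro a ha
    rw [Ideal.mem_comap, RingHom.mem_ker, Localization.localRingHom_to_map, RingHom.mem_ker.mp ha,
      map_zero]

theorem isWeaklyRegular_cons_of_surjective {B B' : Type*} [CommRing B] [CommRing B']
    (ρ : B →+* B') (hρ : Function.Surjective ρ) {t : B} (ht : RingHom.ker ρ = Ideal.span {t})
    (hreg : IsSMulRegular B t) {b : List B} (hb : IsWeaklyRegular B' (b.map ρ)) :
    IsWeaklyRegular B (t :: b) := by
  rw [isWeaklyRegular_cons_iff]
  refine ⟨hreg, ?_⟩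
  have e0 : (t • (⊤ : Submodule B B)) = RingHom.ker ρ := by
    rw [ht, ← Submodule.ideal_span_singleton_smul, smul_eq_mul, Ideal.mul_top]
  let e : QuotSMulTop t B ≃+ B' :=
    (Submodule.quotEquivOfEq _ _ e0).toAddEquiv.trans
      (RingHom.quotientKerEquivOfSurjective hρ).toAddEquiv
  refine (AddEquiv.isWeaklyRegular_congr (e := e) ?_).mpr hb
  rw [List.forall₂_map_right_iff, List.forall₂_same]
  intro r _ x
  obtain ⟨x, rfl⟩ := Submodule.Quotient.mk_surjective _ x
  exact map_mul ρ r x

theorem ker_map_residue {p : ℕ} {V : Type u} [CommRing V] [IsDomain V]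
    [IsDiscreteValuationRing V] (hV : IsCohen p V) (σ : Type) :
    RingHom.ker (MvPowerSeries.map (σ := σ) (residue V)) =
      Ideal.span {(p : MvPowerSeries σ V)} := by
  have hp : residue V p = 0 := by
    rw [residue_eq_zero_iff, hV.max]
    exact Ideal.subset_span rfl
  refine le_antisymm (fun f hf => ?_) ?_
  · have h : ∀ n, ∃ c, c * p = MvPowerSeries.coeff n f := fun n => by
      rw [← Ideal.mem_span_singleton', ← hV.max, ← residue_eq_zero_iff,
        ← MvPowerSeries.coeff_map, RingHom.mem_ker.mp hf, map_zero]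
    choose g hg using h
    refine Ideal.mem_span_singleton'.mpr ⟨g, ?_⟩
    ext n
    rw [← map_natCast (MvPowerSeries.C (σ := σ) (R := V)), ← hg]
    exact MvPowerSeries.coeff_mul_C n (g : MvPowerSeries σ V) p
  · rw [Ideal.span_le]
    rintro _ rfl
    rw [SetLike.mem_coe, RingHom.mem_ker, ← map_natCast (MvPowerSeries.C (σ := σ) (R := V)),
      MvPowerSeries.map_C, hp, map_zero]

theorem map_residue_surjective {V : Type u} [CommRing V] [IsLocalRing V] (σ : Type) :
    Function.Surjective (MvPowerSeries.map (σ := σ) (residue V)) := by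
  intro f
  choose g hg using fun n => residue_surjective (MvPowerSeries.coeff n f)
  exact ⟨g, MvPowerSeries.ext fun n => hg n⟩

theorem charP_residue {p : ℕ} [hp : Fact p.Prime] {V : Type u} [CommRing V] [IsDomain V]
    [IsDiscreteValuationRing V] (hV : IsCohen p V) : CharP (ResidueField V) p := by
  rw [CharP.charP_iff_prime_eq_zero hp.out, ← map_natCast (residue V), residue_eq_zero_iff, hV.max]
  exact Ideal.subset_span rfl

section
variable {p : ℕ} [Fact p.Prime] {V : Type u} [CommRing V] [IsDomain V] [IsDiscreteValuationRing V]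

theorem p_ne_zero (hV : IsCohen p V) (σ : Type) : (p : MvPowerSeries σ V) ≠ 0 := by
  rw [← map_natCast (MvPowerSeries.C (σ := σ) (R := V))]
  exact (map_ne_zero_iff _ (MvPowerSeries.C_injective)).mpr hV.ne_zero

theorem exists_params (hV : IsCohen p V) {D : ℕ} (𝔭 : Ideal (MvPowerSeries (Fin D) V))
    [𝔭.IsPrime] (hp : (p : MvPowerSeries (Fin D) V) ∈ 𝔭) :
    ∃ (d : ℕ) (w : Fin (d + 1) → MvPowerSeries (Fin D) V), w 0 = p ∧ (∀ i, w i ∈ 𝔭) ∧
      Ideal.span (Set.range fun i => algebraMap _ (Localization.AtPrime 𝔭) (w i)) =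
        maximalIdeal (Localization.AtPrime 𝔭) ∧
      IsWeaklyRegular (Localization.AtPrime 𝔭)
        (List.ofFn fun i => algebraMap _ (Localization.AtPrime 𝔭) (w i)) ∧
      (d : WithBot ℕ∞) + ringKrullDim (MvPowerSeries (Fin D) V ⧸ 𝔭) ≤ D := by
  have hc := charP_residue hV
  have hker := ker_map_residue hV (Fin D)
  have hπ := map_residue_surjective (V := V) (Fin D)
  have hp0 := p_ne_zero hV (Fin D)
  set π := MvPowerSeries.map (σ := Fin D) (residue V)
  have hk : RingHom.ker π ≤ 𝔭 := by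
    rw [hker, Ideal.span_le]
    rintro _ rfl
    exact hp
  have h𝔮 : (𝔭.map π).IsPrime := Ideal.map_isPrime_of_surjective hπ hk
  have h : 𝔭 = (𝔭.map π).comap π := by
    rw [Ideal.comap_map_of_surjective π hπ, ← RingHom.ker_eq_comap_bot, sup_eq_left.mpr hk]
  have hq : ringKrullDim (MvPowerSeries (Fin D) V ⧸ 𝔭) =
      ringKrullDim (MvPowerSeries (Fin D) (ResidueField V) ⧸ 𝔭.map π) := by
    have h1 : Function.Surjective ((Ideal.Quotient.mk (𝔭.map π)).comp π) :=
      Ideal.Quotient.mk_surjective.comp hπ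
    rw [← ringKrullDim_eq_of_ringEquiv (RingHom.quotientKerEquivOfSurjective h1),
      ← RingHom.comap_ker, Ideal.mk_ker, ← h]
  generalize 𝔭.map π = 𝔮 at h𝔮 h hq
  have : CharP (MvPowerSeries (Fin D) (ResidueField V)) p :=
    charP_of_injective_ringHom (MvPowerSeries.C (σ := Fin D) (R := ResidueField V)).injective p
  have : CharP (Localization.AtPrime 𝔮) p := charP_of_injective_ringHom
    ((algebraMap _ (Localization.AtPrime 𝔮)).comp
      (MvPowerSeries.C (σ := Fin D) (R := ResidueField V))).injective p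
  obtain ⟨w, hw, hreg, hdim⟩ := kunz p
    (flat_frobenius_localization p (flat_frobenius_mvPowerSeries p (ResidueField V) (Fin D)) 𝔮)
  rw [IsLocalization.AtPrime.ringKrullDim_eq_height 𝔮] at hdim
  have h1 := FrobFlat.height_add_le 𝔮
  rw [ringKrullDim_mvPowerSeries_field, hdim, ← hq] at h1
  have hρ := localRingHom_surjective π hπ 𝔭 𝔮 h
  have hρk := ker_localRingHom π hπ 𝔭 𝔮 h
  rw [hker, Ideal.map_span, Set.image_singleton] at hρk
  set ρ := Localization.localRingHom 𝔭 𝔮 π h
  set A := MvPowerSeries (Fin D) V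
  set B := Localization.AtPrime 𝔭
  obtain ⟨b, rfl⟩ := List.map_surjective_iff.mpr hρ w
  have hinj : Function.Injective (algebraMap A B) :=
    IsLocalization.injective _ 𝔭.primeCompl_le_nonZeroDivisors
  have hpB : algebraMap A B p ≠ 0 := (map_ne_zero_iff _ hinj).mpr hp0
  have hreg' := isWeaklyRegular_cons_of_surjective ρ hρ hρk
    (IsSMulRegular.of_ne_zero hpB) hreg.1
  have hmax : Ideal.ofList (algebraMap A B p :: b) = maximalIdeal B := by
    rw [← maximalIdeal_comap ρ, ← hw, ← Ideal.map_ofList, Ideal.comap_map_of_surjective ρ hρ,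
      ← RingHom.ker_eq_comap_bot, hρk, Ideal.ofList_cons, sup_comm]
  have hnum : ∀ x ∈ maximalIdeal B, ∃ y ∈ 𝔭, x ∈ Ideal.span {algebraMap A B y} := by
    intro x hm
    obtain ⟨⟨y, s⟩, rfl⟩ := IsLocalization.mk'_surjective 𝔭.primeCompl x
    refine ⟨y, (IsLocalization.AtPrime.mk'_mem_maximal_iff _ 𝔭 y s).mp hm, ?_⟩
    simp only
    rw [IsLocalization.mk'_eq_mul_mk'_one]
    exact Ideal.mul_mem_right _ _ (Ideal.subset_span rfl)
  have hbm : ∀ x ∈ algebraMap A B p :: b, x ∈ maximalIdeal B := fun x hx =>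
    hmax ▸ Ideal.subset_span hx
  choose y hyP hy using fun i : Fin b.length =>
    hnum b[i] (hbm _ (List.mem_cons_of_mem _ (List.getElem_mem i.2)))
  have hP : ∀ i, (Fin.cons (p : A) y : Fin (b.length + 1) → A) i ∈ 𝔭 :=
    Fin.cases hp hyP
  have hP' : ∀ i, algebraMap A B ((Fin.cons (p : A) y : Fin (b.length + 1) → A) i) ∈
      maximalIdeal B := fun i => by
    rw [← Localization.AtPrime.map_eq_maximalIdeal]
    exact Ideal.mem_map_of_mem _ (hP i)
  have hsp : Ideal.span (Set.range fun i =>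
      algebraMap A B ((Fin.cons (p : A) y : Fin (b.length + 1) → A) i)) = maximalIdeal B := by
    refine le_antisymm (Ideal.span_le.mpr ?_) ?_
    · rintro _ ⟨i, rfl⟩
      exact hP' i
    · rw [← hmax, Ideal.ofList, Ideal.span_le]
      intro x hx
      rcases List.mem_cons.mp hx with rfl | hx
      · exact Ideal.subset_span ⟨0, rfl⟩
      · obtain ⟨i, hi, rfl⟩ := List.getElem_of_mem hx
        refine (Ideal.span_le.mpr ?_) (hy ⟨i, hi⟩)
        rintro _ rfl
        exact Ideal.subset_span ⟨Fin.succ ⟨i, hi⟩, rfl⟩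
  refine ⟨b.length, Fin.cons p y, rfl, hP, hsp, ?_, by rwa [List.length_map] at h1⟩
  refine isWeaklyRegular_of_isSop hreg' hbm (HS.isSop_of_le (N := 1) (fun a ha => ?_) ?_ B) ?_
  · obtain ⟨i, rfl⟩ := List.mem_ofFn.mp ha
    exact hP' i
  · rw [pow_one, HS.ofList_ofFn, hsp]
  · simp

theorem mem_pow_succ_of_frob (hV : IsCohen p V) (φ : V →+* V) {a : V} {n : ℕ}
    (ha : ¬ IsUnit a) (h : φ a - a ^ p ∈ Ideal.span {(p : V) ^ (n + 1)}) :
    a ∈ Ideal.span {(p : V) ^ (n + 1)} := by
  have hm : ∀ c : V, ¬ IsUnit c → (p : V) ∣ c := fun c hc => by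
    rw [← Ideal.mem_span_singleton, ← hV.max]
    exact hc
  have hp := (Fact.out : p.Prime).two_le
  have key : ∀ j ≤ n, (p : V) ^ (j + 1) ∣ a := by
    intro j hj
    induction j with
    | zero => simpa using hm a ha
    | succ j ih =>
      obtain ⟨c, rfl⟩ := ih (by omega)
      rw [pow_succ _ (j + 1)]
      refine mul_dvd_mul_left _ (hm c fun hc => ?_)
      have h1 : (p : V) ^ (j + 1 + 1) ∣ φ (p ^ (j + 1) * c) := by
        rw [← sub_add_cancel (φ _) ((p ^ (j + 1) * c) ^ p)]
        refine dvd_add ((pow_dvd_pow _ (by omega)).trans (Ideal.mem_span_singleton.mp h)) ?_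
        rw [mul_pow, ← pow_mul]
        exact (pow_dvd_pow _ (by nlinarith)).mul_right _
      rw [map_mul, map_pow, map_natCast, pow_succ _ (j + 1),
        mul_dvd_mul_iff_left (pow_ne_zero _ hV.ne_zero)] at h1
      have h2 : (p : V) ∈ maximalIdeal V := hV.max ▸ Ideal.subset_span rfl
      exact h2 (isUnit_of_dvd_unit h1 (hc.map φ))
  exact Ideal.mem_span_singleton.mpr (key n le_rfl)

theorem constantCoeff_mem (hV : IsCohen p V) {D : ℕ}
    (𝔭 : Ideal (MvPowerSeries (Fin D) V)) [h𝔭 : 𝔭.IsPrime]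
    (hp : (p : MvPowerSeries (Fin D) V) ∈ 𝔭) (n : ℕ) (f : MvPowerSeries (Fin D) V)
    (hf : algebraMap _ (Localization.AtPrime 𝔭) f ∈ maximalIdeal (Localization.AtPrime 𝔭) ^ n) :
    MvPowerSeries.constantCoeff f ∈ Ideal.span {(p : V) ^ n} := by
  obtain ⟨d, w, hw0, hwP, hsp, hreg, -⟩ := exists_params hV 𝔭 hp
  obtain ⟨φ, φ₀, hφ, hφ₀⟩ := hV.exists_frobLift (Fin D)
  have hp0 := (Fact.out : p.Prime).pos
  have hle : Ideal.span {(p : MvPowerSeries (Fin D) V)} ≤ 𝔭 := by
    rw [Ideal.span_le]
    rintro _ rfl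
    exact hp
  have h : 𝔭 = 𝔭.comap φ := by
    ext g
    rw [Ideal.mem_comap, ← sub_add_cancel (φ g) (g ^ p), Ideal.add_mem_iff_right _ (hle (hφ g)),
      h𝔭.pow_mem_iff_mem _ hp0]
  let A := MvPowerSeries (Fin D) V
  let B := Localization.AtPrime 𝔭
  have hq : QuasiReg fun i => algebraMap A B (w i) :=
    (regAny_of_isWeaklyRegular hreg fun j => hsp ▸ Ideal.subset_span ⟨j, rfl⟩).quasiReg
  induction n generalizing f with
  | zero => simp
  | succ n ih =>
    obtain ⟨δ, hδ⟩ := Ideal.mem_span_singleton'.mp (hφ f)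
    have h1 : algebraMap A B (φ f) ∈ maximalIdeal B ^ (n + 1) := by
      rw [← Localization.localRingHom_to_map 𝔭 𝔭 φ h f]
      have h2 := Ideal.mem_map_of_mem (Localization.localRingHom 𝔭 𝔭 φ h) hf
      rw [Ideal.map_pow] at h2
      exact Ideal.pow_right_mono (map_max_le _) _ h2
    have h2 : algebraMap A B p * algebraMap A B δ ∈ maximalIdeal B ^ (n + 1) := by
      rw [← map_mul, mul_comm, hδ, map_sub, map_pow]
      exact sub_mem h1 (Ideal.pow_mem_of_mem _ hf _ hp0)
    have h3 : algebraMap A B δ ∈ maximalIdeal B ^ n := by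
      rw [← hsp] at h2 ⊢
      refine hq.colon (ω := 1) (F := MvPolynomial.X 0) (X_mem_homog 0)
        ⟨Finsupp.single 0 1, by simp⟩ ?_ n _ h2
      rw [MvPolynomial.eval_X, hw0, sub_self]
      exact zero_mem _
    refine mem_pow_succ_of_frob hV φ₀ (fun hu => ?_) ?_
    · have h4 : algebraMap A B f ∈ maximalIdeal B := Ideal.pow_le_self (Nat.succ_ne_zero n) hf
      exact h4 ((MvPowerSeries.isUnit_iff_constantCoeff.mpr hu).map _)
    · rw [← hφ₀, ← map_pow, ← map_sub, ← hδ, map_mul, map_natCast, pow_succ,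
        ← Ideal.span_singleton_mul_span_singleton]
      exact Ideal.mul_mem_mul (ih δ h3) (Ideal.subset_span rfl)
end

theorem eval_mul_of_homog {T : Type*} [CommRing T] {d n : ℕ} {F : MvPolynomial (Fin d) T}
    (hF : F ∈ homog T d n) (c : T) (x : Fin d → T) :
    MvPolynomial.eval (fun i => c * x i) F = c ^ n * MvPolynomial.eval x F := by
  rw [MvPolynomial.eval_eq', MvPolynomial.eval_eq', Finset.mul_sum]
  refine Finset.sum_congr rfl fun m hm => ?_
  have h1 : m.degree = n := by
    exact_mod_cast mem_homog.mp hF m (MvPolynomial.mem_support_iff.mp hm)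
  rw [← h1, Finsupp.degree_eq_sum]
  simp only [mul_pow, Finset.prod_mul_distrib, Finset.prod_pow_eq_pow_sum]
  ring

theorem eval_sub_mem {T : Type*} [CommRing T] {d : ℕ} (F : MvPolynomial (Fin d) T) (J : Ideal T)
    {x x' : Fin d → T} (h : ∀ i, x i - x' i ∈ J) :
    MvPolynomial.eval x F - MvPolynomial.eval x' F ∈ J := by
  rw [← Ideal.Quotient.eq, MvPolynomial.map_eval, MvPolynomial.map_eval]
  congr 2
  funext i
  exact Ideal.Quotient.eq.mpr (h i)

theorem exists_form {T : Type*} [CommRing T] [IsLocalRing T] [IsNoetherianRing T] {d : ℕ}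
    {w : Fin d → T} (hw : Ideal.span (Set.range w) = maximalIdeal T) {f : T} (hf : f ≠ 0) :
    ∃ (n : ℕ) (F : MvPolynomial (Fin d) T), f ∈ maximalIdeal T ^ n ∧ F ∈ homog T d n ∧
      MvPolynomial.eval w F = f ∧ MvPolynomial.map (residue T) F ≠ 0 := by
  classical
  have h0 : ∃ n : ℕ, f ∉ maximalIdeal T ^ (n + 1) := by
    by_contra! h
    refine hf (FrobFlat.mem_of_forall_sup_pow ⊥ fun N => Ideal.mem_sup_right ?_)
    exact Ideal.pow_le_pow_right (Nat.le_succ N) (h N)
  have h1 : f ∈ maximalIdeal T ^ Nat.find h0 := by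
    rcases h : Nat.find h0 with _ | n
    · simp
    · exact not_not.mp (Nat.find_min h0 (by omega))
  have h1' := Nat.find_spec h0
  generalize Nat.find h0 = n at h1 h1'
  obtain ⟨F, hF, hFe⟩ := exists_homog_eval_eq w n (y := f) (by rwa [hw])
  refine ⟨_, F, h1, hF, hFe, fun h => h1' ?_⟩
  rw [← hFe, F.as_sum, map_sum]
  refine Ideal.sum_mem _ fun m hm => ?_
  have h2 : F.coeff m ∈ maximalIdeal T := by
    rw [← residue_eq_zero_iff, ← MvPolynomial.coeff_map, h, MvPolynomial.coeff_zero]
  have h3 := monomial_mem_homog m (1 : T)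
  rw [mem_homog.mp hF m (MvPolynomial.mem_support_iff.mp hm)] at h3
  have h4 := eval_mem_pow_of_homog w h3
  rw [hw] at h4
  rw [← mul_one (F.coeff m), ← MvPolynomial.C_mul_monomial, map_mul, MvPolynomial.eval_C,
    pow_succ']
  exact Ideal.mul_mem_mul h2 h4

theorem length_le_of_max {T : Type*} [CommRing T] [IsLocalRing T] {J : Ideal T} {t : T}
    (h : maximalIdeal T ≤ J ⊔ Ideal.span {t}) (n : ℕ) :
    Module.length T (T ⧸ (J ⊔ Ideal.span {t ^ n})) ≤ n := by
  induction n with
  | zero =>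
    rw [pow_zero, Ideal.span_singleton_one, sup_top_eq]
    simp
  | succ n ih =>
    rw [afLength_colon _ (t ^ n), sup_assoc,
      sup_eq_right.mpr (Ideal.span_singleton_le_span_singleton.mpr (pow_dvd_pow t n.le_succ)),
      Nat.cast_succ, add_comm]
    refine add_le_add ih ?_
    rw [← length_quot_maximalIdeal T]
    refine Module.length_le_of_surjective (Submodule.factor (h.trans (sup_le ?_ ?_)))
      (Submodule.factor_surjective _)
    · intro x hx
      rw [Submodule.mem_colon_singleton]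
      exact Ideal.mem_sup_left (Ideal.mul_mem_right _ _ hx)
    · rw [Ideal.span_le]
      rintro _ rfl
      rw [SetLike.mem_coe, Submodule.mem_colon_singleton, smul_eq_mul, ← pow_succ']
      exact Ideal.mem_sup_right (Ideal.subset_span rfl)

theorem pow_le_of_max {T : Type*} [CommRing T] {m J : Ideal T} {t : T}
    (h : m ≤ J ⊔ Ideal.span {t}) (n : ℕ) : m ^ n ≤ J ⊔ Ideal.span {t ^ n} := by
  induction n with
  | zero => simp
  | succ n ih =>
    rw [pow_succ]
    refine (Ideal.mul_mono ih h).trans ?_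
    rw [Ideal.sup_mul, Ideal.mul_sup (Ideal.span _), Ideal.span_singleton_mul_span_singleton,
      ← pow_succ]
    exact sup_le (le_sup_of_le_left Ideal.mul_le_left)
      (sup_le (le_sup_of_le_left Ideal.mul_le_right) le_sup_right)

theorem exists_eval_ne_zero {V T ι : Type*} [CommRing V] [IsLocalRing V]
    [Infinite (ResidueField V)] [CommRing T] [IsLocalRing T] (g : V →+* T) [IsLocalHom g] {d : ℕ}
    (s : Finset ι) (F : ι → MvPolynomial (Fin d) T)
    (hF : ∀ i ∈ s, MvPolynomial.map (residue T) (F i) ≠ 0) :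
    ∃ l : Fin d → V, ∀ i ∈ s, IsUnit (MvPolynomial.eval (fun j => g (l j)) (F i)) := by
  have h1 : ∏ i ∈ s, MvPolynomial.map (residue T) (F i) ≠ 0 := Finset.prod_ne_zero_iff.mpr hF
  have h2 : (Set.range (ResidueField.map g)).Infinite :=
    Set.infinite_range_of_injective (ResidueField.map g).injective
  by_contra! h
  refine h1 (MvPolynomial.funext_set (fun _ => Set.range (ResidueField.map g)) (fun _ => h2)
    fun x hx => ?_)
  choose l hl using fun j => hx j (Set.mem_univ j)
  choose l' hl' using fun j => residue_surjective (l j)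
  obtain ⟨i, hi, hu⟩ := h l'
  rw [map_prod, map_zero]
  refine Finset.prod_eq_zero hi ?_
  have h3 : x = residue T ∘ fun j => g (l' j) := by
    funext j
    rw [← hl, ← hl', ResidueField.map_residue]
    rfl
  rw [h3, ← MvPolynomial.map_eval, residue_eq_zero_iff]
  exact hu

theorem dim_le_of_isSop' {T : Type*} [CommRing T] [IsLocalRing T] [IsNoetherianRing T]
    {y : List T} (h : IsSop T y) : ringKrullDim T ≤ y.length := by
  rw [← ringKrullDim_eq_of_ringEquiv (RingEquiv.quotientBot T)]
  exact dim_le_of_isSop (h.of_surjective (Submodule.mkQ ⊥) (Submodule.mkQ_surjective _))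

theorem exists_generic {p : ℕ} [Fact p.Prime] {V : Type u} [CommRing V] [IsDomain V]
    [IsDiscreteValuationRing V] (hV : IsCohen p V) [Infinite (ResidueField V)] {D : ℕ}
    (𝔭 : Ideal (MvPowerSeries (Fin D) V)) [𝔭.IsPrime] (hp : (p : MvPowerSeries (Fin D) V) ∈ 𝔭)
    (s : Finset (MvPowerSeries (Fin D) V)) (hs : ∀ f ∈ s, f ≠ 0) :
    ∃ (d : ℕ) (y : Fin d → MvPowerSeries (Fin D) V), (∀ i, y i ∈ 𝔭) ∧
      (d : WithBot ℕ∞) + ringKrullDim (MvPowerSeries (Fin D) V ⧸ 𝔭) ≤ D ∧
      ringKrullDim (Localization.AtPrime 𝔭) ≤ (d + 1 : ℕ) ∧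
      ∀ f ∈ s, ∃ n : ℕ, MvPowerSeries.constantCoeff f ∈ Ideal.span {(p : V) ^ n} ∧
        maximalIdeal (Localization.AtPrime 𝔭) ^ n ≤
          (Ideal.span {f} ⊔ Ideal.span (Set.range y)).map (algebraMap _ (Localization.AtPrime 𝔭)) ∧
        Module.length (Localization.AtPrime 𝔭) (Localization.AtPrime 𝔭 ⧸
          (Ideal.span {f} ⊔ Ideal.span (Set.range y)).map
            (algebraMap _ (Localization.AtPrime 𝔭))) ≤ n := by
  classical
  obtain ⟨d, w, hw0, hwP, hsp, -, hdim⟩ := exists_params hV 𝔭 hp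
  let A := MvPowerSeries (Fin D) V
  let B := Localization.AtPrime 𝔭
  have hinj : Function.Injective (algebraMap A B) :=
    IsLocalization.injective _ 𝔭.primeCompl_le_nonZeroDivisors
  have hmem : ∀ a ∈ 𝔭, algebraMap A B a ∈ maximalIdeal B := fun a ha => by
    rw [← Localization.AtPrime.map_eq_maximalIdeal]
    exact Ideal.mem_map_of_mem _ ha
  choose n F hn hF hFe hF0 using fun f : s =>
    exists_form hsp ((map_ne_zero_iff _ hinj).mpr (hs f f.2))
  let g : V →+* B := (algebraMap A B).comp MvPowerSeries.C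
  have : IsLocalHom g := isLocalHom_of_map_le (by
    rw [hV.max, Ideal.map_span, Set.image_singleton, Ideal.span_le]
    rintro _ rfl
    have h1 := hmem _ hp
    rwa [map_natCast, ← map_natCast g] at h1)
  obtain ⟨l, hl⟩ := exists_eval_ne_zero g (Finset.univ : Finset (Option s))
    (fun o => o.elim (MvPolynomial.X 0) F) (by
      rintro (_ | f) -
      · simp
      · exact hF0 f)
  have hl0 : IsUnit (g (l 0)) := by simpa using hl none (Finset.mem_univ _)
  let y : Fin d → A := fun j =>
    MvPowerSeries.C (l 0) * w j.succ - MvPowerSeries.C (l j.succ) * (p : MvPowerSeries (Fin D) V)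
  let J : Ideal B := (Ideal.span (Set.range y)).map (algebraMap A B)
  have hJ : ∀ i, g (l 0) * algebraMap A B (w i) - algebraMap A B p * g (l i) ∈ J := by
    refine Fin.cases ?_ fun j => ?_
    · rw [hw0, mul_comm, sub_self]
      exact zero_mem _
    · have h1 : algebraMap A B (y j) ∈ J := Ideal.mem_map_of_mem _ (Ideal.subset_span ⟨j, rfl⟩)
      rw [mul_comm (algebraMap A B p)]
      simp only [y, map_sub, map_mul] at h1
      exact h1
  have hmax : maximalIdeal B ≤ J ⊔ Ideal.span {algebraMap A B p} := by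
    rw [← hsp, Ideal.span_le]
    rintro _ ⟨i, rfl⟩
    rw [SetLike.mem_coe, ← Ideal.unit_mul_mem_iff_mem _ hl0,
      ← sub_add_cancel (_ * _) (algebraMap A B p * g (l i))]
    exact add_mem (Ideal.mem_sup_left (hJ i))
      (Ideal.mem_sup_right (Ideal.mul_mem_right _ _ (Ideal.subset_span rfl)))
  refine ⟨d, y, fun j => sub_mem (𝔭.mul_mem_left _ (hwP _)) (𝔭.mul_mem_left _ hp), hdim, ?_,
    fun f hf => ⟨n ⟨f, hf⟩, constantCoeff_mem hV 𝔭 hp _ _ (hn _), ?_⟩⟩
  · have h1 := dim_le_of_isSop' (HS.isSop_of_le (N := 1)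
      (y := List.ofFn fun i => algebraMap A B (w i)) (fun a ha => by
        obtain ⟨i, rfl⟩ := List.mem_ofFn.mp ha
        exact hmem _ (hwP i)) (by rw [pow_one, HS.ofList_ofFn, hsp]) _)
    rwa [List.length_ofFn] at h1
  have hle : J ⊔ Ideal.span {algebraMap A B p ^ n ⟨f, hf⟩} ≤
      (Ideal.span {f} ⊔ Ideal.span (Set.range y)).map (algebraMap A B) := by
    have h0 : J ≤ (Ideal.span {f} ⊔ Ideal.span (Set.range y)).map (algebraMap A B) :=
      Ideal.map_mono le_sup_right
    refine sup_le h0 (Ideal.span_le.mpr ?_)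
    rintro _ rfl
    have h1 := eval_sub_mem (F ⟨f, hf⟩) J hJ
    rw [eval_mul_of_homog (hF _), eval_mul_of_homog (hF _), hFe] at h1
    rw [SetLike.mem_coe, ← Ideal.mul_unit_mem_iff_mem _ (hl (some ⟨f, hf⟩) (Finset.mem_univ _))]
    refine (Submodule.sub_mem_iff_right _ (Ideal.mul_mem_left _ _ ?_)).mp (h0 h1)
    exact Ideal.mem_map_of_mem _ (Ideal.mem_sup_left (Ideal.subset_span rfl))
  exact ⟨(pow_le_of_max hmax _).trans hle, (Module.length_le_of_surjective (Submodule.factor hle)
    (Submodule.factor_surjective _)).trans (length_le_of_max hmax _)⟩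

theorem le_ann_baseChange {A B : Type*} [CommRing A] [CommRing B] [Algebra A B] {N : Type*}
    [AddCommGroup N] [Module A N] {I : Ideal A} (hk : ∀ r ∈ I, ∀ x : N, r • x = 0) :
    I.map (algebraMap A B) ≤ Module.annihilator B (B ⊗[A] N) := by
  rw [Ideal.map_le_iff_le_comap]
  intro r hr
  rw [Ideal.mem_comap, Module.mem_annihilator]
  intro x
  rw [algebraMap_smul]
  induction x with
  | zero => exact smul_zero _
  | tmul b n => rw [← TensorProduct.tmul_smul, hk r hr, TensorProduct.tmul_zero]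
  | add x y hx hy => rw [smul_add, hx, hy, add_zero]

theorem dim_lt_of_lt {A : Type*} [CommRing A] [IsDomain A] (𝔭 : Ideal A) [𝔭.IsPrime] {d : ℕ}
    (hd : ringKrullDim (Localization.AtPrime 𝔭) ≤ (d + 1 : ℕ)) {g q : Ideal A} (hg : g.IsPrime)
    (hg0 : g ≠ ⊥) (hgq : g < q) (hq : q.IsPrime) :
    ringKrullDim (Localization.AtPrime 𝔭 ⧸ q.map (algebraMap A (Localization.AtPrime 𝔭))) < d := by
  by_cases h : q ≤ 𝔭
  · have dj : ∀ I ≤ 𝔭, Disjoint (𝔭.primeCompl : Set A) (I : Ideal A) := fun I hI =>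
      Set.disjoint_left.mpr fun x hx hx' => hx (hI hx')
    have h1 := IsLocalization.isPrime_of_isPrime_disjoint 𝔭.primeCompl (Localization.AtPrime 𝔭) g
      hg (dj g (hgq.le.trans h))
    have h2 : g.map (algebraMap A (Localization.AtPrime 𝔭)) < q.map (algebraMap A _) := by
      refine lt_of_le_of_ne (Ideal.map_mono hgq.le) fun e => hgq.ne ?_
      rw [← IsLocalization.under_map_of_isPrime_disjoint 𝔭.primeCompl (Localization.AtPrime 𝔭) hg
        (dj g (hgq.le.trans h)), e,
        IsLocalization.under_map_of_isPrime_disjoint 𝔭.primeCompl _ hq (dj q h)]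
    have h3 := afDim_succ_le h2
    have h4 := HS.dim_quot_lt hd (I := g.map (algebraMap A (Localization.AtPrime 𝔭))) (by
      rwa [Ne, Ideal.map_eq_bot_iff_of_injective
        (IsLocalization.injective _ 𝔭.primeCompl_le_nonZeroDivisors)])
    have h5 := h3.trans_lt h4
    generalize ringKrullDim (Localization.AtPrime 𝔭 ⧸
      q.map (algebraMap A (Localization.AtPrime 𝔭))) = e at h5
    induction e using WithBot.recBotCoe with
    | bot => exact WithBot.bot_lt_coe _
    | coe e =>
      induction e using ENat.recTopCoe with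
      | top => exact absurd h5 (not_lt.mpr le_top)
      | coe e =>
        have h6 : e + 1 < d + 1 := by exact_mod_cast h5
        exact_mod_cast (by omega : e < d)
  · obtain ⟨x, hx, hx'⟩ := Set.not_subset.mp h
    have h1 : q.map (algebraMap A (Localization.AtPrime 𝔭)) = ⊤ :=
      Ideal.eq_top_of_isUnit_mem _ (Ideal.mem_map_of_mem _ hx)
        (IsLocalization.map_units _ (⟨x, hx'⟩ : 𝔭.primeCompl))
    have : Subsingleton (Localization.AtPrime 𝔭 ⧸ q.map (algebraMap A (Localization.AtPrime 𝔭))) :=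
      Ideal.Quotient.subsingleton_iff.mpr h1
    rw [ringKrullDim_eq_bot_of_subsingleton]
    exact WithBot.bot_lt_coe _

/-- The abstract comparison along a prime filtration. -/
theorem mult_baseChange_le {A B : Type u} [CommRing A] [IsLocalRing A] [IsNoetherianRing A]
    [CommRing B] [IsLocalRing B] [IsNoetherianRing B] [Algebra A B] [Module.Flat A B]
    {Y : List A} {z : List B} {f : A} (hz1 : ∀ a ∈ z, a ∈ maximalIdeal B) {n : ℕ}
    (hz2 : maximalIdeal B ^ n ≤ (Ideal.span {f}).map (algebraMap A B) ⊔ Ideal.ofList z)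
    (hq : ∀ q : Ideal A, q.IsPrime → f ∈ q → IsSop (A ⧸ q) Y →
      ringKrullDim (B ⧸ q.map (algebraMap A B)) < z.length ∨
      ((Module.length B (B ⧸ (q.map (algebraMap A B) ⊔ Ideal.ofList z))).toNat : ℤ) ≤
        mult (A ⧸ q) Y)
    (M : Type u) [AddCommGroup M] [Module A M] [hM : Module.Finite A M] (hf : ∀ x : M, f • x = 0)
    (hY : IsSop M Y) : IsSop (B ⊗[A] M) z ∧ mult (B ⊗[A] M) z ≤ mult M Y := by
  have sz : ∀ (N : Type u) [AddCommGroup N] [Module A N], (∀ x : N, f • x = 0) →
      IsSop (B ⊗[A] N) z := fun N _ _ h =>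
    isSop_iff_ann.mpr ⟨hz1, n, hz2.trans (sup_le_sup_right (le_ann_baseChange fun r hr x => by
      obtain ⟨c, rfl⟩ := Ideal.mem_span_singleton'.mp hr
      rw [mul_smul, h, smul_zero]) _)⟩
  refine ⟨sz M hf, ?_⟩
  induction hM using IsNoetherianRing.induction_on_isQuotientEquivQuotientPrime A with
  | subsingleton N => rw [mult_of_subsingleton, mult_of_subsingleton]
  | quotient N q e =>
    have hk : ∀ r ∈ q.1, ∀ x : N, r • x = 0 := by
      intro r hr x
      apply e.injective
      obtain ⟨z, hz⟩ := Ideal.Quotient.mk_surjective (e x)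
      rw [map_smul, map_zero, ← hz, Algebra.smul_def, Ideal.Quotient.algebraMap_eq,
        Ideal.Quotient.eq_zero_iff_mem.mpr hr, zero_mul]
    have hfq : f ∈ q.1 := by
      have h1 := congrArg e (hf (e.symm 1))
      rwa [map_smul, e.apply_symm_apply, map_zero, Algebra.smul_def, mul_one,
        Ideal.Quotient.algebraMap_eq, Ideal.Quotient.eq_zero_iff_mem] at h1
    rcases hq q.1 q.2 hfq (hY.of_surjective e.toLinearMap e.surjective) with h | h
    · rw [mult_eq_zero_of_dim_lt (sz _ hf) _
        (fun r hr => Module.mem_annihilator.mp (le_ann_baseChange hk hr)) h]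
      exact mult_nonneg hY
    · have e' : B ⊗[A] N ≃ₗ[B] B ⧸ q.1.map (algebraMap A B) :=
        (LinearEquiv.baseChange A B N _ e).trans
          (Algebra.TensorProduct.quotIdealMapEquivTensorQuot B q.1).symm.toLinearEquiv
      have h1 := mult_le_length ((sz _ hf).of_surjective e'.toLinearMap e'.surjective)
      rw [mult_eq_of_equiv _ e', mult_eq_of_equiv _ e]
      refine h1.trans (le_trans (le_of_eq ?_) h)
      congr 2
      have e1 : (Ideal.ofList z • ⊤ : Submodule B (B ⧸ q.1.map (algebraMap A B))) =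
          Submodule.map (q.1.map (algebraMap A B)).mkQ (Ideal.ofList z) := by
        rw [← Submodule.range_mkQ, ← Submodule.map_top, ← Submodule.map_smul'', smul_eq_mul,
          Ideal.mul_top]
      rw [e1]
      exact (Submodule.quotientQuotientEquivQuotientSup _ _).length_eq
  | exact N₁ N₂ N₃ i g hi hg hfg h₁ h₃ =>
    rw [mult_add_of_exact hY i g hi hg hfg,
      mult_add_of_exact (sz N₂ hf) (i.baseChange B) (g.baseChange B)
        (Module.Flat.lTensor_preserves_injective_linearMap i hi)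
        (LinearMap.lTensor_surjective B hg) (Module.Flat.lTensor_exact B hfg)]
    refine add_le_add (h₁ (fun x => hi ?_) (hY.of_injective i hi))
      (h₃ (fun x => ?_) (hY.of_surjective g hg))
    · rw [map_smul, hf, map_zero]
    · obtain ⟨x, rfl⟩ := hg x
      rw [← map_smul, hf, map_zero]

theorem le_mult_quot {p : ℕ} [Fact p.Prime] {V : Type u} [CommRing V] [IsDomain V]
    [IsDiscreteValuationRing V] (hV : IsCohen p V) {D : ℕ} {g : MvPowerSeries (Fin D) V}
    (hg : g ∈ maximalIdeal (MvPowerSeries (Fin D) V))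
    (hY : IsSop (MvPowerSeries (Fin D) V ⧸ Ideal.span {g})
      (List.ofFn (MvPowerSeries.X : Fin D → MvPowerSeries (Fin D) V))) {n : ℕ}
    (hn : MvPowerSeries.constantCoeff g ∈ Ideal.span {(p : V) ^ n}) :
    (n : ℤ) ≤ mult (MvPowerSeries (Fin D) V ⧸ Ideal.span {g})
      (List.ofFn (MvPowerSeries.X : Fin D → MvPowerSeries (Fin D) V)) := by
  let A := MvPowerSeries (Fin D) V
  have e0 : (g • (⊤ : Submodule A A)) = Ideal.span {g} := by
    rw [← Submodule.ideal_span_singleton_smul, smul_eq_mul, Ideal.mul_top]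
  have e : QuotSMulTop g A ≃ₗ[A] A ⧸ Ideal.span {g} := Submodule.quotEquivOfEq _ _ e0
  have hpm : (p : V) ∈ maximalIdeal V := hV.max ▸ Ideal.subset_span rfl
  have hpm' : MvPowerSeries.C (σ := Fin D) (p : V) ∈ maximalIdeal A := by
    rw [maximalIdeal_mvPowerSeries]
    exact Ideal.mem_sup_left (Ideal.mem_map_of_mem _ hpm)
  have h1 := isWeaklyRegular_X_append (V := V) (List.finRange D) (List.nodup_finRange D)
    (w := [(p : V)]) ((isWeaklyRegular_singleton_iff V _).mpr (IsSMulRegular.of_ne_zero hV.ne_zero))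
  have h2 := isWeaklyRegular_of_isSop h1 (fun a ha => by
      rcases List.mem_append.mp ha with ha | ha
      · obtain ⟨i, -, rfl⟩ := List.mem_map.mp ha
        exact hY.1 _ (List.mem_ofFn.mpr ⟨i, rfl⟩)
      · rw [List.map_singleton, List.mem_singleton] at ha
        exact ha ▸ hpm')
    (isSop_cons_iff.mpr ⟨hg, hY.of_injective e.toLinearMap e.injective⟩) (by simp)
  rw [isWeaklyRegular_cons_iff, e.isWeaklyRegular_congr] at h2
  have h3 := hY.length_ne_top
  rw [mult_eq_length_of_isRegular h2.2]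
  have e1 : (Ideal.ofList (List.ofFn (MvPowerSeries.X : Fin D → A)) • ⊤ :
      Submodule A (A ⧸ Ideal.span {g})) =
      Submodule.map (Ideal.span {g}).mkQ (Ideal.span (Set.range MvPowerSeries.X)) := by
    rw [← Submodule.range_mkQ, ← Submodule.map_top, ← Submodule.map_smul'', smul_eq_mul,
      Ideal.mul_top, HS.ofList_ofFn]
  rw [e1, (Submodule.quotientQuotientEquivQuotientSup _ _).length_eq] at h3 ⊢
  have h4 := mul_length_le_of_pow_dvd (Ideal.span (Set.range (MvPowerSeries.X : Fin D → A)))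
    (θ := MvPowerSeries.C (p : V)) (c := MvPowerSeries.C (p : V) ^ n) (E := n) (fun y hy => by
      rw [← ker_constantCoeff, RingHom.mem_ker] at hy ⊢
      rw [map_mul, map_pow, MvPowerSeries.constantCoeff_C] at hy
      exact (mul_eq_zero.mp hy).resolve_left (pow_ne_zero _ hV.ne_zero)) dvd_rfl
  have h5 : 1 ≤ Module.length A (A ⧸ (Ideal.span (Set.range (MvPowerSeries.X : Fin D → A)) ⊔
      Ideal.span {MvPowerSeries.C (p : V)})) := by
    rw [← length_quot_maximalIdeal A]
    refine Module.length_le_of_surjective (Submodule.factor (sup_le ?_ ?_))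
      (Submodule.factor_surjective _)
    · rw [maximalIdeal_mvPowerSeries]
      exact le_sup_right
    · rwa [Ideal.span_singleton_le_iff_mem]
  have h6 : Ideal.span {g} ⊔ Ideal.span (Set.range (MvPowerSeries.X : Fin D → A)) ≤
      Ideal.span (Set.range (MvPowerSeries.X : Fin D → A)) ⊔
        Ideal.span {MvPowerSeries.C (p : V) ^ n} := by
    refine sup_le ?_ le_sup_left
    obtain ⟨c, hc⟩ := Ideal.mem_span_singleton'.mp hn
    rw [Ideal.span_singleton_le_iff_mem,
      ← sub_add_cancel g (MvPowerSeries.C c * MvPowerSeries.C (p : V) ^ n)]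
    refine add_mem (Ideal.mem_sup_left ?_)
      (Ideal.mem_sup_right (Ideal.mul_mem_left _ _ (Ideal.subset_span rfl)))
    rw [← ker_constantCoeff, RingHom.mem_ker, map_sub, map_mul, map_pow,
      MvPowerSeries.constantCoeff_C, MvPowerSeries.constantCoeff_C, hc, sub_self]
  have h7 := ((le_mul_of_one_le_right' h5).trans h4).trans
    (Module.length_le_of_surjective (Submodule.factor h6) (Submodule.factor_surjective _))
  exact_mod_cast ENat.toNat_le_toNat h7 h3

theorem isSop_restrict {A S : Type*} [CommRing A] [IsLocalRing A] [IsNoetherianRing A]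
    [CommRing S] [IsLocalRing S] [Algebra A S] [IsLocalHom (algebraMap A S)] [Module.Finite A S]
    {Y : List A} (h : IsSop S (Y.map (algebraMap A S))) : IsSop S Y := by
  obtain ⟨h1, N, hN⟩ := h
  have hY : ∀ a ∈ Y, a ∈ maximalIdeal A := fun a ha hu =>
    h1 _ (List.mem_map_of_mem ha) (hu.map _)
  refine isSop_iff_support.mpr ⟨hY, fun q hq hq' => ?_⟩
  have h2 : q ∈ Module.support A (S ⧸ (Ideal.ofList Y • ⊤ : Submodule A S)) := by
    rw [Module.support_quotient]
    exact ⟨hq, (Ideal.span_le.mpr hq' : Ideal.ofList Y ≤ q.asIdeal)⟩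
  rw [Module.mem_support_iff_of_finite] at h2
  refine ((maximalIdeal.isMaximal A).eq_of_le q.2.ne_top ?_).symm
  refine q.2.le_of_pow_le (n := N) (le_trans (fun r hr => ?_) h2)
  have h3 := Ideal.mem_map_of_mem (algebraMap A S) hr
  rw [Ideal.map_pow] at h3
  obtain ⟨a, ha, h4⟩ := hN _ (Ideal.pow_right_mono (map_max_le _) _ h3)
  have h5 := h4 1 trivial
  rw [smul_eq_mul, mul_one, Submodule.mem_bot, sub_eq_zero] at h5
  rw [← h5, ← Ideal.map_ofList] at ha
  rw [Module.mem_annihilator]
  intro x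
  obtain ⟨x, rfl⟩ := Submodule.Quotient.mk_surjective _ x
  rw [← Submodule.Quotient.mk_smul, Submodule.Quotient.mk_eq_zero, Ideal.smul_top_eq_map,
    Algebra.smul_def]
  exact Ideal.mul_mem_right _ _ ha

theorem nat_le_of_dim {d d' D : ℕ} {e : WithBot ℕ∞} (h0 : 0 ≤ e) (h1 : (d' : WithBot ℕ∞) + e ≤ D)
    (h2 : (D : WithBot ℕ∞) ≤ d + e) : d' ≤ d := by
  induction e using WithBot.recBotCoe with
  | bot => simp at h0
  | coe e =>
    induction e using ENat.recTopCoe with
    | top => exact absurd h1 (not_le.mpr (WithBot.coe_lt_coe.mpr (ENat.natCast_lt_top D)))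
    | coe e =>
      have h4 : d' + e ≤ D := by exact_mod_cast h1
      have h5 : D ≤ d + e := by exact_mod_cast h2
      omega

theorem exists_pad {S : Type*} [CommRing S] (S' : Type*) [CommRing S'] [IsLocalRing S']
    [IsNoetherianRing S'] [Algebra S S'] {d d' : ℕ} (hd : d' ≤ d) {m : ℤ} (hm : 0 ≤ m)
    (y : Fin d' → S) (h1 : IsSop S' (List.ofFn fun i => algebraMap S S' (y i)))
    (h2 : mult S' (List.ofFn fun i => algebraMap S S' (y i)) ≤ m) :
    ∃ y' : Fin d → S, IsSop S' (List.ofFn fun i => algebraMap S S' (y' i)) ∧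
      mult S' (List.ofFn fun i => algebraMap S S' (y' i)) ≤ m := by
  induction hd with
  | refl => exact ⟨y, h1, h2⟩
  | step _ ih =>
    obtain ⟨y', h3, -⟩ := ih
    refine ⟨Fin.cons 0 y', ?_⟩
    rw [List.ofFn_succ]
    simp only [Fin.cons_zero, Fin.cons_succ, map_zero]
    rw [mult_cons_of_smul_eq_zero _ (zero_smul S')]
    exact ⟨isSop_cons_iff.mpr ⟨zero_mem _, h3.of_surjective (Submodule.mkQ _)
      (Submodule.mkQ_surjective _)⟩, hm⟩

theorem loc_of_finite {p : ℕ} [Fact p.Prime] {V : Type u} [CommRing V] [IsDomain V]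
    [IsDiscreteValuationRing V] (hV : IsCohen p V) [Infinite (ResidueField V)] {D : ℕ}
    {S : Type u} [CommRing S] [IsNoetherianRing S] [Algebra (MvPowerSeries (Fin D) V) S]
    [Module.Finite (MvPowerSeries (Fin D) V) S]
    (hY : IsSop S (List.ofFn (MvPowerSeries.X : Fin D → MvPowerSeries (Fin D) V)))
    (P : Ideal S) [P.IsPrime] (hp : (p : S) ∈ P) (d : ℕ)
    (hd : (D : WithBot ℕ∞) ≤ d + ringKrullDim (S ⧸ P)) :
    ∃ y' : Fin d → S,
      IsSop (Localization.AtPrime P)
        (List.ofFn fun i => algebraMap S (Localization.AtPrime P) (y' i)) ∧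
      mult (Localization.AtPrime P) (List.ofFn fun i => algebraMap S (Localization.AtPrime P) (y' i))
        ≤ mult S (List.ofFn (MvPowerSeries.X : Fin D → MvPowerSeries (Fin D) V)) := by
  classical
  have := hV.complete
  have := ufd_mvPowerSeries V D
  have : IsDomain (MvPowerSeries (Fin D) V) := NoZeroDivisors.to_isDomain _
  let A := MvPowerSeries (Fin D) V
  obtain ⟨f, hf, hf0⟩ : ∃ f ∈ Module.annihilator A S, f ≠ 0 := by
    refine Submodule.exists_mem_ne_zero_of_ne_bot fun h => ?_
    obtain ⟨-, N, hN⟩ := isSop_iff_ann.mp hY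
    have hpm : MvPowerSeries.C (σ := Fin D) (p : V) ∈ maximalIdeal A := by
      rw [maximalIdeal_mvPowerSeries]
      exact Ideal.mem_sup_left (Ideal.mem_map_of_mem _ (hV.max ▸ Ideal.subset_span rfl))
    have h1 := hN (Ideal.pow_mem_pow hpm N)
    rw [h, bot_sup_eq, HS.ofList_ofFn, ← ker_constantCoeff, RingHom.mem_ker, map_pow,
      MvPowerSeries.constantCoeff_C] at h1
    exact pow_ne_zero _ hV.ne_zero h1
  let 𝔭 : Ideal A := P.comap (algebraMap A S)
  have hdim : ringKrullDim (S ⧸ P) ≤ ringKrullDim (A ⧸ 𝔭) := HS.dim_le_of_integral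
  obtain ⟨d', y, hy1, hy2, hy3, hy4⟩ := exists_generic hV 𝔭 (by
      rw [Ideal.mem_comap, map_natCast]
      exact hp) (insert f (UniqueFactorizationMonoid.factors f).toFinset) (fun g hg => by
      rcases Finset.mem_insert.mp hg with rfl | hg
      · exact hf0
      · exact (UniqueFactorizationMonoid.prime_of_factor g (Multiset.mem_toFinset.mp hg)).ne_zero)
  let B := Localization.AtPrime 𝔭
  let S' := Localization.AtPrime P
  let _ : Algebra B S' := (Localization.localRingHom 𝔭 P (algebraMap A S) rfl).toAlgebra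
  have hmap : ∀ a : A, algebraMap B S' (algebraMap A B a) = algebraMap S S' (algebraMap A S a) :=
    fun a => Localization.localRingHom_to_map 𝔭 P (algebraMap A S) rfl a
  have : IsScalarTower A B S' := IsScalarTower.of_algebraMap_eq fun a => by
    rw [hmap, ← IsScalarTower.algebraMap_apply]
  let z : List B := List.ofFn fun i => algebraMap A B (y i)
  have hz0 : Ideal.ofList z = (Ideal.span (Set.range y)).map (algebraMap A B) := by
    rw [HS.ofList_ofFn, Ideal.map_span, ← Set.range_comp]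
    rfl
  have hz1 : ∀ a ∈ z, a ∈ maximalIdeal B := by
    intro a ha
    obtain ⟨i, rfl⟩ := List.mem_ofFn.mp ha
    rw [← Localization.AtPrime.map_eq_maximalIdeal]
    exact Ideal.mem_map_of_mem _ (hy1 i)
  obtain ⟨n, -, hz2, -⟩ := hy4 f (Finset.mem_insert_self _ _)
  rw [Ideal.map_sup, ← hz0] at hz2
  have e3 : (List.ofFn fun i => algebraMap S S' (algebraMap A S (y i))) =
      z.map (algebraMap B S') := by
    rw [List.map_ofFn]
    exact congrArg List.ofFn (funext fun i => (hmap (y i)).symm)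
  have hsop : IsSop S' (z.map (algebraMap B S')) := by
    obtain ⟨N, hN⟩ := HS.exists_pow_le_map (A := A) P
    refine HS.isSop_of_le (N := N * n) (fun a ha => ?_) ?_ _
    · rw [← e3] at ha
      obtain ⟨i, rfl⟩ := List.mem_ofFn.mp ha
      rw [← Localization.AtPrime.map_eq_maximalIdeal]
      exact Ideal.mem_map_of_mem _ (hy1 i)
    · have h1 : maximalIdeal S' ^ N ≤ (maximalIdeal B).map (algebraMap B S') := by
        refine hN.trans ?_
        rw [Ideal.map_le_iff_le_comap, Ideal.map_le_iff_le_comap]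
        intro a ha
        rw [Ideal.mem_comap, Ideal.mem_comap, ← hmap]
        refine Ideal.mem_map_of_mem _ ?_
        rw [← Localization.AtPrime.map_eq_maximalIdeal]
        exact Ideal.mem_map_of_mem _ ha
      rw [pow_mul]
      refine (Ideal.pow_right_mono h1 n).trans ?_
      rw [← Ideal.map_pow]
      refine (Ideal.map_mono hz2).trans ?_
      rw [Ideal.map_sup, Ideal.map_ofList, Ideal.map_span, Ideal.map_span, Set.image_singleton,
        Set.image_singleton, hmap, Algebra.algebraMap_eq_smul_one f,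
        Module.mem_annihilator.mp hf, map_zero, Ideal.span_singleton_zero, bot_sup_eq]
  obtain ⟨h1, h2⟩ := mult_baseChange_le (Y := List.ofFn MvPowerSeries.X) hz1 hz2
    (fun q hq hfq hqY => by
      obtain ⟨u, hu⟩ := UniqueFactorizationMonoid.factors_prod hf0
      rw [← hu, Ideal.mul_unit_mem_iff_mem _ u.isUnit] at hfq
      obtain ⟨g, hg, hgq⟩ := (hq.multiset_prod_mem_iff_exists_mem _).mp hfq
      have hgp := UniqueFactorizationMonoid.prime_of_factor g hg
      rcases ((Ideal.span_singleton_le_iff_mem q).mpr hgq).eq_or_lt with rfl | hlt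
      · right
        obtain ⟨k, k1, -, k2⟩ := hy4 g (Finset.mem_insert_of_mem (Multiset.mem_toFinset.mpr hg))
        rw [Ideal.map_sup, ← hz0] at k2
        refine le_trans ?_ (le_mult_quot hV hgp.not_isUnit hqY k1)
        exact_mod_cast ENat.toNat_le_of_le_natCast k2
      · left
        rw [List.length_ofFn]
        exact dim_lt_of_lt 𝔭 hy3 ((Ideal.span_singleton_prime hgp.ne_zero).mpr hgp)
          (by rw [Ne, Ideal.span_singleton_eq_bot]; exact hgp.ne_zero) hlt hq)
    S (Module.mem_annihilator.mp hf) hY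
  refine exists_pad S' (nat_le_of_dim ringKrullDim_nonneg_of_nontrivial hy2
    (hd.trans (add_le_add_right hdim _))) (mult_nonneg hY) (fun i => algebraMap A S (y i)) ?_ ?_
  · rwa [e3]
  · rw [e3]
    exact (HS.mult_loc_le (A := A) (S := S) P.primeCompl h1 hsop).trans h2

theorem exists_mult_localization_le_mix (p : ℕ) [Fact p.Prime] {S : Type u} [CommRing S]
    [IsLocalRing S] [IsNoetherianRing S] [IsAdicComplete (maximalIdeal S) S]
    [Infinite (ResidueField S)] {D : ℕ} {y : Fin D → S} (hy : IsReduction y) (P : Ideal S)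
    [hP : P.IsPrime] (hp : (p : S) ∈ P) (d : ℕ)
    (hd : (D : WithBot ℕ∞) ≤ d + ringKrullDim (S ⧸ P)) :
    ∃ y' : Fin d → S,
      IsSop (Localization.AtPrime P)
        (List.ofFn fun i => algebraMap S (Localization.AtPrime P) (y' i)) ∧
      mult (Localization.AtPrime P) (List.ofFn fun i => algebraMap S (Localization.AtPrime P) (y' i))
        ≤ mult S (List.ofFn y) := by
  obtain ⟨V, _, _, _, σ, hV, hσ, hres⟩ := exists_coeffRing p S (le_maximalIdeal hP.ne_top hp)
  have : Infinite (ResidueField V) := Infinite.of_surjective (ResidueField.map σ) fun x => by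
    obtain ⟨x, rfl⟩ := residue_surjective x
    obtain ⟨v, hv⟩ := hres x
    refine ⟨residue V v, ?_⟩
    rw [ResidueField.map_residue, eq_comm, ← sub_eq_zero, ← map_sub, residue_eq_zero_iff]
    exact hv
  obtain ⟨Φ, h1, h2⟩ := exists_evalHom σ y hy.1
  have h3 : IsLocalHom Φ := isLocalHom_of_map_le (by
    rw [maximalIdeal_mvPowerSeries, Ideal.map_sup, Ideal.map_map, h1, Ideal.map_span]
    refine sup_le (map_max_le σ) (Ideal.span_le.mpr ?_)
    rintro _ ⟨_, ⟨i, rfl⟩, rfl⟩
    exact h2 i ▸ hy.1 i)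
  have h4 : ∀ b : S, ∃ a, b - Φ a ∈ maximalIdeal S := fun b => by
    obtain ⟨v, hv⟩ := hres b
    exact ⟨MvPowerSeries.C v, by rwa [← h1] at hv⟩
  have := hV.complete
  have := isAdicComplete_mvPowerSeries (σ := Fin D) (V := V)
  obtain ⟨r, hr⟩ := hy.pow_le
  have h5 : Φ.Finite := finite_of_complete Φ h4 (N := 1 + r) ((hr 1).trans (by
    rw [pow_one, Ideal.span_le]
    rintro _ ⟨i, rfl⟩
    rw [← h2]
    refine Ideal.mem_map_of_mem _ ?_
    rw [maximalIdeal_mvPowerSeries]
    exact Ideal.mem_sup_right (Ideal.subset_span ⟨i, rfl⟩)))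
  let _ : Algebra (MvPowerSeries (Fin D) V) S := Φ.toAlgebra
  have : Module.Finite (MvPowerSeries (Fin D) V) S := h5
  have : IsLocalHom (algebraMap (MvPowerSeries (Fin D) V) S) := h3
  have e1 : (List.ofFn (MvPowerSeries.X : Fin D → MvPowerSeries (Fin D) V)).map
      (algebraMap (MvPowerSeries (Fin D) V) S) = List.ofFn y := by
    rw [List.map_ofFn]
    exact congrArg List.ofFn (funext h2)
  rw [← e1, ← HS.mult_restrict (A := MvPowerSeries (Fin D) V) h4 S]
  exact loc_of_finite hV (isSop_restrict (e1 ▸ hy.isSop)) P hp d hd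

end Vale.Agent.P202.LM
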