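import Vale.Agent.P202.Level

/-! Module D1: the filtration `P` built from a cover with a Briancon-Skoda property. -/

namespace Vale.Agent.P202

open Submodule TensorProduct

universe u

section Csh

variable {C H : Type u} [CommRing C] [CommRing H] [Algebra C H]

/-- `J C[w]`. -/
noncomputable def shCs (w : H) (J : Ideal C) : Submodule C H :=
  Submodule.map (Polynomial.aeval w).toLinearMap
    ((J.map (Polynomial.C : C →+* Polynomial C)).restrictScalars C)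

theorem sh_mem {w : H} {J : Ideal C} {y : H} : y ∈ shCs w J ↔
    ∃ F ∈ J.map (Polynomial.C : C →+* Polynomial C), Polynomial.aeval w F = y := Iff.rfl

theorem sh_mono (w : H) {J J' : Ideal C} (h : J ≤ J') : shCs w J ≤ shCs w J' := by
  rintro _ ⟨F, hF, rfl⟩
  exact ⟨F, Ideal.map_mono h hF, rfl⟩

theorem sh_mul {w : H} {J J' : Ideal C} {y y' : H} (hy : y ∈ shCs w J) (hy' : y' ∈ shCs w J') :
    y * y' ∈ shCs w (J * J') := by
  obtain ⟨F, hF, rfl⟩ := sh_mem.1 hy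
  obtain ⟨F', hF', rfl⟩ := sh_mem.1 hy'
  exact sh_mem.2 ⟨F * F', by rw [Ideal.map_mul]; exact Ideal.mul_mem_mul hF hF', map_mul _ _ _⟩

theorem sh_alg (w : H) {J : Ideal C} {u : C} (hu : u ∈ J) : algebraMap C H u ∈ shCs w J :=
  sh_mem.2 ⟨Polynomial.C u, Ideal.mem_map_of_mem _ hu, Polynomial.aeval_C _ _⟩

theorem sh_pow (w : H) {J : Ideal C} {u : C} (hu : u ∈ J) (k : ℕ) :
    algebraMap C H u * w ^ k ∈ shCs w J :=
  sh_mem.2 ⟨Polynomial.C u * Polynomial.X ^ k,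
    Ideal.mul_mem_right _ _ (Ideal.mem_map_of_mem _ hu), by simp⟩

theorem sh_divX {J : Ideal C} {F : Polynomial C}
    (hF : F ∈ J.map (Polynomial.C : C →+* Polynomial C)) :
    F.coeff 0 ∈ J ∧ F.divX ∈ J.map (Polynomial.C : C →+* Polynomial C) := by
  rw [Ideal.mem_map_C_iff] at hF
  refine ⟨hF 0, Ideal.mem_map_C_iff.2 fun k => ?_⟩
  rw [Polynomial.coeff_divX]
  exact hF _

theorem sh_horner (w : H) (F : Polynomial C) :
    Polynomial.aeval w F = algebraMap C H (F.coeff 0) + w * Polynomial.aeval w F.divX := by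
  conv_lhs => rw [← Polynomial.X_mul_divX_add F]
  rw [map_add, map_mul, Polynomial.aeval_X, Polynomial.aeval_C, add_comm]

theorem sh_decomp {w : H} {J : Ideal C} {y : H} (hy : y ∈ shCs w J) :
    ∃ u ∈ J, ∃ y₁ ∈ shCs w J, y = algebraMap C H u + w * y₁ := by
  obtain ⟨F, hF, rfl⟩ := sh_mem.1 hy
  exact ⟨_, (sh_divX hF).1, _, sh_mem.2 ⟨_, (sh_divX hF).2, rfl⟩, sh_horner w F⟩

theorem sh_denom {w : H} {γ π : C} (hw : algebraMap C H γ * w = algebraMap C H π)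
    (F : Polynomial C) : ∃ (s : ℕ) (a : C),
      algebraMap C H γ ^ s * Polynomial.aeval w F = algebraMap C H a := by
  induction F using Polynomial.induction_on' with
  | add F G hF hG =>
    obtain ⟨s, a, h1⟩ := hF
    obtain ⟨t, b, h2⟩ := hG
    refine ⟨s + t, γ ^ t * a + γ ^ s * b, ?_⟩
    rw [map_add, map_add, map_mul, map_mul, map_pow, map_pow, ← h1, ← h2]
    ring
  | monomial k a =>
    refine ⟨k, a * π ^ k, ?_⟩
    rw [Polynomial.aeval_monomial, map_mul, map_pow, ← hw]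
    ring

theorem sh_reg {π c : C} (hc : ∀ y : C, c * y = 0 → y = 0)
    (hpc : ∀ y : C, π * y ∈ Ideal.span {c} → y ∈ Ideal.span {c}) (s : ℕ) :
    ∀ y : C, c ^ s ∣ π * y → c ^ s ∣ y := by
  induction s with
  | zero => intro y _; simp
  | succ s ih =>
    rintro y ⟨t, ht⟩
    have h1 : π * y ∈ Ideal.span {c} := Ideal.mem_span_singleton.2 ⟨c ^ s * t, by rw [ht]; ring⟩
    obtain ⟨y', rfl⟩ := Ideal.mem_span_singleton.1 (hpc y h1)
    have h2 : π * y' - c ^ s * t = 0 := hc _ (by linear_combination ht)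
    obtain ⟨t', rfl⟩ := ih y' ⟨t, by linear_combination h2⟩
    exact ⟨t', by ring⟩

theorem sh_reg_pow {π c : C} (hc : ∀ y : C, c * y = 0 → y = 0)
    (hpc : ∀ y : C, π * y ∈ Ideal.span {c} → y ∈ Ideal.span {c}) (s m : ℕ) :
    ∀ y : C, c ^ s ∣ π ^ m * y → c ^ s ∣ y := by
  induction m with
  | zero => intro y hy; simpa using hy
  | succ m ih =>
    intro y hy
    refine ih y (sh_reg hc hpc s _ ?_)
    rwa [← mul_assoc, ← pow_succ']

/-- (S3) -/
theorem sh_S3 (hinj : Function.Injective (algebraMap C H)) {w : H} {γ π c : C} {m E : ℕ}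
    (hw : algebraMap C H γ * w = algebraMap C H (π ^ m)) (hγ : γ ^ E = c) (hE : 0 < E)
    (hu : IsUnit (algebraMap C H c)) (hc : ∀ y : C, c * y = 0 → y = 0)
    (hpc : ∀ y : C, π * y ∈ Ideal.span {c} → y ∈ Ideal.span {c}) (F : Polynomial C) {b : C}
    (hb : algebraMap C H (π ^ m) * Polynomial.aeval w F = algebraMap C H b) :
    ∃ u : C, Polynomial.aeval w F = algebraMap C H u := by
  obtain ⟨s, a, ha⟩ := sh_denom hw F
  obtain ⟨E, rfl⟩ := Nat.exists_eq_add_of_le' hE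
  have h1 : algebraMap C H c ^ s * Polynomial.aeval w F = algebraMap C H ((γ ^ E) ^ s * a) := by
    rw [← hγ, map_mul, ← ha]
    simp only [map_pow]
    ring
  have h2 : π ^ m * ((γ ^ E) ^ s * a) = c ^ s * b := by
    apply hinj
    rw [map_mul, ← h1, map_mul, ← hb, map_pow _ c]
    ring
  obtain ⟨u, hu'⟩ := sh_reg_pow hc hpc s m _ ⟨b, h2⟩
  refine ⟨u, (hu.pow s).mul_left_cancel ?_⟩
  rw [h1, hu', map_mul, map_pow]

/-- (S4) -/
theorem sh_S4 (hinj : Function.Injective (algebraMap C H)) {w : H} {γ π c : C} {m E : ℕ}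
    (hw : algebraMap C H γ * w = algebraMap C H (π ^ m)) (hγ : γ ^ E = c) (hE : 0 < E)
    (hu : IsUnit (algebraMap C H c)) (hc : ∀ y : C, c * y = 0 → y = 0)
    (hpc : ∀ y : C, π * y ∈ Ideal.span {c} → y ∈ Ideal.span {c}) {J : Ideal C}
    (hcol : ∀ y : C, c * y ∈ Ideal.span {π ^ m} * J → y ∈ J) {u : C}
    (h : algebraMap C H u ∈ shCs w J) : u ∈ J := by
  obtain ⟨F, hF, hFu⟩ := sh_mem.1 h
  have key : ∀ N : ℕ, ∀ F ∈ J.map (Polynomial.C : C →+* Polynomial C), F.natDegree ≤ N →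
      ∀ u : C, Polynomial.aeval w F = algebraMap C H u → u ∈ J := by
    intro N
    induction N with
    | zero =>
      intro F hF hN u hu
      rw [Polynomial.eq_C_of_natDegree_eq_zero (Nat.le_zero.1 hN), Polynomial.aeval_C] at hu
      exact hinj hu ▸ (sh_divX hF).1
    | succ N ih =>
      intro F hF hN u hFu
      have h1 : algebraMap C H (π ^ m) * Polynomial.aeval w F.divX =
          algebraMap C H (γ * (u - F.coeff 0)) := by
        rw [map_mul, map_sub, ← hFu, sh_horner w F, ← hw]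
        ring
      obtain ⟨u₁, hu₁⟩ := sh_S3 hinj hw hγ hE hu hc hpc _ h1
      have h2 : u₁ ∈ J := ih _ (sh_divX hF).2
        (by rw [Polynomial.natDegree_divX_eq_natDegree_tsub_one]; omega) _ hu₁
      have h3 : π ^ m * u₁ = γ * (u - F.coeff 0) := by
        apply hinj
        rw [← h1, hu₁, map_mul]
      obtain ⟨E, rfl⟩ := Nat.exists_eq_add_of_le' hE
      have h4 : u - F.coeff 0 ∈ J := by
        refine hcol _ (Ideal.mem_span_singleton_mul.2 ⟨γ ^ E * u₁, J.mul_mem_left _ h2, ?_⟩)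
        rw [← hγ]
        linear_combination γ ^ E * h3
      simpa using J.add_mem h4 (sh_divX hF).1
  exact key _ F hF le_rfl u hFu

end Csh

theorem sh_psi {T₀ T H : Type u} [CommRing T₀] [CommRing T] [CommRing H] [Algebra T₀ T]
    [Algebra T₀ H] (hinj : Function.Injective (algebraMap T₀ T)) {c : T₀}
    (hcond : ∀ r : T, ∃ z : T₀, algebraMap T₀ T z = algebraMap T₀ T c * r)
    (hu : IsUnit (algebraMap T₀ H c)) : ∃ ψ : T →+* H, ∀ (r : T) (z : T₀),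
      algebraMap T₀ T z = algebraMap T₀ T c * r →
        algebraMap T₀ H c * ψ r = algebraMap T₀ H z := by
  choose z hz using hcond
  obtain ⟨d, hd⟩ := hu.exists_right_inv
  have h1 : z 1 = c := hinj (by rw [hz, mul_one])
  have h2 : ∀ r s, z r * z s = c * z (r * s) := fun r s =>
    hinj (by rw [map_mul, map_mul, hz, hz, hz]; ring)
  have h3 : ∀ r s, z (r + s) = z r + z s := fun r s =>
    hinj (by rw [map_add, hz, hz, hz]; ring)
  have h4 : z 0 = 0 := hinj (by rw [hz, mul_zero, map_zero])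
  refine ⟨⟨⟨⟨fun r => algebraMap T₀ H (z r) * d, ?_⟩, fun r s => ?_⟩, ?_, fun r s => ?_⟩,
    fun r z' hz' => ?_⟩
  · rw [h1, hd]
  · have h5 := congrArg (algebraMap T₀ H) (h2 r s)
    rw [map_mul, map_mul] at h5
    linear_combination (-d ^ 2) * h5 - (algebraMap T₀ H (z (r * s)) * d) * hd
  · simp [h4]
  · simp only [h3, map_add, add_mul]
  · have h5 : z r = z' := hinj (by rw [hz, hz'])
    change algebraMap T₀ H c * (algebraMap T₀ H (z r) * d) = _
    rw [h5]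
    linear_combination (algebraMap T₀ H z') * hd

section Filt

variable {T C H : Type u} [CommRing T] [CommRing C] [CommRing H] [Algebra C H]

/-- The filtration `∑_a ψ(𝔪 ^ a) I ^ (j - a q') C[w]`. -/
noncomputable def shP (ψ : T →+* H) (𝔪 : Ideal T) (I : Ideal C) (w : H) (q' : ℕ) (j : ℤ) :
    Submodule C H :=
  Submodule.span C {y | ∃ a : ℕ, ∃ g ∈ 𝔪 ^ a, ∃ y' ∈ shCs w (I ^ (j - a * q').toNat),
    y = ψ g * y'}

variable {ψ : T →+* H} {𝔪 : Ideal T} {I : Ideal C} {w : H} {q' : ℕ}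

theorem shP_map {j : ℤ} (φ : H →ₗ[C] H) {Q : Submodule C H}
    (h : ∀ a : ℕ, ∀ g ∈ 𝔪 ^ a, ∀ y' ∈ shCs w (I ^ (j - a * q').toNat), φ (ψ g * y') ∈ Q) :
    ∀ y ∈ shP ψ 𝔪 I w q' j, φ y ∈ Q := by
  have h1 : shP ψ 𝔪 I w q' j ≤ Q.comap φ := by
    refine Submodule.span_le.2 ?_
    rintro _ ⟨a, g, hg, y', hy', rfl⟩
    exact h a g hg y' hy'
  exact fun y hy => h1 hy

theorem shP_gen {j : ℤ} {a : ℕ} {g : T} (hg : g ∈ 𝔪 ^ a) {y' : H}
    (hy' : y' ∈ shCs w (I ^ (j - a * q').toNat)) : ψ g * y' ∈ shP ψ 𝔪 I w q' j :=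
  Submodule.subset_span ⟨a, g, hg, y', hy', rfl⟩

theorem shP_le {j : ℤ} {y : H} (hy : y ∈ shCs w (I ^ j.toNat)) : y ∈ shP ψ 𝔪 I w q' j := by
  have h1 := shP_gen (ψ := ψ) (𝔪 := 𝔪) (I := I) (w := w) (q' := q') (j := j) (a := 0) (g := 1)
    (by simp) (y' := y) (by simpa using hy)
  simpa using h1

theorem shP_stab (r : T) (k : ℤ) : ∀ y ∈ shP ψ 𝔪 I w q' k, ψ r * y ∈ shP ψ 𝔪 I w q' k :=
  shP_map (LinearMap.mulLeft C (ψ r)) fun a g hg y' hy' => by
    rw [LinearMap.mulLeft_apply, ← mul_assoc, ← map_mul]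
    exact shP_gen (Ideal.mul_mem_left _ _ hg) hy'

theorem shP_raise {r : T} (hr : r ∈ 𝔪) (k : ℤ) :
    ∀ y ∈ shP ψ 𝔪 I w q' k, ψ r * y ∈ shP ψ 𝔪 I w q' (k + q') :=
  shP_map (LinearMap.mulLeft C (ψ r)) fun a g hg y' hy' => by
    rw [LinearMap.mulLeft_apply, ← mul_assoc, ← map_mul]
    refine shP_gen (a := a + 1) (by rw [pow_succ']; exact Ideal.mul_mem_mul hr hg) ?_
    have h1 : k + q' - ((a + 1 : ℕ) : ℤ) * q' = k - a * q' := by push_cast; ring
    rwa [h1]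

theorem shP_gr {u : C} (hu : u ∈ I) (k : ℤ) :
    ∀ y ∈ shP ψ 𝔪 I w q' k, algebraMap C H u * y ∈ shP ψ 𝔪 I w q' (k + 1) :=
  shP_map (LinearMap.mulLeft C (algebraMap C H u)) fun a g hg y' hy' => by
    rw [LinearMap.mulLeft_apply, mul_left_comm]
    refine shP_gen hg (sh_mono w ?_ (sh_mul (sh_alg w hu) hy'))
    rw [← pow_succ']
    exact Ideal.pow_le_pow_right (by omega)

theorem shP_anti : Antitone (shP ψ 𝔪 I w q') := fun j k hjk =>
  shP_map LinearMap.id fun a g hg y' hy' =>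
    shP_gen hg (sh_mono w (Ideal.pow_le_pow_right (by omega)) hy')

theorem shP_theta {θ : C}
    (h : ∀ a : ℕ, ∀ g ∈ 𝔪 ^ a, algebraMap C H θ * ψ g ∈ shCs w (I ^ (a * q'))) (j : ℤ) :
    ∀ y ∈ shP ψ 𝔪 I w q' j, θ • y ∈ shCs w (I ^ j.toNat) :=
  shP_map (LinearMap.lsmul C H θ) fun a g hg y' hy' => by
    rw [LinearMap.lsmul_apply, Algebra.smul_def, ← mul_assoc]
    refine sh_mono w ?_ (sh_mul (h a g hg) hy')
    rw [← pow_add]
    refine Ideal.pow_le_pow_right ?_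
    have h1 : ((a * q' : ℕ) : ℤ) = a * q' := by push_cast; ring
    omega

theorem sh_red {d : ℕ} {x : Fin d → T} {θ : H} {J : Ideal C} {K : Ideal T}
    (hx : ∀ j, ψ (x j) ∈ shCs w J) (a : ℕ) {J₀ : Ideal C}
    (h0 : ∀ g ∈ K, θ * ψ g ∈ shCs w J₀) :
    ∀ g ∈ Ideal.span (Set.range x) ^ a * K, θ * ψ g ∈ shCs w (J ^ a * J₀) := by
  induction a with
  | zero => simpa using h0
  | succ a ih =>
    intro g hg
    rw [pow_succ', mul_assoc] at hg
    rw [pow_succ', mul_assoc]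
    refine Submodule.mul_induction_on hg (fun s hs => ?_) fun y z hy hz => ?_
    · refine Submodule.span_induction (p := fun s _ => ∀ k ∈ Ideal.span (Set.range x) ^ a * K,
        θ * ψ (s * k) ∈ shCs w (J * (J ^ a * J₀))) ?_ ?_ ?_ ?_ hs
      · rintro _ ⟨j, rfl⟩ k hk
        rw [map_mul, mul_left_comm θ]
        exact sh_mul (hx j) (ih k hk)
      · intro k _
        simp
      · intro s t _ _ hs ht k hk
        rw [add_mul, map_add, mul_add]
        exact Submodule.add_mem _ (hs k hk) (ht k hk)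
      · intro t s _ hs k hk
        rw [smul_eq_mul, mul_comm t s, mul_assoc]
        exact hs _ (Ideal.mul_mem_left _ _ hk)
    · rw [map_add, mul_add]
      exact Submodule.add_mem _ hy hz

end Filt

theorem sh_len {T₀ T C H : Type u} [CommRing T₀] [CommRing T] [CommRing C] [CommRing H]
    [Algebra T₀ T] [Algebra T₀ C] [Algebra C H] [Algebra T₀ H] [IsScalarTower T₀ C H]
    (ψ : T →+* H) (hψ : ∀ b, ψ (algebraMap T₀ T b) = algebraMap T₀ H b) (𝔞 : Ideal T)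
    {A Q : Submodule C H} (hQ : ∀ r ∈ 𝔞, ψ r ∈ Q)
    (hA : ∀ y ∈ A, ∃ u : C, y - algebraMap C H u ∈ Q) :
    rl A Q ≤ Module.length C (C ⊗[T₀] (T ⧸ 𝔞)) := by
  let ψ' : T →ₐ[T₀] H := ⟨ψ, hψ⟩
  let g₀ : T →ₗ[T₀] H ⧸ Q := (Q.mkQ.restrictScalars T₀) ∘ₗ ψ'.toLinearMap
  let mk : T →ₗ[T₀] T ⧸ 𝔞 := (Ideal.Quotient.mkₐ T₀ 𝔞).toLinearMap
  have hs : Function.Surjective mk := Ideal.Quotient.mk_surjective
  have hk : LinearMap.ker mk ≤ LinearMap.ker g₀ := fun r hr =>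
    (Submodule.Quotient.mk_eq_zero Q).2 (hQ r (Ideal.Quotient.eq_zero_iff_mem.1 hr))
  let g : (T ⧸ 𝔞) →ₗ[T₀] H ⧸ Q :=
    (LinearMap.ker mk).liftQ g₀ hk ∘ₗ (mk.quotKerEquivOfSurjective hs).symm.toLinearMap
  have hg : g (mk 1) = Q.mkQ 1 := by
    have h1 : (mk.quotKerEquivOfSurjective hs).symm (mk 1) = Submodule.Quotient.mk 1 := by
      rw [LinearEquiv.symm_apply_eq]
      rfl
    change (LinearMap.ker mk).liftQ g₀ hk ((mk.quotKerEquivOfSurjective hs).symm (mk 1)) = _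
    rw [h1, Submodule.liftQ_apply]
    change Q.mkQ (ψ 1) = _
    rw [map_one]
  let Φ : C ⊗[T₀] (T ⧸ 𝔞) →ₗ[C] H ⧸ Q := LinearMap.liftBaseChange C g
  have h2 : A.map Q.mkQ ≤ LinearMap.range Φ := by
    rintro _ ⟨y, hy, rfl⟩
    obtain ⟨u, hu⟩ := hA y hy
    refine ⟨u ⊗ₜ mk 1, ?_⟩
    rw [LinearMap.liftBaseChange_tmul, hg, ← map_smul, ← Algebra.algebraMap_eq_smul_one]
    exact ((Submodule.Quotient.eq Q).2 hu).symm
  exact (length_sub_mono h2).trans
    (Module.length_le_of_surjective Φ.rangeRestrict Φ.surjective_rangeRestrict)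

theorem exists_sharp {T₀ T C : Type u} [CommRing T₀] [CommRing T] [CommRing C] [Algebra T₀ T]
    [Algebra T₀ C] (p : ℕ) (𝔪 : Ideal T) {n : ℕ} (x : Fin (n + 1) → T₀) (ξ : Fin (n + 1) → C)
    {c₁ : T₀} {μ r₀ q q' N₀ m E L b : ℕ} {γ θ₀ : C}
    (hinj : Function.Injective (algebraMap T₀ T))
    (hcond : ∀ r : T, ∃ z : T₀, algebraMap T₀ T z = algebraMap T₀ T ((p : T₀) ^ μ * c₁) * r)
    (hred : ∀ a : ℕ, 𝔪 ^ (a + r₀) ≤
      Ideal.span (Set.range fun j => algebraMap T₀ T (x j)) ^ a * 𝔪 ^ r₀)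
    (hq : q' ≤ q) (hroot : ∀ j, ξ j ^ q = algebraMap T₀ C (x j))
    (hγ : γ ^ E = algebraMap T₀ C c₁) (hE : 0 < E) (hθ : γ ∣ θ₀)
    (hp : ∀ y : C, p * y = 0 → y = 0) (hc : ∀ y : C, algebraMap T₀ C c₁ * y = 0 → y = 0)
    (hpc : ∀ y : C, p * y ∈ Ideal.span {algebraMap T₀ C c₁} → y ∈ Ideal.span {algebraMap T₀ C c₁})
    (hqr : QuasiReg ξ) (hreg : RegAny fun j => ξ j ^ (q * N₀)) (hN : 0 < q * N₀)
    (hpI : (p : C) ∈ Ideal.span (Set.range ξ) ^ q')
    (hpm : (p : C) ^ m ∈ Ideal.span (Set.range fun j => ξ j ^ (q * N₀)))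
    (hcol : ∀ (a : ℕ) (y : C), algebraMap T₀ C c₁ * y ∈ Ideal.span (Set.range ξ) ^ (a + b) →
      y ∈ Ideal.span (Set.range ξ) ^ a)
    (hb : b ≤ m * q') (hL : μ + m * E + r₀ ≤ L)
    (hBS : ∀ a ≤ r₀, ∀ g ∈ 𝔪 ^ a, ∀ z : T₀,
      algebraMap T₀ T z = algebraMap T₀ T ((p : T₀) ^ μ * c₁) * g →
      θ₀ * algebraMap T₀ C z ∈ Ideal.span {algebraMap T₀ C ((p : T₀) ^ μ * c₁)} *
        Ideal.span (Set.range ξ) ^ (a * q') ⊔ Ideal.span {(p : C) ^ L}) :
    ∃ (H : Type u) (_ : CommRing H) (_ : Algebra C H) (ψ : T →+* H) (P : ℤ → Submodule C H),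
      IsLevel ψ 𝔪 (fun j => algebraMap T₀ T (x j)) ξ P (θ₀ ^ 2) ((p : C) ^ m) q q' N₀ ∧
      ∀ 𝔞 : Ideal T, (p : T) ^ m ∈ 𝔞 →
        rl ((P 0).map (LinearMap.lsmul C H (θ₀ ^ 2))) (idealMul ψ 𝔞 (P 0)) ≤
          Module.length C (C ⊗[T₀] (T ⧸ 𝔞)) := by
  obtain ⟨H, _, _, _, _, hf, hup, huc⟩ : ∃ (H : Type u) (_ : CommRing H) (_ : Algebra C H)
      (_ : Algebra T₀ H) (_ : IsScalarTower T₀ C H), Function.Injective (algebraMap C H) ∧
      IsUnit (algebraMap C H p) ∧ IsUnit (algebraMap C H (algebraMap T₀ C c₁)) := by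
    let H := Localization.Away ((p : C) * algebraMap T₀ C c₁)
    have hnz : (p : C) * algebraMap T₀ C c₁ ∈ nonZeroDivisors C :=
      mem_nonZeroDivisors_iff_left.2 fun y hy => hc y (hp _ (by rw [← mul_assoc]; exact hy))
    have hu0 : IsUnit (algebraMap C H ((p : C) * algebraMap T₀ C c₁)) :=
      IsLocalization.Away.algebraMap_isUnit _
    rw [map_mul, IsUnit.mul_iff] at hu0
    exact ⟨H, inferInstance, inferInstance, inferInstance, inferInstance,
      IsLocalization.injective H (Submonoid.powers_le.2 hnz), hu0.1, hu0.2⟩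
  have htow : ∀ b : T₀, algebraMap T₀ H b = algebraMap C H (algebraMap T₀ C b) :=
    IsScalarTower.algebraMap_apply T₀ C H
  have hcH : algebraMap T₀ H ((p : T₀) ^ μ * c₁) =
      algebraMap C H p ^ μ * algebraMap C H γ ^ E := by
    rw [htow, map_mul, map_pow, map_natCast, ← hγ, map_mul, map_pow, map_pow]
  have huγ : IsUnit (algebraMap C H γ) := by
    rw [← hγ, map_pow] at huc
    exact (isUnit_pow_iff hE.ne').1 huc
  have hucc : IsUnit (algebraMap T₀ H ((p : T₀) ^ μ * c₁)) := by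
    rw [hcH]
    exact (hup.pow μ).mul (huγ.pow E)
  obtain ⟨ψ, hψ⟩ := sh_psi hinj hcond hucc
  have hψa : ∀ b, ψ (algebraMap T₀ T b) = algebraMap T₀ H b := fun b =>
    hucc.mul_left_cancel (by rw [hψ _ ((p : T₀) ^ μ * c₁ * b) (map_mul _ _ _), map_mul])
  obtain ⟨δ, hδ⟩ := huγ.exists_right_inv
  obtain ⟨w, hw⟩ : ∃ w : H, algebraMap C H γ * w = algebraMap C H ((p : C) ^ m) :=
    ⟨δ * algebraMap C H ((p : C) ^ m), by rw [← mul_assoc, hδ, one_mul]⟩
  set I : Ideal C := Ideal.span (Set.range ξ) with hI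
  have hsmall : ∀ a ≤ r₀, ∀ g ∈ 𝔪 ^ a, algebraMap C H θ₀ * ψ g ∈ shCs w (I ^ (a * q')) := by
    intro a ha g hg
    obtain ⟨z, hz⟩ := hcond g
    obtain ⟨s, hs, t, ht, hst⟩ := Submodule.mem_sup.1 (hBS a ha g hg z hz)
    obtain ⟨u, hu, rfl⟩ := Ideal.mem_span_singleton_mul.1 hs
    obtain ⟨v, rfl⟩ := Ideal.mem_span_singleton'.1 ht
    obtain ⟨e, rfl⟩ := Nat.exists_eq_add_of_le hL
    have h1 : v * (p : C) ^ e * (p : C) ^ r₀ ∈ I ^ (a * q') := by
      refine Ideal.mul_mem_left _ _ (Ideal.pow_le_pow_right (Nat.mul_le_mul_right q' ha) ?_)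
      rw [mul_comm, pow_mul]
      exact Ideal.pow_mem_pow hpI r₀
    have h2 : algebraMap C H θ₀ * ψ g =
        algebraMap C H u + algebraMap C H (v * (p : C) ^ e * (p : C) ^ r₀) * w ^ E := by
      refine hucc.mul_left_cancel ?_
      have h3 := congrArg (algebraMap C H) hst
      rw [map_add, map_mul _ _ u, map_mul _ v, map_mul _ θ₀, ← htow, ← htow, ← hψ g z hz,
        map_pow] at h3
      have h4 : (algebraMap C H γ * w) ^ E = algebraMap C H (p : C) ^ (m * E) := by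
        rw [hw, map_pow, pow_mul]
      rw [mul_add, map_mul _ (v * (p : C) ^ e), map_mul _ v, map_pow, map_pow]
      nth_rewrite 3 [hcH]
      linear_combination -h3 - (algebraMap C H (p : C) ^ μ * algebraMap C H v *
        algebraMap C H (p : C) ^ e * algebraMap C H (p : C) ^ r₀) * h4
    rw [h2]
    exact Submodule.add_mem _ (sh_alg w hu) (sh_pow w h1 E)
  have hrt : ∀ j, algebraMap C H (ξ j ^ q) = ψ (algebraMap T₀ T (x j)) := fun j => by
    rw [hψa, htow, hroot]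
  have hS1 : ∀ a : ℕ, ∀ g ∈ 𝔪 ^ a, algebraMap C H θ₀ * ψ g ∈ shCs w (I ^ (a * q')) := by
    intro a g hg
    rcases le_total a r₀ with ha | ha
    · exact hsmall a ha g hg
    · obtain ⟨a, rfl⟩ := Nat.exists_eq_add_of_le' ha
      have h1 := sh_red (ψ := ψ) (w := w) (x := fun j => algebraMap T₀ T (x j)) (J := I ^ q')
        (fun j => by
          rw [← hrt]
          exact sh_alg w (Ideal.pow_le_pow_right hq
            (Ideal.pow_mem_pow (Ideal.subset_span (Set.mem_range_self j)) q))) a (hsmall r₀ le_rfl) g (hred a hg)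
      rwa [← pow_mul, ← pow_add, mul_comm q' a, ← add_mul] at h1
  have hS4 : ∀ (j : ℤ) (u : C), algebraMap C H u ∈ shCs w (I ^ j.toNat) → u ∈ I ^ j.toNat := by
    intro j u hu
    refine sh_S4 hf hw hγ hE huc hc hpc (fun y hy => hcol _ y ?_) hu
    have h1 : Ideal.span {(p : C) ^ m} ≤ I ^ b := by
      rw [Ideal.span_singleton_le_iff_mem]
      refine Ideal.pow_le_pow_right hb ?_
      rw [mul_comm, pow_mul]
      exact Ideal.pow_mem_pow hpI m
    rw [add_comm, pow_add]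
    exact Ideal.mul_mono_left h1 hy
  obtain ⟨γ', hγ'⟩ := hθ
  have hp1 : ∀ j, ∀ y ∈ shP ψ 𝔪 I w q' j, ∃ z ∈ shP ψ 𝔪 I w q' j,
      θ₀ ^ 2 • y - (p : C) ^ m • z ∈ cF H ξ j := by
    intro j y hy
    obtain ⟨u, hu, y₁, hy₁, h1⟩ := sh_decomp (shP_theta hS1 j y hy)
    refine ⟨γ' • y₁, Submodule.smul_mem _ _ (shP_le hy₁),
      mem_cF.2 ⟨θ₀ * u, Ideal.mul_mem_left _ _ hu, ?_⟩⟩
    rw [pow_two, mul_smul, h1, Algebra.smul_def, Algebra.smul_def, Algebra.smul_def, ← hw,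
      map_mul, hγ', map_mul]
    ring
  have hfin : ∀ j, ∀ y ∈ shP ψ 𝔪 I w q' j, ∀ u : C, θ₀ • y = algebraMap C H u →
      θ₀ ^ 2 • y ∈ cF H ξ j := by
    intro j y hy u hu
    have h1 := hS4 j u (hu ▸ shP_theta hS1 j y hy)
    refine mem_cF.2 ⟨θ₀ * u, Ideal.mul_mem_left _ _ h1, ?_⟩
    rw [pow_two, mul_smul, hu, map_mul, Algebra.smul_def]
  refine ⟨H, inferInstance, inferInstance, ψ, shP ψ 𝔪 I w q',
    ⟨⟨hf, hqr, hreg, hN, hpm, fun a j y hy => shP_gr (Ideal.subset_span (Set.mem_range_self j)) a y hy,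
      shP_anti, ?_, hp1, ?_, ?_⟩, hrt, shP_stab, fun r hr => shP_raise hr⟩, fun 𝔞 h𝔞 => ?_⟩
  · rintro j _ ⟨u, hu, rfl⟩
    exact shP_le (sh_alg w hu)
  · intro j y hy hy'
    obtain ⟨v, -, hv⟩ := mem_cF.1 hy'
    obtain ⟨F, -, hF⟩ := sh_mem.1 (shP_theta hS1 j y hy)
    obtain ⟨u, hu⟩ := sh_S3 hf hw hγ hE huc hc hpc F (b := θ₀ * v) (by
      rw [hF, map_mul, hv, Algebra.smul_def, Algebra.smul_def]
      ring)
    exact hfin j y hy u (hF ▸ hu)
  · intro j y hy hy'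
    obtain ⟨v, -, hv⟩ := mem_cF.1 hy'
    exact hfin j y hy (θ₀ * v) (by rw [map_mul, hv, Algebra.smul_def])
  · have hmem : ∀ r ∈ 𝔞, ∀ z ∈ shP ψ 𝔪 I w q' 0, ψ r * z ∈ idealMul ψ 𝔞 (shP ψ 𝔪 I w q' 0) :=
      fun r hr z hz => Submodule.mem_iSup_of_mem r (Submodule.mem_iSup_of_mem hr ⟨z, hz, rfl⟩)
    refine sh_len ψ hψa 𝔞 (fun r hr => ?_) ?_
    · have h1 := hmem r hr _ (shP_le (sh_alg w (u := 1) (by simp)))
      simpa using h1
    · rintro _ ⟨y, hy, rfl⟩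
      obtain ⟨z, hz, h1⟩ := hp1 0 y hy
      obtain ⟨u, -, hu⟩ := mem_cF.1 h1
      refine ⟨u, ?_⟩
      have h2 := hmem _ h𝔞 z hz
      rw [map_pow, map_natCast] at h2
      rw [hu, LinearMap.lsmul_apply, sub_sub_cancel, Algebra.smul_def, map_pow, map_natCast]
      exact h2

end Vale.Agent.P202
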