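import Vale.Agent.P202.MixBase
import Vale.Agent.P202.Sharp

/-! Module D3: the levels in mixed characteristic. -/

namespace Vale.Agent.P202

open IsLocalRing TensorProduct

universe u

theorem IsMixBase.exists_levels {p : ℕ} [Fact p.Prime] {V : Type u} [CommRing V] [IsDomain V]
    [IsDiscreteValuationRing V] {A T₀ T : Type u} [CommRing A] [IsLocalRing A] [CommRing T₀]
    [IsLocalRing T₀] [IsNoetherianRing T₀] [CommRing T] [IsLocalRing T] [IsNoetherianRing T]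
    [Algebra A T₀] [Algebra T₀ T] {n : ℕ} {c₁ : A} {μ : ℕ} {x : Fin (n + 1) → T₀}
    (h : IsMixBase p V T c₁ μ x) {N₀ : ℕ} (hN₀ : 0 < N₀) :
    ∃ j₀ K : ℕ, ∀ j, j₀ ≤ j → ∀ m₀ : ℕ, ∃ m : ℕ, m₀ ≤ m ∧ ∀ k : ℕ,
      ∃ (C H : Type u) (_ : CommRing C) (_ : IsLocalRing C) (_ : IsNoetherianRing C)
        (_ : CommRing H) (_ : Algebra C H) (_ : Algebra T₀ C) (_ : Algebra A C)
        (_ : IsScalarTower A T₀ C) (ψ : T →+* H) (ξ : Fin (n + 1) → C) (P : ℤ → Submodule C H)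
        (θ : C) (ρ b : ℕ),
        IsLevel ψ (maximalIdeal T) (fun j => algebraMap T₀ T (x j)) ξ P θ ((p : C) ^ m) (p ^ j)
          (p ^ j - 2 * (n + 2)) N₀ ∧
        0 < ρ ∧ Module.Finite T₀ C ∧ Module.Free A C ∧
        (∀ y : C, ∃ t : T₀, y - algebraMap T₀ C t ∈ maximalIdeal C) ∧
        IsIsog ((p : T₀) ^ b) (Fin ρ → T₀) C ∧
        (((p ^ j) ^ (n + 1) : ℕ) : ℕ∞) * Module.length C (C ⧸ Ideal.span (Set.range ξ)) =
          (ρ * (mult T (List.ofFn fun j => algebraMap T₀ T (x j))).toNat : ℕ) ∧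
        (k : ℕ∞) * Module.length C (C ⧸ (Ideal.span (Set.range ξ) ⊔ Ideal.span {θ})) ≤
          (K * ρ : ℕ) ∧
        ∀ 𝔞 : Ideal T, (p : T) ^ m ∈ 𝔞 →
          rl ((P 0).map (LinearMap.lsmul C H θ)) (idealMul ψ 𝔞 (P 0)) ≤
            Module.length C (C ⊗[T₀] (T ⧸ 𝔞)) := by
  have hp1 : 1 < p := (Fact.out : p.Prime).one_lt
  obtain ⟨r₀, hred, hpx⟩ := h.exists_r
  obtain ⟨R, _, a, wt, ham, hwt, hint, hgen⟩ := h.exists_gens hred
  obtain ⟨ω, hω⟩ := h.exists_colon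
  obtain ⟨K, hK⟩ := h.exists_small
  have hxN := h.isSop.pow hN₀
  obtain ⟨-, s, hs⟩ := isSop_iff_ann.mp hxN
  rw [Module.annihilator_eq_bot.mpr inferInstance, bot_sup_eq, List.map_ofFn,
    CoreC.ofList_ofFn] at hs
  refine ⟨(ω + 1) * (2 * (n + 2)) + 1, K, fun j hj m₀ =>
    ⟨m₀ + (ω + 1) + s, by omega, fun k => ?_⟩⟩
  set m := m₀ + (ω + 1) + s with hm
  have hq : (ω + 1) * (2 * (n + 2)) + 1 ≤ p ^ j := hj.trans (Nat.lt_pow_self hp1).le
  have hq0 : 0 < p ^ j := by omega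
  have hqD : 2 * (n + 2) ≤ p ^ j := by nlinarith
  have hωq : ω * p ^ j + 1 ≤ (ω + 1) * (p ^ j - 2 * (n + 2)) := by
    obtain ⟨q', hq'⟩ := Nat.exists_eq_add_of_le hqD
    rw [hq'] at hq ⊢
    rw [Nat.add_sub_cancel_left]
    nlinarith
  obtain ⟨k', hk1, hk2, hk3⟩ : ∃ k', p ^ j * r₀ ≤ p ^ k' ∧ p ^ j ≤ p ^ k' ∧ 4 * k ≤ p ^ k' := by
    have := (Nat.lt_pow_self hp1 (n := p ^ j * r₀ + p ^ j + 4 * k)).le
    exact ⟨p ^ j * r₀ + p ^ j + 4 * k, by omega, by omega, by omega⟩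
  obtain ⟨C, _, _, _, _, ξ, π, γ, hfin, hres, hroot, hπ, hγ, hξ, hpI, hBS, ρ, b, hρ, hiso⟩ :=
    exists_cover h.cohen h.perf h.ci h.isSop h.c_mem μ a ham wt r₀ hint hpx j k'
      (μ + m * p ^ k' + r₀ + 2) (by omega) hk1 hk2 fun r =>
        le_trans (by rw [mul_comm]; exact Nat.mul_le_mul_left _ (hwt r)) hk1
  let _ : Algebra A C := ((algebraMap T₀ C).comp (algebraMap A T₀)).toAlgebra
  have : IsScalarTower A T₀ C := IsScalarTower.of_algebraMap_eq fun _ => rfl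
  have hloc : IsLocalHom (algebraMap T₀ C) :=
    isLocalHom_of_finite _ (RingHom.finite_algebraMap.mpr hfin)
  have hξm : ∀ i, ξ i ∈ maximalIdeal C := fun i =>
    (maximalIdeal.isMaximal C).isPrime.mem_of_pow_mem (p ^ j) (by
      rw [hroot]
      exact map_max_le _ (Ideal.mem_map_of_mem _ (h.isSop.1 _ (List.mem_ofFn.mpr ⟨i, rfl⟩))))
  have hfree := h.free hξ hξm
  obtain ⟨hr1, hr2, hr3⟩ := h.regular (C := C)
  have hqr := (regAny_of_isWeaklyRegular hξ hξm).quasiReg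
  have hxi : (fun i => ξ i ^ (p ^ j * N₀)) = fun i => algebraMap T₀ C (x i ^ N₀) :=
    funext fun i => by rw [pow_mul, hroot, map_pow]
  have hreg : RegAny fun i => ξ i ^ (p ^ j * N₀) := by
    have h1 := (h.length_eq hres hξ hξm hiso hxN (by simp)).1
    rw [List.map_ofFn, List.map_ofFn] at h1
    refine regAny_of_isWeaklyRegular (hxi ▸ h1) fun i => ?_
    exact Ideal.pow_mem_of_mem _ (hξm i) _ (Nat.mul_pos hq0 hN₀)
  have hpm : (p : C) ^ m ∈ Ideal.span (Set.range fun i => ξ i ^ (p ^ j * N₀)) := by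
    have h1 := Ideal.mem_map_of_mem (algebraMap T₀ C)
      (hs (Ideal.pow_le_pow_right (show s ≤ m by omega) (Ideal.pow_mem_pow h.p_mem m)))
    rw [Ideal.map_span, ← Set.range_comp, map_pow, map_natCast] at h1
    rw [hxi]
    exact h1
  obtain ⟨H, _, _, ψ, P, hlev, hlen⟩ := exists_sharp p (maximalIdeal T) x ξ (μ := μ) (r₀ := r₀)
    (q := p ^ j) (q' := p ^ j - 2 * (n + 2)) (N₀ := N₀) (m := m) (E := p ^ k')
    (L := μ + m * p ^ k' + r₀ + 2) (b := ω * p ^ j) (γ := γ) (θ₀ := (π ^ μ * γ) ^ 2) h.inj h.cond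
    hred (Nat.sub_le _ _) hroot hγ (by positivity) ⟨π ^ μ * (π ^ μ * γ), by ring⟩ hr1 hr2 hr3 hqr
    hreg (Nat.mul_pos hq0 hN₀) hpI hpm (hω C ξ _ _ hqr hroot hpI (Nat.sub_le _ _) hωq)
    (le_trans (by omega) (Nat.mul_le_mul_right _ (show ω + 1 ≤ m by omega))) (by omega)
    fun i hi g hg z hz => by
      have h1 := hgen i hi g hg z hz
      clear hz
      induction h1 using Submodule.span_induction with
      | mem z hz =>
        obtain ⟨r, hr, rfl⟩ := hz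
        refine SetLike.le_def.mp (sup_le_sup_right (Ideal.mul_mono_right
          (Ideal.pow_le_pow_right ?_)) _) (hBS r)
        rw [show wt r = i from hr, Nat.mul_sub]
        rcases Nat.eq_zero_or_pos i with h0 | h0
        · simp [h0]
        · exact Nat.sub_le_sub_left (Nat.le_mul_of_pos_left _ h0) _
      | zero => simp
      | add z z' _ _ h1 h2 => rw [map_add, mul_add (_ ^ 2)]; exact add_mem h1 h2
      | smul r z _ h1 =>
        rw [smul_eq_mul, map_mul _ r, mul_left_comm]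
        exact Ideal.mul_mem_left _ _ h1
  refine ⟨C, H, inferInstance, inferInstance, inferInstance, inferInstance, inferInstance,
    inferInstance, inferInstance, inferInstance, ψ, ξ, P, _, ρ, b, hlev, hρ, hfin, hfree, hres,
    hiso, ?_, hK C ξ _ ρ b k _ hres hξ hq0 hroot hiso ?_, hlen⟩
  · rw [← h.mult_eq]
    exact h.length_root hres hξ hq0 hroot hiso
  · have h1 : algebraMap T₀ C ((p : T₀) ^ μ * algebraMap A T₀ c₁) = (π ^ μ * γ) ^ p ^ k' := by
      rw [mul_pow, hγ, ← pow_mul, mul_comm μ, pow_mul, hπ, map_mul, map_pow, map_natCast]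
    rw [h1, ← pow_mul, ← pow_mul]
    exact pow_dvd_pow _ (by omega)

end Vale.Agent.P202
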