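import Vale.Agent.P202.PSer
import Vale.Agent.P202.CohenRing

/-! Module F1: a birational complete intersection model of a complete local domain of mixed
characteristic. -/

namespace Vale.Agent.P202

open IsLocalRing

universe u

namespace Mdl

open Polynomial

theorem dim_le_of_inj {A S : Type*} [CommRing A] [CommRing S] (f : A →+* S)
    (hf : Function.Injective f) (hi : f.IsIntegral) : ringKrullDim A ≤ ringKrullDim S := by
  let _ := f.toAlgebra
  have : Algebra.IsIntegral A S := ⟨hi⟩
  refine iSup_le fun l => ?_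
  obtain ⟨Q, -, hQ, h⟩ := Ideal.exists_ideal_over_prime_of_isIntegral (S := S) l.head.asIdeal ⊥
    (((RingHom.injective_iff_ker_eq_bot f).1 hf).le.trans bot_le)
  have : Q.LiesOver l.head.asIdeal := ⟨h.symm⟩
  obtain ⟨L, hL, -⟩ := Ideal.exists_ltSeries_of_hasGoingUp l Q
  rw [← hL]
  exact Order.LTSeries.length_le_krullDim L

theorem dim_le_quot_ker {A S : Type*} [CommRing A] [CommRing S] (f : A →+* S) (hf : f.Finite) :
    ringKrullDim S ≤ ringKrullDim (A ⧸ RingHom.ker f) := by
  have h : f.kerLift.Finite := RingHom.Finite.of_comp_finite (f := Ideal.Quotient.mk _)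
    (by rwa [show f.kerLift.comp (Ideal.Quotient.mk _) = f from RingHom.ext f.kerLift_mk])
  let _ := f.kerLift.toAlgebra
  have : Algebra.IsIntegral (A ⧸ RingHom.ker f) S := ⟨h.to_isIntegral⟩
  exact HS.dim_le_of_integral

theorem finite_comp_C {A R : Type*} [CommRing A] [IsLocalRing A]
    [IsAdicComplete (maximalIdeal A) A] [CommRing R] (Ψ : PowerSeries A →+* R) (hΨ : Ψ.Finite)
    {g : PowerSeries A} (hg : g.map (residue A) ≠ 0) (h0 : Ψ g = 0) :
    (Ψ.comp PowerSeries.C).Finite := by
  obtain ⟨W, u, hW⟩ := PowerSeries.exists_isWeierstrassFactorization hg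
  have h1 : ∀ a ∈ Ideal.span {g}, Ψ a = 0 := fun a ha => by
    obtain ⟨b, rfl⟩ := Ideal.mem_span_singleton.1 ha
    rw [map_mul, h0, zero_mul]
  have e : (Ideal.Quotient.lift _ Ψ h1).comp (Ideal.Quotient.mk _) = Ψ :=
    RingHom.ext fun _ => rfl
  have h2 : (Ideal.Quotient.lift _ Ψ h1).Finite :=
    RingHom.Finite.of_comp_finite (f := Ideal.Quotient.mk _) (by rwa [e])
  have := hW.isDistinguishedAt.monic.finite_quotient
  have h3 : Module.Finite A (PowerSeries A ⧸ Ideal.span {g}) :=
    Module.Finite.equiv hW.algEquivQuotient.toLinearEquiv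
  exact h2.comp (RingHom.finite_algebraMap.2 h3)

theorem prim_aux (A R : Type*) [CommRing A] [IsDomain A] [CharZero A] [CommRing R] [IsDomain R]
    [Algebra A R] [FaithfulSMul A R] [Module.Finite A R] :
    ∃ (z : R) (N : A[X]), N.Monic ∧ aeval z N = 0 ∧ ∀ a : A, a ≠ 0 →
      (∀ h : A[X], h.degree < N.degree → aeval (algebraMap A R a * z) h = 0 → h = 0) ∧
      ∃ c : A, c ≠ 0 ∧ ∀ r : R, ∃ h : A[X],
        aeval (algebraMap A R a * z) h = algebraMap A R c * r := by
  classical
  let _ := FractionRing.liftAlgebra A (FractionRing R)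
  have := FractionRing.isScalarTower_liftAlgebra A (FractionRing R)
  have : FiniteDimensional (FractionRing A) (FractionRing R) := inferInstance
  obtain ⟨θ, hθ⟩ := Field.exists_primitive_element (FractionRing A) (FractionRing R)
  have hsc : ∀ (θ : FractionRing R) (a : A), a ≠ 0 →
      IntermediateField.adjoin (FractionRing A) {θ} = ⊤ →
      IntermediateField.adjoin (FractionRing A) {algebraMap A _ a * θ} = ⊤ := by
    intro θ a ha h
    rw [eq_top_iff, ← h, IntermediateField.adjoin_simple_le_iff]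
    have h0 : algebraMap A (FractionRing R) a ≠ 0 :=
      (map_ne_zero_iff _ (FaithfulSMul.algebraMap_injective _ _)).2 ha
    have h1 := IntermediateField.mem_adjoin_simple_self (FractionRing A) (algebraMap A _ a * θ)
    have h2 : algebraMap A (FractionRing R) a ∈
        IntermediateField.adjoin (FractionRing A) {algebraMap A _ a * θ} := by
      rw [IsScalarTower.algebraMap_apply A (FractionRing A)]
      exact IntermediateField.algebraMap_mem _ _
    have h3 := mul_mem (inv_mem h2) h1
    rwa [inv_mul_cancel_left₀ h0] at h3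
  obtain ⟨⟨z, ⟨_, s, hs, rfl⟩⟩, hz⟩ := IsLocalization.surj
    (Algebra.algebraMapSubmonoid R (nonZeroDivisors A)) θ
  have h1 := hsc θ s (nonZeroDivisors.ne_zero hs) hθ
  simp only [← IsScalarTower.algebraMap_apply] at hz
  rw [mul_comm, hz] at h1
  have hinj := FaithfulSMul.algebraMap_injective R (FractionRing R)
  have hinjA := FaithfulSMul.algebraMap_injective A (FractionRing A)
  have hev : ∀ (w : R) (h : A[X]), aeval (algebraMap R (FractionRing R) w)
      (h.map (algebraMap A (FractionRing A))) = algebraMap R _ (aeval w h) := fun w h => by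
    rw [aeval_map_algebraMap, aeval_algebraMap_apply]
  obtain ⟨b, hb, hn⟩ := IsLocalization.integerNormalization_spec (nonZeroDivisors A)
    (minpoly (FractionRing A) (algebraMap R (FractionRing R) z))
  generalize IsLocalization.integerNormalization (nonZeroDivisors A)
    (minpoly (FractionRing A) (algebraMap R (FractionRing R) z)) = n1 at hn
  have hb0 : algebraMap A (FractionRing A) b ≠ 0 :=
    (map_ne_zero_iff _ hinjA).2 (nonZeroDivisors.ne_zero hb)
  have hdeg : n1.degree = Module.finrank (FractionRing A) (FractionRing R) := by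
    rw [← degree_map_eq_of_injective hinjA, hn, ← algebraMap_smul (FractionRing A), smul_eq_C_mul,
      degree_C_mul hb0]
    exact (Field.primitive_element_iff_minpoly_degree_eq _ _).1 h1
  have hn0 : n1 ≠ 0 := fun h => by rw [h] at hdeg; simp at hdeg
  have hr : aeval z n1 = 0 := hinj (by
    rw [← hev, hn, ← algebraMap_smul (FractionRing A), map_smul, minpoly.aeval, smul_zero, map_zero])
  refine ⟨algebraMap A R n1.leadingCoeff * z, n1.integralNormalization,
    monic_integralNormalization hn0, integralNormalization_aeval_eq_zero hr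
      fun x hx => FaithfulSMul.algebraMap_injective A R (by rw [hx, map_zero]), fun a ha => ?_⟩
  have h2 := hsc _ a ha (hsc _ _ (leadingCoeff_ne_zero.2 hn0) h1)
  rw [IsScalarTower.algebraMap_apply A R, IsScalarTower.algebraMap_apply A R (FractionRing R)
    n1.leadingCoeff, ← map_mul, ← map_mul] at h2
  generalize algebraMap A R a * (algebraMap A R n1.leadingCoeff * z) = w at h2
  refine ⟨fun h hh hw => ?_, ?_⟩
  · by_contra h0
    have h3 := minpoly.degree_le_of_ne_zero (FractionRing A) (algebraMap R (FractionRing R) w)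
      ((Polynomial.map_ne_zero_iff hinjA).2 h0) (by rw [hev, hw, map_zero])
    rw [(Field.primitive_element_iff_minpoly_degree_eq _ _).1 h2,
      degree_map_eq_of_injective hinjA, ← hdeg, ← degree_integralNormalization] at h3
    exact absurd hh h3.not_gt
  · have h3 : ∀ r : R, ∃ c : A, c ≠ 0 ∧ ∃ h : A[X], aeval w h = algebraMap A R c * r := by
      intro r
      have h4 : algebraMap R (FractionRing R) r ∈ (IntermediateField.adjoin (FractionRing A)
          {algebraMap R (FractionRing R) w}).toSubalgebra := by rw [h2]; trivial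
      rw [IntermediateField.adjoin_simple_toSubalgebra_of_isAlgebraic
        (Algebra.IsAlgebraic.isAlgebraic _), Algebra.adjoin_singleton_eq_range_aeval] at h4
      obtain ⟨q, hq⟩ := h4
      obtain ⟨c, hc, hn⟩ := IsLocalization.integerNormalization_spec (nonZeroDivisors A) q
      refine ⟨c, nonZeroDivisors.ne_zero hc,
        IsLocalization.integerNormalization (nonZeroDivisors A) q, hinj ?_⟩
      rw [← hev, hn, ← algebraMap_smul (FractionRing A), map_smul, map_mul, ← hq,
        Algebra.smul_def, ← IsScalarTower.algebraMap_apply, ← IsScalarTower.algebraMap_apply]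
      rfl
    choose c hc h hh using h3
    obtain ⟨S, hS⟩ := Module.Finite.fg_top (R := A) (M := R)
    refine ⟨∏ r ∈ S, c r, Finset.prod_ne_zero_iff.2 fun r _ => hc r, fun r => ?_⟩
    have h5 : r ∈ Submodule.span A (S : Set R) := by rw [hS]; trivial
    induction h5 using Submodule.span_induction with
    | mem r hr =>
      refine ⟨C (∏ x ∈ S.erase r, c x) * h r, ?_⟩
      rw [map_mul, aeval_C, hh, ← Finset.prod_erase_mul S c hr, map_mul, mul_assoc]
    | zero => exact ⟨0, by simp⟩
    | add x y _ _ hx hy =>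
      obtain ⟨h1, e1⟩ := hx
      obtain ⟨h2, e2⟩ := hy
      exact ⟨h1 + h2, by rw [map_add, e1, e2, mul_add]⟩
    | smul a x _ hx =>
      obtain ⟨h1, e1⟩ := hx
      exact ⟨C a * h1, by rw [map_mul, aeval_C, e1, Algebra.smul_def]; ring⟩

theorem charZero_of_mem {p : ℕ} [Fact p.Prime] {R : Type*} [CommRing R] [IsDomain R]
    [IsLocalRing R] (hp : (p : R) ∈ maximalIdeal R) (hp0 : (p : R) ≠ 0) : CharZero R := by
  obtain ⟨q, hq⟩ := CharP.exists R
  rcases CharP.char_is_prime_or_zero R q with h | rfl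
  · exfalso
    have h1 := CoR.charP_residue p R hp
    have h2 : (q : ResidueField R) = 0 := by
      rw [← map_natCast (residue R), CharP.cast_eq_zero, map_zero]
    have h3 : p = q := (Nat.prime_dvd_prime_iff_eq Fact.out h).1
      ((CharP.cast_eq_zero_iff (ResidueField R) p q).1 h2)
    exact hp0 (h3 ▸ CharP.cast_eq_zero R q)
  · exact CharP.charP_to_charZero R

end Mdl


/-- The hypersurface step: the kernel of `V[[X]] → R`, `X ↦ x`, and a Noether normalisation. -/
theorem exists_hypersurface {p : ℕ} [Fact p.Prime] {V : Type u} [CommRing V] [IsDomain V]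
    [IsDiscreteValuationRing V] (hV : IsCohen p V) {R : Type u} [CommRing R] [IsDomain R]
    [IsLocalRing R] [IsNoetherianRing R] [Infinite (ResidueField R)] (hp : (p : R) ≠ 0) {n : ℕ}
    (hd : ringKrullDim R = (n + 1 : ℕ)) (Ψ : MvPowerSeries (Fin (n + 1)) V →+* R)
    (hres : ∀ r : R, ∃ v : V, r - Ψ (MvPowerSeries.C v) ∈ maximalIdeal R) (hfin : Ψ.Finite) :
    ∃ (f : MvPowerSeries (Fin (n + 1)) V)
      (α : MvPowerSeries (Fin n) V →+* MvPowerSeries (Fin (n + 1)) V),
      RingHom.ker Ψ = Ideal.span {f} ∧ α.comp MvPowerSeries.C = MvPowerSeries.C ∧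
      (Ψ.comp α).Finite ∧ Function.Injective (Ψ.comp α) := by
  have := hV.complete
  have := NoZeroDivisors.to_isDomain (MvPowerSeries (Fin (n + 1)) V)
  have := NoZeroDivisors.to_isDomain (MvPowerSeries (Fin n) V)
  have := isAdicComplete_mvPowerSeries (σ := Fin n) (V := V)
  have hloc := isLocalHom_of_finite Ψ hfin
  have hlocC : IsLocalHom (MvPowerSeries.C (σ := Fin (n + 1)) (R := V)) :=
    ⟨fun a ha => by simpa using MvPowerSeries.isUnit_iff_constantCoeff.1 ha⟩
  have : Infinite (ResidueField V) := by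
    refine Infinite.of_surjective (ResidueField.map (Ψ.comp MvPowerSeries.C)) fun r => ?_
    obtain ⟨r, rfl⟩ := residue_surjective r
    obtain ⟨v, hv⟩ := hres r
    refine ⟨residue V v, ?_⟩
    rw [ResidueField.map_residue, eq_comm, ← sub_eq_zero, ← map_sub, residue_eq_zero_iff]
    exact hv
  have := ufd_mvPowerSeries V (n + 1)
  have hB := ringKrullDim_mvPowerSeries_dvr V (Fin (n + 1))
  have hA := ringKrullDim_mvPowerSeries_dvr V (Fin n)
  rw [Fintype.card_fin] at hB hA
  have hK := RingHom.ker_isPrime Ψ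
  have hK0 : RingHom.ker Ψ ≠ ⊥ := fun h => by
    have h1 := Mdl.dim_le_of_inj Ψ ((RingHom.injective_iff_ker_eq_bot Ψ).2 h) hfin.to_isIntegral
    rw [hB, hd] at h1
    have h2 : n + 1 + 1 ≤ n + 1 := by exact_mod_cast h1
    omega
  obtain ⟨f, hf, hfp⟩ := hK.exists_mem_prime_of_ne_bot hK0
  have hker : RingHom.ker Ψ = Ideal.span {f} := by
    have := (Ideal.span_singleton_prime hfp.ne_zero).2 hfp
    by_contra h
    have h1 := afDim_succ_le
      (lt_of_le_of_ne ((Ideal.span_singleton_le_iff_mem _).2 hf) (Ne.symm h))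
    have h2 := HS.dim_quot_lt hB.le (I := Ideal.span {f})
      (by rw [Ne, Ideal.span_singleton_eq_bot]; exact hfp.ne_zero)
    have h3 := Mdl.dim_le_quot_ker Ψ hfin
    rw [hd] at h3
    have h4 := ((add_le_add_left h3 1).trans h1).trans_lt h2
    have h5 : n + 1 + 1 < n + 1 + 1 := by exact_mod_cast h4
    omega
  have hf0 : MvPowerSeries.map (residue V) f ≠ 0 := fun h => by
    have h1 : ∀ d, (p : V) ∣ MvPowerSeries.coeff d f := fun d => by
      rw [← Ideal.mem_span_singleton, ← hV.max, ← residue_eq_zero_iff,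
        ← MvPowerSeries.coeff_map, h, map_zero]
    choose c hc using h1
    obtain ⟨c', h2⟩ : MvPowerSeries.C (p : V) ∣ f :=
      ⟨c, MvPowerSeries.ext fun d => (hc d).trans (MvPowerSeries.coeff_C_mul d c _).symm⟩
    rcases hfp.irreducible.isUnit_or_isUnit h2 with h3 | h3
    · exact hV.mem_max (hlocC.1 _ h3)
    · have h4 : Ψ f = 0 := hf
      rw [h2, map_mul, map_natCast, map_natCast, mul_eq_zero] at h4
      exact h4.elim hp (h3.map Ψ).ne_zero
  obtain ⟨-, e, -, -, -, h⟩ := exists_shear_regular Set.univ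
    (by rw [Set.image_univ, residue_surjective.range_eq]; exact Set.infinite_univ) f hf0
  let E := e.trans (MvPowerSeries.finSuccEquiv V n)
  have hfin' : ((Ψ.comp E.symm.toRingEquiv.toRingHom).comp PowerSeries.C).Finite :=
    Mdl.finite_comp_C _ (hfin.comp (RingHom.Finite.of_surjective _ E.symm.surjective)) h
      (congrArg Ψ (E.symm_apply_apply f) |>.trans hf)
  refine ⟨f, E.symm.toRingEquiv.toRingHom.comp PowerSeries.C, hker, RingHom.ext fun v => ?_,
    hfin', ?_⟩
  · exact E.symm_apply_eq.2 ((congrArg _ (e.commutes v)).trans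
      (MvPowerSeries.finSuccEquiv_C v)).symm
  · rw [RingHom.injective_iff_ker_eq_bot]
    by_contra h0
    have h1 := (Mdl.dim_le_quot_ker _ hfin').trans_lt (HS.dim_quot_lt hA.le h0)
    rw [hd] at h1
    exact lt_irrefl _ h1

/-- The primitive element step. -/
theorem exists_primitive {B R : Type u} [CommRing B] [IsLocalRing B] [IsNoetherianRing B]
    [CommRing R] [IsDomain R] [CharZero R] [IsLocalRing R] (Ψ : B →+* R) (hfin : Ψ.Finite)
    {π : B} (hπ : π ∈ maximalIdeal B) (hπ' : Ψ π ≠ 0) :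
    ∃ (z : R) (g : Polynomial B) (c : B), z ∈ maximalIdeal R ∧
      g.IsDistinguishedAt (maximalIdeal B) ∧ Polynomial.eval₂ Ψ z g = 0 ∧
      (∀ h : Polynomial B, h.degree < g.degree → Polynomial.eval₂ Ψ z h = 0 →
        ∀ i, Ψ (h.coeff i) = 0) ∧
      Ψ c ≠ 0 ∧ ∀ r : R, ∃ h : Polynomial B, Polynomial.eval₂ Ψ z h = Ψ c * r := by
  have hloc := isLocalHom_of_finite Ψ hfin
  have : Module.Finite Ψ.range R := RingHom.finite_algebraMap.1
    (RingHom.Finite.of_comp_finite (f := Ψ.rangeRestrict) hfin)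
  have : CharZero Ψ.range := Ψ.range.subtype.charZero
  obtain ⟨z, N, hN, hz, h⟩ := Mdl.prim_aux Ψ.range R
  obtain ⟨h1, c, hc, h2⟩ := h (Ψ.rangeRestrict π) fun h => hπ' (congrArg Subtype.val h)
  have hs := Ψ.rangeRestrict_surjective
  obtain ⟨N', rfl, hd, hN'⟩ := Polynomial.lifts_and_degree_eq_and_monic
    ((Polynomial.mem_lifts N).2 (Polynomial.map_surjective _ hs N)) hN
  have hev : ∀ (w : R) (h : Polynomial B),
      Polynomial.aeval w (h.map Ψ.rangeRestrict) = Polynomial.eval₂ Ψ w h := fun w h => by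
    rw [Polynomial.aeval_def, Polynomial.eval₂_map]
    rfl
  obtain ⟨c, rfl⟩ := hs c
  refine ⟨Ψ π * z, N'.scaleRoots π, c, Ideal.mul_mem_right _ _ (map_nonunit Ψ π hπ),
    ⟨⟨fun {k} hk => ?_⟩, (Polynomial.monic_scaleRoots_iff π).2 hN'⟩,
    Polynomial.scaleRoots_eval₂_eq_zero Ψ (hev z N' ▸ hz), fun h hh hw i => ?_,
    fun h => hc (Subtype.ext h), fun r => ?_⟩
  · rw [Polynomial.natDegree_scaleRoots] at hk
    rw [Polynomial.coeff_scaleRoots]
    exact Ideal.mul_mem_left _ _ (Ideal.pow_mem_of_mem _ hπ _ (by omega))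
  · rw [Polynomial.degree_scaleRoots, hd] at hh
    have h3 := h1 _ (Polynomial.degree_map_le.trans_lt hh) ((hev _ h).trans hw)
    have h4 := congrArg (fun q : Polynomial Ψ.range => ((q.coeff i : Ψ.range) : R)) h3
    simpa using h4
  · obtain ⟨q, hq⟩ := h2 r
    obtain ⟨q, rfl⟩ := Polynomial.map_surjective _ hs q
    exact ⟨q, (hev _ q).symm.trans hq⟩

theorem exists_model (p : ℕ) [Fact p.Prime] {R : Type u} [CommRing R] [IsDomain R] [IsLocalRing R]
    [IsNoetherianRing R] [IsAdicComplete (maximalIdeal R) R] [Infinite (ResidueField R)]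
    (hp : (p : R) ∈ maximalIdeal R) (hp0 : (p : R) ≠ 0) {n : ℕ} {x : Fin (n + 1) → R}
    (hx : IsReduction x) (hd : ringKrullDim R = (n + 1 : ℕ)) :
    ∃ (V : Type u) (_ : CommRing V) (_ : IsDomain V) (_ : IsDiscreteValuationRing V)
      (Φ : MvPowerSeries (Option (Fin (n + 1))) V →+* R)
      (f : Fin 2 → MvPowerSeries (Option (Fin (n + 1))) V)
      (α : MvPowerSeries (Fin n) V →+* MvPowerSeries (Option (Fin (n + 1))) V)
      (c₁ : MvPowerSeries (Fin n) V) (μ : ℕ), IsCohen p V ∧
      (∀ j, Φ (MvPowerSeries.X (some j)) = x j) ∧ Φ (MvPowerSeries.X none) ∈ maximalIdeal R ∧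
      RingHom.ker Φ = Ideal.span (Set.range f) ∧
      (∀ r : R, ∃ v : V, r - Φ (MvPowerSeries.C v) ∈ maximalIdeal R) ∧
      α.comp MvPowerSeries.C = MvPowerSeries.C ∧ (Φ.comp α).Finite ∧
      Function.Injective (Φ.comp α) ∧ ¬ (p : MvPowerSeries (Fin n) V) ∣ c₁ ∧
      ∀ r : R, ∃ z, Φ z = Φ (α (p ^ μ * c₁)) * r := by
  have := Mdl.charZero_of_mem hp hp0
  obtain ⟨V, i1, i2, i3, σ, hV, hσ, hres⟩ := exists_coeffRing p R hp
  have := hV.complete
  have := isAdicComplete_mvPowerSeries (σ := Fin (n + 1)) (V := V)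
  have := NoZeroDivisors.to_isDomain (MvPowerSeries (Fin n) V)
  obtain ⟨Ψ, hΨC, hΨX⟩ := exists_evalHom σ x hx.1
  have hres' : ∀ r : R, ∃ v : V, r - Ψ (MvPowerSeries.C v) ∈ maximalIdeal R := fun r =>
    (hres r).imp fun v hv => by rwa [← RingHom.comp_apply, hΨC]
  have hspan : (Ideal.span (Set.range MvPowerSeries.X)).map Ψ = Ideal.span (Set.range x) := by
    rw [Ideal.map_span, ← Set.range_comp]
    exact congrArg (fun y => Ideal.span (Set.range y)) (funext hΨX)
  have hloc : IsLocalHom Ψ := isLocalHom_of_map_le (by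
    rw [maximalIdeal_mvPowerSeries, Ideal.map_sup, Ideal.map_map, hΨC, hspan]
    exact sup_le (map_max_le σ) (Ideal.span_le.2 (Set.range_subset_iff.2 hx.1)))
  obtain ⟨r0, hr0⟩ := hx.pow_le
  have hfin : Ψ.Finite := finite_of_complete Ψ (fun r => (hres' r).elim fun v hv => ⟨_, hv⟩)
    (N := 1 + r0) ((hr0 1).trans (by
      rw [pow_one, ← hspan, maximalIdeal_mvPowerSeries]
      exact Ideal.map_mono le_sup_right))
  obtain ⟨f0, α0, hker, hα, hαf, hαi⟩ := exists_hypersurface hV hp0 hd Ψ hres' hfin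
  have hpB : ∀ (τ : Type) [Finite τ],
      (p : MvPowerSeries τ V) ∈ maximalIdeal (MvPowerSeries τ V) := fun τ _ => by
    rw [maximalIdeal_mvPowerSeries, ← map_natCast (MvPowerSeries.C (σ := τ) (R := V))]
    exact Ideal.mem_sup_left (Ideal.mem_map_of_mem _ hV.mem_max)
  obtain ⟨z, g, c, hz, hg, hgz, hmin, hc, hcon⟩ := exists_primitive Ψ hfin (hpB _)
    (by rwa [map_natCast])
  obtain ⟨Φ, hΦC, hΦX⟩ := exists_evalHom σ (fun o : Option (Fin (n + 1)) => o.elim z x)
    fun o => by cases o; exacts [hz, hx.1 _]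
  let E := (MvPowerSeries.optionEquivLeft (Fin (n + 1)) V).toRingEquiv
  let ι := E.symm.toRingHom.comp PowerSeries.C
  have hιC : ι.comp MvPowerSeries.C = MvPowerSeries.C := RingHom.ext fun v =>
    E.symm_apply_eq.2 (MvPowerSeries.optionEquivLeft_C v).symm
  have hιX : ∀ j, ι (MvPowerSeries.X j) = MvPowerSeries.X (some j) := fun j =>
    E.symm_apply_eq.2 (MvPowerSeries.optionEquivLeft_X_some j).symm
  have hΦι : Φ.comp ι = Ψ := evalHom_ext _ _ (by rw [RingHom.comp_assoc, hιC, hΦC, hΨC])
    (fun j => by rw [RingHom.comp_apply, hιX, hΦX, hΨX]; rfl)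
    fun j => by rw [RingHom.comp_apply, hιX, hΦX]; exact hx.1 j
  have hev : ∀ h : Polynomial (MvPowerSeries (Fin (n + 1)) V),
      Φ (E.symm h) = Polynomial.eval₂ Ψ z h := by
    have e : (Φ.comp E.symm.toRingHom).comp Polynomial.coeToPowerSeries.ringHom =
        Polynomial.eval₂RingHom Ψ z := by
      refine Polynomial.ringHom_ext (fun a => ?_) ?_
      · simpa [ι] using RingHom.congr_fun hΦι a
      · have h1 : E.symm PowerSeries.X = MvPowerSeries.X none :=
          E.symm_apply_eq.2 MvPowerSeries.optionEquivLeft_X_none.symm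
        simp [h1, hΦX]
    exact fun h => RingHom.congr_fun e h
  have hΦα : Φ.comp (ι.comp α0) = Ψ.comp α0 := by rw [← RingHom.comp_assoc, hΦι]
  let _ := (Ψ.comp α0).toAlgebra
  obtain ⟨a, ha, ha0⟩ := Submodule.exists_mem_ne_zero_of_ne_bot
    (Ideal.comap_ne_bot_of_integral_mem (R := MvPowerSeries (Fin n) V) hc
      (Ideal.mem_span_singleton_self _) (hαf.to_isIntegral _))
  obtain ⟨y, hy⟩ := Ideal.mem_span_singleton.1 ha
  obtain ⟨μ, c₁, hc₁, rfl⟩ := WfDvdMonoid.max_power_factor' ha0 (hpB (Fin n))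
  refine ⟨V, i1, i2, i3, Φ, ![ι f0, E.symm g], ι.comp α0, c₁, μ, hV, fun j => hΦX _,
    by rw [hΦX]; exact hz, le_antisymm (fun q hq => ?_) (Ideal.span_le.2 ?_),
    fun r => (hres r).imp fun v hv => by rwa [← RingHom.comp_apply, hΦC],
    by rw [RingHom.comp_assoc, hα, hιC], hΦα ▸ hαf, hΦα ▸ hαi, hc₁, fun r => ?_⟩
  · have hW := hg.isWeierstrassDivisorAt (maximalIdeal.isMaximal _).ne_top
    obtain ⟨h1, h2⟩ := hW.isWeierstrassDivisionAt_div_mod (E q)
    generalize hW.div (E q) = d at h2
    generalize hW.mod (E q) = m at h1 h2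
    have h3 := hg.coe_natDegree_eq_order_map (g : PowerSeries _) 1
      (by rw [map_one, ← Ideal.ne_top_iff_one]; exact (maximalIdeal.isMaximal _).ne_top)
      (mul_one _).symm
    rw [← h3, ENat.toNat_natCast, ← Polynomial.degree_eq_natDegree hg.monic.ne_zero] at h1
    have h4 : q = E.symm g * E.symm d + E.symm m := by
      rw [← map_mul, ← map_add, ← h2, E.symm_apply_apply]
    have h5 : Φ q = 0 := hq
    rw [h4, map_add, map_mul, hev, hev, hgz, zero_mul, zero_add] at h5
    obtain ⟨m', rfl⟩ := (Polynomial.C_dvd_iff_dvd_coeff f0 m).2 fun i =>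
      Ideal.mem_span_singleton.1 (hker ▸ hmin m h1 h5 i)
    rw [h4, Polynomial.coe_mul, Polynomial.coe_C, map_mul]
    exact Ideal.add_mem _ (Ideal.mul_mem_right _ _ (Ideal.subset_span ⟨1, rfl⟩))
      (Ideal.mul_mem_right _ _ (Ideal.subset_span ⟨0, rfl⟩))
  · rintro _ ⟨i, rfl⟩
    refine Fin.cases ?_ (fun j => ?_) i
    · exact (RingHom.congr_fun hΦι f0).trans
        (RingHom.mem_ker.1 (hker ▸ Ideal.mem_span_singleton_self f0))
    · rw [Subsingleton.elim j 0]
      exact (hev g).trans hgz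
  · obtain ⟨h, hh⟩ := hcon (y * r)
    refine ⟨E.symm h, ?_⟩
    rw [hev, hh, ← mul_assoc, ← hy]
    exact congrArg (· * r) (RingHom.congr_fun hΦα _).symm

end Vale.Agent.P202
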