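import Vale.Agent.P202.HomCore

/-! Module M3: the multiplicity symbol of Northcott, for subquotients and for modules. -/

namespace Vale.Agent.P202

open Submodule IsLocalRing TensorProduct

universe u v w

section Defs
variable {Λ : Type u} [CommRing Λ] {M : Type v} [AddCommGroup M] [Module Λ M]

/-- The multiplicity symbol `e(y | P / Q)`. -/
noncomputable def multP : List Λ → Submodule Λ M → Submodule Λ M → ℤ
  | [], P, Q => ((rl P Q).toNat : ℤ)
  | a :: l, P, Q => multP l P (Q ⊔ P.map (LinearMap.lsmul Λ M a)) -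
      multP l (P ⊓ Q.comap (LinearMap.lsmul Λ M a)) Q

variable (M) in
/-- The multiplicity symbol `e(y | M)`. -/
noncomputable def mult (y : List Λ) : ℤ := multP y (⊤ : Submodule Λ M) ⊥

/-- `y` is a multiplicity system for `P / Q`: a power of the maximal ideal lies in
`ann (P / Q) + (y)`. -/
def IsSopP [IsLocalRing Λ] (y : List Λ) (P Q : Submodule Λ M) : Prop :=
  (∀ a ∈ y, a ∈ maximalIdeal Λ) ∧
    ∃ N : ℕ, ∀ r ∈ maximalIdeal Λ ^ N, ∃ a ∈ Ideal.ofList y, ∀ x ∈ P, (r - a) • x ∈ Q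

variable (M) in
/-- `y` is a multiplicity system for `M`. -/
def IsSop [IsLocalRing Λ] (y : List Λ) : Prop := IsSopP y (⊤ : Submodule Λ M) ⊥
end Defs

variable {Λ : Type u} [CommRing Λ] [IsLocalRing Λ] [IsNoetherianRing Λ]
  {M : Type v} [AddCommGroup M] [Module Λ M] [Module.Finite Λ M]
  {M' : Type w} [AddCommGroup M'] [Module Λ M']

/-! ### Part A: additivity and recursion -/

omit [IsNoetherianRing Λ] [Module.Finite Λ M] in
theorem isSopP_iff_colon {y : List Λ} {P Q : Submodule Λ M} : IsSopP y P Q ↔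
    (∀ a ∈ y, a ∈ maximalIdeal Λ) ∧
      ∃ N : ℕ, maximalIdeal Λ ^ N ≤ Q.colon (P : Set M) ⊔ Ideal.ofList y := by
  refine and_congr_right fun _ => exists_congr fun N => ⟨fun h r hr => ?_, fun h r hr => ?_⟩
  · obtain ⟨a, ha, hx⟩ := h r hr
    exact Submodule.mem_sup.mpr ⟨r - a, Submodule.mem_colon.mpr hx, a, ha, sub_add_cancel r a⟩
  · obtain ⟨b, hb, a, ha, rfl⟩ := Submodule.mem_sup.mp (h hr)
    refine ⟨a, ha, ?_⟩
    rw [add_sub_cancel_right]
    exact Submodule.mem_colon.mp hb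
theorem isArtinianRing_quot_pow (n : ℕ) : IsArtinianRing (Λ ⧸ maximalIdeal Λ ^ n) := by
  rw [isArtinianRing_iff_krullDimLE_zero, Ring.krullDimLE_zero_iff]
  intro p hp
  have hs : Function.Surjective (Ideal.Quotient.mk (maximalIdeal Λ ^ n)) :=
    Ideal.Quotient.mk_surjective
  have h0 : maximalIdeal Λ ^ n ≤ p.comap (Ideal.Quotient.mk (maximalIdeal Λ ^ n)) := by
    intro r hr
    rw [Ideal.mem_comap, Ideal.Quotient.eq_zero_iff_mem.mpr hr]
    exact p.zero_mem
  have h1 : maximalIdeal Λ ≤ p.comap (Ideal.Quotient.mk (maximalIdeal Λ ^ n)) :=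
    Ideal.IsPrime.le_of_pow_le h0
  have h2 : maximalIdeal Λ = p.comap (Ideal.Quotient.mk (maximalIdeal Λ ^ n)) :=
    (maximalIdeal.isMaximal Λ).eq_of_le (Ideal.IsPrime.ne_top inferInstance) h1
  have h3 : (maximalIdeal Λ).map (Ideal.Quotient.mk (maximalIdeal Λ ^ n)) = p :=
    (congrArg (Ideal.map (Ideal.Quotient.mk (maximalIdeal Λ ^ n))) h2).trans
      (Ideal.map_comap_of_surjective _ hs p)
  rcases Ideal.map_eq_top_or_isMaximal_of_surjective _ hs (maximalIdeal.isMaximal Λ) with h | h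
  · exact absurd (h3.symm.trans h) hp.ne_top
  · exact h3 ▸ h
/-- A finite module killed by a power of the maximal ideal has finite length. -/
theorem length_ne_top_of_pow_smul {n : ℕ} (h : ∀ r ∈ maximalIdeal Λ ^ n, ∀ x : M, r • x = 0) :
    Module.length Λ M ≠ ⊤ := by
  have hT : Module.IsTorsionBySet Λ M (maximalIdeal Λ ^ n : Ideal Λ) := fun x r => h r r.2 x
  let _ := hT.module
  have : IsScalarTower Λ (Λ ⧸ maximalIdeal Λ ^ n) M := hT.isScalarTower
  have := isArtinianRing_quot_pow (Λ := Λ) n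
  have : Module.Finite (Λ ⧸ maximalIdeal Λ ^ n) M := Module.Finite.of_restrictScalars_finite Λ _ _
  rw [Module.length_eq_of_surjective (R := Λ ⧸ maximalIdeal Λ ^ n) (M := M)
    Ideal.Quotient.mk_surjective]
  exact Module.length_ne_top

theorem IsSopP.mono {y : List Λ} {P Q P' Q' : Submodule Λ M} (h : IsSopP y P Q) (hP : P' ≤ P)
    (hQ : Q ≤ Q') : IsSopP y P' Q' := by
  obtain ⟨h1, N, hN⟩ := h
  refine ⟨h1, N, fun r hr => ?_⟩
  obtain ⟨a, ha, hx⟩ := hN r hr
  exact ⟨a, ha, fun x hx' => hQ (hx x (hP hx'))⟩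
theorem IsSopP.cons_left {a : Λ} {l : List Λ} {P Q : Submodule Λ M} (h : IsSopP (a :: l) P Q) :
    IsSopP l P (Q ⊔ P.map (LinearMap.lsmul Λ M a)) := by
  obtain ⟨h1, N, hN⟩ := h
  refine ⟨fun b hb => h1 b (List.mem_cons_of_mem _ hb), N, fun r hr => ?_⟩
  obtain ⟨b, hb, hx⟩ := hN r hr
  rw [Ideal.ofList_cons] at hb
  obtain ⟨_, hc, b', hb', rfl⟩ := Submodule.mem_sup.mp hb
  obtain ⟨c, rfl⟩ := Ideal.mem_span_singleton'.mp hc
  refine ⟨b', hb', fun x hxP => Submodule.mem_sup.mpr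
    ⟨_, hx x hxP, a • c • x, ⟨c • x, P.smul_mem c hxP, rfl⟩, ?_⟩⟩
  rw [smul_smul, ← add_smul]
  exact congrArg (· • x) (by ring)
theorem IsSopP.cons_right {a : Λ} {l : List Λ} {P Q : Submodule Λ M} (h : IsSopP (a :: l) P Q) :
    IsSopP l (P ⊓ Q.comap (LinearMap.lsmul Λ M a)) Q := by
  obtain ⟨h1, N, hN⟩ := h
  refine ⟨fun b hb => h1 b (List.mem_cons_of_mem _ hb), N, fun r hr => ?_⟩
  obtain ⟨b, hb, hx⟩ := hN r hr
  rw [Ideal.ofList_cons] at hb
  obtain ⟨_, hc, b', hb', rfl⟩ := Submodule.mem_sup.mp hb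
  obtain ⟨c, rfl⟩ := Ideal.mem_span_singleton'.mp hc
  refine ⟨b', hb', fun x hxP => ?_⟩
  have e : (r - b') • x = (r - (c * a + b')) • x + c • a • x := by
    rw [smul_smul, ← add_smul]
    exact congrArg (· • x) (by ring)
  rw [e]
  exact Q.add_mem (hx x hxP.1) (Q.smul_mem c hxP.2)
theorem IsSopP.rl_ne_top {P Q : Submodule Λ M} (h : IsSopP [] P Q) : rl P Q ≠ ⊤ := by
  obtain ⟨-, N, hN⟩ := h
  refine length_ne_top_of_pow_smul (n := N) fun r hr => ?_
  rintro ⟨_, x, hx, rfl⟩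
  obtain ⟨a, ha, h⟩ := hN r hr
  rw [Ideal.ofList_nil, Ideal.mem_bot] at ha
  have h1 := h x hx
  rw [ha, sub_zero] at h1
  exact Subtype.ext ((Submodule.Quotient.mk_eq_zero Q).mpr h1)
theorem isSop_quotient_iff {y : List Λ} {I : Ideal Λ} : IsSop (Λ ⧸ I) y ↔
    (∀ a ∈ y, a ∈ maximalIdeal Λ) ∧ ∃ N : ℕ, maximalIdeal Λ ^ N ≤ I ⊔ Ideal.ofList y := by
  have e : (⊥ : Submodule Λ (Λ ⧸ I)).colon ((⊤ : Submodule Λ (Λ ⧸ I)) : Set (Λ ⧸ I)) = I := by
    ext r
    rw [Submodule.mem_colon]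
    constructor
    · intro h
      have h1 := h 1 Submodule.mem_top
      rw [Submodule.mem_bot, Algebra.smul_def, mul_one] at h1
      exact Ideal.Quotient.eq_zero_iff_mem.mp h1
    · intro h x _
      rw [Submodule.mem_bot, Algebra.smul_def, Ideal.Quotient.algebraMap_eq,
        Ideal.Quotient.eq_zero_iff_mem.mpr h, zero_mul]
  rw [IsSop, isSopP_iff_colon, e]
theorem IsSop.of_injective {y : List Λ} (h : IsSop M y) (f : M' →ₗ[Λ] M)
    (hf : Function.Injective f) : IsSop M' y := by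
  obtain ⟨h1, N, hN⟩ := h
  refine ⟨h1, N, fun r hr => ?_⟩
  obtain ⟨a, ha, hx⟩ := hN r hr
  refine ⟨a, ha, fun x _ => (Submodule.mem_bot Λ).mpr (hf ?_)⟩
  rw [map_smul, map_zero]
  exact (Submodule.mem_bot Λ).mp (hx (f x) Submodule.mem_top)
theorem IsSop.of_surjective {y : List Λ} (h : IsSop M y) (f : M →ₗ[Λ] M')
    (hf : Function.Surjective f) : IsSop M' y := by
  obtain ⟨h1, N, hN⟩ := h
  refine ⟨h1, N, fun r hr => ?_⟩
  obtain ⟨a, ha, hx⟩ := hN r hr
  refine ⟨a, ha, fun x _ => (Submodule.mem_bot Λ).mpr ?_⟩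
  obtain ⟨x, rfl⟩ := hf x
  rw [← map_smul, (Submodule.mem_bot Λ).mp (hx x Submodule.mem_top), map_zero]
theorem IsSop.pow {y : List Λ} (h : IsSop M y) {N : ℕ} (hN : 0 < N) :
    IsSop M (y.map (· ^ N)) := by
  obtain ⟨h1, K, hK⟩ := isSopP_iff_colon.mp h
  refine isSopP_iff_colon.mpr ⟨fun a ha => ?_, ?_⟩
  · obtain ⟨b, hb, rfl⟩ := List.mem_map.mp ha
    exact Ideal.pow_mem_of_mem _ (h1 b hb) N hN
  · refine Ideal.exists_pow_le_of_le_radical_of_fg ?_ (IsNoetherian.noetherian _)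
    intro r hr
    refine Ideal.mem_radical_of_pow_mem (m := K) ((hK.trans (sup_le ?_ ?_)) (Ideal.pow_mem_pow hr K))
    · exact le_sup_left.trans Ideal.le_radical
    · refine Ideal.span_le.mpr fun b hb => ⟨N, Ideal.mem_sup_right (Ideal.subset_span ?_)⟩
      exact List.mem_map.mpr ⟨b, hb, rfl⟩
theorem IsSop.length_ne_top {y : List Λ} (h : IsSop M y) :
    Module.length Λ (M ⧸ (Ideal.ofList y • ⊤ : Submodule Λ M)) ≠ ⊤ := by
  obtain ⟨-, N, hN⟩ := h
  refine length_ne_top_of_pow_smul (n := N) fun r hr x => ?_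
  obtain ⟨x, rfl⟩ := Submodule.Quotient.mk_surjective _ x
  obtain ⟨a, ha, hx⟩ := hN r hr
  have h1 := (Submodule.mem_bot Λ).mp (hx x Submodule.mem_top)
  rw [sub_smul, sub_eq_zero] at h1
  rw [← Submodule.Quotient.mk_smul, Submodule.Quotient.mk_eq_zero, h1]
  exact Submodule.smul_mem_smul ha Submodule.mem_top

omit [IsLocalRing Λ] [IsNoetherianRing Λ] [Module.Finite Λ M] in
/-- Invariance under a linear map inducing an isomorphism of subquotients. -/
theorem multP_eq_of_map (y : List Λ) (φ : M →ₗ[Λ] M') {P Q : Submodule Λ M}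
    {P' Q' : Submodule Λ M'} (hQP : Q ≤ P) (hQP' : Q' ≤ P')
    (h1 : ∀ x ∈ P, φ x ∈ P') (h2 : ∀ x ∈ Q, φ x ∈ Q')
    (h3 : ∀ y ∈ P', ∃ x ∈ P, y - φ x ∈ Q') (h4 : ∀ x ∈ P, φ x ∈ Q' → x ∈ Q) :
    multP y P Q = multP y P' Q' := by
  induction y generalizing P Q P' Q' with
  | nil => simp only [multP, rl_eq_of_map φ h1 h2 h3 h4]
  | cons a l ih =>
    have hm : ∀ {N : Type v} [AddCommGroup N] [Module Λ N] (R : Submodule Λ N),
        R.map (LinearMap.lsmul Λ N a) ≤ R := by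
      rintro N _ _ R _ ⟨x, hx, rfl⟩
      exact R.smul_mem a hx
    have hm' : P'.map (LinearMap.lsmul Λ M' a) ≤ P' := by
      rintro _ ⟨x, hx, rfl⟩
      exact P'.smul_mem a hx
    have e1 : multP l P (Q ⊔ P.map (LinearMap.lsmul Λ M a)) =
        multP l P' (Q' ⊔ P'.map (LinearMap.lsmul Λ M' a)) := by
      refine ih (sup_le hQP (hm P)) (sup_le hQP' hm') h1 ?_ ?_ ?_
      · intro x hx
        obtain ⟨q, hq, _, ⟨p, hp, rfl⟩, rfl⟩ := Submodule.mem_sup.mp hx
        rw [map_add]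
        refine Submodule.add_mem_sup (h2 q hq) ⟨φ p, h1 p hp, ?_⟩
        simp
      · intro z hz
        obtain ⟨x, hx, hxz⟩ := h3 z hz
        exact ⟨x, hx, Submodule.mem_sup_left hxz⟩
      · intro x hx hx'
        obtain ⟨q, hq, _, ⟨p', hp', rfl⟩, e⟩ := Submodule.mem_sup.mp hx'
        obtain ⟨p, hp, hpp⟩ := h3 p' hp'
        have h5 : x - a • p ∈ Q := by
          refine h4 _ (P.sub_mem hx (P.smul_mem a hp)) ?_
          have e' : φ (x - a • p) = q + a • (p' - φ p) := by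
            rw [map_sub, map_smul, ← e, smul_sub, LinearMap.lsmul_apply]; abel
          rw [e']
          exact Q'.add_mem hq (Q'.smul_mem a hpp)
        exact Submodule.mem_sup.mpr ⟨_, h5, a • p, ⟨p, hp, rfl⟩, sub_add_cancel _ _⟩
    have e2 : multP l (P ⊓ Q.comap (LinearMap.lsmul Λ M a)) Q =
        multP l (P' ⊓ Q'.comap (LinearMap.lsmul Λ M' a)) Q' := by
      refine ih (le_inf hQP fun x hx => Q.smul_mem a hx)
        (le_inf hQP' fun x hx => Q'.smul_mem a hx) ?_ h2 ?_ fun x hx => h4 x hx.1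
      · intro x hx
        refine ⟨h1 x hx.1, ?_⟩
        have := h2 _ hx.2
        rwa [LinearMap.lsmul_apply, map_smul] at this
      · intro z hz
        obtain ⟨x, hx, hxz⟩ := h3 z hz.1
        refine ⟨x, ⟨hx, h4 (a • x) (P.smul_mem a hx) ?_⟩, hxz⟩
        have e' : φ (a • x) = a • z - a • (z - φ x) := by
          rw [map_smul, smul_sub]; abel
        rw [e']
        exact Q'.sub_mem hz.2 (Q'.smul_mem a hxz)
    simp only [multP, e1, e2]
omit [IsLocalRing Λ] [IsNoetherianRing Λ] [Module.Finite Λ M] in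
theorem mult_eq_of_equiv (y : List Λ) (e : M ≃ₗ[Λ] M') : mult M y = mult M' y :=
  multP_eq_of_map y e.toLinearMap bot_le bot_le (fun _ _ => Submodule.mem_top)
    (fun x hx => by rw [(Submodule.mem_bot Λ).mp hx, map_zero]; exact Submodule.zero_mem _)
    (fun z _ => ⟨e.symm z, Submodule.mem_top, by simp⟩) fun x _ hx => by simpa using hx
omit [IsLocalRing Λ] [IsNoetherianRing Λ] [Module.Finite Λ M] in
theorem multP_eq_mult (y : List Λ) {P Q : Submodule Λ M} (h : Q ≤ P) :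
    multP y P Q = mult (P.map Q.mkQ) y := by
  have e1 : multP y P Q = multP y (P.map Q.mkQ) ⊥ := by
    refine multP_eq_of_map y Q.mkQ h bot_le (fun x hx => ⟨x, hx, rfl⟩) (fun x hx => by simpa using hx)
      ?_ fun x _ hx => by simpa using hx
    rintro _ ⟨x, hx, rfl⟩
    exact ⟨x, hx, by simp⟩
  rw [e1]
  exact (multP_eq_of_map y (P.map Q.mkQ).subtype bot_le bot_le (fun x _ => x.2)
    (fun x hx => by simpa using hx) (fun z hz => ⟨⟨z, hz⟩, Submodule.mem_top, by simp⟩)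
    fun x _ hx => by simpa using hx).symm
omit [IsLocalRing Λ] [IsNoetherianRing Λ] [Module.Finite Λ M] in
theorem multP_top_eq_mult (y : List Λ) (Q : Submodule Λ M) :
    multP y ⊤ Q = mult (M ⧸ Q) y := by
  refine multP_eq_of_map y Q.mkQ le_top bot_le (fun _ _ => Submodule.mem_top)
    (fun x hx => by simpa using hx) (fun z _ => ?_) fun x _ hx => by simpa using hx
  obtain ⟨x, rfl⟩ := Q.mkQ_surjective z
  exact ⟨x, Submodule.mem_top, by simp⟩
omit [IsLocalRing Λ] [IsNoetherianRing Λ] [Module.Finite Λ M] in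
theorem multP_self (y : List Λ) (P : Submodule Λ M) : multP y P P = 0 := by
  cases y with
  | nil => simp [multP, rl_self]
  | cons a l =>
    have e1 : P ⊔ P.map (LinearMap.lsmul Λ M a) = P := by
      refine sup_eq_left.mpr ?_
      rintro _ ⟨x, hx, rfl⟩
      exact P.smul_mem a hx
    have e2 : P ⊓ P.comap (LinearMap.lsmul Λ M a) = P :=
      inf_eq_left.mpr fun x hx => P.smul_mem a hx
    rw [multP, e1, e2, sub_self]
/-- The symbol over a ring and over a quotient ring agree. -/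
theorem multP_restrictScalars {Λ₀ : Type*} [CommRing Λ₀] [Algebra Λ₀ Λ] [Module Λ₀ M]
    [IsScalarTower Λ₀ Λ M] (h : Function.Surjective (algebraMap Λ₀ Λ)) (y : List Λ₀)
    (P Q : Submodule Λ M) :
    multP y (P.restrictScalars Λ₀) (Q.restrictScalars Λ₀) =
      multP (y.map (algebraMap Λ₀ Λ)) P Q := by
  induction y generalizing P Q with
  | nil => simp only [List.map_nil, multP, rl_restrictScalars h]
  | cons a l ih =>
    have e1 : Q.restrictScalars Λ₀ ⊔ (P.restrictScalars Λ₀).map (LinearMap.lsmul Λ₀ M a) =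
        (Q ⊔ P.map (LinearMap.lsmul Λ M (algebraMap Λ₀ Λ a))).restrictScalars Λ₀ := by
      ext x
      simp only [Submodule.restrictScalars_mem, Submodule.mem_sup, Submodule.mem_map,
        LinearMap.lsmul_apply, algebraMap_smul]
    have e2 : P.restrictScalars Λ₀ ⊓ (Q.restrictScalars Λ₀).comap (LinearMap.lsmul Λ₀ M a) =
        (P ⊓ Q.comap (LinearMap.lsmul Λ M (algebraMap Λ₀ Λ a))).restrictScalars Λ₀ := by
      ext x
      simp only [Submodule.restrictScalars_mem, Submodule.mem_inf, Submodule.mem_comap,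
        LinearMap.lsmul_apply, algebraMap_smul]
    rw [List.map_cons, multP, multP, e1, e2, ih, ih]
theorem multP_add {y : List Λ} {A B C : Submodule Λ M} (hCB : C ≤ B) (hBA : B ≤ A)
    (h : IsSopP y A C) : multP y A C = multP y A B + multP y B C := by
  induction y generalizing A B C with
  | nil =>
    have h1 : rl A B ≠ ⊤ := (h.mono le_rfl hCB).rl_ne_top
    have h2 : rl B C ≠ ⊤ := (h.mono hBA le_rfl).rl_ne_top
    simp only [multP, rl_add hCB hBA, ENat.toNat_add h1 h2, Nat.cast_add]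
  | cons a l ih =>
    set f := LinearMap.lsmul Λ M a with hf
    have hfa : ∀ x, f x = a • x := fun _ => rfl
    have hm : ∀ R : Submodule Λ M, R.map f ≤ R := by
      rintro R _ ⟨x, hx, rfl⟩
      exact R.smul_mem a hx
    have hc : ∀ R : Submodule Λ M, R ≤ R.comap f := fun R x hx => R.smul_mem a hx
    have hCA : C ≤ A := hCB.trans hBA
    have e1 : multP l (A ⊓ C.comap f) C =
        multP l (A ⊓ C.comap f) (B ⊓ C.comap f) + multP l (B ⊓ C.comap f) C :=
      ih (le_inf hCB (hc C)) (inf_le_inf_right _ hBA) h.cons_right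
    have e2 : multP l (A ⊓ C.comap f) (B ⊓ C.comap f) = multP l (B ⊔ A ⊓ C.comap f) B := by
      refine multP_eq_of_map l LinearMap.id (inf_le_inf_right _ hBA) le_sup_left
        (fun x hx => Submodule.mem_sup_right hx) (fun x hx => hx.1) ?_ fun x hx hx' => ⟨hx', hx.2⟩
      intro z hz
      obtain ⟨b, hb, x, hx, rfl⟩ := Submodule.mem_sup.mp hz
      exact ⟨x, hx, by simpa using hb⟩
    have l3 : B ⊔ A ⊓ C.comap f ≤ A ⊓ B.comap f :=
      sup_le (le_inf hBA (hc B)) (inf_le_inf_left _ (Submodule.comap_mono hCB))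
    have e3 : multP l (A ⊓ B.comap f) B =
        multP l (A ⊓ B.comap f) (B ⊔ A ⊓ C.comap f) + multP l (B ⊔ A ⊓ C.comap f) B :=
      ih le_sup_left l3 (h.mono le_rfl hCB).cons_right
    have l4 : C ⊔ B.map f ≤ B ⊓ (C ⊔ A.map f) :=
      le_inf (sup_le hCB (hm B)) (sup_le_sup_left (Submodule.map_mono hBA) _)
    have e4 : multP l (A ⊓ B.comap f) (B ⊔ A ⊓ C.comap f) =
        multP l (B ⊓ (C ⊔ A.map f)) (C ⊔ B.map f) := by
      refine multP_eq_of_map l f l3 l4
        (fun x hx => ⟨hx.2, Submodule.mem_sup_right ⟨x, hx.1, rfl⟩⟩) ?_ ?_ ?_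
      · intro x hx
        obtain ⟨b, hb, z, hz, rfl⟩ := Submodule.mem_sup.mp hx
        rw [map_add, add_comm]
        exact Submodule.add_mem_sup hz.2 ⟨b, hb, rfl⟩
      · intro z hz
        obtain ⟨c, hc', _, ⟨x, hx, rfl⟩, e⟩ := Submodule.mem_sup.mp hz.2
        have e' : f x = z - c := by rw [← e]; abel
        refine ⟨x, ⟨hx, ?_⟩, Submodule.mem_sup_left ?_⟩
        · change f x ∈ B
          rw [e']
          exact B.sub_mem hz.1 (hCB hc')
        · rw [e', sub_sub_cancel]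
          exact hc'
      · intro x hx hx'
        obtain ⟨c, hc', _, ⟨b, hb, rfl⟩, e⟩ := Submodule.mem_sup.mp hx'
        refine Submodule.mem_sup.mpr ⟨b, hb, x - b, ⟨A.sub_mem hx.1 (hBA hb), ?_⟩, by abel⟩
        change f (x - b) ∈ C
        rw [map_sub, ← e, add_sub_cancel_right]
        exact hc'
    have e5 : multP l B (C ⊔ B.map f) =
        multP l B (B ⊓ (C ⊔ A.map f)) + multP l (B ⊓ (C ⊔ A.map f)) (C ⊔ B.map f) :=
      ih l4 inf_le_left (h.mono hBA le_rfl).cons_left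
    have e6 : multP l B (B ⊓ (C ⊔ A.map f)) = multP l (B ⊔ A.map f) (C ⊔ A.map f) := by
      refine multP_eq_of_map l LinearMap.id inf_le_left (sup_le_sup_right hCB _)
        (fun x hx => Submodule.mem_sup_left hx) (fun x hx => hx.2) ?_ fun x hx hx' => ⟨hx, hx'⟩
      intro z hz
      obtain ⟨b, hb, x, hx, rfl⟩ := Submodule.mem_sup.mp hz
      exact ⟨b, hb, Submodule.mem_sup_right (by simpa using hx)⟩
    have e7 : multP l A (C ⊔ A.map f) =
        multP l A (B ⊔ A.map f) + multP l (B ⊔ A.map f) (C ⊔ A.map f) :=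
      ih (sup_le_sup_right hCB _) (sup_le hBA (hm A)) h.cons_left
    simp only [multP, ← hf]
    omega
theorem mult_add_of_exact {M₁ : Type*} {M₃ : Type*} [AddCommGroup M₁] [Module Λ M₁]
    [AddCommGroup M₃] [Module Λ M₃] {y : List Λ} (h : IsSop M y) (f : M₁ →ₗ[Λ] M) (g : M →ₗ[Λ] M₃)
    (hf : Function.Injective f) (hg : Function.Surjective g) (hfg : Function.Exact f g) :
    mult M y = mult M₁ y + mult M₃ y := by
  have e1 : multP y ⊤ (LinearMap.ker g) = mult M₃ y := by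
    refine multP_eq_of_map y g le_top bot_le (fun _ _ => Submodule.mem_top)
      (fun x hx => by simpa using hx) (fun z _ => ?_) fun x _ hx => by simpa using hx
    obtain ⟨x, rfl⟩ := hg z
    exact ⟨x, Submodule.mem_top, by simp⟩
  have e2 : mult M₁ y = multP y (LinearMap.ker g) ⊥ := by
    refine multP_eq_of_map y f bot_le bot_le (fun x _ => hfg.apply_apply_eq_zero x)
      (fun x hx => by rw [(Submodule.mem_bot Λ).mp hx, map_zero]; exact Submodule.zero_mem _)
      (fun z hz => ?_) fun x _ hx => (Submodule.mem_bot Λ).mpr (hf ?_)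
    · obtain ⟨x, rfl⟩ := (hfg z).mp hz
      exact ⟨x, Submodule.mem_top, by simp⟩
    · rw [map_zero]
      exact (Submodule.mem_bot Λ).mp hx
  rw [mult, multP_add (B := LinearMap.ker g) bot_le le_top h, e1, e2, add_comm]
omit [IsLocalRing Λ] [IsNoetherianRing Λ] [Module.Finite Λ M] in
theorem mult_nil : mult M ([] : List Λ) = ((Module.length Λ M).toNat : ℤ) := by
  rw [mult, multP, rl_bot, Module.length_top]
open scoped Pointwise in
omit [IsLocalRing Λ] [IsNoetherianRing Λ] [Module.Finite Λ M] in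
theorem mult_cons_of_regular {a : Λ} (l : List Λ) (ha : IsSMulRegular M a) :
    mult M (a :: l) = mult (QuotSMulTop a M) l := by
  have e1 : (⊥ : Submodule Λ M) ⊔ (⊤ : Submodule Λ M).map (LinearMap.lsmul Λ M a) =
      a • (⊤ : Submodule Λ M) := bot_sup_eq _
  have e2 : (⊤ : Submodule Λ M) ⊓ (⊥ : Submodule Λ M).comap (LinearMap.lsmul Λ M a) = ⊥ := by
    refine le_bot_iff.mp fun x hx => (Submodule.mem_bot Λ).mpr (ha ?_)
    have h2 : a • x = 0 := (Submodule.mem_bot Λ).mp hx.2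
    simpa using h2
  rw [mult, multP, e1, e2, multP_self, sub_zero, multP_top_eq_mult]
omit [IsLocalRing Λ] [IsNoetherianRing Λ] [Module.Finite Λ M] in
theorem mult_cons_of_smul_eq_zero {a : Λ} (l : List Λ) (ha : ∀ x : M, a • x = 0) :
    mult M (a :: l) = 0 := by
  have e1 : (⊥ : Submodule Λ M) ⊔ (⊤ : Submodule Λ M).map (LinearMap.lsmul Λ M a) = ⊥ := by
    refine sup_eq_left.mpr ?_
    rintro _ ⟨x, -, rfl⟩
    exact (Submodule.mem_bot Λ).mpr (ha x)
  have e2 : (⊤ : Submodule Λ M) ⊓ (⊥ : Submodule Λ M).comap (LinearMap.lsmul Λ M a) = ⊤ :=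
    inf_eq_left.mpr fun x _ => (Submodule.mem_bot Λ).mpr (ha x)
  rw [mult, multP, e1, e2, sub_self]
omit [IsLocalRing Λ] [IsNoetherianRing Λ] [Module.Finite Λ M] in
theorem mult_of_subsingleton [Subsingleton M] (y : List Λ) : mult M y = 0 := by
  rw [mult, Subsingleton.elim (⊤ : Submodule Λ M) ⊥, multP_self]

end Vale.Agent.P202
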