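import Vale.Agent.P202.MultBAux

/-! Module M3, parts B and C. -/

namespace Vale.Agent.P202

open Submodule IsLocalRing TensorProduct
open scoped Pointwise

universe u v w

variable {Λ : Type u} [CommRing Λ] [IsLocalRing Λ] [IsNoetherianRing Λ]
  {M : Type v} [AddCommGroup M] [Module Λ M] [Module.Finite Λ M]
  {M' : Type w} [AddCommGroup M'] [Module Λ M']

/-! ### Part B: consequences, each by induction on `y` and a prime filtration of `M` -/

theorem mult_nonneg {y : List Λ} (h : IsSop M y) : 0 ≤ mult M y := by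
  induction y generalizing M with
  | nil =>
    rw [mult_nil]
    exact Int.natCast_nonneg _
  | cons a l ih =>
    refine devissage a (motive := fun N _ _ _ => IsSop N (a :: l) → 0 ≤ mult N (a :: l))
      (fun N _ _ _ ha _ => (mult_cons_of_smul_eq_zero l ha).ge) (fun N _ _ _ ha hN => ?_)
      (fun N₁ _ _ _ N₂ _ _ _ N₃ _ _ _ f g hf hg hfg h1 h3 hN => ?_) M h
    · rw [mult_cons_of_regular l ha]
      exact ih (isSop_cons_iff.1 hN).2
    · rw [mult_add_of_exact hN f g hf hg hfg]
      exact add_nonneg (h1 (hN.of_injective f hf)) (h3 (hN.of_surjective g hg))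

theorem multP_nonneg {y : List Λ} {P Q : Submodule Λ M} (hQP : Q ≤ P) (h : IsSopP y P Q) :
    0 ≤ multP y P Q := by
  rw [multP_eq_mult y hQP]
  exact mult_nonneg (isSopP_iff_isSop.1 h)

theorem mult_le_length {y : List Λ} (h : IsSop M y) :
    mult M y ≤ ((Module.length Λ (M ⧸ (Ideal.ofList y • ⊤ : Submodule Λ M))).toNat : ℤ) := by
  induction y generalizing M with
  | nil => rw [mult_nil, length_quot_nil]
  | cons a l ih =>
    rw [mult_cons, length_quot_cons]
    have h1 := ih (isSop_cons_iff.1 h).2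
    have h2 := multP_nonneg bot_le (IsSopP.cons_right h)
    linarith

theorem mult_eq_zero_of_supportDim_lt {y : List Λ} (h : IsSop M y)
    (hd : Module.supportDim Λ M < y.length) : mult M y = 0 := by
  induction y generalizing M with
  | nil =>
    have h1 : Module.supportDim Λ M = ⊥ := by
      rw [List.length_nil, Nat.cast_zero] at hd
      exact WithBot.lt_zero_iff_eq_bot _ |>.1 hd
    have := (Module.supportDim_eq_bot_iff_subsingleton Λ M).1 h1
    exact mult_of_subsingleton _
  | cons a l ih =>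
    refine devissage a (motive := fun N _ _ _ => IsSop N (a :: l) →
        Module.supportDim Λ N < (a :: l).length → mult N (a :: l) = 0)
      (fun N _ _ _ ha _ _ => mult_cons_of_smul_eq_zero l ha) (fun N _ _ _ ha hN hdN => ?_)
      (fun N₁ _ _ _ N₂ _ _ _ N₃ _ _ _ f g hf hg hfg h1 h3 hN hdN => ?_) M h hd
    · rw [mult_cons_of_regular l ha]
      obtain ⟨h1, h2⟩ := isSop_cons_iff.1 hN
      refine ih h2 ?_
      rw [← Module.supportDim_quotSMulTop_succ_eq_supportDim ha h1, List.length_cons,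
        Nat.cast_succ] at hdN
      by_contra hcon
      exact absurd (add_le_add_left (not_lt.1 hcon) 1) (not_le.2 hdN)
    · rw [mult_add_of_exact hN f g hf hg hfg,
        h1 (hN.of_injective f hf) ((Module.supportDim_le_of_injective f hf).trans_lt hdN),
        h3 (hN.of_surjective g hg) ((Module.supportDim_le_of_surjective g hg).trans_lt hdN),
        add_zero]

theorem mult_eq_zero_of_dim_lt {y : List Λ} (h : IsSop M y) (I : Ideal Λ)
    (hI : ∀ r ∈ I, ∀ x : M, r • x = 0) (hd : ringKrullDim (Λ ⧸ I) < y.length) : mult M y = 0 := by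
  refine mult_eq_zero_of_supportDim_lt h (lt_of_le_of_lt ?_ hd)
  rw [Module.supportDim_eq_ringKrullDim_quotient_annihilator]
  have h1 : I ≤ Module.annihilator Λ M := fun r hr => Module.mem_annihilator.2 (hI r hr)
  exact ringKrullDim_le_of_surjective (Ideal.Quotient.factor h1)
    (Ideal.Quotient.factor_surjective h1)

theorem mult_pos_of_supportDim {y : List Λ} (h : IsSop M y)
    (hd : (y.length : WithBot ℕ∞) ≤ Module.supportDim Λ M) : 0 < mult M y := by
  induction y generalizing M with
  | nil =>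
    have h1 : Module.supportDim Λ M ≠ ⊥ := by
      intro h1
      rw [h1] at hd
      simp at hd
    have := (Module.supportDim_ne_bot_iff_nontrivial Λ M).1 h1
    have h2 := h.length_ne_top
    rw [length_quot_nil] at h2
    rw [mult_nil]
    exact_mod_cast ENat.toNat_pos (Module.length_pos (R := Λ) (M := M)).ne' h2
  | cons a l ih =>
    refine devissage a (motive := fun N _ _ _ => IsSop N (a :: l) →
        ((a :: l).length : WithBot ℕ∞) ≤ Module.supportDim Λ N → 0 < mult N (a :: l))
      (fun N _ _ _ ha hN hdN => ?_) (fun N _ _ _ ha hN hdN => ?_)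
      (fun N₁ _ _ _ N₂ _ _ _ N₃ _ _ _ f g hf hg hfg h1 h3 hN hdN => ?_) M h hd
    · have h1 := hdN.trans (hN.tail_of_smul_eq_zero ha).supportDim_le
      rw [List.length_cons] at h1
      exact absurd (Nat.cast_le.1 h1) (by omega)
    · rw [mult_cons_of_regular l ha]
      obtain ⟨h1, h2⟩ := isSop_cons_iff.1 hN
      refine ih h2 ?_
      rw [← Module.supportDim_quotSMulTop_succ_eq_supportDim ha h1, List.length_cons,
        Nat.cast_succ] at hdN
      exact ENat.WithBot.add_le_add_one_right_iff.1 hdN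
    · rw [mult_add_of_exact hN f g hf hg hfg]
      rcases le_max_iff.1 (hdN.trans (supportDim_le_max_of_exact f g hf hg hfg)) with h4 | h4
      · exact add_pos_of_pos_of_nonneg (h1 (hN.of_injective f hf) h4)
          (mult_nonneg (hN.of_surjective g hg))
      · exact add_pos_of_nonneg_of_pos (mult_nonneg (hN.of_injective f hf))
          (h3 (hN.of_surjective g hg) h4)

theorem mult_pos {y : List Λ} (I : Ideal Λ) (h : IsSop (Λ ⧸ I) y)
    (hd : ringKrullDim (Λ ⧸ I) = y.length) : 0 < mult (Λ ⧸ I) y :=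
  mult_pos_of_supportDim h (by rw [Module.supportDim_quotient_eq_ringKrullDim, hd])

theorem mult_quotSMulTop_pow {a : Λ} {l : List Λ} (h : IsSop M (a :: l)) (ha : IsSMulRegular M a)
    (k : ℕ) : mult (QuotSMulTop (a ^ k) M) l = k * mult (QuotSMulTop a M) l := by
  rw [← multP_top_eq_mult, ← multP_top_eq_mult]
  induction k with
  | zero => rw [pow_zero, one_smul, multP_self, Nat.cast_zero, zero_mul]
  | succ k ih =>
    have h1 : IsSopP l (⊤ : Submodule Λ M) (a ^ (k + 1) • ⊤) := by
      have h2 := IsSopP.cons_left (h.cons_pow (Nat.succ_pos k))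
      rwa [bot_sup_eq, map_lsmul_top] at h2
    have h2 : a ^ (k + 1) • (⊤ : Submodule Λ M) ≤ a ^ k • ⊤ := by
      rw [pow_succ, mul_smul]
      exact smul_mono_right _ le_top
    have h3 : multP l (⊤ : Submodule Λ M) (a • ⊤) = multP l (a ^ k • (⊤ : Submodule Λ M))
        (a ^ (k + 1) • ⊤) := by
      refine multP_eq_of_map l (LinearMap.lsmul Λ M (a ^ k)) le_top h2
        (fun x _ => Submodule.smul_mem_pointwise_smul _ _ _ trivial) (fun x hx => ?_)
        (fun z hz => ?_) (fun x _ hx => ?_)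
      · obtain ⟨s, -, rfl⟩ := (Submodule.mem_smul_pointwise_iff_exists _ _ _).1 hx
        rw [LinearMap.lsmul_apply, smul_smul, ← pow_succ]
        exact Submodule.smul_mem_pointwise_smul _ _ _ trivial
      · obtain ⟨s, -, rfl⟩ := (Submodule.mem_smul_pointwise_iff_exists _ _ _).1 hz
        refine ⟨s, trivial, ?_⟩
        rw [LinearMap.lsmul_apply, sub_self]
        exact Submodule.zero_mem _
      · obtain ⟨s, -, hs⟩ := (Submodule.mem_smul_pointwise_iff_exists _ _ _).1 hx
        rw [LinearMap.lsmul_apply, pow_succ, mul_smul] at hs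
        rw [← ha.pow k hs]
        exact Submodule.smul_mem_pointwise_smul _ _ _ trivial
    rw [multP_add h2 le_top h1, ih, ← h3]
    push_cast
    ring

theorem mult_pow {y : List Λ} (h : IsSop M y) {N : ℕ} (hN : 0 < N) :
    mult M (y.map (· ^ N)) = (N : ℤ) ^ y.length * mult M y := by
  induction y generalizing M with
  | nil => simp
  | cons a l ih =>
    refine devissage a (motive := fun P _ _ _ => IsSop P (a :: l) →
        mult P ((a :: l).map (· ^ N)) = (N : ℤ) ^ (a :: l).length * mult P (a :: l))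
      (fun P _ _ _ ha _ => ?_) (fun P _ _ _ ha hP => ?_)
      (fun N₁ _ _ _ N₂ _ _ _ N₃ _ _ _ f g hf hg hfg h1 h3 hP => ?_) M h
    · rw [mult_cons_of_smul_eq_zero l ha, mul_zero, List.map_cons]
      refine mult_cons_of_smul_eq_zero _ fun x => ?_
      obtain ⟨k, rfl⟩ := Nat.exists_eq_succ_of_ne_zero hN.ne'
      rw [pow_succ, mul_smul, ha, smul_zero]
    · rw [List.map_cons, mult_cons_of_regular _ (ha.pow N), mult_cons_of_regular _ ha,
        ih (isSop_cons_iff.1 (hP.cons_pow hN)).2, mult_quotSMulTop_pow hP ha, List.length_cons]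
      ring
    · rw [mult_add_of_exact hP f g hf hg hfg, mult_add_of_exact (hP.pow hN) f g hf hg hfg,
        h1 (hP.of_injective f hf), h3 (hP.of_surjective g hg)]
      ring

theorem mult_eq_length_of_isRegular {y : List Λ} (h : RingTheory.Sequence.IsWeaklyRegular M y) :
    mult M y = ((Module.length Λ (M ⧸ (Ideal.ofList y • ⊤ : Submodule Λ M))).toNat : ℤ) := by
  induction y generalizing M with
  | nil => rw [mult_nil, length_quot_nil]
  | cons a l ih =>
    obtain ⟨h1, h2⟩ := (RingTheory.Sequence.isWeaklyRegular_cons_iff M a l).1 h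
    rw [mult_cons_of_regular l h1, length_quot_cons, ih h2]

theorem isSop_append_baseChange {Λ' : Type w} [CommRing Λ'] [IsLocalRing Λ']
    [IsNoetherianRing Λ'] [Algebra Λ Λ'] [IsLocalHom (algebraMap Λ Λ')] {y : List Λ}
    (h : IsSop M y) {w : List Λ'}
    (hw : IsSop (Λ' ⧸ (maximalIdeal Λ).map (algebraMap Λ Λ')) w) :
    IsSop (Λ' ⊗[Λ] M) (y.map (algebraMap Λ Λ') ++ w) := by
  rw [isSop_iff_support] at h hw ⊢
  constructor
  · intro a ha
    rcases List.mem_append.1 ha with ha | ha
    · obtain ⟨b, hb, rfl⟩ := List.mem_map.1 ha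
      exact map_nonunit _ b (h.1 b hb)
    · exact hw.1 a ha
  · intro p hp hy
    refine hw.2 p ?_ fun a ha => hy a (List.mem_append_right _ ha)
    rw [Module.mem_support_iff_of_finite, Ideal.annihilator_quotient, Ideal.map_le_iff_le_comap]
    refine (h.2 (PrimeSpectrum.comap (algebraMap Λ Λ') p) ?_ fun a ha => ?_).ge
    · rw [Module.mem_support_iff_of_finite] at hp ⊢
      intro r hr
      refine hp (Module.mem_annihilator.2 fun x => ?_)
      rw [algebraMap_smul]
      induction x using TensorProduct.induction_on with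
      | zero => rw [smul_zero]
      | tmul b m => rw [← TensorProduct.tmul_smul, Module.mem_annihilator.1 hr, tmul_zero]
      | add x z hx hz => rw [smul_add, hx, hz, add_zero]
    · exact hy _ (List.mem_append_left _ (List.mem_map_of_mem ha))

/-- (Assoc) flat local base change with extra parameters `w` for the closed fibre. -/
theorem mult_append_baseChange {Λ' : Type w} [CommRing Λ'] [IsLocalRing Λ'] [IsNoetherianRing Λ']
    [Algebra Λ Λ'] [IsLocalHom (algebraMap Λ Λ')] [Module.Flat Λ Λ'] {y : List Λ} (h : IsSop M y)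
    {w : List Λ'} (hw : IsSop (Λ' ⧸ (maximalIdeal Λ).map (algebraMap Λ Λ')) w) :
    IsSop (Λ' ⊗[Λ] M) (y.map (algebraMap Λ Λ') ++ w) ∧
    mult (Λ' ⊗[Λ] M) (y.map (algebraMap Λ Λ') ++ w) =
      mult M y * mult (Λ' ⧸ (maximalIdeal Λ).map (algebraMap Λ Λ')) w := by
  refine ⟨isSop_append_baseChange h hw, ?_⟩
  have hex : ∀ (y : List Λ) (N₁ : Type v) [AddCommGroup N₁] [Module Λ N₁] [Module.Finite Λ N₁]
      (N₂ : Type v) [AddCommGroup N₂] [Module Λ N₂] [Module.Finite Λ N₂]
      (N₃ : Type v) [AddCommGroup N₃] [Module Λ N₃] [Module.Finite Λ N₃]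
      (f : N₁ →ₗ[Λ] N₂) (g : N₂ →ₗ[Λ] N₃),
      Function.Injective f → Function.Surjective g → Function.Exact f g →
      (IsSop N₁ y → mult (Λ' ⊗[Λ] N₁) (y.map (algebraMap Λ Λ') ++ w) =
        mult N₁ y * mult (Λ' ⧸ (maximalIdeal Λ).map (algebraMap Λ Λ')) w) →
      (IsSop N₃ y → mult (Λ' ⊗[Λ] N₃) (y.map (algebraMap Λ Λ') ++ w) =
        mult N₃ y * mult (Λ' ⧸ (maximalIdeal Λ).map (algebraMap Λ Λ')) w) →
      (IsSop N₂ y → mult (Λ' ⊗[Λ] N₂) (y.map (algebraMap Λ Λ') ++ w) =
        mult N₂ y * mult (Λ' ⧸ (maximalIdeal Λ).map (algebraMap Λ Λ')) w) := by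
    intro y N₁ _ _ _ N₂ _ _ _ N₃ _ _ _ f g hf hg hfg h1 h3 hP
    have hf' : Function.Injective (f.baseChange Λ') :=
      Module.Flat.lTensor_preserves_injective_linearMap (M := Λ') f hf
    have hg' : Function.Surjective (g.baseChange Λ') := LinearMap.lTensor_surjective Λ' hg
    have hfg' : Function.Exact (f.baseChange Λ') (g.baseChange Λ') := lTensor_exact Λ' hfg hg
    rw [mult_add_of_exact hP f g hf hg hfg,
      mult_add_of_exact (isSop_append_baseChange hP hw) _ _ hf' hg' hfg',
      h1 (hP.of_injective f hf), h3 (hP.of_surjective g hg), add_mul]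
  induction y generalizing M with
  | nil =>
    refine IsNoetherianRing.induction_on_isQuotientEquivQuotientPrime Λ
      (inferInstance : Module.Finite Λ M) (motive := fun P _ _ _ => IsSop P [] →
        mult (Λ' ⊗[Λ] P) (([] : List Λ).map (algebraMap Λ Λ') ++ w) =
          mult P ([] : List Λ) * mult (Λ' ⧸ (maximalIdeal Λ).map (algebraMap Λ Λ')) w)
      (fun P _ _ _ _ _ => ?_) (fun P _ _ _ p e hP => ?_) (hex []) h
    · rw [mult_of_subsingleton, mult_of_subsingleton (M := P), zero_mul]
    · have hp : p.asIdeal = maximalIdeal Λ := by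
        refine (isSop_iff_support.1 hP).2 p ?_ (by simp)
        rw [e.support_eq, Module.mem_support_iff_of_finite, Ideal.annihilator_quotient]
      let e' : P ≃ₗ[Λ] Λ ⧸ maximalIdeal Λ := e ≪≫ₗ Submodule.quotEquivOfEq _ _ hp
      have h1 : Module.length Λ P = 1 := by
        rw [e'.length_eq, Module.length_eq_one_iff, isSimpleModule_iff_isCoatom]
        exact (maximalIdeal.isMaximal Λ).out
      rw [mult_nil, h1, List.map_nil, List.nil_append, mult_eq_of_equiv w
        (e'.baseChange Λ Λ' _ _ ≪≫ₗ (Algebra.TensorProduct.quotIdealMapEquivTensorQuot Λ'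
          (maximalIdeal Λ)).toLinearEquiv.symm)]
      simp
  | cons a l ih =>
    refine devissage a (motive := fun P _ _ _ => IsSop P (a :: l) →
        mult (Λ' ⊗[Λ] P) ((a :: l).map (algebraMap Λ Λ') ++ w) =
          mult P (a :: l) * mult (Λ' ⧸ (maximalIdeal Λ).map (algebraMap Λ Λ')) w)
      (fun P _ _ _ ha _ => ?_) (fun P _ _ _ ha hP => ?_) (hex (a :: l)) M h
    · rw [mult_cons_of_smul_eq_zero l ha, zero_mul, List.map_cons, List.cons_append]
      refine mult_cons_of_smul_eq_zero _ fun x => ?_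
      rw [algebraMap_smul]
      induction x using TensorProduct.induction_on with
      | zero => rw [smul_zero]
      | tmul b m => rw [← TensorProduct.tmul_smul, ha, tmul_zero]
      | add x z hx hz => rw [smul_add, hx, hz, add_zero]
    · rw [List.map_cons, List.cons_append, mult_cons_of_regular _ ha,
        mult_cons_of_regular _ (ha.of_flat_of_isBaseChange (TensorProduct.isBaseChange Λ P Λ')),
        mult_eq_of_equiv _ (QuotSMulTop.algebraMapTensorEquivTensorQuotSMulTop a P Λ'),
        ih (isSop_cons_iff.1 hP).2]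

/-- (K7) the cyclic case, for a ring homomorphism (used for Frobenius). -/
theorem mult_quotient_map {Λ' : Type w} [CommRing Λ'] [IsLocalRing Λ'] [IsNoetherianRing Λ']
    (f : Λ →+* Λ') [IsLocalHom f] (hf : f.Flat) (I : Ideal Λ) {y : List Λ} (h : IsSop (Λ ⧸ I) y)
    {w : List Λ'} (hw : IsSop (Λ' ⧸ (maximalIdeal Λ).map f) w) :
    IsSop (Λ' ⧸ I.map f) (y.map f ++ w) ∧
    mult (Λ' ⧸ I.map f) (y.map f ++ w) =
      mult (Λ ⧸ I) y * mult (Λ' ⧸ (maximalIdeal Λ).map f) w := by
  letI : Algebra Λ Λ' := f.toAlgebra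
  haveI : Module.Flat Λ Λ' := hf
  haveI : IsLocalHom (algebraMap Λ Λ') := ‹IsLocalHom f›
  obtain ⟨h1, h2⟩ := mult_append_baseChange (Λ' := Λ') h (w := w) hw
  let e := (Algebra.TensorProduct.quotIdealMapEquivTensorQuot Λ' I).toLinearEquiv
  exact ⟨h1.of_injective e.toLinearMap e.injective, (mult_eq_of_equiv _ e).trans h2⟩

/-! ### Part C: growth bounds -/

theorem length_quot_pow_le {y : List Λ} {N : ℕ} :
    Module.length Λ (M ⧸ (Ideal.ofList (y.map (· ^ N)) • ⊤ : Submodule Λ M)) ≤
      (N : ℕ∞) ^ y.length * Module.length Λ (M ⧸ (Ideal.ofList y • ⊤ : Submodule Λ M)) := by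
  have h := rl_sup_ofList_pow_le y N (⊥ : Submodule Λ M)
  rwa [bot_sup_eq, bot_sup_eq, rl_top, rl_top] at h

theorem toNat_le_mul {a b : ℕ∞} {c : ℕ} (h : a ≤ c * b) (hb : b ≠ ⊤) :
    (a.toNat : ℝ) ≤ c * (b.toNat : ℝ) := by
  lift b to ℕ using hb
  have h1 : a ≤ ((c * b : ℕ) : ℕ∞) := by rw [Nat.cast_mul]; exact h
  have h2 := ENat.toNat_le_of_le_natCast h1
  rw [ENat.toNat_natCast]
  exact_mod_cast h2

theorem toNat_le_add {a b c : ℕ∞} (h : a ≤ b + c) (hb : b ≠ ⊤) (hc : c ≠ ⊤) :
    (a.toNat : ℝ) ≤ (b.toNat : ℝ) + (c.toNat : ℝ) := by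
  lift b to ℕ using hb
  lift c to ℕ using hc
  have h1 : a ≤ ((b + c : ℕ) : ℕ∞) := by rw [Nat.cast_add]; exact h
  have h2 := ENat.toNat_le_of_le_natCast h1
  rw [ENat.toNat_natCast, ENat.toNat_natCast]
  exact_mod_cast h2

/-- Lech's upper bound for the parameter powers. -/
theorem exists_length_pow_le {y : List Λ} (h : IsSop M y) : ∃ K : ℝ, ∀ N : ℕ, 0 < N →
    (N : ℝ) * (Module.length Λ (M ⧸ (Ideal.ofList (y.map (· ^ N)) • ⊤ : Submodule Λ M))).toNat ≤
      (N : ℝ) ^ (y.length + 1) * (mult M y : ℝ) + K * (N : ℝ) ^ y.length := by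
  induction y generalizing M with
  | nil =>
    refine ⟨0, fun N _ => ?_⟩
    rw [List.map_nil, length_quot_nil, mult_nil]
    simp
  | cons a l ih =>
    refine devissage a (motive := fun P _ _ _ => IsSop P (a :: l) → ∃ K : ℝ, ∀ N : ℕ, 0 < N →
        (N : ℝ) * (Module.length Λ (P ⧸ (Ideal.ofList ((a :: l).map (· ^ N)) • ⊤ :
          Submodule Λ P))).toNat ≤
        (N : ℝ) ^ ((a :: l).length + 1) * (mult P (a :: l) : ℝ) + K * (N : ℝ) ^ (a :: l).length)
      (fun P _ _ _ ha hP => ?_) (fun P _ _ _ ha hP => ?_)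
      (fun N₁ _ _ _ N₂ _ _ _ N₃ _ _ _ f g hf hg hfg h1 h3 hP => ?_) M h
    · have hl := hP.tail_of_smul_eq_zero ha
      refine ⟨(Module.length Λ (P ⧸ (Ideal.ofList l • ⊤ : Submodule Λ P))).toNat, fun N hN => ?_⟩
      have h1 : Module.length Λ (P ⧸ (Ideal.ofList ((a :: l).map (· ^ N)) • ⊤ : Submodule Λ P)) ≤
          ((N ^ l.length : ℕ) : ℕ∞) *
            Module.length Λ (P ⧸ (Ideal.ofList l • ⊤ : Submodule Λ P)) := by
        rw [Nat.cast_pow]
        refine le_trans (length_quot_anti ?_) length_quot_pow_le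
        rw [List.map_cons, Ideal.ofList_cons_smul]
        exact le_sup_right
      have h2 := mul_le_mul_of_nonneg_left (toNat_le_mul h1 hl.length_ne_top)
        (Nat.cast_nonneg (α := ℝ) N)
      rw [mult_cons_of_smul_eq_zero l ha, List.length_cons]
      push_cast at h2 ⊢
      refine h2.trans (le_of_eq ?_)
      ring
    · have hl := (isSop_cons_iff.1 hP).2
      obtain ⟨K, hK⟩ := ih hl
      refine ⟨K, fun N hN => ?_⟩
      have h1 : Module.length Λ (P ⧸ (Ideal.ofList ((a :: l).map (· ^ N)) • ⊤ : Submodule Λ P)) ≤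
          (N : ℕ∞) * Module.length Λ (QuotSMulTop a P ⧸ (Ideal.ofList (l.map (· ^ N)) • ⊤ :
            Submodule Λ (QuotSMulTop a P))) := by
        rw [← length_quot_cons, List.map_cons, Ideal.ofList_cons_smul, Ideal.ofList_cons_smul,
          ← rl_top, ← rl_top, sup_comm, sup_comm (a • (⊤ : Submodule Λ P))]
        exact rl_sup_pow_le a N _
      have h2 := mul_le_mul_of_nonneg_left (toNat_le_mul h1 (hl.pow hN).length_ne_top)
        (Nat.cast_nonneg (α := ℝ) N)
      have h3 := mul_le_mul_of_nonneg_left (hK N hN) (Nat.cast_nonneg (α := ℝ) N)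
      rw [mult_cons_of_regular l ha, List.length_cons]
      refine h2.trans (h3.trans (le_of_eq ?_))
      ring
    · obtain ⟨K₁, hK₁⟩ := h1 (hP.of_injective f hf)
      obtain ⟨K₃, hK₃⟩ := h3 (hP.of_surjective g hg)
      refine ⟨K₁ + K₃, fun N hN => ?_⟩
      have h4 := mul_le_mul_of_nonneg_left (toNat_le_add (length_quot_smul_le_of_exact
        (Ideal.ofList ((a :: l).map (· ^ N))) f g hg hfg)
        ((hP.of_injective f hf).pow hN).length_ne_top
        ((hP.of_surjective g hg).pow hN).length_ne_top) (Nat.cast_nonneg (α := ℝ) N)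
      rw [mult_add_of_exact hP f g hf hg hfg]
      have h5 := hK₁ N hN
      have h6 := hK₃ N hN
      push_cast
      linarith

theorem IsSop.length_idealPow_ne_top {y : List Λ} (h : IsSop M y) (N : ℕ) :
    Module.length Λ (M ⧸ (Ideal.ofList y ^ N • ⊤ : Submodule Λ M)) ≠ ⊤ := by
  have h1 : IsSop (M ⧸ (Ideal.ofList y ^ N • ⊤ : Submodule Λ M)) ([] : List Λ) := by
    rw [isSop_iff_support] at h ⊢
    refine ⟨by simp, fun p hp _ => ?_⟩
    rw [Module.support_quotient] at hp
    refine h.2 p hp.1 fun a ha => ?_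
    exact Ideal.IsPrime.le_of_pow_le (P := p.asIdeal) hp.2 (Ideal.subset_span ha)
  have h2 := h1.length_ne_top
  rwa [length_quot_nil] at h2

omit [IsLocalRing Λ] [IsNoetherianRing Λ] [Module.Finite Λ M] in
/-- The filtration of `M / q ^ N M` by the powers of the first generator of `q`. -/
theorem length_idealPow_le_sum (a : Λ) (l : List Λ) (N : ℕ) :
    Module.length Λ (M ⧸ (Ideal.ofList (a :: l) ^ N • ⊤ : Submodule Λ M)) ≤
      ∑ k ∈ Finset.range N, Module.length Λ (QuotSMulTop a M ⧸
        (Ideal.ofList l ^ (k + 1) • ⊤ : Submodule Λ (QuotSMulTop a M))) := by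
  induction N with
  | zero =>
    rw [pow_zero, one_smul, ← rl_top, rl_self]
    exact zero_le
  | succ N ih =>
    rw [Finset.sum_range_succ_comm, ← rl_top]
    rw [← rl_top] at ih
    have ha : a ∈ Ideal.ofList (a :: l) := Ideal.subset_span List.mem_cons_self
    refine (rl_le_add ⊤ (Ideal.ofList (a :: l) ^ (N + 1) • ⊤ ⊔ a • ⊤) _).trans
      (add_le_add ?_ (le_trans ?_ ih))
    · rw [← rl_top]
      refine rl_le_of_map_inj (a • (⊤ : Submodule Λ M)).mkQ (fun _ _ => trivial) fun x _ hx => ?_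
      have h1 : (Ideal.ofList l ^ (N + 1) • ⊤ : Submodule Λ (QuotSMulTop a M)) =
          (Ideal.ofList l ^ (N + 1) • ⊤ : Submodule Λ M).map (a • (⊤ : Submodule Λ M)).mkQ := by
        rw [Submodule.map_smul'', Submodule.map_top, Submodule.range_mkQ]
      rw [h1, ← Submodule.mem_comap, Submodule.comap_map_mkQ, sup_comm] at hx
      have h2 : Ideal.ofList l ≤ Ideal.ofList (a :: l) := by
        rw [Ideal.ofList_cons]
        exact le_sup_right
      have h3 : (Ideal.ofList l ^ (N + 1) • ⊤ : Submodule Λ M) ⊔ a • ⊤ ≤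
          Ideal.ofList (a :: l) ^ (N + 1) • ⊤ ⊔ a • ⊤ :=
        sup_le_sup_right (Submodule.smul_mono (Ideal.pow_right_mono h2 _) le_rfl) _
      exact h3 hx
    · rw [sup_comm, rl_sup]
      refine rl_le_of_map_surj (LinearMap.lsmul Λ M a) (fun x hx => ?_) fun z hz => ?_
      · rw [pow_succ', mul_smul]
        exact Submodule.smul_mem_smul ha hx.2
      · obtain ⟨s, -, rfl⟩ := (Submodule.mem_smul_pointwise_iff_exists _ _ _).1 hz
        refine ⟨s, trivial, ?_⟩
        rw [LinearMap.lsmul_apply, sub_self]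
        exact Submodule.zero_mem _

theorem exists_length_idealPow_le' {y : List Λ} (h : IsSop M y) : ∃ K : ℝ, 0 ≤ K ∧ ∀ N : ℕ, 0 < N →
    (y.length.factorial : ℝ) *
        (Module.length Λ (M ⧸ (Ideal.ofList y ^ N • ⊤ : Submodule Λ M))).toNat ≤
      (N : ℝ) ^ y.length * (mult M y : ℝ) + K * (y.length * (N : ℝ) ^ (y.length - 1)) := by
  induction y generalizing M with
  | nil =>
    refine ⟨0, le_rfl, fun N hN => ?_⟩
    have h1 : Ideal.ofList ([] : List Λ) ^ N = Ideal.ofList [] := by
      rw [Ideal.ofList_nil, ← Ideal.zero_eq_bot, zero_pow hN.ne']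
    rw [h1, length_quot_nil, mult_nil]
    simp
  | cons a l ih =>
    have hpw : ∀ N : ℕ, 0 < N → ∀ k : ℕ, k ≤ N →
        (l.length : ℝ) * (k : ℝ) ^ (l.length - 1) * N ≤ l.length * (N : ℝ) ^ l.length := by
      intro N hN k hk
      rcases Nat.eq_zero_or_pos l.length with h0 | h0
      · rw [h0]; simp
      · have h1 : (N : ℝ) ^ l.length = (N : ℝ) ^ (l.length - 1) * N := by
          rw [← pow_succ, Nat.sub_add_cancel h0]
        have h2 : (k : ℝ) ^ (l.length - 1) ≤ (N : ℝ) ^ (l.length - 1) :=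
          pow_le_pow_left₀ (Nat.cast_nonneg k) (Nat.cast_le.2 hk) _
        rw [h1, mul_assoc]
        gcongr
    refine devissage a (motive := fun P _ _ _ => IsSop P (a :: l) → ∃ K : ℝ, 0 ≤ K ∧
        ∀ N : ℕ, 0 < N → ((a :: l).length.factorial : ℝ) *
          (Module.length Λ (P ⧸ (Ideal.ofList (a :: l) ^ N • ⊤ : Submodule Λ P))).toNat ≤
        (N : ℝ) ^ (a :: l).length * (mult P (a :: l) : ℝ) +
          K * ((a :: l).length * (N : ℝ) ^ ((a :: l).length - 1)))
      (fun P _ _ _ ha hP => ?_) (fun P _ _ _ ha hP => ?_)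
      (fun N₁ _ _ _ N₂ _ _ _ N₃ _ _ _ f g hf hg hfg h1 h3 hP => ?_) M h
    · have hl := hP.tail_of_smul_eq_zero ha
      obtain ⟨K, hK0, hK⟩ := ih hl
      have he : (0 : ℝ) ≤ (mult P l : ℝ) := by exact_mod_cast mult_nonneg hl
      refine ⟨(mult P l : ℝ) + K * l.length, by positivity, fun N hN => ?_⟩
      have h1 : Module.length Λ (P ⧸ (Ideal.ofList (a :: l) ^ N • ⊤ : Submodule Λ P)) ≤
          ((1 : ℕ) : ℕ∞) * Module.length Λ (P ⧸ (Ideal.ofList l ^ N • ⊤ : Submodule Λ P)) := by
        rw [Nat.cast_one, one_mul]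
        refine length_quot_anti (Submodule.smul_mono (Ideal.pow_right_mono ?_ _) le_rfl)
        rw [Ideal.ofList_cons]
        exact le_sup_right
      have h2 := toNat_le_mul h1 (hl.length_idealPow_ne_top N)
      have h3 := hK N hN
      have h4 := hpw N hN N le_rfl
      have hN1 : (1 : ℝ) ≤ N := by exact_mod_cast hN
      have h5 : (l.length : ℝ) * (N : ℝ) ^ (l.length - 1) ≤ l.length * (N : ℝ) ^ l.length :=
        le_trans (le_mul_of_one_le_right (by positivity) hN1) h4
      have h6 := mul_le_mul_of_nonneg_left h5 hK0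
      rw [mult_cons_of_smul_eq_zero l ha, List.length_cons, Nat.factorial_succ,
        Nat.add_sub_cancel]
      push_cast at h2 ⊢
      have h7 := mul_le_mul_of_nonneg_left h2 (Nat.cast_nonneg (α := ℝ) l.length.factorial)
      have h8 : (l.length.factorial : ℝ) * (Module.length Λ (P ⧸ (Ideal.ofList (a :: l) ^ N • ⊤ :
          Submodule Λ P))).toNat ≤ ((mult P l : ℝ) + K * l.length) * (N : ℝ) ^ l.length := by
        linarith
      have h9 := mul_le_mul_of_nonneg_left h8 (by positivity : (0 : ℝ) ≤ (l.length : ℝ) + 1)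
      linarith
    · have hl := (isSop_cons_iff.1 hP).2
      obtain ⟨K, hK0, hK⟩ := ih hl
      have he : (0 : ℝ) ≤ (mult (QuotSMulTop a P) l : ℝ) := by exact_mod_cast mult_nonneg hl
      refine ⟨(mult (QuotSMulTop a P) l : ℝ) + K * l.length, by positivity, fun N hN => ?_⟩
      have hN0 : (0 : ℝ) < N := by exact_mod_cast hN
      have h1 := length_idealPow_le_sum (M := P) a l N
      have h2 : ((Module.length Λ (P ⧸ (Ideal.ofList (a :: l) ^ N • ⊤ : Submodule Λ P))).toNat : ℝ)
          ≤ ∑ k ∈ Finset.range N, ((Module.length Λ (QuotSMulTop a P ⧸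
            (Ideal.ofList l ^ (k + 1) • ⊤ : Submodule Λ (QuotSMulTop a P)))).toNat : ℝ) := by
        have h3 : ∑ k ∈ Finset.range N, Module.length Λ (QuotSMulTop a P ⧸
            (Ideal.ofList l ^ (k + 1) • ⊤ : Submodule Λ (QuotSMulTop a P))) =
            ((∑ k ∈ Finset.range N, (Module.length Λ (QuotSMulTop a P ⧸
            (Ideal.ofList l ^ (k + 1) • ⊤ : Submodule Λ (QuotSMulTop a P)))).toNat : ℕ) : ℕ∞) := by
          rw [Nat.cast_sum]
          exact Finset.sum_congr rfl fun k _ =>
            (ENat.natCast_toNat (hl.length_idealPow_ne_top (k + 1))).symm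
        rw [h3] at h1
        exact_mod_cast ENat.toNat_le_of_le_natCast h1
      have h3 : (l.length.factorial : ℝ) * ∑ k ∈ Finset.range N, ((Module.length Λ
          (QuotSMulTop a P ⧸ (Ideal.ofList l ^ (k + 1) • ⊤ :
            Submodule Λ (QuotSMulTop a P)))).toNat : ℝ) ≤
          ∑ k ∈ Finset.range N, (((k : ℝ) + 1) ^ l.length * (mult (QuotSMulTop a P) l : ℝ) +
            K * (l.length * (N : ℝ) ^ l.length / N)) := by
        rw [Finset.mul_sum]
        refine Finset.sum_le_sum fun k hk => ?_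
        have h4 := hK (k + 1) (Nat.succ_pos k)
        have h5 := hpw N hN (k + 1) (Finset.mem_range.1 hk)
        rw [← le_div_iff₀ hN0] at h5
        have h6 := mul_le_mul_of_nonneg_left h5 hK0
        push_cast at h4 h6
        linarith
      rw [Finset.sum_add_distrib, ← Finset.sum_mul, Finset.sum_const, Finset.card_range,
        nsmul_eq_mul] at h3
      have h4 : (N : ℝ) * (K * (l.length * (N : ℝ) ^ l.length / N)) =
          K * (l.length * (N : ℝ) ^ l.length) := by field_simp
      have h5 := mul_le_mul_of_nonneg_right (sum_range_succ_pow_le l.length N) he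
      have h6 := mul_le_mul_of_nonneg_left h2 (Nat.cast_nonneg (α := ℝ) l.length.factorial)
      have h7 := mul_le_mul_of_nonneg_left (h6.trans h3)
        (by positivity : (0 : ℝ) ≤ (l.length : ℝ) + 1)
      rw [h4] at h7
      rw [mult_cons_of_regular l ha, List.length_cons, Nat.factorial_succ, Nat.add_sub_cancel]
      push_cast
      linarith
    · obtain ⟨K₁, hK₁0, hK₁⟩ := h1 (hP.of_injective f hf)
      obtain ⟨K₃, hK₃0, hK₃⟩ := h3 (hP.of_surjective g hg)
      refine ⟨K₁ + K₃, by positivity, fun N hN => ?_⟩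
      have h4 := mul_le_mul_of_nonneg_left (toNat_le_add (length_quot_smul_le_of_exact
        (Ideal.ofList (a :: l) ^ N) f g hg hfg)
        ((hP.of_injective f hf).length_idealPow_ne_top N)
        ((hP.of_surjective g hg).length_idealPow_ne_top N))
        (Nat.cast_nonneg (α := ℝ) (a :: l).length.factorial)
      rw [mult_add_of_exact hP f g hf hg hfg]
      have h5 := hK₁ N hN
      have h6 := hK₃ N hN
      push_cast
      linarith

/-- (S2) upper bound for the Hilbert-Samuel function of the parameter ideal. -/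
theorem exists_length_idealPow_le {y : List Λ} (h : IsSop M y) : ∃ K : ℝ, ∀ N : ℕ, 0 < N →
    (N : ℝ) * (y.length.factorial : ℝ) *
        (Module.length Λ (M ⧸ (Ideal.ofList y ^ N • ⊤ : Submodule Λ M))).toNat ≤
      (N : ℝ) ^ (y.length + 1) * (mult M y : ℝ) + K * (N : ℝ) ^ y.length := by
  obtain ⟨K, -, hK⟩ := exists_length_idealPow_le' h
  refine ⟨K * y.length, fun N hN => ?_⟩
  have h1 := mul_le_mul_of_nonneg_left (hK N hN) (Nat.cast_nonneg (α := ℝ) N)
  have h2 : (y.length : ℝ) * (N : ℝ) ^ (y.length - 1) * N = y.length * (N : ℝ) ^ y.length := by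
    rcases Nat.eq_zero_or_pos y.length with h0 | h0
    · rw [h0]; simp
    · rw [mul_assoc, ← pow_succ, Nat.sub_add_cancel h0]
  have h3 : (N : ℝ) * ((N : ℝ) ^ y.length * (mult M y : ℝ) +
      K * (y.length * (N : ℝ) ^ (y.length - 1))) =
      (N : ℝ) ^ (y.length + 1) * (mult M y : ℝ) + K * y.length * (N : ℝ) ^ y.length := by
    rw [mul_assoc K, ← h2]
    ring
  rw [mul_assoc, ← h3]
  exact h1

theorem exists_isSop_of_supportDim_le {s : ℕ} (h : Module.supportDim Λ M ≤ s) :
    ∃ y : List Λ, y.length = s ∧ IsSop M y := by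
  induction s generalizing M with
  | zero =>
    refine ⟨[], rfl, isSop_iff_support.2 ⟨by simp, fun p hp _ => ?_⟩⟩
    by_contra hne
    have hlt : p < closedPoint Λ := lt_of_le_of_ne (le_maximalIdeal p.2.ne_top)
      fun h1 => hne (congrArg PrimeSpectrum.asIdeal h1)
    have h1 : 0 < Module.supportDim Λ M :=
      Order.krullDim_pos_iff.2 ⟨⟨p, hp⟩, ⟨closedPoint Λ, Module.mem_support_mono hlt.le hp⟩, hlt⟩
    rw [Nat.cast_zero] at h
    exact absurd h (not_le.2 h1)
  | succ s ih =>
    by_cases hm : maximalIdeal Λ ∈ (Module.annihilator Λ M).minimalPrimes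
    · refine ⟨List.replicate (s + 1) 0, List.length_replicate, isSop_iff_support.2 ⟨?_, ?_⟩⟩
      · intro a ha
        rw [List.eq_of_mem_replicate ha]
        exact Submodule.zero_mem _
      · intro p hp _
        exact le_antisymm (le_maximalIdeal p.2.ne_top)
          (hm.2 ⟨p.2, Module.mem_support_iff_of_finite.1 hp⟩ (le_maximalIdeal p.2.ne_top))
    · have hfin : (Module.annihilator Λ M).minimalPrimes.Finite :=
        Ideal.finite_minimalPrimes_of_isNoetherianRing Λ _
      have hav : ¬ ((maximalIdeal Λ : Set Λ) ⊆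
          ⋃ p ∈ (Module.annihilator Λ M).minimalPrimes, (p : Set Λ)) := by
        intro hsub
        obtain ⟨p, hp, hle⟩ := (Ideal.subset_union_prime_finite hfin ⊥ ⊥
          (f := fun p : Ideal Λ => p) (fun p hp _ _ => hp.1.1)).1 hsub
        exact hm ((le_antisymm hle (le_maximalIdeal hp.1.1.ne_top)) ▸ hp)
      obtain ⟨a, ha, hna⟩ := Set.not_subset.1 hav
      have h1 := Module.supportDim_quotSMulTop_succ_le_of_notMem_minimalPrimes (M := M) (x := a)
        fun p hp hap => hna (Set.mem_biUnion hp hap)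
      have h2 : Module.supportDim Λ (QuotSMulTop a M) ≤ s := by
        have h3 := h1.trans h
        rw [Nat.cast_succ] at h3
        exact ENat.WithBot.add_le_add_one_right_iff.1 h3
      obtain ⟨l, hl, hl2⟩ := ih h2
      exact ⟨a :: l, by rw [List.length_cons, hl], isSop_cons_iff.2 ⟨ha, hl2⟩⟩

/-- (L1) polynomial growth of the Hilbert-Samuel function in terms of the dimension. -/
theorem exists_length_le_of_dim_le {s : ℕ} (h : ringKrullDim Λ ≤ s) : ∃ C : ℕ, ∀ N : ℕ,
    Module.length Λ (Λ ⧸ maximalIdeal Λ ^ N) ≤ (C * (N + 1) ^ s : ℕ) := by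
  rw [← Module.supportDim_self_eq_ringKrullDim] at h
  obtain ⟨y, rfl, hy⟩ := exists_isSop_of_supportDim_le h
  obtain ⟨K, hK⟩ := exists_length_idealPow_le hy
  obtain ⟨C, hC⟩ := exists_nat_ge (|(mult Λ y : ℝ)| + |K|)
  refine ⟨C, fun N => ?_⟩
  have h1 : Module.length Λ (Λ ⧸ maximalIdeal Λ ^ N) ≤
      Module.length Λ (Λ ⧸ (Ideal.ofList y ^ (N + 1) • ⊤ : Submodule Λ Λ)) := by
    refine length_quot_anti ?_
    rw [smul_eq_mul, Ideal.mul_top]
    exact (Ideal.pow_le_pow_right (Nat.le_succ N)).trans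
      (Ideal.pow_right_mono (Ideal.span_le.2 fun a ha => hy.1 a ha) N)
  refine h1.trans ?_
  rw [← ENat.natCast_toNat (hy.length_idealPow_ne_top (N + 1)), Nat.cast_le]
  have h2 := hK (N + 1) (Nat.succ_pos N)
  set L : ℕ := (Module.length Λ (Λ ⧸ (Ideal.ofList y ^ (N + 1) • ⊤ : Submodule Λ Λ))).toNat
  have hN1 : (1 : ℝ) ≤ ((N + 1 : ℕ) : ℝ) := by exact_mod_cast Nat.succ_pos N
  have hf : (1 : ℝ) ≤ y.length.factorial := by exact_mod_cast Nat.factorial_pos _
  set n : ℝ := ((N + 1 : ℕ) : ℝ) with hn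
  have hp : 0 ≤ n ^ y.length := by positivity
  have h3 : n * L ≤ n * y.length.factorial * L := by
    rw [mul_assoc]
    exact mul_le_mul_of_nonneg_left (le_mul_of_one_le_left (Nat.cast_nonneg L) hf) (by linarith)
  have h4 : n ^ (y.length + 1) * (mult Λ y : ℝ) ≤ n * (|(mult Λ y : ℝ)| * n ^ y.length) := by
    rw [pow_succ', mul_assoc, mul_comm (n ^ y.length)]
    exact mul_le_mul_of_nonneg_left (mul_le_mul_of_nonneg_right (le_abs_self _) hp) (by linarith)
  have h5 : K * n ^ y.length ≤ n * (|K| * n ^ y.length) :=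
    (mul_le_mul_of_nonneg_right (le_abs_self _) hp).trans
      (le_mul_of_one_le_left (by positivity) hN1)
  have h6 : n * L ≤ n * (C * n ^ y.length) := by
    have h7 := mul_le_mul_of_nonneg_left (mul_le_mul_of_nonneg_right hC hp)
      (by linarith : (0 : ℝ) ≤ n)
    linarith
  have h8 : (L : ℝ) ≤ C * n ^ y.length := le_of_mul_le_mul_left h6 (by linarith)
  rw [hn] at h8
  exact_mod_cast h8

/-- A system of parameters with as many elements as (an upper bound of) the dimension. -/
theorem exists_isSop_quotient (I : Ideal Λ) {s : ℕ} (h : ringKrullDim (Λ ⧸ I) ≤ s) :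
    ∃ y : List Λ, y.length = s ∧ IsSop (Λ ⧸ I) y :=
  exists_isSop_of_supportDim_le (by rwa [Module.supportDim_quotient_eq_ringKrullDim])

theorem dim_le_of_isSop {I : Ideal Λ} {y : List Λ} (h : IsSop (Λ ⧸ I) y) :
    ringKrullDim (Λ ⧸ I) ≤ y.length := by
  rw [← Module.supportDim_quotient_eq_ringKrullDim]
  exact h.supportDim_le

end Vale.Agent.P202
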