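import Vale.Agent.P202.MultA

/-! Module M3, auxiliary facts for parts B and C. -/

namespace Vale.Agent.P202

open Submodule IsLocalRing TensorProduct
open scoped Pointwise

universe u v w

variable {Λ : Type u} [CommRing Λ] [IsLocalRing Λ] [IsNoetherianRing Λ]
  {M : Type v} [AddCommGroup M] [Module Λ M] [Module.Finite Λ M]
  {M' : Type w} [AddCommGroup M'] [Module Λ M']

omit [IsNoetherianRing Λ] [Module.Finite Λ M] in
theorem isSop_iff_ann {y : List Λ} : IsSop M y ↔ (∀ a ∈ y, a ∈ maximalIdeal Λ) ∧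
    ∃ N : ℕ, maximalIdeal Λ ^ N ≤ Module.annihilator Λ M ⊔ Ideal.ofList y := by
  unfold IsSop IsSopP
  refine and_congr_right fun _ => exists_congr fun N => ?_
  constructor
  · intro h r hr
    obtain ⟨a, ha, hx⟩ := h r hr
    have h1 : r - a ∈ Module.annihilator Λ M :=
      Module.mem_annihilator.2 fun x => (Submodule.mem_bot Λ).1 (hx x trivial)
    have h2 : r = (r - a) + a := by ring
    rw [h2]
    exact Submodule.add_mem_sup h1 ha
  · intro h r hr
    obtain ⟨b, hb, a, ha, rfl⟩ := Submodule.mem_sup.1 (h hr)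
    refine ⟨a, ha, fun x _ => ?_⟩
    rw [add_sub_cancel_right, Module.mem_annihilator.1 hb x]
    exact Submodule.zero_mem _

theorem isSop_iff_support {y : List Λ} : IsSop M y ↔ (∀ a ∈ y, a ∈ maximalIdeal Λ) ∧
    ∀ p ∈ Module.support Λ M, (∀ a ∈ y, a ∈ p.asIdeal) → p.asIdeal = maximalIdeal Λ := by
  rw [isSop_iff_ann]
  refine and_congr_right fun _ => ?_
  constructor
  · rintro ⟨N, hN⟩ p hp hy
    have h1 : Module.annihilator Λ M ⊔ Ideal.ofList y ≤ p.asIdeal :=
      sup_le (Module.mem_support_iff_of_finite.1 hp) (Ideal.span_le.2 fun a ha => hy a ha)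
    exact le_antisymm (le_maximalIdeal p.2.ne_top) (Ideal.IsPrime.le_of_pow_le (hN.trans h1))
  · intro h
    refine Ideal.exists_pow_le_of_le_radical_of_fg ?_ (IsNoetherian.noetherian _)
    rw [Ideal.radical_eq_sInf]
    refine le_sInf ?_
    rintro p ⟨hp1, hp2⟩
    refine (h ⟨p, hp2⟩ (Module.mem_support_iff_of_finite.2 (le_sup_left.trans hp1)) ?_).ge
    intro a ha
    exact hp1 (Ideal.mem_sup_right (Ideal.subset_span ha))

theorem isSop_cons_iff {a : Λ} {l : List Λ} :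
    IsSop M (a :: l) ↔ a ∈ maximalIdeal Λ ∧ IsSop (QuotSMulTop a M) l := by
  rw [isSop_iff_support, isSop_iff_support, Module.support_quotSMulTop]
  simp only [List.forall_mem_cons, Set.mem_inter_iff, PrimeSpectrum.mem_zeroLocus,
    Set.singleton_subset_iff, SetLike.mem_coe]
  constructor
  · rintro ⟨⟨h1, h2⟩, h3⟩
    exact ⟨h1, h2, fun p hp hl => h3 p hp.1 ⟨hp.2, hl⟩⟩
  · rintro ⟨h1, h2, h3⟩
    exact ⟨⟨h1, h2⟩, fun p hp hl => h3 p ⟨hp, hl.1⟩ hl.2⟩

theorem IsSop.tail_of_smul_eq_zero {a : Λ} {l : List Λ} (h : IsSop M (a :: l))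
    (ha : ∀ x : M, a • x = 0) : IsSop M l := by
  rw [isSop_iff_support] at h ⊢
  refine ⟨fun b hb => h.1 b (List.mem_cons_of_mem _ hb), fun p hp hl => h.2 p hp ?_⟩
  rw [List.forall_mem_cons]
  exact ⟨Module.mem_support_iff_of_finite.1 hp (Module.mem_annihilator.2 ha), hl⟩

theorem IsSop.cons_pow {a : Λ} {l : List Λ} (h : IsSop M (a :: l)) {k : ℕ} (hk : 0 < k) :
    IsSop M (a ^ k :: l) := by
  rw [isSop_iff_support] at h ⊢
  simp only [List.forall_mem_cons] at h ⊢
  refine ⟨⟨Ideal.pow_mem_of_mem _ h.1.1 k hk, h.1.2⟩, fun p hp hl => h.2 p hp ⟨?_, hl.2⟩⟩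
  exact p.2.mem_of_pow_mem k hl.1

omit [IsLocalRing Λ] in
/-- Devissage with respect to one element. -/
theorem devissage (a : Λ)
    {motive : (N : Type v) → [AddCommGroup N] → [Module Λ N] → [Module.Finite Λ N] → Prop}
    (zero : ∀ (N : Type v) [AddCommGroup N] [Module Λ N] [Module.Finite Λ N],
      (∀ x : N, a • x = 0) → motive N)
    (reg : ∀ (N : Type v) [AddCommGroup N] [Module Λ N] [Module.Finite Λ N],
      IsSMulRegular N a → motive N)
    (exact : ∀ (N₁ : Type v) [AddCommGroup N₁] [Module Λ N₁] [Module.Finite Λ N₁]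
      (N₂ : Type v) [AddCommGroup N₂] [Module Λ N₂] [Module.Finite Λ N₂]
      (N₃ : Type v) [AddCommGroup N₃] [Module Λ N₃] [Module.Finite Λ N₃]
      (f : N₁ →ₗ[Λ] N₂) (g : N₂ →ₗ[Λ] N₃),
      Function.Injective f → Function.Surjective g → Function.Exact f g →
      motive N₁ → motive N₃ → motive N₂)
    (M : Type v) [AddCommGroup M] [Module Λ M] [hM : Module.Finite Λ M] : motive M := by
  refine IsNoetherianRing.induction_on_isQuotientEquivQuotientPrime Λ hM (motive := motive)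
    (fun N _ _ _ _ => zero N fun x => Subsingleton.elim _ _) (fun N _ _ _ p e => ?_) exact
  by_cases ha : a ∈ p.asIdeal
  · refine zero N fun x => e.injective ?_
    rw [map_smul, map_zero]
    obtain ⟨z, hz⟩ := Ideal.Quotient.mk_surjective (e x)
    rw [← hz]
    change Ideal.Quotient.mk p.asIdeal (a * z) = 0
    exact Ideal.Quotient.eq_zero_iff_mem.2 (Ideal.mul_mem_right _ _ ha)
  · refine reg N ((e.isSMulRegular_congr a).2 ?_)
    refine IsSMulRegular.of_right_eq_zero_of_smul fun x hx => ?_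
    obtain ⟨z, rfl⟩ := Ideal.Quotient.mk_surjective x
    have h1 : Ideal.Quotient.mk p.asIdeal (a * z) = 0 := hx
    rw [Ideal.Quotient.eq_zero_iff_mem] at h1 ⊢
    exact (p.2.mem_or_mem h1).resolve_left ha

omit [IsLocalRing Λ] [IsNoetherianRing Λ] [Module.Finite Λ M] in
theorem supportDim_le_max_of_exact {M₁ : Type*} {M₃ : Type*} [AddCommGroup M₁] [Module Λ M₁]
    [AddCommGroup M₃] [Module Λ M₃] (f : M₁ →ₗ[Λ] M) (g : M →ₗ[Λ] M₃)
    (hf : Function.Injective f) (hg : Function.Surjective g) (hfg : Function.Exact f g) :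
    Module.supportDim Λ M ≤ max (Module.supportDim Λ M₁) (Module.supportDim Λ M₃) := by
  refine iSup_le fun p => ?_
  have hh := p.head.2
  have hs := Module.support_of_exact hfg hf hg
  have hh' : p.head.1 ∈ Module.support Λ M₁ ∪ Module.support Λ M₃ := hs ▸ hh
  rcases hh' with h | h
  · refine le_max_of_le_left ?_
    let q : LTSeries (Module.support Λ M₁) :=
      ⟨p.length, fun i => ⟨(p i).1, Module.mem_support_mono (p.head_le i) h⟩, fun i => p.step i⟩
    exact Order.LTSeries.length_le_krullDim q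
  · refine le_max_of_le_right ?_
    let q : LTSeries (Module.support Λ M₃) :=
      ⟨p.length, fun i => ⟨(p i).1, Module.mem_support_mono (p.head_le i) h⟩, fun i => p.step i⟩
    exact Order.LTSeries.length_le_krullDim q

theorem IsSop.supportDim_le {y : List Λ} (h : IsSop M y) : Module.supportDim Λ M ≤ y.length := by
  induction y generalizing M with
  | nil =>
    have h1 := (isSop_iff_support.1 h).2
    have : Subsingleton (Module.support Λ M) := ⟨fun p q => Subtype.ext (PrimeSpectrum.ext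
      ((h1 p.1 p.2 (by simp)).trans (h1 q.1 q.2 (by simp)).symm))⟩
    exact Order.krullDim_nonpos_of_subsingleton
  | cons a l ih =>
    obtain ⟨h1, h2⟩ := isSop_cons_iff.1 h
    refine (Module.supportDim_le_supportDim_quotSMulTop_succ h1).trans ?_
    rw [List.length_cons, Nat.cast_succ]
    exact add_le_add_left (ih h2) 1

omit [IsNoetherianRing Λ] [Module.Finite Λ M] in
theorem isSopP_iff_isSop {y : List Λ} {P Q : Submodule Λ M} :
    IsSopP y P Q ↔ IsSop (P.map Q.mkQ) y := by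
  unfold IsSop IsSopP
  refine and_congr_right fun _ => exists_congr fun N => forall₂_congr fun r _ =>
    exists_congr fun a => and_congr_right fun _ => ?_
  constructor
  · rintro h ⟨_, x, hx, rfl⟩ -
    rw [Submodule.mem_bot]
    apply Subtype.ext
    change (r - a) • Q.mkQ x = 0
    rw [← map_smul]
    exact (Submodule.Quotient.mk_eq_zero Q).2 (h x hx)
  · intro h x hx
    have h1 := (Submodule.mem_bot Λ).1 (h ⟨Q.mkQ x, x, hx, rfl⟩ trivial)
    have h2 : (r - a) • Q.mkQ x = 0 := congrArg Subtype.val h1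
    rw [← map_smul] at h2
    exact (Submodule.Quotient.mk_eq_zero Q).1 h2

omit [IsLocalRing Λ] [IsNoetherianRing Λ] [Module.Finite Λ M] in
theorem map_lsmul_top (a : Λ) :
    (⊤ : Submodule Λ M).map (LinearMap.lsmul Λ M a) = a • (⊤ : Submodule Λ M) := by
  ext x
  simp only [Submodule.mem_map, LinearMap.lsmul_apply, Submodule.mem_smul_pointwise_iff_exists]

omit [IsLocalRing Λ] [IsNoetherianRing Λ] [Module.Finite Λ M] in
theorem mult_cons (a : Λ) (l : List Λ) : mult M (a :: l) = mult (QuotSMulTop a M) l -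
    multP l (⊤ ⊓ (⊥ : Submodule Λ M).comap (LinearMap.lsmul Λ M a)) ⊥ := by
  change multP l ⊤ _ - _ = _
  rw [bot_sup_eq, map_lsmul_top, multP_top_eq_mult]

omit [IsLocalRing Λ] [IsNoetherianRing Λ] [Module.Finite Λ M] in
theorem length_quot_cons (a : Λ) (l : List Λ) :
    Module.length Λ (M ⧸ (Ideal.ofList (a :: l) • ⊤ : Submodule Λ M)) =
      Module.length Λ (QuotSMulTop a M ⧸ (Ideal.ofList l • ⊤ : Submodule Λ (QuotSMulTop a M))) :=
  (Submodule.quotOfListConsSMulTopEquivQuotSMulTopInner M a l).length_eq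

omit [IsLocalRing Λ] [IsNoetherianRing Λ] [Module.Finite Λ M] in
theorem length_quot_nil :
    Module.length Λ (M ⧸ (Ideal.ofList ([] : List Λ) • ⊤ : Submodule Λ M)) =
      Module.length Λ M :=
  (Submodule.quotEquivOfEqBot _ (by rw [Ideal.ofList_nil, Submodule.bot_smul])).length_eq

omit [IsLocalRing Λ] [IsNoetherianRing Λ] [Module.Finite Λ M] in
/-- Subadditivity of `length (M / I M)`. -/
theorem length_quot_smul_le_of_exact {M₁ : Type*} {M₃ : Type*} [AddCommGroup M₁] [Module Λ M₁]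
    [AddCommGroup M₃] [Module Λ M₃] (I : Ideal Λ) (f : M₁ →ₗ[Λ] M) (g : M →ₗ[Λ] M₃)
    (hg : Function.Surjective g) (hfg : Function.Exact f g) :
    Module.length Λ (M ⧸ (I • ⊤ : Submodule Λ M)) ≤
      Module.length Λ (M₁ ⧸ (I • ⊤ : Submodule Λ M₁)) +
        Module.length Λ (M₃ ⧸ (I • ⊤ : Submodule Λ M₃)) := by
  rw [← rl_top, ← rl_top, ← rl_top, add_comm]
  refine (rl_le_add ⊤ (LinearMap.range f ⊔ I • ⊤) (I • ⊤)).trans (add_le_add ?_ ?_)
  · refine rl_le_of_map_inj g (fun _ _ => trivial) fun x _ hx => ?_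
    have h1 : (I • ⊤ : Submodule Λ M₃) = (I • ⊤ : Submodule Λ M).map g := by
      rw [Submodule.map_smul'', Submodule.map_top, LinearMap.range_eq_top.2 hg]
    rw [h1] at hx
    obtain ⟨z, hz, hzx⟩ := hx
    have h2 : x - z ∈ LinearMap.range f := (hfg (x - z)).1 (by rw [map_sub, hzx, sub_self])
    have h3 : x = (x - z) + z := by abel
    rw [h3]
    exact Submodule.add_mem_sup h2 hz
  · rw [rl_sup]
    refine rl_le_of_map_surj f (fun x hx => ?_) ?_
    · have h1 : (I • ⊤ : Submodule Λ M₁).map f ≤ I • ⊤ := by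
        rw [Submodule.map_smul'']
        exact Submodule.smul_mono le_rfl le_top
      exact h1 ⟨x, hx.2, rfl⟩
    · rintro _ ⟨x, rfl⟩
      exact ⟨x, trivial, by rw [sub_self]; exact Submodule.zero_mem _⟩

omit [IsLocalRing Λ] [IsNoetherianRing Λ] [Module.Finite Λ M] in
/-- One layer of the filtration by `a ^ k M`. -/
theorem rl_layer_le (a : Λ) (k : ℕ) (Q Q' : Submodule Λ M) (hQ : ∀ x ∈ Q', a ^ k • x ∈ Q) :
    rl (Q ⊔ a ^ k • ⊤) (Q ⊔ a ^ (k + 1) • ⊤) ≤ rl ⊤ (Q' ⊔ a • (⊤ : Submodule Λ M)) := by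
  refine rl_le_of_map_surj (LinearMap.lsmul Λ M (a ^ k)) (fun x hx => ?_) fun z hz => ?_
  · obtain ⟨q, hq, t, ht, rfl⟩ := Submodule.mem_sup.1 hx.2
    obtain ⟨s, -, rfl⟩ := (Submodule.mem_smul_pointwise_iff_exists _ _ _).1 ht
    rw [LinearMap.lsmul_apply, smul_add, smul_smul, ← pow_succ]
    exact Submodule.add_mem_sup (hQ q hq) (Submodule.smul_mem_pointwise_smul _ _ _ trivial)
  · obtain ⟨q, hq, t, ht, rfl⟩ := Submodule.mem_sup.1 hz
    obtain ⟨s, -, rfl⟩ := (Submodule.mem_smul_pointwise_iff_exists _ _ _).1 ht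
    refine ⟨s, trivial, ?_⟩
    rw [LinearMap.lsmul_apply, add_sub_cancel_right]
    exact Submodule.mem_sup_left hq

omit [IsLocalRing Λ] [IsNoetherianRing Λ] [Module.Finite Λ M] in
theorem rl_sup_pow_le (a : Λ) (k : ℕ) (Q : Submodule Λ M) :
    rl ⊤ (Q ⊔ a ^ k • ⊤) ≤ (k : ℕ∞) * rl ⊤ (Q ⊔ a • (⊤ : Submodule Λ M)) := by
  induction k with
  | zero =>
    rw [pow_zero, one_smul, sup_top_eq, rl_self]
    exact zero_le
  | succ k ih =>
    refine (rl_le_add ⊤ (Q ⊔ a ^ k • ⊤) _).trans ?_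
    rw [Nat.cast_succ, add_mul, one_mul]
    exact add_le_add ih (rl_layer_le a k Q Q fun x hx => Q.smul_mem _ hx)

omit [IsLocalRing Λ] [IsNoetherianRing Λ] [Module.Finite Λ M] in
theorem rl_sup_ofList_pow_le (y : List Λ) (N : ℕ) (Q : Submodule Λ M) :
    rl ⊤ (Q ⊔ Ideal.ofList (y.map (· ^ N)) • ⊤) ≤
      (N : ℕ∞) ^ y.length * rl ⊤ (Q ⊔ Ideal.ofList y • (⊤ : Submodule Λ M)) := by
  induction y generalizing Q with
  | nil => simp
  | cons a l ih =>
    rw [List.map_cons, Ideal.ofList_cons_smul, Ideal.ofList_cons_smul, ← sup_assoc]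
    refine (ih _).trans ?_
    have e1 : Q ⊔ a ^ N • (⊤ : Submodule Λ M) ⊔ Ideal.ofList l • ⊤ =
        (Q ⊔ Ideal.ofList l • ⊤) ⊔ a ^ N • ⊤ := sup_right_comm _ _ _
    have e2 : Q ⊔ (a • (⊤ : Submodule Λ M) ⊔ Ideal.ofList l • ⊤) =
        (Q ⊔ Ideal.ofList l • ⊤) ⊔ a • ⊤ := by rw [← sup_assoc, sup_right_comm]
    rw [List.length_cons, pow_succ, mul_assoc, e1, e2]
    exact mul_le_mul_right (rl_sup_pow_le a N _) _

theorem succ_pow_ge (N : ℝ) (hN : 0 ≤ N) (s : ℕ) :
    N ^ (s + 1) + (s + 1) * N ^ s ≤ (N + 1) ^ (s + 1) := by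
  induction s with
  | zero => simp
  | succ s ih =>
    have h1 : (N + 1) * (N ^ (s + 1) + (s + 1) * N ^ s) ≤ (N + 1) * (N + 1) ^ (s + 1) :=
      mul_le_mul_of_nonneg_left ih (by linarith)
    have h2 : 0 ≤ ((s : ℝ) + 1) * N ^ s := by positivity
    rw [pow_succ' (N + 1) (s + 1)]
    push_cast
    have h3 : (N + 1) * (N ^ (s + 1) + (s + 1) * N ^ s) =
      N ^ (s + 1 + 1) + (s + 1 + 1) * N ^ (s + 1) + (s + 1) * N ^ s := by ring
    linarith

theorem sum_range_pow_le (s N : ℕ) :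
    ((s : ℝ) + 1) * ∑ k ∈ Finset.range N, (k : ℝ) ^ s ≤ (N : ℝ) ^ (s + 1) := by
  induction N with
  | zero => simp
  | succ N ih =>
    rw [Finset.sum_range_succ, mul_add]
    have := succ_pow_ge (N : ℝ) (Nat.cast_nonneg N) s
    push_cast
    linarith

theorem sum_range_succ_pow_le (s N : ℕ) :
    ((s : ℝ) + 1) * ∑ k ∈ Finset.range N, ((k : ℝ) + 1) ^ s ≤
      (N : ℝ) ^ (s + 1) + (s + 1) * (N : ℝ) ^ s := by
  have h1 := Finset.sum_range_succ' (fun k => (k : ℝ) ^ s) N
  have h2 := Finset.sum_range_succ (fun k => (k : ℝ) ^ s) N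
  have h3 := sum_range_pow_le s N
  have h4 : (0 : ℝ) ≤ ((0 : ℕ) : ℝ) ^ s := by positivity
  push_cast at h1 h4
  have h5 : ∑ k ∈ Finset.range N, ((k : ℝ) + 1) ^ s ≤
      ∑ k ∈ Finset.range N, (k : ℝ) ^ s + (N : ℝ) ^ s := by linarith
  have h6 := mul_le_mul_of_nonneg_left h5 (by positivity : (0 : ℝ) ≤ (s : ℝ) + 1)
  linarith

end Vale.Agent.P202
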