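import Vale.Agent.P202.Cohen
import Vale.Agent.P202.Graded

/-! Module M7: reductions (infinite residue field, completion). -/

namespace Vale.Agent.P202

open IsLocalRing Filter Topology

universe u v w

/-- A flat local map of Noetherian local rings with `m B = n`. -/
structure IsUnram {A : Type u} {B : Type v} [CommRing A] [IsLocalRing A] [CommRing B]
    [IsLocalRing B] (f : A →+* B) : Prop where
  flat : f.Flat
  map_max : (maximalIdeal A).map f = maximalIdeal B

theorem isLocalHom_of_map_le {A : Type u} {B : Type v} [CommRing A] [IsLocalRing A] [CommRing B]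
    [IsLocalRing B] {f : A →+* B} (h : (maximalIdeal A).map f ≤ maximalIdeal B) : IsLocalHom f :=
  ((IsLocalRing.local_hom_TFAE f).out 0 2).mpr h

theorem map_max_le {A : Type u} {B : Type v} [CommRing A] [IsLocalRing A] [CommRing B]
    [IsLocalRing B] (f : A →+* B) [h : IsLocalHom f] : (maximalIdeal A).map f ≤ maximalIdeal B :=
  ((IsLocalRing.local_hom_TFAE f).out 0 2).mp h

theorem IsUnram.comp {A : Type u} {B : Type v} {C : Type w} [CommRing A] [IsLocalRing A]
    [CommRing B] [IsLocalRing B] [CommRing C] [IsLocalRing C] {f : A →+* B} {g : B →+* C}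
    (hf : IsUnram f) (hg : IsUnram g) : IsUnram (g.comp f) :=
  ⟨hf.flat.comp hg.flat, by rw [← Ideal.map_map, hf.map_max, hg.map_max]⟩

theorem length_quot_maximalIdeal (B : Type v) [CommRing B] [IsLocalRing B] :
    Module.length B (B ⧸ maximalIdeal B) = 1 := by
  rw [Module.length_eq_one_iff, isSimpleModule_iff_isCoatom]
  exact Ideal.isMaximal_def.1 inferInstance

section Unram
variable {A : Type u} {B : Type v} [CommRing A] [IsLocalRing A] [IsNoetherianRing A] [CommRing B]
  [IsLocalRing B] [IsNoetherianRing B] {f : A →+* B}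
theorem IsUnram.isLocalHom (h : IsUnram f) : IsLocalHom f := isLocalHom_of_map_le h.map_max.le
theorem IsUnram.hsSeq_eq (h : IsUnram f) (d : ℕ) : hsSeq A d = hsSeq B d := by
  funext N
  have := h.isLocalHom
  let _ := f.toAlgebra
  have _ : Module.Flat A B := h.flat
  have _ : IsLocalHom (algebraMap A B) := this
  have hm : (maximalIdeal A).map (algebraMap A B) = maximalIdeal B := h.map_max
  have h1 := IsLocalRing.length_baseChange A B (A ⧸ maximalIdeal A ^ N)
  rw [← (Algebra.TensorProduct.quotIdealMapEquivTensorQuot B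
    (maximalIdeal A ^ N)).toLinearEquiv.length_eq, Ideal.map_pow, hm, length_quot_maximalIdeal,
    mul_one] at h1
  unfold hsSeq
  rw [h1]
theorem IsUnram.dim_eq (h : IsUnram f) : ringKrullDim A = ringKrullDim B := by
  have := h.isLocalHom
  let _ := f.toAlgebra
  have _ : Module.Flat A B := h.flat
  have _ : IsLocalHom (algebraMap A B) := this
  have hm : (maximalIdeal A).map (algebraMap A B) = maximalIdeal B := h.map_max
  have h1 := Ideal.height_eq_height_add_of_liesOver_of_hasGoingDown (maximalIdeal A)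
    (maximalIdeal B)
  rw [hm, Ideal.map_quotient_self, Ideal.height_bot, add_zero] at h1
  rw [← IsLocalRing.maximalIdeal_height_eq_ringKrullDim,
    ← IsLocalRing.maximalIdeal_height_eq_ringKrullDim, h1]
theorem IsUnram.isMultiplicity_iff (h : IsUnram f) (e : ℝ) :
    IsMultiplicity A e ↔ IsMultiplicity B e := by
  unfold IsMultiplicity
  simp only [h.dim_eq, h.hsSeq_eq]
theorem IsUnram.isReduction (h : IsUnram f) {d : ℕ} {x : Fin d → A} (hx : IsReduction x) :
    IsReduction (fun j => f (x j)) := by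
  obtain ⟨h1, r, hr⟩ := hx
  refine ⟨fun j => h.map_max ▸ Ideal.mem_map_of_mem f (h1 j), r, ?_⟩
  have h2 := Ideal.map_mono (f := f) hr
  rw [Ideal.map_mul, Ideal.map_pow, Ideal.map_pow, h.map_max, Ideal.map_span,
    ← Set.range_comp] at h2
  exact h2
theorem IsUnram.mult_eq (h : IsUnram f) {y : List A} (hy : IsSop A y) :
    IsSop B (y.map f) ∧ mult B (y.map f) = mult A y := by
  have := h.isLocalHom
  have hw : IsSop (B ⧸ (maximalIdeal A).map f) ([] : List B) :=
    isSop_quotient_iff.2 ⟨by simp, 1, by rw [pow_one, h.map_max]; exact le_sup_left⟩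
  let eA : (A ⧸ (⊥ : Ideal A)) ≃ₗ[A] A := Submodule.quotEquivOfEqBot _ rfl
  let eB : (B ⧸ (⊥ : Ideal A).map f) ≃ₗ[B] B := Submodule.quotEquivOfEqBot _ Ideal.map_bot
  obtain ⟨h1, h2⟩ := mult_quotient_map f h.flat ⊥ (hy.of_injective eA.toLinearMap eA.injective) hw
  rw [List.append_nil] at h1 h2
  refine ⟨h1.of_injective eB.symm.toLinearMap eB.symm.injective, ?_⟩
  rw [mult_eq_of_equiv _ eB, mult_eq_of_equiv _ eA, mult_nil, h.map_max,
    length_quot_maximalIdeal] at h2
  simpa using h2
theorem IsMultiplicity.unique {e e' : ℝ} (h : IsMultiplicity A e) (h' : IsMultiplicity A e') :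
    e = e' := by
  obtain ⟨d, h1, h2⟩ := h
  obtain ⟨d', h1', h2'⟩ := h'
  have : d = d' := by exact_mod_cast h1.symm.trans h1'
  subst this
  exact tendsto_nhds_unique h2 h2'
end Unram

section Generic
open Polynomial

instance isPrime_map_C_max (A : Type u) [CommRing A] [IsLocalRing A] :
    ((maximalIdeal A).map (C : A →+* A[X])).IsPrime := Ideal.isPrime_map_C_of_isPrime

/-- The ring `A(t)`. -/
abbrev GenExt (A : Type u) [CommRing A] [IsLocalRing A] : Type u :=
  Localization.AtPrime ((maximalIdeal A).map (C : A →+* A[X]))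

theorem isUnram_genExt (A : Type u) [CommRing A] [IsLocalRing A] :
    IsUnram ((algebraMap A[X] (GenExt A)).comp C) := by
  constructor
  · refine RingHom.Flat.comp ?_ ?_
    · have : (algebraMap A A[X]).Flat := RingHom.flat_algebraMap_iff.2 inferInstance
      exact this
    · exact RingHom.flat_algebraMap_iff.2 inferInstance
  · rw [← Ideal.map_map, Localization.AtPrime.map_eq_maximalIdeal]

theorem infinite_residueField_genExt (A : Type u) [CommRing A] [IsLocalRing A] :
    Infinite (ResidueField (GenExt A)) := by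
  refine Infinite.of_injective
    (fun n : ℕ => residue (GenExt A) (algebraMap A[X] (GenExt A) (X ^ n))) fun n m h => ?_
  by_contra hne
  have h1 : algebraMap A[X] (GenExt A) (X ^ n - X ^ m) ∈ maximalIdeal (GenExt A) := by
    rw [map_sub, ← residue_eq_zero_iff, map_sub, sub_eq_zero]
    exact h
  rw [IsLocalization.AtPrime.to_map_mem_maximal_iff (GenExt A)
    ((maximalIdeal A).map (C : A →+* A[X])), Ideal.mem_map_C_iff] at h1
  have h2 := h1 n
  rw [coeff_sub, coeff_X_pow, coeff_X_pow, if_pos rfl, if_neg hne, sub_zero] at h2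
  exact (maximalIdeal.isMaximal A).ne_top ((Ideal.eq_top_iff_one _).2 h2)

attribute [local instance] Polynomial.algebra in
theorem exists_genExt_map {R : Type u} {S : Type v} [CommRing R] [IsLocalRing R]
    [CommRing S] [IsLocalRing S] (φ : R →+* S) [IsLocalHom φ] (hφ : φ.Flat) :
    ∃ ψ : GenExt R →+* GenExt S, IsLocalHom ψ ∧ ψ.Flat := by
  have hc : (maximalIdeal R).map (C : R →+* R[X]) =
      ((maximalIdeal S).map (C : S →+* S[X])).comap (mapRingHom φ) := by
    ext p
    simp only [Ideal.mem_comap, Ideal.mem_map_C_iff, coe_mapRingHom, coeff_map]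
    refine forall_congr' fun n => ?_
    rw [← Ideal.mem_comap, IsLocalRing.maximalIdeal_comap]
  have hf : (mapRingHom φ).Flat := by
    let _ := φ.toAlgebra
    have _ : Module.Flat R S := hφ
    have h1 : Module.Flat R[X] S[X] :=
      Module.Flat.of_linearEquiv (Algebra.IsPushout.equiv R R[X] S S[X]).symm.toLinearEquiv
    exact RingHom.flat_algebraMap_iff.2 h1
  exact ⟨Localization.localRingHom _ _ (mapRingHom φ) hc, inferInstance, hf.localRingHom _ _ hc⟩

end Generic

/-- Every Noetherian local ring has a multiplicity. -/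
theorem exists_isMultiplicity (A : Type u) [CommRing A] [IsLocalRing A] [IsNoetherianRing A] :
    ∃ e : ℝ, IsMultiplicity A e := by
  have := infinite_residueField_genExt A
  obtain ⟨e, he⟩ := exists_isMultiplicity_of_infinite (T := GenExt A)
  exact ⟨e, ((isUnram_genExt A).isMultiplicity_iff e).2 he⟩

theorem isUnram_completion (A : Type u) [CommRing A] [IsLocalRing A] [IsNoetherianRing A] :
    IsUnram (algebraMap A (AdicCompletion (maximalIdeal A) A)) :=
  ⟨RingHom.flat_algebraMap_iff.2 inferInstance, AdicCompletion.maximalIdeal_eq_map.symm⟩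

theorem exists_syz_approx {R' : Type v} [CommRing R'] [IsNoetherianRing R'] (I : Ideal R') {l : ℕ}
    (a : Fin l → R') : ∃ c : ℕ, ∀ (N : ℕ) (r : Fin l → R'), ∑ i, a i * r i ∈ I ^ (N + c) →
      ∃ u : Fin l → R', (∀ i, u i ∈ I ^ N) ∧ ∑ i, a i * (r i - u i) = 0 := by
  obtain ⟨c, hc⟩ := Ideal.exists_pow_inf_eq_pow_smul I (Submodule.span R' (Set.range a))
  refine ⟨c, fun N r hr => ?_⟩
  have h1 : ∑ i, a i * r i ∈ I ^ (N + c) • (⊤ : Submodule R' R') ⊓
      Submodule.span R' (Set.range a) :=
    ⟨by simpa using hr, Ideal.sum_mem _ fun i _ =>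
      Ideal.mul_mem_right _ _ (Submodule.subset_span ⟨i, rfl⟩)⟩
  rw [hc (N + c) (Nat.le_add_left _ _), Nat.add_sub_cancel] at h1
  have h2 := Submodule.smul_mono le_rfl inf_le_right h1
  obtain ⟨u, hu, hu'⟩ := (Submodule.mem_ideal_smul_span_iff_exists_sum _ a _).1 h2
  refine ⟨u, hu, ?_⟩
  rw [Finsupp.sum_fintype _ _ (fun i => by simp)] at hu'
  simp only [mul_sub, Finset.sum_sub_distrib, ← hu', smul_eq_mul, mul_comm, sub_self]

theorem flat_rel {R : Type u} {S : Type w} [CommRing R] [IsNoetherianRing R] [CommRing S]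
    {φ : R →+* S} (hφ : φ.Flat) (I : Ideal R) {l : ℕ} (b : Fin l → R) (s : Fin l → S)
    (h : ∑ k, φ (b k) * s k ∈ I.map φ) : ∃ (q : ℕ) (α : Fin l → Fin q → R) (y : Fin q → S),
      (∀ k, s k = ∑ p, φ (α k p) * y p) ∧ ∀ p, ∑ k, b k * α k p ∈ I := by
  let _ := φ.toAlgebra
  have _ : Module.Flat R S := hφ
  obtain ⟨n, μ, hμ⟩ := Submodule.fg_iff_exists_fin_generating_family.1 I.fg_of_isNoetherianRing
  have hμ' : Ideal.span (Set.range μ) = I := hμ
  rw [← hμ', Ideal.map_span, ← Set.range_comp] at h
  obtain ⟨t, ht⟩ := Ideal.mem_span_range_iff_exists_fun.1 h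
  have h2 : ∑ o : Fin l ⊕ Fin n, Sum.elim b μ o • Sum.elim s (fun j => -t j) o = 0 := by
    rw [Fintype.sum_sum_type]
    change ∑ k, φ (b k) * s k + ∑ j, φ (μ j) * -t j = 0
    rw [← ht, ← Finset.sum_add_distrib]
    exact Finset.sum_eq_zero fun j _ => by simp only [Function.comp]; ring
  obtain ⟨q, α, y, hy, hα⟩ := Module.Flat.isTrivialRelation_of_sum_smul_eq_zero (R := R) (M := S)
    (f := Sum.elim b μ) (x := Sum.elim s (fun j => -t j)) h2
  refine ⟨q, fun k => α (Sum.inl k), y, fun k => hy (Sum.inl k), fun p => ?_⟩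
  have e4 := hα p
  rw [Fintype.sum_sum_type] at e4
  simp only [Sum.elim_inl, Sum.elim_inr] at e4
  rw [eq_neg_of_add_eq_zero_left e4]
  exact neg_mem (Ideal.sum_mem _ fun j _ =>
    Ideal.mul_mem_right _ _ (hμ' ▸ Ideal.subset_span ⟨j, rfl⟩))

/-- (LC) flatness passes to a dense extension of the source. -/
theorem flat_of_dense {R : Type u} {R' : Type v} {S : Type w} [CommRing R] [IsLocalRing R]
    [IsNoetherianRing R] [CommRing R'] [IsLocalRing R'] [IsNoetherianRing R'] [CommRing S]
    [IsLocalRing S] [IsNoetherianRing S] (i : R →+* R') (g : R' →+* S) [IsLocalHom g]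
    (hmax : (maximalIdeal R).map i = maximalIdeal R')
    (hdense : ∀ (L : ℕ) (r' : R'), ∃ r : R, r' - i r ∈ maximalIdeal R' ^ L)
    (hinj : ∀ (L : ℕ) (r : R), i r ∈ maximalIdeal R' ^ L → r ∈ maximalIdeal R ^ L)
    (hflat : (g.comp i).Flat) : g.Flat := by
  have _ := hinj
  let _ := g.toAlgebra
  have hg : (maximalIdeal R').map g ≤ maximalIdeal S :=
    map_max_le g
  refine Module.Flat.of_forall_isTrivialRelation (R := R') (M := S) fun {l a s} hs => ?_
  have hs' : ∑ k, g (a k) * s k = 0 := hs
  let K : Type v := {r : Fin l → R' // ∑ k, a k * r k = 0}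
  let γ : K → Fin l → S := fun r k => g (r.1 k)
  let KS : Submodule S (Fin l → S) := Submodule.span S (Set.range γ)
  obtain ⟨c, hc⟩ := exists_syz_approx (maximalIdeal R') a
  have key : ∀ N : ℕ, s ∈ KS ⊔ maximalIdeal S ^ N • ⊤ := by
    intro N
    choose b hb using fun k => hdense (N + c) (a k)
    have h1 : ∑ k, (g.comp i) (b k) * s k ∈ (maximalIdeal R ^ (N + c)).map (g.comp i) := by
      have e2 : ∑ k, (g.comp i) (b k) * s k = -∑ k, g (a k - i (b k)) * s k := by
        simp only [map_sub, sub_mul, Finset.sum_sub_distrib, hs', RingHom.comp_apply]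
        ring
      rw [e2, ← Ideal.map_map, Ideal.map_pow, hmax]
      exact neg_mem (Ideal.sum_mem _ fun k _ =>
        Ideal.mul_mem_right _ _ (Ideal.mem_map_of_mem g (hb k)))
    obtain ⟨q, α, y, hy, hα⟩ := flat_rel hflat _ b s h1
    have h3 : ∀ p, ∑ k, a k * i (α k p) ∈ maximalIdeal R' ^ (N + c) := by
      intro p
      have e6 := Ideal.mem_map_of_mem i (hα p)
      rw [Ideal.map_pow, hmax] at e6
      have e7 : ∑ k, a k * i (α k p) =
          ∑ k, (a k - i (b k)) * i (α k p) + i (∑ k, b k * α k p) := by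
        simp only [sub_mul, Finset.sum_sub_distrib, map_sum, map_mul]
        ring
      rw [e7]
      exact add_mem (Ideal.sum_mem _ fun k _ => Ideal.mul_mem_right _ _ (hb k)) e6
    choose u hu hu' using fun p => hc N _ (h3 p)
    have e8 : s = ∑ p, (y p • γ ⟨_, hu' p⟩ + y p • fun k => g (u p k)) := by
      funext k
      rw [hy k, Finset.sum_apply]
      refine Finset.sum_congr rfl fun p _ => ?_
      simp only [γ, Pi.add_apply, Pi.smul_apply, smul_eq_mul, map_sub, RingHom.comp_apply]
      ring
    rw [e8]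
    refine Submodule.sum_mem _ fun p _ => Submodule.add_mem_sup
      (Submodule.smul_mem _ _ (Submodule.subset_span ⟨_, rfl⟩)) (Submodule.smul_mem _ _ ?_)
    rw [pi_eq_sum_univ' (fun k => g (u p k))]
    refine Submodule.sum_mem _ fun k _ => Submodule.smul_mem_smul ?_ Submodule.mem_top
    have e9 := Ideal.mem_map_of_mem g (hu p k)
    rw [Ideal.map_pow] at e9
    exact Ideal.pow_right_mono hg N e9
  have hmem : s ∈ KS := by
    have h1 := Ideal.iInf_pow_smul_eq_bot_of_isLocalRing (M := (Fin l → S) ⧸ KS)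
      (maximalIdeal S) (maximalIdeal.isMaximal S).ne_top
    rw [← Submodule.Quotient.mk_eq_zero, ← Submodule.mem_bot S, ← h1, Submodule.mem_iInf]
    intro N
    obtain ⟨x, hx, z, hz, hxz⟩ := Submodule.mem_sup.1 (key N)
    have h2 := Submodule.mem_map_of_mem (f := KS.mkQ) hz
    rw [Submodule.map_smul'', Submodule.map_top, Submodule.range_mkQ] at h2
    rw [← hxz, Submodule.Quotient.mk_add, (Submodule.Quotient.mk_eq_zero _).2 hx, zero_add]
    exact h2
  obtain ⟨n, cf, v, hv⟩ := Submodule.mem_span_set'.1 hmem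
  choose r hr using fun j => (v j).2
  refine ⟨n, fun k j => (r j).1 k, cf, fun k => ?_, fun j => (r j).2⟩
  rw [← hv, Finset.sum_apply]
  refine Finset.sum_congr rfl fun j _ => ?_
  rw [← hr j]
  exact mul_comm _ _

section Completion
variable (A : Type u) [CommRing A] [IsLocalRing A] [IsNoetherianRing A]

theorem mem_pow_iff_evalₐ (L : ℕ) (x : AdicCompletion (maximalIdeal A) A) :
    x ∈ maximalIdeal (AdicCompletion (maximalIdeal A) A) ^ L ↔
      AdicCompletion.evalₐ (maximalIdeal A) L x = 0 := by
  rw [AdicCompletion.maximalIdeal_eq_map, ← Ideal.map_pow, ← Submodule.restrictScalars_mem A,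
    ← Ideal.smul_top_eq_map,
    AdicCompletion.pow_smul_top_eq_ker_eval (maximalIdeal A).fg_of_isNoetherianRing,
    LinearMap.mem_ker]
  constructor
  · intro h
    rw [← AdicCompletion.factor_eval_eq_evalₐ _ x (le_of_eq (Ideal.mul_top _)), h, map_zero]
  · intro h
    rw [← AdicCompletion.factor_evalₐ_eq_eval _ x (le_of_eq (Ideal.mul_top _).symm), h, map_zero]

theorem completion_dense (L : ℕ) (x : AdicCompletion (maximalIdeal A) A) :
    ∃ r : A, x - algebraMap A _ r ∈ maximalIdeal (AdicCompletion (maximalIdeal A) A) ^ L := by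
  obtain ⟨r, hr⟩ := Ideal.Quotient.mk_surjective (AdicCompletion.evalₐ (maximalIdeal A) L x)
  refine ⟨r, (mem_pow_iff_evalₐ A L _).2 ?_⟩
  rw [map_sub, AlgHom.commutes, ← hr]
  exact sub_self _

theorem completion_inj (L : ℕ) (r : A)
    (h : algebraMap A _ r ∈ maximalIdeal (AdicCompletion (maximalIdeal A) A) ^ L) :
    r ∈ maximalIdeal A ^ L := by
  rw [mem_pow_iff_evalₐ, AlgHom.commutes] at h
  exact Ideal.Quotient.eq_zero_iff_mem.1 h

variable {A}

theorem exists_completion_lift {C : Type v} [CommRing C] [IsLocalRing C]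
    [IsAdicComplete (maximalIdeal C) C] (ψ : A →+* C) [IsLocalHom ψ] :
    ∃ ψ' : AdicCompletion (maximalIdeal A) A →+* C, ψ'.comp (algebraMap A _) = ψ := by
  have hg : (maximalIdeal A).map ψ ≤ maximalIdeal C :=
    map_max_le ψ
  have h1 : ∀ n : ℕ, maximalIdeal A ^ n ≤ (maximalIdeal C ^ n).comap ψ := fun n => by
    rw [← Ideal.map_le_iff_le_comap, Ideal.map_pow]
    exact Ideal.pow_right_mono hg n
  let F : (n : ℕ) → AdicCompletion (maximalIdeal A) A →+* C ⧸ maximalIdeal C ^ n := fun n =>
    (Ideal.quotientMap _ ψ (h1 n)).comp (AdicCompletion.evalₐ (maximalIdeal A) n).toRingHom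
  have hF : ∀ (n : ℕ) (x : AdicCompletion (maximalIdeal A) A) (r : A),
      x - algebraMap A _ r ∈ maximalIdeal (AdicCompletion (maximalIdeal A) A) ^ n →
      F n x = Ideal.Quotient.mk _ (ψ r) := by
    intro n x r h
    rw [mem_pow_iff_evalₐ, map_sub, AlgHom.commutes, sub_eq_zero] at h
    change Ideal.quotientMap _ ψ (h1 n) (AdicCompletion.evalₐ (maximalIdeal A) n x) = _
    rw [h]
    rfl
  have hc : ∀ {m n : ℕ} (hle : m ≤ n),
      (Ideal.Quotient.factorPow (maximalIdeal C) hle).comp (F n) = F m := by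
    intro m n hle
    refine RingHom.ext fun x => ?_
    obtain ⟨r, hr⟩ := completion_dense A n x
    rw [RingHom.comp_apply, hF n x r hr, hF m x r (Ideal.pow_le_pow_right hle hr)]
    rfl
  refine ⟨IsAdicComplete.liftRingHom (maximalIdeal C) F hc, ?_⟩
  refine RingHom.ext fun r => ?_
  refine IsHausdorff.funext' (maximalIdeal C)
    (f := fun _ : Unit => IsAdicComplete.liftRingHom (maximalIdeal C) F hc (algebraMap A _ r))
    (g := fun _ => ψ r) (fun n _ => ?_) |> fun h => congrFun h ()
  rw [IsAdicComplete.mk_liftRingHom]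
  exact hF n _ r (by rw [sub_self]; exact zero_mem _)

end Completion

/-- A flat local map can be replaced by one between complete rings with infinite residue fields. -/
theorem exists_complete_infinite {R : Type u} {S : Type v} [CommRing R] [IsLocalRing R]
    [IsNoetherianRing R] [CommRing S] [IsLocalRing S] [IsNoetherianRing S] (φ : R →+* S)
    [IsLocalHom φ] (hφ : φ.Flat) :
    ∃ (R' : Type u) (_ : CommRing R') (_ : IsLocalRing R') (_ : IsNoetherianRing R')
      (S' : Type v) (_ : CommRing S') (_ : IsLocalRing S') (_ : IsNoetherianRing S')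
      (i : R →+* R') (j : S →+* S') (φ' : R' →+* S'), IsUnram i ∧ IsUnram j ∧ IsLocalHom φ' ∧
      φ'.Flat ∧ IsAdicComplete (maximalIdeal R') R' ∧ IsAdicComplete (maximalIdeal S') S' ∧
      Infinite (ResidueField R') ∧ Infinite (ResidueField S') := by
  obtain ⟨ψ, hψ, hψf⟩ := exists_genExt_map φ hφ
  have hR := isNoetherianRing_adicCompletion (GenExt R)
  have hS := isNoetherianRing_adicCompletion (GenExt S)
  have iR := infinite_residueField_genExt R
  have iS := infinite_residueField_genExt S
  obtain ⟨φ', hφ'⟩ := exists_completion_lift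
    ((algebraMap (GenExt S) (AdicCompletion (maximalIdeal (GenExt S)) (GenExt S))).comp ψ)
  have hloc : IsLocalHom φ' := by
    apply isLocalHom_of_map_le
    rw [AdicCompletion.maximalIdeal_eq_map, Ideal.map_map, hφ']
    exact map_max_le _
  refine ⟨_, inferInstance, inferInstance, hR, _, inferInstance, inferInstance, hS, _, _, φ',
    (isUnram_genExt R).comp (isUnram_completion _), (isUnram_genExt S).comp (isUnram_completion _),
    hloc, ?_, inferInstance, inferInstance, ?_, ?_⟩
  · refine flat_of_dense (algebraMap (GenExt R) _) φ' (isUnram_completion _).map_max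
      (completion_dense _) (completion_inj _) ?_
    rw [hφ']
    exact hψf.comp (isUnram_completion _).flat
  · exact Infinite.of_injective _ (AdicCompletion.residueField_map_bijective (GenExt R)).1
  · exact Infinite.of_injective _ (AdicCompletion.residueField_map_bijective (GenExt S)).1

/-- The completion of the target of a flat local map from a complete ring. -/
theorem exists_prime_fibre {R : Type u} {S : Type v} [CommRing R] [IsLocalRing R]
    [IsNoetherianRing R] [CommRing S] [IsLocalRing S] [IsNoetherianRing S] (φ : R →+* S)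
    [IsLocalHom φ] {d D : ℕ} (hd : ringKrullDim R = d) (hD : ringKrullDim S = D) :
    ∃ (P : Ideal S) (_ : P.IsPrime), P ∈ ((maximalIdeal R).map φ).minimalPrimes ∧
      (D : WithBot ℕ∞) ≤ d + ringKrullDim (S ⧸ P) := by
  let _ := φ.toAlgebra
  have _ : IsLocalHom (algebraMap R S) := ‹IsLocalHom φ›
  have hle : (maximalIdeal R).map φ ≤ maximalIdeal S :=
    map_max_le φ
  have h1 := Ideal.height_le_height_add_of_liesOver (maximalIdeal R) (maximalIdeal S)
  set I : Ideal S := (maximalIdeal R).map (algebraMap R S) with hI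
  have hp : ((maximalIdeal S).map (Ideal.Quotient.mk I)).IsPrime :=
    Ideal.map_isPrime_of_surjective Ideal.Quotient.mk_surjective (by rw [Ideal.mk_ker]; exact hle)
  obtain ⟨lq, -, hlen⟩ :=
    ((maximalIdeal S).map (Ideal.Quotient.mk I)).exists_ltSeries_length_eq_height
  let l' : LTSeries (PrimeSpectrum S) := lq.map (PrimeSpectrum.comap (Ideal.Quotient.mk I))
    (RingHom.strictMono_comap_of_surjective Ideal.Quotient.mk_surjective)
  have h2 : I ≤ l'.head.asIdeal := by
    intro x hx
    change Ideal.Quotient.mk I x ∈ lq.head.asIdeal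
    rw [Ideal.Quotient.eq_zero_iff_mem.2 hx]
    exact zero_mem _
  obtain ⟨P, hP, hPle⟩ := Ideal.exists_minimalPrimes_le h2
  refine ⟨P, hP.1.1, hP, ?_⟩
  have h3 : ∀ k, l' k ∈ PrimeSpectrum.zeroLocus (P : Set S) := fun k =>
    hPle.trans (l'.head_le k)
  have h4 := Order.LTSeries.length_le_krullDim
    (LTSeries.mk lq.length (fun k => (⟨l' k, h3 k⟩ : PrimeSpectrum.zeroLocus (P : Set S)))
      (fun _ _ h => l'.strictMono h))
  rw [← ringKrullDim_quotient] at h4
  rw [← hd, ← hD, ← IsLocalRing.maximalIdeal_height_eq_ringKrullDim,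
    ← IsLocalRing.maximalIdeal_height_eq_ringKrullDim]
  rw [← hlen] at h1
  refine le_trans (WithBot.coe_le_coe.2 h1) ?_
  rw [WithBot.coe_add]
  exact add_le_add le_rfl h4

end Vale.Agent.P202
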