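import Vale.Agent.P202.HomTot

/-! Auxiliary results for minimal free resolutions. -/

namespace Vale.Agent.P202.Res

open IsLocalRing Matrix

universe u v

section General

variable {T : Type*} [CommRing T] {ι : Type*} [Fintype ι]

/-- supported in degree `i` -/
def Sp (deg : ι → ℤ) (i : ℤ) (v : ι → T) : Prop := ∀ a, deg a ≠ i → v a = 0

theorem exact_map {T' : Type*} [CommRing T'] {D : Matrix ι ι T} {deg : ι → ℤ} (hD : IsMC D deg)
    {i : ℤ} (h : ∀ v : ι → T, Sp deg i v → D *ᵥ v = 0 → ∃ w, Sp deg (i + 1) w ∧ v = D *ᵥ w)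
    (f : T →+* T') (hf : f.Flat) (v : ι → T') (hv : Sp deg i v) (h0 : D.map f *ᵥ v = 0) :
    ∃ w, Sp deg (i + 1) w ∧ v = D.map f *ᵥ w := by
  classical
  letI : Algebra T T' := f.toAlgebra
  have hflat : Module.Flat T T' := hf
  have hx : (Fintype.linearCombination T v) ∘ₗ D.vecMulLinear = 0 := by
    refine (Pi.basisFun T ι).ext fun a => ?_
    have := congrFun h0 a
    simpa [Fintype.linearCombination_apply, mulVec, dotProduct, Algebra.smul_def,
      RingHom.algebraMap_toAlgebra] using this
  obtain ⟨k, A, y, h1, h2⟩ := Module.Flat.exists_factorization_of_comp_eq_zero_of_free hx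
  have h3 : ∀ l : Fin k, ∃ w, Sp deg (i + 1) w ∧
      (fun b => if deg b = i then A (Pi.single b 1) l else 0) = D *ᵥ w := by
    intro l
    refine h _ (fun a ha => if_neg ha) (funext fun a => ?_)
    have h4 : ∑ b, D a b * A (Pi.single b 1) l = 0 := by
      have h5 := congrArg (fun g : (ι → T) →ₗ[T] (Fin k →₀ T) => g (Pi.single a 1) l) h2
      simp only [LinearMap.comp_apply, vecMulLinear_apply, single_one_vecMul,
        LinearMap.zero_apply, Finsupp.zero_apply] at h5
      rw [← h5, pi_eq_sum_univ' (D.row a), map_sum, Finsupp.finsetSum_apply]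
      simp
    by_cases ha : deg a + 1 = i
    · rw [Pi.zero_apply, ← h4]
      refine Finset.sum_congr rfl fun b _ => ?_
      by_cases hb : D a b = 0
      · simp [hb]
      · simp only [hD.homog a b hb, ha, if_true]
    · refine Finset.sum_eq_zero fun b _ => ?_
      by_cases hb : D a b = 0
      · simp [hb]
      · simp only [hD.homog a b hb, ha, if_false, mul_zero]
  choose w hw1 hw2 using h3
  refine ⟨fun a => ∑ l, f (w l a) * y (Finsupp.single l 1), fun a ha => by simp [hw1 _ a ha], ?_⟩
  funext b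
  have h5 : v b = ∑ l, f (if deg b = i then A (Pi.single b 1) l else 0) * y (Finsupp.single l 1) := by
    by_cases hb : deg b = i
    · have h6 := congrArg (fun g : (ι → T) →ₗ[T] T' => g (Pi.single b 1)) h1
      simp only [Fintype.linearCombination_apply_single, one_smul, LinearMap.comp_apply] at h6
      rw [h6, ← Finsupp.univ_sum_single (A (Pi.single b 1)), map_sum]
      refine Finset.sum_congr rfl fun l _ => ?_
      rw [if_pos hb, Finsupp.univ_sum_single, ← Finsupp.smul_single_one, map_smul, Algebra.smul_def]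
      rfl
    · simp [hb, hv b hb]
  rw [h5]
  simp only [fun l => congrFun (hw2 l) b, mulVec, dotProduct, map_sum, map_mul, Finset.sum_mul,
    Finset.mul_sum, map_apply, mul_assoc]
  exact Finset.sum_comm

theorem exists_homotopy [DecidableEq ι] {D : Matrix ι ι T} {deg : ι → ℤ} (hD : IsMC D deg)
    (h0 : ∀ a, 0 ≤ deg a) (j : T)
    (hex : ∀ i : ℤ, 0 < i → ∀ v : ι → T, Sp deg i v → D *ᵥ v = 0 →
      ∃ w, Sp deg (i + 1) w ∧ v = D *ᵥ w)
    (hj : ∀ b, deg b = 0 → ∃ w, Sp deg 1 w ∧ Pi.single b j = D *ᵥ w) :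
    ∃ H : Matrix ι ι T, IsHomog H deg (-1) ∧ D * H + H * D = j • (1 : Matrix ι ι T) := by
  have key : ∀ n : ℕ, ∃ H : Matrix ι ι T, IsHomog H deg (-1) ∧
      ∀ a b, deg b < n → (D * H + H * D) a b = (j • (1 : Matrix ι ι T)) a b := by
    intro n
    induction n with
    | zero => exact ⟨0, fun a b h => absurd rfl h, fun a b h => by have := h0 b; omega⟩
    | succ n ih =>
      obtain ⟨H, hH, h1⟩ := ih
      have h2 : ∀ b, ∃ w, Sp deg (n + 1) w ∧ (deg b = n →
          (fun a => (j • (1 : Matrix ι ι T) - H * D) a b) = D *ᵥ w) := by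
        intro b
        by_cases hb : deg b = n
        swap
        · exact ⟨0, fun _ _ => rfl, fun h => absurd h hb⟩
        rcases Nat.eq_zero_or_pos n with rfl | hn
        · obtain ⟨w, hw1, hw2⟩ := hj b hb
          refine ⟨w, by simpa using hw1, fun _ => ?_⟩
          rw [← hw2]
          funext a
          have : (H * D) a b = 0 := Finset.sum_eq_zero fun c _ => by
            by_cases hc : D c b = 0
            · simp [hc]
            · have := hD.homog c b hc
              have := h0 c
              omega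
          simp [this, one_apply, Pi.single_apply]
        · obtain ⟨w, hw1, hw2⟩ := hex n (by omega)
            (fun a => (j • (1 : Matrix ι ι T) - H * D) a b) (fun a ha => by
              have : (H * D) a b = 0 := Finset.sum_eq_zero fun c _ => by
                by_cases hc : D c b = 0
                · simp [hc]
                · by_cases hc' : H a c = 0
                  · simp [hc']
                  · have := hD.homog c b hc
                    have := hH a c hc'
                    omega
              have hab : a ≠ b := by rintro rfl; exact ha hb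
              simp [this, hab]) (funext fun a => by
              have e1 : D * (j • (1 : Matrix ι ι T) - H * D) =
                  (j • (1 : Matrix ι ι T) - (D * H + H * D)) * D := by
                rw [sub_mul, add_mul, mul_assoc H D D, hD.sq, mul_sub, ← mul_assoc]; simp
              change (D * (j • (1 : Matrix ι ι T) - H * D)) a b = 0
              rw [e1, mul_apply]
              refine Finset.sum_eq_zero fun c _ => ?_
              by_cases hc : D c b = 0
              · simp [hc]
              · have := hD.homog c b hc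
                rw [Matrix.sub_apply, h1 a c (by omega), sub_self, zero_mul])
          exact ⟨w, hw1, fun _ => hw2⟩
      choose w hw1 hw2 using h2
      refine ⟨Matrix.of fun a b => if deg b = n then w b a else H a b, fun a b hab => ?_,
        fun a b hb => ?_⟩
      · rw [of_apply] at hab
        split_ifs at hab with h
        · by_contra h'
          exact hab (hw1 b a (by omega))
        · exact hH a b hab
      · have e1 : ((Matrix.of fun a b => if deg b = n then w b a else H a b) * D) a b =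
            (H * D) a b := by
          rw [mul_apply, mul_apply]
          refine Finset.sum_congr rfl fun c _ => ?_
          by_cases hc : D c b = 0
          · simp [hc]
          · have := hD.homog c b hc
            rw [of_apply, if_neg (by push_cast at hb; omega)]
        rw [Matrix.add_apply, e1]
        by_cases hbn : deg b = n
        · have e2 := congrFun (hw2 b hbn) a
          have e3 : (D * Matrix.of fun a b => if deg b = n then w b a else H a b) a b =
              (D *ᵥ w b) a := by
            simp [mul_apply, mulVec, dotProduct, hbn]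
          rw [e3, ← e2, Matrix.sub_apply, sub_add_cancel]
        · have e3 : (D * Matrix.of fun a b => if deg b = n then w b a else H a b) a b =
              (D * H) a b := by
            simp [mul_apply, hbn]
          rw [e3, ← Matrix.add_apply, h1 a b (by push_cast at hb; omega)]
  obtain ⟨H, h1, h2⟩ := key (Finset.univ.sup (fun a => (deg a).toNat) + 1)
  refine ⟨H, h1, Matrix.ext fun a b => h2 a b ?_⟩
  have := Finset.le_sup (f := fun a => (deg a).toNat) (Finset.mem_univ b)
  push_cast
  omega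

theorem mem_smul_top_iff [DecidableEq ι] (I : Ideal T) (f : ι → T) :
    f ∈ (I • ⊤ : Submodule T (ι → T)) ↔ ∀ a, f a ∈ I := by
  constructor
  · intro h a
    refine Submodule.smul_induction_on h (fun r hr g _ => I.mul_mem_right _ hr)
      fun x y hx hy => I.add_mem hx hy
  · intro h
    rw [pi_eq_sum_univ' f]
    exact Submodule.sum_mem _ fun a _ => Submodule.smul_mem_smul (h a) trivial

theorem exists_min_gen [IsLocalRing T] {F : Type*} [AddCommGroup F] [Module T F]
    (Z : Submodule T F) (hZ : Z.FG) : ∃ (n : ℕ) (g : Fin n → F),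
      Submodule.span T (Set.range g) = Z ∧
      ∀ c : Fin n → T, ∑ i, c i • g i = 0 → ∀ i, c i ∈ maximalIdeal T := by
  classical
  have hex : ∃ n : ℕ, ∃ g : Fin n → F, Submodule.span T (Set.range g) = Z :=
    Submodule.fg_iff_exists_fin_generating_family.mp hZ
  obtain ⟨g, hg⟩ := Nat.find_spec hex
  have hmin := fun m (h : m < Nat.find hex) => Nat.find_min hex h
  generalize Nat.find hex = n at g hg hmin
  refine ⟨n, g, hg, fun c hc i => ?_⟩
  by_contra hi
  obtain ⟨u, hu⟩ := notMem_maximalIdeal.mp hi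
  obtain ⟨m, rfl⟩ : ∃ m, n = m + 1 := ⟨n - 1, by have := i.2; omega⟩
  refine hmin m (by omega) ⟨g ∘ i.succAbove, le_antisymm ?_ ?_⟩
  · rw [← hg]; exact Submodule.span_mono (Set.range_comp_subset_range _ _)
  · rw [← hg, Submodule.span_le]
    rintro _ ⟨k, rfl⟩
    rcases Fin.eq_self_or_eq_succAbove i k with rfl | ⟨k', rfl⟩
    · rw [Fin.sum_univ_succAbove _ k, ← hu] at hc
      have : g k = -(↑u⁻¹ : T) • ∑ i, c (k.succAbove i) • g (k.succAbove i) := by
        rw [neg_smul, ← smul_neg, ← eq_neg_iff_add_eq_zero.mpr hc, smul_smul, Units.inv_mul,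
          one_smul]
      rw [this]
      exact Submodule.smul_mem _ _ (Submodule.sum_mem _ fun i _ =>
        Submodule.smul_mem _ _ (Submodule.subset_span ⟨i, rfl⟩))
    · exact Submodule.subset_span ⟨k', rfl⟩

end General

theorem flat_ker {R M N : Type*} [CommRing R] [AddCommGroup M] [Module R M] [AddCommGroup N]
    [Module R N] [Module.Flat R M] [Module.Flat R N] (f : M →ₗ[R] N) (hf : Function.Surjective f)
    {Z : Type*} [AddCommGroup Z] [Module R Z] (g : Z →ₗ[R] M) (hg : Function.Injective g)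
    (H : Function.Exact g f) : Module.Flat R Z := by
  rw [Module.Flat.iff_rTensor_injective']
  intro I
  have h1 := LinearMap.lTensor_injective_of_exact_of_flat f hf g hg H I
  have h2 := Module.Flat.iff_rTensor_injective'.mp ‹Module.Flat R M› I
  have h3 := h2.comp h1
  rw [← LinearMap.coe_comp, LinearMap.rTensor_comp_lTensor, ← LinearMap.lTensor_comp_rTensor,
    LinearMap.coe_comp] at h3
  exact h3.of_comp

/-- the tail of a minimal resolution of `(κ → T) ⧸ Z` of length at most `c` -/
structure IsRes {T : Type*} [CommRing T] [IsLocalRing T] {κ ι : Type} [Fintype ι] (c : ℕ)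
    (Z : Submodule T (κ → T)) (deg : ι → ℤ) (D : Matrix ι ι T) (E : Matrix κ ι T) : Prop where
  mc : IsMC D deg
  bd : ∀ a, 1 ≤ deg a ∧ deg a ≤ c
  mD : ∀ a b, D a b ∈ maximalIdeal T
  mE : ∀ a b, E a b ∈ maximalIdeal T
  ED : E * D = 0
  hE : ∀ a b, E a b ≠ 0 → deg b = 1
  gen : ∀ z ∈ Z, ∃ v, Sp deg 1 v ∧ z = E *ᵥ v
  mem : ∀ v, E *ᵥ v ∈ Z
  ex : ∀ i v, Sp deg i v → E *ᵥ v = 0 → D *ᵥ v = 0 → ∃ w, Sp deg (i + 1) w ∧ v = D *ᵥ w

section Full

variable {T : Type*} [CommRing T] [IsLocalRing T] {κ ι : Type} [Fintype κ] [Fintype ι] {c : ℕ}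
  {Z : Submodule T (κ → T)} {deg : ι → ℤ} {D : Matrix ι ι T} {E : Matrix κ ι T}

omit [IsLocalRing T] in
theorem full_mulVec (D : Matrix ι ι T) (E : Matrix κ ι T) (v : κ ⊕ ι → T) :
    fromBlocks 0 E 0 D *ᵥ v = Sum.elim (E *ᵥ (v ∘ Sum.inr)) (D *ᵥ (v ∘ Sum.inr)) := by
  rw [fromBlocks_mulVec]; simp

theorem IsRes.full_mc (h : IsRes c Z deg D E) :
    IsMC (fromBlocks 0 E 0 D : Matrix (κ ⊕ ι) (κ ⊕ ι) T) (Sum.elim (fun _ => 0) deg) := by
  refine ⟨by simp [fromBlocks_multiply, h.ED, h.mc.sq], ?_⟩
  rintro (a | a) (b | b) hab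
  · simp at hab
  · simpa using h.hE a b hab
  · simp at hab
  · simpa using h.mc.homog a b hab

omit [Fintype κ] in
theorem IsRes.full_mem (h : IsRes c Z deg D E) (a b : κ ⊕ ι) :
    (fromBlocks 0 E 0 D : Matrix (κ ⊕ ι) (κ ⊕ ι) T) a b ∈ maximalIdeal T := by
  rcases a with a | a <;> rcases b with b | b <;> simp [h.mE, h.mD]

omit [Fintype κ] in
theorem IsRes.E_zero (h : IsRes c Z deg D E) {i : ℤ} (hi : i ≠ 1) {v : ι → T} (hv : Sp deg i v) :
    E *ᵥ v = 0 := by
  funext a
  refine Finset.sum_eq_zero fun b _ => ?_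
  by_cases hb : E a b = 0
  · simp [hb]
  · rw [hv b (by rw [h.hE a b hb]; exact hi.symm), mul_zero]

omit [Fintype κ] in
theorem IsRes.D_zero (h : IsRes c Z deg D E) {v : ι → T} (hv : Sp deg 1 v) : D *ᵥ v = 0 := by
  funext a
  refine Finset.sum_eq_zero fun b _ => ?_
  by_cases hb : D a b = 0
  · simp [hb]
  · have := h.mc.homog a b hb
    have := (h.bd a).1
    rw [hv b (by omega), mul_zero]

theorem IsRes.full_ex (h : IsRes c Z deg D E) (i : ℤ) (hi : 0 < i) (v : κ ⊕ ι → T)
    (hv : Sp (Sum.elim (fun _ => 0) deg) i v) (h0 : fromBlocks 0 E 0 D *ᵥ v = 0) :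
    ∃ w : κ ⊕ ι → T, Sp (Sum.elim (fun _ => 0) deg) (i + 1) w ∧ v = fromBlocks 0 E 0 D *ᵥ w := by
  rw [full_mulVec] at h0
  obtain ⟨w, h1, h2⟩ := h.ex i (v ∘ Sum.inr) (fun a ha => hv (.inr a) ha)
    (funext fun a => congrFun h0 (.inl a)) (funext fun a => congrFun h0 (.inr a))
  refine ⟨Sum.elim 0 w, ?_, ?_⟩
  · rintro (a | a) ha
    · rfl
    · exact h1 a ha
  · rw [full_mulVec, Sum.elim_comp_inr, h.E_zero (by omega) h1, ← h2]
    funext a
    rcases a with a | a
    · exact hv (.inl a) hi.ne
    · rfl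

theorem IsRes.full_zero (h : IsRes c Z deg D E) {z : κ → T} (hz : z ∈ Z) :
    ∃ w : κ ⊕ ι → T, Sp (Sum.elim (fun _ => 0) deg) 1 w ∧
      Sum.elim z 0 = fromBlocks 0 E 0 D *ᵥ w := by
  obtain ⟨w, h1, h2⟩ := h.gen z hz
  refine ⟨Sum.elim 0 w, ?_, ?_⟩
  · rintro (a | a) ha
    · rfl
    · exact h1 a ha
  · rw [full_mulVec, Sum.elim_comp_inr, h.D_zero h1, ← h2]

theorem IsRes.step (h : IsRes c Z deg D E) {μ : Type} (E0 : Matrix μ κ T)
    (hE0 : ∀ a b, E0 a b ∈ maximalIdeal T) (hZ : ∀ v, v ∈ Z ↔ E0 *ᵥ v = 0)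
    (Y : Submodule T (μ → T)) (hY : ∀ y, y ∈ Y ↔ ∃ v, y = E0 *ᵥ v) :
    IsRes (c + 1) Y (fun a => Sum.elim (fun _ => 0) deg a + 1) (fromBlocks 0 E 0 D)
      (fromCols E0 (0 : Matrix μ ι T)) := by
  classical
  have hm : ∀ v : κ ⊕ ι → T, fromCols E0 (0 : Matrix μ ι T) *ᵥ v = E0 *ᵥ (v ∘ Sum.inl) := by
    intro v
    rw [← Sum.elim_comp_inl_inr v, fromCols_mulVec_sumElim]; simp
  refine ⟨⟨h.full_mc.sq, fun a b hab => by rw [h.full_mc.homog a b hab]⟩, ?_, h.full_mem, ?_, ?_,
    ?_, ?_, ?_, ?_⟩
  · rintro (a | a)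
    · simp
    · have := h.bd a
      simp only [Sum.elim_inr]; push_cast; omega
  · rintro a (b | b) <;> simp [hE0]
  · refine Matrix.ext_of_mulVec_single fun b => ?_
    rw [← mulVec_mulVec, hm, full_mulVec, Sum.elim_comp_inl, zero_mulVec]
    exact (hZ _).mp (h.mem _)
  · rintro a (b | b) hab
    · simp
    · simp at hab
  · intro y hy
    obtain ⟨v, rfl⟩ := (hY y).mp hy
    refine ⟨Sum.elim v 0, ?_, by rw [hm, Sum.elim_comp_inl]⟩
    rintro (a | a) ha
    · simp at ha
    · rfl
  · intro v
    rw [hm]; exact (hY _).mpr ⟨_, rfl⟩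
  · intro i v hv h1 h2
    rcases lt_trichotomy i 1 with hi | rfl | hi
    · refine ⟨0, fun _ _ => rfl, ?_⟩
      rw [mulVec_zero]
      funext a
      refine hv a ?_
      rcases a with a | a
      · simp only [Sum.elim_inl]; omega
      · have := (h.bd a).1
        simp only [Sum.elim_inr]; omega
    · rw [hm, ← hZ] at h1
      obtain ⟨w, h3, h4⟩ := h.full_zero h1
      refine ⟨w, fun a ha => h3 a (by beta_reduce at ha; omega), ?_⟩
      rw [← h4]
      funext a
      rcases a with a | a
      · rfl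
      · have := (h.bd a).1
        exact hv (.inr a) (by simp only [Sum.elim_inr]; omega)
    · obtain ⟨w, h3, h4⟩ := h.full_ex (i - 1) (by omega) v (fun a ha => hv a (by beta_reduce; omega)) h2
      exact ⟨w, fun a ha => h3 a (by beta_reduce at ha; omega), h4⟩

end Full

section Main

variable {R : Type u} {T : Type v} [CommRing R] [CommRing T] [IsLocalRing T] [IsNoetherianRing T]
  [Algebra R T] [Module.Flat R T]

omit [IsLocalRing T] [IsNoetherianRing T] [Module.Flat R T] in
theorem pure_zero (m : Ideal R) {F : Type*} [AddCommGroup F] [Module R F] [Module T F]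
    [IsScalarTower R T F] (Z : Submodule T F) [Module.Flat R (F ⧸ Z)] {z : F} (hz : z ∈ Z)
    (h : z ∈ (m.map (algebraMap R T) • ⊤ : Submodule T F)) : z ∈ m.map (algebraMap R T) • Z := by
  have h1 := LinearMap.ker_inf_smul_top_eq_smul_of_flat m (Z.mkQ.restrictScalars R)
    Z.mkQ_surjective
  have h2 : z ∈ (m • ⊤ : Submodule R F) := by
    rw [← Submodule.restrictScalars_top R T, ← Ideal.smul_restrictScalars]; exact h
  have h3 : z ∈ m • LinearMap.ker (Z.mkQ.restrictScalars R) :=
    h1 ▸ ⟨by simpa using hz, h2⟩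
  refine Submodule.smul_induction_on h3 (fun r hr y hy => ?_) fun x y hx hy => add_mem hx hy
  rw [← algebraMap_smul T r y]
  exact Submodule.smul_mem_smul (Ideal.mem_map_of_mem _ hr) (by simpa using hy)

theorem exists_isRes (m : Ideal R) (I : ℕ → Ideal T) (x : ℕ → T) (l : ℕ)
    (h0 : I 0 = m.map (algebraMap R T)) (hl : I l = maximalIdeal T)
    (hI : ∀ j < l, I (j + 1) = I j ⊔ Ideal.span {x j})
    (hreg : ∀ j < l, ∀ t, x j * t ∈ I j → t ∈ I j) (c : ℕ) :
    ∀ k, k + c = l → ∀ (κ : Type) [Fintype κ] [DecidableEq κ] (Z : Submodule T (κ → T))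
      [Module.Flat R ((κ → T) ⧸ Z)], (∀ z ∈ Z, ∀ a, z a ∈ maximalIdeal T) →
      (∀ j < k, ∀ f : κ → T, x j • f ∈ (I j • ⊤ : Submodule T (κ → T)) ⊔ Z →
        f ∈ (I j • ⊤ : Submodule T (κ → T)) ⊔ Z) →
      ∃ (ι : Type) (_ : Fintype ι) (_ : DecidableEq ι) (deg : ι → ℤ) (D : Matrix ι ι T)
        (E : Matrix κ ι T), IsRes c Z deg D E := by
  have pure : ∀ k, k ≤ l → ∀ (κ : Type) [Fintype κ] [DecidableEq κ] (Z : Submodule T (κ → T))
      [Module.Flat R ((κ → T) ⧸ Z)],
      (∀ j < k, ∀ f : κ → T, x j • f ∈ (I j • ⊤ : Submodule T (κ → T)) ⊔ Z →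
        f ∈ (I j • ⊤ : Submodule T (κ → T)) ⊔ Z) →
      ∀ j ≤ k, ∀ z ∈ Z, z ∈ (I j • ⊤ : Submodule T (κ → T)) → z ∈ I j • Z := by
    intro k hk κ _ _ Z _ hr j
    induction j with
    | zero => intro _ z hz h; rw [h0] at h ⊢; exact pure_zero m Z hz h
    | succ j ih =>
      intro hj z hz h
      rw [hI j (by omega), Submodule.sup_smul] at h ⊢
      obtain ⟨a, ha, b, hb, rfl⟩ := Submodule.mem_sup.mp h
      rw [Submodule.ideal_span_singleton_smul] at hb ⊢
      obtain ⟨f, -, rfl⟩ := (Submodule.mem_smul_pointwise_iff_exists _ _ _).mp hb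
      have h1 := hr j (by omega) f (by
        have : x j • f = -a + (a + x j • f) := by abel
        rw [this]
        exact Submodule.add_mem_sup (neg_mem ha) hz)
      obtain ⟨a', ha', z', hz', rfl⟩ := Submodule.mem_sup.mp h1
      have e : a + x j • (a' + z') = (a + x j • a') + x j • z' := by rw [smul_add, add_assoc]
      rw [e] at hz ⊢
      refine Submodule.add_mem_sup (ih (by omega) _ ?_ (add_mem ha (Submodule.smul_mem _ _ ha')))
        (Submodule.smul_mem_pointwise_smul _ _ _ hz')
      simpa using sub_mem hz (Z.smul_mem (x j) hz')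
  induction c with
  | zero =>
    intro k hk κ _ _ Z _ hmin hr
    have hZ : Z = ⊥ := by
      refine Submodule.eq_bot_of_le_smul_of_le_jacobson_bot (maximalIdeal T) Z
        (IsNoetherian.noetherian Z) (fun z hz => ?_) (maximalIdeal_le_jacobson _)
      rw [← hl]
      refine pure k (by omega) κ Z hr l (by omega) z hz ?_
      rw [mem_smul_top_iff, hl]; exact hmin z hz
    refine ⟨Empty, inferInstance, inferInstance, fun _ => 0, 0, 0, ⟨by simp, fun a => a.elim⟩,
      fun a => a.elim, fun a => a.elim, fun _ a => a.elim, by simp, fun _ a => a.elim,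
      fun z hz => ⟨0, fun a => a.elim, by simpa [hZ] using hz⟩, by simp,
      fun i v _ _ _ => ⟨0, fun a => a.elim, funext fun a => a.elim⟩⟩
  | succ c ih =>
    intro k hk κ _ _ Z _ hmin hr
    obtain ⟨n, g, hg, hgmin⟩ := exists_min_gen Z (IsNoetherian.noetherian Z)
    let E0 : Matrix κ (Fin n) T := Matrix.of fun a i => g i a
    have hE0 : ∀ v, E0 *ᵥ v = ∑ i, v i • g i := fun v => by
      funext a; simp [E0, mulVec, dotProduct, mul_comm]
    have hgZ : ∀ i, g i ∈ Z := fun i => hg ▸ Submodule.subset_span ⟨i, rfl⟩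
    have hY : ∀ y, y ∈ Z ↔ ∃ v, y = E0 *ᵥ v := fun y => by
      rw [← hg, Submodule.mem_span_range_iff_exists_fun]
      simp only [hE0, eq_comm]
    have hF : Module.Flat R (κ → T) := .trans R T _
    have hflat : Module.Flat R ((Fin n → T) ⧸ LinearMap.ker E0.mulVecLin) := by
      refine flat_ker (Z.mkQ.restrictScalars R) Z.mkQ_surjective
        (((LinearMap.ker E0.mulVecLin).liftQ E0.mulVecLin le_rfl).restrictScalars R) ?_ ?_
      · rw [LinearMap.coe_restrictScalars, ← LinearMap.ker_eq_bot]
        exact Submodule.ker_liftQ_eq_bot _ _ _ le_rfl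
      · intro y
        simp only [LinearMap.coe_restrictScalars, Submodule.mkQ_apply, Submodule.Quotient.mk_eq_zero,
          hY, Set.mem_range]
        constructor
        · rintro ⟨v, rfl⟩; exact ⟨Submodule.Quotient.mk v, rfl⟩
        · rintro ⟨q, rfl⟩
          obtain ⟨v, rfl⟩ := Submodule.Quotient.mk_surjective _ q
          exact ⟨v, rfl⟩
    obtain ⟨ι, _, _, deg, D, E, h⟩ := ih (k + 1) (by omega) (Fin n) (LinearMap.ker E0.mulVecLin)
      (fun z hz => hgmin z (by rw [← hE0]; exact hz)) (fun j hj f hf => by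
        have key : ∀ f : Fin n → T, f ∈ (I j • ⊤ : Submodule T (Fin n → T)) ⊔
            LinearMap.ker E0.mulVecLin ↔ E0 *ᵥ f ∈ I j • Z := by
          intro f
          have e1 : Z = Submodule.map E0.mulVecLin ⊤ := by
            ext y; rw [hY]; simp [eq_comm]
          rw [e1, ← Submodule.map_smul'', ← Submodule.comap_map_eq]
          rfl
        rw [key] at hf ⊢
        refine pure k (by omega) κ Z hr j (by omega) _ ((hY _).mpr ⟨_, rfl⟩) ?_
        rw [mem_smul_top_iff]
        intro a
        refine hreg j (by omega) _ ?_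
        have := (mem_smul_top_iff _ _).mp (Submodule.smul_mono le_rfl le_top hf) a
        rwa [mulVec_smul] at this)
    exact ⟨Fin n ⊕ ι, inferInstance, inferInstance, _, _, _,
      h.step E0 (fun a i => hmin _ (hgZ i) a) (fun v => Iff.rfl) Z hY⟩

end Main

end Vale.Agent.P202.Res
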