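import Mathlib

/-! Module E1: tilting by hand. Root closures of ideals, approximation, Briancon-Skoda. -/

namespace Vale.Agent.P202

universe u

open scoped Pointwise

/-- Pigeonhole principle for powers of finitely generated ideals. -/
theorem span_pow_le_span_pow_pow {A : Type*} [CommRing A] {d : ℕ} (η : Fin d → A) {m J K : ℕ}
    (hm : 0 < m) (h : m * J + d * (m - 1) ≤ K ∨ J = 0) :
    Ideal.span (Set.range η) ^ K ≤ Ideal.span (Set.range fun j => η j ^ m) ^ J := by
  induction d generalizing K J with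
  | zero =>
    rcases Nat.eq_zero_or_pos J with rfl | hJ
    · simp
    · have : K ≠ 0 := by have := Nat.mul_pos hm hJ; omega
      simp [Set.range_eq_empty, Ideal.bot_pow this]
  | succ d ih =>
    rw [Fin.range_fin_succ, Ideal.span_insert, ← Ideal.add_eq_sup, add_pow, Ideal.sum_eq_sup]
    refine Finset.sup_le fun i hi => Ideal.mul_le_left.trans ?_
    have h1 : Ideal.span {η 0} ^ i ≤ Ideal.span (Set.range fun j => η j ^ m) ^ (i / m) := by
      refine (Ideal.pow_le_pow_right (Nat.mul_div_le i m)).trans ?_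
      rw [pow_mul, Ideal.span_singleton_pow]
      exact Ideal.pow_right_mono (Ideal.span_mono 
        (Set.singleton_subset_iff.2 (Set.mem_range_self (f := fun j => η j ^ m) 0))) _
    have h2 := ih (Fin.tail η) (K := K - i) (J := J - i / m) (by
      rcases h with h | h
      · rcases le_total J (i / m) with h3 | h3
        · exact Or.inr (Nat.sub_eq_zero_of_le h3)
        · obtain ⟨c, rfl⟩ := Nat.exists_eq_add_of_le h3
          have := Nat.div_add_mod i m
          have := Nat.mod_lt i hm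
          rw [mul_add, add_mul] at h
          rw [Nat.add_sub_cancel_left]
          omega
      · exact Or.inr (by rw [h, Nat.zero_sub]))
    refine (Ideal.mul_mono h1 (h2.trans (Ideal.pow_right_mono
      (Ideal.span_mono (t := Set.range fun j => η j ^ m) ?_) _))).trans ?_
    · rintro _ ⟨j, rfl⟩
      exact ⟨j.succ, rfl⟩
    · rw [← pow_add]
      exact Ideal.pow_le_pow_right (by omega)

theorem tilt_iSup_pow {A : Type*} [CommRing A] {I : ℕ → Ideal A} (h : Monotone I) (n : ℕ) :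
    (⨆ a, I a) ^ n ≤ ⨆ a, I a ^ n := by
  induction n with
  | zero => exact le_iSup_of_le 0 (by simp)
  | succ n ih =>
    rw [pow_succ]
    refine (Ideal.mul_mono_left ih).trans ?_
    simp only [Ideal.iSup_mul, Ideal.mul_iSup, iSup_le_iff]
    exact fun a b => le_iSup_of_le (max a b) (by
      rw [pow_succ]
      exact Ideal.mul_mono (Ideal.pow_right_mono (h (by omega)) _) (h (by omega)))

theorem tilt_span_pow {A B : Type*} [CommRing A] [CommRing B] (ψ : B →* A) (S : Set B) (n : ℕ) :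
    Ideal.span (ψ '' (S ^ n)) = Ideal.span (ψ '' S) ^ n := by
  rw [Set.image_pow]
  exact (Submodule.span_pow _ n).symm

theorem tilt_span_mul {A B : Type*} [CommRing A] [CommRing B] (ψ : B →* A) (w : B) (S : Set B) :
    Ideal.span (ψ '' ((fun g => w * g) '' S)) = Ideal.span {ψ w} * Ideal.span (ψ '' S) := by
  rw [Ideal.span_mul_span', ← Set.singleton_mul, Set.image_mul, Set.image_singleton]

theorem tilt_sum_pow {A ι : Type*} [CommRing A] {p : ℕ} (hp : p.Prime) (k : ℕ) (I : Ideal A)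
    (s : Finset ι) (y : ι → A) (h : ∀ i ∈ s, y i ∈ I) :
    (∑ i ∈ s, y i) ^ p ^ k - ∑ i ∈ s, y i ^ p ^ k ∈ Ideal.span {(p : A)} * I ^ p ^ k := by
  classical
  induction s using Finset.induction_on with
  | empty => simp [hp.ne_zero]
  | insert a s ha ih =>
    have h1 : ∀ i ∈ s, y i ∈ I := fun i hi => h i (Finset.mem_insert_of_mem hi)
    rw [Finset.sum_insert ha, Finset.sum_insert ha, add_pow_prime_pow_eq' hp, add_assoc,
      add_sub_add_left_eq_sub, add_comm, add_sub_assoc]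
    refine add_mem (Ideal.mul_mem_mul (Ideal.mem_span_singleton_self _)
      (Submodule.sum_mem _ fun j hj => Ideal.mul_mem_right _ _ ?_)) (ih h1)
    have h2 := Ideal.mul_mem_mul (Ideal.pow_mem_pow (h a (Finset.mem_insert_self _ _)) j)
      (Ideal.pow_mem_pow (Submodule.sum_mem I h1) (p ^ k - j))
    rwa [← pow_add, Nat.add_sub_cancel' (Finset.mem_Ioo.1 hj).2.le] at h2

variable (p : ℕ) [Fact p.Prime]

/-- A ring `O` killed by `p ^ M` together with a perfect ring `B` playing the role of its tilt. -/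
structure TiltData (M : ℕ) (O B : Type u) [CommRing O] [CommRing B] where
  sh : B →* O
  t : B
  add : ∀ a b, sh (a + b) - sh a - sh b ∈ Ideal.span {(p : O)}
  surj : ∀ o, ∃ b, o - sh b ∈ Ideal.span {(p : O)}
  sh_t : sh t = p
  dvd : ∀ b, sh b ∈ Ideal.span {(p : O)} → t ∣ b
  tors : ∀ z : O, p * z = 0 → z ∈ Ideal.span {(p : O) ^ (M - 1)}
  nil : (p : O) ^ M = 0

variable {M : ℕ} {O B : Type u} [CommRing O] [CommRing B] [CharP B p] [PerfectRing B p]

/-- The `p ^ e`-th root. -/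
noncomputable def proot (e : ℕ) : B →+* B := (iterateFrobeniusEquiv B p e).symm.toRingHom

theorem proot_pow (e : ℕ) (b : B) : proot p e b ^ p ^ e = b :=
  (iterateFrobeniusEquiv B p e).apply_symm_apply b
theorem proot_add (e e' : ℕ) (b : B) : proot p (e + e') b = proot p e (proot p e' b) :=
  iterateFrobeniusEquiv_symm_add_apply B p e e' b

theorem tilt_proot_zero (b : B) : proot p 0 b = b := by simpa using proot_pow p 0 b

theorem tilt_proot_of_pow (e : ℕ) (b : B) : proot p e (b ^ p ^ e) = b := by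
  rw [map_pow, proot_pow]

/-- The composite of a multiplicative map with a root. -/
noncomputable def tiltR {A : Type*} [CommRing A] (φ : B →* A) (e : ℕ) : B →* A :=
  φ.comp (proot p e : B →+* B)

/-- The level `e` part of the root closure along a multiplicative map. -/
noncomputable def tiltL {A : Type*} [CommRing A] (φ : B →* A) (e : ℕ) (G : Set B) : Ideal A :=
  Ideal.span (tiltR p φ e '' G) ^ p ^ e

section gen

variable {A : Type*} [CommRing A] (φ : B →* A)

theorem tiltR_pow (e : ℕ) (b : B) : tiltR p φ e b ^ p ^ e = φ b := by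
  rw [← map_pow]
  exact congrArg φ (tilt_proot_of_pow p e b)

theorem tiltR_image (e k : ℕ) (G : Set B) :
    tiltR p φ e '' (proot p k '' G) = tiltR p φ (e + k) '' G := by
  rw [Set.image_image]
  exact Set.image_congr fun b _ => congrArg φ (proot_add p e k b).symm

theorem tiltL_mono (G : Set B) : Monotone fun e => tiltL p φ e G := by
  refine monotone_nat_of_le_succ fun e => ?_
  unfold tiltL
  rw [pow_succ' p, pow_mul]
  refine Ideal.pow_right_mono (Ideal.span_le.2 ?_) _
  rintro _ ⟨g, hg, rfl⟩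
  have : tiltR p φ e g = tiltR p φ (e + 1) g ^ p := by
    rw [← map_pow]
    exact congrArg φ (by
      have := tilt_proot_of_pow p 1 g
      rw [pow_one] at this
      rw [MonoidHom.coe_coe, MonoidHom.coe_coe, proot_add, this])
  rw [this]
  exact Ideal.pow_mem_pow (Ideal.subset_span (Set.mem_image_of_mem _ hg)) _

theorem tiltL_mem {G : Set B} {x : A} : x ∈ ⨆ e, tiltL p φ e G ↔ ∃ e, x ∈ tiltL p φ e G :=
  Submodule.mem_iSup_of_directed _ (tiltL_mono p φ G).directed_le

theorem tiltL_self {G : Set B} {g : B} (h : g ∈ G) : φ g ∈ ⨆ e, tiltL p φ e G := by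
  rw [← tiltR_pow p φ 0]
  exact (tiltL_mem p φ).2 ⟨0, 
    Ideal.pow_mem_pow (Ideal.subset_span (Set.mem_image_of_mem _ h)) _⟩

theorem tiltL_le {G G' : Set B}
    (h : ∀ g ∈ G', ∀ k, φ (proot p k g) ∈ ⨆ e, tiltL p φ e (proot p k '' G)) :
    ⨆ e, tiltL p φ e G' ≤ ⨆ e, tiltL p φ e G := by
  refine iSup_le fun k => ((Ideal.pow_right_mono (Ideal.span_le.2 ?_) _).trans
    (tilt_iSup_pow (tiltL_mono p φ (proot p k '' G)) _)).trans (iSup_le fun e => ?_)
  · rintro _ ⟨g, hg, rfl⟩
    exact h g hg k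
  · refine le_iSup_of_le (e + k) (le_of_eq ?_)
    rw [tiltL, tiltL, tiltR_image, ← pow_mul, ← pow_add]

theorem tiltL_mul (w : B) (G : Set B) :
    ⨆ e, tiltL p φ e ((fun g => w * g) '' G) = Ideal.span {φ w} * ⨆ e, tiltL p φ e G := by
  rw [Ideal.mul_iSup]
  refine iSup_congr fun e => ?_
  rw [tiltL, tiltL, tilt_span_mul, mul_pow, Ideal.span_singleton_pow, tiltR_pow]

end gen

/-- The root closure in the tilt. -/
noncomputable def flatCl (G : Set B) : Ideal B := ⨆ e : ℕ, Ideal.span (proot p e '' G) ^ p ^ e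

variable {p}

/-- The level `e` part of the root closure in `O`. -/
noncomputable def TiltData.lev (τ : TiltData p M O B) (e : ℕ) (G : Set B) : Ideal O :=
  Ideal.span ((fun b => τ.sh (proot p e b)) '' G) ^ p ^ e

/-- The root closure in `O`. -/
noncomputable def TiltData.cl (τ : TiltData p M O B) (G : Set B) : Ideal O := ⨆ e : ℕ, τ.lev e G

theorem subset_flatCl (G : Set B) : G ⊆ flatCl p G := fun _ h => tiltL_self p (MonoidHom.id B) h
theorem proot_mem_flatCl (k : ℕ) {G : Set B} {b : B} (h : b ∈ flatCl p G) :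
    proot p k b ∈ flatCl p (proot p k '' G) := by
  obtain ⟨e, he⟩ := (tiltL_mem p (MonoidHom.id B)).1 h
  have h1 := Ideal.mem_map_of_mem (proot p k) he
  rw [tiltL, Ideal.map_pow, Ideal.map_span, Set.image_image] at h1
  refine (tiltL_mem p (MonoidHom.id B)).2 ⟨e, ?_⟩
  rw [tiltL, tiltR_image, add_comm]
  exact (congrArg (fun S => _ ∈ Ideal.span S ^ p ^ e)
    (Set.image_congr fun b _ => proot_add p k e b)).mpr h1
theorem flatCl_le_of_subset {G G' : Set B} (h : G' ⊆ flatCl p G) : flatCl p G' ≤ flatCl p G :=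
  tiltL_le p (MonoidHom.id B) fun _ hg k => proot_mem_flatCl k (h hg)
theorem mul_mem_flatCl (w : B) {G : Set B} {b : B} (h : b ∈ flatCl p G) :
    w * b ∈ flatCl p ((fun g => w * g) '' G) :=
  (tiltL_mul p (MonoidHom.id B) w G).ge (Ideal.mul_mem_mul (Ideal.mem_span_singleton_self _) h)
theorem tilt_mul_insert {w b : B} {G G' : Set B} (h : b ∈ flatCl p G)
    (h' : ∀ g ∈ G, w * g ∈ flatCl p G') : w * b ∈ flatCl p G' :=
  flatCl_le_of_subset (by rintro _ ⟨g, hg, rfl⟩; exact h' g hg) (mul_mem_flatCl w h)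
/-- (ITER) -/
theorem mem_flatCl_of_iter {G : Set B} {g w : B} {s : ℕ} (hw : w ^ s ∈ flatCl p G)
    (h : g ∈ flatCl p (insert (w * g) G)) : g ∈ flatCl p G := by
  have key : ∀ n, g ∈ flatCl p (insert (w ^ n * g) G) := fun n => by
    induction n with
    | zero => exact subset_flatCl _ (by simp)
    | succ n ih =>
      refine flatCl_le_of_subset (Set.insert_subset (tilt_mul_insert h ?_) fun x hx =>
        subset_flatCl _ (Set.mem_insert_of_mem _ hx)) ih
      rintro x (rfl | hx)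
      · exact subset_flatCl _ (Or.inl (by ring))
      · exact Ideal.mul_mem_left _ _ (subset_flatCl _ (Set.mem_insert_of_mem _ hx))
  exact flatCl_le_of_subset (Set.insert_subset (Ideal.mul_mem_right _ _ hw) (subset_flatCl G))
    (key s)

namespace TiltData
variable (τ : TiltData p M O B)

theorem lev_mono (G : Set B) : Monotone fun e => τ.lev e G := tiltL_mono p τ.sh G
omit [Fact p.Prime] [CharP B p] [PerfectRing B p] in
theorem tilt_sh_zero : τ.sh 0 = 0 := by
  obtain ⟨z, hz⟩ := Ideal.mem_span_singleton'.1 (neg_mem (τ.add 0 0))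
  rw [add_zero, sub_self, zero_sub, neg_neg] at hz
  calc τ.sh 0 = τ.sh 0 ^ (M + 1) := by rw [← map_pow, zero_pow M.succ_ne_zero]
    _ = 0 := by rw [← hz, mul_pow, pow_succ (p : O), τ.nil, zero_mul, mul_zero]
theorem tilt_self {G : Set B} {g : B} (h : g ∈ G) : τ.sh g ∈ τ.cl G := tiltL_self p τ.sh h
theorem sh_sum_sub_mem {ι : Type*} (s : Finset ι) (x : ι → B) :
    τ.sh (∑ i ∈ s, x i) - ∑ i ∈ s, τ.sh (x i) ∈ Ideal.span {(p : O)} * τ.cl (x '' s) := by
  classical
  have h1 : ∀ y : ι → B, τ.sh (∑ i ∈ s, y i) - ∑ i ∈ s, τ.sh (y i) ∈ Ideal.span {(p : O)} := by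
    intro y
    induction s using Finset.induction_on with
    | empty => simp [τ.tilt_sh_zero]
    | insert a s ha ih =>
      rw [Finset.sum_insert ha, Finset.sum_insert ha]
      exact (congrArg (· ∈ _) (by ring)).mp (add_mem (τ.add (y a) (∑ i ∈ s, y i)) ih)
  have h2 := dvd_sub_pow_of_dvd_sub (Ideal.mem_span_singleton.1 (h1 fun i => proot p M (x i))) M
  rw [pow_succ (p : O), τ.nil, zero_mul, zero_dvd_iff, sub_eq_zero, ← map_pow, ← map_sum,
    proot_pow] at h2
  have h3 := tilt_sum_pow (Fact.out : p.Prime) M (Ideal.span (tiltR p τ.sh M '' (x '' s))) s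
    (fun i => tiltR p τ.sh M (x i)) fun i hi => Ideal.subset_span ⟨_, ⟨i, hi, rfl⟩, rfl⟩
  simp only [tiltR_pow] at h3
  rw [h2]
  exact Ideal.mul_mono_right (le_iSup (fun e => τ.lev e (x '' s)) M) h3
theorem tilt_add (a b : B) :
    τ.sh (a + b) - τ.sh a - τ.sh b ∈ Ideal.span {(p : O)} * τ.cl {a, b} := by
  have h := τ.sh_sum_sub_mem Finset.univ ![a, b]
  rw [Fin.sum_univ_two, Fin.sum_univ_two, Finset.coe_univ, Set.image_univ,
    Matrix.range_cons_cons_empty] at h
  rw [sub_sub]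
  exact h
theorem tilt_root {G : Set B} {b : B} (h : b ∈ flatCl p G) (k : ℕ) :
    τ.sh (proot p k b) ∈ τ.cl (proot p k '' G) := by
  obtain ⟨e, he⟩ := (tiltL_mem p (MonoidHom.id B)).1 h
  rw [tiltL, ← Ideal.submodule_span_eq, Submodule.span_pow] at he
  clear h
  induction he using Submodule.span_induction generalizing k with
  | mem x hx =>
    have h1 : tiltR p τ.sh k x ∈ _ := Ideal.subset_span (Set.mem_image_of_mem _ hx)
    rw [tilt_span_pow] at h1
    refine (tiltL_mem p τ.sh).2 ⟨e, ?_⟩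
    rw [tiltL, tiltR_image, add_comm, ← tiltR_image]
    exact h1
  | zero => rw [map_zero, τ.tilt_sh_zero]; exact zero_mem _
  | add x y _ _ hx hy =>
    have h1 : τ.cl {proot p k x, proot p k y} ≤ τ.cl (proot p k '' G) := by
      refine tiltL_le p τ.sh fun g hg j => ?_
      rw [Set.image_image]
      simp only [← proot_add]
      rcases hg with rfl | rfl <;> rw [← proot_add]
      exacts [hx _, hy _]
    rw [map_add]
    exact (congrArg (· ∈ _) (by ring)).mp
      (add_mem (add_mem (h1 (Ideal.mul_le_right (τ.tilt_add _ _))) (hx k)) (hy k))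
  | smul a x _ hx =>
    rw [smul_eq_mul, map_mul, map_mul]
    exact Ideal.mul_mem_left _ _ (hx k)
theorem sh_mem_cl {G : Set B} {b : B} (h : b ∈ flatCl p G) : τ.sh b ∈ τ.cl G := by
  simpa [tilt_proot_zero] using τ.tilt_root h 0
theorem cl_le_of_subset {G G' : Set B} (h : G' ⊆ flatCl p G) : τ.cl G' ≤ τ.cl G :=
  tiltL_le p τ.sh fun _ hg k => τ.tilt_root (h hg) k
theorem cl_mul (w : B) (G : Set B) :
    τ.cl ((fun g => w * g) '' G) = Ideal.span {τ.sh w} * τ.cl G := tiltL_mul p τ.sh w G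
theorem cl_le_span (G : Set B) : τ.cl G ≤ Ideal.span (τ.sh '' (flatCl p G : Set B)) := by
  refine iSup_le fun e => ?_
  rw [lev, ← Set.image_image, ← tilt_span_pow]
  refine Ideal.span_mono (Set.image_mono fun x hx => ?_)
  refine le_iSup (fun e => Ideal.span (proot p e '' G) ^ p ^ e) e ?_
  rw [← Ideal.submodule_span_eq, Submodule.span_pow]
  exact Submodule.subset_span hx
theorem tilt_add' {G : Set B} {a b : B} (ha : a ∈ flatCl p G) (hb : b ∈ flatCl p G) :
    τ.sh (a + b) - τ.sh a - τ.sh b ∈ Ideal.span {(p : O)} * τ.cl G :=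
  Ideal.mul_mono_right (τ.cl_le_of_subset (Set.pair_subset ha hb)) (τ.tilt_add a b)
theorem tilt_lift {G : Set B} {x : O} (h : x ∈ τ.cl G) :
    ∃ y ∈ flatCl p G, x - τ.sh y ∈ Ideal.span {(p : O)} * τ.cl G := by
  have h1 := τ.cl_le_span G h
  clear h
  induction h1 using Submodule.span_induction with
  | mem x hx =>
    obtain ⟨y, hy, rfl⟩ := hx
    exact ⟨y, hy, by simp⟩
  | zero => exact ⟨0, zero_mem _, by simp [τ.tilt_sh_zero]⟩
  | add x x' _ _ hx hx' =>
    obtain ⟨y, hy, h⟩ := hx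
    obtain ⟨y', hy', h'⟩ := hx'
    exact ⟨y + y', add_mem hy hy', (congrArg (· ∈ _) (by ring)).mp
      (sub_mem (add_mem h h') (τ.tilt_add' hy hy'))⟩
  | smul a x _ hx =>
    obtain ⟨y, hy, h⟩ := hx
    obtain ⟨b, hb⟩ := τ.surj a
    exact ⟨b * y, Ideal.mul_mem_left _ _ hy, (congrArg (· ∈ _) (by
      rw [map_mul, smul_eq_mul]; ring)).mp
      (add_mem (Ideal.mul_mem_left _ a h) (Ideal.mul_mem_mul hb (τ.sh_mem_cl hy)))⟩
theorem tilt_top {G : Set B} (h : τ.t ^ 0 ∈ G) (x : O) : x ∈ τ.cl G := by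
  simpa using Ideal.mul_mem_left _ x (τ.tilt_self h)
/-- (AL) the approximation lemma. -/
theorem exists_approx (f : O) (N : ℕ) :
    ∃ g : B, f - τ.sh g ∈ Ideal.span {(p : O)} * τ.cl {g, τ.t ^ N} := by
  induction N with
  | zero =>
    obtain ⟨g, hg⟩ := τ.surj f
    have h := Ideal.mul_mem_mul hg (τ.tilt_top (G := {g, τ.t ^ 0}) (Or.inr rfl) 1)
    rw [mul_one] at h
    exact ⟨g, h⟩
  | succ N ih =>
    obtain ⟨g, hg⟩ := ih
    obtain ⟨x, hx, e⟩ := Ideal.mem_span_singleton_mul.1 hg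
    obtain ⟨y, hy, h⟩ := τ.tilt_lift hx
    have h1 : τ.t ^ (N + 1) ∈ flatCl p {g + τ.t * y, τ.t ^ (N + 1)} := subset_flatCl _ (by simp)
    have h2 : g + τ.t * y ∈ flatCl p {g + τ.t * y, τ.t ^ (N + 1)} := subset_flatCl _ (by simp)
    have h3 : g ∈ flatCl p {g + τ.t * y, τ.t ^ (N + 1)} := by
      refine mem_flatCl_of_iter h1 ((congrArg (· ∈ _) (add_sub_cancel_right g (τ.t * y))).mp
        (sub_mem (subset_flatCl _ (by simp)) (tilt_mul_insert hy ?_)))
      rintro _ (rfl | rfl) <;> exact subset_flatCl _ (by simp [pow_succ'])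
    have h4 : τ.t * y ∈ flatCl p {g + τ.t * y, τ.t ^ (N + 1)} := by simpa using sub_mem h2 h3
    have h5 : Ideal.span {(p : O)} * τ.cl {g, τ.t ^ N} ≤ τ.cl {g + τ.t * y, τ.t ^ (N + 1)} := by
      rw [← τ.sh_t, ← cl_mul, Set.image_pair, ← pow_succ']
      exact τ.cl_le_of_subset (Set.pair_subset (Ideal.mul_mem_left _ _ h3) h1)
    refine ⟨g + τ.t * y, (congrArg (· ∈ _) ?_).mp (sub_mem (Ideal.mul_mem_mul
      (Ideal.mem_span_singleton_self _) (h5 h)) (τ.tilt_add' h3 h4))⟩
    rw [map_mul, τ.sh_t, mul_sub, e]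
    ring
/-- Membership in the root closure descends to the tilt. -/
theorem mem_flatCl_of_sh {c : ℕ} (hc : c ≤ M) (G : Set B) (X : B)
    (h : τ.sh X ∈ τ.cl (insert (τ.t ^ c) G)) : X ∈ flatCl p (insert (τ.t ^ c) G) := by
  induction c generalizing G X with
  | zero => simpa using Ideal.mul_mem_left _ X (subset_flatCl (p := p) _ (Set.mem_insert 1 G))
  | succ c ih =>
    obtain ⟨y, hy, h1⟩ := τ.tilt_lift h
    have s1 : ∀ Y, insert (τ.t ^ (c + 1)) G ⊆ flatCl p (insert Y (insert (τ.t ^ (c + 1)) G)) :=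
      fun Y => (Set.subset_insert _ _).trans (subset_flatCl _)
    have h2 := flatCl_le_of_subset (s1 X) hy
    have h3 : τ.sh (X - y) ∈ Ideal.span {(p : O)} * τ.cl (insert X (insert (τ.t ^ (c + 1)) G)) :=
      (congrArg (· ∈ _) (by rw [sub_add_cancel]; ring)).mp
        (sub_mem (Ideal.mul_mono_right (τ.cl_le_of_subset (s1 X)) h1)
        (τ.tilt_add' (sub_mem (subset_flatCl _ (Set.mem_insert _ _)) h2) h2))
    obtain ⟨X2, e2⟩ := τ.dvd _ (Ideal.mul_le_left h3)
    obtain ⟨z, hz, e⟩ := Ideal.mem_span_singleton_mul.1 h3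
    have h4 : τ.t ^ c ∈ flatCl p (insert (τ.t ^ c) (insert X G)) :=
      subset_flatCl _ (Set.mem_insert _ _)
    have h5 : τ.sh X2 - z ∈ τ.cl (insert (τ.t ^ c) (insert X G)) := by
      refine Ideal.mem_of_dvd _ ?_ (τ.sh_mem_cl h4)
      rw [map_pow, τ.sh_t]
      refine (pow_dvd_pow _ (by omega)).trans (Ideal.mem_span_singleton.1 (τ.tors _ ?_))
      rw [mul_sub, e, e2, map_mul, τ.sh_t, sub_self]
    have h6 := ih (by omega) (insert X G) X2 ((congrArg (· ∈ _) (sub_add_cancel _ _)).mp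
      (add_mem h5 (τ.cl_le_of_subset (Set.insert_subset (subset_flatCl _ (by simp))
        (Set.insert_subset (by rw [pow_succ]; exact Ideal.mul_mem_right _ _ h4) fun g hg =>
        subset_flatCl _ (by simp [hg]))) hz)))
    refine mem_flatCl_of_iter (w := τ.t) (subset_flatCl _ (Set.mem_insert _ _))
      ((congrArg (· ∈ _) (sub_add_cancel X y)).mp (add_mem ?_ (flatCl_le_of_subset (s1 _) hy)))
    rw [e2]
    refine tilt_mul_insert h6 ?_
    rintro g (rfl | rfl | hg)
    · exact subset_flatCl _ (by simp [pow_succ'])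
    · exact subset_flatCl _ (by simp)
    · exact Ideal.mul_mem_left _ _ (subset_flatCl _ (by simp [hg]))

/-- (T5) Briancon-Skoda theorem up to a small root of `c r`, modulo approximate roots `F i` of the
relations `f i`. -/
theorem briancon_skoda {N : ℕ} (hN : N ≤ M) {κ R : Type} [Finite κ] [Finite R] (f : κ → O)
    (c a : R → B) {d : ℕ} (ξ : Fin d → B) (J : R → ℕ) (k' : ℕ) (hJ : ∀ r, J r ≤ p ^ k')
    (h : ∀ r, τ.sh (c r) * τ.sh (a r) ^ p ^ k' ∈
      Ideal.span {τ.sh (c r) ^ p ^ k'} *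
        Ideal.span (Set.range fun j => τ.sh (ξ j) ^ p ^ k') ^ J r ⊔ Ideal.span (Set.range f)) :
    ∃ (k : ℕ) (F : κ → O), 2 * k' ≤ k ∧
      (∀ i, f i - F i ^ p ^ k ∈
        Ideal.span {(p : O)} * Ideal.span {F i, τ.sh (proot p k τ.t) ^ N} ^ p ^ k) ∧
      ∀ r, τ.sh (proot p k' (c r)) ^ 2 * τ.sh (a r) ∈
        Ideal.span {τ.sh (c r)} * Ideal.span (Set.range fun j => τ.sh (ξ j)) ^ (J r - (d + 1)) ⊔
          Ideal.span (insert (τ.sh (proot p k τ.t) ^ N) (Set.range F)) ^ p ^ (k - 2 * k') := by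
  have hp := (Fact.out : p.Prime).pos
  choose g hg using fun i => τ.exists_approx (f i) N
  let W : R → Set B := fun r =>
    (fun m => c r ^ p ^ k' * m) '' ((Set.range fun j => ξ j ^ p ^ k') ^ J r)
  have hW : ∀ {ψ : B →* O} (r : R), Ideal.span (ψ '' W r) = Ideal.span {ψ (c r ^ p ^ k')} *
      Ideal.span (Set.range fun j => ψ (ξ j ^ p ^ k')) ^ J r := fun r => by
    rw [tilt_span_mul, tilt_span_pow, ← Set.range_comp']
  have h1 : ∀ r, ∃ e, τ.sh (proot p k' (c r)) * τ.sh (a r) ∈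
      τ.lev e (proot p k' '' insert (τ.t ^ N) (Set.range g ∪ W r)) := fun r => by
    refine (tiltL_mem p τ.sh).1 ?_
    have h2 := τ.tilt_root (τ.mem_flatCl_of_sh hN (Set.range g ∪ W r) (c r * a r ^ p ^ k') ?_) k'
    · rwa [map_mul, tilt_proot_of_pow, map_mul] at h2
    rw [map_mul, map_pow]
    refine (sup_le ?_ (Ideal.span_le.2 ?_) : _ ≤ τ.cl _) (h r)
    · simp only [← map_pow]
      rw [← hW, Ideal.span_le]
      rintro _ ⟨w, hw, rfl⟩
      exact τ.tilt_self (by simp [hw])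
    · rintro _ ⟨i, rfl⟩
      exact (congrArg (· ∈ _) (sub_add_cancel _ _)).mp (add_mem (τ.cl_le_of_subset
        (Set.pair_subset (subset_flatCl _ (by simp)) (subset_flatCl _ (by simp)))
        (Ideal.mul_le_right (hg i))) (τ.tilt_self (by simp)))
  have h2 : ∀ i, ∃ e, f i - τ.sh (g i) ∈ Ideal.span {(p : O)} * τ.lev e {g i, τ.t ^ N} := fun i => by
    obtain ⟨x, hx, e⟩ := Ideal.mem_span_singleton_mul.1 (hg i)
    obtain ⟨k, hk⟩ := (tiltL_mem p τ.sh).1 hx
    exact ⟨k, e ▸ Ideal.mul_mem_mul (Ideal.mem_span_singleton_self _) hk⟩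
  choose e1 he1 using h1
  choose e2 he2 using h2
  obtain ⟨n1, hn1⟩ := (Set.finite_range e1).bddAbove
  obtain ⟨n2, hn2⟩ := (Set.finite_range e2).bddAbove
  obtain ⟨n, b1, b2⟩ : ∃ n, (∀ r, e1 r ≤ n) ∧ ∀ i, e2 i ≤ n := ⟨max n1 n2,
    fun r => le_max_of_le_left (hn1 ⟨r, rfl⟩), fun i => le_max_of_le_right (hn2 ⟨i, rfl⟩)⟩
  refine ⟨n + k' + k', fun i => tiltR p τ.sh (n + k' + k') (g i), by omega, fun i => ?_,
    fun r => ?_⟩
  · have h3 := Ideal.mul_mono_right (τ.lev_mono _ (by have := b2 i; omega : e2 i ≤ n + k' + k'))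
      (he2 i)
    simp only [lev, Set.image_pair, map_pow] at h3
    rw [tiltR_pow]
    exact h3
  have h3 : _ ∈ tiltL p τ.sh (n + k') _ :=
    τ.lev_mono _ (by have := b1 r; omega : e1 r ≤ n + k') (he1 r)
  have e3 : ∀ b, tiltR p τ.sh (n + k' + k') (b ^ p ^ k') = tiltR p τ.sh (n + k') b := fun b =>
    congrArg τ.sh (by rw [MonoidHom.coe_coe, MonoidHom.coe_coe, proot_add, tilt_proot_of_pow])
  have e4 : τ.sh (proot p k' (c r)) = tiltR p τ.sh (n + k') (c r) ^ p ^ n := by
    rw [← tiltR_pow p τ.sh n]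
    exact congrArg (fun b => τ.sh b ^ p ^ n) (proot_add p n k' _).symm
  have le : p ^ n ≤ p ^ (n + k') := Nat.pow_le_pow_right hp (by omega)
  rw [tiltL, tiltR_image, ← Set.insert_union, Set.image_union, Ideal.span_union, hW,
    Set.image_insert_eq, ← Set.range_comp', map_pow, ← Nat.add_sub_cancel' le] at h3
  simp only [e3] at h3
  obtain ⟨x, hx, y, hy, e⟩ := Submodule.mem_sup.1 (Ideal.sup_pow_add_le_pow_sup_pow h3)
  rw [sq, mul_assoc, ← e, mul_add, add_comm (_ * x), show n + k' + k' - 2 * k' = n by omega]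
  refine Submodule.add_mem_sup ?_ (Ideal.mul_mem_left _ _ hx)
  have h4 := Ideal.mul_mem_mul (Ideal.pow_mem_pow (Ideal.mem_span_singleton_self
    (tiltR p τ.sh (n + k') (c r))) (p ^ n)) hy
  rw [mul_pow, ← mul_assoc, ← pow_add, Nat.add_sub_cancel' le, Ideal.span_singleton_pow,
    tiltR_pow, ← pow_mul, ← e4] at h4
  simp only [← tiltR_pow p τ.sh (n + k') (ξ _)]
  refine Ideal.mul_mono_right (span_pow_le_span_pow_pow _ (by positivity) ?_) h4
  rcases le_total (J r) (d + 1) with h5 | h5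
  · exact Or.inr (Nat.sub_eq_zero_of_le h5)
  · left
    have h6 : J r * p ^ n ≤ p ^ (n + k') := by
      rw [pow_add, mul_comm]
      exact Nat.mul_le_mul_left _ (hJ r)
    obtain ⟨s, hs⟩ := Nat.exists_eq_add_of_le h5
    have h7 : d * (p ^ (n + k') - 1) ≤ d * p ^ (n + k') := Nat.mul_le_mul_left _ (by omega)
    rw [hs] at h6 ⊢
    rw [Nat.add_sub_cancel_left, Nat.mul_sub (d + 1 + s)]
    have h8 : (d + 1 + s) * p ^ (n + k') =
      p ^ (n + k') * s + d * p ^ (n + k') + p ^ (n + k') := by ring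
    omega

end TiltData

end Vale.Agent.P202
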