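import Vale.Agent.P202.TowerAux

/-! Module E2: towers of `p`-power roots and the finite level form of the Briancon-Skoda theorem. -/

namespace Vale.Agent.P202

open Filter

universe u

/-- A tower of domains with compatible `p`-power roots `w n s`; `w 0 s₀ = p`. -/
structure IsTower (p : ℕ) {σ : Type} (s₀ : σ) (Q : ℕ → Type u) [∀ n, CommRing (Q n)]
    (ι : ∀ m n : ℕ, m ≤ n → Q m →+* Q n) (w : ∀ n, σ → Q n) : Prop where
  dom : ∀ n, IsDomain (Q n)
  self : ∀ n h x, ι n n h x = x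
  comp : ∀ l m n h h' x, ι m n h' (ι l m h x) = ι l n (h.trans h') x
  root : ∀ m n h s, ι m n h (w m s) = w n s ^ p ^ (n - m)
  zero : w 0 s₀ = p
  prime : ∀ n, Prime (w n s₀)
  semi : ∀ n (y : Q n), ∃ y' : Q (n + 1),
    y' ^ p - ι n (n + 1) (Nat.le_succ n) y ∈ Ideal.span {(p : Q (n + 1))}

theorem IsTower.exists_approx {p : ℕ} [Fact p.Prime] {σ : Type} [Fintype σ] {s₀ : σ}
    {Q : ℕ → Type u} [∀ n, CommRing (Q n)] {ι : ∀ m n : ℕ, m ≤ n → Q m →+* Q n}
    {w : ∀ n, σ → Q n} (h : IsTower p s₀ Q ι w) {κ R : Type} [Finite κ] [Finite R]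
    (f : κ → Q 0) (cγ aγ : R → σ → ℕ) {d : ℕ} (v : Fin d → σ) (j k' N : ℕ) (J : R → ℕ)
    (hJ : ∀ r, J r ≤ p ^ k')
    (hyp : ∀ r, ι 0 j (Nat.zero_le j)
        ((∏ s, w 0 s ^ cγ r s) * (∏ s, w 0 s ^ aγ r s) ^ p ^ k') ∈
      Ideal.span {ι 0 j (Nat.zero_le j) (∏ s, w 0 s ^ cγ r s) ^ p ^ k'} *
        Ideal.span (Set.range fun i => w j (v i) ^ p ^ k') ^ J r ⊔
      Ideal.span (Set.range fun i => ι 0 j (Nat.zero_le j) (f i))) :
    ∃ (n k : ℕ) (F : κ → Q n), j ≤ n ∧ k ≤ n ∧ 2 * k' ≤ k ∧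
      (∀ i, ι 0 n (Nat.zero_le n) (f i) - F i ^ p ^ k ∈
        Ideal.span {(p : Q n)} * Ideal.span {F i, (w n s₀ ^ p ^ (n - k)) ^ N} ^ p ^ k) ∧
      ∀ r, ((∏ s, w n s ^ cγ r s) ^ p ^ (n - k')) ^ 2 *
          ι 0 n (Nat.zero_le n) (∏ s, w 0 s ^ aγ r s) ∈
        Ideal.span {ι 0 n (Nat.zero_le n) (∏ s, w 0 s ^ cγ r s)} *
          Ideal.span (Set.range fun i => w n (v i) ^ p ^ (n - j)) ^ (J r - (d + 1)) ⊔
        Ideal.span (insert ((w n s₀ ^ p ^ (n - k)) ^ N) (Set.range F)) ^ p ^ (k - 2 * k') := by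
  have hp := (Fact.out : p.Prime).pos
  obtain ⟨A, _, φ, h1, h2, h3⟩ := Tw.exists_colim h.self h.comp
  have hpw : ∀ n, w n s₀ ^ p ^ n = p := fun n => by
    have := h.root 0 n n.zero_le s₀
    rwa [h.zero, map_natCast, Nat.sub_zero, eq_comm] at this
  have hroot : ∀ m n s, m ≤ n → φ n (w n s) ^ p ^ (n - m) = φ m (w m s) := fun m n s hmn => by
    rw [← map_pow, ← h.root m n hmn, h1]
  have hdvd : ∀ n (x : Q n), (p : A) ∣ φ n x → ∀ᶠ m in atTop, ∀ hm, (p : Q m) ∣ ι n m hm x :=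
    fun n x hx => by
      have := h3 n (Ideal.span {(p : Q n)}) x (by
        rwa [Ideal.map_span, Set.image_singleton, map_natCast, Ideal.mem_span_singleton])
      simpa only [Ideal.map_span, Set.image_singleton, map_natCast, Ideal.mem_span_singleton]
        using this
  obtain ⟨B, _, _, _, τ, ht, hW⟩ := Tw.exists_tilt p N (A := A) (fun z hz => by
      obtain ⟨n, y, rfl⟩ := (h2 z).exists
      obtain ⟨m, hm, hnm⟩ := ((h3 n ⊥ (p * y) (by
        rwa [Ideal.map_bot, Ideal.mem_bot, map_mul, map_natCast])).and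
        (eventually_ge_atTop n)).exists
      have h4 := hm hnm
      have := h.dom m
      rw [Ideal.map_bot, Ideal.mem_bot, map_mul, map_natCast, ← hpw, mul_eq_zero] at h4
      rw [← h1 n m hnm, h4.resolve_left (pow_ne_zero _ (h.prime m).ne_zero), map_zero])
    (fun hu => by
      obtain ⟨m, hm⟩ := (hdvd 0 1 hu.dvd).exists
      have h4 := hm m.zero_le
      rw [map_one, ← hpw] at h4
      exact (h.prime m).not_isUnit (isUnit_of_dvd_one ((dvd_pow_self _ (by positivity)).trans h4)))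
    (fun k => φ k (w k s₀)) (fun k => by simpa using hroot k (k + 1) s₀ k.le_succ)
    (by rw [h.zero, map_natCast]) (fun k x hx => by
      obtain ⟨n, y, rfl⟩ := (h2 x).exists
      rw [← map_pow] at hx
      obtain ⟨m, ⟨hm, hnm⟩, hkm⟩ := (((hdvd n _ hx).and (eventually_ge_atTop n)).and
        (eventually_ge_atTop k)).exists
      have h4 := hm hnm
      have := h.dom m
      rw [← hpw, map_pow, ← Nat.pow_sub_mul_pow p hkm] at h4
      rw [← hroot k m s₀ hkm, ← h1 n m hnm, ← map_pow]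
      exact map_dvd _ (Tw.pow_dvd_of_pow_mul_dvd (h.prime m) (pow_pos hp k) _ h4))
    (fun y => by
      obtain ⟨n, y, rfl⟩ := (h2 y).exists
      obtain ⟨y', hy⟩ := h.semi n y
      refine ⟨φ _ y', ?_⟩
      rw [← h1 n (n + 1) n.le_succ, ← map_pow, ← map_sub, ← map_natCast (φ (n + 1))]
      exact map_dvd _ (Ideal.mem_span_singleton.mp hy))
  choose b hb using fun s => hW (fun k => φ k (w k s))
    fun k => by simpa using hroot k (k + 1) s k.le_succ
  let π : A →+* A ⧸ Ideal.span {(p : A) ^ (N + 1)} := Ideal.Quotient.mk _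
  let ψ : ∀ n, Q n →+* A ⧸ Ideal.span {(p : A) ^ (N + 1)} := fun n => π.comp (φ n)
  have hψ : ∀ m n hmn x, ψ n (ι m n hmn x) = ψ m x := fun m n hmn x => congrArg π (h1 m n hmn x)
  have hb' : ∀ s e n, e ≤ n → τ.sh (proot p e (b s)) = ψ n (w n s ^ p ^ (n - e)) :=
    fun s e n hen => by rw [← h.root e n hen, hψ, hb]; rfl
  have hb0 : ∀ γ : σ → ℕ, τ.sh (∏ s, b s ^ γ s) = ψ 0 (∏ s, w 0 s ^ γ s) := fun γ => by
    simp only [map_prod, map_pow]
    refine Finset.prod_congr rfl fun s _ => ?_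
    have h4 : proot p 0 (b s) = b s := by simpa using proot_pow p 0 (b s)
    rw [← h4, hb]
    rfl
  have hdesc : ∀ (n : ℕ) (I : Ideal (Q n)) (x : Q n), (p : Q n) ^ (N + 1) ∈ I →
      ψ n x ∈ I.map (ψ n) → ∀ᶠ m in atTop, ∀ hm, ι n m hm x ∈ I.map (ι n m hm) :=
    fun n I x hI hx => h3 n I x (by
      rw [← Ideal.map_map, RingHom.comp_apply, Ideal.mem_quotient_iff_mem] at hx
      · exact hx
      · rw [Ideal.span_singleton_le_iff_mem, ← map_natCast (φ n), ← map_pow]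
        exact Ideal.mem_map_of_mem _ hI)
  obtain ⟨k, F, hk, hF1, hF2⟩ := τ.briancon_skoda N.le_succ (fun i => ψ 0 (f i))
    (fun r => ∏ s, b s ^ cγ r s) (fun r => ∏ s, b s ^ aγ r s) (fun i => proot p j (b (v i))) J k'
    hJ fun r => by
      have h4 := Ideal.mem_map_of_mem (ψ j) (hyp r)
      simp only [Ideal.map_sup, Ideal.map_mul, Ideal.map_pow, Ideal.map_span, Set.image_singleton,
        ← Set.range_comp, Function.comp_def, hψ, map_mul, map_pow (ψ j)] at h4
      simp only [hb0, hb]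
      rw [map_pow] at h4
      exact h4
  choose F₀ hF₀ using fun i => Ideal.Quotient.mk_surjective (F i)
  obtain ⟨n, ⟨hn, hjn⟩, hkn⟩ := (((eventually_all.mpr fun i => h2 (F₀ i)).and
    (eventually_ge_atTop j)).and (eventually_ge_atTop k)).exists
  choose F' hF' using hn
  obtain rfl : F = fun i => ψ n (F' i) := funext fun i => by rw [← hF₀, ← hF']; rfl
  have hk' : k' ≤ n := by omega
  have ht' : τ.sh (proot p k τ.t) = ψ n (w n s₀ ^ p ^ (n - k)) := by
    rw [← h.root k n hkn, hψ, ht]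
    rfl
  have hN : ((w n s₀ ^ p ^ (n - k)) ^ N) ^ p ^ k = (p : Q n) ^ N := by
    rw [← pow_mul _ N, mul_comm, pow_mul, ← pow_mul (w n s₀), ← pow_add, Nat.sub_add_cancel hkn,
      hpw]
  have e1 := eventually_all.mpr fun i => hdesc n
    (Ideal.span {(p : Q n)} * Ideal.span {F' i, (w n s₀ ^ p ^ (n - k)) ^ N} ^ p ^ k)
    (ι 0 n n.zero_le (f i) - F' i ^ p ^ k) (by
      rw [pow_succ', ← hN]
      exact Ideal.mul_mem_mul (Ideal.subset_span rfl)
        (Ideal.pow_mem_pow (Ideal.subset_span (by simp)) _)) (by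
      rw [Tw.map_first, ← ht', map_sub, map_pow, hψ]
      exact hF1 i)
  have e2 := eventually_all.mpr fun r => hdesc n
    (Ideal.span {ι 0 n n.zero_le (∏ s, w 0 s ^ cγ r s)} *
      Ideal.span (Set.range fun i => w n (v i) ^ p ^ (n - j)) ^ (J r - (d + 1)) ⊔
      Ideal.span (insert ((w n s₀ ^ p ^ (n - k)) ^ N) (Set.range F')) ^ p ^ (k - 2 * k'))
    (((∏ s, w n s ^ cγ r s) ^ p ^ (n - k')) ^ 2 * ι 0 n n.zero_le (∏ s, w 0 s ^ aγ r s)) (by
      rw [pow_succ', ← hN]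
      refine Ideal.mem_sup_right (Ideal.mul_mem_left _ _ ?_)
      exact Ideal.pow_le_pow_right (Nat.pow_le_pow_right hp (Nat.sub_le _ _))
        (Ideal.pow_mem_pow (Ideal.subset_span (Set.mem_insert _ _)) _)) (by
      have h4 : ψ n ((∏ s, w n s ^ cγ r s) ^ p ^ (n - k')) =
          τ.sh (proot p k' (∏ s, b s ^ cγ r s)) := by
        rw [← Finset.prod_pow]
        simp only [map_prod]
        refine Finset.prod_congr rfl fun s _ => ?_
        rw [pow_right_comm, map_pow, ← hb' s k' n hk', map_pow, map_pow]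
      rw [Tw.map_second, ← ht', map_mul, map_pow, hψ, hψ, h4, ← hb0, ← hb0]
      simp only [← hb' _ j n hjn]
      exact hF2 r)
  obtain ⟨m, ⟨h4, h5⟩, hnm⟩ := ((e1.and e2).and (eventually_ge_atTop n)).exists
  have hw : ∀ s e, e ≤ n → ι n m hnm (w n s ^ p ^ (n - e)) = w m s ^ p ^ (m - e) := fun s e he => by
    rw [← h.root e n he, h.comp, h.root]
  refine ⟨m, k, fun i => ι n m hnm (F' i), hjn.trans hnm, hkn.trans hnm, hk, fun i => ?_,
    fun r => ?_⟩
  · have h6 := h4 i hnm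
    rwa [Tw.map_first, hw _ _ hkn, map_sub, map_pow, h.comp] at h6
  · have h6 := h5 r hnm
    have h7 : ι n m hnm ((∏ s, w n s ^ cγ r s) ^ p ^ (n - k')) =
        (∏ s, w m s ^ cγ r s) ^ p ^ (m - k') := by
      rw [← Finset.prod_pow, ← Finset.prod_pow, map_prod]
      refine Finset.prod_congr rfl fun s _ => ?_
      rw [pow_right_comm, map_pow, hw s k' hk', pow_right_comm]
    rw [Tw.map_second, hw _ _ hkn, map_mul, map_pow, h.comp, h.comp, h7] at h6
    simpa only [hw _ _ hjn] using h6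

end Vale.Agent.P202
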