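import Vale.Agent.P202.Tilt

/-! Auxiliary results for towers: construction of the tilt, descent from a direct limit. -/

namespace Vale.Agent.P202.Tw

open Filter

universe u

theorem isAdicComplete_of_pow_eq_bot {R : Type*} [CommRing R] {I : Ideal R} {M : ℕ}
    (h : I ^ M = ⊥) : IsAdicComplete I R where
  haus' x hx := by
    have h1 := hx M
    rwa [h, Submodule.bot_smul, SModEq.bot] at h1
  prec' f hf := ⟨f M, fun n => by
    rcases le_total n M with h1 | h1
    · exact hf h1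
    · have h2 := hf h1
      rw [h, Submodule.bot_smul, SModEq.bot] at h2
      rw [h2]⟩

theorem pow_dvd_of_pow_mul_dvd {R : Type*} [CommRing R] [IsDomain R] {T : R} (hT : Prime T) {q : ℕ}
    (hq : 0 < q) (a : ℕ) {y : R} (h : T ^ (a * q) ∣ y ^ q) : T ^ a ∣ y := by
  induction a generalizing y with
  | zero => simp
  | succ a ih =>
    obtain ⟨y, rfl⟩ := hT.dvd_of_dvd_pow ((dvd_pow_self T (by positivity)).trans h)
    rw [add_mul, one_mul, pow_add, mul_pow, mul_comm,
      mul_dvd_mul_iff_left (pow_ne_zero _ hT.ne_zero)] at h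
    rw [pow_succ']
    exact mul_dvd_mul_left _ (ih h)

theorem pow_pow_of_succ {A : Type*} [Monoid A] {p : ℕ} {W : ℕ → A} (h : ∀ k, W (k + 1) ^ p = W k)
    (e n : ℕ) : W (n + e) ^ p ^ n = W e := by
  induction n with
  | zero => simp
  | succ n ih => rw [pow_succ', pow_mul, Nat.add_right_comm, h, ih]

theorem exists_tilt (p : ℕ) [hp : Fact p.Prime] {A : Type u} [CommRing A] (N : ℕ)
    (hnzd : ∀ z : A, p * z = 0 → z = 0) (hnu : ¬ IsUnit (p : A)) (T : ℕ → A)
    (hT : ∀ k, T (k + 1) ^ p = T k) (hT0 : T 0 = p)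
    (hc : ∀ k x, (p : A) ∣ x ^ p ^ k → T k ∣ x) (hs : ∀ y : A, ∃ y', (p : A) ∣ y' ^ p - y) :
    ∃ (B : Type u) (_ : CommRing B) (_ : CharP B p) (_ : PerfectRing B p)
      (τ : TiltData p (N + 1) (A ⧸ Ideal.span {(p : A) ^ (N + 1)}) B),
      (∀ e, τ.sh (proot p e τ.t) = Ideal.Quotient.mk _ (T e)) ∧
      ∀ W : ℕ → A, (∀ k, W (k + 1) ^ p = W k) →
        ∃ b, ∀ e, τ.sh (proot p e b) = Ideal.Quotient.mk _ (W e) := by
  let O := A ⧸ Ideal.span {(p : A) ^ (N + 1)}
  let π : A →+* O := Ideal.Quotient.mk _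
  let I : Ideal O := Ideal.span {(p : O)}
  let ρ : A →+* O ⧸ I := (Ideal.Quotient.mk I).comp π
  have hρ : Function.Surjective ρ := Ideal.Quotient.mk_surjective.comp Ideal.Quotient.mk_surjective
  have hρ0 : ∀ x, ρ x = 0 ↔ (p : A) ∣ x := fun x => by
    rw [RingHom.comp_apply, Ideal.Quotient.eq_zero_iff_mem, Ideal.mem_span_singleton]
    refine ⟨fun ⟨c, hc⟩ => ?_, fun h => map_natCast π p ▸ map_dvd π h⟩
    obtain ⟨c, rfl⟩ := Ideal.Quotient.mk_surjective c
    rw [← map_natCast π, ← map_mul π, Ideal.Quotient.eq, Ideal.mem_span_singleton] at hc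
    simpa using dvd_add ((dvd_pow_self _ N.succ_ne_zero).trans hc) (dvd_mul_right (p : A) c)
  have hnil : (p : O) ^ (N + 1) = 0 := by
    rw [← map_natCast π, ← map_pow, Ideal.Quotient.eq_zero_iff_mem]
    exact Ideal.subset_span rfl
  have : CharP (O ⧸ I) p := CharP.quotient O p fun hu => by
    have h1 : ρ 1 = 0 := by
      rw [RingHom.comp_apply, Ideal.Quotient.eq_zero_iff_mem, Ideal.mem_span_singleton]
      exact hu.dvd
    exact hnu (isUnit_of_dvd_one ((hρ0 1).mp h1))
  have : IsAdicComplete I O := isAdicComplete_of_pow_eq_bot (M := N + 1) (by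
    rw [Ideal.span_singleton_pow, hnil, Ideal.span_singleton_zero])
  have hco : ∀ (e k : ℕ) (b : Perfection (O ⧸ I) p),
      Perfection.coeff _ p k (proot p e b) = Perfection.coeff _ p (k + e) b := fun e k b => by
    conv_rhs => rw [← proot_pow p e b]
    exact (Perfection.coeffMonoidHom_pow_p_pow _ k e).symm
  have hW : ∀ W : ℕ → A, (∀ k, W (k + 1) ^ p = W k) → ∃ b : Perfection (O ⧸ I) p,
      (∀ k, Perfection.coeff _ p k b = ρ (W k)) ∧
        ∀ e, Perfection.teichmuller p I (proot p e b) = π (W e) := fun W hW => by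
    refine ⟨⟨fun k => ρ (W k), fun k => by rw [← map_pow, hW]⟩, fun k => rfl, fun e => ?_⟩
    refine Perfection.teichmuller_spec fun n => ⟨π (W (n + e)), (hco e n _).symm ▸ rfl, ?_⟩
    rw [← map_pow, pow_pow_of_succ hW]
    exact SModEq.refl _
  obtain ⟨t, ht1, ht2⟩ := hW T hT
  have hTp : ∀ k, T k ^ p ^ k = p := fun k => (pow_pow_of_succ hT 0 k).trans hT0
  have hp0 : ∀ b : Perfection (O ⧸ I) p, proot p 0 b = b := fun b => by
    simpa using proot_pow p 0 b
  have h2 : ∀ k (y : O ⧸ I), ρ (T (k + 1)) * y = 0 → y ^ p = 0 := fun k y hy => by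
    obtain ⟨y, rfl⟩ := hρ y
    rw [← map_mul, hρ0] at hy
    obtain ⟨c, hc⟩ := hy
    have h3 : 0 < p ^ (k + 1) := pow_pos hp.out.pos _
    obtain ⟨m, hm⟩ := Nat.exists_eq_add_of_le h3
    have h4 : y = T (k + 1) ^ m * c := by
      rw [← sub_eq_zero]
      refine hnzd _ ?_
      rw [← hTp (k + 1), hm, pow_add, pow_one] at hc ⊢
      linear_combination T (k + 1) ^ m * hc
    rw [← map_pow, hρ0, h4, mul_pow, ← pow_mul, ← hTp (k + 1)]
    refine (pow_dvd_pow _ ?_).mul_right _
    have h5 := hp.out.two_le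
    have h6 : p ≤ p ^ (k + 1) := Nat.le_self_pow k.succ_ne_zero p
    nlinarith
  refine ⟨Perfection (O ⧸ I) p, inferInstance, inferInstance, inferInstance,
    { sh := Perfection.teichmuller p I
      t := t
      add := fun a b => ?_
      surj := fun o => ?_
      sh_t := by rw [← hp0 t, ht2, hT0, map_natCast]
      dvd := fun b hb => ?_
      tors := fun z hz => ?_
      nil := hnil }, ht2, fun W h => (hW W h).imp fun _ h => h.2⟩
  · rw [← Ideal.Quotient.eq_zero_iff_mem, map_sub, map_sub, Perfection.mk_teichmuller,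
      Perfection.mk_teichmuller, Perfection.mk_teichmuller, map_add]
    ring
  · obtain ⟨b, hb⟩ := Perfection.coeff_surjective (R := O ⧸ I) (p := p) (fun y => by
      obtain ⟨y, rfl⟩ := hρ y
      obtain ⟨y', hy⟩ := hs y
      exact ⟨ρ y', by rw [frobenius_def, ← map_pow, ← sub_eq_zero, ← map_sub, hρ0]; exact hy⟩) 0
      (Ideal.Quotient.mk I o)
    exact ⟨b, by rw [← Ideal.Quotient.eq, Perfection.mk_teichmuller, hb]⟩
  · rw [← Ideal.Quotient.eq_zero_iff_mem, Perfection.mk_teichmuller] at hb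
    have h3 : ∀ k, ∃ c, Perfection.coeff _ p k b = ρ (T k) * c := fun k => by
      obtain ⟨x, hx⟩ := hρ (Perfection.coeff _ p k b)
      rw [← hx]
      refine map_dvd ρ (hc k x ?_)
      rw [← hρ0, map_pow, hx, ← hb]
      exact Perfection.coeffMonoidHom_pow_p_pow_self b k
    choose c hc using h3
    have h4 : ∀ k, ρ (T k) * c (k + 1) ^ p = Perfection.coeff _ p k b := fun k => by
      rw [← hT, map_pow, ← mul_pow, ← hc, Perfection.coeff_pow_p']
    refine ⟨⟨fun k => c (k + 1) ^ p, fun k => ?_⟩, Perfection.ext fun k => ?_⟩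
    · rw [← sub_eq_zero, ← sub_pow_char]
      exact h2 k _ (by rw [mul_sub, h4, hc, sub_self])
    · refine Eq.trans ?_ (map_mul _ _ _).symm
      rw [ht1, ← h4]
      rfl
  · obtain ⟨z, rfl⟩ := Ideal.Quotient.mk_surjective z
    rw [← map_natCast π, ← map_mul π, Ideal.Quotient.eq_zero_iff_mem,
      Ideal.mem_span_singleton] at hz
    obtain ⟨c, hc⟩ := hz
    have h3 : z = p ^ N * c := by
      rw [← sub_eq_zero]
      exact hnzd _ (by linear_combination hc)
    rw [h3, Nat.add_sub_cancel, map_mul, map_pow, map_natCast]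
    exact Ideal.mul_mem_right _ _ (Ideal.subset_span rfl)

section Colim
variable {Q : ℕ → Type u} [∀ n, CommRing (Q n)] {ι : ∀ m n : ℕ, m ≤ n → Q m →+* Q n}

theorem exists_colim (h1 : ∀ n h x, ι n n h x = x)
    (h2 : ∀ l m n h h' x, ι m n h' (ι l m h x) = ι l n (h.trans h') x) :
    ∃ (A : Type u) (_ : CommRing A) (φ : ∀ n, Q n →+* A), (∀ m n h x, φ n (ι m n h x) = φ m x) ∧
      (∀ z, ∀ᶠ n in atTop, ∃ x, φ n x = z) ∧
      ∀ (n : ℕ) (I : Ideal (Q n)) (x : Q n), φ n x ∈ I.map (φ n) →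
        ∀ᶠ m in atTop, ∀ h, ι n m h x ∈ I.map (ι n m h) := by
  have : DirectedSystem Q fun m n h => ι m n h :=
    ⟨fun n x => h1 n _ x, fun n m l h h' x => h2 l m n h h' x⟩
  let φ := Ring.DirectLimit.of Q fun m n h => ι m n h
  have h3 : ∀ m n h x, φ n (ι m n h x) = φ m x := fun m n h x => Ring.DirectLimit.of_f h x
  have h4 : ∀ z, ∀ᶠ n in atTop, ∃ x, φ n x = z := fun z => by
    obtain ⟨n, x, rfl⟩ := Ring.DirectLimit.exists_of z
    filter_upwards [eventually_ge_atTop n] with m hm using ⟨_, h3 n m hm x⟩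
  refine ⟨_, inferInstance, φ, h3, h4, fun n I x hx => ?_⟩
  have h5 : ∀ᶠ m in atTop, ∀ h, ∃ y ∈ I.map (ι n m h), φ m y = φ n x := by
    generalize φ n x = z at hx
    induction hx using Submodule.span_induction with
    | mem z hz =>
      obtain ⟨y, hy, rfl⟩ := hz
      exact .of_forall fun m h => ⟨_, Ideal.mem_map_of_mem _ hy, h3 _ _ _ _⟩
    | zero => exact .of_forall fun m h => ⟨0, zero_mem _, map_zero _⟩
    | add a b _ _ ha hb =>
      filter_upwards [ha, hb] with m ha hb h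
      obtain ⟨a', ha', rfl⟩ := ha h
      obtain ⟨b', hb', rfl⟩ := hb h
      exact ⟨a' + b', add_mem ha' hb', map_add _ _ _⟩
    | smul a b _ hb =>
      filter_upwards [h4 a, hb] with m ha hb h
      obtain ⟨a', rfl⟩ := ha
      obtain ⟨b', hb', rfl⟩ := hb h
      exact ⟨a' * b', Ideal.mul_mem_left _ _ hb', map_mul _ _ _⟩
  obtain ⟨m, hm, h⟩ := (h5.and (eventually_ge_atTop n)).exists
  obtain ⟨y, hy, e⟩ := hm h
  obtain ⟨m', h', e'⟩ := Ring.DirectLimit.of.zero_exact (G := Q) (f' := ι) (i := m)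
    (x := ι n m h x - y) (by rw [map_sub, sub_eq_zero]; exact (h3 _ _ _ _).trans e.symm)
  filter_upwards [eventually_ge_atTop m'] with k hk h''
  have e1 := congrArg (ι m' k hk) e'
  rw [h2, map_zero, map_sub, h2, sub_eq_zero] at e1
  have e2 : ι n k h'' = (ι m k (h'.trans hk)).comp (ι n m h) :=
    RingHom.ext fun x => (h2 _ _ _ _ _ x).symm
  rw [e1, e2, ← Ideal.map_map]
  exact Ideal.mem_map_of_mem _ hy
end Colim

theorem map_first {C C' : Type*} [CommRing C] [CommRing C'] (g : C →+* C') (p : ℕ) (F t : C)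
    (N e : ℕ) : (Ideal.span {(p : C)} * Ideal.span {F, t ^ N} ^ e).map g =
      Ideal.span {(p : C')} * Ideal.span {g F, g t ^ N} ^ e := by
  simp only [Ideal.map_mul, Ideal.map_pow, Ideal.map_span, Set.image_insert_eq,
    Set.image_singleton, map_pow, map_natCast]

theorem map_second {C C' κ κ' : Type*} [CommRing C] [CommRing C'] (g : C →+* C') (c t : C)
    (ξ : κ' → C) (F : κ → C) (N a b : ℕ) :
    (Ideal.span {c} * Ideal.span (Set.range ξ) ^ a ⊔
      Ideal.span (insert (t ^ N) (Set.range F)) ^ b).map g =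
    Ideal.span {g c} * Ideal.span (Set.range fun i => g (ξ i)) ^ a ⊔
      Ideal.span (insert (g t ^ N) (Set.range fun i => g (F i))) ^ b := by
  simp only [Ideal.map_sup, Ideal.map_mul, Ideal.map_pow, Ideal.map_span, Set.image_insert_eq,
    Set.image_singleton, map_pow, ← Set.range_comp, Function.comp_def]

end Vale.Agent.P202.Tw
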