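import Vale.Agent.P202.Tower
import Vale.Agent.P202.CohenRing

/-! Module E3: the tower `V[p^(1/p^n)][[X^(1/p^n)]]`. -/

namespace Vale.Agent.P202

open IsLocalRing RingTheory.Sequence

universe u

namespace TEx

section root
open Polynomial

/-- every element of `AdjoinRoot g` is obtained from constants and the root -/
theorem adjoinRoot_induction {A : Type*} [CommRing A] {g : A[X]} {P : AdjoinRoot g → Prop}
    (hC : ∀ a, P (AdjoinRoot.of g a)) (hT : P (AdjoinRoot.root g))
    (hadd : ∀ x y, P x → P y → P (x + y)) (hmul : ∀ x y, P x → P y → P (x * y))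
    (x : AdjoinRoot g) : P x := by
  induction x using AdjoinRoot.induction_on with
  | ih f =>
    induction f using Polynomial.induction_on with
    | C a => exact hC a
    | add f f' h h' => rw [map_add]; exact hadd _ _ h h'
    | monomial n a h => rw [pow_succ, ← mul_assoc, map_mul]; exact hmul _ _ h hT

theorem nontrivial_adjoinRoot {A : Type*} [CommRing A] [Nontrivial A] {g : A[X]} (hg : g.Monic)
    (hd : 0 < g.natDegree) : Nontrivial (AdjoinRoot g) :=
  Ideal.Quotient.nontrivial_iff.2 fun h => by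
    have h1 := hg.eq_one_of_isUnit (Ideal.span_singleton_eq_top.1 h)
    rw [h1, natDegree_one] at hd
    exact lt_irrefl _ hd

variable (p : ℕ) (V : Type u) [CommRing V]

/-- `V[p^(1/p^n)]` -/
abbrev W (n : ℕ) : Type u := AdjoinRoot (X ^ p ^ n - C (p : V))

/-- the root of `p` -/
noncomputable abbrev T (n : ℕ) : W p V n := AdjoinRoot.root _

theorem T_pow (n : ℕ) : T p V n ^ p ^ n = p := by
  have h := AdjoinRoot.eval₂_root (X ^ p ^ n - C (p : V))
  rwa [eval₂_sub, eval₂_C, eval₂_pow, eval₂_X, sub_eq_zero, map_natCast (AdjoinRoot.of _)] at h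

/-- transition maps -/
noncomputable def psi (m n : ℕ) (h : m ≤ n) : W p V m →+* W p V n :=
  AdjoinRoot.lift (AdjoinRoot.of _) (T p V n ^ p ^ (n - m)) (by
    rw [eval₂_sub, eval₂_C, eval₂_pow, eval₂_X, ← pow_mul, ← pow_add, Nat.sub_add_cancel h, T_pow,
      map_natCast (AdjoinRoot.of _), sub_self])

theorem psi_T (m n : ℕ) (h : m ≤ n) : psi p V m n h (T p V m) = T p V n ^ p ^ (n - m) :=
  AdjoinRoot.lift_root _

theorem psi_of (m n : ℕ) (h : m ≤ n) (v : V) :
    psi p V m n h (AdjoinRoot.of _ v) = AdjoinRoot.of _ v := AdjoinRoot.lift_of _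

theorem psi_self (n : ℕ) (h : n ≤ n) : psi p V n n h = RingHom.id _ :=
  AdjoinRoot.ringHom_ext (RingHom.ext fun v => psi_of p V n n h v) (by
    rw [psi_T, Nat.sub_self, pow_zero, pow_one, RingHom.id_apply])

theorem psi_comp (l m n : ℕ) (h : l ≤ m) (h' : m ≤ n) :
    (psi p V m n h').comp (psi p V l m h) = psi p V l n (h.trans h') :=
  AdjoinRoot.ringHom_ext (RingHom.ext fun v => by simp only [RingHom.comp_apply, psi_of]) (by
    rw [RingHom.comp_apply, psi_T, map_pow, psi_T, psi_T, ← pow_mul, ← pow_add,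
      show n - m + (m - l) = n - l by omega])

theorem res_W (n : ℕ) (b : W p V n) : ∃ a : V, b - AdjoinRoot.of _ a ∈ Ideal.span {T p V n} := by
  induction b using AdjoinRoot.induction_on with
  | ih f =>
    refine ⟨f.coeff 0, Ideal.mem_span_singleton'.2 ⟨AdjoinRoot.mk _ f.divX, ?_⟩⟩
    rw [eq_sub_iff_add_eq, T, ← AdjoinRoot.mk_X, ← AdjoinRoot.mk_C, ← map_mul, ← map_add,
      divX_mul_X_add]

variable {p V} [Fact p.Prime]

theorem monic_W (n : ℕ) : (X ^ p ^ n - C (p : V)).Monic :=
  monic_X_pow_sub_C _ (pow_ne_zero _ (Fact.out : p.Prime).ne_zero)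

theorem semi_W (hperf : ∀ v : V, ∃ y : V, y ^ p - v ∈ Ideal.span {(p : V)}) (n : ℕ)
    (a : W p V n) : ∃ b : W p V (n + 1),
      b ^ p - psi p V n (n + 1) (Nat.le_succ n) a ∈ Ideal.span {(p : W p V (n + 1))} := by
  induction a using adjoinRoot_induction with
  | hC v =>
    obtain ⟨y, hy⟩ := hperf v
    obtain ⟨c, hc⟩ := Ideal.mem_span_singleton'.1 hy
    refine ⟨AdjoinRoot.of _ y, ?_⟩
    rw [psi_of, ← map_pow, ← map_sub, ← hc, map_mul, map_natCast (AdjoinRoot.of _)]
    exact Ideal.mul_mem_left _ _ (Ideal.mem_span_singleton_self _)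
  | hT =>
    refine ⟨T p V (n + 1), ?_⟩
    rw [psi_T, Nat.add_sub_cancel_left, pow_one, sub_self]
    exact zero_mem _
  | hadd x y hx hy =>
    obtain ⟨b, hb⟩ := hx
    obtain ⟨c, hc⟩ := hy
    obtain ⟨r, hr⟩ := exists_add_pow_prime_eq (Fact.out : p.Prime) b c
    refine ⟨b + c, ?_⟩
    rw [hr, map_add, add_sub_right_comm, add_sub_add_comm, mul_assoc, mul_assoc]
    exact add_mem (add_mem hb hc) (Ideal.mul_mem_right _ _ (Ideal.mem_span_singleton_self _))
  | hmul x y hx hy =>
    obtain ⟨b, hb⟩ := hx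
    obtain ⟨c, hc⟩ := hy
    refine ⟨b * c, ?_⟩
    rw [mul_pow, map_mul]
    exact Ideal.mul_sub_mul_mem _ hb hc

variable [IsDomain V] [IsDiscreteValuationRing V]

theorem isDomain_W (hV : IsCohen p V) (n : ℕ) : IsDomain (W p V n) := by
  have hq : p ^ n ≠ 0 := pow_ne_zero _ (Fact.out : p.Prime).ne_zero
  have hE : (X ^ p ^ n - C (p : V)).IsEisensteinAt (maximalIdeal V) := by
    refine ⟨?_, fun {k} hk => ?_, ?_⟩
    · rw [(monic_W n).leadingCoeff]
      exact (Ideal.ne_top_iff_one _).1 (maximalIdeal.isMaximal V).ne_top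
    · rw [natDegree_X_pow_sub_C] at hk
      rw [coeff_sub, coeff_X_pow, if_neg hk.ne, zero_sub, neg_mem_iff, coeff_C]
      split_ifs
      · exact hV.mem_max
      · exact zero_mem _
    · rw [coeff_sub, coeff_X_pow, if_neg hq.symm, zero_sub, neg_mem_iff, coeff_C_zero, hV.max,
        Ideal.span_singleton_pow, Ideal.mem_span_singleton]
      rintro ⟨c, hc⟩
      have h1 : (p : V) * c = 1 :=
        mul_left_cancel₀ hV.ne_zero (by rw [← mul_assoc, ← sq, ← hc, mul_one])
      exact (mem_maximalIdeal _).1 hV.mem_max (IsUnit.of_mul_eq_one c h1)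
  refine AdjoinRoot.isDomain_of_prime (Irreducible.prime (hE.irreducible inferInstance
    (monic_W n).isPrimitive ?_))
  rw [natDegree_X_pow_sub_C]
  exact Nat.pos_of_ne_zero hq

theorem local_W (hV : IsCohen p V) (n : ℕ) :
    ∃ _ : IsLocalRing (W p V n), maximalIdeal (W p V n) = Ideal.span {T p V n} := by
  have := isDomain_W hV n
  have e : (maximalIdeal V).map (AdjoinRoot.of (X ^ p ^ n - C (p : V))) =
      Ideal.span {T p V n} ^ p ^ n := by
    rw [hV.max, Ideal.map_span, Set.image_singleton, map_natCast (AdjoinRoot.of _),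
      Ideal.span_singleton_pow, T_pow]
  obtain ⟨h1, h2⟩ := exists_isLocalRing_of_finite (AdjoinRoot.of (X ^ p ^ n - C (p : V)))
    (RingHom.finite_algebraMap.2 (monic_W n).finite_adjoinRoot) (Ideal.span {T p V n})
    (N := p ^ n) e.ge (res_W p V n)
  refine ⟨h1, h2.trans (sup_eq_left.2 ?_)⟩
  rw [e]
  exact Ideal.pow_le_self (pow_ne_zero _ (Fact.out : p.Prime).ne_zero)

theorem T_ne_zero (hV : IsCohen p V) (n : ℕ) : T p V n ≠ 0 := by
  intro h
  have hq : p ^ n ≠ 0 := pow_ne_zero _ (Fact.out : p.Prime).ne_zero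
  have h1 := T_pow p V n
  rw [h, zero_pow hq, ← map_natCast (AdjoinRoot.of _), ← AdjoinRoot.mk_C] at h1
  refine AdjoinRoot.mk_ne_zero_of_natDegree_lt (monic_W n) (C_ne_zero.2 hV.ne_zero) ?_ h1.symm
  rw [natDegree_X_pow_sub_C, natDegree_C]
  exact Nat.pos_of_ne_zero hq

end root

section series
open MvPowerSeries

variable {σ : Type} {A B : Type u} [CommRing A] [CommRing B]

theorem ker_map_mk (a : A) :
    RingHom.ker (map (σ := σ) (Ideal.Quotient.mk (Ideal.span {a}))) = Ideal.span {C a} := by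
  ext f
  rw [RingHom.mem_ker, Ideal.mem_span_singleton]
  refine ⟨fun h => ?_, ?_⟩
  · have h1 : ∀ d, a ∣ coeff d f := fun d => by
      rw [← Ideal.mem_span_singleton, ← Ideal.Quotient.eq_zero_iff_mem, ← coeff_map, h, map_zero]
    choose c hc using h1
    exact ⟨c, MvPowerSeries.ext fun d => (hc d).trans (coeff_C_mul d c a).symm⟩
  · rintro ⟨c, rfl⟩
    rw [map_mul, map_C, Ideal.Quotient.eq_zero_iff_mem.2 (Ideal.mem_span_singleton_self a),
      map_zero, zero_mul]

theorem prime_C {a : A} (ha : a ≠ 0) (h : (Ideal.span {a}).IsPrime) :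
    Prime (C a : MvPowerSeries σ A) := by
  have := NoZeroDivisors.to_isDomain (MvPowerSeries σ (A ⧸ Ideal.span {a}))
  exact (Ideal.span_singleton_prime fun h => ha (C_injective (h.trans (map_zero _).symm))).1
    (ker_map_mk (σ := σ) a ▸ RingHom.ker_isPrime _)

theorem semi_series (p : ℕ) [Fact p.Prime] (ψ : A →+* B) (hB : Ideal.span {(p : B)} ≠ ⊤)
    (h : ∀ a, ∃ b, b ^ p - ψ a ∈ Ideal.span {(p : B)}) {q : ℕ} (hq : q ≠ 0) (e : q = p)
    (y : MvPowerSeries σ A) : ∃ y' : MvPowerSeries σ B,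
      y' ^ p - expand q hq (map ψ y) ∈ Ideal.span {(p : MvPowerSeries σ B)} := by
  subst e
  choose b hb using h
  obtain ⟨y', hy'⟩ : ∃ y' : MvPowerSeries σ B, ∀ m, coeff m y' = b (coeff m y) :=
    ⟨fun m => b (coeff m y), fun _ => rfl⟩
  have hnt : Nontrivial (B ⧸ Ideal.span {(q : B)}) := Ideal.Quotient.nontrivial_iff.2 hB
  have hch : CharP (B ⧸ Ideal.span {(q : B)}) q :=
    CoR.charP_of_eq_zero q _ (by
      rw [← map_natCast (Ideal.Quotient.mk _), Ideal.Quotient.eq_zero_iff_mem]
      exact Ideal.mem_span_singleton_self _)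
  refine ⟨y', ?_⟩
  rw [← map_natCast (C (σ := σ) (R := B)), ← ker_map_mk, RingHom.mem_ker, map_sub, map_pow,
    ← map_frobenius_expand q hq, map_expand, map_expand, ← map_sub]
  have h1 : map (frobenius _ q) (map (Ideal.Quotient.mk (Ideal.span {(q : B)})) y') -
      map (Ideal.Quotient.mk (Ideal.span {(q : B)})) (map ψ y) = 0 := by
    ext m
    rw [map_sub, coeff_map, coeff_map, coeff_map, coeff_map, hy', frobenius_def, ← map_pow,
      ← map_sub, map_zero, Ideal.Quotient.eq_zero_iff_mem]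
    exact hb _
  rw [h1, map_zero]

theorem expand_eq_self {q : ℕ} (hq : q ≠ 0) (e : q = 1) (x : MvPowerSeries σ A) :
    expand q hq x = x := by
  subst e
  exact expand_one_apply x

theorem expand_expand {a b c : ℕ} (ha : a ≠ 0) (hb : b ≠ 0) (hc : c ≠ 0) (e : c = a * b)
    (x : MvPowerSeries σ A) : expand a ha (expand b hb x) = expand c hc x := by
  subst e
  exact (expand_mul a ha b hb x).symm

theorem exists_map_some {α : Type} : ∀ l : List (Option α), none ∉ l →
    ∃ l' : List α, l = l'.map some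
  | [], _ => ⟨[], rfl⟩
  | none :: _, h => absurd List.mem_cons_self h
  | some a :: l, h => by
    obtain ⟨l', hl⟩ := exists_map_some l fun h' => h (List.mem_cons_of_mem _ h')
    exact ⟨a :: l', by rw [hl]; rfl⟩

/-- the uniformizer and the variables -/
noncomputable def vars (t : A) : Option σ → MvPowerSeries σ A := fun o => o.elim (C t) X

theorem max_eq [Finite σ] [IsLocalRing A] {t : A} (h : maximalIdeal A = Ideal.span {t}) :
    maximalIdeal (MvPowerSeries σ A) = Ideal.span (Set.range (vars t)) := by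
  rw [maximalIdeal_mvPowerSeries, h, Ideal.map_span, Set.image_singleton, Option.range_eq,
    Ideal.span_insert]
  rfl

theorem regular_vars [Finite σ] [IsLocalRing A] [IsNoetherianRing A] [IsDomain A] {t : A}
    (ht : t ≠ 0) (h : maximalIdeal A = Ideal.span {t}) (l : List (Option σ)) (hl : l.Nodup) :
    IsWeaklyRegular (MvPowerSeries σ A) (l.map (vars t)) := by
  classical
  by_cases h0 : none ∈ l
  · obtain ⟨l', hl'⟩ := exists_map_some (l.erase none) hl.not_mem_erase
    have h1 : IsWeaklyRegular A [t] := (isWeaklyRegular_singleton_iff A t).2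
      (isSMulRegular_iff_right_eq_zero_of_smul.2 fun y hy =>
        (mul_eq_zero.1 hy).resolve_left ht)
    have h2 : l'.Nodup := List.Nodup.of_map some (hl' ▸ hl.erase none)
    have h3 := isWeaklyRegular_X_append l' h2 h1
    have h4 : (l'.map X ++ [t].map (C (σ := σ))) = (l'.map some ++ [none]).map (vars t) := by
      rw [List.map_append, List.map_map]
      rfl
    rw [h4] at h3
    refine isWeaklyRegular_of_perm_of_subset_maximalIdeal h3 (List.Perm.map _ ?_) fun r hr => ?_
    · rw [← hl']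
      exact List.perm_append_singleton _ _ |>.trans (List.perm_cons_erase h0).symm
    · obtain ⟨o, -, rfl⟩ := List.mem_map.1 hr
      rw [max_eq h]
      exact Ideal.subset_span ⟨o, rfl⟩
  · obtain ⟨l', rfl⟩ := exists_map_some l h0
    have h3 := isWeaklyRegular_X_append l' (List.Nodup.of_map some hl) (IsWeaklyRegular.nil A A)
    rw [List.map_nil, List.append_nil] at h3
    rw [List.map_map]
    exact h3

end series

end TEx

open TEx in
theorem IsCohen.exists_tower {p : ℕ} [Fact p.Prime] {V : Type u} [CommRing V] [IsDomain V]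
    [IsDiscreteValuationRing V] (hV : IsCohen p V)
    (hperf : ∀ v : V, ∃ y : V, y ^ p - v ∈ Ideal.span {(p : V)}) (σ : Type) [Fintype σ] :
    ∃ (Q : ℕ → Type u) (_ : ∀ n, CommRing (Q n)) (_ : ∀ n, IsLocalRing (Q n))
      (ι : ∀ m n : ℕ, m ≤ n → Q m →+* Q n) (w : ∀ n, Option σ → Q n)
      (j₀ : MvPowerSeries σ V →+* Q 0), IsTower p none Q ι w ∧
      (∀ s, j₀ (MvPowerSeries.X s) = w 0 (some s)) ∧ ∀ n, IsNoetherianRing (Q n) ∧
        maximalIdeal (Q n) = Ideal.span (Set.range (w n)) ∧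
        (∀ l : List (Option σ), l.Nodup → IsWeaklyRegular (Q n) (l.map (w n))) ∧
        ∀ y : Q n, ∃ v : V,
          y - ι 0 n (Nat.zero_le n) (j₀ (MvPowerSeries.C v)) ∈ maximalIdeal (Q n) := by
  have hp : ∀ k, p ^ k ≠ 0 := fun k => pow_ne_zero _ (Fact.out : p.Prime).ne_zero
  have hd := isDomain_W hV
  choose hl hm using local_W hV
  let ι : ∀ m n : ℕ, m ≤ n → MvPowerSeries σ (W p V m) →+* MvPowerSeries σ (W p V n) :=
    fun m n h => (MvPowerSeries.expand (p ^ (n - m)) (hp _)).toRingHom.comp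
      (MvPowerSeries.map (psi p V m n h))
  have hι : ∀ m n h x, ι m n h x =
      MvPowerSeries.expand (p ^ (n - m)) (hp _) (MvPowerSeries.map (psi p V m n h) x) :=
    fun _ _ _ _ => rfl
  refine ⟨fun n => MvPowerSeries σ (W p V n), inferInstance, inferInstance, ι,
    fun n => vars (T p V n), MvPowerSeries.map (AdjoinRoot.of _),
    ⟨fun n => NoZeroDivisors.to_isDomain _, fun n h x => ?_, fun l m n h h' x => ?_,
      fun m n h s => ?_, ?_, fun n => ?_, fun n y => ?_⟩,
    fun s => MvPowerSeries.map_X _ s, fun n => ⟨inferInstance, max_eq (hm n),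
      regular_vars (T_ne_zero hV n) (hm n), fun y => ?_⟩⟩
  · rw [hι, psi_self, MvPowerSeries.map_id, expand_eq_self _ (by rw [Nat.sub_self, pow_zero])]
    rfl
  · rw [hι, hι, hι, MvPowerSeries.map_expand, ← psi_comp p V l m n h h', MvPowerSeries.map_comp]
    exact expand_expand _ _ _ (by rw [← pow_add, show n - m + (m - l) = n - l by omega]) _
  · rw [hι]
    cases s with
    | none =>
      change MvPowerSeries.expand _ _ (MvPowerSeries.map _ (MvPowerSeries.C _)) =
        MvPowerSeries.C _ ^ _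
      rw [MvPowerSeries.map_C, MvPowerSeries.expand_C, psi_T, map_pow]
    | some s =>
      change MvPowerSeries.expand _ _ (MvPowerSeries.map _ (MvPowerSeries.X s)) =
        MvPowerSeries.X s ^ _
      rw [MvPowerSeries.map_X, MvPowerSeries.expand_X]
  · have h1 : T p V 0 = p := (pow_one _).symm.trans (T_pow p V 0)
    exact (congrArg MvPowerSeries.C h1).trans (map_natCast _ p)
  · exact prime_C (T_ne_zero hV n) (hm n ▸ (maximalIdeal.isMaximal _).isPrime)
  · refine semi_series p _ ?_ (semi_W hperf n) (hp _) (by rw [Nat.add_sub_cancel_left, pow_one]) y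
    refine ne_top_of_le_ne_top (maximalIdeal.isMaximal _).ne_top ?_
    rw [hm, ← T_pow, ← Ideal.span_singleton_pow]
    exact Ideal.pow_le_self (hp _)
  · obtain ⟨v, hv⟩ := res_W p V n (MvPowerSeries.constantCoeff y)
    refine ⟨v, ?_⟩
    rw [hι, MvPowerSeries.map_C, MvPowerSeries.map_C, MvPowerSeries.expand_C, psi_of,
      mem_maximalIdeal, mem_nonunits_iff, MvPowerSeries.isUnit_iff_constantCoeff, map_sub,
      MvPowerSeries.constantCoeff_C, ← mem_nonunits_iff, ← mem_maximalIdeal, hm]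
    exact hv

/-- Adjoining one root of each member of a finite family of monic polynomials. -/
theorem exists_adjoin_roots {A : Type u} [CommRing A] [Nontrivial A] {k : ℕ}
    (G : Fin k → Polynomial A) (hG : ∀ i, (G i).Monic) (hd : ∀ i, 0 < (G i).natDegree) :
    ∃ (D : Type u) (_ : CommRing D) (_ : Algebra A D) (ζ : Fin k → D), Nontrivial D ∧
      Module.Free A D ∧ Module.Finite A D ∧ (∀ i, Polynomial.aeval (ζ i) (G i) = 0) ∧
      Algebra.adjoin A (Set.range ζ) = ⊤ ∧
      ∀ (E : Type u) [CommRing E] [Algebra A E] (z : Fin k → E),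
        (∀ i, Polynomial.aeval (z i) (G i) = 0) → ∃ ψ : D →ₐ[A] E, ∀ i, ψ (ζ i) = z i := by
  induction k with
  | zero =>
    refine ⟨A, inferInstance, inferInstance, Fin.elim0, inferInstance, inferInstance,
      inferInstance, fun i => i.elim0, ?_, fun E _ _ z _ => ⟨Algebra.ofId A E, fun i => i.elim0⟩⟩
    exact Algebra.eq_top_iff.2 fun x => Subalgebra.algebraMap_mem _ x
  | succ k ih =>
    obtain ⟨D, _, _, ζ, h1, h2, h3, h4, h5, h6⟩ :=
      ih (fun i => G i.succ) (fun i => hG _) (fun i => hd _)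
    have hg : ((G 0).map (algebraMap A D)).Monic := (hG 0).map _
    have := hg.free_adjoinRoot
    have := hg.finite_adjoinRoot
    refine ⟨AdjoinRoot ((G 0).map (algebraMap A D)), inferInstance, inferInstance,
      Fin.cons (AdjoinRoot.root _) fun i => AdjoinRoot.ofAlgHom A _ (ζ i),
      TEx.nontrivial_adjoinRoot hg (by rw [(hG 0).natDegree_map]; exact hd 0),
      Module.Free.trans (S := D), Module.Finite.trans D _, fun i => ?_, ?_, fun E _ _ z hz => ?_⟩
    · refine Fin.cases ?_ (fun i => ?_) i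
      · rw [Fin.cons_zero, AdjoinRoot.aeval_eq_of_algebra, AdjoinRoot.mk_self]
      · rw [Fin.cons_succ, Polynomial.aeval_algHom_apply, h4, map_zero]
    · refine Algebra.eq_top_iff.2 fun x => ?_
      induction x using TEx.adjoinRoot_induction with
      | hC a =>
        have h7 : AdjoinRoot.ofAlgHom A ((G 0).map (algebraMap A D)) a ∈
            (Algebra.adjoin A (Set.range ζ)).map (AdjoinRoot.ofAlgHom A _) :=
          ⟨a, h5 ▸ Algebra.mem_top, rfl⟩
        rw [AlgHom.map_adjoin] at h7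
        refine Algebra.adjoin_mono ?_ h7
        rintro _ ⟨_, ⟨i, rfl⟩, rfl⟩
        exact ⟨i.succ, rfl⟩
      | hT => exact Algebra.subset_adjoin ⟨0, rfl⟩
      | hadd x y hx hy => exact add_mem hx hy
      | hmul x y hx hy => exact mul_mem hx hy
    · obtain ⟨ψ, hψ⟩ := h6 E (fun i => z i.succ) fun i => hz _
      refine ⟨AdjoinRoot.liftAlgHom _ ψ (z 0) ?_, fun i => Fin.cases ?_ (fun i => ?_) i⟩
      · rw [Polynomial.eval₂_map, AlgHom.comp_algebraMap]
        exact hz 0
      · exact AdjoinRoot.liftAlgHom_root _ _ _ _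
      · exact (AdjoinRoot.liftAlgHom_of _ _ _ _ _).trans (hψ i)

/-- `T` is a complete intersection of dimension `d` over `V`. -/
def IsCI (V : Type u) [CommRing V] (T : Type u) [CommRing T] (d : ℕ) : Prop :=
  ∃ (σ : Type) (_ : Fintype σ) (κ : ℕ) (Φ : MvPowerSeries σ V →+* T)
    (f : Fin κ → MvPowerSeries σ V), Function.Surjective Φ ∧
      RingHom.ker Φ = Ideal.span (Set.range f) ∧ Fintype.card σ + 1 = d + κ

/-- Finitely many elements of the maximal ideal can be made images of variables. -/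
theorem IsCI.exists_vars {V : Type u} [CommRing V] [IsLocalRing V] [IsNoetherianRing V]
    [IsAdicComplete (maximalIdeal V) V] {T : Type u} [CommRing T] [IsLocalRing T] {d : ℕ}
    (h : IsCI V T d) {ι : Type} [Finite ι] (a : ι → T) (ha : ∀ i, a i ∈ maximalIdeal T) :
    ∃ (σ : Type) (_ : Fintype σ) (κ : ℕ) (Φ : MvPowerSeries σ V →+* T)
      (f : Fin κ → MvPowerSeries σ V) (v : ι → σ), Function.Surjective Φ ∧
      RingHom.ker Φ = Ideal.span (Set.range f) ∧ Fintype.card σ + 1 = d + κ ∧
      ∀ i, Φ (MvPowerSeries.X (v i)) = a i := by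
  obtain ⟨σ, _, κ, Φ, f, hs, hk, hc⟩ := h
  have := Fintype.ofFinite ι
  choose b hb using fun i => hs (a i)
  have hbm : ∀ i, b i ∈ maximalIdeal (MvPowerSeries σ V) := fun i hu => ha i (hb i ▸ hu.map Φ)
  have hX : ∀ {τ : Type} [Finite τ] (i : τ),
      (MvPowerSeries.X i : MvPowerSeries τ V) ∈ maximalIdeal _ := fun i => by
    rw [maximalIdeal_mvPowerSeries]
    exact Ideal.mem_sup_right (Ideal.subset_span ⟨i, rfl⟩)
  have h1 := isAdicComplete_mvPowerSeries (σ := σ) (V := V)
  have h2 := isAdicComplete_mvPowerSeries (σ := σ ⊕ ι) (V := V)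
  obtain ⟨r, hrC, hrX⟩ := exists_evalHom (σ := σ ⊕ ι) (S := MvPowerSeries σ V) MvPowerSeries.C
    (Sum.elim MvPowerSeries.X b) (by rintro (i | i); exacts [hX i, hbm i])
  obtain ⟨j, hjC, hjX⟩ := exists_evalHom (σ := σ) (S := MvPowerSeries (σ ⊕ ι) V) MvPowerSeries.C
    (fun i => MvPowerSeries.X (Sum.inl i)) fun i => hX _
  have hrj : ∀ x, r (j x) = x := by
    have h3 := evalHom_ext (r.comp j) (RingHom.id _)
      (by rw [RingHom.comp_assoc, hjC, hrC, RingHom.id_comp])
      (fun i => by rw [RingHom.comp_apply, hjX, hrX]; rfl)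
      (fun i => by rw [RingHom.comp_apply, hjX, hrX]; exact hX i)
    exact RingHom.congr_fun h3
  let f' : Fin κ ⊕ ι → MvPowerSeries (σ ⊕ ι) V :=
    Sum.elim (fun i => j (f i)) fun i => MvPowerSeries.X (Sum.inr i) - j (b i)
  let e : Fin κ ⊕ ι ≃ Fin (κ + Fintype.card ι) :=
    (Equiv.sumCongr (Equiv.refl _) (Fintype.equivFin ι)).trans finSumFinEquiv
  have hle : Ideal.span (Set.range f') ≤ RingHom.ker (Φ.comp r) := by
    refine Ideal.span_le.2 ?_
    rintro _ ⟨i | i, rfl⟩
    · change Φ (r (j (f i))) = 0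
      rw [hrj, ← RingHom.mem_ker, hk]
      exact Ideal.subset_span ⟨i, rfl⟩
    · change Φ (r (MvPowerSeries.X (Sum.inr i) - j (b i))) = 0
      rw [map_sub, hrj, hrX, Sum.elim_inr, sub_self, map_zero]
  refine ⟨σ ⊕ ι, inferInstance, κ + Fintype.card ι, Φ.comp r, f' ∘ e.symm, Sum.inr,
    fun t => ?_, ?_, ?_, fun i => ?_⟩
  · obtain ⟨x, rfl⟩ := hs t
    exact ⟨j x, congrArg Φ (hrj x)⟩
  · rw [e.symm.surjective.range_comp]
    refine le_antisymm (fun x hx => ?_) hle
    have hnt : Nontrivial (MvPowerSeries (σ ⊕ ι) V ⧸ Ideal.span (Set.range f')) :=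
      Ideal.Quotient.nontrivial_iff.2 (ne_top_of_le_ne_top (RingHom.ker_ne_top _) hle)
    have hl := IsLocalRing.of_surjective' (Ideal.Quotient.mk (Ideal.span (Set.range f')))
      Ideal.Quotient.mk_surjective
    have h3 := evalHom_ext (Ideal.Quotient.mk (Ideal.span (Set.range f')))
      ((Ideal.Quotient.mk (Ideal.span (Set.range f'))).comp (j.comp r))
      (by rw [RingHom.comp_assoc, RingHom.comp_assoc, hrC, hjC])
      (by
        rintro (i | i)
        · rw [RingHom.comp_apply, RingHom.comp_apply, hrX, Sum.elim_inl, hjX]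
        · rw [RingHom.comp_apply, RingHom.comp_apply, hrX, Sum.elim_inr, Ideal.Quotient.eq]
          exact Ideal.subset_span ⟨Sum.inr i, rfl⟩)
      (fun i => by
        rw [← map_maximalIdeal_of_surjective (Ideal.Quotient.mk _) Ideal.Quotient.mk_surjective]
        exact Ideal.mem_map_of_mem _ (hX i))
    have h4 : r x ∈ Ideal.span (Set.range f) := hk ▸ hx
    have h5 := Ideal.mem_map_of_mem j h4
    rw [Ideal.map_span] at h5
    rw [← Ideal.Quotient.eq_zero_iff_mem, RingHom.congr_fun h3 x, RingHom.comp_apply,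
      Ideal.Quotient.eq_zero_iff_mem]
    refine Ideal.span_mono ?_ h5
    rintro _ ⟨_, ⟨i, rfl⟩, rfl⟩
    exact ⟨Sum.inl i, rfl⟩
  · rw [Fintype.card_sum]
    omega
  · rw [RingHom.comp_apply, hrX, Sum.elim_inr, hb]

end Vale.Agent.P202
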